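import Vale.Agent.P202C.Blk

/-!
P202 in characteristic p: acyclicity at `-∞` (section III, helper28).
-/

set_option autoImplicit false

namespace Vale.Agent.P202C

open IsLocalRing TensorProduct

universe u v w

section PU

variable (𝔽 : Type w) [Field 𝔽] {n : ℕ}

/-- the ring of the chart `τ` -/
def conO (τ : Fin n → Fin 3) : Subring (Lau 𝔽 n) where
  carrier := {f | ∃ s, inBlk 𝔽 0 τ s f}
  mul_mem' := by
    rintro f g ⟨s, hf⟩ ⟨s', hg⟩
    have := inBlk_mul 𝔽 0 0 τ s s' hf hg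
    rw [add_zero] at this
    exact ⟨_, this⟩
  one_mem' := ⟨0, inBlk_single 𝔽 ⟨le_rfl, fun l _ => le_of_eq (zero_add _).symm,
    fun l _ => le_rfl⟩ 1⟩
  add_mem' := by
    rintro f g ⟨s, hf⟩ ⟨s', hg⟩
    exact ⟨min s s', inBlk_add 𝔽 0 τ _ (inBlk_anti 𝔽 0 τ s _ (min_le_left _ _) hf)
      (inBlk_anti 𝔽 0 τ s' _ (min_le_right _ _) hg)⟩
  zero_mem' := ⟨0, inBlk_zero 𝔽 0 τ 0⟩
  neg_mem' := by
    rintro f ⟨s, hf⟩
    exact ⟨s, inBlk_neg 𝔽 hf⟩

/-- `z_l` -/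
noncomputable def conZ (l : Fin n) : Lau 𝔽 n := AddMonoidAlgebra.single (indE {l}, (0 : ℤ)) (1 : 𝔽)

/-- `z_l⁻¹` -/
noncomputable def conZi (l : Fin n) : Lau 𝔽 n :=
  AddMonoidAlgebra.single (-indE {l}, (0 : ℤ)) (1 : 𝔽)

theorem conZ_mul (l : Fin n) : conZ 𝔽 l * conZi 𝔽 l = 1 := by
  unfold conZ conZi
  rw [AddMonoidAlgebra.single_mul_single, one_mul, AddMonoidAlgebra.one_def]
  congr 1
  ext
  · simp
  · simp

theorem conZ_mem {τ : Fin n → Fin 3} {l : Fin n} (h : ¬ τ l = 0) : conZ 𝔽 l ∈ conO 𝔽 τ := by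
  refine ⟨0, inBlk_single 𝔽 ⟨le_rfl, fun l' h' => ?_, fun l' h' => ?_⟩ 1⟩
  · have hne : l' ≠ l := fun he => h (he ▸ h')
    simp [indE, hne]
  · show 0 ≤ indE {l} l'
    unfold indE
    split_ifs <;> norm_num

theorem conZi_mem {τ : Fin n → Fin 3} {l : Fin n} (h : τ l = 0) : conZi 𝔽 l ∈ conO 𝔽 τ := by
  refine ⟨0, inBlk_single 𝔽 ⟨le_rfl, fun l' h' => ?_, fun l' h' => ?_⟩ 1⟩
  · show (-indE {l}) l' ≤ 0 + 0
    rw [Pi.neg_apply]
    unfold indE
    split_ifs <;> norm_num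
  · have hne : l' ≠ l := fun he => by
      rw [he, h] at h'
      exact absurd h' (by decide)
    show 0 ≤ (-indE {l}) l'
    rw [Pi.neg_apply]
    simp [indE, hne]

open Classical in
/-- the factor `z_l⁻¹ + X` or `1 + z_l X` -/
noncomputable def conP (τ : Fin n → Fin 3) (l : Fin n) : Polynomial (conO 𝔽 τ) :=
  if h : τ l = 0 then Polynomial.C ⟨conZi 𝔽 l, conZi_mem 𝔽 h⟩ + Polynomial.X
  else 1 + Polynomial.C ⟨conZ 𝔽 l, conZ_mem 𝔽 h⟩ * Polynomial.X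

/-- the product of the factors -/
noncomputable def conPP (τ : Fin n → Fin 3) : Polynomial (conO 𝔽 τ) := ∏ l, conP 𝔽 τ l

theorem conP_natDegree (τ : Fin n → Fin 3) (l : Fin n) : (conP 𝔽 τ l).natDegree ≤ 1 := by
  unfold conP
  split_ifs with h
  · refine (Polynomial.natDegree_add_le _ _).trans (max_le ?_ ?_)
    · rw [Polynomial.natDegree_C]
      exact Nat.zero_le _
    · exact Polynomial.natDegree_X_le
  · refine (Polynomial.natDegree_add_le _ _).trans (max_le ?_ ?_)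
    · rw [Polynomial.natDegree_one]
      exact Nat.zero_le _
    · exact (Polynomial.natDegree_C_mul_le _ _).trans Polynomial.natDegree_X_le

theorem conPP_natDegree (τ : Fin n → Fin 3) : (conPP 𝔽 τ).natDegree ≤ n := by
  unfold conPP
  refine (Polynomial.natDegree_prod_le _ _).trans ?_
  refine (Finset.sum_le_sum fun l _ => conP_natDegree 𝔽 τ l).trans ?_
  simp

theorem con_prod_zero {O : Type*} [CommRing O] (m : Ideal O) [m.IsPrime] {n : ℕ}
    (P : Fin n → Polynomial O) (hz : (∏ i, P i).map (Ideal.Quotient.mk m) = 0) :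
    ∃ i, (P i).map (Ideal.Quotient.mk m) = 0 := by
  have hd : IsDomain (O ⧸ m) := Ideal.Quotient.isDomain m
  rw [Polynomial.map_prod] at hz
  obtain ⟨i, -, hi⟩ := (Finset.prod_eq_zero_iff (s := Finset.univ)
    (f := fun i => Polynomial.map (Ideal.Quotient.mk m) (P i))).1 hz
  exact ⟨i, hi⟩

theorem conPP_span (τ : Fin n → Fin 3) :
    Ideal.span (Set.range (fun j : Fin (n + 1) => (conPP 𝔽 τ).coeff j.val)) = ⊤ := by
  classical
  by_contra hne
  obtain ⟨m, hm, hle⟩ := Ideal.exists_le_maximal _ hne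
  have hz : (conPP 𝔽 τ).map (Ideal.Quotient.mk m) = 0 := by
    ext k
    rw [Polynomial.coeff_map, Polynomial.coeff_zero]
    by_cases hk : k < n + 1
    · exact Ideal.Quotient.eq_zero_iff_mem.2 (hle (Ideal.subset_span ⟨⟨k, hk⟩, rfl⟩))
    · rw [Polynomial.coeff_eq_zero_of_natDegree_lt
        (lt_of_le_of_lt (conPP_natDegree 𝔽 τ) (by omega)), map_zero]
  have : (m : Ideal (conO 𝔽 τ)).IsPrime := hm.isPrime
  obtain ⟨l, hl⟩ := con_prod_zero m _ hz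
  unfold conP at hl
  by_cases h : τ l = 0
  · rw [dif_pos h] at hl
    have h1 := congrArg (fun P => Polynomial.coeff P 1) hl
    simp [Polynomial.coeff_X, Polynomial.coeff_C] at h1
  · rw [dif_neg h] at hl
    have h1 := congrArg (fun P => Polynomial.coeff P 0) hl
    simp at h1

theorem conZ_prod (E : Finset (Fin n)) :
    ∏ l ∈ E, conZ 𝔽 l = AddMonoidAlgebra.single (indE E, (0 : ℤ)) (1 : 𝔽) := by
  classical
  induction E using Finset.induction_on with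
  | empty =>
    rw [Finset.prod_empty, AddMonoidAlgebra.one_def]
    congr 1
  | insert a E ha ih =>
    rw [Finset.prod_insert ha, ih]
    unfold conZ
    rw [AddMonoidAlgebra.single_mul_single, one_mul]
    congr 1
    ext l
    · simp only [Prod.fst_add, Pi.add_apply, indE, Finset.mem_singleton, Finset.mem_insert]
      by_cases h1 : l = a
      · subst h1
        simp [ha]
      · simp [h1]
    · simp

/-- `T` -/
noncomputable def conT : Lau 𝔽 n := AddMonoidAlgebra.single (0, (1 : ℤ)) (1 : 𝔽)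

theorem elemE_eq (j : Fin (n + 1)) :
    elemE 𝔽 n j = conT 𝔽 * (∏ l, (1 + Polynomial.C (conZ 𝔽 l) * Polynomial.X)).coeff j.val := by
  classical
  rw [Finset.prod_one_add, Polynomial.finsetSum_coeff]
  have h1 : ∀ E : Finset (Fin n),
      (∏ l ∈ E, (Polynomial.C (conZ 𝔽 l) * Polynomial.X)).coeff j.val =
        if E.card = j.val then AddMonoidAlgebra.single (indE E, (0 : ℤ)) (1 : 𝔽) else 0 := by
    intro E
    rw [Finset.prod_mul_distrib, Finset.prod_const, ← map_prod, conZ_prod,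
      Polynomial.coeff_C_mul_X_pow]
    split_ifs with h2 h3 h3
    · rfl
    · exact absurd h2.symm h3
    · exact absurd h3.symm h2
    · rfl
  rw [Finset.sum_congr rfl (fun E _ => h1 E), ← Finset.sum_filter]
  unfold elemE
  rw [Finset.mul_sum]
  have h2 : (Finset.univ : Finset (Fin n)).powersetCard j.val =
      Finset.univ.powerset.filter (fun E => E.card = j.val) := by
    ext E
    simp
  rw [h2]
  refine Finset.sum_congr rfl fun E _ => ?_
  unfold conT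
  rw [AddMonoidAlgebra.single_mul_single, one_mul]
  congr 1
  ext
  · simp
  · simp

/-- the invertible monomial of the chart `τ` -/
noncomputable def conG (τ : Fin n → Fin 3) : Lau 𝔽 n :=
  AddMonoidAlgebra.single (indE (Finset.univ.filter fun l => τ l = 0), (1 : ℤ)) (1 : 𝔽)

/-- its inverse -/
noncomputable def conGi (τ : Fin n → Fin 3) : Lau 𝔽 n :=
  AddMonoidAlgebra.single (-indE (Finset.univ.filter fun l => τ l = 0), (-1 : ℤ)) (1 : 𝔽)

theorem conG_mul (τ : Fin n → Fin 3) : conGi 𝔽 τ * conG 𝔽 τ = 1 := by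
  unfold conG conGi
  rw [AddMonoidAlgebra.single_mul_single, one_mul, AddMonoidAlgebra.one_def]
  congr 1
  ext
  · simp
  · simp

theorem conGi_mem (τ : Fin n → Fin 3) : conGi 𝔽 τ ∈ conO 𝔽 τ := by
  refine ⟨-1, inBlk_single 𝔽 ⟨le_rfl, fun l h => ?_, fun l h => ?_⟩ 1⟩
  · show (-indE (Finset.univ.filter fun l => τ l = 0)) l ≤ 0 + (-1)
    rw [Pi.neg_apply]
    simp [indE, h]
  · show 0 ≤ (-indE (Finset.univ.filter fun l => τ l = 0)) l
    rw [Pi.neg_apply]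
    simp [indE, h]

theorem conP_map (τ : Fin n → Fin 3) (l : Fin n) :
    Polynomial.C (if τ l = 0 then conZ 𝔽 l else 1) *
      (conP 𝔽 τ l).map (conO 𝔽 τ).subtype = 1 + Polynomial.C (conZ 𝔽 l) * Polynomial.X := by
  unfold conP
  by_cases h : τ l = 0
  · rw [dif_pos h, if_pos h, Polynomial.map_add, Polynomial.map_C, Polynomial.map_X, mul_add,
      ← Polynomial.C_mul]
    show Polynomial.C (conZ 𝔽 l * conZi 𝔽 l) + _ = _
    rw [conZ_mul, Polynomial.C_1]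
  · rw [dif_neg h, if_neg h, Polynomial.map_add, Polynomial.map_one, Polynomial.map_mul,
      Polynomial.map_C, Polynomial.map_X, Polynomial.C_1, one_mul]
    rfl

theorem elemE_eq_conG (τ : Fin n → Fin 3) (j : Fin (n + 1)) :
    elemE 𝔽 n j = conG 𝔽 τ * ((conPP 𝔽 τ).coeff j.val : conO 𝔽 τ) := by
  classical
  have h1 : ∏ l, (1 + Polynomial.C (conZ 𝔽 l) * Polynomial.X) =
      Polynomial.C (AddMonoidAlgebra.single (indE (Finset.univ.filter fun l => τ l = 0), (0 : ℤ))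
        (1 : 𝔽)) * (conPP 𝔽 τ).map (conO 𝔽 τ).subtype := by
    rw [Finset.prod_congr rfl (fun l _ => (conP_map 𝔽 τ l).symm), Finset.prod_mul_distrib,
      ← conZ_prod, ← map_prod, Finset.prod_filter]
    congr 1
    unfold conPP
    rw [Polynomial.map_prod]
  rw [elemE_eq, h1, Polynomial.coeff_C_mul, Polynomial.coeff_map, ← mul_assoc]
  congr 1
  unfold conT conG
  rw [AddMonoidAlgebra.single_mul_single, one_mul]
  congr 1
  ext
  · simp
  · simp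

theorem con_pu_tau (N : ℕ) (τ : Fin n → Fin 3) : ∃ (M : ℕ) (c : Fin (n + 1) → Lau 𝔽 n),
    (∀ j, inBlk 𝔽 0 τ (-(M : ℤ)) (c j)) ∧ ∑ j, elemE 𝔽 n j ^ N * c j = 1 := by
  classical
  have h1 := Ideal.span_pow_eq_top _ (conPP_span 𝔽 τ) N
  have h2 : (1 : conO 𝔽 τ) ∈ Ideal.span
      (Set.range (fun j : Fin (n + 1) => (conPP 𝔽 τ).coeff j.val ^ N)) := by
    have h3 : (fun x : conO 𝔽 τ => x ^ N) ''
        Set.range (fun j : Fin (n + 1) => (conPP 𝔽 τ).coeff j.val) =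
        Set.range (fun j : Fin (n + 1) => (conPP 𝔽 τ).coeff j.val ^ N) := by
      rw [← Set.range_comp]
      rfl
    rw [← h3, h1]
    exact Submodule.mem_top
  obtain ⟨c, hc⟩ := Ideal.mem_span_range_iff_exists_fun.1 h2
  have hmem : ∀ j, (c j : Lau 𝔽 n) * conGi 𝔽 τ ^ N ∈ conO 𝔽 τ := fun j =>
    (conO 𝔽 τ).mul_mem (c j).2 ((conO 𝔽 τ).pow_mem (conGi_mem 𝔽 τ) N)
  choose s hs using hmem
  refine ⟨∑ j, (s j).natAbs, fun j => (c j : Lau 𝔽 n) * conGi 𝔽 τ ^ N, fun j => ?_, ?_⟩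
  · refine inBlk_anti 𝔽 0 τ (s j) _ ?_ (hs j)
    have h4 : (s j).natAbs ≤ ∑ j, (s j).natAbs :=
      Finset.single_le_sum (f := fun j => (s j).natAbs) (fun _ _ => Nat.zero_le _)
        (Finset.mem_univ j)
    omega
  · have h5 : ∀ j : Fin (n + 1), elemE 𝔽 n j ^ N * ((c j : Lau 𝔽 n) * conGi 𝔽 τ ^ N) =
        (c j : Lau 𝔽 n) * ((conPP 𝔽 τ).coeff j.val : conO 𝔽 τ) ^ N := by
      intro j
      rw [elemE_eq_conG 𝔽 τ j, mul_pow]
      have h6 : conGi 𝔽 τ ^ N * conG 𝔽 τ ^ N = 1 := by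
        rw [← mul_pow, conG_mul, one_pow]
      calc conG 𝔽 τ ^ N * (((conPP 𝔽 τ).coeff j.val : conO 𝔽 τ) : Lau 𝔽 n) ^ N *
            ((c j : Lau 𝔽 n) * conGi 𝔽 τ ^ N)
          = (conGi 𝔽 τ ^ N * conG 𝔽 τ ^ N) *
            ((c j : Lau 𝔽 n) * (((conPP 𝔽 τ).coeff j.val : conO 𝔽 τ) : Lau 𝔽 n) ^ N) := by ring
        _ = _ := by rw [h6, one_mul]
    rw [Finset.sum_congr rfl (fun j _ => h5 j)]
    have h7 := congrArg (fun x : conO 𝔽 τ => (x : Lau 𝔽 n)) hc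
    simpa using h7

/-- partition of unity -/
theorem con_pu (N : ℕ) : ∃ (M : ℕ) (c : Fin (n + 1) → (Fin n → Fin 3) → Lau 𝔽 n),
    (∀ j τ, inBlk 𝔽 0 τ (-(M : ℤ)) (c j τ)) ∧
      ∀ τ, ∑ j, elemE 𝔽 n j ^ N * c j τ = 1 := by
  classical
  choose M c h1 h2 using con_pu_tau 𝔽 (n := n) N
  refine ⟨∑ τ, M τ, fun j τ => c τ j, fun j τ => ?_, fun τ => h2 τ⟩
  refine inBlk_anti 𝔽 0 τ (-(M τ : ℤ)) _ ?_ (h1 τ j)
  have h4 : M τ ≤ ∑ τ, M τ :=
    Finset.single_le_sum (f := fun τ => M τ) (fun _ _ => Nat.zero_le _) (Finset.mem_univ τ)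
  omega

/-- multiplication by a family -/
noncomputable def conMul (c : (Fin n → Fin 3) → Lau 𝔽 n) : XA 𝔽 n →ₗ[PolyA 𝔽 n] XA 𝔽 n where
  toFun f := fun τ => c τ * f τ
  map_add' := fun f g => by
    funext τ
    rw [Pi.add_apply, Pi.add_apply, mul_add]
  map_smul' := fun a f => by
    funext τ
    rw [RingHom.id_apply, XA_smul_apply, XA_smul_apply]
    ring

theorem conMul_gr (c : (Fin n → Fin 3) → Lau 𝔽 n) (k : ℤ) :
    grA 𝔽 n k ≤ (grA 𝔽 n k).comap (conMul 𝔽 c) := by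
  intro f hf τ hτ
  show c τ * f τ = 0
  rw [hf τ hτ, mul_zero]

theorem conMul_F (c : (Fin n → Fin 3) → Lau 𝔽 n) (M : ℤ) (hc : ∀ τ, inBlk 𝔽 0 τ (-M) (c τ))
    (b : Fin n → ℤ) (s : ℤ) : FA 𝔽 b s ≤ (FA 𝔽 b (s - M)).comap (conMul 𝔽 c) := by
  intro f hf τ
  have h := inBlk_mul 𝔽 0 b τ (-M) s (hc τ) (hf τ)
  rw [zero_add, neg_add_eq_sub] at h
  exact h

end PU

/-- base change of a map between submodules -/
theorem con_baseChange {A : Type w} [CommRing A] {X : Type v} [AddCommGroup X] [Module A X]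
    (R : Type u) [CommRing R] [Algebra A R] {p q : Submodule A X} {f : X →ₗ[A] X}
    (h : p ≤ q.comap f) : p.baseChange R ≤ (q.baseChange R).comap (f.baseChange R) := by
  intro z hz
  rw [Submodule.baseChange_eq_span (A := R) (p := p)] at hz
  refine (Submodule.span_le (p := (q.baseChange R).comap (f.baseChange R))).mpr ?_ hz
  rintro _ ⟨x, hx, rfl⟩
  exact Submodule.tmul_mem_baseChange_of_mem (A := R) 1 (h hx)

/-- the abstract perturbation argument -/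
theorem con_perturb {R : Type u} [CommRing R] {Z : Type v} [AddCommGroup Z] [Module R Z]
    (T H : Z →ₗ[R] Z) (hT : ∀ x, T (T x) = 0) (D : ℕ)
    (P : ℕ → ℤ → Submodule R Z)
    (hH : ∀ m j x, x ∈ P m j → H x ∈ P (m + 1) (j + 1))
    (hTP : ∀ m j x, x ∈ P m j → T x ∈ P (m + 1) (j - 1))
    (hP : ∀ m j, P m j ≤ P (m + 1) j)
    (hnil : ∀ x, ((fun y => y - (T (H y) + H (T y)))^[D + 1]) x = 0)
    (j : ℤ) (x : Z) (hx : x ∈ P 0 j) (hTx : T x = 0) :
    ∃ w ∈ P (2 * D + 1) (j + 1), T w = x := by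
  set E : Z → Z := fun y => y - (T (H y) + H (T y)) with hE
  have hTE : ∀ y, T (E y) = E (T y) := by
    intro y
    simp only [hE, map_sub, map_add, hT, zero_add, map_zero, add_zero]
  have hTit : ∀ m, T (E^[m] x) = 0 := by
    intro m
    induction m with
    | zero => exact hTx
    | succ m ih =>
      rw [Function.iterate_succ_apply', hTE, ih]
      simp [hE]
  have hmem : ∀ m, E^[m] x ∈ P (2 * m) j := by
    intro m
    induction m with
    | zero => exact hx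
    | succ m ih =>
      rw [Function.iterate_succ_apply']
      set y := E^[m] x with hy
      have h1 : T (H y) ∈ P (2 * m + 1 + 1) j := by
        have := hTP (2 * m + 1) (j + 1) (H y) (hH (2 * m) j y ih)
        rwa [add_sub_cancel_right] at this
      have h2 : H (T y) ∈ P (2 * m + 1 + 1) j := by
        have := hH (2 * m + 1) (j - 1) (T y) (hTP (2 * m) j y ih)
        rwa [sub_add_cancel] at this
      have h3 : 2 * (m + 1) = 2 * m + 1 + 1 := by ring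
      rw [h3]
      exact Submodule.sub_mem _ (hP _ j (hP _ j ih)) (Submodule.add_mem _ h1 h2)
  have hPle : ∀ m m' : ℕ, m ≤ m' → P m j ≤ P m' j := by
    intro m m' h
    induction m', h using Nat.le_induction with
    | base => exact le_rfl
    | succ m' _ ih => exact ih.trans (hP m' j)
  refine ⟨H (∑ m ∈ Finset.range (D + 1), E^[m] x), hH (2 * D) j _ ?_, ?_⟩
  · refine Submodule.sum_mem _ fun m hm => ?_
    exact hPle (2 * m) (2 * D) (by rw [Finset.mem_range] at hm; omega) (hmem m)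
  · have h3 : ∀ m, T (H (E^[m] x)) = E^[m] x - E^[m + 1] x := by
      intro m
      rw [Function.iterate_succ_apply']
      have h4 : E (E^[m] x) = E^[m] x - (T (H (E^[m] x)) + H (T (E^[m] x))) := rfl
      rw [h4, hTit, map_zero, add_zero, sub_sub_cancel]
    rw [map_sum, map_sum, Finset.sum_congr rfl (fun m _ => h3 m),
      Finset.sum_range_sub' (fun m => E^[m] x), hnil, sub_zero]
    rfl

theorem con_F_mono {R : Type u} [CommRing R] {X : Type v} [AddCommGroup X] [Module R X]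
    (C : FiltCx R X) {s s' : ℤ} (h : s ≤ s') : C.F s' ≤ C.F s := by
  obtain ⟨m, rfl⟩ := Int.le.dest h
  induction m with
  | zero => simp
  | succ m ih =>
    have h1 := C.F_anti (s + m)
    have h2 : s + ((m + 1 : ℕ) : ℤ) = s + m + 1 := by push_cast; ring
    rw [h2]
    exact h1.trans (ih (by omega))

theorem con_sgn_succ (i : ℤ) : sgn (i + 1) = - sgn i := by
  unfold sgn
  by_cases h : Even i
  · rw [if_pos h, if_neg (by rw [Int.even_add_one]; exact fun h' => h' h)]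
  · rw [if_neg h, if_pos (by rw [Int.even_add_one]; exact h), neg_neg]

theorem con_sgn_mul (i : ℤ) : sgn i * sgn i = 1 := by
  unfold sgn
  split_ifs <;> norm_num

/-- the total differential squares to zero -/
theorem con_totd {R : Type u} [CommRing R] {ι : Type} [Fintype ι] (G : FCx R ι)
    {X : Type v} [AddCommGroup X] [Module R X] (C : FiltCx R X) (x : ι → X) :
    totd G C (totd G C x) = 0 := by
  funext a
  show (∑ b, G.mat a b • ((∑ c, G.mat b c • x c) + sgn (G.deg b) • C.d (x b))) +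
    sgn (G.deg a) • C.d ((∑ b, G.mat a b • x b) + sgn (G.deg a) • C.d (x a)) = 0
  have h1 : ∑ b, G.mat a b • ∑ c, G.mat b c • x c = 0 := by
    have h2 : ∀ c, ∑ b, (G.mat a b * G.mat b c) • x c = 0 := by
      intro c
      rw [← Finset.sum_smul, ← Matrix.mul_apply, G.sq, Matrix.zero_apply, zero_smul]
    simp_rw [Finset.smul_sum, smul_smul]
    rw [Finset.sum_comm, Finset.sum_eq_zero fun c _ => h2 c]
  have h3 : ∀ b, G.mat a b • sgn (G.deg b) • C.d (x b) =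
      - (sgn (G.deg a) • G.mat a b • C.d (x b)) := by
    intro b
    by_cases h : G.mat a b = 0
    · rw [h, zero_smul, zero_smul, smul_zero, neg_zero]
    · rw [G.hdeg a b h, con_sgn_succ, neg_smul, smul_neg, smul_comm]
  simp_rw [smul_add, Finset.sum_add_distrib, h1, h3, Finset.sum_neg_distrib, map_add, map_sum,
    map_smul, map_zsmul, C.dd, smul_zero, add_zero, zero_add, Finset.smul_sum]
  exact neg_add_cancel _

section Con

variable (𝔽 : Type w) [Field 𝔽] {n : ℕ} (R : Type u) [CommRing R] [Algebra (PolyA 𝔽 n) R]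

/-- multiplication by a family, after base change -/
noncomputable def conMu (c : (Fin n → Fin 3) → Lau 𝔽 n) :
    (R ⊗[PolyA 𝔽 n] XA 𝔽 n) →ₗ[R] (R ⊗[PolyA 𝔽 n] XA 𝔽 n) := (conMul 𝔽 c).baseChange R

theorem conMu_sum (N : ℕ) (c : Fin (n + 1) → (Fin n → Fin 3) → Lau 𝔽 n)
    (hc : ∀ τ, ∑ j, elemE 𝔽 n j ^ N * c j τ = 1) (x : R ⊗[PolyA 𝔽 n] XA 𝔽 n) :
    ∑ j, yR 𝔽 R j ^ N • conMu 𝔽 R (c j) x = x := by
  induction x using TensorProduct.induction_on with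
  | zero => simp
  | add x y hx hy =>
    simp_rw [map_add, smul_add, Finset.sum_add_distrib]
    rw [hx, hy]
  | tmul r f =>
    have h1 : ∀ j : Fin (n + 1), yR 𝔽 R j ^ N • conMu 𝔽 R (c j) (r ⊗ₜ[PolyA 𝔽 n] f) =
        r ⊗ₜ[PolyA 𝔽 n] ((MvPolynomial.X j ^ N : PolyA 𝔽 n) • conMul 𝔽 (c j) f) := by
      intro j
      unfold conMu yR
      rw [LinearMap.baseChange_tmul, ← map_pow, algebraMap_smul, TensorProduct.tmul_smul]
    rw [Finset.sum_congr rfl (fun j _ => h1 j), ← TensorProduct.tmul_sum]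
    congr 1
    funext τ
    rw [Finset.sum_apply]
    have h2 : ∀ j : Fin (n + 1), ((MvPolynomial.X j ^ N : PolyA 𝔽 n) • conMul 𝔽 (c j) f) τ =
        (elemE 𝔽 n j ^ N * c j τ) * f τ := by
      intro j
      rw [XA_smul_apply]
      show toLau 𝔽 n _ * (c j τ * f τ) = _
      have h3 : toLau 𝔽 n (MvPolynomial.X j ^ N) = elemE 𝔽 n j ^ N := by
        rw [map_pow]
        congr 1
        unfold toLau
        rw [MvPolynomial.aeval_X]
      rw [h3, mul_assoc]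
    rw [Finset.sum_congr rfl (fun j _ => h2 j), ← Finset.sum_mul, hc τ, one_mul]

theorem conMu_gr (c : (Fin n → Fin 3) → Lau 𝔽 n) (b : Fin n → ℤ) (k : ℤ)
    (x : R ⊗[PolyA 𝔽 n] XA 𝔽 n) (hx : x ∈ (CR 𝔽 R b).gr k) :
    conMu 𝔽 R c x ∈ (CR 𝔽 R b).gr k :=
  con_baseChange R (conMul_gr 𝔽 c k) hx

theorem conMu_F (c : (Fin n → Fin 3) → Lau 𝔽 n) (M : ℤ) (hc : ∀ τ, inBlk 𝔽 0 τ (-M) (c τ))
    (b : Fin n → ℤ) (s : ℤ) (x : R ⊗[PolyA 𝔽 n] XA 𝔽 n) (hx : x ∈ (CR 𝔽 R b).F s) :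
    conMu 𝔽 R c x ∈ (CR 𝔽 R b).F (s - M) :=
  con_baseChange R (conMul_F 𝔽 c M hc b s) hx

variable {R}

/-- the homotopy -/
noncomputable def conH {ι : Type} [Fintype ι] (h : Fin (n + 1) → Matrix ι ι R)
    (c : Fin (n + 1) → (Fin n → Fin 3) → Lau 𝔽 n) :
    (ι → R ⊗[PolyA 𝔽 n] XA 𝔽 n) →ₗ[R] (ι → R ⊗[PolyA 𝔽 n] XA 𝔽 n) where
  toFun x := fun a => ∑ j, ∑ b, h j a b • conMu 𝔽 R (c j) (x b)
  map_add' := fun x y => by
    funext a
    simp only [Pi.add_apply, smul_add, Finset.sum_add_distrib, map_add]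
  map_smul' := fun r x => by
    funext a
    simp only [Pi.smul_apply, RingHom.id_apply, Finset.smul_sum, map_smul]
    refine Finset.sum_congr rfl fun j _ => Finset.sum_congr rfl fun b _ => ?_
    rw [smul_comm]

theorem conH_apply {ι : Type} [Fintype ι] (h : Fin (n + 1) → Matrix ι ι R)
    (c : Fin (n + 1) → (Fin n → Fin 3) → Lau 𝔽 n) (x : ι → R ⊗[PolyA 𝔽 n] XA 𝔽 n) (a : ι) :
    conH 𝔽 h c x a = ∑ j, ∑ b, h j a b • conMu 𝔽 R (c j) (x b) := rfl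

theorem conE_formula {ι : Type} [Fintype ι] [DecidableEq ι] (G : FCx R ι) (b : Fin n → ℤ)
    (N : ℕ) (h : Fin (n + 1) → Matrix ι ι R)
    (hh : ∀ j, G.mat * h j + h j * G.mat = (yR 𝔽 R j ^ N) • (1 : Matrix ι ι R))
    (c : Fin (n + 1) → (Fin n → Fin 3) → Lau 𝔽 n)
    (hc : ∀ τ, ∑ j, elemE 𝔽 n j ^ N * c j τ = 1) (x : ι → R ⊗[PolyA 𝔽 n] XA 𝔽 n) (a : ι) :
    (x - (totd G (CR 𝔽 R b) (conH 𝔽 h c x) + conH 𝔽 h c (totd G (CR 𝔽 R b) x))) a =
      - ∑ j, ∑ e, h j a e • (sgn (G.deg a) • (CR 𝔽 R b).d (conMu 𝔽 R (c j) (x e)) +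
        sgn (G.deg e) • conMu 𝔽 R (c j) ((CR 𝔽 R b).d (x e))) := by
  have h1 : totd G (CR 𝔽 R b) (conH 𝔽 h c x) a =
      (∑ j, ∑ e, (G.mat * h j) a e • conMu 𝔽 R (c j) (x e)) +
      ∑ j, ∑ e, h j a e • sgn (G.deg a) • (CR 𝔽 R b).d (conMu 𝔽 R (c j) (x e)) := by
    show (∑ e, G.mat a e • conH 𝔽 h c x e) + sgn (G.deg a) • (CR 𝔽 R b).d (conH 𝔽 h c x a) = _
    congr 1
    · simp_rw [conH_apply, Finset.smul_sum, smul_smul, Matrix.mul_apply, Finset.sum_smul]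
      rw [Finset.sum_comm]
      refine Finset.sum_congr rfl fun j _ => ?_
      rw [Finset.sum_comm]
    · rw [conH_apply, map_sum, Finset.smul_sum]
      refine Finset.sum_congr rfl fun j _ => ?_
      rw [map_sum, Finset.smul_sum]
      refine Finset.sum_congr rfl fun e _ => ?_
      rw [map_smul, smul_comm]
  have h2 : conH 𝔽 h c (totd G (CR 𝔽 R b) x) a =
      (∑ j, ∑ e, (h j * G.mat) a e • conMu 𝔽 R (c j) (x e)) +
      ∑ j, ∑ e, h j a e • sgn (G.deg e) • conMu 𝔽 R (c j) ((CR 𝔽 R b).d (x e)) := by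
    rw [conH_apply, ← Finset.sum_add_distrib]
    refine Finset.sum_congr rfl fun j _ => ?_
    have h3 : ∀ e, conMu 𝔽 R (c j) (totd G (CR 𝔽 R b) x e) =
        (∑ e', G.mat e e' • conMu 𝔽 R (c j) (x e')) +
          sgn (G.deg e) • conMu 𝔽 R (c j) ((CR 𝔽 R b).d (x e)) := by
      intro e
      show conMu 𝔽 R (c j) ((∑ e', G.mat e e' • x e') + sgn (G.deg e) • (CR 𝔽 R b).d (x e)) = _
      rw [map_add, map_sum, map_zsmul]
      congr 1
      exact Finset.sum_congr rfl fun e' _ => by rw [map_smul]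
    simp_rw [h3, smul_add, Finset.sum_add_distrib]
    congr 1
    simp_rw [Finset.smul_sum, smul_smul, Matrix.mul_apply, Finset.sum_smul]
    rw [Finset.sum_comm]
  have h4 : (∑ j, ∑ e, (G.mat * h j) a e • conMu 𝔽 R (c j) (x e)) +
      (∑ j, ∑ e, (h j * G.mat) a e • conMu 𝔽 R (c j) (x e)) = x a := by
    rw [← Finset.sum_add_distrib]
    have h5 : ∀ j : Fin (n + 1), (∑ e, (G.mat * h j) a e • conMu 𝔽 R (c j) (x e)) +
        (∑ e, (h j * G.mat) a e • conMu 𝔽 R (c j) (x e)) =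
        yR 𝔽 R j ^ N • conMu 𝔽 R (c j) (x a) := by
      intro j
      rw [← Finset.sum_add_distrib]
      have h6 : ∀ e, (G.mat * h j) a e • conMu 𝔽 R (c j) (x e) +
          (h j * G.mat) a e • conMu 𝔽 R (c j) (x e) =
          if a = e then yR 𝔽 R j ^ N • conMu 𝔽 R (c j) (x a) else 0 := by
        intro e
        rw [← add_smul, ← Matrix.add_apply, hh j, Matrix.smul_apply, Matrix.one_apply]
        split_ifs with h7
        · rw [h7, smul_eq_mul, mul_one]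
        · rw [smul_zero, zero_smul]
      rw [Finset.sum_congr rfl (fun e _ => h6 e), Finset.sum_ite_eq, if_pos (Finset.mem_univ _)]
    rw [Finset.sum_congr rfl (fun j _ => h5 j)]
    exact conMu_sum 𝔽 R N c hc (x a)
  rw [Pi.sub_apply, Pi.add_apply, h1, h2]
  have h8 : ∑ j, ∑ e, h j a e • (sgn (G.deg a) • (CR 𝔽 R b).d (conMu 𝔽 R (c j) (x e)) +
        sgn (G.deg e) • conMu 𝔽 R (c j) ((CR 𝔽 R b).d (x e))) =
      (∑ j, ∑ e, h j a e • sgn (G.deg a) • (CR 𝔽 R b).d (conMu 𝔽 R (c j) (x e))) +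
      ∑ j, ∑ e, h j a e • sgn (G.deg e) • conMu 𝔽 R (c j) ((CR 𝔽 R b).d (x e)) := by
    simp_rw [smul_add, Finset.sum_add_distrib]
  rw [h8]
  nth_rewrite 1 [← h4]
  abel

theorem con_nil {Z : Type v} [AddCommGroup Z] {ι : Type} (deg : ι → ℤ) (D : ℕ)
    (hdeg : ∀ a, 0 ≤ deg a ∧ deg a ≤ D) (E : (ι → Z) → (ι → Z))
    (hE : ∀ x a, (∀ b, deg a = deg b + 1 → x b = 0) → E x a = 0) (x : ι → Z) :
    E^[D + 1] x = 0 := by
  have h1 : ∀ (m : ℕ) a, deg a < m → (E^[m] x) a = 0 := by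
    intro m
    induction m with
    | zero =>
      intro a ha
      exact absurd (hdeg a).1 (not_le.mpr (by exact_mod_cast ha))
    | succ m ih =>
      intro a ha
      rw [Function.iterate_succ_apply']
      refine hE _ a fun b hb => ih b ?_
      push_cast at ha
      omega
  funext a
  refine h1 (D + 1) a ?_
  have := (hdeg a).2
  push_cast
  omega

/-- the contraction statement from a partition of unity -/
theorem con_CR_of_pu {ι : Type} [Fintype ι] [DecidableEq ι] (G : FCx R ι) (b : Fin n → ℤ) (Q : ℤ)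
    (hQ : 0 ≤ Q) (D : ℕ) (hdeg : ∀ a, 0 ≤ G.deg a ∧ G.deg a ≤ D) (N : ℕ)
    (hh : ∀ j : Fin (n + 1), ∃ h : Matrix ι ι R, (∀ a b, h a b ≠ 0 → G.deg a = G.deg b + 1) ∧
      G.mat * h + h * G.mat = (yR 𝔽 R j ^ N) • (1 : Matrix ι ι R))
    (M0 : ℕ) (c : Fin (n + 1) → (Fin n → Fin 3) → Lau 𝔽 n)
    (hc1 : ∀ j τ, inBlk 𝔽 0 τ (-(M0 : ℤ)) (c j τ))
    (hc2 : ∀ τ, ∑ j, elemE 𝔽 n j ^ N * c j τ = 1) (t j : ℤ)
    (x : ι → R ⊗[PolyA 𝔽 n] XA 𝔽 n) (hx : x ∈ fam G (CR 𝔽 R b) (fun i => t - i * Q) j)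
    (hTx : totd G (CR 𝔽 R b) x = 0) :
    ∃ w ∈ fam G (CR 𝔽 R b)
      (fun i => t - i * Q - (((2 * D + 1) * (M0 + Q.toNat) : ℕ) : ℤ)) (j + 1),
      totd G (CR 𝔽 R b) w = x := by
  choose h hh1 hh2 using hh
  have hQ' : ((Q.toNat : ℕ) : ℤ) = Q := Int.toNat_of_nonneg hQ
  set P : ℕ → ℤ → Submodule R (ι → R ⊗[PolyA 𝔽 n] XA 𝔽 n) :=
    fun m j => fam G (CR 𝔽 R b) (fun i => t - i * Q - m * (M0 + Q)) j with hPdef
  have hH : ∀ m j x, x ∈ P m j → conH 𝔽 h c x ∈ P (m + 1) (j + 1) := by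
    intro m j x hx a
    show conH 𝔽 h c x a ∈ _
    rw [conH_apply]
    refine Submodule.sum_mem _ fun i _ => Submodule.sum_mem _ fun e _ => ?_
    by_cases h0 : h i a e = 0
    · rw [h0, zero_smul]
      exact Submodule.zero_mem _
    · have hae := hh1 i a e h0
      refine Submodule.smul_mem _ _ ?_
      have h1 := hx e
      refine ⟨?_, ?_⟩
      · have h2 := conMu_gr 𝔽 R (c i) b (G.deg e - j) (x e) h1.1
        have h3 : G.deg a - (j + 1) = G.deg e - j := by rw [hae]; ring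
        rw [h3]
        exact h2
      · have h2 := conMu_F 𝔽 R (c i) M0 (hc1 i) b _ (x e) h1.2
        refine con_F_mono _ ?_ h2
        show t - G.deg a * Q - ((m + 1 : ℕ) : ℤ) * (M0 + Q) ≤
          t - G.deg e * Q - (m : ℤ) * (M0 + Q) - M0
        rw [hae]
        push_cast
        nlinarith
  have hTP : ∀ m j x, x ∈ P m j → totd G (CR 𝔽 R b) x ∈ P (m + 1) (j - 1) := by
    intro m j x hx a
    show (∑ e, G.mat a e • x e) + sgn (G.deg a) • (CR 𝔽 R b).d (x a) ∈ _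
    refine Submodule.add_mem _ (Submodule.sum_mem _ fun e _ => ?_) ?_
    · by_cases h0 : G.mat a e = 0
      · rw [h0, zero_smul]
        exact Submodule.zero_mem _
      · have hae := G.hdeg a e h0
        refine Submodule.smul_mem _ _ ?_
        have h1 := hx e
        refine ⟨?_, ?_⟩
        · have h3 : G.deg a - (j - 1) = G.deg e - j := by rw [hae]; ring
          rw [h3]
          exact h1.1
        · refine con_F_mono _ ?_ h1.2
          show t - G.deg a * Q - ((m + 1 : ℕ) : ℤ) * (M0 + Q) ≤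
            t - G.deg e * Q - (m : ℤ) * (M0 + Q)
          rw [hae]
          push_cast
          nlinarith
    · refine zsmul_mem ?_ _
      have h1 := hx a
      refine ⟨?_, ?_⟩
      · have h2 := (CR 𝔽 R b).d_gr _ _ h1.1
        have h3 : G.deg a - (j - 1) = G.deg a - j + 1 := by ring
        rw [h3]
        exact h2
      · refine con_F_mono _ ?_ ((CR 𝔽 R b).d_F _ _ h1.2)
        show t - G.deg a * Q - ((m + 1 : ℕ) : ℤ) * (M0 + Q) ≤
          t - G.deg a * Q - (m : ℤ) * (M0 + Q)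
        push_cast
        nlinarith
  have hP : ∀ m j, P m j ≤ P (m + 1) j := by
    intro m j x hx a
    have h1 := hx a
    refine ⟨h1.1, con_F_mono _ ?_ h1.2⟩
    show t - G.deg a * Q - ((m + 1 : ℕ) : ℤ) * (M0 + Q) ≤
      t - G.deg a * Q - (m : ℤ) * (M0 + Q)
    push_cast
    nlinarith
  have hnil : ∀ x, ((fun y => y - (totd G (CR 𝔽 R b) (conH 𝔽 h c y) +
      conH 𝔽 h c (totd G (CR 𝔽 R b) y)))^[D + 1]) x = 0 := by
    intro x
    refine con_nil G.deg D hdeg _ (fun x a hx => ?_) x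
    rw [conE_formula 𝔽 G b N h hh2 c hc2 x a]
    rw [Finset.sum_eq_zero, neg_zero]
    intro i _
    refine Finset.sum_eq_zero fun e _ => ?_
    by_cases h0 : h i a e = 0
    · rw [h0, zero_smul]
    · rw [hx e (hh1 i a e h0), map_zero, map_zero, map_zero, smul_zero, smul_zero,
        add_zero, smul_zero]
  have hx0 : x ∈ P 0 j := by
    intro a
    have h1 := hx a
    refine ⟨h1.1, con_F_mono _ (le_of_eq ?_) h1.2⟩
    show t - G.deg a * Q - ((0 : ℕ) : ℤ) * (M0 + Q) = t - G.deg a * Q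
    push_cast
    ring
  obtain ⟨w, hw, hw2⟩ := con_perturb (totd G (CR 𝔽 R b)) (conH 𝔽 h c)
    (con_totd G (CR 𝔽 R b)) D P hH hTP hP hnil j x hx0 hTx
  refine ⟨w, ?_, hw2⟩
  intro a
  have h1 := hw a
  refine ⟨h1.1, ?_⟩
  refine con_F_mono _ (le_of_eq ?_) h1.2
  show t - G.deg a * Q - (((2 * D + 1) * (M0 + Q.toNat) : ℕ) : ℤ) =
    t - G.deg a * Q - ((2 * D + 1 : ℕ) : ℤ) * (M0 + Q)
  push_cast
  rw [hQ']

/-- (III) if large powers of the `y_j` are null homotopic on `G` then cycles are boundaries after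
going to a lower filtration -/
theorem con_CR {ι : Type} [Fintype ι] [DecidableEq ι] (G : FCx R ι) (b : Fin n → ℤ) (Q : ℤ)
    (hQ : 0 ≤ Q) (D : ℕ) (hdeg : ∀ a, 0 ≤ G.deg a ∧ G.deg a ≤ D) (N : ℕ)
    (hh : ∀ j : Fin (n + 1), ∃ h : Matrix ι ι R, (∀ a b, h a b ≠ 0 → G.deg a = G.deg b + 1) ∧
      G.mat * h + h * G.mat = (yR 𝔽 R j ^ N) • (1 : Matrix ι ι R)) :
    ∃ M : ℕ, ∀ t j : ℤ, ∀ x ∈ fam G (CR 𝔽 R b) (fun i => t - i * Q) j,
      totd G (CR 𝔽 R b) x = 0 →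
      ∃ w ∈ fam G (CR 𝔽 R b) (fun i => t - i * Q - M) (j + 1), totd G (CR 𝔽 R b) w = x := by
  obtain ⟨M0, c, hc1, hc2⟩ := con_pu 𝔽 (n := n) N
  exact ⟨(2 * D + 1) * (M0 + Q.toNat), fun t j x hx hTx =>
    con_CR_of_pu 𝔽 G b Q hQ D hdeg N hh M0 c hc1 hc2 t j x hx hTx⟩

end Con

section Lin

variable (𝔽 : Type w) [Field 𝔽] {n : ℕ}

/-- the elements of nonnegative filtration of the chart `τ` -/
def conO0 (τ : Fin n → Fin 3) : Subring (Lau 𝔽 n) where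
  carrier := {f | inBlk 𝔽 0 τ 0 f}
  mul_mem' := by
    intro f g hf hg
    have := inBlk_mul 𝔽 0 0 τ 0 0 hf hg
    rwa [add_zero, add_zero] at this
  one_mem' := inBlk_single 𝔽 ⟨le_rfl, fun l _ => le_of_eq (zero_add _).symm,
    fun l _ => le_rfl⟩ 1
  add_mem' := fun hf hg => inBlk_add 𝔽 0 τ _ hf hg
  zero_mem' := inBlk_zero 𝔽 0 τ 0
  neg_mem' := fun hf => inBlk_neg 𝔽 hf

theorem conG_blk (τ : Fin n → Fin 3) : inBlk 𝔽 0 τ 1 (conG 𝔽 τ) := by
  refine inBlk_single 𝔽 ⟨le_rfl, fun l h => ?_, fun l h => ?_⟩ 1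
  · show (indE (Finset.univ.filter fun l => τ l = 0)) l ≤ 0 + 1
    simp [indE, h]
  · show 0 ≤ (indE (Finset.univ.filter fun l => τ l = 0)) l
    simp [indE, h]

theorem conGi_blk (τ : Fin n → Fin 3) : inBlk 𝔽 0 τ (-1) (conGi 𝔽 τ) := by
  refine inBlk_single 𝔽 ⟨le_rfl, fun l h => ?_, fun l h => ?_⟩ 1
  · show (-indE (Finset.univ.filter fun l => τ l = 0)) l ≤ 0 + (-1)
    rw [Pi.neg_apply]
    simp [indE, h]
  · show 0 ≤ (-indE (Finset.univ.filter fun l => τ l = 0)) l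
    rw [Pi.neg_apply]
    simp [indE, h]

theorem con_blk_one (τ : Fin n → Fin 3) : inBlk 𝔽 0 τ 0 (1 : Lau 𝔽 n) :=
  inBlk_single 𝔽 ⟨le_rfl, fun l _ => le_of_eq (zero_add _).symm, fun l _ => le_rfl⟩ 1

theorem con_blk_mul {τ : Fin n → Fin 3} {s s' s'' : ℤ} (hs : s'' ≤ s + s') {f g : Lau 𝔽 n}
    (hf : inBlk 𝔽 0 τ s f) (hg : inBlk 𝔽 0 τ s' g) : inBlk 𝔽 0 τ s'' (f * g) := by
  have := inBlk_mul 𝔽 0 0 τ s s' hf hg
  rw [add_zero] at this
  exact inBlk_anti 𝔽 0 τ _ _ hs this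

theorem con_blk_pow {τ : Fin n → Fin 3} {s : ℤ} {f : Lau 𝔽 n}
    (hf : inBlk 𝔽 0 τ s f) (k : ℕ) : inBlk 𝔽 0 τ (s * k) (f ^ k) := by
  induction k with
  | zero =>
    rw [pow_zero]
    simpa using con_blk_one 𝔽 τ
  | succ k ih =>
    rw [pow_succ]
    refine con_blk_mul 𝔽 (le_of_eq ?_) ih hf
    push_cast
    ring

theorem con_pu_tau_lin (τ : Fin n → Fin 3) : ∃ c0 : ℕ, ∀ N : ℕ,
    ∃ c : Fin (n + 1) → Lau 𝔽 n,
    (∀ j, inBlk 𝔽 0 τ (-((c0 * (N + 1) : ℕ) : ℤ)) (c j)) ∧ ∑ j, elemE 𝔽 n j ^ N * c j = 1 := by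
  classical
  obtain ⟨M1, c, hc1, hc2⟩ := con_pu_tau 𝔽 1 τ
  -- `G^M1 = ∑ g_j e_j` with `g_j`, `e_j` of nonnegative filtration
  set gg : Fin (n + 1) → Lau 𝔽 n := fun j => conGi 𝔽 τ * elemE 𝔽 n j with hgg
  have hgb : ∀ j, inBlk 𝔽 0 τ 0 (gg j) := fun j =>
    con_blk_mul 𝔽 (by norm_num) (conGi_blk 𝔽 τ) (inBlk_elemE 𝔽 τ j)
  set e : Fin (n + 1) → Lau 𝔽 n := fun j => conG 𝔽 τ * (c j * conG 𝔽 τ ^ M1) with he
  have heb : ∀ j, inBlk 𝔽 0 τ 0 (e j) := fun j =>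
    con_blk_mul 𝔽 (s := 1) (s' := 0) (by norm_num) (conG_blk 𝔽 τ)
      (con_blk_mul 𝔽 (by simp) (hc1 j) (con_blk_pow 𝔽 (conG_blk 𝔽 τ) M1))
  have hsum : ∑ j, gg j * e j = conG 𝔽 τ ^ M1 := by
    have h1 : ∀ j, gg j * e j = (elemE 𝔽 n j ^ 1 * c j) * conG 𝔽 τ ^ M1 := by
      intro j
      simp only [hgg, he]
      calc conGi 𝔽 τ * elemE 𝔽 n j * (conG 𝔽 τ * (c j * conG 𝔽 τ ^ M1))
          = (conGi 𝔽 τ * conG 𝔽 τ) * (elemE 𝔽 n j * (c j * conG 𝔽 τ ^ M1)) := by ring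
        _ = _ := by rw [conG_mul]; ring
    rw [Finset.sum_congr rfl (fun j _ => h1 j), ← Finset.sum_mul, hc2, one_mul]
  refine ⟨1 + M1 * (n + 1), fun N => ?_⟩
  set K : ℕ := (n + 1) * N + 1 with hK
  set a : Fin (n + 1) → conO0 𝔽 τ := fun j => ⟨gg j * e j, (conO0 𝔽 τ).mul_mem (hgb j) (heb j)⟩
    with ha
  have hmem := Ideal.sum_pow_mem_span_pow (Finset.univ : Finset (Fin (n + 1))) a N
  rw [Finset.coe_univ, Set.image_univ, Finset.card_univ, Fintype.card_fin] at hmem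
  obtain ⟨r, hr⟩ := Ideal.mem_span_range_iff_exists_fun.1 hmem
  have hr2 : ∑ j, (r j : Lau 𝔽 n) * (gg j * e j) ^ (N + 1) = conG 𝔽 τ ^ (M1 * K) := by
    have h1 := congrArg (fun x : conO0 𝔽 τ => (x : Lau 𝔽 n)) hr
    have h2 : ((∑ j, a j : conO0 𝔽 τ) : Lau 𝔽 n) = conG 𝔽 τ ^ M1 := by
      rw [AddSubmonoidClass.coe_finsetSum]
      exact hsum
    simp only [AddSubmonoidClass.coe_finsetSum, Subring.coe_mul, Subring.coe_pow] at h1
    rw [pow_mul]
    rw [← hsum]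
    exact h1
  refine ⟨fun j => elemE 𝔽 n j * (conGi 𝔽 τ ^ (N + 1) * ((r j : Lau 𝔽 n) *
    (e j ^ (N + 1) * conGi 𝔽 τ ^ (M1 * K)))), fun j => ?_, ?_⟩
  · refine con_blk_mul 𝔽 (s := 1) (s' := (-1) * ((N + 1 : ℕ) : ℤ) + (-1) * ((M1 * K : ℕ) : ℤ))
      ?_ (inBlk_elemE 𝔽 τ j) ?_
    · rw [hK]
      push_cast
      nlinarith
    · refine con_blk_mul 𝔽 le_rfl (con_blk_pow 𝔽 (conGi_blk 𝔽 τ) (N + 1)) ?_
      refine con_blk_mul 𝔽 (s := 0) (s' := (-1) * ((M1 * K : ℕ) : ℤ)) (by rw [zero_add])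
        (r j).2 ?_
      refine con_blk_mul 𝔽 (s := 0 * ((N + 1 : ℕ) : ℤ)) (s' := (-1) * ((M1 * K : ℕ) : ℤ))
        (by rw [zero_mul, zero_add]) (con_blk_pow 𝔽 (heb j) (N + 1))
        (con_blk_pow 𝔽 (conGi_blk 𝔽 τ) (M1 * K))
  · have h3 : ∀ j, elemE 𝔽 n j ^ N * (elemE 𝔽 n j * (conGi 𝔽 τ ^ (N + 1) * ((r j : Lau 𝔽 n) *
        (e j ^ (N + 1) * conGi 𝔽 τ ^ (M1 * K))))) =
        ((r j : Lau 𝔽 n) * (gg j * e j) ^ (N + 1)) * conGi 𝔽 τ ^ (M1 * K) := by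
      intro j
      simp only [hgg]
      rw [mul_pow, mul_pow]
      ring
    rw [Finset.sum_congr rfl (fun j _ => h3 j), ← Finset.sum_mul, hr2, ← mul_pow, mul_comm,
      conG_mul, one_pow]

/-- partition of unity with a linear bound -/
theorem con_pu_lin (n : ℕ) : ∃ c0 : ℕ, ∀ N : ℕ,
    ∃ c : Fin (n + 1) → (Fin n → Fin 3) → Lau 𝔽 n,
    (∀ j τ, inBlk 𝔽 0 τ (-((c0 * (N + 1) : ℕ) : ℤ)) (c j τ)) ∧
      ∀ τ, ∑ j, elemE 𝔽 n j ^ N * c j τ = 1 := by
  classical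
  choose c0 h using con_pu_tau_lin 𝔽 (n := n)
  refine ⟨∑ τ, c0 τ, fun N => ?_⟩
  choose c h1 h2 using fun τ => h τ N
  refine ⟨fun j τ => c τ j, fun j τ => ?_, fun τ => h2 τ⟩
  refine inBlk_anti 𝔽 0 τ _ _ ?_ (h1 τ j)
  have h4 : c0 τ ≤ ∑ τ, c0 τ :=
    Finset.single_le_sum (f := fun τ => c0 τ) (fun _ _ => Nat.zero_le _) (Finset.mem_univ τ)
  have h5 : c0 τ * (N + 1) ≤ (∑ τ, c0 τ) * (N + 1) := Nat.mul_le_mul_right _ h4
  exact neg_le_neg (by exact_mod_cast h5)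

/-- (III) with a linear and uniform bound -/
theorem con_CR_lin (n D : ℕ) : ∃ c0 : ℕ, ∀ (R : Type u) [CommRing R] [Algebra (PolyA 𝔽 n) R]
    (ι : Type) [Fintype ι] [DecidableEq ι] (G : FCx R ι) (b : Fin n → ℤ) (Q : ℤ)
    (_ : 0 ≤ Q) (_ : ∀ a, 0 ≤ G.deg a ∧ G.deg a ≤ D) (N : ℕ)
    (_ : ∀ j : Fin (n + 1), ∃ h : Matrix ι ι R, (∀ a b, h a b ≠ 0 → G.deg a = G.deg b + 1) ∧
      G.mat * h + h * G.mat = (yR 𝔽 R j ^ N) • (1 : Matrix ι ι R)),
    ∀ t j : ℤ, ∀ x ∈ fam G (CR 𝔽 R b) (fun i => t - i * Q) j,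
      totd G (CR 𝔽 R b) x = 0 →
      ∃ w ∈ fam G (CR 𝔽 R b) (fun i => t - i * Q - c0 * (N + 1 + Q)) (j + 1),
        totd G (CR 𝔽 R b) w = x := by
  obtain ⟨c0, hc0⟩ := con_pu_lin 𝔽 n
  refine ⟨(2 * D + 1) * (c0 + 1), ?_⟩
  intro R _ _ ι _ _ G b Q hQ hdeg N hh t j x hx hTx
  obtain ⟨c, hc1, hc2⟩ := hc0 N
  obtain ⟨w, hw, hw2⟩ := con_CR_of_pu 𝔽 G b Q hQ D hdeg N hh (c0 * (N + 1)) c hc1 hc2 t j x hx hTx
  refine ⟨w, fun a => ?_, hw2⟩
  have h1 := hw a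
  refine ⟨h1.1, con_F_mono _ ?_ h1.2⟩
  show t - G.deg a * Q - (((2 * D + 1) * (c0 + 1) : ℕ) : ℤ) * (N + 1 + Q) ≤
    t - G.deg a * Q - (((2 * D + 1) * (c0 * (N + 1) + Q.toNat) : ℕ) : ℤ)
  have hQ' : ((Q.toNat : ℕ) : ℤ) = Q := Int.toNat_of_nonneg hQ
  push_cast
  rw [hQ']
  have h5 : (c0 : ℤ) * (N + 1) + Q ≤ (c0 + 1) * (N + 1 + Q) := by
    have h6 : (0 : ℤ) ≤ c0 := Int.natCast_nonneg _
    have h7 : (0 : ℤ) ≤ N := Int.natCast_nonneg _
    nlinarith [mul_nonneg h6 hQ]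
  have h8 : (0 : ℤ) ≤ 2 * D + 1 := by positivity
  have h9 := mul_le_mul_of_nonneg_left h5 h8
  linarith

end Lin

end Vale.Agent.P202C
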