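import Vale.Agent.P202C.Defs

/-!
P202 in characteristic p: flat base change of submodules.
-/

set_option autoImplicit false

namespace Vale.Agent.P202C

open TensorProduct

universe u v w v'

section General

variable {R : Type u} [CommRing R] {X : Type v} [AddCommGroup X] [Module R X]
  {Y : Type v'} [AddCommGroup Y] [Module R Y]

theorem rlen_of_range (g : X →ₗ[R] Y) (U V : Submodule R Y) (hV : LinearMap.range g = V) :
    rlen U V = Module.length R (X ⧸ U.comap g) := by
  unfold rlen
  subst hV
  let φ : X →ₗ[R] ↥(LinearMap.range g) := g.rangeRestrict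
  have hφ : Function.Surjective φ := LinearMap.surjective_rangeRestrict _
  let ψ : X →ₗ[R] (↥(LinearMap.range g) ⧸ U.submoduleOf (LinearMap.range g)) :=
    (U.submoduleOf (LinearMap.range g)).mkQ ∘ₗ φ
  have hψ : Function.Surjective ψ :=
    (Submodule.mkQ_surjective (U.submoduleOf (LinearMap.range g))).comp hφ
  have hker : LinearMap.ker ψ = U.comap g := by
    ext z
    rw [LinearMap.mem_ker, Submodule.mem_comap]
    show (U.submoduleOf (LinearMap.range g)).mkQ (φ z) = 0 ↔ _
    rw [Submodule.mkQ_apply, Submodule.Quotient.mk_eq_zero]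
    rfl
  rw [← hker]
  exact (ψ.quotKerEquivOfSurjective hψ).length_eq.symm

end General

section BaseChange

variable {A : Type w} [CommRing A] (R : Type u) [CommRing R] [Algebra A R]
  {M : Type v} [AddCommGroup M] [Module A M] {N : Type v'} [AddCommGroup N] [Module A N]

theorem bc_mono {p q : Submodule A M} (h : p ≤ q) : p.baseChange R ≤ q.baseChange R :=
  Submodule.baseChange_mono R h

theorem bc_map (f : M →ₗ[A] N) (p : Submodule A M) :
    (p.map f).baseChange R = (p.baseChange R).map (f.baseChange R) := by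
  rw [Submodule.baseChange_eq_span, Submodule.baseChange_eq_span, Submodule.map_span]
  congr 1
  ext z
  constructor
  · rintro ⟨_, ⟨x, hx, rfl⟩, rfl⟩
    exact ⟨(1 : R) ⊗ₜ[A] x, ⟨x, hx, rfl⟩, LinearMap.baseChange_tmul _ _ _⟩
  · rintro ⟨_, ⟨x, hx, rfl⟩, rfl⟩
    exact ⟨f x, ⟨x, hx, rfl⟩, (LinearMap.baseChange_tmul _ _ _).symm⟩

theorem bc_sup (p q : Submodule A M) :
    (p ⊔ q).baseChange R = p.baseChange R ⊔ q.baseChange R := by
  apply le_antisymm
  · rw [Submodule.baseChange_eq_span, Submodule.span_le]
    rintro _ ⟨x, hx, rfl⟩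
    obtain ⟨y, hy, z, hz, rfl⟩ := Submodule.mem_sup.mp hx
    rw [map_add]
    exact Submodule.add_mem_sup (Submodule.tmul_mem_baseChange_of_mem 1 hy)
      (Submodule.tmul_mem_baseChange_of_mem 1 hz)
  · exact sup_le (bc_mono R le_sup_left) (bc_mono R le_sup_right)

/-- right exactness -/
theorem bc_ker_mkQ (q : Submodule A N) :
    LinearMap.ker (q.mkQ.baseChange R) = q.baseChange R := by
  have h1 : Function.Exact q.subtype q.mkQ := LinearMap.exact_subtype_mkQ q
  have h2 := lTensor_exact R h1 (Submodule.mkQ_surjective q)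
  ext z
  rw [LinearMap.mem_ker]
  have h3 := h2 z
  constructor
  · intro h
    exact (LinearMap.mem_range (f := q.subtype.baseChange R)).mpr (h3.mp h)
  · intro h
    exact h3.mpr ((LinearMap.mem_range (f := q.subtype.baseChange R)).mp h)

variable [Module.Flat A R]

theorem bc_ker (f : M →ₗ[A] N) :
    LinearMap.ker (f.baseChange R) = (LinearMap.ker f).baseChange R := by
  have h2 := Module.Flat.lTensor_exact R (LinearMap.exact_subtype_ker_map f)
  ext z
  rw [LinearMap.mem_ker]
  have h3 := h2 z
  constructor
  · intro h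
    exact (LinearMap.mem_range (f := (LinearMap.ker f).subtype.baseChange R)).mpr (h3.mp h)
  · intro h
    exact h3.mpr ((LinearMap.mem_range (f := (LinearMap.ker f).subtype.baseChange R)).mp h)

theorem bc_comap (f : M →ₗ[A] N) (q : Submodule A N) :
    (q.comap f).baseChange R = (q.baseChange R).comap (f.baseChange R) := by
  have h1 : q.comap f = LinearMap.ker (q.mkQ ∘ₗ f) := by
    rw [LinearMap.ker_comp, Submodule.ker_mkQ]
  rw [h1, ← bc_ker, LinearMap.baseChange_comp, LinearMap.ker_comp, bc_ker_mkQ]

theorem bc_inf (p q : Submodule A M) :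
    (p ⊓ q).baseChange R = p.baseChange R ⊓ q.baseChange R := by
  have h1 : p ⊓ q = (q.comap p.subtype).map p.subtype := (Submodule.map_comap_subtype p q).symm
  rw [h1, bc_map, bc_comap, Submodule.map_comap_eq]
  rfl

/-- **relative length and flat base change** -/
theorem rlen_bc (N P : Submodule A M) :
    rlen (N.baseChange R) (P.baseChange R) =
      Module.length R (R ⊗[A] (↥P ⧸ N.submoduleOf P)) := by
  have h1 := rlen_of_range (P.subtype.baseChange R) (N.baseChange R) (P.baseChange R) rfl
  rw [h1]
  have hχ : Function.Surjective ((N.submoduleOf P).mkQ.baseChange R) :=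
    LinearMap.lTensor_surjective R (Submodule.mkQ_surjective (N.submoduleOf P))
  have e1 : (N.baseChange R).comap (P.subtype.baseChange R) =
      LinearMap.ker ((N.submoduleOf P).mkQ.baseChange R) := by
    rw [bc_ker_mkQ, ← bc_comap]
    rfl
  rw [e1]
  exact (((N.submoduleOf P).mkQ.baseChange R).quotKerEquivOfSurjective hχ).length_eq

theorem rlen_bc_zero {N P : Submodule A M} (h : P ≤ N) :
    rlen (N.baseChange R) (P.baseChange R) = 0 := by
  have h1 := rlen_bc R N P
  rw [h1]
  have h2 : Subsingleton (↥P ⧸ N.submoduleOf P) := by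
    exact Submodule.Quotient.subsingleton_iff.mpr (Submodule.submoduleOf_eq_top.mpr h)
  have h3 : Subsingleton (R ⊗[A] (↥P ⧸ N.submoduleOf P)) := inferInstance
  exact Module.length_eq_zero

end BaseChange

end Vale.Agent.P202C
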