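import Vale.Agent.P202C.Defs

/-!
P202 in characteristic p: the explicit filtered complex over `A = 𝔽[Y_0..Y_n]` and its base change.
-/

set_option autoImplicit false

namespace Vale.Agent.P202C

open IsLocalRing TensorProduct

universe u v w

/-- base change of a filtered complex (gradings and filtrations are replaced by the images) -/
noncomputable def FiltCx.bc {A : Type w} [CommRing A] {X : Type v} [AddCommGroup X] [Module A X]
    (C : FiltCx A X) (R : Type u) [CommRing R] [Algebra A R] : FiltCx R (R ⊗[A] X) where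
  d := C.d.baseChange R
  gr k := (C.gr k).baseChange R
  F s := (C.F s).baseChange R
  dd := by
    intro x
    induction x using TensorProduct.induction_on with
    | zero => simp
    | tmul r x => rw [LinearMap.baseChange_tmul, LinearMap.baseChange_tmul, C.dd, tmul_zero]
    | add x y hx hy => rw [map_add, map_add, hx, hy, add_zero]
  d_gr := by
    intro k x hx
    have h1 : (C.gr k).baseChange R ≤
        ((C.gr (k + 1)).baseChange R).comap (C.d.baseChange R) := by
      rw [Submodule.baseChange_eq_span (A := R) (p := C.gr k), Submodule.span_le]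
      rintro _ ⟨x, hx, rfl⟩
      exact Submodule.tmul_mem_baseChange_of_mem (A := R) 1 (C.d_gr k x hx)
    exact h1 hx
  d_F := by
    intro s x hx
    have h1 : (C.F s).baseChange R ≤ ((C.F s).baseChange R).comap (C.d.baseChange R) := by
      intro z hz
      rw [Submodule.baseChange_eq_span (A := R) (p := C.F s)] at hz
      refine (Submodule.span_le (p := ((C.F s).baseChange R).comap (C.d.baseChange R))).mpr ?_ hz
      rintro _ ⟨x, hx, rfl⟩
      exact Submodule.tmul_mem_baseChange_of_mem (A := R) 1 (C.d_F s x hx)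
    exact h1 hx
  F_anti := fun s => by
    rw [Submodule.baseChange_eq_span (A := R) (p := C.F (s + 1)), Submodule.span_le]
    rintro _ ⟨x, hx, rfl⟩
    exact Submodule.tmul_mem_baseChange_of_mem (A := R) 1 (C.F_anti s hx)

section Blocks

variable (𝔽 : Type w) [Field 𝔽] {n : ℕ}

theorem inBlk_zero (b : Fin n → ℤ) (τ : Fin n → Fin 3) (s : ℤ) :
    inBlk 𝔽 b τ s (0 : Lau 𝔽 n) := by
  intro m hm
  exact absurd rfl hm

theorem inBlk_add (b : Fin n → ℤ) (τ : Fin n → Fin 3) (s : ℤ) {f g : Lau 𝔽 n}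
    (hf : inBlk 𝔽 b τ s f) (hg : inBlk 𝔽 b τ s g) : inBlk 𝔽 b τ s (f + g) := by
  intro m hm
  by_cases h : f.coeff m = 0
  · refine hg m fun h2 => hm ?_
    rw [AddMonoidAlgebra.coeff_add, Finsupp.add_apply, h, h2, add_zero]
  · exact hf m h

/-- products of block elements: the bundle parameters and the filtrations add up -/
theorem inBlk_mul (b b' : Fin n → ℤ) (τ : Fin n → Fin 3) (s s' : ℤ) {f g : Lau 𝔽 n}
    (hf : inBlk 𝔽 b τ s f) (hg : inBlk 𝔽 b' τ s' g) :
    inBlk 𝔽 (b + b') τ (s + s') (f * g) := by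
  classical
  intro m hm
  have h1 : m ∈ (f * g).coeff.support := Finsupp.mem_support_iff.mpr hm
  obtain ⟨x, hx, y, hy, rfl⟩ := Finset.mem_add.mp (AddMonoidAlgebra.support_coeff_mul_subset f g h1)
  obtain ⟨a1, a2, a3⟩ := hf x (Finsupp.mem_support_iff.mp hx)
  obtain ⟨c1, c2, c3⟩ := hg y (Finsupp.mem_support_iff.mp hy)
  refine ⟨?_, fun l hl => ?_, fun l hl => ?_⟩
  · show s + s' ≤ x.2 + y.2
    exact add_le_add a1 c1
  · show x.1 l + y.1 l ≤ (b l + b' l) + (x.2 + y.2)
    have h2 := a2 l hl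
    have h3 := c2 l hl
    linarith
  · show 0 ≤ x.1 l + y.1 l
    exact add_nonneg (a3 l hl) (c3 l hl)

theorem inBlk_single {b : Fin n → ℤ} {τ : Fin n → Fin 3} {s : ℤ} {m : (Fin n → ℤ) × ℤ}
    (h : allowed b τ s m) (r : 𝔽) : inBlk 𝔽 b τ s (AddMonoidAlgebra.single m r : Lau 𝔽 n) := by
  classical
  intro m' hm'
  rw [AddMonoidAlgebra.coeff_single, Finsupp.single_apply] at hm'
  by_cases h2 : m = m'
  · rwa [← h2]
  · rw [if_neg h2] at hm'
    exact absurd rfl hm'

theorem inBlk_sum {b : Fin n → ℤ} {τ : Fin n → Fin 3} {s : ℤ} {κ : Type*} (t : Finset κ)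
    (f : κ → Lau 𝔽 n) (h : ∀ i ∈ t, inBlk 𝔽 b τ s (f i)) : inBlk 𝔽 b τ s (∑ i ∈ t, f i) := by
  classical
  induction t using Finset.induction_on with
  | empty => exact inBlk_zero 𝔽 b τ s
  | insert a t ha ih =>
    rw [Finset.sum_insert ha]
    exact inBlk_add 𝔽 b τ s (h a (Finset.mem_insert_self a t))
      (ih fun i hi => h i (Finset.mem_insert_of_mem hi))

theorem inBlk_neg {b : Fin n → ℤ} {τ : Fin n → Fin 3} {s : ℤ} {f : Lau 𝔽 n}
    (h : inBlk 𝔽 b τ s f) : inBlk 𝔽 b τ s (-f) := by
  intro m hm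
  refine h m fun h2 => hm ?_
  rw [AddMonoidAlgebra.coeff_neg, Finsupp.neg_apply, h2, neg_zero]

theorem inBlk_mono {b : Fin n → ℤ} {τ τ' : Fin n → Fin 3} {s : ℤ} {f : Lau 𝔽 n}
    (hτ : ∀ l, τ' l = τ l ∨ τ' l = 2) (h : inBlk 𝔽 b τ s f) : inBlk 𝔽 b τ' s f := by
  intro m hm
  obtain ⟨a1, a2, a3⟩ := h m hm
  refine ⟨a1, fun l hl => a2 l ?_, fun l hl => a3 l ?_⟩
  · rcases hτ l with h3 | h3
    · rw [← h3, hl]
    · rw [hl] at h3
      exact absurd h3 (by decide)
  · rcases hτ l with h3 | h3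
    · rw [← h3, hl]
    · rw [hl] at h3
      exact absurd h3 (by decide)

/-- `Y_j` raises the filtration by one in every block -/
theorem inBlk_elemE (τ : Fin n → Fin 3) (j : Fin (n + 1)) :
    inBlk 𝔽 0 τ 1 (elemE 𝔽 n j) := by
  unfold elemE
  refine inBlk_sum 𝔽 _ _ fun E _ => inBlk_single 𝔽 ⟨le_rfl, fun l _ => ?_, fun l _ => ?_⟩ 1
  · show indE E l ≤ 0 + 1
    unfold indE
    split_ifs <;> norm_num
  · show 0 ≤ indE E l
    unfold indE
    split_ifs <;> norm_num

theorem inBlk_anti (b : Fin n → ℤ) (τ : Fin n → Fin 3) (s s' : ℤ) (h : s' ≤ s) {f : Lau 𝔽 n}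
    (hf : inBlk 𝔽 b τ s f) : inBlk 𝔽 b τ s' f := fun m hm =>
  ⟨h.trans (hf m hm).1, (hf m hm).2⟩

theorem inBlk_toLau (τ : Fin n → Fin 3) (a : PolyA 𝔽 n) :
    inBlk 𝔽 0 τ 0 (toLau 𝔽 n a) := by
  induction a using MvPolynomial.induction_on with
  | C r =>
    have h1 : toLau 𝔽 n (MvPolynomial.C r) = AddMonoidAlgebra.single 0 r := by
      unfold toLau
      rw [MvPolynomial.aeval_C]
      rfl
    rw [h1]
    exact inBlk_single 𝔽 ⟨le_rfl, fun l _ => le_of_eq (zero_add _).symm, fun l _ => le_rfl⟩ r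
  | add p q hp hq =>
    rw [map_add]
    exact inBlk_add 𝔽 0 τ 0 hp hq
  | mul_X p j hp =>
    rw [map_mul]
    have h1 : toLau 𝔽 n (MvPolynomial.X j) = elemE 𝔽 n j := by
      unfold toLau
      rw [MvPolynomial.aeval_X]
    rw [h1]
    have h2 := inBlk_mul 𝔽 0 0 τ 0 1 hp (inBlk_elemE 𝔽 τ j)
    rw [add_zero, zero_add] at h2
    exact inBlk_anti 𝔽 0 τ 1 0 (by norm_num) h2

/-- the filtration `F_s` of `XA` for the bundle `b` -/
def FA (b : Fin n → ℤ) (s : ℤ) : Submodule (PolyA 𝔽 n) (XA 𝔽 n) where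
  carrier := {f | ∀ τ, inBlk 𝔽 b τ s (f τ)}
  zero_mem' := fun τ => inBlk_zero 𝔽 b τ s
  add_mem' := fun {f g} hf hg τ => inBlk_add 𝔽 b τ s (hf τ) (hg τ)
  smul_mem' := fun a f hf τ => by
    rw [XA_smul_apply]
    have h := inBlk_mul 𝔽 0 b τ 0 s (inBlk_toLau 𝔽 τ a) (hf τ)
    rwa [zero_add, zero_add] at h

/-- cochains of degree `k` -/
def grA (n : ℕ) (k : ℤ) : Submodule (PolyA 𝔽 n) (XA 𝔽 n) where
  carrier := {f | ∀ τ, (num2 τ : ℤ) ≠ k → f τ = 0}
  zero_mem' := fun _ _ => rfl
  add_mem' := fun {f g} hf hg τ h => by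
    change f τ + g τ = 0
    rw [hf τ h, hg τ h, add_zero]
  smul_mem' := fun a f hf τ h => by
    rw [XA_smul_apply, hf τ h, mul_zero]

/-- sign of the coordinate `l` at `τ` -/
def csg (τ : Fin n → Fin 3) (l : Fin n) : ℤ :=
  (-1) ^ (Finset.univ.filter (fun m => m < l ∧ τ m = 2)).card

/-- the Cech differential -/
noncomputable def dA (n : ℕ) : XA 𝔽 n →ₗ[PolyA 𝔽 n] XA 𝔽 n where
  toFun f := fun τ => ∑ l ∈ Finset.univ.filter (fun l => τ l = 2),
    csg τ l • (f (Function.update τ l 0) - f (Function.update τ l 1))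
  map_add' := fun f g => by
    funext τ
    rw [Pi.add_apply, ← Finset.sum_add_distrib]
    refine Finset.sum_congr rfl fun l _ => ?_
    rw [Pi.add_apply, Pi.add_apply, ← smul_add]
    congr 1
    abel
  map_smul' := fun a f => by
    funext τ
    rw [RingHom.id_apply, XA_smul_apply, Finset.mul_sum]
    refine Finset.sum_congr rfl fun l _ => ?_
    rw [XA_smul_apply, XA_smul_apply, mul_smul_comm, mul_sub]

theorem dA_apply (f : XA 𝔽 n) (τ : Fin n → Fin 3) :
    dA 𝔽 n f τ = ∑ l ∈ Finset.univ.filter (fun l => τ l = 2),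
      csg τ l • (f (Function.update τ l 0) - f (Function.update τ l 1)) := rfl

theorem csg_update (τ : Fin n → Fin 3) {l m : Fin n} (hl : τ l = 2) (hlm : m ≠ l)
    {c : Fin 3} (hc : c ≠ 2) :
    csg (Function.update τ l c) m = if l < m then -csg τ m else csg τ m := by
  unfold csg
  have h1 : (Finset.univ.filter (fun m' => m' < m ∧ Function.update τ l c m' = 2)) =
      (Finset.univ.filter (fun m' => m' < m ∧ τ m' = 2)).erase l := by
    ext m'
    simp only [Finset.mem_filter, Finset.mem_univ, true_and, Finset.mem_erase]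
    by_cases h : m' = l
    · subst h
      rw [Function.update_self]
      simp [hc]
    · rw [Function.update_of_ne h]
      simp [h]
  rw [h1]
  split_ifs with h2
  · have h3 : l ∈ Finset.univ.filter (fun m' => m' < m ∧ τ m' = 2) := by
      simp [h2, hl]
    rw [← Finset.card_erase_add_one h3, pow_succ]
    ring
  · have h3 : l ∉ Finset.univ.filter (fun m' => m' < m ∧ τ m' = 2) := by
      simp [h2]
    rw [Finset.erase_eq_of_notMem h3]

/-- second differences -/
noncomputable def dd2 (f : XA 𝔽 n) (τ : Fin n → Fin 3) (l m : Fin n) : Lau 𝔽 n :=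
  (f (Function.update (Function.update τ l 0) m 0) - f (Function.update (Function.update τ l 0) m 1))
    - (f (Function.update (Function.update τ l 1) m 0)
      - f (Function.update (Function.update τ l 1) m 1))

theorem dd2_symm (f : XA 𝔽 n) (τ : Fin n → Fin 3) {l m : Fin n} (h : m ≠ l) :
    dd2 𝔽 f τ l m = dd2 𝔽 f τ m l := by
  unfold dd2
  rw [Function.update_comm h, Function.update_comm h, Function.update_comm h,
    Function.update_comm h]
  abel

theorem dA_dA (f : XA 𝔽 n) : dA 𝔽 n (dA 𝔽 n f) = 0 := by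
  classical
  funext τ
  rw [dA_apply]
  have h1 : ∀ l ∈ Finset.univ.filter (fun l => τ l = 2),
      csg τ l • (dA 𝔽 n f (Function.update τ l 0) - dA 𝔽 n f (Function.update τ l 1)) =
      ∑ m ∈ Finset.univ.filter (fun l => τ l = 2),
        if m = l then 0 else (if l < m then -(csg τ l * csg τ m) else csg τ l * csg τ m) •
          dd2 𝔽 f τ l m := by
    intro l hl
    have hl2 : τ l = 2 := by simpa using hl
    have h2 : ∀ c : Fin 3, c ≠ 2 → dA 𝔽 n f (Function.update τ l c) =
        ∑ m ∈ Finset.univ.filter (fun l => τ l = 2), if m = l then 0 else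
          (if l < m then -csg τ m else csg τ m) •
            (f (Function.update (Function.update τ l c) m 0)
              - f (Function.update (Function.update τ l c) m 1)) := by
      intro c hc
      rw [dA_apply]
      have h3 : (Finset.univ.filter (fun m => Function.update τ l c m = 2)) =
          (Finset.univ.filter (fun l => τ l = 2)).erase l := by
        ext m'
        simp only [Finset.mem_filter, Finset.mem_univ, true_and, Finset.mem_erase]
        by_cases h : m' = l
        · subst h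
          rw [Function.update_self]
          simp [hc]
        · rw [Function.update_of_ne h]
          simp [h]
      rw [h3, ← Finset.add_sum_erase _ _ hl, if_pos rfl, zero_add]
      refine Finset.sum_congr rfl fun m hm => ?_
      have hm1 := Finset.ne_of_mem_erase hm
      rw [if_neg hm1, csg_update τ hl2 hm1 hc]
    rw [h2 0 (by decide), h2 1 (by decide), ← Finset.sum_sub_distrib, Finset.smul_sum]
    refine Finset.sum_congr rfl fun m _ => ?_
    by_cases hm : m = l
    · rw [if_pos hm, if_pos hm, if_pos hm, sub_zero, smul_zero]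
    · rw [if_neg hm, if_neg hm, if_neg hm, ← smul_sub, smul_smul]
      congr 1
      split_ifs
      · ring
      · ring
  rw [Finset.sum_congr rfl h1, ← Finset.sum_product']
  refine Finset.sum_involution (fun x _ => (x.2, x.1)) ?_ ?_ ?_ ?_
  · rintro ⟨l, m⟩ _
    by_cases hm : m = l
    · simp [hm]
    · have hm' : l ≠ m := fun h => hm h.symm
      simp only [if_neg hm, if_neg hm']
      rw [dd2_symm 𝔽 f τ hm]
      rcases lt_or_gt_of_ne hm with h | h
      · rw [if_neg (not_lt.mpr h.le), if_pos h, ← add_smul]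
        have : csg τ l * csg τ m + -(csg τ m * csg τ l) = 0 := by ring
        rw [this, zero_smul]
      · rw [if_pos h, if_neg (not_lt.mpr h.le), ← add_smul]
        have : -(csg τ l * csg τ m) + csg τ m * csg τ l = 0 := by ring
        rw [this, zero_smul]
  · rintro ⟨l, m⟩ _ hne heq
    have h3 : m = l := (Prod.mk.inj heq).1
    exact hne (by simp [h3])
  · rintro ⟨l, m⟩ hx
    simp only [Finset.mem_product] at hx ⊢
    exact ⟨hx.2, hx.1⟩
  · rintro ⟨l, m⟩ _
    rfl

theorem num2_update (τ : Fin n → Fin 3) {l : Fin n} (hl : τ l = 2) {c : Fin 3} (hc : c ≠ 2) :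
    num2 (Function.update τ l c) + 1 = num2 τ := by
  unfold num2
  have h3 : (Finset.univ.filter (fun m => Function.update τ l c m = 2)) =
      (Finset.univ.filter (fun l => τ l = 2)).erase l := by
    ext m'
    simp only [Finset.mem_filter, Finset.mem_univ, true_and, Finset.mem_erase]
    by_cases h : m' = l
    · subst h
      rw [Function.update_self]
      simp [hc]
    · rw [Function.update_of_ne h]
      simp [h]
  rw [h3]
  exact Finset.card_erase_add_one (by simp [hl])

theorem dA_gr (k : ℤ) (f : XA 𝔽 n) (hf : f ∈ grA 𝔽 n k) : dA 𝔽 n f ∈ grA 𝔽 n (k + 1) := by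
  intro τ hτ
  rw [dA_apply]
  refine Finset.sum_eq_zero fun l hl => ?_
  have hl2 : τ l = 2 := by simpa using hl
  have h1 : ∀ c : Fin 3, c ≠ 2 → f (Function.update τ l c) = 0 := by
    intro c hc
    refine hf _ fun h => hτ ?_
    rw [← num2_update τ hl2 hc]
    push_cast
    rw [h]
  rw [h1 0 (by decide), h1 1 (by decide), sub_zero, smul_zero]

theorem dA_F (b : Fin n → ℤ) (s : ℤ) (f : XA 𝔽 n) (hf : f ∈ FA 𝔽 b s) :
    dA 𝔽 n f ∈ FA 𝔽 b s := by
  intro τ
  rw [dA_apply]
  refine inBlk_sum 𝔽 _ _ fun l hl => ?_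
  have hl2 : τ l = 2 := by simpa using hl
  have h1 : ∀ c : Fin 3, inBlk 𝔽 b τ s (f (Function.update τ l c)) := by
    intro c
    refine inBlk_mono 𝔽 (fun m => ?_) (hf (Function.update τ l c))
    by_cases hm : m = l
    · subst hm
      exact Or.inr hl2
    · exact Or.inl (Function.update_of_ne hm _ _).symm
  have h2 : inBlk 𝔽 b τ s (f (Function.update τ l 0) - f (Function.update τ l 1)) := by
    rw [sub_eq_add_neg]
    exact inBlk_add 𝔽 b τ s (h1 0) (inBlk_neg 𝔽 (h1 1))
  unfold csg
  rcases neg_one_pow_eq_or ℤ (Finset.univ.filter (fun m => m < l ∧ τ m = 2)).card with h | h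
  · rw [h, one_smul]
    exact h2
  · rw [h, neg_smul, one_smul]
    exact inBlk_neg 𝔽 h2

/-- the filtered complex over `A` -/
noncomputable def CA (b : Fin n → ℤ) : FiltCx (PolyA 𝔽 n) (XA 𝔽 n) where
  d := dA 𝔽 n
  gr := grA 𝔽 n
  F := FA 𝔽 b
  dd := dA_dA 𝔽
  d_gr := dA_gr 𝔽
  d_F := dA_F 𝔽 b
  F_anti := fun s f hf τ => inBlk_anti 𝔽 b τ (s + 1) s (by omega) (hf τ)

/-- the filtered complex over an `A`-algebra `R` -/
noncomputable def CR (R : Type u) [CommRing R] [Algebra (PolyA 𝔽 n) R] (b : Fin n → ℤ) :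
    FiltCx R (R ⊗[PolyA 𝔽 n] XA 𝔽 n) := (CA 𝔽 b).bc R

/-- the parameters `y_j ∈ R` -/
noncomputable def yR (R : Type u) [CommRing R] [Algebra (PolyA 𝔽 n) R] (j : Fin (n + 1)) : R :=
  algebraMap (PolyA 𝔽 n) R (MvPolynomial.X j)

/-- the parameter ideal -/
noncomputable def yI (n : ℕ) (R : Type u) [CommRing R] [Algebra (PolyA 𝔽 n) R] : Ideal R :=
  Ideal.span (Set.range (fun j : Fin (n + 1) => yR 𝔽 R j))

end Blocks

end Vale.Agent.P202C
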