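import Mathlib

/-!
P202 in characteristic p, module CMS: finite free local extensions of Cohen-Macaulay rings.
-/

set_option autoImplicit false

namespace Vale.Agent.P202C

open IsLocalRing

universe u v

/-- a regular sequence of length equal to the dimension generates an ideal with Artinian quotient -/
theorem cms_artinian (R : Type u) [CommRing R] [IsLocalRing R] [IsNoetherianRing R] (D : ℕ)
    (hD : ringKrullDim R = D) (rs : List R) (hrs : RingTheory.Sequence.IsRegular R rs)
    (hl : rs.length = D) : IsArtinianRing (R ⧸ Ideal.ofList rs) := by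
  have h1 := ringKrullDim_add_length_eq_ringKrullDim_of_isRegular rs hrs
  rw [hl, hD] at h1
  have hne : Ideal.ofList rs ≠ ⊤ := fun h => hrs.2 (by rw [h]; simp)
  have : Nontrivial (R ⧸ Ideal.ofList rs) := Ideal.Quotient.nontrivial_iff.2 hne
  rw [isArtinianRing_iff_krullDimLE_zero, ringKrullDimZero_iff_ringKrullDim_eq_zero]
  have h2 : ringKrullDim (R ⧸ Ideal.ofList rs) ≠ ⊥ := by
    intro h
    have h3 := ringKrullDim_nonneg_of_nontrivial (R := R ⧸ Ideal.ofList rs)
    rw [h] at h3
    simp at h3
  obtain ⟨x, hx⟩ := WithBot.ne_bot_iff_exists.1 h2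
  rw [← hx] at h1 ⊢
  have h4 : x + (D : ℕ∞) = D := by exact_mod_cast h1
  have h5 : x = 0 := by
    have h6 : x ≠ ⊤ := by
      rintro rfl
      simp at h4
    obtain ⟨m, rfl⟩ := ENat.ne_top_iff_exists.1 h6
    have h7 : m + D = D := by exact_mod_cast h4
    have h8 : m = 0 := by omega
    rw [h8]
    rfl
  rw [h5]
  rfl

/-- (CMS) finite free local extensions of Cohen-Macaulay rings -/
theorem cm_of_free (R : Type u) [CommRing R] [IsLocalRing R] [IsNoetherianRing R]
    (S : Type v) [CommRing S] [IsLocalRing S] [Algebra R S] [Module.Finite R S] [Module.Free R S]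
    [IsLocalHom (algebraMap R S)] (D : ℕ) (hD : ringKrullDim R = D)
    (hCM : ∃ rs : List R, RingTheory.Sequence.IsRegular R rs ∧ rs.length = D) :
    ringKrullDim S = D ∧ ∃ rs : List S, RingTheory.Sequence.IsRegular S rs ∧ rs.length = D := by
  obtain ⟨rs, hrs, hl⟩ := hCM
  have hN : IsNoetherianRing S := IsNoetherianRing.of_finite R S
  have hff : Module.FaithfullyFlat R S := inferInstance
  have hreg : RingTheory.Sequence.IsRegular S (rs.map (algebraMap R S)) :=
    RingTheory.Sequence.IsRegular.of_faithfullyFlat hrs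
  have hl' : (rs.map (algebraMap R S)).length = D := by rw [List.length_map, hl]
  refine ⟨?_, _, hreg, hl'⟩
  have h1 := ringKrullDim_add_length_eq_ringKrullDim_of_isRegular _ hreg
  rw [hl'] at h1
  have hA := cms_artinian R D hD rs hrs hl
  set I : Ideal R := Ideal.ofList rs with hI
  have hIS : Ideal.ofList (rs.map (algebraMap R S)) = I.map (algebraMap R S) := by
    rw [hI, Ideal.map_ofList]
  have hfin : Module.Finite (R ⧸ I) (S ⧸ I.map (algebraMap R S)) := inferInstance
  have hAS : IsArtinianRing (S ⧸ I.map (algebraMap R S)) :=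
    IsArtinianRing.of_finite (R ⧸ I) (S ⧸ I.map (algebraMap R S))
  have hne : I.map (algebraMap R S) ≠ ⊤ := by
    rw [← hIS]
    exact fun h => hreg.2 (by rw [h]; simp)
  have : Nontrivial (S ⧸ I.map (algebraMap R S)) := Ideal.Quotient.nontrivial_iff.2 hne
  have h0 : ringKrullDim (S ⧸ I.map (algebraMap R S)) = 0 := by
    rw [← ringKrullDimZero_iff_ringKrullDim_eq_zero, ← isArtinianRing_iff_krullDimLE_zero]
    exact hAS
  rw [hIS, h0, zero_add] at h1
  exact h1.symm

end Vale.Agent.P202C
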