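import Vale.Agent.P202C.Hom3

/-!
# P202C, decalage: the abstract inequality for a restricted class of positions
-/

namespace Vale.Agent.P202C.HC

open Submodule Finset

variable {R M : Type*} [CommRing R] [AddCommGroup M] [Module R M]

/-- `P`-positions are connected by single steps -/
def Pth (D : ℕ) (P : (ℕ → ℤ) → Prop) : Prop :=
  ∀ a b : ℕ → ℤ, P a → P b → a ≤ b → (∀ j, D < j → a j = b j) → a ≠ b →
    ∃ i, i ≤ D ∧ a i < b i ∧ P (Function.update a i (a i + 1))

theorem pos_inductionP (D : ℕ) {V : (ℕ → ℤ) → Prop} (hV : Pth D V) (b : ℕ → ℤ) (hb : V b)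
    {P : (ℕ → ℤ) → Prop} (h0 : P b)
    (h1 : ∀ (a : ℕ → ℤ) (i : ℕ), i ≤ D → V a → V (Function.update a i (a i + 1)) →
      Function.update a i (a i + 1) ≤ b → (∀ j, D < j → a j = b j) →
      P (Function.update a i (a i + 1)) → P a) :
    ∀ a : ℕ → ℤ, V a → a ≤ b → (∀ j, D < j → a j = b j) → P a := by
  have key : ∀ N : ℕ, ∀ a : ℕ → ℤ, V a → a ≤ b → (∀ j, D < j → a j = b j) →
      (∑ i ∈ range (D + 1), (b i - a i).toNat) = N → P a := by
    intro N
    induction N with
    | zero =>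
      intro a ha hab hD hs
      have : a = b := by
        funext i
        by_cases hi : D < i
        · exact hD i hi
        · have h2 := (Finset.sum_eq_zero_iff.1 hs) i (Finset.mem_range.2 (by omega))
          have h3 : a i ≤ b i := hab i
          omega
      rw [this]; exact h0
    | succ N ih =>
      intro a ha hab hD hs
      have hne : a ≠ b := by
        rintro rfl
        simp at hs
      obtain ⟨i, hiD, hlt, hua⟩ := hV a b ha hb hab hD hne
      have hub : Function.update a i (a i + 1) ≤ b := by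
        intro j
        by_cases hj : j = i
        · subst hj
          simp only [Function.update_self]
          omega
        · rw [Function.update_of_ne hj]
          exact hab j
      refine h1 a i (by omega) ha hua hub hD (ih _ hua hub ?_ ?_)
      · intro j hj
        rw [Function.update_of_ne (by omega)]
        exact hD j hj
      · have h3 : ∑ j ∈ range (D + 1), (b j - a j).toNat =
            ∑ j ∈ range (D + 1), ((b j - Function.update a i (a i + 1) j).toNat +
              if j = i then 1 else 0) := by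
          refine Finset.sum_congr rfl fun j _ => ?_
          by_cases hj : j = i
          · subst hj
            rw [Function.update_self, if_pos rfl]
            omega
          · rw [Function.update_of_ne hj, if_neg hj, add_zero]
        rw [Finset.sum_add_distrib, Finset.sum_ite_eq',
          if_pos (Finset.mem_range.2 (by omega))] at h3
        omega
  intro a ha hab hD
  exact key _ a ha hab hD rfl

/-- Twisted complexes inside `(M, d)` for the positions in `V`. -/
structure TwP (d : M →ₗ[R] M) (D : ℕ) (V : (ℕ → ℤ) → Prop) (T : (ℕ → ℤ) → ℤ → Submodule R M)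
    (st : ℕ → ℤ → ℤ → ℕ∞) : Prop where
  dd : ∀ x, d (d x) = 0
  anti : ∀ a b : ℕ → ℤ, a ≤ b → T b ≤ T a
  cx : ∀ a, V a → IsCx d (T a)
  path : Pth D V
  step : ∀ (a : ℕ → ℤ) (i : ℕ), i ≤ D → V a → V (Function.update a i (a i + 1)) →
    ∀ m, hl d (T a) (T (Function.update a i (a i + 1))) m = st i (a i) m

variable {d : M →ₗ[R] M} {D : ℕ} {Q : ℤ} {V : (ℕ → ℤ) → Prop}
  {T : (ℕ → ℤ) → ℤ → Submodule R M} {st : ℕ → ℤ → ℤ → ℕ∞}

/-- slices, inequality -/
theorem TwP.hl_le (h : TwP d D V T st) {a b : ℕ → ℤ} (ha : V a) (hb : V b) (hab : a ≤ b)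
    (hD : ∀ j, D < j → a j = b j) (m : ℤ) :
    hl d (T a) (T b) m ≤ ∑ i ∈ range (D + 1), ∑ s ∈ Finset.Ico (a i) (b i), st i s m := by
  refine pos_inductionP D h.path b hb (P := fun a => hl d (T a) (T b) m ≤
    ∑ i ∈ range (D + 1), ∑ s ∈ Finset.Ico (a i) (b i), st i s m) ?_ ?_ a ha hab hD
  · have : hl d (T b) (T b) m = 0 := by
      refine ql_eq_zero.2 ?_
      exact inf_le_left.trans le_sup_left
    rw [this]
    exact zero_le
  · intro a i hi ha hua hub hD ih
    have hau : a ≤ Function.update a i (a i + 1) := by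
      intro j
      by_cases hj : j = i
      · subst hj; simp
      · rw [Function.update_of_ne hj]
    rw [path_sum D (fun i s => st i s m) a b i hi hub]
    refine (hl_AC_le h.dd (h.cx _ ha) (h.cx _ hua) (h.cx _ hb) (h.anti _ _ hau) (h.anti _ _ hub)
      m).trans ?_
    rw [h.step a i hi ha hua, add_comm]
    exact add_le_add_right ih _

/-- slices, Euler characteristic -/
theorem TwP.chi_eq (h : TwP d D V T st) {w : ℕ} (hst : ∀ i, i ≤ D → ∀ s, FW w (st i s))
    {a b : ℕ → ℤ} (ha : V a) (hb : V b) (hab : a ≤ b)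
    (hD : ∀ j, D < j → a j = b j) :
    FW w (hl d (T a) (T b)) ∧ ch w (hl d (T a) (T b)) =
      ∑ i ∈ range (D + 1), ∑ s ∈ Finset.Ico (a i) (b i), ch w (st i s) := by
  refine pos_inductionP D h.path b hb (P := fun a => FW w (hl d (T a) (T b)) ∧
    ch w (hl d (T a) (T b)) =
      ∑ i ∈ range (D + 1), ∑ s ∈ Finset.Ico (a i) (b i), ch w (st i s)) ?_ ?_ a ha hab hD
  · have : ∀ m, hl d (T b) (T b) m = 0 := fun m => by
      refine ql_eq_zero.2 ?_
      exact inf_le_left.trans le_sup_left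
    refine ⟨⟨fun m => by rw [this]; simp, fun m _ => this m⟩, ?_⟩
    unfold ch
    simp [this]
  · intro a i hi ha hua hub hD ih
    have hau : a ≤ Function.update a i (a i + 1) := by
      intro j
      by_cases hj : j = i
      · subst hj; simp
      · rw [Function.update_of_ne hj]
    have h1 : hl d (T a) (T (Function.update a i (a i + 1))) = st i (a i) := by
      funext m
      exact h.step a i hi ha hua m
    have hF : FW w (hl d (T a) (T (Function.update a i (a i + 1)))) := by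
      rw [h1]; exact hst i hi _
    refine ⟨FW_AC h.dd (h.cx _ ha) (h.cx _ hua) (h.cx _ hb) (h.anti _ _ hau) (h.anti _ _ hub)
      hF ih.1, ?_⟩
    rw [path_sum D (fun i s => ch w (st i s)) a b i hi hub,
      chi_add h.dd (h.cx _ ha) (h.cx _ hua) (h.cx _ hb) (h.anti _ _ hau) (h.anti _ _ hub) hF ih.1,
      h1, ih.2]

theorem TwP.main (h : TwP d D V T st) (v0 : V fun _ => 0) (vK : V (pK Q)) (vF : V (pF D Q 0)) (hQ : 0 ≤ Q) {w : ℕ} (hst : ∀ i, i ≤ D → ∀ s, FW w (st i s))
    {N : ℤ} (hN : 0 ≤ N) (vN : V (pF D Q N))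
    (hz : ∀ m, Zc d (T (pF D Q 0)) Z0 m ≤ Bd d (T (pF D Q N)) Z0 m)
    (hK0 : ∀ m < 0, hl d (T (pK Q)) Z0 m = 0) :
    FW (w + 1) (hl d (T fun _ => 0) Z0) ∧
    ∑ s ∈ Finset.Ico 0 Q, ch w (st 0 s) -
      ∑ i ∈ range (D + 1), ∑ s ∈ Finset.Ico ((1 - i) * Q) 0, ch w (st i s) -
      ∑ m ∈ Finset.Icc (1 : ℤ) (w + 1 : ℕ), ∑ i ∈ range (D + 1),
        ∑ s ∈ Finset.Ico ((1 - i) * Q - N) ((1 - i) * Q), ((st i s (m + 1)).toNat : ℤ) -
      ∑ m ∈ Finset.Icc (-((w + 1 : ℕ) : ℤ)) (-1), ∑ i ∈ range (D + 1),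
        ∑ s ∈ Finset.Ico ((1 - i) * Q) 0, ((st i s m).toNat : ℤ) ≤
      ch (w + 1) (hl d (T fun _ => 0) Z0) := by
  have hst' : ∀ i, i ≤ D → ∀ s, FW (w + 1) (st i s) := fun i hi s => (hst i hi s).mono (by omega)
  have c0 := h.cx _ v0
  have cK := h.cx _ vK
  have cF := h.cx _ vF
  have cN := h.cx _ vN
  have l1 : T (pK Q) ≤ T (fun _ => 0) := h.anti _ _ (zero_le_pK hQ)
  have l2 : T (pK Q) ≤ T (pF D Q 0) := h.anti _ _ (pF_le_pK D hQ)
  have l3 : T (pF D Q 0) ≤ T (pF D Q N) := h.anti _ _ (pF_le_pF D Q hN)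
  have hD1 : ∀ j, D < j → (fun _ => 0 : ℕ → ℤ) j = pK Q j := fun j hj => by
    show (0 : ℤ) = pK Q j
    unfold pK
    rw [if_neg (by omega)]
  have hD2 : ∀ j, D < j → pF D Q 0 j = pK Q j := fun j hj => by
    unfold pK pF
    rw [if_neg (by omega), if_neg (by omega)]
  have hD3 : ∀ j, D < j → pF D Q N j = pF D Q 0 j := fun j hj => by
    unfold pF
    rw [if_neg (by omega), if_neg (by omega)]
  -- the three relative Euler characteristics
  obtain ⟨f1, e1⟩ := h.chi_eq hst' v0 vK (zero_le_pK hQ) hD1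
  obtain ⟨f2, e2⟩ := h.chi_eq hst' vF vK (pF_le_pK D hQ) hD2
  -- bound of the homology of `K'`
  have hb : ∀ m, hl d (T (pF D Q 0)) Z0 m ≤ ∑ i ∈ range (D + 1),
      ∑ s ∈ Finset.Ico ((1 - i) * Q - N) ((1 - i) * Q), st i s (m + 1) := by
    intro m
    refine (hl_BC_le_of_zero h.dd cN cF IsCx_Z0 l3 (Z0_le _) m (hz m)).trans ?_
    refine (h.hl_le vN vF (pF_le_pF D Q hN) hD3 (m + 1)).trans (le_of_eq ?_)
    refine Finset.sum_congr rfl fun i hi => ?_
    have hi' : i ≤ D := by
      have := Finset.mem_range.1 hi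
      omega
    unfold pF
    rw [if_pos hi', if_pos hi', sub_zero]
  have hfin : ∀ m, (∑ i ∈ range (D + 1),
      ∑ s ∈ Finset.Ico ((1 - i) * Q - N) ((1 - i) * Q), st i s (m + 1)) ≠ ⊤ := by
    intro m
    exact sum_ne_top' _ _ fun i hi => sum_ne_top' _ _ fun s _ =>
      (hst i (by have := Finset.mem_range.1 hi; omega) s).fin _
  have fF : FW (w + 1) (hl d (T (pF D Q 0)) Z0) := by
    refine ⟨fun m => ne_top_of_le_ne_top (hfin m) (hb m), fun m hm => ?_⟩
    refine le_antisymm ((hb m).trans (le_of_eq ?_)) zero_le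
    refine Finset.sum_eq_zero fun i hi => Finset.sum_eq_zero fun s _ => ?_
    refine (hst i (by have := Finset.mem_range.1 hi; omega) s).supp _ ?_
    push_cast at hm
    omega
  have fK : FW (w + 1) (hl d (T (pK Q)) Z0) := by
    refine ⟨fun m => ?_, fun m hm => ?_⟩
    · refine ne_top_of_le_ne_top ?_ (hl_BC_le h.dd cF cK IsCx_Z0 l2 (Z0_le _) m)
      exact WithTop.add_ne_top.2 ⟨fF.fin m, f2.fin (m + 1)⟩
    · have h1 := hl_BC_le h.dd cF cK IsCx_Z0 l2 (Z0_le _) m
      have h2 := h.hl_le vF vK (pF_le_pK D hQ) hD2 (m + 1)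
      have h3 : ∑ i ∈ range (D + 1), ∑ s ∈ Finset.Ico (pF D Q 0 i) (pK Q i), st i s (m + 1) =
          0 := by
        refine Finset.sum_eq_zero fun i hi => Finset.sum_eq_zero fun s _ => ?_
        refine (hst i (by have := Finset.mem_range.1 hi; omega) s).supp _ ?_
        push_cast at hm
        omega
      rw [h3] at h2
      rw [fF.supp m hm, le_antisymm h2 zero_le, add_zero] at h1
      exact le_antisymm h1 zero_le
  have f0 : FW (w + 1) (hl d (T fun _ => 0) Z0) :=
    FW_AC h.dd c0 cK IsCx_Z0 l1 (Z0_le _) f1 fK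
  refine ⟨f0, ?_⟩
  have a1 := chi_add h.dd c0 cK IsCx_Z0 l1 (Z0_le _) f1 fK
  have a2 := chi_add h.dd cF cK IsCx_Z0 l2 (Z0_le _) f2 fK
  -- evaluation of the relative Euler characteristics
  have e1' : ch (w + 1) (hl d (T fun _ => 0) (T (pK Q))) = ∑ s ∈ Finset.Ico 0 Q, ch w (st 0 s) := by
    rw [e1, Finset.sum_eq_single 0]
    · unfold pK
      rw [if_pos rfl]
      exact Finset.sum_congr rfl fun s _ => ch_window (by omega) (hst 0 (by omega) s)
    · intro i _ hi
      unfold pK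
      rw [if_neg hi]
      simp
    · intro hh
      exact absurd (Finset.mem_range.2 (by omega)) hh
  have e2' : ch (w + 1) (hl d (T (pF D Q 0)) (T (pK Q))) =
      ∑ i ∈ range (D + 1), ∑ s ∈ Finset.Ico ((1 - i) * Q) 0, ch w (st i s) := by
    rw [e2]
    refine Finset.sum_congr rfl fun i hi => ?_
    have hi' : i ≤ D := by
      have := Finset.mem_range.1 hi
      omega
    by_cases h0 : i = 0
    · subst h0
      unfold pF pK
      rw [if_pos (by omega), if_pos rfl]
      have h1 : Finset.Ico ((1 - ((0 : ℕ) : ℤ)) * Q - 0) Q = ∅ := by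
        rw [Finset.Ico_eq_empty_iff]; simp
      have h2 : Finset.Ico ((1 - ((0 : ℕ) : ℤ)) * Q) 0 = ∅ := by
        rw [Finset.Ico_eq_empty_iff]; simpa using hQ
      rw [h1, h2]
      simp
    · unfold pF pK
      rw [if_pos hi', if_neg h0, sub_zero]
      exact Finset.sum_congr rfl fun s _ => ch_window (by omega) (hst i hi' s)
  -- lower bound for the Euler characteristic of `K'`
  have b1 := ch_ge (w := w + 1) (h := hl d (T (pF D Q 0)) Z0)
  have b2 : ∑ m ∈ Finset.Icc (1 : ℤ) (w + 1 : ℕ), ((hl d (T (pF D Q 0)) Z0 m).toNat : ℤ) ≤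
      ∑ m ∈ Finset.Icc (1 : ℤ) (w + 1 : ℕ), ∑ i ∈ range (D + 1),
        ∑ s ∈ Finset.Ico ((1 - i) * Q - N) ((1 - i) * Q), ((st i s (m + 1)).toNat : ℤ) := by
    refine Finset.sum_le_sum fun m _ => ?_
    have h1 := toNat_le (hb m) (hfin m)
    rw [toNat_sum] at h1
    · have h2 : ∑ i ∈ range (D + 1), (∑ s ∈ Finset.Ico ((1 - (i : ℤ)) * Q - N) ((1 - i) * Q),
          st i s (m + 1)).toNat = ∑ i ∈ range (D + 1),
          ∑ s ∈ Finset.Ico ((1 - (i : ℤ)) * Q - N) ((1 - i) * Q), (st i s (m + 1)).toNat := by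
        refine Finset.sum_congr rfl fun i hi => toNat_sum _ _ fun s _ => ?_
        exact (hst i (by have := Finset.mem_range.1 hi; omega) s).fin _
      rw [h2] at h1
      exact_mod_cast h1
    · intro i hi
      exact sum_ne_top' _ _ fun s _ => (hst i (by have := Finset.mem_range.1 hi; omega) s).fin _
  have b3 : ∑ m ∈ Finset.Icc (-((w + 1 : ℕ) : ℤ)) (-1), ((hl d (T (pF D Q 0)) Z0 m).toNat : ℤ) ≤
      ∑ m ∈ Finset.Icc (-((w + 1 : ℕ) : ℤ)) (-1), ∑ i ∈ range (D + 1),
        ∑ s ∈ Finset.Ico ((1 - i) * Q) 0, ((st i s m).toNat : ℤ) := by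
    refine Finset.sum_le_sum fun m hm => ?_
    have hm0 : m < 0 := by
      have := (Finset.mem_Icc.1 hm).2
      omega
    have h1 := hl_AC_le h.dd cF cK IsCx_Z0 l2 (Z0_le _) m
    rw [hK0 m hm0, zero_add] at h1
    have h2 := h1.trans (h.hl_le vF vK (pF_le_pK D hQ) hD2 m)
    have h3 : ∑ i ∈ range (D + 1), ∑ s ∈ Finset.Ico (pF D Q 0 i) (pK Q i), st i s m =
        ∑ i ∈ range (D + 1), ∑ s ∈ Finset.Ico ((1 - (i : ℤ)) * Q) 0, st i s m := by
      refine Finset.sum_congr rfl fun i hi => ?_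
      have hi' : i ≤ D := by
        have := Finset.mem_range.1 hi
        omega
      by_cases h0 : i = 0
      · subst h0
        unfold pF pK
        rw [if_pos (by omega), if_pos rfl]
        have h1 : Finset.Ico ((1 - ((0 : ℕ) : ℤ)) * Q - 0) Q = ∅ := by
          rw [Finset.Ico_eq_empty_iff]; simp
        have h2 : Finset.Ico ((1 - ((0 : ℕ) : ℤ)) * Q) 0 = ∅ := by
          rw [Finset.Ico_eq_empty_iff]; simpa using hQ
        rw [h1, h2]
      · unfold pF pK
        rw [if_pos hi', if_neg h0, sub_zero]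
    rw [h3] at h2
    have hne : ∀ i ∈ range (D + 1), ∑ s ∈ Finset.Ico ((1 - (i : ℤ)) * Q) 0, st i s m ≠ ⊤ := by
      intro i hi
      exact sum_ne_top' _ _ fun s _ => (hst i (by have := Finset.mem_range.1 hi; omega) s).fin _
    have h4 := toNat_le h2 (sum_ne_top' _ _ hne)
    rw [toNat_sum _ _ hne] at h4
    have h5 : ∑ i ∈ range (D + 1), (∑ s ∈ Finset.Ico ((1 - (i : ℤ)) * Q) 0, st i s m).toNat =
        ∑ i ∈ range (D + 1), ∑ s ∈ Finset.Ico ((1 - (i : ℤ)) * Q) 0, (st i s m).toNat := by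
      refine Finset.sum_congr rfl fun i hi => toNat_sum _ _ fun s _ => ?_
      exact (hst i (by have := Finset.mem_range.1 hi; omega) s).fin _
    rw [h5] at h4
    exact_mod_cast h4
  rw [a1, e1']
  rw [e2'] at a2
  linarith

end Vale.Agent.P202C.HC
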