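import Vale.Agent.P202C.MainIneq

/-!
# P202C, part I: the main inequality with error terms

The slices may have a small homology (length at most `E`) in the forbidden degrees.
-/

set_option autoImplicit false

namespace Vale.Agent.P202C

open Finset

open MI

universe u v

variable {R : Type u} [CommRing R] {ι : Type} [Fintype ι] {G : FCx R ι}
  {X : Type v} [AddCommGroup X] [Module R X] {C : FiltCx R X} {D : ℕ} {Q : ℤ}

theorem sum_rk_le (G : FCx R ι) (D : ℕ) : ∑ i ∈ range (D + 1), rk G (i : ℤ) ≤ Fintype.card ι := by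
  classical
  have h1 : ∀ i : ℕ, rk G (i : ℤ) = ∑ a : ι, if G.deg a = i then 1 else 0 := by
    intro i
    unfold rk
    rw [Fintype.card_subtype, Finset.card_eq_sum_ones, Finset.sum_filter]
  simp only [h1]
  rw [Finset.sum_comm]
  calc ∑ a : ι, ∑ i ∈ range (D + 1), (if G.deg a = (i : ℤ) then 1 else 0) ≤ ∑ a : ι, 1 := by
        refine Finset.sum_le_sum fun a _ => ?_
        rw [← Finset.sum_filter, ← Finset.card_eq_sum_ones]
        refine Finset.card_le_one.2 fun x hx y hy => ?_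
        have h2 := (Finset.mem_filter.1 hx).2
        have h3 := (Finset.mem_filter.1 hy).2
        omega
    _ = Fintype.card ι := by simp

theorem stp_toNat_le {E : ℕ} {i : ℕ} {s m : ℤ} (h : sl C s (i - m) ≤ E) :
    ((stp G C i s m).toNat : ℤ) ≤ (rk G i : ℤ) * E := by
  unfold stp
  obtain ⟨c, hc⟩ := ENat.ne_top_iff_exists.1 (ne_top_of_le_ne_top (ENat.natCast_ne_top E) h)
  rw [← hc] at h ⊢
  have h1 : c ≤ E := by exact_mod_cast h
  have : ((rk G i : ℕ∞) * (c : ℕ∞)).toNat = rk G i * c := by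
    rw [← Nat.cast_mul]; simp
  rw [this]
  push_cast
  have h2 : (c : ℤ) ≤ E := by exact_mod_cast h1
  exact mul_le_mul_of_nonneg_left h2 (by positivity)

theorem main_TT_err (hdeg : ∀ a, 0 ≤ G.deg a ∧ G.deg a ≤ D) (hS : Shift G C Q) (hQ : 0 ≤ Q) {n : ℕ}
    (hsl : ∀ s k, sl C s k ≠ ⊤) (hsl0 : ∀ s k, (k < 0 ∨ (n : ℤ) < k) → sl C s k = 0)
    {N : ℤ} (hN : 0 ≤ N) {E : ℕ}
    (hcontr : ∀ m, ∀ x ∈ TT G C (HC.pF D Q 0) m, totd G C x = 0 →
      ∃ y ∈ TT G C (HC.pF D Q N) (m + 1), totd G C y = x)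
    (hlow : ∀ i : ℕ, i ≤ D → ∀ s : ℤ, (1 - i) * Q - N ≤ s → s < (1 - i) * Q →
      ∀ k : ℤ, k + 2 ≤ i → sl C s k ≤ E)
    (hhigh : ∀ i : ℕ, i ≤ D → ∀ s : ℤ, (1 - i) * Q ≤ s → s < 0 → ∀ k : ℤ, i < k → sl C s k ≤ E)
    (hF : ∀ s, 0 ≤ s → ∀ k, 1 ≤ k → ∀ x ∈ C.gr k ⊓ C.F s, C.d x = 0 →
      ∃ y ∈ C.gr (k - 1) ⊓ C.F s, C.d y = x) :
    HC.FW (D + n + 1) (HC.hl (totd G C) (TT G C fun _ => 0) HC.Z0) ∧
    (rk G 0 : ℤ) * ∑ s ∈ Finset.Ico 0 Q, slEul C n s -
      ∑ i ∈ range (D + 1), (-1) ^ i * (rk G i : ℤ) *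
        ∑ s ∈ Finset.Ico ((1 - (i : ℤ)) * Q) 0, slEul C n s -
      ((D + n + 1 : ℕ) : ℤ) * (Fintype.card ι) * (N + D * Q) * E ≤
      HC.ch (D + n + 1) (HC.hl (totd G C) (TT G C fun _ => 0) HC.Z0) := by
  have hT := TT_Tw hdeg hS
  have hz : ∀ m, HC.Zc (totd G C) (TT G C (HC.pF D Q 0)) HC.Z0 m ≤
      HC.Bd (totd G C) (TT G C (HC.pF D Q N)) HC.Z0 m := by
    rintro m x ⟨hx, hx0⟩
    obtain ⟨y, hy, hyx⟩ := hcontr m x hx ((Submodule.mem_bot R).1 hx0)
    exact Submodule.mem_sup_right ⟨y, hy, hyx⟩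
  have hK0 : ∀ m < 0, HC.hl (totd G C) (TT G C (HC.pK Q)) HC.Z0 m = 0 := by
    intro m hm
    refine hl_eq_zero_of_exact fun x hx hx0 => ?_
    refine TT_exact hdeg hS (HC.Va_pK D hQ) m (fun i _ x hx hx0 => ?_) x hx hx0
    have h1 : 0 ≤ HC.pK Q i := by
      unfold HC.pK
      split_ifs <;> omega
    exact hF _ h1 _ (by omega) x hx hx0
  have hmain := HC.Tw.main hT hQ (fun i hi s => stp_FW (G := G) hsl hsl0 i hi s) hN hz hK0
  refine ⟨hmain.1, le_trans ?_ hmain.2⟩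
  have hEnn : (0 : ℤ) ≤ (E : ℤ) := Int.natCast_nonneg _
  have hrk : ∑ i ∈ range (D + 1), (rk G (i : ℤ) : ℤ) ≤ (Fintype.card ι : ℤ) := by
    exact_mod_cast sum_rk_le G D
  -- the sums over the windows
  have hgen : ∀ (I : Finset ℤ) (f : ℕ → ℤ → ℤ → ℤ) (J : ℕ → Finset ℤ) (L : ℤ), 0 ≤ L →
      I.card = D + n + 1 → (∀ i ∈ range (D + 1), ((J i).card : ℤ) ≤ L) →
      (∀ m ∈ I, ∀ i ∈ range (D + 1), ∀ s ∈ J i, f i s m ≤ (rk G (i : ℤ) : ℤ) * E) →
      ∑ m ∈ I, ∑ i ∈ range (D + 1), ∑ s ∈ J i, f i s m ≤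
        ((D + n + 1 : ℕ) : ℤ) * (Fintype.card ι) * L * E := by
    intro I f J L hL hI hJ hf
    calc ∑ m ∈ I, ∑ i ∈ range (D + 1), ∑ s ∈ J i, f i s m
        ≤ ∑ m ∈ I, ∑ i ∈ range (D + 1), (rk G (i : ℤ) : ℤ) * (L * E) := by
          refine Finset.sum_le_sum fun m hm => Finset.sum_le_sum fun i hi => ?_
          refine (Finset.sum_le_card_nsmul _ _ _ (hf m hm i hi)).trans ?_
          rw [nsmul_eq_mul]
          have h1 := hJ i hi
          have h2 : (0 : ℤ) ≤ (rk G (i : ℤ) : ℤ) * E := by positivity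
          calc ((J i).card : ℤ) * ((rk G (i : ℤ) : ℤ) * E) ≤ L * ((rk G (i : ℤ) : ℤ) * E) :=
                mul_le_mul_of_nonneg_right h1 h2
            _ = _ := by ring
      _ = ((D + n + 1 : ℕ) : ℤ) * ((∑ i ∈ range (D + 1), (rk G (i : ℤ) : ℤ)) * (L * E)) := by
          rw [Finset.sum_const, hI, nsmul_eq_mul, Finset.sum_mul]
      _ ≤ ((D + n + 1 : ℕ) : ℤ) * ((Fintype.card ι) * (L * E)) := by
          refine mul_le_mul_of_nonneg_left ?_ (by positivity)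
          exact mul_le_mul_of_nonneg_right hrk (by positivity)
      _ = _ := by ring
  have e1 : ∑ m ∈ Finset.Icc (1 : ℤ) (D + n + 1 : ℕ), ∑ i ∈ range (D + 1),
        ∑ s ∈ Finset.Ico ((1 - (i : ℤ)) * Q - N) ((1 - i) * Q),
          ((stp G C i s (m + 1)).toNat : ℤ) ≤
        ((D + n + 1 : ℕ) : ℤ) * (Fintype.card ι) * N * E := by
    refine hgen _ (fun i s m => ((stp G C i s (m + 1)).toNat : ℤ)) _ N hN ?_ ?_ ?_
    · rw [Int.card_Icc]; omega
    · intro i hi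
      rw [Int.card_Ico]
      omega
    · intro m hm i hi s hs
      have h1 := (Finset.mem_Icc.1 hm).1
      have h2 := Finset.mem_Ico.1 hs
      have h3 : i ≤ D := by have := Finset.mem_range.1 hi; omega
      exact stp_toNat_le (hlow i h3 s h2.1 h2.2 _ (by omega))
  have e2 : ∑ m ∈ Finset.Icc (-((D + n + 1 : ℕ) : ℤ)) (-1), ∑ i ∈ range (D + 1),
        ∑ s ∈ Finset.Ico ((1 - (i : ℤ)) * Q) 0, ((stp G C i s m).toNat : ℤ) ≤
        ((D + n + 1 : ℕ) : ℤ) * (Fintype.card ι) * (D * Q) * E := by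
    refine hgen _ (fun i s m => ((stp G C i s m).toNat : ℤ)) _ (D * Q) (by positivity) ?_ ?_ ?_
    · rw [Int.card_Icc]; omega
    · intro i hi
      have h3 : i ≤ D := by have := Finset.mem_range.1 hi; omega
      rw [Int.card_Ico]
      have h4 : ((0 - (1 - (i : ℤ)) * Q).toNat : ℤ) ≤ max (0 - (1 - (i : ℤ)) * Q) 0 := by
        rw [Int.toNat_eq_max]
      refine h4.trans (max_le ?_ (by positivity))
      have h5 : ((i : ℤ) - 1) ≤ D := by omega
      nlinarith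
    · intro m hm i hi s hs
      have h1 := (Finset.mem_Icc.1 hm).2
      have h2 := Finset.mem_Ico.1 hs
      have h3 : i ≤ D := by have := Finset.mem_range.1 hi; omega
      exact stp_toNat_le (hhigh i h3 s h2.1 h2.2 _ (by omega))
  have e3 : (rk G 0 : ℤ) * ∑ s ∈ Finset.Ico 0 Q, slEul C n s =
      ∑ s ∈ Finset.Ico 0 Q, HC.ch (D + n) (stp G C 0 s) := by
    rw [Finset.mul_sum]
    refine Finset.sum_congr rfl fun s _ => ?_
    rw [ch_stp hsl hsl0 0 (by omega) s]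
    simp
  have e4 : ∑ i ∈ range (D + 1), (-1) ^ i * (rk G i : ℤ) *
        ∑ s ∈ Finset.Ico ((1 - (i : ℤ)) * Q) 0, slEul C n s =
      ∑ i ∈ range (D + 1), ∑ s ∈ Finset.Ico ((1 - (i : ℤ)) * Q) 0,
        HC.ch (D + n) (stp G C i s) := by
    refine Finset.sum_congr rfl fun i hi => ?_
    have h3 : i ≤ D := by have := Finset.mem_range.1 hi; omega
    rw [Finset.mul_sum]
    exact Finset.sum_congr rfl fun s _ => (ch_stp hsl hsl0 i h3 s).symm
  have e5 : ((D + n + 1 : ℕ) : ℤ) * (Fintype.card ι) * (N + D * Q) * E =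
      ((D + n + 1 : ℕ) : ℤ) * (Fintype.card ι) * N * E +
      ((D + n + 1 : ℕ) : ℤ) * (Fintype.card ι) * (D * Q) * E := by ring
  rw [e3, e4, e5]
  linarith

/-- the left side of the main inequality as a sum over the basis elements -/
theorem lhs_convert (hdeg : ∀ a, 0 ≤ G.deg a ∧ G.deg a ≤ D) (hQ : 0 < Q) (n : ℕ) :
    (∑ a with G.deg a = 0, ∑ s ∈ Finset.Ico (0 : ℤ) Q, slEul C n s) -
      (∑ a with 2 ≤ G.deg a, sgn (G.deg a) *
        ∑ s ∈ Finset.Ico ((1 - G.deg a) * Q) 0, slEul C n s) =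
    (rk G 0 : ℤ) * ∑ s ∈ Finset.Ico 0 Q, slEul C n s -
      ∑ i ∈ range (D + 1), (-1) ^ i * (rk G i : ℤ) *
        ∑ s ∈ Finset.Ico ((1 - (i : ℤ)) * Q) 0, slEul C n s := by
  classical
  congr 1
  · rw [Finset.sum_const]
    unfold rk
    rw [Fintype.card_subtype, nsmul_eq_mul]
  · set S : ℤ → ℤ := fun i => ∑ s ∈ Finset.Ico ((1 - i) * Q) 0, slEul C n s with hS
    have hS0 : ∀ i : ℤ, i ≤ 1 → S i = 0 := by
      intro i hi
      have : Finset.Ico ((1 - i) * Q) 0 = ∅ := by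
        rw [Finset.Ico_eq_empty_iff]
        have : 0 ≤ (1 - i) * Q := mul_nonneg (by omega) hQ.le
        omega
      simp only [hS, this, Finset.sum_empty]
    have h2 : ∑ a with 2 ≤ G.deg a, sgn (G.deg a) * S (G.deg a) =
        ∑ a, sgn (G.deg a) * S (G.deg a) := by
      refine Finset.sum_subset (Finset.filter_subset _ _) fun a _ ha => ?_
      simp only [Finset.mem_filter, Finset.mem_univ, true_and, not_le] at ha
      rw [hS0 _ (by omega), mul_zero]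
    show ∑ a with 2 ≤ G.deg a, sgn (G.deg a) * S (G.deg a) =
      ∑ i ∈ range (D + 1), (-1) ^ i * (rk G i : ℤ) * S i
    rw [h2]
    have h3 : ∀ a, sgn (G.deg a) * S (G.deg a) =
        ∑ i ∈ range (D + 1), if G.deg a = i then (-1) ^ i * S i else 0 := by
      intro a
      have h4 := hdeg a
      rw [Finset.sum_eq_single (G.deg a).toNat]
      · have h5 : (((G.deg a).toNat : ℕ) : ℤ) = G.deg a := Int.toNat_of_nonneg h4.1
        rw [if_pos h5.symm, h5]
        congr 1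
        have h6 : sgn (G.deg a) = HC.sg (G.deg a) := rfl
        rw [h6, sg_eq]
        congr 1
        omega
      · intro i _ hi
        rw [if_neg]
        intro h5
        apply hi
        rw [h5]
        simp
      · intro h5
        exact absurd (Finset.mem_range.2 (by omega)) h5
    rw [Finset.sum_congr rfl fun a _ => h3 a, Finset.sum_comm]
    refine Finset.sum_congr rfl fun i _ => ?_
    rw [← Finset.sum_filter, Finset.sum_const]
    unfold rk
    rw [Fintype.card_subtype, nsmul_eq_mul]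
    ring

/-- the Euler characteristic of the total complex is that of `G ⊗ M0` -/
theorem ch_eq_chiG (hdeg : ∀ a, 0 ≤ G.deg a ∧ G.deg a ≤ D)
    (he : ∀ j, HC.hl (totd G C) (TT G C fun _ => 0) HC.Z0 j = Hc G (M0 C) j) (w : ℕ) (hw : D ≤ w) :
    HC.ch w (HC.hl (totd G C) (TT G C fun _ => 0) HC.Z0) = chiG G (M0 C) D := by
  unfold HC.ch chiG
  have h2 : ∑ j ∈ Finset.Icc (-(w : ℤ)) w, HC.sg j *
      ((HC.hl (totd G C) (TT G C fun _ => 0) HC.Z0 j).toNat : ℤ) =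
      ∑ j ∈ Finset.Icc (0 : ℤ) D, (-1 : ℤ) ^ j.natAbs * ((Hc G (M0 C) j).toNat : ℤ) := by
    symm
    rw [Finset.sum_congr rfl fun j _ => by rw [← he j, ← sg_eq]]
    refine Finset.sum_subset ?_ ?_
    · intro j hj
      simp only [Finset.mem_Icc] at hj ⊢
      omega
    · intro j _ hj
      simp only [Finset.mem_Icc] at hj
      rw [he, Hc_eq_zero (M0 C) (fun a ha => by have := hdeg a; omega)]
      simp
  rw [h2]
  refine Finset.sum_bij' (fun k _ => k.toNat) (fun k _ => (k : ℤ)) ?_ ?_ ?_ ?_ ?_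
  · intro k hk
    simp only [Finset.mem_Icc, Finset.mem_range] at hk ⊢
    omega
  · intro k hk
    simp only [Finset.mem_Icc, Finset.mem_range] at hk ⊢
    omega
  · intro k hk
    simp only [Finset.mem_Icc] at hk
    omega
  · intro k _; simp
  · intro k hk
    simp only [Finset.mem_Icc] at hk
    have h3 : ((k.toNat : ℕ) : ℤ) = k := by omega
    have h4 : k.natAbs = k.toNat := by omega
    rw [h3, h4]

/-- **Main inequality with error terms**: in the forbidden degrees the slices have homology of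
length at most `E`. -/
theorem main_ineq_err {R : Type u} [CommRing R] {ι : Type} [Fintype ι] (G : FCx R ι)
    {X : Type v} [AddCommGroup X] [Module R X] (C : FiltCx R X) (Q : ℤ) (D n M E : ℕ) (hQ : 0 < Q)
    (hsh : Shift G C Q) (hdeg : ∀ a, 0 ≤ G.deg a ∧ G.deg a ≤ D)
    (hgr : ∀ k, (k < 0 ∨ (n : ℤ) < k) → C.gr k = ⊥)
    (hfin : ∀ s k, sl C s k ≠ ⊤)
    (hlow : ∀ i : ℕ, i ≤ D → ∀ s k : ℤ, (1 - i) * Q - M ≤ s → s < (1 - i) * Q → k + 2 ≤ i →
      sl C s k ≤ E)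
    (hhigh : ∀ i : ℕ, i ≤ D → ∀ s k : ℤ, (1 - i) * Q ≤ s → s < 0 → (i : ℤ) < k → sl C s k ≤ E)
    (hF : ∀ s k : ℤ, 0 ≤ s → 1 ≤ k →
      ∀ x ∈ C.gr k ⊓ C.F s, C.d x = 0 → ∃ w ∈ C.gr (k - 1) ⊓ C.F s, C.d w = x)
    (hcon : ∀ j : ℤ, ∀ x ∈ fam G C (fun i => (1 - i) * Q) j, totd G C x = 0 →
      ∃ w ∈ fam G C (fun i => (1 - i) * Q - M) (j + 1), totd G C w = x) :
    (∀ j, Hc G (M0 C) j ≠ ⊤) ∧
    (∑ a with G.deg a = 0, ∑ s ∈ Finset.Ico (0 : ℤ) Q, slEul C n s) -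
      (∑ a with 2 ≤ G.deg a, sgn (G.deg a) *
        ∑ s ∈ Finset.Ico ((1 - G.deg a) * Q) 0, slEul C n s) -
      ((D + n + 1 : ℕ) : ℤ) * (Fintype.card ι) * (M + D * Q) * E ≤ chiG G (M0 C) D := by
  have hfam : ∀ (N : ℤ) (j : ℤ), fam G C (fun i => (1 - i) * Q - N) j = TT G C (HC.pF D Q N) j := by
    intro N j
    ext x
    refine forall_congr' fun b => ?_
    have h1 := hdeg b
    have h2 : HC.pF D Q N (G.deg b).toNat = (1 - G.deg b) * Q - N := by
      unfold HC.pF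
      rw [if_pos (by omega), Int.toNat_of_nonneg h1.1]
    show x b ∈ C.gr (G.deg b - j) ⊓ C.F ((1 - G.deg b) * Q - N) ↔
      x b ∈ C.gr (G.deg b - j) ⊓ C.F (HC.pF D Q N (G.deg b).toNat)
    rw [h2]
  have hfam0 : ∀ (j : ℤ), fam G C (fun i => (1 - i) * Q) j = TT G C (HC.pF D Q 0) j := by
    intro j
    rw [← hfam 0 j]
    simp only [sub_zero]
  have hex : ∀ k : ℤ, 1 ≤ k → ∀ x ∈ C.gr k ⊓ C.F 0, C.d x = 0 →
      ∃ y ∈ C.gr (k - 1) ⊓ C.F 0, C.d y = x := fun k hk => hF 0 k le_rfl hk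
  have h1 := main_TT_err (D := D) (E := E) hdeg hsh hQ.le (n := n) hfin
    (fun s k hk => sl_zero_of_gr (hgr k hk)) (N := M) (by omega)
    (fun m x hx hx0 => by
      rw [← hfam0] at hx
      obtain ⟨y, hy, hyx⟩ := hcon m x hx hx0
      rw [hfam] at hy
      exact ⟨y, hy, hyx⟩)
    (fun i hi s hs hs' k hk => hlow i hi s k hs hs' hk)
    (fun i hi s hs hs' k hk => hhigh i hi s k hs hs' hk)
    (fun s hs k hk => hF s k hs hk)
  obtain ⟨f1, f3⟩ := h1
  have he : ∀ j, HC.hl (totd G C) (TT G C fun _ => 0) HC.Z0 j = Hc G (M0 C) j := fun j =>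
    hl_T0 hdeg hsh hQ.le (fun k hk => hgr k (Or.inl hk)) hex j
  refine ⟨fun j => by rw [← he]; exact f1.fin j, ?_⟩
  rw [lhs_convert hdeg hQ n, ← ch_eq_chiG hdeg he (D + n + 1) (by omega)]
  exact f3

end Vale.Agent.P202C
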