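import Vale.Agent.P202C.Dec1
import Vale.Agent.P202C.Fam3

/-!
# P202C, decalage: positions, splittings, the single step
-/

set_option autoImplicit false

namespace Vale.Agent.P202C.HC

open Submodule Finset

variable {R M N : Type*} [CommRing R] [AddCommGroup M] [Module R M] [AddCommGroup N] [Module R N]

set_option linter.unusedSectionVars false

/-- comparison of relative lengths -/
theorem ql_eq_of (f : M →ₗ[R] N) {U V : Submodule R M} {U' V' : Submodule R N}
    (h1 : ∀ v ∈ V, f v ∈ V') (h2 : ∀ w ∈ V', ∃ v ∈ V, f v - w ∈ U')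
    (h3 : ∀ v ∈ V, f v ∈ U' ↔ v ∈ U) : ql U V = ql U' V' := by
  unfold ql
  let g : V →ₗ[R] (V' ⧸ U'.comap V'.subtype) :=
    (U'.comap V'.subtype).mkQ ∘ₗ ((f.domRestrict V).codRestrict V' fun x => h1 x.1 x.2)
  have hg : Function.Surjective g := by
    intro y
    obtain ⟨⟨w, hw⟩, rfl⟩ := Submodule.mkQ_surjective _ y
    obtain ⟨v, hv, hvw⟩ := h2 w hw
    refine ⟨⟨v, hv⟩, ?_⟩
    simp only [g, LinearMap.comp_apply, Submodule.mkQ_apply]
    rw [Submodule.Quotient.eq]
    exact hvw
  have hk : LinearMap.ker g = U.comap V.subtype := by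
    ext x
    rw [LinearMap.mem_ker]
    simp only [g, LinearMap.comp_apply, Submodule.mkQ_apply]
    rw [Submodule.Quotient.mk_eq_zero]
    exact h3 x.1 x.2
  rw [← hk]
  exact (LinearMap.quotKerEquivOfSurjective g hg).length_eq

/-- admissible positions for the decalage -/
def Vd (D : ℕ) (Q : ℤ) (a : ℕ → ℤ) : Prop :=
  ∀ i, i + 1 ≤ D → a (i + 1) ≤ a i ∧ a i ≤ a (i + 1) + Q

theorem Vd_path (D : ℕ) {Q : ℤ} (hQ : 0 < Q) : Pth D (Vd D Q) := by
  intro a b ha hb hab hD hne
  have key : ∀ n i : ℕ, D - i = n → i ≤ D → a i < b i →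
      (∀ j, j + 1 = i → a i + 1 ≤ a j) →
      ∃ i, i ≤ D ∧ a i < b i ∧ Vd D Q (Function.update a i (a i + 1)) := by
    intro n
    induction n with
    | zero =>
      intro i hi hiD hlt hl
      refine ⟨i, hiD, hlt, ?_⟩
      intro j hj
      have h2 := ha j hj
      by_cases h1 : j + 1 = i
      · rw [h1, Function.update_self, Function.update_of_ne (by omega)]
        have := hl j h1
        rw [← h1] at this ⊢
        omega
      · rw [Function.update_of_ne h1, Function.update_of_ne (by omega)]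
        exact h2
    | succ n ih =>
      intro i hi hiD hlt hl
      have hi1 : i + 1 ≤ D := by omega
      have h3 := ha i hi1
      have h4 := hb i hi1
      by_cases hc : a i + 1 ≤ a (i + 1) + Q
      · refine ⟨i, hiD, hlt, ?_⟩
        intro j hj
        have h2 := ha j hj
        by_cases h0 : j = i
        · subst h0
          rw [Function.update_self, Function.update_of_ne (by omega)]
          omega
        by_cases h1 : j + 1 = i
        · rw [h1, Function.update_self, Function.update_of_ne h0]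
          have := hl j h1
          rw [← h1] at this ⊢
          omega
        · rw [Function.update_of_ne h1, Function.update_of_ne h0]
          exact h2
      · refine ih (i + 1) (by omega) hi1 (by omega) ?_
        intro j hj
        have : j = i := by omega
        subst this
        omega
  have hex : ∃ i, a i < b i := by
    by_contra hcon
    push Not at hcon
    exact hne (funext fun i => le_antisymm (hab i) (hcon i))
  classical
  have hs := Nat.find_spec hex
  have hm := fun j (hj : j < Nat.find hex) => Nat.find_min hex hj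
  have hiD : Nat.find hex ≤ D := by
    by_contra hcon
    have := hD _ (not_le.1 hcon)
    omega
  refine key _ (Nat.find hex) rfl hiD hs ?_
  intro j hj
  have h1 := hm j (by omega)
  have h2 := hb j (by omega)
  rw [hj] at h2
  have h3 : a j ≤ b j := hab j
  omega

theorem Vd_zero (D : ℕ) {Q : ℤ} (hQ : 0 ≤ Q) : Vd D Q (fun _ => 0) := by
  intro i _
  constructor
  · exact le_rfl
  · simpa using hQ

theorem Vd_pK (D : ℕ) {Q : ℤ} (hQ : 0 ≤ Q) : Vd D Q (pK Q) := by
  intro i _
  unfold pK
  rw [if_neg (by omega : ¬ i + 1 = 0)]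
  split_ifs <;> omega

theorem Vd_pF (D : ℕ) {Q : ℤ} (hQ : 0 ≤ Q) (N : ℤ) : Vd D Q (pF D Q N) := by
  intro i hi
  unfold pF
  rw [if_pos hi, if_pos (by omega : i ≤ D)]
  push_cast
  constructor <;> linarith

/-- the constant position -/
def pC (D : ℕ) (Q : ℤ) : ℕ → ℤ := fun i => if i ≤ D then Q else 0

theorem Vd_pC (D : ℕ) {Q : ℤ} (hQ : 0 ≤ Q) : Vd D Q (pC D Q) := by
  intro i hi
  unfold pC
  rw [if_pos hi, if_pos (by omega : i ≤ D)]
  omega

theorem pK_le_pC (D : ℕ) {Q : ℤ} (hQ : 0 ≤ Q) : pK Q ≤ pC D Q := by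
  intro i
  unfold pK pC
  show (if i = 0 then Q else 0) ≤ if i ≤ D then Q else 0
  split_ifs <;> omega

end Vale.Agent.P202C.HC

namespace Vale.Agent.P202C

open Finset MI

universe u v

set_option linter.unusedSectionVars false

variable {S : Type u} [CommRing S] {ι : Type} [Fintype ι] (G : FCx S ι)
  {X : Type v} [AddCommGroup X] [Module S X] (C : FiltCx S X)

/-- functions supported in degree `i` with values in `Y` -/
def KY (i : ℤ) (Y : Submodule S X) : Submodule S (ι → X) where
  carrier := {x | ∀ a, (G.deg a ≠ i → x a = 0) ∧ x a ∈ Y}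
  zero_mem' := fun _ => ⟨fun _ => rfl, Y.zero_mem⟩
  add_mem' := fun {x y} hx hy a =>
    ⟨fun h => by rw [Pi.add_apply, (hx a).1 h, (hy a).1 h, add_zero], Y.add_mem (hx a).2 (hy a).2⟩
  smul_mem' := fun r x hx a =>
    ⟨fun h => by rw [Pi.smul_apply, (hx a).1 h, smul_zero], Y.smul_mem r (hx a).2⟩

variable {G}

theorem mem_KY {i : ℤ} {Y : Submodule S X} {x : ι → X} :
    x ∈ KY G i Y ↔ ∀ a, (G.deg a ≠ i → x a = 0) ∧ x a ∈ Y := Iff.rfl

theorem KY_mono {i : ℤ} {Y Y' : Submodule S X} (h : Y ≤ Y') : KY G i Y ≤ KY G i Y' :=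
  fun _ hx a => ⟨(hx a).1, h (hx a).2⟩

theorem KY_inf {i : ℤ} {Y Y' : Submodule S X} {x : ι → X} (h : x ∈ KY G i Y) (h' : x ∈ KY G i Y') :
    x ∈ KY G i (Y ⊓ Y') := fun a => ⟨(h a).1, (h a).2, (h' a).2⟩

theorem KY_lift {X' : Type v} [AddCommGroup X'] [Module S X'] (f : X' →ₗ[S] X) {i : ℤ}
    {Y : Submodule S X'} {x : ι → X} (h : x ∈ KY G i (Y.map f)) :
    ∃ y ∈ KY G i Y, ∀ a, f (y a) = x a := by
  classical
  choose g hg hg' using fun a => (h a).2
  refine ⟨fun a => if G.deg a = i then g a else 0, fun a => ⟨fun ha => if_neg ha, ?_⟩, fun a => ?_⟩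
  · show (if G.deg a = i then g a else 0) ∈ Y
    split_ifs
    · exact hg a
    · exact Y.zero_mem
  · show f (if G.deg a = i then g a else 0) = x a
    split_ifs with ha
    · exact hg' a
    · rw [map_zero, (h a).1 ha]

theorem KY_sup {i : ℤ} {Y Y' : Submodule S X} {x : ι → X} (h : x ∈ KY G i (Y ⊔ Y')) :
    ∃ y ∈ KY G i Y, ∃ z ∈ KY G i Y', x = y + z := by
  classical
  choose f hf g hg hfg using fun a => Submodule.mem_sup.1 (h a).2
  refine ⟨fun a => if G.deg a = i then f a else 0, fun a => ⟨fun ha => if_neg ha, ?_⟩,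
    fun a => if G.deg a = i then g a else 0, fun a => ⟨fun ha => if_neg ha, ?_⟩, ?_⟩
  · show (if G.deg a = i then f a else 0) ∈ Y
    split_ifs
    · exact hf a
    · exact Y.zero_mem
  · show (if G.deg a = i then g a else 0) ∈ Y'
    split_ifs
    · exact hg a
    · exact Y'.zero_mem
  · funext a
    show x a = (if G.deg a = i then f a else 0) + if G.deg a = i then g a else 0
    split_ifs with ha
    · exact (hfg a).symm
    · rw [(h a).1 ha, add_zero]

theorem act_apply {κ : Type} [Fintype κ] (m : Matrix κ ι S) (x : ι → X) (a : κ) :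
    act m X x a = ∑ b, m a b • x b := rfl

theorem act_KY {i : ℤ} {Y : Submodule S X} {x : ι → X} (h : x ∈ KY G i Y) :
    act G.mat X x ∈ KY G (i - 1) Y := by
  intro a
  rw [act_apply]
  refine ⟨fun ha => Finset.sum_eq_zero fun b _ => ?_, Y.sum_mem fun b _ => Y.smul_mem _ (h b).2⟩
  by_cases h1 : G.mat a b = 0
  · rw [h1, zero_smul]
  · have h2 := G.hdeg a b h1
    rw [(h b).1 (by omega), smul_zero]

theorem act_KY' {i : ℤ} {Y : Submodule S X} {x : ι → X} (h : x ∈ KY G (i + 1) Y) :
    act G.mat X x ∈ KY G i Y := by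
  have := act_KY h
  rwa [add_sub_cancel_right] at this

variable (ι) in
/-- the differential of `C` applied to the components -/
def dX : (ι → X) →ₗ[S] (ι → X) where
  toFun x := fun a => C.d (x a)
  map_add' := fun x y => by funext a; exact map_add _ _ _
  map_smul' := fun r x => by funext a; exact map_smul _ _ _

variable {C}

theorem dX_apply (x : ι → X) (a : ι) : dX ι C x a = C.d (x a) := rfl

theorem dX_dX (x : ι → X) : dX ι C (dX ι C x) = 0 := by
  funext a
  exact C.dd _

theorem dX_act (x : ι → X) : dX ι C (act G.mat X x) = act G.mat X (dX ι C x) := by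
  funext a
  rw [dX_apply, act_apply, act_apply, map_sum]
  exact Finset.sum_congr rfl fun b _ => by rw [map_smul]; rfl

theorem dX_KY {i : ℤ} {Y Y' : Submodule S X} (hY : ∀ y ∈ Y, C.d y ∈ Y') {x : ι → X}
    (h : x ∈ KY G i Y) : dX ι C x ∈ KY G i Y' :=
  fun a => ⟨fun ha => by rw [dX_apply, (h a).1 ha, map_zero], hY _ (h a).2⟩

theorem act_act (x : ι → X) : act G.mat X (act G.mat X x) = 0 := by
  classical
  funext a
  rw [act_apply]
  simp only [act_apply, Finset.smul_sum, smul_smul]
  rw [Finset.sum_comm]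
  have h4 : ∀ c, ∑ b, (G.mat a b * G.mat b c) • x c = (G.mat * G.mat) a c • x c := by
    intro c
    rw [Matrix.mul_apply, Finset.sum_smul]
  rw [Finset.sum_congr rfl fun c _ => h4 c, G.sq]
  simp

/-- a splitting of `U2` modulo `O` along `U1` -/
def Spl (O U1 U2 : Submodule S X) : Prop := ∃ U', U' ≤ U2 ∧ U2 ≤ U1 ⊔ U' ∧ U1 ⊓ U' ≤ O

theorem Spl.use {O U1 U2 : Submodule S X} (h : Spl O U1 U2) {i : ℤ} {x : ι → X}
    (hx : x ∈ KY G i U2) (hx' : act G.mat X x ∈ KY G (i - 1) U1) :
    ∃ y ∈ KY G i U1, ∃ z ∈ KY G i U2, x = y + z ∧ act G.mat X z ∈ KY G (i - 1) O := by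
  obtain ⟨U', h1, h2, h3⟩ := h
  obtain ⟨y, hy, z, hz, rfl⟩ := KY_sup (KY_mono h2 hx)
  refine ⟨y, hy, z, KY_mono h1 hz, rfl, KY_mono h3 (KY_inf ?_ (act_KY hz))⟩
  have h4 : act G.mat X z = act G.mat X (y + z) - act G.mat X y := by rw [map_add]; abel
  rw [h4]
  exact Submodule.sub_mem _ hx' (act_KY hy)

variable (G C)

/-- the decalage family -/
def DDf (a : ℕ → ℤ) (m : ℤ) : Submodule S (ι → X) :=
  TT G C a m ⊓ (TT G C a (m - 1)).comap (totd G C)

variable {G C}

theorem DDf_cx (a : ℕ → ℤ) : HC.IsCx (totd G C) (DDf G C a) := by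
  intro m
  rintro _ ⟨x, hx, rfl⟩
  refine ⟨hx.2, ?_⟩
  show totd G C (totd G C x) ∈ TT G C a (m - 1 - 1)
  rw [totd_totd]
  exact Submodule.zero_mem _

theorem DDf_anti {a b : ℕ → ℤ} (h : a ≤ b) : DDf G C b ≤ DDf G C a :=
  fun m _ hx => ⟨TT_anti h m hx.1, TT_anti h (m - 1) hx.2⟩

/-- the component of degree `i` -/
def cmp (G : FCx S ι) (i : ℤ) : (ι → X) →ₗ[S] (ι → X) where
  toFun x := fun a => if G.deg a = i then x a else 0
  map_add' := fun x y => by
    funext a
    show (if G.deg a = i then (x + y) a else 0) = (if G.deg a = i then x a else 0) +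
      if G.deg a = i then y a else 0
    split_ifs
    · rfl
    · rw [add_zero]
  map_smul' := fun r x => by
    funext a
    show (if G.deg a = i then (r • x) a else 0) = r • (if G.deg a = i then x a else 0)
    split_ifs
    · rfl
    · rw [smul_zero]

theorem cmp_apply (i : ℤ) (x : ι → X) (a : ι) : cmp G i x a = if G.deg a = i then x a else 0 := rfl

theorem cmp_KY {i : ℤ} {Y : Submodule S X} {x : ι → X} (h : ∀ a, G.deg a = i → x a ∈ Y) :
    cmp G i x ∈ KY G i Y := by
  intro a
  rw [cmp_apply]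
  refine ⟨fun ha => if_neg ha, ?_⟩
  split_ifs with ha
  · exact h a ha
  · exact Y.zero_mem

theorem cmp_of_KY {i : ℤ} {Y : Submodule S X} {x : ι → X} (h : x ∈ KY G i Y) : cmp G i x = x := by
  funext a
  rw [cmp_apply]
  split_ifs with ha
  · rfl
  · exact ((h a).1 ha).symm

theorem cmp_of_KY_ne {i j : ℤ} (hij : j ≠ i) {Y : Submodule S X} {x : ι → X} (h : x ∈ KY G i Y) :
    cmp G j x = 0 := by
  funext a
  rw [cmp_apply]
  split_ifs with ha
  · exact (h a).1 (by omega)
  · rfl

theorem cmp_totd (i : ℤ) (x : ι → X) :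
    cmp G i (totd G C x) = act G.mat X (cmp G (i + 1) x) + sgn i • dX ι C (cmp G i x) := by
  funext a
  rw [cmp_apply, Pi.add_apply, Pi.smul_apply, dX_apply, act_apply, cmp_apply]
  split_ifs with ha
  · rw [totd_apply, ha]
    congr 1
    refine Finset.sum_congr rfl fun b _ => ?_
    by_cases h1 : G.mat a b = 0
    · rw [h1, zero_smul, zero_smul]
    · have h2 := G.hdeg a b h1
      rw [cmp_apply, if_pos (by omega)]
  · rw [map_zero, smul_zero, add_zero]
    symm
    refine Finset.sum_eq_zero fun b _ => ?_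
    by_cases h1 : G.mat a b = 0
    · rw [h1, zero_smul]
    · have h2 := G.hdeg a b h1
      rw [cmp_apply, if_neg (by omega), smul_zero]

theorem mem_TT_iff {D : ℕ} (hdeg : ∀ a, 0 ≤ G.deg a ∧ G.deg a ≤ D) {a : ℕ → ℤ} {m : ℤ}
    {x : ι → X} : x ∈ TT G C a m ↔
      ∀ j : ℕ, j ≤ D → cmp G j x ∈ KY G j (C.gr (j - m) ⊓ C.F (a j)) := by
  constructor
  · intro h j hj
    refine cmp_KY fun b hb => ?_
    have := h b
    rw [hb] at this
    simpa using this
  · intro h b
    have h1 := hdeg b
    have h2 := h (G.deg b).toNat (by omega)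
    have h3 : (((G.deg b).toNat : ℕ) : ℤ) = G.deg b := Int.toNat_of_nonneg h1.1
    rw [h3] at h2
    have h4 := (h2 b).2
    rw [cmp_apply, if_pos rfl] at h4
    exact h4

theorem totd_KY {i : ℤ} {Y : Submodule S X} {x : ι → X} (h : x ∈ KY G i Y) :
    totd G C x = act G.mat X x + sgn i • dX ι C x := by
  funext a
  rw [totd_apply, Pi.add_apply, Pi.smul_apply, dX_apply, act_apply]
  by_cases ha : G.deg a = i
  · rw [ha]
  · rw [(h a).1 ha, map_zero, smul_zero, smul_zero]

/-- sub-families -/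
theorem KY_le_TT {a : ℕ → ℤ} {m : ℤ} {i : ℕ} {x : ι → X}
    (h : x ∈ KY G i (C.gr (i - m) ⊓ C.F (a i))) : x ∈ TT G C a m := by
  intro b
  by_cases hb : G.deg b = i
  · have := (h b).2
    rw [hb]
    simpa using this
  · rw [(h b).1 hb]
    exact Submodule.zero_mem _

end Vale.Agent.P202C
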