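import Vale.Agent.P202C.Dec2

/-!
# P202C, decalage: the single step
-/

set_option autoImplicit false
set_option linter.unusedSectionVars false

namespace Vale.Agent.P202C

open Finset MI

universe u v

variable {S : Type u} [CommRing S] {ι : Type} [Fintype ι] (G : FCx S ι)
  {X : Type v} [AddCommGroup X] [Module S X] (C : FiltCx S X)

/-- cochains of degree `k` of the slice -/
def Gk (s k : ℤ) : Submodule S X := C.gr k ⊓ C.F s

/-- the slice cycles -/
def Zk (s k : ℤ) : Submodule S X := C.gr k ⊓ C.F s ⊓ (C.F (s + 1)).comap C.d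

/-- the slice boundaries -/
def Bk (s k : ℤ) : Submodule S X := (C.gr k ⊓ C.F (s + 1)) ⊔ (C.gr (k - 1) ⊓ C.F s).map C.d

/-- numerator of the step -/
def Nn (i s k : ℤ) : Submodule S (ι → X) :=
  KY G i (Gk C s k) ⊓ (KY G (i - 1) (Gk C (s + 1) k)).comap (act G.mat X) ⊓
    (KY G i (Gk C (s + 1) (k + 1)) ⊔ (KY G (i + 1) (Gk C s (k + 1))).map (act G.mat X)).comap
      (dX ι C)

/-- denominator of the step -/
def Dn (i s k : ℤ) : Submodule S (ι → X) :=
  KY G i (Gk C (s + 1) k) ⊔ (KY G (i + 1) (Gk C s k)).map (act G.mat X) ⊔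
    (KY G i (Gk C s (k - 1)) ⊓ (KY G (i - 1) (Gk C (s + 1) (k - 1))).comap (act G.mat X)).map
      (dX ι C)

variable {G C}

theorem Gk_mono {s t k : ℤ} (h : s ≤ t) : Gk C t k ≤ Gk C s k :=
  inf_le_inf_left _ (FiltCx.F_mono h)

theorem Gk_d {s k : ℤ} {x : X} (h : x ∈ Gk C s k) : C.d x ∈ Gk C s (k + 1) :=
  ⟨C.d_gr _ _ h.1, C.d_F _ _ h.2⟩

theorem KY_empty {j : ℤ} (hj : ∀ b, G.deg b ≠ j) {Y : Submodule S X} {x : ι → X}
    (h : x ∈ KY G j Y) : x = 0 := by
  funext b
  exact (h b).1 (hj b)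

theorem KY_TT {a : ℕ → ℤ} {m j s k : ℤ} {x : ι → X} (h : x ∈ KY G j (Gk C s k)) (hk : k = j - m)
    (hs : ∀ b, G.deg b = j → a j.toNat ≤ s) : x ∈ TT G C a m := by
  intro b
  by_cases hb : G.deg b = j
  · rw [hb, ← hk]
    exact ⟨(h b).2.1, FiltCx.F_mono (hs b hb) (h b).2.2⟩
  · rw [(h b).1 hb]
    exact Submodule.zero_mem _

theorem TT_dX {a : ℕ → ℤ} {m : ℤ} {x : ι → X} (h : x ∈ TT G C a m) :
    dX ι C x ∈ TT G C a (m - 1) := by
  intro b
  have h1 := h b
  refine ⟨?_, C.d_F _ _ h1.2⟩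
  have h2 : G.deg b - (m - 1) = G.deg b - m + 1 := by ring
  rw [h2]
  exact C.d_gr _ _ h1.1

/-- elements in one degree of the decalage -/
theorem KY_DDf {a : ℕ → ℤ} {m j s k t : ℤ} {x : ι → X} (h : x ∈ KY G j (Gk C s k)) (hk : k = j - m)
    (hs : ∀ b, G.deg b = j → a j.toNat ≤ s) (h' : act G.mat X x ∈ KY G (j - 1) (Gk C t k))
    (ht : ∀ b, G.deg b = j - 1 → a (j - 1).toNat ≤ t) : x ∈ DDf G C a m := by
  refine ⟨KY_TT h hk hs, ?_⟩
  show totd G C x ∈ TT G C a (m - 1)
  rw [totd_KY h]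
  refine Submodule.add_mem _ (KY_TT h' (by omega) ht) (zsmul_mem (TT_dX (KY_TT h hk hs)) _)

theorem cmp_mem {a : ℕ → ℤ} {m : ℤ} {x : ι → X} (h : x ∈ TT G C a m) (i : ℤ) :
    cmp G i x ∈ KY G i (Gk C (a i.toNat) (i - m)) := by
  refine cmp_KY fun b hb => ?_
  have := h b
  rw [hb] at this
  exact this

theorem act_cmp_mem {a : ℕ → ℤ} {m : ℤ} {x : ι → X} (h : x ∈ DDf G C a m) (i : ℤ) :
    act G.mat X (cmp G i x) ∈ KY G (i - 1) (Gk C (a (i - 1).toNat) (i - m)) := by
  have h1 := cmp_totd (G := G) (C := C) (i - 1) x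
  rw [sub_add_cancel] at h1
  have h2 : act G.mat X (cmp G i x) = cmp G (i - 1) (totd G C x) -
      sgn (i - 1) • dX ι C (cmp G (i - 1) x) := by rw [h1]; abel
  rw [h2]
  have h3 := cmp_mem h.2 (i - 1)
  have e1 : i - 1 - (m - 1) = i - m := by ring
  rw [e1] at h3
  have h4 := cmp_mem h.1 (i - 1)
  have h5 := dX_KY (fun y hy => Gk_d hy) h4
  have e2 : i - 1 - m + 1 = i - m := by ring
  rw [e2] at h5
  exact Submodule.sub_mem _ h3 (zsmul_mem h5 _)

/-- lifting of cycles -/
theorem lift_cyc {Q : ℤ} (hsp : ∀ k s, Spl (Gk C (s + Q) k) (Gk C (s + 1) k) (Gk C s k))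
    {i s k : ℤ} {x : ι → X} (hx : x ∈ KY G i (Gk C s k))
    (hx' : act G.mat X x ∈ KY G (i - 1) (Gk C (s + 1) k)) :
    ∃ y ∈ KY G i (Gk C (s + 1) k), ∃ z ∈ KY G i (Gk C s k), x = y + z ∧
      act G.mat X z ∈ KY G (i - 1) (Gk C (s + Q) k) := (hsp k s).use hx hx'

/-- boundaries lying in a smaller step of the filtration -/
theorem bdry {Q : ℤ} (hsp : ∀ k s, Spl (Gk C (s + Q) k) (Gk C (s + 1) k) (Gk C s k))
    {i s k : ℤ} : ∀ (n : ℕ) (t : ℤ), t + n = s → s + 1 ≤ t + Q → ∀ x ∈ KY G (i + 1) (Gk C t k),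
      act G.mat X x ∈ KY G i (Gk C s k) → ∃ y ∈ KY G (i + 1) (Gk C s k),
        act G.mat X x - act G.mat X y ∈ KY G i (Gk C (s + 1) k) := by
  intro n
  induction n with
  | zero =>
    intro t ht _ x hx _
    have : t = s := by simpa using ht
    subst this
    refine ⟨x, hx, ?_⟩
    rw [sub_self]
    exact Submodule.zero_mem _
  | succ n ih =>
    intro t ht htQ x hx hx'
    have h1 : act G.mat X x ∈ KY G (i + 1 - 1) (Gk C (t + 1) k) := by
      rw [add_sub_cancel_right]
      exact KY_mono (Gk_mono (by push_cast at ht; omega)) hx'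
    obtain ⟨y, hy, z, hz, rfl, hz'⟩ := lift_cyc hsp hx h1
    rw [add_sub_cancel_right] at hz'
    have h2 : act G.mat X z ∈ KY G i (Gk C (s + 1) k) := KY_mono (Gk_mono (by omega)) hz'
    have h3 : act G.mat X y ∈ KY G i (Gk C s k) := by
      have h4 : act G.mat X y = act G.mat X (y + z) - act G.mat X z := by rw [map_add]; abel
      rw [h4]
      exact Submodule.sub_mem _ hx' (KY_mono (Gk_mono (by omega)) h2)
    obtain ⟨w, hw, hw'⟩ := ih (t + 1) (by push_cast at ht; omega) (by omega) y hy h3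
    refine ⟨w, hw, ?_⟩
    have h5 : act G.mat X (y + z) - act G.mat X w = (act G.mat X y - act G.mat X w) +
        act G.mat X z := by rw [map_add]; abel
    rw [h5]
    exact Submodule.add_mem _ hw' h2

variable {D : ℕ} {Q : ℤ}

/-- the single step of the decalage -/
theorem DD_step (hsp : ∀ k s, Spl (Gk C (s + Q) k) (Gk C (s + 1) k) (Gk C s k))
    (hdeg : ∀ a, 0 ≤ G.deg a ∧ G.deg a ≤ D) {a : ℕ → ℤ} {i : ℕ} (hi : i ≤ D)
    (ha : HC.Vd D Q a) (hb : HC.Vd D Q (Function.update a i (a i + 1))) (m : ℤ) :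
    HC.hl (totd G C) (DDf G C a) (DDf G C (Function.update a i (a i + 1))) m =
      HC.ql (Dn G C i (a i) (i - m)) (Nn G C i (a i) (i - m)) := by
  classical
  set s := a i with hs
  set k : ℤ := i - m with hk
  set ψ := Function.update a i (s + 1) with hψ
  have hψi : ψ i = s + 1 := by rw [hψ, Function.update_self]
  have hψn : ∀ j, j ≠ i → ψ j = a j := fun j hj => by rw [hψ, Function.update_of_ne hj]
  have haψ : a ≤ ψ := by
    intro j
    show a j ≤ ψ j
    by_cases hj : j = i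
    · rw [hj, hψi]; omega
    · rw [hψn j hj]
  have hup : ∀ b, G.deg b = (i : ℤ) + 1 → a ((i : ℤ) + 1).toNat ≤ s ∧
      s + 1 ≤ a ((i : ℤ) + 1).toNat + Q := by
    intro b hb'
    have h1 := hdeg b
    have h2 := ha i (by omega)
    have h3 := hb i (by omega)
    have e : ((i : ℤ) + 1).toNat = i + 1 := by omega
    rw [hψi, hψn _ (by omega)] at h3
    rw [e]
    omega
  have hdn : ∀ b, G.deg b = (i : ℤ) - 1 → s + 1 ≤ a ((i : ℤ) - 1).toNat ∧
      a ((i : ℤ) - 1).toNat ≤ s + Q := by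
    intro b hb'
    have h1 := hdeg b
    obtain ⟨j, rfl⟩ : ∃ j, i = j + 1 := ⟨i - 1, by omega⟩
    have h2 := ha j (by omega)
    have h3 := hb j (by omega)
    have e : (((j + 1 : ℕ) : ℤ) - 1).toNat = j := by omega
    rw [hψi, hψn _ (by omega)] at h3
    rw [e]
    omega
  have hieq : ((i : ℤ)).toNat = i := by simp
  -- first facts on components
  have hC1 : ∀ x ∈ TT G C a m, cmp G i x ∈ KY G i (Gk C s k) := by
    intro x hx
    have := cmp_mem hx i
    rwa [hieq] at this
  -- the lower differential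
  have hC2 : ∀ x (m' : ℤ), x ∈ DDf G C a m' →
      act G.mat X (cmp G i x) ∈ KY G (i - 1) (Gk C (s + 1) (i - m')) := by
    intro x m' hx
    have h1 := act_cmp_mem hx i
    by_cases he : ∃ b, G.deg b = (i : ℤ) - 1
    · obtain ⟨b, hb'⟩ := he
      exact KY_mono (Gk_mono (hdn b hb').1) h1
    · push Not at he
      rw [KY_empty he h1]
      exact Submodule.zero_mem _
  -- the upper differential
  have hC3 : ∀ x (m' : ℤ), x ∈ DDf G C a m' → ∃ y ∈ KY G (i + 1) (Gk C s (i + 1 - m')),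
      act G.mat X (cmp G (i + 1) x) - act G.mat X y ∈ KY G i (Gk C (s + 1) (i + 1 - m')) := by
    intro x m' hx
    by_cases he : ∃ b, G.deg b = (i : ℤ) + 1
    · obtain ⟨b, hb'⟩ := he
      have h1 := cmp_mem hx.1 (i + 1)
      have h2 := act_cmp_mem hx (i + 1)
      rw [add_sub_cancel_right, hieq] at h2
      have h3 := hup b hb'
      exact bdry hsp (s - a ((i : ℤ) + 1).toNat).toNat _ (by omega) h3.2 _ h1 h2
    · push Not at he
      refine ⟨0, Submodule.zero_mem _, ?_⟩
      rw [KY_empty he (cmp_mem hx.1 (i + 1)), sub_self]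
      exact Submodule.zero_mem _
  -- raising elements to the decalage
  have hL1 : ∀ (m' : ℤ) (z : ι → X), z ∈ KY G i (Gk C s (i - m')) →
      act G.mat X z ∈ KY G (i - 1) (Gk C (s + Q) (i - m')) → z ∈ DDf G C a m' := by
    intro m' z hz hz'
    refine KY_DDf hz rfl (fun b hb' => by rw [hieq]) hz' (fun b hb' => (hdn b hb').2)
  have hL2 : ∀ (m' : ℤ) (y : ι → X), y ∈ KY G (i + 1) (Gk C s (i + 1 - m')) → y ∈ DDf G C a m' := by
    intro m' y hy
    refine KY_DDf hy rfl (fun b hb' => (hup b hb').1) (act_KY hy) (fun b hb' => ?_)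
    rw [add_sub_cancel_right, hieq]
  have hsg : sgn (i : ℤ) * sgn ((i : ℤ) + 1) = -1 := by
    rw [sgn_succ, mul_neg, sgn_sq]
  unfold HC.hl
  refine HC.ql_eq_of (cmp G i) ?_ ?_ ?_
  · -- cycles
    rintro x ⟨hx, hx'⟩
    refine ⟨⟨hC1 x hx.1, hC2 x m hx⟩, ?_⟩
    show dX ι C (cmp G i x) ∈ KY G i (Gk C (s + 1) (k + 1)) ⊔
      (KY G (i + 1) (Gk C s (k + 1))).map (act G.mat X)
    obtain ⟨y, hy, hy'⟩ := hC3 x m hx
    have h1 := cmp_totd (G := G) (C := C) i x
    have h2 := cmp_mem hx'.1 i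
    rw [hieq, hψi] at h2
    have h3 : sgn (i : ℤ) • dX ι C (cmp G i x) =
        (cmp G i (totd G C x) - (act G.mat X (cmp G (i + 1) x) - act G.mat X y)) +
          -act G.mat X y := by
      rw [h1]; abel
    have h4 : dX ι C (cmp G i x) = sgn (i : ℤ) • (sgn (i : ℤ) • dX ι C (cmp G i x)) := by
      rw [smul_smul, sgn_sq, one_smul]
    rw [h4, h3]
    have e1 : (i : ℤ) - (m - 1) = k + 1 := by omega
    have e2 : (i : ℤ) + 1 - m = k + 1 := by omega
    rw [e1] at h2
    rw [e2] at hy' hy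
    have h5 : act G.mat X y ∈ (KY G (i + 1) (Gk C s (k + 1))).map (act G.mat X) := ⟨y, hy, rfl⟩
    exact zsmul_mem (Submodule.add_mem_sup (Submodule.sub_mem _ h2 hy')
      (Submodule.neg_mem _ h5)) _
  · -- surjectivity
    rintro w ⟨⟨hw, hw'⟩, hwd⟩
    obtain ⟨y1, hy1, z, hz, hwz, hz'⟩ := lift_cyc hsp hw hw'
    obtain ⟨o, ho, w2, ⟨y, hy, rfl⟩, hoy⟩ := Submodule.mem_sup.1 hwd
    have hy0 : y ∈ KY G (i + 1) (Gk C s (i + 1 - m)) := by
      have e2 : (i : ℤ) + 1 - m = k + 1 := by omega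
      rw [e2]
      exact hy
    have hzD : z ∈ DDf G C a m := hL1 m z hz hz'
    have hyD : y ∈ DDf G C a m := hL2 m y hy0
    have hdz : dX ι C z = (o - dX ι C y1) + act G.mat X y := by
      have h1 : dX ι C w = dX ι C y1 + dX ι C z := by rw [hwz, map_add]
      have h2 : dX ι C z = dX ι C w - dX ι C y1 := by rw [h1]; abel
      rw [h2, ← hoy]
      abel
    have htot : totd G C (z - sgn (i : ℤ) • y) = act G.mat X z +
        sgn (i : ℤ) • (o - dX ι C y1) + dX ι C y := by
      rw [map_sub, map_zsmul, totd_KY hz, totd_KY hy0, hdz, smul_add, smul_add, smul_smul, hsg,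
        neg_smul, one_smul]
      abel
    refine ⟨z - sgn (i : ℤ) • y, ⟨Submodule.sub_mem _ hzD (zsmul_mem hyD _), ?_⟩, ?_⟩
    · show totd G C (z - sgn (i : ℤ) • y) ∈ DDf G C ψ (m - 1)
      refine ⟨?_, ?_⟩
      · rw [htot]
        refine Submodule.add_mem _ (Submodule.add_mem _ ?_ (zsmul_mem ?_ _)) ?_
        · refine KY_TT hz' (by omega) (fun b hb' => ?_)
          rw [hψn _ (by have := hdeg b; omega)]
          exact (hdn b hb').2
        · have h1 : o - dX ι C y1 ∈ KY G i (Gk C (s + 1) (k + 1)) :=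
            Submodule.sub_mem _ ho (dX_KY (fun y hy => Gk_d hy) hy1)
          refine KY_TT h1 (by omega) (fun b hb' => ?_)
          rw [hieq, hψi]
        · refine KY_TT (dX_KY (fun y hy => Gk_d hy) hy) (by omega) (fun b hb' => ?_)
          rw [hψn _ (by have := hdeg b; omega)]
          exact (hup b hb').1
      · show totd G C (totd G C _) ∈ TT G C ψ (m - 1 - 1)
        rw [totd_totd]
        exact Submodule.zero_mem _
    · have h1 : cmp G i (z - sgn (i : ℤ) • y) = z := by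
        rw [map_sub, map_zsmul, cmp_of_KY hz, cmp_of_KY_ne (by omega) hy, smul_zero, sub_zero]
      rw [h1, hwz]
      have h2 : z - (y1 + z) = -y1 := by abel
      rw [h2]
      exact Submodule.mem_sup_left (Submodule.mem_sup_left (Submodule.neg_mem _ hy1))
  · -- kernel
    rintro x ⟨hx, hx'⟩
    constructor
    · intro h
      obtain ⟨u1, hu1, d1, ⟨c, ⟨hc, hc'⟩, rfl⟩, hsum⟩ := Submodule.mem_sup.1 h
      obtain ⟨f, hf, w1, ⟨y, hy, rfl⟩, rfl⟩ := Submodule.mem_sup.1 hu1
      obtain ⟨c1, hc1, c2, hc2, rfl, hc2'⟩ := lift_cyc hsp hc hc'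
      have e1 : k - 1 = (i : ℤ) - (m + 1) := by omega
      have e2 : k = (i : ℤ) + 1 - (m + 1) := by omega
      have hcD : c2 ∈ DDf G C a (m + 1) := by
        rw [e1] at hc2 hc2'
        exact hL1 (m + 1) c2 hc2 hc2'
      have hyD : y ∈ DDf G C a (m + 1) := by
        have hy0 : y ∈ KY G (i + 1) (Gk C s (i + 1 - (m + 1))) := by rw [← e2]; exact hy
        exact hL2 (m + 1) y hy0
      set w := y + sgn (i : ℤ) • c2 with hw
      have hwD : w ∈ DDf G C a (m + 1) := Submodule.add_mem _ hyD (zsmul_mem hcD _)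
      have hcw : cmp G i (totd G C w) = act G.mat X y + dX ι C c2 := by
        have a1 : cmp G ((i : ℤ) + 1) w = y := by
          rw [hw, map_add, map_zsmul, cmp_of_KY hy, cmp_of_KY_ne (by omega) hc2, smul_zero,
            add_zero]
        have a2 : cmp G (i : ℤ) w = sgn (i : ℤ) • c2 := by
          rw [hw, map_add, map_zsmul, cmp_of_KY_ne (by omega) hy, cmp_of_KY hc2, zero_add]
        rw [cmp_totd, a1, a2, map_zsmul, smul_smul, sgn_sq, one_smul]
      have h1 : cmp G i (x - totd G C w) = f + dX ι C c1 := by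
        rw [map_sub, hcw, ← hsum, map_add]
        abel
      have h2 : x - totd G C w ∈ TT G C a m := Submodule.sub_mem _ hx.1 ((DDf_cx a).mem' hwD).1
      have h3 : x - totd G C w ∈ DDf G C ψ m := by
        refine ⟨?_, ?_⟩
        · intro b
          by_cases hb' : G.deg b = i
          · have h4 : (x - totd G C w) b = (f + dX ι C c1) b := by
              rw [← h1, cmp_apply, if_pos hb']
            have h5 : f + dX ι C c1 ∈ KY G i (Gk C (s + 1) k) := by
              refine Submodule.add_mem _ hf ?_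
              have := dX_KY (fun y hy => Gk_d hy) hc1
              rwa [sub_add_cancel] at this
            have h6 := (h5 b).2
            rw [← h4] at h6
            rw [hb']
            show _ ∈ C.gr ((i : ℤ) - m) ⊓ C.F (ψ (i : ℤ).toNat)
            rw [hieq, hψi]
            exact h6
          · have h7 := h2 b
            show _ ∈ C.gr (G.deg b - m) ⊓ C.F (ψ (G.deg b).toNat)
            rw [hψn (G.deg b).toNat (by have := hdeg b; omega)]
            exact h7
        · show totd G C (x - totd G C w) ∈ TT G C ψ (m - 1)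
          rw [map_sub, totd_totd, sub_zero]
          exact hx'.1
      have h4 : x = (x - totd G C w) + totd G C w := by abel
      rw [h4]
      exact Submodule.add_mem_sup h3 ⟨w, hwD, rfl⟩
    · intro h
      obtain ⟨v, hv, w1, ⟨w, hw, rfl⟩, rfl⟩ := Submodule.mem_sup.1 h
      rw [map_add, cmp_totd]
      have h1 := cmp_mem hv.1 i
      rw [hieq, hψi] at h1
      obtain ⟨y, hy, hy'⟩ := hC3 w (m + 1) hw
      have e1 : (i : ℤ) + 1 - (m + 1) = k := by omega
      rw [e1] at hy hy'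
      have h2 : cmp G i v + (act G.mat X (cmp G (i + 1) w) + sgn (i : ℤ) • dX ι C (cmp G i w)) =
          (cmp G i v + (act G.mat X (cmp G (i + 1) w) - act G.mat X y) + act G.mat X y) +
            sgn (i : ℤ) • dX ι C (cmp G i w) := by abel
      rw [h2]
      have e2 : (i : ℤ) - (m + 1) = k - 1 := by omega
      have h3 := cmp_mem hw.1 i
      rw [hieq, e2] at h3
      have h4 := hC2 w (m + 1) hw
      rw [e2] at h4
      have h5 : dX ι C (cmp G i w) ∈ (KY G i (Gk C s (k - 1)) ⊓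
          (KY G (i - 1) (Gk C (s + 1) (k - 1))).comap (act G.mat X)).map (dX ι C) :=
        ⟨cmp G i w, ⟨h3, h4⟩, rfl⟩
      exact Submodule.add_mem_sup (Submodule.add_mem_sup (Submodule.add_mem _ h1 hy')
        ⟨y, hy, rfl⟩) (zsmul_mem h5 _)

end Vale.Agent.P202C
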