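import Vale.Agent.P202C.Dec3

/-!
# P202C, decalage: the length of the single step
-/

set_option autoImplicit false
set_option linter.unusedSectionVars false

namespace Vale.Agent.P202C

open Finset MI

universe u v

variable {S : Type u} [CommRing S] {ι : Type} [Fintype ι] {G : FCx S ι}
  {X : Type v} [AddCommGroup X] [Module S X] {C : FiltCx S X}

/-- vectors with entries in `J` -/
def Jn (J : Ideal S) (n : ℕ) : Submodule S (Fin n → S) where
  carrier := {x | ∀ j, x j ∈ J}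
  zero_mem' := fun _ => J.zero_mem
  add_mem' := fun hx hy j => J.add_mem (hx j) (hy j)
  smul_mem' := fun r _ hx j => J.mul_mem_left r (hx j)

variable (G) in
/-- cycles modulo `J` -/
def ZJ (J : Ideal S) (i : ℤ) (n : ℕ) : Submodule S (ι → (Fin n → S)) :=
  KY G i (⊤ : Submodule S (Fin n → S)) ⊓ (KY G (i - 1) (Jn J n)).comap (act G.mat (Fin n → S))

variable (G) in
/-- boundaries modulo `J` -/
def BJ (J : Ideal S) (i : ℤ) (n : ℕ) : Submodule S (ι → (Fin n → S)) :=
  (KY G (i + 1) (⊤ : Submodule S (Fin n → S))).map (act G.mat (Fin n → S)) ⊔ KY G i (Jn J n)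

/-- a linear map applied to the components -/
def mp {Y : Type u} [AddCommGroup Y] [Module S Y] (φ : Y →ₗ[S] X) (ι : Type) :
    (ι → Y) →ₗ[S] (ι → X) where
  toFun x := fun a => φ (x a)
  map_add' := fun x y => by funext a; exact map_add _ _ _
  map_smul' := fun r x => by funext a; exact map_smul _ _ _

section Mp

variable {Y : Type u} [AddCommGroup Y] [Module S Y] (φ : Y →ₗ[S] X)

theorem mp_apply (x : ι → Y) (a : ι) : mp φ ι x a = φ (x a) := rfl

theorem mp_act (x : ι → Y) : mp φ ι (act G.mat Y x) = act G.mat X (mp φ ι x) := by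
  funext a
  rw [mp_apply, act_apply, act_apply, map_sum]
  exact Finset.sum_congr rfl fun b _ => by rw [map_smul]; rfl

theorem mp_KY {i : ℤ} {U : Submodule S Y} {U' : Submodule S X} (h : ∀ y ∈ U, φ y ∈ U') {x : ι → Y}
    (hx : x ∈ KY G i U) : mp φ ι x ∈ KY G i U' :=
  fun a => ⟨fun ha => by rw [mp_apply, (hx a).1 ha, map_zero], h _ (hx a).2⟩

theorem KY_range {i : ℤ} {x : ι → X} (hx : x ∈ KY G i (LinearMap.range φ)) :
    ∃ y ∈ KY G i (⊤ : Submodule S Y), mp φ ι y = x := by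
  classical
  choose g hg using fun a => (hx a).2
  refine ⟨fun a => if G.deg a = i then g a else 0, fun a => ⟨fun ha => if_neg ha, trivial⟩, ?_⟩
  funext a
  show φ (if G.deg a = i then g a else 0) = x a
  split_ifs with ha
  · exact hg a
  · rw [map_zero, (hx a).1 ha]

end Mp

theorem KY_dlift {i : ℤ} {Y : Submodule S X} {x : ι → X} (h : x ∈ KY G i (Y.map C.d)) :
    ∃ y ∈ KY G i Y, dX ι C y = x := by
  obtain ⟨y, hy, hyx⟩ := KY_lift C.d h
  exact ⟨y, hy, funext hyx⟩

theorem Gk_le_Bk {s k : ℤ} : Gk C (s + 1) k ≤ Bk C s k := le_sup_left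

theorem Bk_le_Zk {s k : ℤ} : Bk C s k ≤ Zk C s k := by
  refine sup_le (le_inf (inf_le_inf_left _ (C.F_anti s)) fun x hx => C.d_F _ _ hx.2) ?_
  rintro _ ⟨x, hx, rfl⟩
  refine ⟨⟨?_, C.d_F _ _ hx.2⟩, ?_⟩
  · have := C.d_gr _ _ hx.1
    rwa [sub_add_cancel] at this
  · show C.d (C.d x) ∈ C.F (s + 1)
    rw [C.dd]
    exact Submodule.zero_mem _

theorem Zk_le_Gk {s k : ℤ} : Zk C s k ≤ Gk C s k := inf_le_left

theorem Zk_d {s k : ℤ} {x : X} (h : x ∈ Zk C s k) : C.d x ∈ Gk C (s + 1) (k + 1) :=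
  ⟨C.d_gr _ _ h.1.1, h.2⟩

theorem d_Bk' {s k : ℤ} {x : X} (h : x ∈ Gk C s (k - 1)) : C.d x ∈ Bk C s k :=
  Submodule.mem_sup_right ⟨x, h, rfl⟩

theorem d_Bk {s k : ℤ} {x : X} (h : x ∈ Gk C s k) : C.d x ∈ Bk C s (k + 1) := by
  refine d_Bk' ?_
  rw [add_sub_cancel_right]
  exact h

theorem step_len {J : Ideal S} {i s k : ℤ} {n : ℕ}
    (spZ : Spl (Gk C (s + 1) k) (Zk C s k) (Gk C s k))
    (spZ' : Spl (Gk C (s + 1) (k - 1)) (Zk C s (k - 1)) (Gk C s (k - 1)))
    (spB : Spl (Gk C (s + 1) (k + 1)) (Bk C s (k + 1)) (Gk C s (k + 1)))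
    (φ : (Fin n → S) →ₗ[S] X) (h1 : ∀ x, φ x ∈ Zk C s k)
    (h2 : Zk C s k ≤ Bk C s k ⊔ LinearMap.range φ)
    (h3 : ∀ x, φ x ∈ Bk C s k ↔ x ∈ Jn J n) (h4 : ∀ x ∈ Jn J n, φ x ∈ C.F (s + 1)) :
    HC.ql (Dn G C i s k) (Nn G C i s k) = HC.ql (BJ G J i n) (ZJ G J i n) := by
  have h4' : ∀ x ∈ Jn J n, φ x ∈ Gk C (s + 1) k := fun x hx => ⟨(h1 x).1.1, h4 x hx⟩
  symm
  refine HC.ql_eq_of (mp φ ι) ?_ ?_ ?_
  · rintro x ⟨hx, hx'⟩
    have hZ : mp φ ι x ∈ KY G i (Zk C s k) := mp_KY φ (fun y _ => h1 y) hx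
    refine ⟨⟨KY_mono Zk_le_Gk hZ, ?_⟩, ?_⟩
    · show act G.mat X (mp φ ι x) ∈ KY G (i - 1) (Gk C (s + 1) k)
      rw [← mp_act]
      exact mp_KY φ h4' hx'
    · refine Submodule.mem_sup_left ?_
      exact dX_KY (fun y hy => Zk_d hy) hZ
  · rintro w ⟨⟨hw, hw'⟩, hwd⟩
    obtain ⟨o, ho, w2, ⟨y, hy, rfl⟩, hoy⟩ := Submodule.mem_sup.1 hwd
    have hw'' : act G.mat X w ∈ KY G (i - 1) (Gk C (s + 1) k) := hw'
    -- (b)
    have hdw : dX ι C w ∈ KY G i (Bk C s (k + 1)) := dX_KY (fun y hy => d_Bk hy) hw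
    have hay : act G.mat X y ∈ KY G (i + 1 - 1) (Bk C s (k + 1)) := by
      rw [add_sub_cancel_right]
      have : act G.mat X y = dX ι C w - o := by rw [← hoy]; abel
      rw [this]
      exact Submodule.sub_mem _ hdw (KY_mono Gk_le_Bk ho)
    obtain ⟨y1, hy1, y2, hy2, rfl, hy2'⟩ := spB.use hy hay
    rw [add_sub_cancel_right] at hy2'
    obtain ⟨y11, hy11, y12, hy12, rfl⟩ := KY_sup hy1
    obtain ⟨c, hc, rfl⟩ := KY_dlift hy12
    have hc' : c ∈ KY G (i + 1) (Gk C s k) := by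
      have e : k + 1 - 1 = k := by ring
      rw [e] at hc
      exact hc
    set w' := w - act G.mat X c with hw'def
    have hw'G : w' ∈ KY G i (Gk C s k) := Submodule.sub_mem _ hw (act_KY' hc')
    have hw'd : dX ι C w' ∈ KY G i (Gk C (s + 1) (k + 1)) := by
      have : dX ι C w' = o + act G.mat X y11 + act G.mat X y2 := by
        rw [hw'def, map_sub, ← hoy, map_add, map_add, dX_act]
        abel
      rw [this]
      exact Submodule.add_mem _ (Submodule.add_mem _ ho (act_KY' hy11)) hy2'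
    have hw'Z : w' ∈ KY G i (Zk C s k) := fun a =>
      ⟨(hw'G a).1, (hw'G a).2, (hw'd a).2.2⟩
    have hw'a : act G.mat X w' ∈ KY G (i - 1) (Gk C (s + 1) k) := by
      rw [hw'def, map_sub, act_act, sub_zero]
      exact hw''
    -- (c)
    obtain ⟨b, hb, e, he, hbe⟩ := KY_sup (KY_mono h2 hw'Z)
    obtain ⟨x, hx, rfl⟩ := KY_range φ he
    have hax : act G.mat (Fin n → S) x ∈ KY G (i - 1) (Jn J n) := by
      have h5 : mp φ ι (act G.mat (Fin n → S) x) ∈ KY G (i - 1) (Bk C s k) := by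
        have : mp φ ι (act G.mat (Fin n → S) x) = act G.mat X w' - act G.mat X b := by
          rw [mp_act, hbe, map_add]; abel
        rw [this]
        exact Submodule.sub_mem _ (KY_mono Gk_le_Bk hw'a) (act_KY hb)
      intro a
      exact ⟨((act_KY hx) a).1, (h3 _).1 (h5 a).2⟩
    have hab : act G.mat X b ∈ KY G (i - 1) (Gk C (s + 1) k) := by
      have : act G.mat X b = act G.mat X w' - mp φ ι (act G.mat (Fin n → S) x) := by
        rw [mp_act, hbe, map_add]; abel
      rw [this]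
      exact Submodule.sub_mem _ hw'a (mp_KY φ h4' hax)
    -- (a)
    have hbD : b ∈ Dn G C i s k := by
      obtain ⟨b1, hb1, b2, hb2, rfl⟩ := KY_sup hb
      obtain ⟨c1, hc1, rfl⟩ := KY_dlift hb2
      have hac1 : act G.mat X c1 ∈ KY G (i - 1) (Zk C s (k - 1)) := by
        have h5 := act_KY hc1
        have h6 : dX ι C (act G.mat X c1) ∈ KY G (i - 1) (Gk C (s + 1) k) := by
          have : dX ι C (act G.mat X c1) = act G.mat X (b1 + dX ι C c1) - act G.mat X b1 := by
            rw [dX_act, map_add]; abel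
          rw [this]
          exact Submodule.sub_mem _ hab (act_KY hb1)
        exact fun a => ⟨(h5 a).1, (h5 a).2, (h6 a).2.2⟩
      obtain ⟨z, hz, c2, hc2, rfl, hc2'⟩ := spZ'.use hc1 hac1
      have h7 : dX ι C z ∈ KY G i (Gk C (s + 1) k) := by
        have := dX_KY (fun y hy => Zk_d hy) hz
        rwa [sub_add_cancel] at this
      have h8 : b1 + dX ι C (z + c2) = (b1 + dX ι C z) + dX ι C c2 := by rw [map_add]; abel
      rw [h8]
      have h9 : dX ι C c2 ∈ (KY G i (Gk C s (k - 1)) ⊓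
          (KY G (i - 1) (Gk C (s + 1) (k - 1))).comap (act G.mat X)).map (dX ι C) :=
        ⟨c2, ⟨hc2, hc2'⟩, rfl⟩
      exact Submodule.add_mem_sup (Submodule.mem_sup_left (Submodule.add_mem _ hb1 h7)) h9
    refine ⟨x, ⟨hx, hax⟩, ?_⟩
    have h5 : mp φ ι x - w = -b + -(act G.mat X c) := by
      have h6 : mp φ ι x = w' - b := by rw [hbe]; abel
      rw [h6, hw'def]
      abel
    rw [h5]
    refine Submodule.add_mem _ (Submodule.neg_mem _ hbD) (Submodule.neg_mem _ ?_)
    exact Submodule.mem_sup_left (Submodule.mem_sup_right ⟨c, hc', rfl⟩)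
  · rintro x ⟨hx, hx'⟩
    constructor
    · intro h
      obtain ⟨u1, hu1, d1, ⟨c, ⟨hc, hc'⟩, rfl⟩, hsum⟩ := Submodule.mem_sup.1 h
      obtain ⟨o, ho, w1, ⟨y, hy, rfl⟩, rfl⟩ := Submodule.mem_sup.1 hu1
      have hφx : mp φ ι x ∈ KY G i (Zk C s k) := mp_KY φ (fun y _ => h1 y) hx
      have hdc : dX ι C c ∈ KY G i (Bk C s k) := dX_KY (fun y hy => d_Bk' hy) hc
      have hay : act G.mat X y ∈ KY G (i + 1 - 1) (Zk C s k) := by
        rw [add_sub_cancel_right]
        have : act G.mat X y = mp φ ι x - o - dX ι C c := by rw [← hsum]; abel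
        rw [this]
        exact Submodule.sub_mem _ (Submodule.sub_mem _ hφx
          (KY_mono (Gk_le_Bk.trans Bk_le_Zk) ho)) (KY_mono Bk_le_Zk hdc)
      obtain ⟨y1, hy1, y2, hy2, rfl, hy2'⟩ := spZ.use hy hay
      rw [add_sub_cancel_right] at hy2'
      obtain ⟨b', hb', e, he, rfl⟩ := KY_sup (KY_mono h2 hy1)
      obtain ⟨x', hx'', rfl⟩ := KY_range φ he
      have h5 : mp φ ι (x - act G.mat (Fin n → S) x') ∈ KY G i (Bk C s k) := by
        have : mp φ ι (x - act G.mat (Fin n → S) x') =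
            (o + act G.mat X y2) + act G.mat X b' + dX ι C c := by
          rw [map_sub, mp_act, ← hsum, map_add, map_add]
          abel
        rw [this]
        exact Submodule.add_mem _ (Submodule.add_mem _ (KY_mono Gk_le_Bk
          (Submodule.add_mem _ ho hy2')) (act_KY' hb')) hdc
      have h6 : x - act G.mat (Fin n → S) x' ∈ KY G i (Jn J n) := by
        intro a
        exact ⟨((Submodule.sub_mem _ hx (act_KY' hx'')) a).1, (h3 _).1 (h5 a).2⟩
      have h7 : x = act G.mat (Fin n → S) x' + (x - act G.mat (Fin n → S) x') := by abel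
      rw [h7]
      exact Submodule.add_mem_sup ⟨x', hx'', rfl⟩ h6
    · intro h
      obtain ⟨_, ⟨u, hu, rfl⟩, v, hv, rfl⟩ := Submodule.mem_sup.1 h
      rw [map_add, mp_act, add_comm]
      refine Submodule.mem_sup_left (Submodule.add_mem_sup (mp_KY φ h4' hv) ⟨mp φ ι u, ?_, rfl⟩)
      exact mp_KY φ (fun y _ => Zk_le_Gk (h1 y)) hu

/-- entries of an element of `ι → (S ⧸ J)` -/
theorem ZJ_len (J : Ideal S) (i : ℤ) (n : ℕ) :
    HC.ql (BJ G J i n) (ZJ G J i n) = (n : ℕ∞) * Hc G (S ⧸ J) i := by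
  classical
  set Z' := degPart G (S ⧸ J) i ⊓ (botF S (ι → (S ⧸ J)) (i - 1)).comap (act G.mat (S ⧸ J)) with hZ'
  set B' := botF S (ι → (S ⧸ J)) i ⊔ (degPart G (S ⧸ J) (i + 1)).map (act G.mat (S ⧸ J)) with hB'
  -- reduction of one column
  let red : Fin n → (ι → (Fin n → S)) →ₗ[S] (ι → (S ⧸ J)) := fun j =>
    mp ((Submodule.mkQ J) ∘ₗ (LinearMap.proj j : (Fin n → S) →ₗ[S] S)) ι
  have hred : ∀ j x a, red j x a = Submodule.mkQ J (x a j) := fun j x a => rfl
  have hract : ∀ j x, red j (act G.mat (Fin n → S) x) = act G.mat (S ⧸ J) (red j x) :=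
    fun j x => mp_act _ x
  have hmem : ∀ x ∈ ZJ G J i n, ∀ j, red j x ∈ Z' := by
    rintro x ⟨hx, hx'⟩ j
    refine ⟨fun a ha => ?_, ?_⟩
    · rw [hred, (hx a).1 ha]
      exact map_zero _
    · show act G.mat (S ⧸ J) (red j x) ∈ (⊥ : Submodule S (ι → (S ⧸ J)))
      rw [Submodule.mem_bot, ← hract]
      funext a
      rw [hred]
      exact (Submodule.Quotient.mk_eq_zero J).2 ((hx' a).2 j)
  let Φ : ZJ G J i n →ₗ[S] (Fin n → (Z' ⧸ B'.submoduleOf Z')) :=
    LinearMap.pi fun j => (B'.submoduleOf Z').mkQ ∘ₗ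
      ((red j ∘ₗ (ZJ G J i n).subtype).codRestrict Z' fun x => hmem x.1 x.2 j)
  have hΦ : ∀ (x : ZJ G J i n) j, Φ x j =
      (B'.submoduleOf Z').mkQ ⟨red j x.1, hmem x.1 x.2 j⟩ := fun x j => rfl
  -- lifting
  have hlift : ∀ (t : ℤ) (y : Fin n → (ι → (S ⧸ J))), (∀ j, y j ∈ degPart G (S ⧸ J) t) →
      ∃ x ∈ KY G t (⊤ : Submodule S (Fin n → S)), ∀ j, red j x = y j := by
    intro t y hy
    choose g hg using fun (p : ι × Fin n) => Submodule.mkQ_surjective J (y p.2 p.1)
    refine ⟨fun a => if G.deg a = t then fun j => g (a, j) else 0,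
      fun a => ⟨fun ha => if_neg ha, trivial⟩, fun j => ?_⟩
    funext a
    rw [hred]
    by_cases ha : G.deg a = t
    · rw [if_pos ha]
      exact hg (a, j)
    · rw [if_neg ha, hy j a ha]
      exact map_zero _
  have hsurj : Function.Surjective Φ := by
    intro y
    choose z hz using fun j => Submodule.mkQ_surjective (B'.submoduleOf Z') (y j)
    obtain ⟨x, hx, hxz⟩ := hlift i (fun j => (z j).1) (fun j => (z j).2.1)
    have hxZ : x ∈ ZJ G J i n := by
      refine ⟨hx, ?_⟩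
      intro a
      refine ⟨((act_KY hx) a).1, fun j => ?_⟩
      have h1 : act G.mat (S ⧸ J) (z j).1 = 0 := (Submodule.mem_bot S).1 (z j).2.2
      have h2 := hract j x
      rw [hxz, h1] at h2
      have h3 := congrFun h2 a
      rw [hred] at h3
      exact (Submodule.Quotient.mk_eq_zero J).1 h3
    refine ⟨⟨x, hxZ⟩, ?_⟩
    funext j
    rw [hΦ, ← hz j]
    congr 1
    exact Subtype.ext (hxz j)
  have hker : LinearMap.ker Φ = (BJ G J i n).comap (ZJ G J i n).subtype := by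
    ext x
    rw [LinearMap.mem_ker]
    constructor
    · intro hx
      have h1 : ∀ j, ∃ u ∈ degPart G (S ⧸ J) (i + 1), act G.mat (S ⧸ J) u = red j x.1 := by
        intro j
        have h2 := congrFun hx j
        rw [hΦ] at h2
        have h3 : red j x.1 ∈ B' := (Submodule.Quotient.mk_eq_zero (B'.submoduleOf Z')).1 h2
        obtain ⟨b, hb, _, ⟨u, hu, rfl⟩, h4⟩ := Submodule.mem_sup.1 h3
        have hb0 : b = 0 := (Submodule.mem_bot S).1 hb
        rw [hb0, zero_add] at h4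
        exact ⟨u, hu, h4⟩
      choose u hu hu' using h1
      obtain ⟨w, hw, hwu⟩ := hlift (i + 1) u hu
      have h5 : x.1 - act G.mat (Fin n → S) w ∈ KY G i (Jn J n) := by
        intro a
        refine ⟨((Submodule.sub_mem _ x.2.1 (act_KY' hw)) a).1, fun j => ?_⟩
        have h6 : red j (x.1 - act G.mat (Fin n → S) w) = 0 := by
          rw [map_sub, hract, hwu, hu', sub_self]
        have h7 := congrFun h6 a
        rw [hred] at h7
        exact (Submodule.Quotient.mk_eq_zero J).1 h7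
      show x.1 ∈ BJ G J i n
      have h6 : x.1 = act G.mat (Fin n → S) w + (x.1 - act G.mat (Fin n → S) w) := by abel
      rw [h6]
      exact Submodule.add_mem_sup ⟨w, hw, rfl⟩ h5
    · intro hx
      obtain ⟨_, ⟨w, hw, rfl⟩, v, hv, hwv⟩ := Submodule.mem_sup.1 (show x.1 ∈ BJ G J i n from hx)
      funext j
      rw [hΦ]
      refine (Submodule.Quotient.mk_eq_zero _).2 ?_
      show red j x.1 ∈ B'
      have h1 : red j v = 0 := by
        funext a
        rw [hred]
        exact (Submodule.Quotient.mk_eq_zero J).2 ((hv a).2 j)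
      rw [← hwv, map_add, h1, add_zero, hract]
      refine Submodule.mem_sup_right ⟨red j w, fun a ha => ?_, rfl⟩
      rw [hred, (hw a).1 ha]
      exact map_zero _
  show Module.length S (ZJ G J i n ⧸ _) = _
  rw [← hker, (LinearMap.quotKerEquivOfSurjective Φ hsurj).length_eq,
    Module.length_pi_of_fintype, Finset.sum_const, Finset.card_univ, Fintype.card_fin,
    nsmul_eq_mul]
  rfl

end Vale.Agent.P202C
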