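import Vale.Agent.P202C.Dec4

/-!
# P202C, decalage: the main inequality for a free complex whose entries do not raise the filtration
-/

set_option autoImplicit false
set_option linter.unusedSectionVars false

namespace Vale.Agent.P202C

open Finset MI

universe u v

variable {S : Type u} [CommRing S] {ι : Type} [Fintype ι] {G : FCx S ι}
  {X : Type v} [AddCommGroup X] [Module S X] {C : FiltCx S X} {D : ℕ} {Q : ℤ}

/-- the axioms of the decalage: splittings up to filtration `Q` and bases of the cohomology of the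
slices over `S ⧸ J`; `r s k` is the dimension of the cohomology of the slice. -/
structure DecAx (C : FiltCx S X) (Q : ℤ) (J : Ideal S) (r : ℤ → ℤ → ℕ) : Prop where
  spQ : ∀ k s, Spl (Gk C (s + Q) k) (Gk C (s + 1) k) (Gk C s k)
  spZ : ∀ k s, Spl (Gk C (s + 1) k) (Zk C s k) (Gk C s k)
  spB : ∀ k s, Spl (Gk C (s + 1) k) (Bk C s k) (Gk C s k)
  hb : ∀ s k, ∃ φ : (Fin (r s k) → S) →ₗ[S] X, (∀ x, φ x ∈ Zk C s k) ∧
    (Zk C s k ≤ Bk C s k ⊔ LinearMap.range φ) ∧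
    (∀ x, φ x ∈ Bk C s k ↔ x ∈ Jn J (r s k)) ∧ (∀ x ∈ Jn J (r s k), φ x ∈ C.F (s + 1))

/-- the step lengths of the decalage -/
noncomputable def std (G : FCx S ι) (J : Ideal S) (r : ℤ → ℤ → ℕ) (i : ℕ) (s m : ℤ) : ℕ∞ :=
  (r s (i - m) : ℕ∞) * Hc G (S ⧸ J) i

/-- the Euler characteristic of the dimensions of a slice -/
def rEul (r : ℤ → ℤ → ℕ) (n : ℕ) (s : ℤ) : ℤ := ∑ k ∈ Finset.range (n + 1), (-1) ^ k * (r s k : ℤ)

theorem DDf_TwP {J : Ideal S} {r : ℤ → ℤ → ℕ} (hax : DecAx C Q J r) (hQ : 0 < Q)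
    (hdeg : ∀ a, 0 ≤ G.deg a ∧ G.deg a ≤ D) :
    HC.TwP (totd G C) D (HC.Vd D Q) (DDf G C) (std G J r) := by
  refine ⟨totd_totd G C, fun _ _ h => DDf_anti h, fun a _ => DDf_cx a, HC.Vd_path D hQ, ?_⟩
  intro a i hi ha hb m
  rw [DD_step hax.spQ hdeg hi ha hb m]
  obtain ⟨φ, h1, h2, h3, h4⟩ := hax.hb (a i) (i - m)
  rw [step_len (hax.spZ _ _) (hax.spZ _ _) (hax.spB _ _) φ h1 h2 h3 h4, ZJ_len]
  rfl

theorem std_toNat {J : Ideal S} {r : ℤ → ℤ → ℕ} (hh : ∀ i, Hc G (S ⧸ J) i ≠ ⊤) (i : ℕ) (s m : ℤ) :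
    ((std G J r i s m).toNat : ℤ) = (r s (i - m) : ℤ) * ((Hc G (S ⧸ J) i).toNat : ℤ) := by
  unfold std
  obtain ⟨c, hc⟩ := ENat.ne_top_iff_exists.1 (hh i)
  rw [← hc]
  have : ((r s (i - m) : ℕ∞) * (c : ℕ∞)).toNat = r s (i - m) * c := by
    rw [← Nat.cast_mul]; simp
  rw [this]
  simp

theorem std_FW {J : Ideal S} {r : ℤ → ℤ → ℕ} {n : ℕ} (hh : ∀ i, Hc G (S ⧸ J) i ≠ ⊤)
    (hr : ∀ s k, (k < 0 ∨ (n : ℤ) < k) → r s k = 0) (i : ℕ) (hi : i ≤ D) (s : ℤ) :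
    HC.FW (D + n) (std G J r i s) := by
  refine ⟨fun m => ?_, fun m hm => ?_⟩
  · unfold std
    exact WithTop.mul_ne_top (WithTop.coe_ne_top) (hh _)
  · unfold std
    rw [hr _ _ (by push_cast at hm; omega)]
    simp

theorem ch_std {J : Ideal S} {r : ℤ → ℤ → ℕ} {n : ℕ} (hh : ∀ i, Hc G (S ⧸ J) i ≠ ⊤)
    (hr : ∀ s k, (k < 0 ∨ (n : ℤ) < k) → r s k = 0) (i : ℕ) (hi : i ≤ D) (s : ℤ) :
    HC.ch (D + n) (std G J r i s) =
      (-1) ^ i * ((Hc G (S ⧸ J) i).toNat : ℤ) * rEul r n s := by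
  unfold HC.ch rEul
  have h1 : ∑ m ∈ Finset.Icc (-((D + n : ℕ) : ℤ)) (D + n : ℕ), HC.sg m * ((std G J r i s m).toNat : ℤ) =
      ∑ k ∈ Finset.Icc ((i : ℤ) - (D + n : ℕ)) (i + (D + n : ℕ)),
        HC.sg (i - k) * ((r s k : ℤ) * ((Hc G (S ⧸ J) i).toNat : ℤ)) := by
    refine Finset.sum_bij' (fun m _ => (i : ℤ) - m) (fun k _ => (i : ℤ) - k) ?_ ?_ ?_ ?_ ?_
    · intro m hm
      simp only [Finset.mem_Icc] at hm ⊢
      omega
    · intro m hm
      simp only [Finset.mem_Icc] at hm ⊢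
      omega
    · intro m _; ring
    · intro m _; ring
    · intro m _
      have h2 : (i : ℤ) - (i - m) = m := by ring
      rw [h2, std_toNat hh]
  rw [h1]
  have h3 : ∑ k ∈ Finset.Icc ((i : ℤ) - (D + n : ℕ)) (i + (D + n : ℕ)),
        HC.sg (i - k) * ((r s k : ℤ) * ((Hc G (S ⧸ J) i).toNat : ℤ)) =
      ∑ k ∈ Finset.Icc (0 : ℤ) n,
        HC.sg (i - k) * ((r s k : ℤ) * ((Hc G (S ⧸ J) i).toNat : ℤ)) := by
    symm
    refine Finset.sum_subset ?_ ?_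
    · intro k hk
      simp only [Finset.mem_Icc] at hk ⊢
      push_cast
      omega
    · intro k _ hk
      simp only [Finset.mem_Icc] at hk
      rw [hr s k (by omega)]
      simp
  rw [h3]
  have h4 : ∑ k ∈ Finset.Icc (0 : ℤ) n,
        HC.sg (i - k) * ((r s k : ℤ) * ((Hc G (S ⧸ J) i).toNat : ℤ)) =
      ∑ k ∈ Finset.range (n + 1),
        HC.sg (i - k) * ((r s (k : ℤ) : ℤ) * ((Hc G (S ⧸ J) i).toNat : ℤ)) := by
    refine Finset.sum_bij' (fun k _ => k.toNat) (fun k _ => (k : ℤ)) ?_ ?_ ?_ ?_ ?_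
    · intro k hk
      simp only [Finset.mem_Icc, Finset.mem_range] at hk ⊢
      omega
    · intro k hk
      simp only [Finset.mem_Icc, Finset.mem_range] at hk ⊢
      omega
    · intro k hk
      simp only [Finset.mem_Icc] at hk
      omega
    · intro k _; simp
    · intro k hk
      simp only [Finset.mem_Icc] at hk
      have : ((k.toNat : ℕ) : ℤ) = k := by omega
      rw [this]
  rw [h4, Finset.mul_sum]
  refine Finset.sum_congr rfl fun k _ => ?_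
  rw [sg_sub, sg_eq, sg_eq, Int.natAbs_natCast, Int.natAbs_natCast]
  ring

theorem shift_zero : Shift G C 0 := by
  intro a b s x hx
  rw [add_zero]
  exact Submodule.smul_mem _ _ hx

theorem DDf_zero (hdeg : ∀ a, 0 ≤ G.deg a ∧ G.deg a ≤ D) :
    DDf G C (fun _ => 0) = TT G C (fun _ => 0) := by
  funext m
  refine le_antisymm inf_le_left (le_inf le_rfl fun x hx => ?_)
  exact (TT_cx hdeg shift_zero (HC.Va_zero D le_rfl)).mem hx

/-- **The main inequality of the decalage.** -/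
theorem dec_main {S : Type u} [CommRing S] {ι : Type} [Fintype ι] (G : FCx S ι)
    {X : Type v} [AddCommGroup X] [Module S X] (C : FiltCx S X) (J : Ideal S) (r : ℤ → ℤ → ℕ)
    (Q : ℤ) (D n M E : ℕ) (hQ : 0 < Q) (hax : DecAx C Q J r)
    (hdeg : ∀ a, 0 ≤ G.deg a ∧ G.deg a ≤ D)
    (hgr : ∀ k, k < 0 → C.gr k = ⊥)
    (hr : ∀ s k, (k < 0 ∨ (n : ℤ) < k) → r s k = 0)
    (hh : ∀ i, Hc G (S ⧸ J) i ≠ ⊤)
    (hlow : ∀ i : ℕ, i ≤ D → ∀ s k : ℤ, (1 - i) * Q - M ≤ s → s < (1 - i) * Q → k + 2 ≤ i →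
      r s k ≤ E)
    (hhigh : ∀ i : ℕ, i ≤ D → ∀ s k : ℤ, (1 - i) * Q ≤ s → s < 0 → (i : ℤ) < k → r s k ≤ E)
    (hr0 : ∀ s k : ℤ, 0 ≤ s → 1 ≤ k → r s k = 0)
    (hF : ∀ s k : ℤ, 0 ≤ s → 1 ≤ k →
      ∀ x ∈ C.gr k ⊓ C.F s, C.d x = 0 → ∃ w ∈ C.gr (k - 1) ⊓ C.F s, C.d w = x)
    (hcon : ∀ j : ℤ, ∀ x ∈ fam G C (fun i => (1 - i) * Q) j, totd G C x = 0 →
      ∃ w ∈ fam G C (fun i => (1 - i) * Q - M) (j + 1), totd G C w = x) :
    (∀ j, Hc G (M0 C) j ≠ ⊤) ∧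
    ((Hc G (S ⧸ J) 0).toNat : ℤ) * (∑ s ∈ Finset.Ico (0 : ℤ) Q, rEul r n s) -
      (∑ i ∈ range (D + 1), (-1) ^ i * ((Hc G (S ⧸ J) (i : ℤ)).toNat : ℤ) *
        ∑ s ∈ Finset.Ico ((1 - (i : ℤ)) * Q) 0, rEul r n s) -
      ((D + n + 1 : ℕ) : ℤ) * (∑ i ∈ range (D + 1), ((Hc G (S ⧸ J) (i : ℤ)).toNat : ℤ)) *
        (M + D * Q) * E ≤ chiG G (M0 C) D := by
  classical
  have hfam : ∀ (N : ℤ) (j : ℤ), fam G C (fun i => (1 - i) * Q - N) j = TT G C (HC.pF D Q N) j := by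
    intro N j
    ext x
    refine forall_congr' fun b => ?_
    have h1 := hdeg b
    have h2 : HC.pF D Q N (G.deg b).toNat = (1 - G.deg b) * Q - N := by
      unfold HC.pF
      rw [if_pos (by omega), Int.toNat_of_nonneg h1.1]
    show x b ∈ C.gr (G.deg b - j) ⊓ C.F ((1 - G.deg b) * Q - N) ↔
      x b ∈ C.gr (G.deg b - j) ⊓ C.F (HC.pF D Q N (G.deg b).toNat)
    rw [h2]
  have hfam0 : ∀ (j : ℤ), fam G C (fun i => (1 - i) * Q) j = TT G C (HC.pF D Q 0) j := by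
    intro j
    rw [← hfam 0 j]
    simp only [sub_zero]
  have hT := DDf_TwP (D := D) hax hQ hdeg
  have hQ0 : 0 ≤ Q := hQ.le
  have hle : HC.pF D Q 0 ≥ HC.pF D Q M := HC.pF_le_pF D Q (by omega)
  have hz : ∀ m, HC.Zc (totd G C) (DDf G C (HC.pF D Q 0)) HC.Z0 m ≤
      HC.Bd (totd G C) (DDf G C (HC.pF D Q M)) HC.Z0 m := by
    rintro m x ⟨hx, hx0⟩
    have hx1 := hx.1
    rw [← hfam0] at hx1
    obtain ⟨y, hy, hyx⟩ := hcon m x hx1 ((Submodule.mem_bot S).1 hx0)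
    rw [hfam] at hy
    refine Submodule.mem_sup_right ⟨y, ⟨hy, ?_⟩, hyx⟩
    show totd G C y ∈ TT G C (HC.pF D Q M) (m + 1 - 1)
    rw [hyx, add_sub_cancel_right]
    exact TT_anti hle m hx.1
  have hK0 : ∀ m < 0, HC.hl (totd G C) (DDf G C (HC.pK Q)) HC.Z0 m = 0 := by
    intro m hm
    have hCle : HC.pK Q ≤ HC.pC D Q := HC.pK_le_pC D hQ0
    have h1 := HC.hl_AC_le (totd_totd G C) (DDf_cx (HC.pK Q)) (DDf_cx (HC.pC D Q)) HC.IsCx_Z0
      (DDf_anti hCle) (HC.Z0_le _) m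
    have h2 := hT.hl_le (HC.Vd_pK D hQ0) (HC.Vd_pC D hQ0) hCle (fun j hj => by
      unfold HC.pK HC.pC
      rw [if_neg (by omega), if_neg (by omega)]) m
    have h3 : ∑ i ∈ range (D + 1), ∑ s ∈ Finset.Ico (HC.pK Q i) (HC.pC D Q i),
        std G J r i s m = 0 := by
      refine Finset.sum_eq_zero fun i _ => Finset.sum_eq_zero fun s hs => ?_
      have h4 := (Finset.mem_Ico.1 hs).1
      have h5 : 0 ≤ HC.pK Q i := by
        unfold HC.pK
        split_ifs <;> omega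
      unfold std
      rw [hr0 s _ (by omega) (by omega)]
      simp
    have h6 : HC.hl (totd G C) (DDf G C (HC.pC D Q)) HC.Z0 m = 0 := by
      refine HC.ql_eq_zero.2 ?_
      rintro x ⟨hx, hx0⟩
      have hVa : HC.Va D 0 (HC.pC D Q) := by
        intro i hi
        unfold HC.pC
        rw [if_pos hi, if_pos (by omega : i ≤ D)]
        omega
      obtain ⟨y, hy, hyx⟩ := TT_exact (D := D) hdeg shift_zero hVa m (fun i hi x hx hx0 => by
        have h7 : HC.pC D Q i = Q := by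
          unfold HC.pC
          rw [if_pos hi]
        rw [h7] at hx ⊢
        exact hF Q _ hQ0 (by omega) x hx hx0) x hx.1 ((Submodule.mem_bot S).1 hx0)
      refine Submodule.mem_sup_right ⟨y, ⟨hy, ?_⟩, hyx⟩
      show totd G C y ∈ TT G C (HC.pC D Q) (m + 1 - 1)
      rw [hyx, add_sub_cancel_right]
      exact hx.1
    rw [h3] at h2
    rw [h6, le_antisymm h2 zero_le, add_zero] at h1
    exact le_antisymm h1 zero_le
  have hmain := hT.main (Q := Q) (HC.Vd_zero D hQ0) (HC.Vd_pK D hQ0) (HC.Vd_pF D hQ0 0) hQ0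
    (fun i hi s => std_FW (G := G) hh hr i hi s) (N := M) (by omega) (HC.Vd_pF D hQ0 M) hz hK0
  have hex : ∀ k : ℤ, 1 ≤ k → ∀ x ∈ C.gr k ⊓ C.F 0, C.d x = 0 →
      ∃ y ∈ C.gr (k - 1) ⊓ C.F 0, C.d y = x := fun k hk => hF 0 k le_rfl hk
  have he : ∀ j, HC.hl (totd G C) (TT G C fun _ => 0) HC.Z0 j = Hc G (M0 C) j := fun j =>
    hl_T0 (D := D) hdeg shift_zero le_rfl hgr hex j
  rw [DDf_zero (D := D) hdeg] at hmain
  refine ⟨fun j => by rw [← he]; exact hmain.1.fin j, ?_⟩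
  rw [← ch_eq_chiG hdeg he (D + n + 1) (by omega)]
  refine le_trans ?_ hmain.2
  have hEnn : (0 : ℤ) ≤ (E : ℤ) := Int.natCast_nonneg _
  -- the sums over the windows
  have hgen : ∀ (I : Finset ℤ) (f : ℕ → ℤ → ℤ → ℤ) (Jf : ℕ → Finset ℤ) (L : ℤ), 0 ≤ L →
      I.card = D + n + 1 → (∀ i ∈ range (D + 1), ((Jf i).card : ℤ) ≤ L) →
      (∀ m ∈ I, ∀ i ∈ range (D + 1), ∀ s ∈ Jf i,
        f i s m ≤ ((Hc G (S ⧸ J) (i : ℤ)).toNat : ℤ) * E) →
      ∑ m ∈ I, ∑ i ∈ range (D + 1), ∑ s ∈ Jf i, f i s m ≤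
        ((D + n + 1 : ℕ) : ℤ) * (∑ i ∈ range (D + 1), ((Hc G (S ⧸ J) (i : ℤ)).toNat : ℤ)) *
          L * E := by
    intro I f Jf L hL hI hJ hf
    calc ∑ m ∈ I, ∑ i ∈ range (D + 1), ∑ s ∈ Jf i, f i s m
        ≤ ∑ m ∈ I, ∑ i ∈ range (D + 1), ((Hc G (S ⧸ J) (i : ℤ)).toNat : ℤ) * (L * E) := by
          refine Finset.sum_le_sum fun m hm => Finset.sum_le_sum fun i hi => ?_
          refine (Finset.sum_le_card_nsmul _ _ _ (hf m hm i hi)).trans ?_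
          rw [nsmul_eq_mul]
          have h1 := hJ i hi
          have h2 : (0 : ℤ) ≤ ((Hc G (S ⧸ J) (i : ℤ)).toNat : ℤ) * E := by positivity
          calc ((Jf i).card : ℤ) * (((Hc G (S ⧸ J) (i : ℤ)).toNat : ℤ) * E) ≤
                L * (((Hc G (S ⧸ J) (i : ℤ)).toNat : ℤ) * E) :=
                mul_le_mul_of_nonneg_right h1 h2
            _ = _ := by ring
      _ = ((D + n + 1 : ℕ) : ℤ) *
            ((∑ i ∈ range (D + 1), ((Hc G (S ⧸ J) (i : ℤ)).toNat : ℤ)) * (L * E)) := by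
          rw [Finset.sum_const, hI, nsmul_eq_mul, Finset.sum_mul]
      _ = _ := by ring
  have e1 : ∑ m ∈ Finset.Icc (1 : ℤ) (D + n + 1 : ℕ), ∑ i ∈ range (D + 1),
        ∑ s ∈ Finset.Ico ((1 - (i : ℤ)) * Q - M) ((1 - i) * Q),
          ((std G J r i s (m + 1)).toNat : ℤ) ≤
        ((D + n + 1 : ℕ) : ℤ) * (∑ i ∈ range (D + 1), ((Hc G (S ⧸ J) (i : ℤ)).toNat : ℤ)) *
          M * E := by
    refine hgen _ (fun i s m => ((std G J r i s (m + 1)).toNat : ℤ)) _ M (by omega) ?_ ?_ ?_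
    · rw [Int.card_Icc]; omega
    · intro i hi
      rw [Int.card_Ico]
      omega
    · intro m hm i hi s hs
      have h1 := (Finset.mem_Icc.1 hm).1
      have h2 := Finset.mem_Ico.1 hs
      have h3 : i ≤ D := by have := Finset.mem_range.1 hi; omega
      show ((std G J r i s (m + 1)).toNat : ℤ) ≤ _
      rw [std_toNat hh, mul_comm]
      refine mul_le_mul_of_nonneg_left ?_ (by positivity)
      exact_mod_cast hlow i h3 s _ h2.1 h2.2 (by omega)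
  have e2 : ∑ m ∈ Finset.Icc (-((D + n + 1 : ℕ) : ℤ)) (-1), ∑ i ∈ range (D + 1),
        ∑ s ∈ Finset.Ico ((1 - (i : ℤ)) * Q) 0, ((std G J r i s m).toNat : ℤ) ≤
        ((D + n + 1 : ℕ) : ℤ) * (∑ i ∈ range (D + 1), ((Hc G (S ⧸ J) (i : ℤ)).toNat : ℤ)) *
          (D * Q) * E := by
    refine hgen _ (fun i s m => ((std G J r i s m).toNat : ℤ)) _ (D * Q) (by positivity) ?_ ?_ ?_
    · rw [Int.card_Icc]; omega
    · intro i hi
      have h3 : i ≤ D := by have := Finset.mem_range.1 hi; omega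
      rw [Int.card_Ico]
      have h4 : ((0 - (1 - (i : ℤ)) * Q).toNat : ℤ) ≤ max (0 - (1 - (i : ℤ)) * Q) 0 := by
        rw [Int.toNat_eq_max]
      refine h4.trans (max_le ?_ (by positivity))
      have h5 : ((i : ℤ) - 1) ≤ D := by omega
      nlinarith
    · intro m hm i hi s hs
      have h1 := (Finset.mem_Icc.1 hm).2
      have h2 := Finset.mem_Ico.1 hs
      have h3 : i ≤ D := by have := Finset.mem_range.1 hi; omega
      show ((std G J r i s m).toNat : ℤ) ≤ _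
      rw [std_toNat hh, mul_comm]
      refine mul_le_mul_of_nonneg_left ?_ (by positivity)
      exact_mod_cast hhigh i h3 s _ h2.1 h2.2 (by omega)
  have e3 : ((Hc G (S ⧸ J) 0).toNat : ℤ) * ∑ s ∈ Finset.Ico 0 Q, rEul r n s =
      ∑ s ∈ Finset.Ico 0 Q, HC.ch (D + n) (std G J r 0 s) := by
    rw [Finset.mul_sum]
    refine Finset.sum_congr rfl fun s _ => ?_
    rw [ch_std (D := D) hh hr 0 (by omega) s]
    simp
  have e4 : ∑ i ∈ range (D + 1), (-1) ^ i * ((Hc G (S ⧸ J) (i : ℤ)).toNat : ℤ) *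
        ∑ s ∈ Finset.Ico ((1 - (i : ℤ)) * Q) 0, rEul r n s =
      ∑ i ∈ range (D + 1), ∑ s ∈ Finset.Ico ((1 - (i : ℤ)) * Q) 0,
        HC.ch (D + n) (std G J r i s) := by
    refine Finset.sum_congr rfl fun i hi => ?_
    have h3 : i ≤ D := by have := Finset.mem_range.1 hi; omega
    rw [Finset.mul_sum]
    exact Finset.sum_congr rfl fun s _ => (ch_std hh hr i h3 s).symm
  have e5 : ((D + n + 1 : ℕ) : ℤ) * (∑ i ∈ range (D + 1), ((Hc G (S ⧸ J) (i : ℤ)).toNat : ℤ)) *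
      (M + D * Q) * E =
      ((D + n + 1 : ℕ) : ℤ) * (∑ i ∈ range (D + 1), ((Hc G (S ⧸ J) (i : ℤ)).toNat : ℤ)) * M * E +
      ((D + n + 1 : ℕ) : ℤ) * (∑ i ∈ range (D + 1), ((Hc G (S ⧸ J) (i : ℤ)).toNat : ℤ)) *
        (D * Q) * E := by ring
  rw [e3, e4, e5]
  linarith

end Vale.Agent.P202C
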