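import Vale.Agent.P202C.Dec5
import Vale.Agent.P202C.BC
import Vale.Agent.P202C.Blk

/-!
# P202C, decalage: flat base change of a filtered complex whose filtration is raised by `Q` by the
elements of the maximal ideal
-/

set_option autoImplicit false
set_option linter.unusedSectionVars false

namespace Vale.Agent.P202C

open Finset MI IsLocalRing TensorProduct

universe u v w

section RLevel

variable {R : Type u} [CommRing R] [IsLocalRing R]

/-- complements modulo `O` -/
theorem exists_compl {X : Type w} [AddCommGroup X] [Module R X] {O U1 U2 : Submodule R X}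
    (hO : O ≤ U1) (h12 : U1 ≤ U2) (hm : ∀ r ∈ maximalIdeal R, ∀ x ∈ U2, r • x ∈ O) :
    ∃ U', U' ≤ U2 ∧ U2 ≤ U1 ⊔ U' ∧ U1 ⊓ U' ≤ O := by
  let V := U2 ⧸ O.submoduleOf U2
  have hV : Module.IsTorsionBySet R V (maximalIdeal R : Set R) := by
    rintro v ⟨r, hr⟩
    obtain ⟨x, rfl⟩ := Submodule.mkQ_surjective _ v
    show r • (O.submoduleOf U2).mkQ x = 0
    rw [← map_smul]
    exact (Submodule.Quotient.mk_eq_zero _).2 (hm r hr x.1 x.2)
  let _ := hV.module
  let _ : Field (R ⧸ maximalIdeal R) := Ideal.Quotient.field _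
  have hss : IsSemisimpleModule R V := by
    rw [← hV.isSemisimpleModule_iff]
    infer_instance
  have hc : ComplementedLattice (Submodule R V) := hss.toComplementedLattice
  obtain ⟨W, hW⟩ := exists_isCompl ((U1.submoduleOf U2).map (O.submoduleOf U2).mkQ)
  refine ⟨(W.comap (O.submoduleOf U2).mkQ).map U2.subtype, ?_, ?_, ?_⟩
  · rintro _ ⟨x, _, rfl⟩
    exact x.2
  · intro x hx
    have h1 : (O.submoduleOf U2).mkQ ⟨x, hx⟩ ∈
        (U1.submoduleOf U2).map (O.submoduleOf U2).mkQ ⊔ W := by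
      rw [hW.sup_eq_top]; trivial
    obtain ⟨_, ⟨y, hy, rfl⟩, w, hw, hyw⟩ := Submodule.mem_sup.1 h1
    have h2 : (O.submoduleOf U2).mkQ (⟨x, hx⟩ - y) ∈ W := by
      rw [map_sub, ← hyw, add_sub_cancel_left]
      exact hw
    have h3 : x = (y : X) + ((⟨x, hx⟩ - y : U2) : X) := by
      simp
    rw [h3]
    exact Submodule.add_mem_sup hy ⟨_, h2, rfl⟩
  · rintro x ⟨hx1, ⟨y, hy, rfl⟩⟩
    have h1 : (O.submoduleOf U2).mkQ y ∈
        (U1.submoduleOf U2).map (O.submoduleOf U2).mkQ ⊓ W := ⟨⟨y, hx1, rfl⟩, hy⟩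
    rw [hW.inf_eq_bot, Submodule.mem_bot] at h1
    have h2 : y ∈ O.submoduleOf U2 := (Submodule.Quotient.mk_eq_zero (O.submoduleOf U2)).1 h1
    exact h2

/-- finite length modules killed by the maximal ideal -/
theorem killed_equiv {V : Type w} [AddCommGroup V] [Module R V]
    (hV : ∀ r ∈ maximalIdeal R, ∀ v : V, r • v = 0) (hfin : Module.length R V ≠ ⊤) :
    Nonempty (V ≃ₗ[R] (Fin (Module.length R V).toNat → (R ⧸ maximalIdeal R))) := by
  have hM : Module.IsTorsionBySet R V (maximalIdeal R : Set R) := fun v r => hV r r.2 v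
  let _ := hM.module
  let _ : Field (R ⧸ maximalIdeal R) := Ideal.Quotient.field _
  have : IsScalarTower R (R ⧸ maximalIdeal R) V := Module.IsTorsionBySet.isScalarTower hM
  have h1 : Module.length R V = Module.length (R ⧸ maximalIdeal R) V :=
    Module.length_eq_of_surjective Ideal.Quotient.mk_surjective
  have hfl : IsFiniteLength (R ⧸ maximalIdeal R) V := Module.length_ne_top_iff.1 (h1 ▸ hfin)
  have hnoeth := (isFiniteLength_iff_isNoetherian_isArtinian.1 hfl).1
  have hf : Module.Finite (R ⧸ maximalIdeal R) V := inferInstance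
  have h2 : (Module.length R V).toNat = Module.finrank (R ⧸ maximalIdeal R) V := by
    rw [h1, Module.length_eq_finrank]
    simp
  rw [h2]
  exact ⟨(Module.finBasis (R ⧸ maximalIdeal R) V).equivFun.restrictScalars R⟩

/-- a basis of `Z / B` over the residue field -/
theorem exists_basis_map {X : Type w} [AddCommGroup X] [Module R X] {B Z : Submodule R X}
    (hm : ∀ r ∈ maximalIdeal R, ∀ x ∈ Z, r • x ∈ B)
    (hfin : rlen B Z ≠ ⊤) :
    ∃ φ : (Fin (rlen B Z).toNat → R) →ₗ[R] X, (∀ x, φ x ∈ Z) ∧ Z ≤ B ⊔ LinearMap.range φ ∧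
      (∀ x, φ x ∈ B ↔ x ∈ Jn (maximalIdeal R) (rlen B Z).toNat) := by
  unfold rlen at hfin ⊢
  obtain ⟨e⟩ := killed_equiv (R := R) (V := Z ⧸ B.submoduleOf Z) (fun r hr v => by
    obtain ⟨x, rfl⟩ := Submodule.mkQ_surjective _ v
    rw [← map_smul]
    exact (Submodule.Quotient.mk_eq_zero _).2 (hm r hr x.1 x.2)) hfin
  set n := (Module.length R (Z ⧸ B.submoduleOf Z)).toNat with hn
  let red : (Fin n → R) →ₗ[R] (Fin n → (R ⧸ maximalIdeal R)) :=
    LinearMap.pi fun j => (Submodule.mkQ (maximalIdeal R)) ∘ₗ LinearMap.proj j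
  obtain ⟨h, hh⟩ := Module.projective_lifting_property (B.submoduleOf Z).mkQ
    (e.symm.toLinearMap ∘ₗ red) (Submodule.mkQ_surjective _)
  have hh' : ∀ x, (B.submoduleOf Z).mkQ (h x) = e.symm (red x) := fun x => by
    have := LinearMap.congr_fun hh x
    exact this
  refine ⟨Z.subtype ∘ₗ h, fun x => (h x).2, ?_, ?_⟩
  · intro z hz
    have hsur : Function.Surjective red := by
      intro y
      choose g hg using fun j => Submodule.mkQ_surjective (maximalIdeal R) (y j)
      exact ⟨g, funext hg⟩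
    obtain ⟨x, hx⟩ := hsur (e ((B.submoduleOf Z).mkQ ⟨z, hz⟩))
    have h1 : (B.submoduleOf Z).mkQ (h x) = (B.submoduleOf Z).mkQ ⟨z, hz⟩ := by
      rw [hh', hx, LinearEquiv.symm_apply_apply]
    have h2 : (⟨z, hz⟩ - h x : Z) ∈ B.submoduleOf Z := by
      rw [Submodule.mkQ_apply, Submodule.mkQ_apply] at h1
      exact (Submodule.Quotient.eq _).1 h1.symm
    have h3 : z = ((⟨z, hz⟩ - h x : Z) : X) + (Z.subtype ∘ₗ h) x := by
      simp
    rw [h3]
    exact Submodule.add_mem_sup h2 ⟨x, rfl⟩
  · intro x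
    have h1 : (Z.subtype ∘ₗ h) x ∈ B ↔ (B.submoduleOf Z).mkQ (h x) = 0 := by
      have h0 : (Z.subtype ∘ₗ h) x ∈ B ↔ h x ∈ B.submoduleOf Z := Iff.rfl
      rw [h0]
      exact (Submodule.Quotient.mk_eq_zero (B.submoduleOf Z)).symm
    rw [h1, hh', LinearEquiv.map_eq_zero_iff]
    constructor
    · intro h2 j
      exact (Submodule.Quotient.mk_eq_zero _).1 (congrFun h2 j)
    · intro h2
      funext j
      exact (Submodule.Quotient.mk_eq_zero _).2 (h2 j)

end RLevel

section SLevel

variable {R : Type u} [CommRing R] [IsLocalRing R] (S : Type v) [CommRing S] [Algebra R S]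
  [Module.Flat R S] {X : Type w} [AddCommGroup X] [Module R X]

theorem spl_bc {O U1 U2 : Submodule R X}
    (hO : O ≤ U1) (h12 : U1 ≤ U2) (hm : ∀ r ∈ maximalIdeal R, ∀ x ∈ U2, r • x ∈ O) :
    Spl (O.baseChange S) (U1.baseChange S) (U2.baseChange S) := by
  obtain ⟨U', h1, h2, h3⟩ := exists_compl hO h12 hm
  refine ⟨U'.baseChange S, bc_mono S h1, ?_, ?_⟩
  · rw [← bc_sup]
    exact bc_mono S h2
  · rw [← bc_inf]
    exact bc_mono S h3

theorem Gk_bc (C : FiltCx R X) (s k : ℤ) : Gk (C.bc S) s k = (Gk C s k).baseChange S :=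
  (bc_inf S _ _).symm

theorem Zk_bc (C : FiltCx R X) (s k : ℤ) : Zk (C.bc S) s k = (Zk C s k).baseChange S := by
  unfold Zk
  rw [bc_inf, bc_inf, bc_comap]
  rfl

theorem Bk_bc (C : FiltCx R X) (s k : ℤ) : Bk (C.bc S) s k = (Bk C s k).baseChange S := by
  unfold Bk
  rw [bc_sup, bc_map, bc_inf, bc_inf]
  rfl

theorem sl_eq_rlen (C : FiltCx R X) (s k : ℤ) : sl C s k = rlen (Bk C s k) (Zk C s k) := rfl

/-- vectors with entries in the extension of the maximal ideal -/
theorem jn_bc (n : ℕ) (y : S ⊗[R] (Fin n → R)) :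
    y ∈ (Jn (maximalIdeal R) n).baseChange S ↔
      TensorProduct.piScalarRight R S S (Fin n) y ∈
        Jn ((maximalIdeal R).map (algebraMap R S)) n := by
  constructor
  · intro h
    have h1 : (Jn (maximalIdeal R) n).baseChange S ≤
        (Jn ((maximalIdeal R).map (algebraMap R S)) n).comap
          (TensorProduct.piScalarRight R S S (Fin n)).toLinearMap := by
      rw [Submodule.baseChange_eq_span, Submodule.span_le]
      rintro _ ⟨x, hx, rfl⟩
      intro j
      have h2 : (TensorProduct.piScalarRight R S S (Fin n)) ((1 : S) ⊗ₜ[R] x) j =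
          algebraMap R S (x j) := by
        rw [TensorProduct.piScalarRight_apply, TensorProduct.piScalarRightHom_tmul]
        show x j • (1 : S) = algebraMap R S (x j)
        rw [Algebra.smul_def, mul_one]
      show (TensorProduct.piScalarRight R S S (Fin n)) ((1 : S) ⊗ₜ[R] x) j ∈ _
      rw [h2]
      exact Ideal.mem_map_of_mem _ (hx j)
    exact h1 h
  · intro h
    set v := TensorProduct.piScalarRight R S S (Fin n) y with hv
    have hy : y = (TensorProduct.piScalarRight R S S (Fin n)).symm v := by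
      rw [hv, LinearEquiv.symm_apply_apply]
    have hsum : y = ∑ j, (v j) ⊗ₜ[R] (Pi.single j (1 : R) : Fin n → R) := by
      apply (TensorProduct.piScalarRight R S S (Fin n)).injective
      rw [← hv, map_sum]
      funext l
      rw [Finset.sum_apply, Finset.sum_eq_single l]
      · rw [TensorProduct.piScalarRight_apply, TensorProduct.piScalarRightHom_tmul]
        simp
      · intro j _ hj
        rw [TensorProduct.piScalarRight_apply, TensorProduct.piScalarRightHom_tmul]
        simp [hj.symm]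
      · intro h1
        exact absurd (Finset.mem_univ l) h1
    rw [hsum]
    refine Submodule.sum_mem _ fun j _ => ?_
    let I : Ideal S := ((Jn (maximalIdeal R) n).baseChange S).comap
      (LinearMap.toSpanSingleton S (S ⊗[R] (Fin n → R)) ((1 : S) ⊗ₜ[R] (Pi.single j (1 : R))))
    have hI : (maximalIdeal R).map (algebraMap R S) ≤ I := by
      rw [Ideal.map_le_iff_le_comap]
      intro r hr
      show (LinearMap.toSpanSingleton S (S ⊗[R] (Fin n → R))
        ((1 : S) ⊗ₜ[R] (Pi.single j (1 : R)))) (algebraMap R S r) ∈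
          (Jn (maximalIdeal R) n).baseChange S
      rw [LinearMap.toSpanSingleton_apply, TensorProduct.smul_tmul', smul_eq_mul, mul_one,
        ← mul_one (algebraMap R S r), ← Algebra.smul_def, TensorProduct.smul_tmul]
      refine Submodule.tmul_mem_baseChange_of_mem 1 ?_
      intro l
      rw [Pi.smul_apply, smul_eq_mul]
      exact Ideal.mul_mem_right _ _ hr
    have h2 : v j ∈ I := hI (h j)
    have h3 : (LinearMap.toSpanSingleton S (S ⊗[R] (Fin n → R))
        ((1 : S) ⊗ₜ[R] (Pi.single j (1 : R)))) (v j) ∈ (Jn (maximalIdeal R) n).baseChange S := h2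
    rw [LinearMap.toSpanSingleton_apply, TensorProduct.smul_tmul', smul_eq_mul, mul_one] at h3
    exact h3

/-- **the decalage axioms for a flat base change** -/
theorem decAx_bc (C : FiltCx R X) {Q : ℤ} (hQ : 0 < Q)
    (hm : ∀ r ∈ maximalIdeal R, ∀ s, ∀ x ∈ C.F s, r • x ∈ C.F (s + Q))
    (hfin : ∀ s k, sl C s k ≠ ⊤) :
    DecAx (C.bc S) Q ((maximalIdeal R).map (algebraMap R S)) (fun s k => (sl C s k).toNat) := by
  have hmG : ∀ r ∈ maximalIdeal R, ∀ s k, ∀ x ∈ Gk C s k, r • x ∈ Gk C (s + Q) k :=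
    fun r hr s k x hx => ⟨Submodule.smul_mem _ _ hx.1, hm r hr s x hx.2⟩
  have hmG1 : ∀ r ∈ maximalIdeal R, ∀ s k, ∀ x ∈ Gk C s k, r • x ∈ Gk C (s + 1) k :=
    fun r hr s k x hx => Gk_mono (by omega) (hmG r hr s k x hx)
  refine ⟨fun k s => ?_, fun k s => ?_, fun k s => ?_, fun s k => ?_⟩
  · rw [Gk_bc, Gk_bc, Gk_bc]
    exact spl_bc S (Gk_mono (by omega)) (Gk_mono (by omega)) (fun r hr x hx => hmG r hr s k x hx)
  · rw [Gk_bc, Gk_bc, Zk_bc]
    exact spl_bc S (Gk_le_Bk.trans Bk_le_Zk) Zk_le_Gk (fun r hr x hx => hmG1 r hr s k x hx)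
  · rw [Gk_bc, Gk_bc, Bk_bc]
    exact spl_bc S Gk_le_Bk (Bk_le_Zk.trans Zk_le_Gk) (fun r hr x hx => hmG1 r hr s k x hx)
  · obtain ⟨φ, h1, h2, h3⟩ : ∃ φ : (Fin (sl C s k).toNat → R) →ₗ[R] X, (∀ x, φ x ∈ Zk C s k) ∧
        Zk C s k ≤ Bk C s k ⊔ LinearMap.range φ ∧
        (∀ x, φ x ∈ Bk C s k ↔ x ∈ Jn (maximalIdeal R) (sl C s k).toNat) :=
      exists_basis_map (B := Bk C s k) (Z := Zk C s k)
        (fun r hr x hx => Gk_le_Bk (hmG1 r hr s k x (Zk_le_Gk hx))) (hfin s k)
    let e := TensorProduct.piScalarRight R S S (Fin (sl C s k).toNat)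
    refine ⟨φ.baseChange S ∘ₗ e.symm.toLinearMap, ?_, ?_, ?_, ?_⟩
    · intro x
      rw [Zk_bc]
      have h4 : LinearMap.range φ ≤ Zk C s k := by
        rintro _ ⟨y, rfl⟩
        exact h1 y
      have h5 : (LinearMap.range φ).baseChange S = LinearMap.range (φ.baseChange S) := by
        rw [LinearMap.range_eq_map, bc_map, LinearMap.range_eq_map]
        congr 1
        rw [Submodule.baseChange_top]
      exact (h5 ▸ bc_mono S h4) ⟨_, rfl⟩
    · rw [Zk_bc, Bk_bc]
      refine (bc_mono S h2).trans ?_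
      rw [bc_sup]
      refine sup_le_sup_left ?_ _
      rw [LinearMap.range_eq_map, bc_map]
      rintro _ ⟨y, _, rfl⟩
      exact ⟨e y, by simp⟩
    · intro x
      rw [Bk_bc]
      have h4 : (Jn (maximalIdeal R) (sl C s k).toNat) = (Bk C s k).comap φ := by
        ext y
        exact (h3 y).symm
      have h5 := jn_bc S (sl C s k).toNat (e.symm x)
      rw [h4, bc_comap] at h5
      have h6 : e (e.symm x) = x := LinearEquiv.apply_symm_apply _ _
      rw [show TensorProduct.piScalarRight R S S (Fin (sl C s k).toNat) (e.symm x) = x from h6]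
        at h5
      exact h5
    · intro x hx
      have h5 := (jn_bc S (sl C s k).toNat (e.symm x)).2 (by
        rw [show TensorProduct.piScalarRight R S S (Fin (sl C s k).toNat) (e.symm x) = x from
          LinearEquiv.apply_symm_apply _ _]
        exact hx)
      have h6 : Jn (maximalIdeal R) (sl C s k).toNat ≤ (C.F (s + 1)).comap φ := by
        intro y hy
        have hsum : y = ∑ j, y j • (Pi.single j (1 : R) : Fin (sl C s k).toNat → R) := by
          funext l
          simp [Finset.sum_apply, Pi.single_apply]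
        show φ y ∈ C.F (s + 1)
        rw [hsum, map_sum]
        refine Submodule.sum_mem _ fun j _ => ?_
        rw [map_smul]
        exact (hmG1 _ (hy j) s k _ (Zk_le_Gk (h1 _))).2
      have h7 := bc_mono S h6 h5
      rw [bc_comap] at h7
      exact h7

end SLevel

end Vale.Agent.P202C
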