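import Vale.Agent.P202C.Dec6

/-!
# P202C, decalage: the main inequality for a flat local extension
-/

set_option autoImplicit false
set_option linter.unusedSectionVars false

namespace Vale.Agent.P202C

open Finset MI IsLocalRing TensorProduct

universe u v w

/-- flat base change of exactness -/
theorem exact_bc {R : Type u} [CommRing R] (S : Type v) [CommRing S] [Algebra R S]
    [Module.Flat R S] {X : Type w} [AddCommGroup X] [Module R X] (C : FiltCx R X) (s k : ℤ)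
    (h : ∀ x ∈ C.gr k ⊓ C.F s, C.d x = 0 → ∃ w ∈ C.gr (k - 1) ⊓ C.F s, C.d w = x) :
    ∀ x ∈ (C.bc S).gr k ⊓ (C.bc S).F s, (C.bc S).d x = 0 →
      ∃ w ∈ (C.bc S).gr (k - 1) ⊓ (C.bc S).F s, (C.bc S).d w = x := by
  intro x hx hx0
  have h1 : C.gr k ⊓ C.F s ⊓ LinearMap.ker C.d ≤ (C.gr (k - 1) ⊓ C.F s).map C.d := by
    rintro y ⟨hy, hy0⟩
    obtain ⟨w, hw, hwy⟩ := h y hy hy0
    exact ⟨w, hw, hwy⟩
  have h2 := bc_mono S h1
  rw [bc_inf, bc_inf, bc_map, bc_inf, ← bc_ker] at h2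
  obtain ⟨w, hw, hwx⟩ := h2 ⟨hx, hx0⟩
  exact ⟨w, hw, hwx⟩

theorem gr_bc {R : Type u} [CommRing R] (S : Type v) [CommRing S] [Algebra R S]
    {X : Type w} [AddCommGroup X] [Module R X] (C : FiltCx R X) {k : ℤ} (h : C.gr k = ⊥) :
    (C.bc S).gr k = ⊥ := by
  show (C.gr k).baseChange S = ⊥
  rw [h]
  exact Submodule.baseChange_bot ..

/-- **Main inequality, flat local extensions.** `R → S` flat, `C` a filtered complex over `R` whose
filtration is raised by `Q` by the elements of the maximal ideal of `R`, `G` any finite free complex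
over `S` in degrees `0..D` (for example a Koszul complex). -/
theorem dec_ineq {R : Type u} [CommRing R] [IsLocalRing R] {S : Type v} [CommRing S] [Algebra R S]
    [Module.Flat R S] {X : Type w} [AddCommGroup X] [Module R X] (C : FiltCx R X)
    {ι : Type} [Fintype ι] (G : FCx S ι) (Q : ℤ) (D n M E : ℕ) (hQ : 0 < Q)
    (hm : ∀ r ∈ maximalIdeal R, ∀ s, ∀ x ∈ C.F s, r • x ∈ C.F (s + Q))
    (hdeg : ∀ a, 0 ≤ G.deg a ∧ G.deg a ≤ D)
    (hgr : ∀ k, (k < 0 ∨ (n : ℤ) < k) → C.gr k = ⊥)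
    (hfin : ∀ s k, sl C s k ≠ ⊤)
    (hh : ∀ i, Hc G (S ⧸ (maximalIdeal R).map (algebraMap R S)) i ≠ ⊤)
    (hlow : ∀ i : ℕ, i ≤ D → ∀ s k : ℤ, (1 - i) * Q - M ≤ s → s < (1 - i) * Q → k + 2 ≤ i →
      sl C s k ≤ E)
    (hhigh : ∀ i : ℕ, i ≤ D → ∀ s k : ℤ, (1 - i) * Q ≤ s → s < 0 → (i : ℤ) < k → sl C s k ≤ E)
    (hF : ∀ s k : ℤ, 0 ≤ s → 1 ≤ k →
      ∀ x ∈ C.gr k ⊓ C.F s, C.d x = 0 → ∃ w ∈ C.gr (k - 1) ⊓ C.F s, C.d w = x)
    (hcon : ∀ j : ℤ, ∀ x ∈ fam G (C.bc S) (fun i => (1 - i) * Q) j, totd G (C.bc S) x = 0 →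
      ∃ w ∈ fam G (C.bc S) (fun i => (1 - i) * Q - M) (j + 1), totd G (C.bc S) w = x) :
    (∀ j, Hc G (M0 (C.bc S)) j ≠ ⊤) ∧
    ((Hc G (S ⧸ (maximalIdeal R).map (algebraMap R S)) 0).toNat : ℤ) *
        (∑ s ∈ Finset.Ico (0 : ℤ) Q, slEul C n s) -
      (∑ i ∈ range (D + 1), (-1) ^ i *
        ((Hc G (S ⧸ (maximalIdeal R).map (algebraMap R S)) (i : ℤ)).toNat : ℤ) *
        ∑ s ∈ Finset.Ico ((1 - (i : ℤ)) * Q) 0, slEul C n s) -
      ((D + n + 1 : ℕ) : ℤ) * (∑ i ∈ range (D + 1),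
        ((Hc G (S ⧸ (maximalIdeal R).map (algebraMap R S)) (i : ℤ)).toNat : ℤ)) *
        (M + D * Q) * E ≤ chiG G (M0 (C.bc S)) D := by
  have hE : ∀ {s k : ℤ}, sl C s k ≤ E → (sl C s k).toNat ≤ E := by
    intro s k h
    obtain ⟨c, hc⟩ := ENat.ne_top_iff_exists.1 (hfin s k)
    rw [← hc] at h ⊢
    rw [ENat.toNat_natCast]
    exact_mod_cast h
  have h0 : ∀ {s k : ℤ}, sl C s k = 0 → (sl C s k).toNat = 0 := by
    intro s k h
    rw [h]
    rfl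
  exact dec_main G (C.bc S) ((maximalIdeal R).map (algebraMap R S))
    (fun s k => (sl C s k).toNat) Q D n M E hQ (decAx_bc S C hQ hm hfin) hdeg
    (fun k hk => gr_bc S C (hgr k (Or.inl hk)))
    (fun s k hk => h0 (sl_zero_of_gr (hgr k hk)))
    hh (fun i hi s k h1 h2 h3 => hE (hlow i hi s k h1 h2 h3))
    (fun i hi s k h1 h2 h3 => hE (hhigh i hi s k h1 h2 h3))
    (fun s k hs hk => h0 (sl_zero_of_exact (hF s k hs hk) (hF (s + 1) (k + 1) (by omega)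
      (by omega))))
    (fun s k hs hk => exact_bc S C s k (hF s k hs hk)) hcon

end Vale.Agent.P202C
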