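import Vale.Agent.P202C.Fam2

/-!
# P202C, part I: comparison with the cocycles of degree zero and `main_ineq`
-/

set_option autoImplicit false

namespace Vale.Agent.P202C

open Finset

universe u v

namespace MI

/-- Euler characteristic of `G ⊗ V`, degrees `0..D` -/
noncomputable def chiG {R : Type u} [CommRing R] {ι : Type} [Fintype ι] (G : FCx R ι)
    (V : Type v) [AddCommGroup V] [Module R V] (D : ℕ) : ℤ :=
  ∑ j ∈ Finset.range (D + 1), (-1 : ℤ) ^ j * ((Hc G V j).toNat : ℤ)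

/-- the cocycles of degree zero in `F 0` -/
def M0 {R : Type u} [CommRing R] {X : Type v} [AddCommGroup X] [Module R X]
    (C : FiltCx R X) : Submodule R X := C.gr 0 ⊓ C.F 0 ⊓ LinearMap.ker C.d

end MI

open MI

variable {R : Type u} [CommRing R] {ι : Type} [Fintype ι] {G : FCx R ι}
  {X : Type v} [AddCommGroup X] [Module R X] {C : FiltCx R X} {D : ℕ} {Q : ℤ}

/-- the position zero -/
abbrev T0 (G : FCx R ι) (C : FiltCx R X) : ℤ → Submodule R (ι → X) := TT G C fun _ => 0

/-- removing the components of degree larger than `m` of an element whose total differential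
vanishes in these degrees -/
theorem clear_top (hdeg : ∀ a, 0 ≤ G.deg a ∧ G.deg a ≤ D) (hS : Shift G C Q) (hQ : 0 ≤ Q)
    (hex : ∀ k : ℤ, 1 ≤ k → ∀ x ∈ C.gr k ⊓ C.F 0, C.d x = 0 → ∃ y ∈ C.gr (k - 1) ⊓ C.F 0, C.d y = x)
    (m : ℤ) (x : ι → X) (hx : x ∈ T0 G C m) (hx0 : ∀ b, m < G.deg b → totd G C x b = 0) :
    ∃ y ∈ T0 G C (m + 1), ∀ b, m < G.deg b → (x - totd G C y) b = 0 := by
  classical
  have hcx := TT_cx hdeg hS (HC.Va_zero D hQ)
  have key : ∀ j : ℕ, j ≤ D + 1 → ∃ y ∈ T0 G C (m + 1), ∀ b, m < G.deg b →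
      (D : ℤ) + 1 - j ≤ G.deg b → (x - totd G C y) b = 0 := by
    intro j
    induction j with
    | zero =>
      intro _
      refine ⟨0, Submodule.zero_mem _, fun b _ hb => ?_⟩
      have := hdeg b
      simp only [Nat.cast_zero, sub_zero] at hb
      omega
    | succ j ih =>
      intro hj
      obtain ⟨y, hy, hz⟩ := ih (by omega)
      set i : ℕ := D - j with hi
      have hiD : i ≤ D := by omega
      have hij : (D : ℤ) + 1 - (j + 1 : ℕ) = i := by push_cast; omega
      by_cases him : (i : ℤ) ≤ m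
      · refine ⟨y, hy, fun b hb1 _ => hz b hb1 ?_⟩
        have := hdeg b
        omega
      push Not at him
      set x' := x - totd G C y with hx'
      have hx'T : x' ∈ T0 G C m := Submodule.sub_mem _ hx (hcx.mem' hy)
      have hx'0 : ∀ b, m < G.deg b → totd G C x' b = 0 := by
        intro b hb
        rw [hx', map_sub, totd_totd, sub_zero]
        exact hx0 b hb
      have h1 : ∀ b : {b // G.deg b = i}, ∃ v ∈ C.gr (i - m - 1) ⊓ C.F 0, C.d v = x' b.1 := by
        rintro ⟨b, hb⟩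
        have h2 := hx'T b
        rw [hb] at h2
        refine hex (i - m) (by omega) (x' b) ⟨h2.1, h2.2⟩ ?_
        have h3 := hx'0 b (by omega)
        rw [totd_apply] at h3
        have h4 : ∑ c, G.mat b c • x' c = 0 := by
          refine Finset.sum_eq_zero fun c _ => ?_
          by_cases h5 : G.mat b c = 0
          · rw [h5, zero_smul]
          · have h6 := G.hdeg b c h5
            rw [hz c (by omega) (by omega), smul_zero]
        rw [h4, zero_add] at h3
        have h7 : sgn (G.deg b) • (sgn (G.deg b) • C.d (x' b)) = 0 := by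
          rw [h3, smul_zero]
        rwa [smul_smul, sgn_sq, one_smul] at h7
      choose v hv hv' using h1
      have h2 : exz G i (fun b => sgn i • v b) ∈ T0 G C (m + 1) := by
        intro b
        by_cases h : G.deg b = i
        · rw [exz_of i _ b h, h]
          have h3 : (i : ℤ) - (m + 1) = i - m - 1 := by ring
          refine ⟨?_, ?_⟩
          · show _ ∈ C.gr ((i : ℤ) - (m + 1))
            rw [h3]
            exact zsmul_mem (hv ⟨b, h⟩).1 _
          · exact zsmul_mem (hv ⟨b, h⟩).2 _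
        · rw [exz_not i _ b h]
          exact ⟨Submodule.zero_mem _, Submodule.zero_mem _⟩
      refine ⟨y + exz G i (fun b => sgn i • v b), Submodule.add_mem _ hy h2, fun b hb1 hb => ?_⟩
      rw [hij] at hb
      rw [map_add, ← sub_sub, ← hx', Pi.sub_apply, totd_exz i _ b hb]
      split_ifs with h
      · rw [map_zsmul, smul_smul, sgn_sq, one_smul, hv' ⟨b, h⟩, sub_self]
      · rw [sub_zero]
        exact hz b hb1 (by omega)
  obtain ⟨y, hy, hz⟩ := key (D + 1) le_rfl
  refine ⟨y, hy, fun b hb => hz b hb ?_⟩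
  have := hdeg b
  push_cast
  omega

/-- the inclusion `(ι → M0) → (ι → X)` -/
def incl (C : FiltCx R X) (ι : Type) : (ι → M0 C) →ₗ[R] (ι → X) where
  toFun x := fun a => (x a : X)
  map_add' := fun _ _ => rfl
  map_smul' := fun _ _ => rfl

omit [Fintype ι] in
theorem incl_apply (x : ι → M0 C) (a : ι) : incl C ι x a = (x a : X) := rfl

omit [Fintype ι] in
theorem incl_inj : Function.Injective (incl C ι) := by
  intro x y h
  funext a
  exact Subtype.ext (congrFun h a)

theorem totd_incl (x : ι → M0 C) : totd G C (incl C ι x) = incl C ι (act G.mat (M0 C) x) := by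
  funext a
  have h1 : C.d (incl C ι x a) = 0 := (x a).2.2
  rw [totd_apply, h1, smul_zero, add_zero]
  show ∑ b, G.mat a b • (x b : X) = ((∑ b, G.mat a b • x b : M0 C) : X)
  rw [AddSubmonoidClass.coe_finsetSum]
  rfl

/-- elements of the total complex supported in one degree with vanishing differential are in
the image of the inclusion -/
theorem exists_incl (hgr : ∀ k, k < 0 → C.gr k = ⊥) {m : ℤ} {x : ι → X} (hx : x ∈ T0 G C m)
    (h1 : ∀ b, m < G.deg b → x b = 0) (h2 : ∀ b, G.deg b = m → totd G C x b = 0) :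
    ∃ v ∈ degPart G (M0 C) m, incl C ι v = x := by
  classical
  have hlow : ∀ b, G.deg b < m → x b = 0 := by
    intro b hb
    have := (hx b).1
    rw [hgr _ (by omega)] at this
    exact (Submodule.mem_bot R).1 this
  have h3 : ∀ b, x b ∈ M0 C := by
    intro b
    rcases lt_trichotomy (G.deg b) m with h | h | h
    · rw [hlow b h]; exact Submodule.zero_mem _
    · have h4 := hx b
      rw [h, sub_self] at h4
      refine ⟨h4, ?_⟩
      have h5 := h2 b h
      rw [totd_apply] at h5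
      have h6 : ∑ c, G.mat b c • x c = 0 := by
        refine Finset.sum_eq_zero fun c _ => ?_
        by_cases h7 : G.mat b c = 0
        · rw [h7, zero_smul]
        · have h8 := G.hdeg b c h7
          rw [h1 c (by omega), smul_zero]
      rw [h6, zero_add] at h5
      have h7 : sgn (G.deg b) • (sgn (G.deg b) • C.d (x b)) = 0 := by rw [h5, smul_zero]
      rw [smul_smul, sgn_sq, one_smul] at h7
      exact h7
    · rw [h1 b h]; exact Submodule.zero_mem _
  refine ⟨fun b => ⟨x b, h3 b⟩, ?_, rfl⟩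
  intro b hb
  apply Subtype.ext
  rcases lt_or_gt_of_ne hb with h | h
  · exact hlow b h
  · exact h1 b h

theorem incl_mem {m : ℤ} {v : ι → M0 C} (hv : v ∈ degPart G (M0 C) m) :
    incl C ι v ∈ T0 G C m := by
  intro b
  by_cases h : G.deg b = m
  · rw [h, sub_self]
    exact (v b).2.1
  · have : v b = 0 := hv b h
    rw [incl_apply, this]
    exact ⟨Submodule.zero_mem _, Submodule.zero_mem _⟩

/-- the homology of the total complex at position `0` is that of `G ⊗ M0` -/
theorem hl_T0 (hdeg : ∀ a, 0 ≤ G.deg a ∧ G.deg a ≤ D) (hS : Shift G C Q) (hQ : 0 ≤ Q)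
    (hgr : ∀ k, k < 0 → C.gr k = ⊥)
    (hex : ∀ k : ℤ, 1 ≤ k → ∀ x ∈ C.gr k ⊓ C.F 0, C.d x = 0 → ∃ y ∈ C.gr (k - 1) ⊓ C.F 0, C.d y = x)
    (m : ℤ) : HC.hl (totd G C) (T0 G C) HC.Z0 m = Hc G (M0 C) m := by
  classical
  have hcx := TT_cx hdeg hS (HC.Va_zero D hQ)
  unfold Hc hl rlen
  show Module.length R (HC.Zc (totd G C) (T0 G C) HC.Z0 m ⧸ _) = _
  set Z := HC.Zc (totd G C) (T0 G C) HC.Z0 m with hZ
  set B := HC.Bd (totd G C) (T0 G C) HC.Z0 m with hB
  set Z' := (degPart G (M0 C) m ⊓ (botF R (ι → M0 C) (m - 1)).comap (act G.mat (M0 C))) with hZ'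
  set B' := (botF R (ι → M0 C) m ⊔ (degPart G (M0 C) (m + 1)).map (act G.mat (M0 C))) with hB'
  have hmap : ∀ v ∈ Z', incl C ι v ∈ Z := by
    rintro v ⟨hv, hv0⟩
    refine ⟨incl_mem hv, ?_⟩
    show totd G C (incl C ι v) ∈ (⊥ : Submodule R (ι → X))
    rw [totd_incl]
    have : act G.mat (M0 C) v = 0 := (Submodule.mem_bot R).1 hv0
    rw [this, map_zero]
    exact Submodule.zero_mem _
  let Φ : Z' →ₗ[R] (Z ⧸ B.comap Z.subtype) :=
    (B.comap Z.subtype).mkQ ∘ₗ ((incl C ι ∘ₗ Z'.subtype).codRestrict Z fun v => hmap v.1 v.2)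
  have hΦ : ∀ v : Z', Φ v = (B.comap Z.subtype).mkQ ⟨incl C ι v.1, hmap v.1 v.2⟩ := fun v => rfl
  have hsurj : Function.Surjective Φ := by
    intro z
    obtain ⟨⟨x, hx, hx0⟩, rfl⟩ := Submodule.mkQ_surjective _ z
    have hx0' : totd G C x = 0 := (Submodule.mem_bot R).1 hx0
    obtain ⟨y, hy, hyz⟩ := clear_top hdeg hS hQ hex m x hx (fun b _ => congrFun hx0' b)
    have h1 : x - totd G C y ∈ T0 G C m := Submodule.sub_mem _ hx (hcx.mem' hy)
    have h2 : totd G C (x - totd G C y) = 0 := by rw [map_sub, hx0', totd_totd, sub_zero]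
    obtain ⟨v, hv, hvx⟩ := exists_incl hgr h1 hyz (fun b _ => congrFun h2 b)
    refine ⟨⟨v, hv, ?_⟩, ?_⟩
    · show act G.mat (M0 C) v ∈ (⊥ : Submodule R (ι → M0 C))
      rw [Submodule.mem_bot]
      apply incl_inj
      rw [← totd_incl, hvx, h2, map_zero]
    · rw [hΦ]
      rw [Submodule.mkQ_apply, Submodule.mkQ_apply, Submodule.Quotient.eq]
      show incl C ι v - x ∈ B
      rw [hvx]
      have : x - totd G C y - x = - totd G C y := by abel
      rw [this]
      exact Submodule.mem_sup_right (Submodule.neg_mem _ ⟨y, hy, rfl⟩)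
  have hker : LinearMap.ker Φ = B'.submoduleOf Z' := by
    ext v
    rw [LinearMap.mem_ker, hΦ, Submodule.mkQ_apply, Submodule.Quotient.mk_eq_zero]
    show incl C ι v.1 ∈ B ↔ v.1 ∈ B'
    constructor
    · intro h
      obtain ⟨u, hu, w, ⟨y, hy, rfl⟩, h3⟩ := Submodule.mem_sup.1 h
      have hu0 : u = 0 := (Submodule.mem_bot R).1 hu
      rw [hu0, zero_add] at h3
      have h4 : ∀ b, m + 1 < G.deg b → totd G C y b = 0 := by
        intro b hb
        rw [h3, incl_apply]
        have : v.1 b = 0 := v.2.1 b (by omega)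
        rw [this]; rfl
      obtain ⟨w, hw, hwz⟩ := clear_top hdeg hS hQ hex (m + 1) y hy h4
      have h5 : y - totd G C w ∈ T0 G C (m + 1) := Submodule.sub_mem _ hy (hcx.mem' hw)
      have h6 : totd G C (y - totd G C w) = incl C ι v.1 := by
        rw [map_sub, totd_totd, sub_zero, h3]
      obtain ⟨z, hz, hzx⟩ := exists_incl hgr h5 hwz (fun b hb => by
        rw [h6, incl_apply]
        have : v.1 b = 0 := v.2.1 b (by omega)
        rw [this]; rfl)
      refine Submodule.mem_sup_right ⟨z, hz, ?_⟩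
      apply incl_inj
      rw [← totd_incl, hzx, h6]
    · intro h
      obtain ⟨u, hu, w, ⟨y, hy, rfl⟩, h3⟩ := Submodule.mem_sup.1 h
      have hu0 : u = 0 := (Submodule.mem_bot R).1 hu
      rw [hu0, zero_add] at h3
      rw [← h3, ← totd_incl]
      exact Submodule.mem_sup_right ⟨_, incl_mem hy, rfl⟩
  rw [← hker]
  exact (LinearMap.quotKerEquivOfSurjective Φ hsurj).length_eq.symm

theorem Hc_eq_zero (V : Type v) [AddCommGroup V] [Module R V] {j : ℤ} (h : ∀ a, G.deg a ≠ j) :
    Hc G V j = 0 := by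
  refine HC.ql_eq_zero.2 ?_
  rintro x ⟨hx, -⟩
  have : x = 0 := by
    funext a
    exact hx a (h a)
  rw [this]
  exact Submodule.zero_mem _

theorem sl_zero_of_gr {s k : ℤ} (h : C.gr k = ⊥) : sl C s k = 0 := by
  refine HC.ql_eq_zero.2 ?_
  rintro x ⟨⟨hx, -⟩, -⟩
  rw [h] at hx
  rw [(Submodule.mem_bot R).1 hx]
  exact Submodule.zero_mem _

theorem sl_zero_of_exact {s k : ℤ}
    (h : ∀ x ∈ C.gr k ⊓ C.F s, C.d x = 0 → ∃ w ∈ C.gr (k - 1) ⊓ C.F s, C.d w = x)
    (h' : ∀ x ∈ C.gr (k + 1) ⊓ C.F (s + 1), C.d x = 0 →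
      ∃ w ∈ C.gr (k + 1 - 1) ⊓ C.F (s + 1), C.d w = x) : sl C s k = 0 := by
  refine HC.ql_eq_zero.2 ?_
  rintro x ⟨⟨hx, hxs⟩, hxd⟩
  obtain ⟨w, hw, hwx⟩ := h' (C.d x) ⟨C.d_gr k x hx, hxd⟩ (C.dd x)
  rw [add_sub_cancel_right] at hw
  obtain ⟨y, hy, hyx⟩ := h (x - w) ⟨(C.gr k).sub_mem hx hw.1,
    (C.F s).sub_mem hxs (C.F_anti s hw.2)⟩ (by rw [map_sub, hwx, sub_self])
  have : x = w + C.d y := by rw [hyx]; abel
  rw [this]
  exact Submodule.add_mem_sup hw ⟨y, hy, rfl⟩

/-- (I.1) main inequality -/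
theorem main_ineq' {R : Type u} [CommRing R] {ι : Type} [Fintype ι] (G : FCx R ι)
    {X : Type v} [AddCommGroup X] [Module R X] (C : FiltCx R X) (Q : ℤ) (D n : ℕ) (hD : 1 ≤ D)
    (hQ : 0 < Q)
    (hsh : Shift G C Q) (hdeg : ∀ a, 0 ≤ G.deg a ∧ G.deg a ≤ D)
    (hgr : ∀ k, (k < 0 ∨ (n : ℤ) < k) → C.gr k = ⊥)
    (hfin : ∀ s k, sl C s k ≠ ⊤)
    (hA : ∀ i s k : ℤ, 0 ≤ i → i ≤ D → s < (1 - i) * Q → k < i - 1 → sl C s k = 0)
    (hP : ∀ i s k : ℤ, 0 ≤ i → i ≤ D → (1 - i) * Q ≤ s → i ≤ k → 1 ≤ k →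
      ∀ x ∈ C.gr k ⊓ C.F s, C.d x = 0 → ∃ w ∈ C.gr (k - 1) ⊓ C.F s, C.d w = x)
    (hcon : ∃ M : ℕ, ∀ j : ℤ, ∀ x ∈ fam G C (fun i => (1 - i) * Q) j, totd G C x = 0 →
      ∃ w ∈ fam G C (fun i => (1 - i) * Q - M) (j + 1), totd G C w = x) :
    (∀ j, Hc G (M0 C) j ≠ ⊤) ∧
    (∑ a with G.deg a = 0, ∑ s ∈ Finset.Ico (0 : ℤ) Q, slEul C n s) -
      (∑ a with 2 ≤ G.deg a, sgn (G.deg a) *
        ∑ s ∈ Finset.Ico ((1 - G.deg a) * Q) 0, slEul C n s) ≤ chiG G (M0 C) D := by
  classical
  obtain ⟨M, hM⟩ := hcon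
  have hex : ∀ k : ℤ, 1 ≤ k → ∀ x ∈ C.gr k ⊓ C.F 0, C.d x = 0 →
      ∃ y ∈ C.gr (k - 1) ⊓ C.F 0, C.d y = x := fun k hk =>
    hP 1 0 k (by omega) (by exact_mod_cast hD) (by simp) hk hk
  have h1 := main_fam (D := D) hdeg hsh hQ.le (n := n) hfin
    (fun s k hk => sl_zero_of_gr (hgr k hk)) (N := M) (by omega) hM
    (fun i hi s hs k hk => hA i s k (by omega) (by exact_mod_cast hi) hs (by omega))
    (fun i hi s hs _ k hk => sl_zero_of_exact
      (hP i s k (by omega) (by exact_mod_cast hi) hs (by omega) (by omega))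
      (hP i (s + 1) (k + 1) (by omega) (by exact_mod_cast hi) (by omega) (by omega) (by omega)))
    (fun s hs k hk => hP 1 s k (by omega) (by exact_mod_cast hD) (by simpa using hs) hk hk)
    (D + n + 2) (by omega)
  obtain ⟨f1, f2, f3⟩ := h1
  have he : ∀ j, hl (totd G C) (botF R (ι → X)) (fam G C fun _ => 0) j = Hc G (M0 C) j := fun j =>
    hl_T0 hdeg hsh hQ.le (fun k hk => hgr k (Or.inl hk)) hex j
  refine ⟨fun j => by rw [← he]; exact f1 j, ?_⟩
  -- the right side
  have e1 : eul (totd G C) (botF R (ι → X)) (fam G C fun _ => 0) (D + n + 2) =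
      chiG G (M0 C) D := by
    unfold eul chiG
    have h2 : ∑ j ∈ Finset.Ico (-((D + n + 2 : ℕ) : ℤ)) (D + n + 2 : ℕ), (-1 : ℤ) ^ j.natAbs *
        ((hl (totd G C) (botF R (ι → X)) (fam G C fun _ => 0) j).toNat : ℤ) =
        ∑ j ∈ Finset.Icc (0 : ℤ) D, (-1 : ℤ) ^ j.natAbs * ((Hc G (M0 C) j).toNat : ℤ) := by
      symm
      rw [Finset.sum_congr rfl fun j _ => by rw [← he j]]
      refine Finset.sum_subset ?_ ?_
      · intro j hj
        simp only [Finset.mem_Icc, Finset.mem_Ico] at hj ⊢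
        push_cast
        omega
      · intro j _ hj
        simp only [Finset.mem_Icc] at hj
        rw [he, Hc_eq_zero (M0 C) (fun a ha => by have := hdeg a; omega)]
        simp
    rw [h2]
    refine Finset.sum_bij' (fun k _ => k.toNat) (fun k _ => (k : ℤ)) ?_ ?_ ?_ ?_ ?_
    · intro k hk
      simp only [Finset.mem_Icc, Finset.mem_range] at hk ⊢
      omega
    · intro k hk
      simp only [Finset.mem_Icc, Finset.mem_range] at hk ⊢
      omega
    · intro k hk
      simp only [Finset.mem_Icc] at hk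
      omega
    · intro k _; simp
    · intro k hk
      simp only [Finset.mem_Icc] at hk
      have h3 : ((k.toNat : ℕ) : ℤ) = k := by omega
      have h4 : k.natAbs = k.toNat := by omega
      rw [h3, h4]
  rw [← e1]
  refine le_trans (le_of_eq ?_) f3
  congr 1
  · rw [Finset.sum_const]
    unfold rk
    rw [Fintype.card_subtype, nsmul_eq_mul]
  · set S : ℤ → ℤ := fun i => ∑ s ∈ Finset.Ico ((1 - i) * Q) 0, slEul C n s with hS
    have hS0 : ∀ i : ℤ, i ≤ 1 → S i = 0 := by
      intro i hi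
      have : Finset.Ico ((1 - i) * Q) 0 = ∅ := by
        rw [Finset.Ico_eq_empty_iff]
        have : 0 ≤ (1 - i) * Q := mul_nonneg (by omega) hQ.le
        omega
      simp only [hS, this, Finset.sum_empty]
    have h2 : ∑ a with 2 ≤ G.deg a, sgn (G.deg a) * S (G.deg a) =
        ∑ a, sgn (G.deg a) * S (G.deg a) := by
      refine Finset.sum_subset (Finset.filter_subset _ _) fun a _ ha => ?_
      simp only [Finset.mem_filter, Finset.mem_univ, true_and, not_le] at ha
      rw [hS0 _ (by omega), mul_zero]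
    show ∑ a with 2 ≤ G.deg a, sgn (G.deg a) * S (G.deg a) =
      ∑ i ∈ range (D + 1), (-1) ^ i * (rk G i : ℤ) * S i
    rw [h2]
    have h3 : ∀ a, sgn (G.deg a) * S (G.deg a) =
        ∑ i ∈ range (D + 1), if G.deg a = i then (-1) ^ i * S i else 0 := by
      intro a
      have h4 := hdeg a
      rw [Finset.sum_eq_single (G.deg a).toNat]
      · have h5 : (((G.deg a).toNat : ℕ) : ℤ) = G.deg a := Int.toNat_of_nonneg h4.1
        rw [if_pos h5.symm, h5]
        congr 1
        have h6 : sgn (G.deg a) = HC.sg (G.deg a) := rfl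
        rw [h6, sg_eq]
        congr 1
        omega
      · intro i _ hi
        rw [if_neg]
        intro h5
        apply hi
        rw [h5]
        simp
      · intro h5
        exact absurd (Finset.mem_range.2 (by omega)) h5
    rw [Finset.sum_congr rfl fun a _ => h3 a, Finset.sum_comm]
    refine Finset.sum_congr rfl fun i _ => ?_
    rw [← Finset.sum_filter, Finset.sum_const]
    unfold rk
    rw [Fintype.card_subtype, nsmul_eq_mul]
    ring

end Vale.Agent.P202C
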