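import Vale.Agent.P202C.SliceR

/-!
P202 in characteristic p: part (II) with exactly the statements of `Plan.lean`.
-/

set_option autoImplicit false

namespace Vale.Agent.P202C

open IsLocalRing TensorProduct

universe u v w

/-- number of negative factors -/
def nneg {n : ℕ} (b : Fin n → ℤ) (s : ℤ) : ℕ :=
  (Finset.univ.filter (fun l => b l + s ≤ -2)).card

theorem negc_succ {n : ℕ} (b : Fin n → ℤ) (s : ℤ) : negc b (s + 1) = nneg b s := by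
  unfold negc nneg
  congr 1
  ext l
  simp only [Finset.mem_filter, Finset.mem_univ, true_and]
  omega

theorem nneg_le_negc {n : ℕ} (b : Fin n → ℤ) (s : ℤ) : nneg b s ≤ negc b s := by
  unfold negc nneg
  refine Finset.card_le_card fun l hl => ?_
  simp only [Finset.mem_filter, Finset.mem_univ, true_and] at hl ⊢
  omega

theorem exists_neg_one {n : ℕ} {b : Fin n → ℤ} {s : ℤ} (h : nneg b s ≠ negc b s) :
    ∃ l, b l + s = -1 := by
  by_contra hc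
  push Not at hc
  refine h ?_
  unfold negc nneg
  congr 1
  ext l
  simp only [Finset.mem_filter, Finset.mem_univ, true_and]
  have := hc l
  omega

theorem prod_zero {n : ℕ} {b : Fin n → ℤ} {s : ℤ} (h : nneg b s ≠ negc b s) :
    ∏ l, (b l + s + 1).natAbs = 0 := by
  obtain ⟨l, hl⟩ := exists_neg_one h
  refine Finset.prod_eq_zero (Finset.mem_univ l) ?_
  rw [hl]
  rfl

section Wrap

variable (𝔽 : Type w) [Field 𝔽] {n : ℕ} (R : Type u) [CommRing R] [Algebra (PolyA 𝔽 n) R]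

/-- (II.1) slices -/
theorem sl_CR [Module.Flat (PolyA 𝔽 n) R] (b : Fin n → ℤ) (s k : ℤ) :
    sl (CR 𝔽 R b) s k = if k = (nneg b s : ℤ) then
      Module.length R (R ⧸ yI 𝔽 n R) * ((∏ l, (b l + s + 1).natAbs : ℕ) : ℕ∞) else 0 := by
  by_cases h : nneg b s = negc b s
  · rw [h]
    split_ifs with hk
    · rw [hk, sl_CR_eq, mul_comm]
    · exact sl_CR_zero 𝔽 R b hk
  · have h0 := prod_zero h
    have h1 : sl (CR 𝔽 R b) s k = 0 := by
      by_cases hk : k = negc b s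
      · rw [hk, sl_CR_eq, h0]
        simp
      · exact sl_CR_zero 𝔽 R b hk
    rw [h1, h0]
    simp

theorem PA_le_NA {b : Fin n → ℤ} {s k : ℤ} (hk : (nneg b s : ℤ) < k) :
    PA 𝔽 b k s ≤ NA 𝔽 b k s := by
  by_cases h : k = negc b s
  · have h1 : nneg b s ≠ negc b s := by
      intro h2
      rw [h2] at hk
      exact absurd hk (by rw [h]; exact lt_irrefl _)
    have h2 := prod_zero h1
    rw [← card_hS] at h2
    subst h
    have h2' := Finset.card_eq_zero.mp h2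
    have h3 : IsEmpty ↥(hS b s) :=
      ⟨fun x => absurd (h2' ▸ x.2 : (x : Fin n → ℤ) ∈ (∅ : Finset (Fin n → ℤ)))
        (Finset.notMem_empty _)⟩
    have h4 : Subsingleton (↥(PA 𝔽 b (negc b s) s) ⧸ (NA 𝔽 b (negc b s) s).submoduleOf
        (PA 𝔽 b (negc b s) s)) := (sliceEquiv 𝔽 b s).toEquiv.subsingleton
    exact Submodule.submoduleOf_eq_top.mp (Submodule.Quotient.subsingleton_iff.mp h4)
  · exact slice_zero 𝔽 h

theorem exact_A' {b : Fin n → ℤ} {s k : ℤ} (hk : (nneg b s : ℤ) < k) {x : XA 𝔽 n}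
    (h1 : x ∈ grA 𝔽 n k) (h2 : x ∈ FA 𝔽 b s) (h3 : dA 𝔽 n x = 0) :
    ∃ y ∈ grA 𝔽 n (k - 1) ⊓ FA 𝔽 b s, dA 𝔽 n y = x := by
  have h4 : x ∈ PA 𝔽 b k s := by
    refine ⟨⟨h1, h2⟩, ?_⟩
    show dA 𝔽 n x ∈ FA 𝔽 b (s + 1)
    rw [h3]
    exact Submodule.zero_mem _
  have h5 := PA_le_NA 𝔽 hk h4
  obtain ⟨x', hx', _, ⟨w, hw, rfl⟩, rfl⟩ := Submodule.mem_sup.mp h5
  have h6 : dA 𝔽 n x' = 0 := by
    have := dA_dA 𝔽 w
    rw [map_add, this, add_zero] at h3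
    exact h3
  have h7 : (negc b (s + 1) : ℤ) < k := by
    rw [negc_succ]
    exact hk
  obtain ⟨y, hy, hyx⟩ := exact_A 𝔽 h7 hx'.1 hx'.2 h6
  refine ⟨y + w, Submodule.add_mem _ ⟨hy.1, FA_anti 𝔽 b (by omega) hy.2⟩ hw, ?_⟩
  rw [map_add, hyx]

/-- (II.2) positivity -/
theorem pos_CR [Module.Flat (PolyA 𝔽 n) R] (b : Fin n → ℤ) (s k : ℤ) (hk : (nneg b s : ℤ) < k) :
    ∀ x ∈ (CR 𝔽 R b).gr k ⊓ (CR 𝔽 R b).F s, (CR 𝔽 R b).d x = 0 →
      ∃ w ∈ (CR 𝔽 R b).gr (k - 1) ⊓ (CR 𝔽 R b).F s, (CR 𝔽 R b).d w = x := by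
  intro x h1 h2
  have h3 : x ∈ (grA 𝔽 n k ⊓ FA 𝔽 b s ⊓ LinearMap.ker (dA 𝔽 n)).baseChange R := by
    rw [bc_inf, bc_inf, ← bc_ker]
    exact ⟨h1, h2⟩
  have h4 : grA 𝔽 n k ⊓ FA 𝔽 b s ⊓ LinearMap.ker (dA 𝔽 n) ≤
      (grA 𝔽 n (k - 1) ⊓ FA 𝔽 b s).map (dA 𝔽 n) := by
    rintro z ⟨⟨c1, c2⟩, c3⟩
    exact exact_A' 𝔽 hk c1 c2 c3
  have h5 := bc_mono R h4 h3
  rw [bc_map, bc_inf] at h5
  obtain ⟨y, hy, hyx⟩ := h5
  exact ⟨y, hy, hyx⟩

theorem num2_le (τ : Fin n → Fin 3) : num2 τ ≤ n := by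
  unfold num2
  exact (Finset.card_filter_le _ _).trans (by simp)

/-- (II.3) cochain degrees -/
theorem gr_CR (b : Fin n → ℤ) (k : ℤ) (hk : k < 0 ∨ (n : ℤ) < k) : (CR 𝔽 R b).gr k = ⊥ := by
  have h1 : grA 𝔽 n k = ⊥ := by
    rw [eq_bot_iff]
    intro f hf
    rw [Submodule.mem_bot]
    funext τ
    refine hf τ fun h => ?_
    have h2 := num2_le τ
    rcases hk with hk | hk <;> omega
  rw [CR_gr, h1, Submodule.baseChange_bot]

theorem toLau_X (j : Fin (n + 1)) : toLau 𝔽 n (MvPolynomial.X j) = elemE 𝔽 n j := by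
  unfold toLau
  rw [MvPolynomial.aeval_X]

theorem X_smul_F (b : Fin n → ℤ) (s : ℤ) (j : Fin (n + 1)) {f : XA 𝔽 n} (hf : f ∈ FA 𝔽 b s) :
    (MvPolynomial.X j : PolyA 𝔽 n) • f ∈ FA 𝔽 b (s + 1) := by
  intro τ
  rw [XA_smul_apply, toLau_X]
  have h := inBlk_mul 𝔽 0 b τ 1 s (inBlk_elemE 𝔽 τ j) (hf τ)
  rwa [zero_add, add_comm (1 : ℤ) s] at h

theorem yR_smul_F (b : Fin n → ℤ) (s : ℤ) (j : Fin (n + 1)) {x : R ⊗[PolyA 𝔽 n] XA 𝔽 n}
    (hx : x ∈ (CR 𝔽 R b).F s) : yR 𝔽 R j • x ∈ (CR 𝔽 R b).F (s + 1) := by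
  rw [CR_F] at hx ⊢
  rw [Submodule.baseChange_eq_span] at hx
  induction hx using Submodule.span_induction with
  | mem z hz =>
    obtain ⟨f, hf, rfl⟩ := hz
    have h1 : yR 𝔽 R j • ((1 : R) ⊗ₜ[PolyA 𝔽 n] f) =
        (1 : R) ⊗ₜ[PolyA 𝔽 n] ((MvPolynomial.X j : PolyA 𝔽 n) • f) := by
      rw [← TensorProduct.smul_tmul, TensorProduct.smul_tmul', smul_eq_mul, mul_one,
        Algebra.smul_def, mul_one]
      rfl
    change yR 𝔽 R j • ((1 : R) ⊗ₜ[PolyA 𝔽 n] f) ∈ _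
    rw [h1]
    exact Submodule.tmul_mem_baseChange_of_mem 1 (X_smul_F 𝔽 b s j hf)
  | zero =>
    rw [smul_zero]
    exact Submodule.zero_mem _
  | add x y _ _ hx hy =>
    rw [smul_add]
    exact Submodule.add_mem _ hx hy
  | smul a x _ hx =>
    rw [smul_comm]
    exact Submodule.smul_mem _ a hx

theorem yI_smul_F (b : Fin n → ℤ) (s : ℤ) {r : R} (hr : r ∈ yI 𝔽 n R)
    {x : R ⊗[PolyA 𝔽 n] XA 𝔽 n} (hx : x ∈ (CR 𝔽 R b).F s) :
    r • x ∈ (CR 𝔽 R b).F (s + 1) := by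
  unfold yI at hr
  induction hr using Submodule.span_induction with
  | mem z hz =>
    obtain ⟨j, rfl⟩ := hz
    exact yR_smul_F 𝔽 R b s j hx
  | zero =>
    rw [zero_smul]
    exact Submodule.zero_mem _
  | add x y _ _ hx hy =>
    rw [add_smul]
    exact Submodule.add_mem _ hx hy
  | smul a x _ hx =>
    rw [smul_eq_mul, mul_smul]
    exact Submodule.smul_mem _ a hx

/-- (II.4) elements of `(y)^Q` raise the filtration by `Q` -/
theorem shift_CR (b : Fin n → ℤ) (Q : ℕ) (r : R) (hr : r ∈ yI 𝔽 n R ^ Q) (s : ℤ)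
    (x : R ⊗[PolyA 𝔽 n] XA 𝔽 n) (hx : x ∈ (CR 𝔽 R b).F s) : r • x ∈ (CR 𝔽 R b).F (s + Q) := by
  induction Q generalizing r with
  | zero =>
    rw [Nat.cast_zero, add_zero]
    exact Submodule.smul_mem _ r hx
  | succ Q ih =>
    rw [pow_succ'] at hr
    induction hr using Submodule.mul_induction_on' with
    | mem_mul_mem a ha c hc =>
      rw [mul_smul]
      have h1 := yI_smul_F 𝔽 R b (s + Q) ha (ih c hc)
      rwa [add_assoc, ← Nat.cast_succ] at h1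
    | add a _ c _ h1 h2 =>
      rw [add_smul]
      exact Submodule.add_mem _ h1 h2

end Wrap

end Vale.Agent.P202C
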