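import Vale.Agent.P202C.VDefs

/-!
P202 in characteristic p, section (V), module V3 (helper18): the twist by a ring homomorphism.
-/

set_option autoImplicit false

namespace Vale.Agent.P202C.V

open IsLocalRing Vale.Agent.P202C

universe u v w

/-- twist of a linear map -/
def v3Map {R : Type u} [CommRing R] (φ : R →+* R) {M : Type v} {N : Type w} [AddCommGroup M]
    [Module R M] [AddCommGroup N] [Module R N] (f : M →ₗ[R] N) : Tw φ M →ₗ[R] Tw φ N where
  toFun := f
  map_add' := f.map_add
  map_smul' := fun r x => f.map_smul (φ r) x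

/-- twist of a linear equivalence -/
def v3Equiv {R : Type u} [CommRing R] (φ : R →+* R) {M : Type v} {N : Type w} [AddCommGroup M]
    [Module R M] [AddCommGroup N] [Module R N] (e : M ≃ₗ[R] N) : Tw φ M ≃ₗ[R] Tw φ N where
  toFun := e
  map_add' := e.map_add
  map_smul' := fun r x => e.map_smul (φ r) x
  invFun := e.symm
  left_inv := e.left_inv
  right_inv := e.right_inv

/-- a submodule as a submodule of the twist -/
def v3Sub {R : Type u} [CommRing R] (φ : R →+* R) {M : Type v} [AddCommGroup M] [Module R M]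
    (N : Submodule R M) : Submodule R (Tw φ M) where
  carrier := {x | (show M from x) ∈ N}
  zero_mem' := N.zero_mem
  add_mem' := fun hx hy => N.add_mem hx hy
  smul_mem' := fun r _ hx => N.smul_mem (φ r) hx

theorem v3_length_le {R : Type u} [CommRing R] (φ : R →+* R) (M : Type v) [AddCommGroup M]
    [Module R M] : Module.length R M ≤ Module.length R (Tw φ M) := by
  rw [← WithBot.coe_le_coe, Module.coe_length, Module.coe_length]
  refine Order.krullDim_le_of_strictMono (v3Sub φ) ?_
  intro N N' h
  rw [lt_iff_le_not_ge] at h ⊢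
  exact h

theorem v3_length_eq {R : Type u} [CommRing R] [IsLocalRing R] (φ : R →+* R) (M : Type v)
    [AddCommGroup M] [Module R M] (hM : IsFiniteLength R M) :
    Module.length R (Tw φ M) = twc φ * Module.length R M := by
  induction hM with
  | @of_subsingleton M _ _ _ =>
    have h : Subsingleton (Tw φ M) := ‹Subsingleton M›
    rw [Module.length_eq_zero, Module.length_eq_zero, mul_zero]
  | @of_simple_quotient M _ _ N hs _ ih =>
    have h1 : Module.length R (Tw φ M)
        = Module.length R (Tw φ N) + Module.length R (Tw φ (M ⧸ N)) := by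
      refine Module.length_eq_add_of_exact (v3Map φ N.subtype) (v3Map φ N.mkQ)
        (Submodule.subtype_injective N) (Submodule.mkQ_surjective N) ?_
      exact LinearMap.exact_subtype_mkQ N
    have h2a : Module.length R (M ⧸ N) = 1 := Module.length_eq_one R (M ⧸ N)
    have h2 : Module.length R M = Module.length R N + 1 := by
      rw [Module.length_eq_add_of_exact N.subtype N.mkQ (Submodule.subtype_injective N)
        (Submodule.mkQ_surjective N) (LinearMap.exact_subtype_mkQ N), h2a]
    have h3 : Module.length R (Tw φ (M ⧸ N)) = twc φ := by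
      obtain ⟨I, hI, ⟨e⟩⟩ := isSimpleModule_iff_quot_maximal.1 hs
      have hI2 := IsLocalRing.eq_maximalIdeal hI
      subst hI2
      exact (v3Equiv φ e).length_eq
    rw [h1, h2, h3, ih, mul_add, mul_one]

theorem v3_rlen {R : Type u} [CommRing R] (φ : R →+* R) {M : Type v} {M' : Type w}
    [AddCommGroup M] [Module R M] [AddCommGroup M'] [Module R M'] (θ : M' ≃+ M)
    (hθ : ∀ (r : R) (x : M'), θ (r • x) = φ r • θ x) (N P : Submodule R M)
    (N' P' : Submodule R M') (hP : ∀ x, x ∈ P' ↔ θ x ∈ P) (hN : ∀ x, x ∈ N' ↔ θ x ∈ N) :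
    rlen N' P' = Module.length R (Tw φ (P ⧸ N.submoduleOf P)) := by
  let f : P' →ₗ[R] Tw φ (P ⧸ N.submoduleOf P) :=
    { toFun := fun x => (N.submoduleOf P).mkQ ⟨θ x, (hP x).1 x.2⟩
      map_add' := fun x y => by
        have h : (N.submoduleOf P).mkQ (⟨θ x, (hP x).1 x.2⟩ + ⟨θ y, (hP y).1 y.2⟩)
            = (N.submoduleOf P).mkQ ⟨θ x, (hP x).1 x.2⟩
              + (N.submoduleOf P).mkQ ⟨θ y, (hP y).1 y.2⟩ := map_add _ _ _
        refine Eq.trans ?_ h
        refine congrArg (N.submoduleOf P).mkQ (Subtype.ext ?_)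
        exact θ.map_add x y
      map_smul' := fun r x => by
        have h : (N.submoduleOf P).mkQ (φ r • ⟨θ x, (hP x).1 x.2⟩)
            = φ r • (N.submoduleOf P).mkQ ⟨θ x, (hP x).1 x.2⟩ := map_smul _ _ _
        refine Eq.trans ?_ h
        refine congrArg (N.submoduleOf P).mkQ (Subtype.ext ?_)
        exact hθ r x }
  have hker : LinearMap.ker f = N'.submoduleOf P' := by
    ext x
    have h3 : x ∈ N'.submoduleOf P' ↔ (x : M') ∈ N' := Iff.rfl
    rw [LinearMap.mem_ker, h3, hN]
    have h : f x = 0 ↔ (N.submoduleOf P).mkQ ⟨θ x, (hP x).1 x.2⟩ = 0 := Iff.rfl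
    rw [h, Submodule.mkQ_apply, Submodule.Quotient.mk_eq_zero]
    exact Iff.rfl
  have hsurj : Function.Surjective f := by
    intro y
    obtain ⟨z, hz⟩ := Submodule.mkQ_surjective (N.submoduleOf P) y
    have hz2 : θ (θ.symm z.1) ∈ P := by rw [θ.apply_symm_apply]; exact z.2
    refine ⟨⟨θ.symm z.1, (hP _).2 hz2⟩, ?_⟩
    refine Eq.trans ?_ hz
    refine congrArg (N.submoduleOf P).mkQ (Subtype.ext ?_)
    exact θ.apply_symm_apply z.1
  unfold rlen
  rw [← hker]
  exact (f.quotKerEquivOfSurjective hsurj).length_eq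

theorem v3_Hc {R : Type u} [CommRing R] {ι : Type} [Fintype ι] (G : FCx R ι) (φ : R →+* R)
    (V : Type v) [AddCommGroup V] [Module R V] (j : ℤ) :
    ∃ (H : Type v) (_ : AddCommGroup H) (_ : Module R H), Hc (G.map φ) V j = Module.length R H ∧
      Hc G (Tw φ V) j = Module.length R (Tw φ H) := by
  refine ⟨_, _, _, rfl, ?_⟩
  unfold Hc hl
  refine v3_rlen φ (M := ι → V) (M' := ι → Tw φ V) (AddEquiv.refl _) (fun r x => rfl) _ _ _ _
    (fun x => Iff.rfl) (fun x => ?_)
  unfold botF
  rw [bot_sup_eq, bot_sup_eq]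
  exact Iff.rfl

theorem Hc_twist_le {R : Type u} [CommRing R] {ι : Type} [Fintype ι] (G : FCx R ι) (φ : R →+* R)
    (V : Type v) [AddCommGroup V] [Module R V] (j : ℤ) :
    Hc (G.map φ) V j ≤ Hc G (Tw φ V) j := by
  obtain ⟨H, _, _, h1, h2⟩ := v3_Hc G φ V j
  rw [h1, h2]
  exact v3_length_le φ H

theorem Hc_twist {R : Type u} [CommRing R] [IsLocalRing R] {ι : Type} [Fintype ι] (G : FCx R ι)
    (φ : R →+* R) (V : Type v) [AddCommGroup V] [Module R V] (j : ℤ)
    (h : Hc G (Tw φ V) j ≠ ⊤) : Hc G (Tw φ V) j = twc φ * Hc (G.map φ) V j := by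
  obtain ⟨H, _, _, h1, h2⟩ := v3_Hc G φ V j
  rw [h2] at h
  rw [h1, h2]
  refine v3_length_eq φ H (Module.length_ne_top_iff.1 ?_)
  exact ne_top_of_le_ne_top h (v3_length_le φ H)

/-- a finitely generated module killed by the maximal ideal has finite length -/
theorem v3_finite {R : Type u} [CommRing R] [IsLocalRing R] (M : Type v) [AddCommGroup M]
    [Module R M] [Module.Finite R M] (h0 : ∀ r ∈ maximalIdeal R, ∀ x : M, r • x = 0) :
    Module.length R M ≠ ⊤ := by
  obtain ⟨n, s, hs⟩ := Module.Finite.exists_fin (R := R) (M := M)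
  have hk : ∀ i, maximalIdeal R ≤ LinearMap.ker (LinearMap.toSpanSingleton R M (s i)) := by
    intro i r hr
    rw [LinearMap.mem_ker, LinearMap.toSpanSingleton_apply]
    exact h0 r hr _
  let g : (Fin n → R ⧸ maximalIdeal R) →ₗ[R] M :=
    ∑ i, ((maximalIdeal R).liftQ (LinearMap.toSpanSingleton R M (s i)) (hk i)).comp
      (LinearMap.proj i)
  have hg : Function.Surjective g := by
    rw [← LinearMap.range_eq_top, eq_top_iff, ← hs, Submodule.span_le]
    rintro _ ⟨i, rfl⟩
    refine ⟨Pi.single i (Submodule.Quotient.mk 1), ?_⟩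
    rw [LinearMap.sum_apply, Finset.sum_eq_single i]
    · rw [LinearMap.comp_apply, LinearMap.proj_apply, Pi.single_eq_same]
      change ((maximalIdeal R).liftQ (LinearMap.toSpanSingleton R M (s i)) (hk i))
        ((maximalIdeal R).mkQ 1) = s i
      rw [Submodule.mkQ_apply, Submodule.liftQ_apply, LinearMap.toSpanSingleton_apply, one_smul]
    · intro j _ hj
      rw [LinearMap.comp_apply, LinearMap.proj_apply, Pi.single_eq_of_ne hj, map_zero]
    · intro h
      exact absurd (Finset.mem_univ i) h
  have hle := Module.length_le_of_surjective g hg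
  have hsimple : IsSimpleModule R (R ⧸ maximalIdeal R) :=
    isSimpleModule_iff_quot_maximal.2 ⟨maximalIdeal R, inferInstance, ⟨LinearEquiv.refl _ _⟩⟩
  have hlen : Module.length R (Fin n → R ⧸ maximalIdeal R) = (n : ℕ∞) := by
    rw [Module.length_pi_of_fintype]
    simp [Module.length_eq_one]
  rw [hlen] at hle
  exact ne_top_of_le_ne_top (ENat.natCast_ne_top n) hle

/-- the ring with the algebra structure given by `φ` -/
def V3R {R : Type u} [CommRing R] (_φ : R →+* R) : Type u := R

instance {R : Type u} [CommRing R] (φ : R →+* R) : CommRing (V3R φ) :=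
  inferInstanceAs (CommRing R)

instance {R : Type u} [CommRing R] (φ : R →+* R) : Algebra R (V3R φ) := φ.toAlgebra

instance {R : Type u} [CommRing R] (φ : R →+* R) (V : Type v) [AddCommGroup V] [Module R V] :
    Module (V3R φ) (Tw φ V) := inferInstanceAs (Module R V)

instance {R : Type u} [CommRing R] (φ : R →+* R) (V : Type v) [AddCommGroup V] [Module R V] :
    IsScalarTower R (V3R φ) (Tw φ V) :=
  ⟨fun a b x => mul_smul (show R from φ a) (show R from b) (show V from x)⟩

theorem Tw_finite {R : Type u} [CommRing R] (φ : R →+* R) (hφ : φ.Finite)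
    (V : Type v) [AddCommGroup V] [Module R V] [Module.Finite R V] :
    Module.Finite R (Tw φ V) := by
  have h1 : Module.Finite R (V3R φ) := hφ
  have h2 : Module.Finite (V3R φ) (Tw φ V) := ‹Module.Finite R V›
  exact Module.Finite.trans (V3R φ) (Tw φ V)

theorem twc_ne_top {R : Type u} [CommRing R] [IsLocalRing R] (φ : R →+* R) (hφ : φ.Finite)
    (hloc : ∀ r ∈ maximalIdeal R, φ r ∈ maximalIdeal R) : twc φ ≠ ⊤ := by
  unfold twc
  have := Tw_finite φ hφ (R ⧸ maximalIdeal R)
  refine v3_finite _ (fun r hr x => ?_)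
  obtain ⟨y, hy⟩ := Submodule.mkQ_surjective (maximalIdeal R) (show R ⧸ maximalIdeal R from x)
  have h : φ r • (show R ⧸ maximalIdeal R from x) = 0 := by
    rw [← hy, ← map_smul, Submodule.mkQ_apply, Submodule.Quotient.mk_eq_zero, smul_eq_mul]
    exact Ideal.mul_mem_right _ _ (hloc r hr)
  exact h

theorem twc_ne_zero {R : Type u} [CommRing R] [IsLocalRing R] (φ : R →+* R) : twc φ ≠ 0 := by
  unfold twc
  rw [Ne, Module.length_eq_zero_iff]
  intro h
  have h2 : Subsingleton (R ⧸ maximalIdeal R) := h
  have h3 : Nontrivial (R ⧸ maximalIdeal R) := inferInstance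
  exact not_subsingleton _ h2

theorem iterateFrobenius_finite {R : Type u} [CommRing R] (p : ℕ) [Fact p.Prime] [CharP R p]
    (hF : (frobenius R p).Finite) (e : ℕ) : (iterateFrobenius R p e).Finite := by
  induction e with
  | zero =>
    rw [iterateFrobenius_zero]
    exact RingHom.Finite.id R
  | succ e ih =>
    have h : iterateFrobenius R p (e + 1) = (frobenius R p).comp (iterateFrobenius R p e) := by
      ext x
      rw [RingHom.comp_apply, iterateFrobenius_def, iterateFrobenius_def, frobenius_def, pow_succ,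
        pow_mul]
    rw [h]
    exact RingHom.Finite.comp hF ih

end Vale.Agent.P202C.V
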