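import Vale.Agent.P202C.Acyc
import Vale.Agent.P202C.V3
import Vale.Agent.P202C.SliceP
import Vale.Agent.P202C.MainIneq

/-!
P202 in characteristic p: contraction operators, twists by ring homomorphisms and base change
(helper28).
-/

set_option autoImplicit false

namespace Vale.Agent.P202C

open IsLocalRing TensorProduct

universe u v w

section Abs

variable {R : Type u} [CommRing R] {X : Type v} [AddCommGroup X] [Module R X]

/-- contraction operators on a filtered complex -/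
structure ConOp (C : FiltCx R X) (m : ℕ) (M : ℤ) (ρ : Fin m → R) where
  μ : Fin m → X →ₗ[R] X
  gr : ∀ j k x, x ∈ C.gr k → μ j x ∈ C.gr k
  F : ∀ j s x, x ∈ C.F s → μ j x ∈ C.F (s - M)
  sum : ∀ x, ∑ j, ρ j • μ j x = x

/-- the homotopy -/
noncomputable def opH {ι : Type} [Fintype ι] {m : ℕ} (h : Fin m → Matrix ι ι R)
    (μ : Fin m → X →ₗ[R] X) : (ι → X) →ₗ[R] (ι → X) where
  toFun x := fun a => ∑ j, ∑ b, h j a b • μ j (x b)
  map_add' := fun x y => by
    funext a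
    simp only [Pi.add_apply, smul_add, Finset.sum_add_distrib, map_add]
  map_smul' := fun r x => by
    funext a
    simp only [Pi.smul_apply, RingHom.id_apply, Finset.smul_sum, map_smul]
    refine Finset.sum_congr rfl fun j _ => Finset.sum_congr rfl fun b _ => ?_
    rw [smul_comm]

theorem opH_apply {ι : Type} [Fintype ι] {m : ℕ} (h : Fin m → Matrix ι ι R)
    (μ : Fin m → X →ₗ[R] X) (x : ι → X) (a : ι) :
    opH h μ x a = ∑ j, ∑ b, h j a b • μ j (x b) := rfl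

theorem opE_formula {ι : Type} [Fintype ι] [DecidableEq ι] (G : FCx R ι) (C : FiltCx R X)
    {m : ℕ} (ρ : Fin m → R) (h : Fin m → Matrix ι ι R)
    (hh : ∀ j, G.mat * h j + h j * G.mat = ρ j • (1 : Matrix ι ι R))
    (μ : Fin m → X →ₗ[R] X) (hμ : ∀ x, ∑ j, ρ j • μ j x = x) (x : ι → X) (a : ι) :
    (x - (totd G C (opH h μ x) + opH h μ (totd G C x))) a =
      - ∑ j, ∑ e, h j a e • (sgn (G.deg a) • C.d (μ j (x e)) +
        sgn (G.deg e) • μ j (C.d (x e))) := by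
  have h1 : totd G C (opH h μ x) a =
      (∑ j, ∑ e, (G.mat * h j) a e • μ j (x e)) +
      ∑ j, ∑ e, h j a e • sgn (G.deg a) • C.d (μ j (x e)) := by
    show (∑ e, G.mat a e • opH h μ x e) + sgn (G.deg a) • C.d (opH h μ x a) = _
    congr 1
    · simp_rw [opH_apply, Finset.smul_sum, smul_smul, Matrix.mul_apply, Finset.sum_smul]
      rw [Finset.sum_comm]
      refine Finset.sum_congr rfl fun j _ => ?_
      rw [Finset.sum_comm]
    · rw [opH_apply, map_sum, Finset.smul_sum]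
      refine Finset.sum_congr rfl fun j _ => ?_
      rw [map_sum, Finset.smul_sum]
      refine Finset.sum_congr rfl fun e _ => ?_
      rw [map_smul, smul_comm]
  have h2 : opH h μ (totd G C x) a =
      (∑ j, ∑ e, (h j * G.mat) a e • μ j (x e)) +
      ∑ j, ∑ e, h j a e • sgn (G.deg e) • μ j (C.d (x e)) := by
    rw [opH_apply, ← Finset.sum_add_distrib]
    refine Finset.sum_congr rfl fun j _ => ?_
    have h3 : ∀ e, μ j (totd G C x e) =
        (∑ e', G.mat e e' • μ j (x e')) + sgn (G.deg e) • μ j (C.d (x e)) := by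
      intro e
      show μ j ((∑ e', G.mat e e' • x e') + sgn (G.deg e) • C.d (x e)) = _
      rw [map_add, map_sum, map_zsmul]
      congr 1
      exact Finset.sum_congr rfl fun e' _ => by rw [map_smul]
    simp_rw [h3, smul_add, Finset.sum_add_distrib]
    congr 1
    simp_rw [Finset.smul_sum, smul_smul, Matrix.mul_apply, Finset.sum_smul]
    rw [Finset.sum_comm]
  have h4 : (∑ j, ∑ e, (G.mat * h j) a e • μ j (x e)) +
      (∑ j, ∑ e, (h j * G.mat) a e • μ j (x e)) = x a := by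
    rw [← Finset.sum_add_distrib]
    have h5 : ∀ j : Fin m, (∑ e, (G.mat * h j) a e • μ j (x e)) +
        (∑ e, (h j * G.mat) a e • μ j (x e)) = ρ j • μ j (x a) := by
      intro j
      rw [← Finset.sum_add_distrib]
      have h6 : ∀ e, (G.mat * h j) a e • μ j (x e) + (h j * G.mat) a e • μ j (x e) =
          if a = e then ρ j • μ j (x a) else 0 := by
        intro e
        rw [← add_smul, ← Matrix.add_apply, hh j, Matrix.smul_apply, Matrix.one_apply]
        split_ifs with h7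
        · rw [h7, smul_eq_mul, mul_one]
        · rw [smul_zero, zero_smul]
      rw [Finset.sum_congr rfl (fun e _ => h6 e), Finset.sum_ite_eq, if_pos (Finset.mem_univ _)]
    rw [Finset.sum_congr rfl (fun j _ => h5 j)]
    exact hμ (x a)
  rw [Pi.sub_apply, Pi.add_apply, h1, h2]
  have h8 : ∑ j, ∑ e, h j a e • (sgn (G.deg a) • C.d (μ j (x e)) +
        sgn (G.deg e) • μ j (C.d (x e))) =
      (∑ j, ∑ e, h j a e • sgn (G.deg a) • C.d (μ j (x e))) +
      ∑ j, ∑ e, h j a e • sgn (G.deg e) • μ j (C.d (x e)) := by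
    simp_rw [smul_add, Finset.sum_add_distrib]
  rw [h8]
  nth_rewrite 1 [← h4]
  abel

/-- cycles are boundaries after going to a lower filtration -/
theorem ConOp.contract {C : FiltCx R X} {m : ℕ} {M0 : ℤ} {ρ : Fin m → R} (hC : ConOp C m M0 ρ)
    (hM0 : 0 ≤ M0) {ι : Type} [Fintype ι] [DecidableEq ι] (G : FCx R ι) (Q : ℤ)
    (hQ : 0 ≤ Q) (D : ℕ) (hdeg : ∀ a, 0 ≤ G.deg a ∧ G.deg a ≤ D)
    (hh : ∀ j, ∃ h : Matrix ι ι R, (∀ a b, h a b ≠ 0 → G.deg a = G.deg b + 1) ∧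
      G.mat * h + h * G.mat = ρ j • (1 : Matrix ι ι R)) (t j : ℤ)
    (x : ι → X) (hx : x ∈ fam G C (fun i => t - i * Q) j) (hTx : totd G C x = 0) :
    ∃ w ∈ fam G C (fun i => t - i * Q - (2 * D + 1) * (M0 + Q)) (j + 1), totd G C w = x := by
  choose h hh1 hh2 using hh
  set P : ℕ → ℤ → Submodule R (ι → X) :=
    fun m j => fam G C (fun i => t - i * Q - m * (M0 + Q)) j with hPdef
  have hH : ∀ m j x, x ∈ P m j → opH h hC.μ x ∈ P (m + 1) (j + 1) := by
    intro m j x hx a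
    show opH h hC.μ x a ∈ _
    rw [opH_apply]
    refine Submodule.sum_mem _ fun i _ => Submodule.sum_mem _ fun e _ => ?_
    by_cases h0 : h i a e = 0
    · rw [h0, zero_smul]
      exact Submodule.zero_mem _
    · have hae := hh1 i a e h0
      refine Submodule.smul_mem _ _ ?_
      have h1 := hx e
      refine ⟨?_, ?_⟩
      · have h2 := hC.gr i (G.deg e - j) (x e) h1.1
        have h3 : G.deg a - (j + 1) = G.deg e - j := by rw [hae]; ring
        rw [h3]
        exact h2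
      · have h2 := hC.F i _ (x e) h1.2
        refine con_F_mono _ ?_ h2
        show t - G.deg a * Q - ((m + 1 : ℕ) : ℤ) * (M0 + Q) ≤
          t - G.deg e * Q - (m : ℤ) * (M0 + Q) - M0
        rw [hae]
        push_cast
        nlinarith
  have hTP : ∀ m j x, x ∈ P m j → totd G C x ∈ P (m + 1) (j - 1) := by
    intro m j x hx a
    show (∑ e, G.mat a e • x e) + sgn (G.deg a) • C.d (x a) ∈ _
    refine Submodule.add_mem _ (Submodule.sum_mem _ fun e _ => ?_) ?_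
    · by_cases h0 : G.mat a e = 0
      · rw [h0, zero_smul]
        exact Submodule.zero_mem _
      · have hae := G.hdeg a e h0
        refine Submodule.smul_mem _ _ ?_
        have h1 := hx e
        refine ⟨?_, ?_⟩
        · have h3 : G.deg a - (j - 1) = G.deg e - j := by rw [hae]; ring
          rw [h3]
          exact h1.1
        · refine con_F_mono _ ?_ h1.2
          show t - G.deg a * Q - ((m + 1 : ℕ) : ℤ) * (M0 + Q) ≤
            t - G.deg e * Q - (m : ℤ) * (M0 + Q)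
          rw [hae]
          push_cast
          nlinarith
    · refine zsmul_mem ?_ _
      have h1 := hx a
      refine ⟨?_, ?_⟩
      · have h2 := C.d_gr _ _ h1.1
        have h3 : G.deg a - (j - 1) = G.deg a - j + 1 := by ring
        rw [h3]
        exact h2
      · refine con_F_mono _ ?_ (C.d_F _ _ h1.2)
        show t - G.deg a * Q - ((m + 1 : ℕ) : ℤ) * (M0 + Q) ≤
          t - G.deg a * Q - (m : ℤ) * (M0 + Q)
        push_cast
        nlinarith
  have hP : ∀ m j, P m j ≤ P (m + 1) j := by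
    intro m j x hx a
    have h1 := hx a
    refine ⟨h1.1, con_F_mono _ ?_ h1.2⟩
    show t - G.deg a * Q - ((m + 1 : ℕ) : ℤ) * (M0 + Q) ≤
      t - G.deg a * Q - (m : ℤ) * (M0 + Q)
    push_cast
    nlinarith
  have hnil : ∀ x, ((fun y => y - (totd G C (opH h hC.μ y) +
      opH h hC.μ (totd G C y)))^[D + 1]) x = 0 := by
    intro x
    refine con_nil G.deg D hdeg _ (fun x a hx => ?_) x
    rw [opE_formula G C ρ h hh2 hC.μ hC.sum x a]
    rw [Finset.sum_eq_zero, neg_zero]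
    intro i _
    refine Finset.sum_eq_zero fun e _ => ?_
    by_cases h0 : h i a e = 0
    · rw [h0, zero_smul]
    · rw [hx e (hh1 i a e h0), map_zero, map_zero, map_zero, smul_zero, smul_zero,
        add_zero, smul_zero]
  have hx0 : x ∈ P 0 j := by
    intro a
    have h1 := hx a
    refine ⟨h1.1, con_F_mono _ (le_of_eq ?_) h1.2⟩
    show t - G.deg a * Q - ((0 : ℕ) : ℤ) * (M0 + Q) = t - G.deg a * Q
    push_cast
    ring
  obtain ⟨w, hw, hw2⟩ := con_perturb (totd G C) (opH h hC.μ)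
    (con_totd G C) D P hH hTP hP hnil j x hx0 hTx
  refine ⟨w, ?_, hw2⟩
  intro a
  have h1 := hw a
  refine ⟨h1.1, ?_⟩
  refine con_F_mono _ (le_of_eq ?_) h1.2
  show t - G.deg a * Q - (2 * D + 1) * (M0 + Q) =
    t - G.deg a * Q - ((2 * D + 1 : ℕ) : ℤ) * (M0 + Q)
  push_cast
  ring

/-- base change of contraction operators -/
noncomputable def ConOp.bc {C : FiltCx R X} {m : ℕ} {M0 : ℤ} {ρ : Fin m → R}
    (hC : ConOp C m M0 ρ) (S : Type w) [CommRing S] [Algebra R S] :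
    ConOp (C.bc S) m M0 (fun j => algebraMap R S (ρ j)) where
  μ j := (hC.μ j).baseChange S
  gr := fun j k _ hx => con_baseChange S (p := C.gr k) (q := C.gr k) (f := hC.μ j)
    (fun x hx => hC.gr j k x hx) hx
  F := fun j s _ hx => con_baseChange S (p := C.F s) (q := C.F (s - M0)) (f := hC.μ j)
    (fun x hx => hC.F j s x hx) hx
  sum := by
    intro x
    induction x using TensorProduct.induction_on with
    | zero => simp
    | add x y hx hy =>
      simp_rw [map_add, smul_add, Finset.sum_add_distrib]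
      rw [hx, hy]
    | tmul r f =>
      have h1 : ∀ j, algebraMap R S (ρ j) • (hC.μ j).baseChange S (r ⊗ₜ[R] f) =
          r ⊗ₜ[R] (ρ j • hC.μ j f) := by
        intro j
        rw [LinearMap.baseChange_tmul, algebraMap_smul, TensorProduct.tmul_smul]
      rw [Finset.sum_congr rfl (fun j _ => h1 j), ← TensorProduct.tmul_sum, hC.sum]

end Abs

section Twist

open V

variable {R : Type u} [CommRing R] {X : Type v} [AddCommGroup X] [Module R X]

/-- the twist of a filtered complex -/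
def FiltCx.tw (C : FiltCx R X) (φ : R →+* R) : FiltCx R (Tw φ X) where
  d := v3Map φ C.d
  gr k := v3Sub φ (C.gr k)
  F s := v3Sub φ (C.F s)
  dd := C.dd
  d_gr := C.d_gr
  d_F := C.d_F
  F_anti := fun s _ hx => C.F_anti s hx

/-- twist of contraction operators -/
def ConOp.tw {C : FiltCx R X} {m : ℕ} {M0 : ℤ} {ρ : Fin m → R} (φ : R →+* R)
    (hC : ConOp C m M0 (fun j => φ (ρ j))) : ConOp (C.tw φ) m M0 ρ where
  μ j := v3Map φ (hC.μ j)
  gr := hC.gr
  F := hC.F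
  sum := hC.sum

theorem v3Sub_le {φ : R →+* R} {N P : Submodule R X} : v3Sub φ N ≤ v3Sub φ P ↔ N ≤ P := Iff.rfl

/-- slices of the twist -/
theorem sl_tw [IsLocalRing R] (C : FiltCx R X) (φ : R →+* R) (s k : ℤ) (h : sl C s k ≠ ⊤) :
    sl (C.tw φ) s k = twc φ * sl C s k := by
  unfold sl
  have h1 := v3_rlen φ (M := X) (M' := Tw φ X) (AddEquiv.refl _) (fun r x => rfl)
    ((C.gr k ⊓ C.F (s + 1)) ⊔ (C.gr (k - 1) ⊓ C.F s).map C.d)
    (C.gr k ⊓ C.F s ⊓ (C.F (s + 1)).comap C.d)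
    (((C.tw φ).gr k ⊓ (C.tw φ).F (s + 1)) ⊔ ((C.tw φ).gr (k - 1) ⊓ (C.tw φ).F s).map (C.tw φ).d)
    ((C.tw φ).gr k ⊓ (C.tw φ).F s ⊓ ((C.tw φ).F (s + 1)).comap (C.tw φ).d)
    (fun x => Iff.rfl) (fun x => ?_)
  · rw [h1]
    exact v3_length_eq φ _ (Module.length_ne_top_iff.1 h)
  · constructor
    · intro hx
      obtain ⟨y, hy, z, ⟨w, hw, rfl⟩, hyz⟩ := Submodule.mem_sup.1 hx
      exact Submodule.mem_sup.2 ⟨y, hy, _, ⟨w, hw, rfl⟩, hyz⟩
    · intro hx
      obtain ⟨y, hy, z, ⟨w, hw, rfl⟩, hyz⟩ := Submodule.mem_sup.1 hx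
      exact Submodule.mem_sup.2 ⟨y, hy, _, ⟨w, hw, rfl⟩, hyz⟩

theorem slEul_tw [IsLocalRing R] (C : FiltCx R X) (φ : R →+* R) (n : ℕ) (s : ℤ)
    (h : ∀ k, sl C s k ≠ ⊤) :
    slEul (C.tw φ) n s = ((twc φ).toNat : ℤ) * slEul C n s := by
  unfold slEul
  rw [Finset.mul_sum]
  refine Finset.sum_congr rfl fun k _ => ?_
  rw [sl_tw C φ s k (h k), ENat.toNat_mul]
  push_cast
  ring

/-- exactness in the twist -/
theorem exact_tw (C : FiltCx R X) (φ : R →+* R) (s k : ℤ)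
    (h : ∀ x ∈ C.gr k ⊓ C.F s, C.d x = 0 → ∃ w ∈ C.gr (k - 1) ⊓ C.F s, C.d w = x) :
    ∀ x ∈ (C.tw φ).gr k ⊓ (C.tw φ).F s, (C.tw φ).d x = 0 →
      ∃ w ∈ (C.tw φ).gr (k - 1) ⊓ (C.tw φ).F s, (C.tw φ).d w = x := h

/-- the degree zero cocycles of the twist -/
theorem M0_tw (C : FiltCx R X) (φ : R →+* R) :
    MI.M0 (C.tw φ) = v3Sub φ (MI.M0 C) := rfl

end Twist

section Dec

open V

variable (𝔽 : Type w) [Field 𝔽]

/-- contraction operators of `CR` -/
theorem conOp_CR (n : ℕ) : ∃ c0 : ℕ, ∀ (R : Type u) [CommRing R] [Algebra (PolyA 𝔽 n) R]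
    (b : Fin n → ℤ) (N : ℕ),
    Nonempty (ConOp (CR 𝔽 R b) (n + 1) (c0 * (N + 1) : ℕ) (fun j => yR 𝔽 R j ^ N)) := by
  obtain ⟨c0, hc0⟩ := con_pu_lin 𝔽 n
  refine ⟨c0, fun R _ _ b N => ?_⟩
  obtain ⟨c, hc1, hc2⟩ := hc0 N
  exact ⟨{
    μ := fun j => conMu 𝔽 R (c j)
    gr := fun j k x hx => conMu_gr 𝔽 R (c j) b k x hx
    F := fun j s x hx => conMu_F 𝔽 R (c j) _ (hc1 j) b s x hx
    sum := conMu_sum 𝔽 R N c hc2 }⟩

/-- the contraction hypothesis for the base change of a twist of `CR` -/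
theorem con_dec (n D : ℕ) : ∃ c1 : ℕ, ∀ (R : Type u) [CommRing R] [Algebra (PolyA 𝔽 n) R]
    (φ : R →+* R) (S : Type v) [CommRing S] [Algebra R S] (b : Fin n → ℤ) (N N' : ℕ)
    (_ : ∀ j : Fin (n + 1), φ (yR 𝔽 R j ^ N) = yR 𝔽 R j ^ N')
    (ι : Type) [Fintype ι] [DecidableEq ι] (G : FCx S ι) (Q : ℤ)
    (_ : 0 ≤ Q) (_ : ∀ a, 0 ≤ G.deg a ∧ G.deg a ≤ D)
    (_ : ∀ j : Fin (n + 1), ∃ h : Matrix ι ι S, (∀ a b, h a b ≠ 0 → G.deg a = G.deg b + 1) ∧
      G.mat * h + h * G.mat = algebraMap R S (yR 𝔽 R j ^ N) • (1 : Matrix ι ι S)),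
    ∀ t j : ℤ, ∀ x ∈ fam G (((CR 𝔽 R b).tw φ).bc S) (fun i => t - i * Q) j,
      totd G (((CR 𝔽 R b).tw φ).bc S) x = 0 →
      ∃ w ∈ fam G (((CR 𝔽 R b).tw φ).bc S) (fun i => t - i * Q - c1 * (N' + 1 + Q)) (j + 1),
        totd G (((CR 𝔽 R b).tw φ).bc S) w = x := by
  obtain ⟨c0, hc0⟩ := conOp_CR 𝔽 n
  refine ⟨(2 * D + 1) * (c0 + 1), ?_⟩
  intro R _ _ φ S _ _ b N N' hφ ι _ _ G Q hQ hdeg hh t j x hx hTx
  obtain ⟨op⟩ := hc0 R b N'
  have op1 : ConOp (CR 𝔽 R b) (n + 1) (c0 * (N' + 1) : ℕ) (fun j => φ (yR 𝔽 R j ^ N)) := by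
    have h1 : (fun j : Fin (n + 1) => φ (yR 𝔽 R j ^ N)) = fun j => yR 𝔽 R j ^ N' := funext hφ
    rw [h1]
    exact op
  have op2 := (ConOp.tw (ρ := fun j : Fin (n + 1) => yR 𝔽 R j ^ N) φ op1).bc S
  obtain ⟨w, hw, hw2⟩ := op2.contract (Int.natCast_nonneg _) G Q hQ D hdeg hh t j x hx hTx
  refine ⟨w, fun a => ?_, hw2⟩
  have h1 := hw a
  refine ⟨h1.1, con_F_mono _ ?_ h1.2⟩
  show t - G.deg a * Q - (((2 * D + 1) * (c0 + 1) : ℕ) : ℤ) * (N' + 1 + Q) ≤
    t - G.deg a * Q - (2 * D + 1) * (((c0 * (N' + 1) : ℕ) : ℤ) + Q)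
  push_cast
  have h5 : (c0 : ℤ) * (N' + 1) + Q ≤ (c0 + 1) * (N' + 1 + Q) := by
    have h6 : (0 : ℤ) ≤ c0 := Int.natCast_nonneg _
    have h7 : (0 : ℤ) ≤ N' := Int.natCast_nonneg _
    nlinarith [mul_nonneg h6 hQ]
  have h8 : (0 : ℤ) ≤ 2 * D + 1 := by positivity
  have h9 := mul_le_mul_of_nonneg_left h5 h8
  linarith

/-- the maximal ideal raises the filtration of the twist by `Q` -/
theorem shift_tw {n : ℕ} {R : Type u} [CommRing R] [Algebra (PolyA 𝔽 n) R]
    (φ : R →+* R) (b : Fin n → ℤ) (Q : ℕ) (r : R) (hr : φ r ∈ yI 𝔽 n R ^ Q) (s : ℤ)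
    (x : Tw φ (R ⊗[PolyA 𝔽 n] XA 𝔽 n)) (hx : x ∈ ((CR 𝔽 R b).tw φ).F s) :
    r • x ∈ ((CR 𝔽 R b).tw φ).F (s + Q) :=
  shift_CR 𝔽 R b Q (φ r) hr s x hx

end Dec

end Vale.Agent.P202C
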