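import Mathlib

/-!
P202 in characteristic p: definitions (owner helper90). See notes/P202_lean_plan.md.
-/

set_option autoImplicit false

namespace Vale.Agent.P202C

open IsLocalRing

universe u v w

/-! ### 1. Free complexes as square zero matrices -/

/-- A bounded complex of finite free modules with homogeneous basis `ι`; the entry `mat a b` goes from
the basis element `b` (degree `deg b`) to `a` (degree `deg a = deg b - 1`). -/
structure FCx (R : Type u) [CommRing R] (ι : Type) [Fintype ι] where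
  deg : ι → ℤ
  mat : Matrix ι ι R
  sq : mat * mat = 0
  hdeg : ∀ a b, mat a b ≠ 0 → deg b = deg a + 1

/-- Base change of a free complex along a ring homomorphism (for the Frobenius: the twist). -/
def FCx.map {R : Type u} [CommRing R] {R' : Type v} [CommRing R'] {ι : Type} [Fintype ι]
    (G : FCx R ι) (f : R →+* R') : FCx R' ι where
  deg := G.deg
  mat := G.mat.map f
  sq := by
    classical
    rw [← Matrix.map_mul, G.sq]
    exact Matrix.map_zero _ (map_zero f)
  hdeg := fun a b h => G.hdeg a b (fun h0 => h (by rw [Matrix.map_apply, h0, map_zero]))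

/-- A matrix acting on vectors with entries in a module. -/
def act {R : Type u} [CommRing R] {ι κ : Type} [Fintype ι] [Fintype κ] (m : Matrix κ ι R)
    (V : Type v) [AddCommGroup V] [Module R V] : (ι → V) →ₗ[R] (κ → V) where
  toFun x := fun a => ∑ b, m a b • x b
  map_add' := fun x y => by
    funext a
    simp [Finset.sum_add_distrib]
  map_smul' := fun r x => by
    funext a
    simp only [Pi.smul_apply, RingHom.id_apply, Finset.smul_sum]
    refine Finset.sum_congr rfl fun b _ => ?_
    rw [smul_comm]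

/-! ### 2. Lengths of homology of pairs -/

/-- length of `P / (N ⊓ P)` -/
noncomputable def rlen {R : Type u} [CommRing R] {M : Type v} [AddCommGroup M] [Module R M]
    (N P : Submodule R M) : ℕ∞ := Module.length R (P ⧸ N.submoduleOf P)

/-- length of the degree `j` homology of `B / A` (the differential `δ` lowers `j` by one) -/
noncomputable def hl {R : Type u} [CommRing R] {M : Type v} [AddCommGroup M] [Module R M]
    (δ : M →ₗ[R] M) (A B : ℤ → Submodule R M) (j : ℤ) : ℕ∞ :=
  rlen (A j ⊔ (B (j + 1)).map δ) (B j ⊓ (A (j - 1)).comap δ)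

/-- `A` is a subcomplex family -/
def SubCx {R : Type u} [CommRing R] {M : Type v} [AddCommGroup M] [Module R M]
    (δ : M →ₗ[R] M) (A : ℤ → Submodule R M) : Prop :=
  ∀ j, A j ≤ (A (j - 1)).comap δ

/-- the family of zero submodules -/
def botF (R : Type u) [CommRing R] (M : Type v) [AddCommGroup M] [Module R M] :
    ℤ → Submodule R M := fun _ => ⊥

/-- Euler characteristic of a pair over the degrees `-N ≤ j < N` -/
noncomputable def eul {R : Type u} [CommRing R] {M : Type v} [AddCommGroup M] [Module R M]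
    (δ : M →ₗ[R] M) (A B : ℤ → Submodule R M) (N : ℕ) : ℤ :=
  ∑ j ∈ Finset.Ico (-(N : ℤ)) N, (-1 : ℤ) ^ j.natAbs * ((hl δ A B j).toNat : ℤ)

/-! ### 3. Homology of a free complex with coefficients in a module -/

/-- vectors supported in degree `j` -/
def degPart {R : Type u} [CommRing R] {ι : Type} [Fintype ι] (G : FCx R ι)
    (V : Type v) [AddCommGroup V] [Module R V] (j : ℤ) : Submodule R (ι → V) where
  carrier := {x | ∀ a, G.deg a ≠ j → x a = 0}
  zero_mem' := fun _ _ => rfl
  add_mem' := fun {x y} hx hy a h => by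
    rw [Pi.add_apply, hx a h, hy a h, add_zero]
  smul_mem' := fun r x hx a h => by
    rw [Pi.smul_apply, hx a h, smul_zero]

/-- length of `H_j(G ⊗ V)` -/
noncomputable def Hc {R : Type u} [CommRing R] {ι : Type} [Fintype ι] (G : FCx R ι)
    (V : Type v) [AddCommGroup V] [Module R V] (j : ℤ) : ℕ∞ :=
  hl (act G.mat V) (botF R (ι → V)) (degPart G V) j

/-! ### 4. Filtered cochain complexes and the total complex -/

/-- A filtered cochain complex with total space `X`: differential `d` raising the degree by one,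
`gr k` the cochains of degree `k`, `F s` the decreasing filtration. -/
structure FiltCx (R : Type u) [CommRing R] (X : Type v) [AddCommGroup X] [Module R X] where
  d : X →ₗ[R] X
  gr : ℤ → Submodule R X
  F : ℤ → Submodule R X
  dd : ∀ x, d (d x) = 0
  d_gr : ∀ k x, x ∈ gr k → d x ∈ gr (k + 1)
  d_F : ∀ s x, x ∈ F s → d x ∈ F s
  F_anti : ∀ s, F (s + 1) ≤ F s

/-- sign `(-1)^i` -/
def sgn (i : ℤ) : ℤ := if Even i then 1 else -1

/-- total differential on `ι → X` -/
def totd {R : Type u} [CommRing R] {ι : Type} [Fintype ι] (G : FCx R ι)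
    {X : Type v} [AddCommGroup X] [Module R X] (C : FiltCx R X) : (ι → X) →ₗ[R] (ι → X) where
  toFun x := fun a => (∑ b, G.mat a b • x b) + sgn (G.deg a) • C.d (x a)
  map_add' := fun x y => by
    funext a
    simp only [Pi.add_apply, smul_add, Finset.sum_add_distrib, map_add]
    abel
  map_smul' := fun r x => by
    funext a
    simp only [Pi.smul_apply, RingHom.id_apply, Finset.smul_sum, map_smul, smul_add]
    congr 1
    · exact Finset.sum_congr rfl fun b _ => by rw [smul_comm]
    · rw [smul_comm]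

/-- the family `𝒳_φ(j) = {x | x a ∈ gr (deg a - j) ⊓ F (φ (deg a))}` -/
def fam {R : Type u} [CommRing R] {ι : Type} [Fintype ι] (G : FCx R ι)
    {X : Type v} [AddCommGroup X] [Module R X] (C : FiltCx R X) (φ : ℤ → ℤ) (j : ℤ) :
    Submodule R (ι → X) where
  carrier := {x | ∀ a, x a ∈ C.gr (G.deg a - j) ⊓ C.F (φ (G.deg a))}
  zero_mem' := fun _ => Submodule.zero_mem _
  add_mem' := fun {x y} hx hy a => Submodule.add_mem _ (hx a) (hy a)
  smul_mem' := fun r x hx a => Submodule.smul_mem _ r (hx a)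

/-- length of the degree `k` cohomology of the slice `F s / F (s+1)` -/
noncomputable def sl {R : Type u} [CommRing R] {X : Type v} [AddCommGroup X] [Module R X]
    (C : FiltCx R X) (s k : ℤ) : ℕ∞ :=
  rlen ((C.gr k ⊓ C.F (s + 1)) ⊔ (C.gr (k - 1) ⊓ C.F s).map C.d)
    (C.gr k ⊓ C.F s ⊓ (C.F (s + 1)).comap C.d)

/-- `SHIFT`: the entries of `G` raise the filtration by `Q` -/
def Shift {R : Type u} [CommRing R] {ι : Type} [Fintype ι] (G : FCx R ι)
    {X : Type v} [AddCommGroup X] [Module R X] (C : FiltCx R X) (Q : ℤ) : Prop :=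
  ∀ a b, ∀ s, ∀ x ∈ C.F s, G.mat a b • x ∈ C.F (s + Q)

/-- admissible position functions -/
def Adm (Q : ℤ) (φ : ℤ → ℤ) : Prop := ∀ i, φ i ≤ φ (i + 1) + Q

/-- The Euler characteristic of a slice -/
noncomputable def slEul {R : Type u} [CommRing R] {X : Type v} [AddCommGroup X] [Module R X]
    (C : FiltCx R X) (n : ℕ) (s : ℤ) : ℤ :=
  ∑ k ∈ Finset.range (n + 1), (-1 : ℤ) ^ k * ((sl C s k).toNat : ℤ)

/-! ### 5. The explicit monomial complex over `A = 𝔽[Y_0..Y_n]` -/

section Blocks

variable (𝔽 : Type w) [Field 𝔽] (n : ℕ)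

/-- `A = 𝔽[Y_0,…,Y_n]` -/
abbrev PolyA : Type w := MvPolynomial (Fin (n + 1)) 𝔽

/-- Laurent polynomials in `z_0..z_{n-1}` and `T`: monomials `(i, s)`, `i : Fin n → ℤ`, `s : ℤ`. -/
abbrev Lau : Type w := AddMonoidAlgebra 𝔽 ((Fin n → ℤ) × ℤ)

/-- exponent vector of a set of indices -/
def indE {n : ℕ} (E : Finset (Fin n)) : Fin n → ℤ := fun l => if l ∈ E then 1 else 0

/-- `Y_j ↦ T * e_j(z)` -/
noncomputable def elemE (j : Fin (n + 1)) : Lau 𝔽 n :=
  ∑ E ∈ (Finset.univ : Finset (Fin n)).powersetCard j.val,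
    AddMonoidAlgebra.single (indE E, (1 : ℤ)) (1 : 𝔽)

/-- the structure map `A → Λ` -/
noncomputable def toLau : PolyA 𝔽 n →ₐ[𝔽] Lau 𝔽 n := MvPolynomial.aeval (elemE 𝔽 n)

/-- `Λ` as an algebra over `A` -/
noncomputable instance algLau : Algebra (PolyA 𝔽 n) (Lau 𝔽 n) := (toLau 𝔽 n).toRingHom.toAlgebra

/-- total space of the cochain complex over `A`: one copy of `Λ` for each `τ : Fin n → Fin 3`. -/
abbrev XA : Type w := (Fin n → Fin 3) → Lau 𝔽 n

theorem XA_smul_apply (a : PolyA 𝔽 n) (f : XA 𝔽 n) (τ : Fin n → Fin 3) :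
    (a • f) τ = toLau 𝔽 n a * f τ := rfl

/-- number of coordinates equal to `2` -/
def num2 {n : ℕ} (τ : Fin n → Fin 3) : ℕ := (Finset.univ.filter (fun l => τ l = 2)).card

/-- the monomial `(i, t)` is allowed in the block `τ` for the bundle `b` in filtration `s` -/
def allowed {n : ℕ} (b : Fin n → ℤ) (τ : Fin n → Fin 3) (s : ℤ) (m : (Fin n → ℤ) × ℤ) : Prop :=
  s ≤ m.2 ∧ (∀ l, τ l = 0 → m.1 l ≤ b l + m.2) ∧ (∀ l, τ l = 1 → 0 ≤ m.1 l)

/-- elements of `Λ` with all monomials allowed -/
def inBlk {n : ℕ} (b : Fin n → ℤ) (τ : Fin n → Fin 3) (s : ℤ) (f : Lau 𝔽 n) : Prop :=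
  ∀ m : (Fin n → ℤ) × ℤ, f.coeff m ≠ 0 → allowed b τ s m

end Blocks

end Vale.Agent.P202C
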