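import Vale.Agent.P202C.Defs

/-!
P202 in characteristic p, part (V): iterated Koszul cones of commuting matrices as free complexes.
-/

set_option autoImplicit false

namespace Vale.Agent.P202C

universe u v w

/-- index type of the Koszul complex on `n` commuting `g × g` matrices -/
def KI (g : ℕ) : ℕ → Type
  | 0 => Fin g
  | n + 1 => KI g n ⊕ KI g n

instance instFintypeKI (g : ℕ) : (n : ℕ) → Fintype (KI g n)
  | 0 => inferInstanceAs (Fintype (Fin g))
  | n + 1 => @instFintypeSum _ _ (instFintypeKI g n) (instFintypeKI g n)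

instance instDecEqKI (g : ℕ) : (n : ℕ) → DecidableEq (KI g n)
  | 0 => inferInstanceAs (DecidableEq (Fin g))
  | n + 1 => @instDecidableEqSum _ _ (instDecEqKI g n) (instDecEqKI g n)

section Kos

variable {R : Type u} [CommRing R] {g : ℕ}

/-- block matrices on the Koszul index types -/
def blk {n : ℕ} (A B C D : Matrix (KI g n) (KI g n) R) : Matrix (KI g (n + 1)) (KI g (n + 1)) R :=
  Matrix.fromBlocks A B C D

theorem blk_mul {n : ℕ} (A B C D A' B' C' D' : Matrix (KI g n) (KI g n) R) :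
    blk A B C D * blk A' B' C' D' =
      blk (A * A' + B * C') (A * B' + B * D') (C * A' + D * C') (C * B' + D * D') :=
  Matrix.fromBlocks_multiply A B C D A' B' C' D'

theorem blk_add {n : ℕ} (A B C D A' B' C' D' : Matrix (KI g n) (KI g n) R) :
    blk A B C D + blk A' B' C' D' = blk (A + A') (B + B') (C + C') (D + D') :=
  Matrix.fromBlocks_add A B C D A' B' C' D'

theorem blk_zero {n : ℕ} : blk (0 : Matrix (KI g n) (KI g n) R) 0 0 0 = 0 :=
  Matrix.fromBlocks_zero

theorem blk_one {n : ℕ} : blk (1 : Matrix (KI g n) (KI g n) R) 0 0 1 = 1 :=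
  Matrix.fromBlocks_one

theorem blk_smul {n : ℕ} (r : R) (A B C D : Matrix (KI g n) (KI g n) R) :
    r • blk A B C D = blk (r • A) (r • B) (r • C) (r • D) :=
  Matrix.fromBlocks_smul r A B C D

theorem blk_map {R' : Type v} [CommRing R'] (f : R →+* R') {n : ℕ}
    (A B C D : Matrix (KI g n) (KI g n) R) :
    (blk A B C D).map f = blk (A.map f) (B.map f) (C.map f) (D.map f) :=
  Matrix.fromBlocks_map A B C D f

omit [CommRing R] in
theorem blk_inl_inl {n : ℕ} (A B C D : Matrix (KI g n) (KI g n) R) (a b : KI g n) :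
    blk A B C D (Sum.inl a : KI g n ⊕ KI g n) (Sum.inl b : KI g n ⊕ KI g n) = A a b := rfl

omit [CommRing R] in
theorem blk_inl_inr {n : ℕ} (A B C D : Matrix (KI g n) (KI g n) R) (a b : KI g n) :
    blk A B C D (Sum.inl a : KI g n ⊕ KI g n) (Sum.inr b : KI g n ⊕ KI g n) = B a b := rfl

omit [CommRing R] in
theorem blk_inr_inl {n : ℕ} (A B C D : Matrix (KI g n) (KI g n) R) (a b : KI g n) :
    blk A B C D (Sum.inr a : KI g n ⊕ KI g n) (Sum.inl b : KI g n ⊕ KI g n) = C a b := rfl

omit [CommRing R] in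
theorem blk_inr_inr {n : ℕ} (A B C D : Matrix (KI g n) (KI g n) R) (a b : KI g n) :
    blk A B C D (Sum.inr a : KI g n ⊕ KI g n) (Sum.inr b : KI g n ⊕ KI g n) = D a b := rfl

/-- block diagonal matrix -/
def kdiag : (n : ℕ) → Matrix (Fin g) (Fin g) R → Matrix (KI g n) (KI g n) R
  | 0, W => W
  | n + 1, W => blk (kdiag n W) 0 0 (kdiag n W)

/-- the differential of the Koszul complex -/
def kmat (Z : ℕ → Matrix (Fin g) (Fin g) R) : (n : ℕ) → Matrix (KI g n) (KI g n) R
  | 0 => 0
  | n + 1 => blk (kmat Z n) (kdiag n (Z n)) 0 (-(kmat Z n))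

/-- the degrees -/
def kdeg : (n : ℕ) → KI g n → ℤ
  | 0, _ => 0
  | n + 1, Sum.inl a => kdeg n a
  | n + 1, Sum.inr a => kdeg n a + 1

theorem kdeg_inl (n : ℕ) (a : KI g n) :
    kdeg (n + 1) (Sum.inl a : KI g n ⊕ KI g n) = kdeg n a := rfl

theorem kdeg_inr (n : ℕ) (a : KI g n) :
    kdeg (n + 1) (Sum.inr a : KI g n ⊕ KI g n) = kdeg n a + 1 := rfl

theorem kdeg_range : ∀ (n : ℕ) (a : KI g n), 0 ≤ kdeg n a ∧ kdeg n a ≤ n
  | 0, _ => ⟨le_rfl, le_rfl⟩
  | n + 1, Sum.inl a => by
    have h := kdeg_range n a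
    have e := kdeg_inl n a
    push_cast
    constructor <;> omega
  | n + 1, Sum.inr a => by
    have h := kdeg_range n a
    have e := kdeg_inr n a
    push_cast
    constructor <;> omega

theorem kdiag_succ (n : ℕ) (W : Matrix (Fin g) (Fin g) R) :
    kdiag (n + 1) W = blk (kdiag n W) 0 0 (kdiag n W) := rfl

theorem kmat_succ (Z : ℕ → Matrix (Fin g) (Fin g) R) (n : ℕ) :
    kmat Z (n + 1) = blk (kmat Z n) (kdiag n (Z n)) 0 (-(kmat Z n)) := rfl

theorem kmat_zero (Z : ℕ → Matrix (Fin g) (Fin g) R) : kmat Z 0 = 0 := rfl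

theorem kdiag_mul : ∀ (n : ℕ) (A B : Matrix (Fin g) (Fin g) R),
    kdiag n (A * B) = kdiag n A * kdiag n B
  | 0, A, B => rfl
  | n + 1, A, B => by
    rw [kdiag_succ, kdiag_succ, kdiag_succ, blk_mul, kdiag_mul n A B]
    simp

theorem kdiag_add : ∀ (n : ℕ) (A B : Matrix (Fin g) (Fin g) R),
    kdiag n (A + B) = kdiag n A + kdiag n B
  | 0, A, B => rfl
  | n + 1, A, B => by
    rw [kdiag_succ, kdiag_succ, kdiag_succ, blk_add, kdiag_add n A B]
    simp

theorem kdiag_zero : ∀ (n : ℕ), kdiag n (0 : Matrix (Fin g) (Fin g) R) = 0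
  | 0 => rfl
  | n + 1 => by
    rw [kdiag_succ, kdiag_zero n, blk_zero]

theorem kdiag_smul_one : ∀ (n : ℕ) (r : R),
    kdiag n (r • (1 : Matrix (Fin g) (Fin g) R)) = r • (1 : Matrix (KI g n) (KI g n) R)
  | 0, r => rfl
  | n + 1, r => by
    rw [kdiag_succ, kdiag_smul_one n r, ← blk_one, blk_smul]
    simp

theorem kdiag_sum {κ : Type*} (s : Finset κ) (n : ℕ) (A : κ → Matrix (Fin g) (Fin g) R) :
    kdiag n (∑ i ∈ s, A i) = ∑ i ∈ s, kdiag n (A i) := by
  classical
  induction s using Finset.induction_on with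
  | empty => rw [Finset.sum_empty, Finset.sum_empty, kdiag_zero]
  | insert a s ha ih => rw [Finset.sum_insert ha, Finset.sum_insert ha, kdiag_add, ih]

theorem kdiag_map {R' : Type v} [CommRing R'] (f : R →+* R') : ∀ (n : ℕ)
    (A : Matrix (Fin g) (Fin g) R), (kdiag n A).map f = kdiag n (A.map f)
  | 0, A => rfl
  | n + 1, A => by
    rw [kdiag_succ, kdiag_succ, blk_map, kdiag_map f n A, Matrix.map_zero _ (map_zero f)]

theorem kmat_map {R' : Type v} [CommRing R'] (f : R →+* R') (Z : ℕ → Matrix (Fin g) (Fin g) R) :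
    ∀ (n : ℕ), (kmat Z n).map f = kmat (fun i => (Z i).map f) n
  | 0 => Matrix.map_zero _ (map_zero f)
  | n + 1 => by
    rw [kmat_succ, kmat_succ, blk_map, kdiag_map f n, Matrix.map_zero _ (map_zero f),
      ← kmat_map f Z n]
    congr 1
    ext i j
    simp [Matrix.map_apply]

theorem kdiag_deg : ∀ (n : ℕ) (W : Matrix (Fin g) (Fin g) R) (a b : KI g n),
    kdiag n W a b ≠ 0 → kdeg n a = kdeg n b
  | 0, _, _, _ => fun _ => rfl
  | n + 1, W, Sum.inl a, Sum.inl b => fun h => kdiag_deg n W a b h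
  | n + 1, W, Sum.inl a, Sum.inr b => fun h => absurd rfl h
  | n + 1, W, Sum.inr a, Sum.inl b => fun h => absurd rfl h
  | n + 1, W, Sum.inr a, Sum.inr b => fun h => by
    have := kdiag_deg n W a b h
    have e1 := kdeg_inr n a
    have e2 := kdeg_inr n b
    omega

theorem kmat_deg (Z : ℕ → Matrix (Fin g) (Fin g) R) : ∀ (n : ℕ) (a b : KI g n),
    kmat Z n a b ≠ 0 → kdeg n b = kdeg n a + 1
  | 0, _, _ => fun h => absurd rfl h
  | n + 1, Sum.inl a, Sum.inl b => fun h => kmat_deg Z n a b h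
  | n + 1, Sum.inl a, Sum.inr b => fun h => by
    have := kdiag_deg n (Z n) a b h
    have e1 := kdeg_inl n a
    have e2 := kdeg_inr n b
    omega
  | n + 1, Sum.inr a, Sum.inl b => fun h => absurd rfl h
  | n + 1, Sum.inr a, Sum.inr b => fun h => by
    have h' : kmat Z n a b ≠ 0 := by
      intro h0
      apply h
      show -(kmat Z n a b) = 0
      rw [h0, neg_zero]
    have := kmat_deg Z n a b h'
    have e1 := kdeg_inr n a
    have e2 := kdeg_inr n b
    omega

theorem kmat_kdiag_comm (Z : ℕ → Matrix (Fin g) (Fin g) R) (W : Matrix (Fin g) (Fin g) R) :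
    ∀ (n : ℕ), (∀ i < n, Z i * W = W * Z i) → kmat Z n * kdiag n W = kdiag n W * kmat Z n
  | 0, _ => by
    rw [kmat_zero, zero_mul, mul_zero]
  | n + 1, h => by
    have ih := kmat_kdiag_comm Z W n (fun i hi => h i (Nat.lt_succ_of_lt hi))
    have h2 : kdiag n (Z n) * kdiag n W = kdiag n W * kdiag n (Z n) := by
      rw [← kdiag_mul, ← kdiag_mul, h n (Nat.lt_succ_self n)]
    rw [kmat_succ, kdiag_succ, blk_mul, blk_mul]
    simp [ih, h2]

theorem kmat_sq (Z : ℕ → Matrix (Fin g) (Fin g) R) :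
    ∀ (n : ℕ), (∀ i < n, ∀ j < n, Z i * Z j = Z j * Z i) → kmat Z n * kmat Z n = 0
  | 0, _ => by
    rw [kmat_zero, zero_mul]
  | n + 1, h => by
    have ih := kmat_sq Z n (fun i hi j hj => h i (Nat.lt_succ_of_lt hi) j (Nat.lt_succ_of_lt hj))
    have h2 := kmat_kdiag_comm Z (Z n) n
      (fun i hi => h i (Nat.lt_succ_of_lt hi) n (Nat.lt_succ_self n))
    rw [kmat_succ, blk_mul, ← blk_zero]
    simp [ih, h2]

/-- the Koszul complex of commuting matrices -/
def Kz (Z : ℕ → Matrix (Fin g) (Fin g) R) (n : ℕ)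
    (hZ : ∀ i < n, ∀ j < n, Z i * Z j = Z j * Z i) : FCx R (KI g n) where
  deg := kdeg n
  mat := kmat Z n
  sq := kmat_sq Z n hZ
  hdeg := fun a b h => kmat_deg Z n a b h

/-- base change of the Koszul complex -/
theorem Kz_map {R' : Type v} [CommRing R'] (f : R →+* R') (Z : ℕ → Matrix (Fin g) (Fin g) R) (n : ℕ)
    (hZ : ∀ i < n, ∀ j < n, Z i * Z j = Z j * Z i)
    (hZ' : ∀ i < n, ∀ j < n, (Z i).map f * (Z j).map f = (Z j).map f * (Z i).map f) :
    (Kz Z n hZ).map f = Kz (fun i => (Z i).map f) n hZ' := by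
  unfold Kz FCx.map
  congr 1
  exact kmat_map f Z n

/-! ### null homotopies -/

/-- the homotopy for multiplication by `Z i` -/
def khom (R : Type u) [CommRing R] (g : ℕ) : (n : ℕ) → ℕ → Matrix (KI g n) (KI g n) R
  | 0, _ => 0
  | n + 1, i => if i = n then blk 0 0 1 0 else blk (khom R g n i) 0 0 (-(khom R g n i))

theorem khom_self (n : ℕ) : khom R g (n + 1) n = blk 0 0 1 0 := if_pos rfl

theorem khom_ne (n i : ℕ) (h : i ≠ n) :
    khom R g (n + 1) i = blk (khom R g n i) 0 0 (-(khom R g n i)) := if_neg h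

theorem khom_kdiag (W : Matrix (Fin g) (Fin g) R) : ∀ (n i : ℕ),
    khom R g n i * kdiag n W = kdiag n W * khom R g n i
  | 0, _ => by
    show (0 : Matrix (KI g 0) (KI g 0) R) * kdiag 0 W = kdiag 0 W * 0
    rw [zero_mul, mul_zero]
  | n + 1, i => by
    by_cases h : i = n
    · subst h
      rw [khom_self, kdiag_succ, blk_mul, blk_mul]
      simp
    · rw [khom_ne n i h, kdiag_succ, blk_mul, blk_mul]
      simp [khom_kdiag W n i]

theorem khom_homotopy (Z : ℕ → Matrix (Fin g) (Fin g) R) : ∀ (n i : ℕ), i < n →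
    kmat Z n * khom R g n i + khom R g n i * kmat Z n = kdiag n (Z i)
  | 0, _, h => absurd h (Nat.not_lt_zero _)
  | n + 1, i, hi => by
    by_cases h : i = n
    · subst h
      rw [khom_self, kmat_succ, kdiag_succ, blk_mul, blk_mul, blk_add]
      simp
    · have ih := khom_homotopy Z n i (by omega)
      have hc := khom_kdiag (Z n) n i
      rw [khom_ne n i h, kmat_succ, kdiag_succ, blk_mul, blk_mul, blk_add]
      simp [ih, hc]

theorem khom_deg : ∀ (n i : ℕ) (a b : KI g n), khom R g n i a b ≠ 0 → kdeg n a = kdeg n b + 1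
  | 0, _, _, _ => fun h => absurd rfl h
  | n + 1, i, a, b => fun h => by
    by_cases hi : i = n
    · subst hi
      rw [khom_self] at h
      match a, b, h with
      | Sum.inl a, Sum.inl b, h' => exact absurd rfl h'
      | Sum.inl a, Sum.inr b, h' => exact absurd rfl h'
      | Sum.inr a, Sum.inr b, h' => exact absurd rfl h'
      | Sum.inr a, Sum.inl b, h' =>
        have h2 : (1 : Matrix (KI g i) (KI g i) R) a b ≠ 0 := h'
        have h3 : a = b := by
          by_contra hne
          exact h2 (Matrix.one_apply_ne hne)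
        subst h3
        rfl
    · rw [khom_ne n i hi] at h
      match a, b, h with
      | Sum.inl a, Sum.inl b, h' => exact khom_deg n i a b h'
      | Sum.inl a, Sum.inr b, h' => exact absurd rfl h'
      | Sum.inr a, Sum.inl b, h' => exact absurd rfl h'
      | Sum.inr a, Sum.inr b, h' =>
        have h2 : khom R g n i a b ≠ 0 := by
          intro h0
          apply h'
          show -(khom R g n i a b) = 0
          rw [h0, neg_zero]
        have := khom_deg n i a b h2
        have e1 := kdeg_inr n a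
        have e2 := kdeg_inr n b
        omega

theorem deg_mul_right {ι κ ν : Type} [Fintype κ] (deg : ι → ℤ) (deg' : κ → ℤ) (deg'' : ν → ℤ)
    (d d' : ℤ) (A : Matrix ι κ R) (B : Matrix κ ν R)
    (hA : ∀ a b, A a b ≠ 0 → deg a = deg' b + d) (hB : ∀ a b, B a b ≠ 0 → deg' a = deg'' b + d')
    (a : ι) (b : ν) (h : (A * B) a b ≠ 0) : deg a = deg'' b + (d + d') := by
  rw [Matrix.mul_apply] at h
  obtain ⟨c, _, hc⟩ := Finset.exists_ne_zero_of_sum_ne_zero h
  have h1 := hA a c (left_ne_zero_of_mul hc)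
  have h2 := hB c b (right_ne_zero_of_mul hc)
  rw [h1, h2]
  ring

/-- if `r` is in the ideal generated by the `Z i` (in a commutative ring of matrices), it is null
homotopic -/
theorem kos_null (Z : ℕ → Matrix (Fin g) (Fin g) R) (n : ℕ) (r : R)
    (W : ℕ → Matrix (Fin g) (Fin g) R) (hW : ∀ i < n, ∀ j < n, Z i * W j = W j * Z i)
    (hr : ∑ i ∈ Finset.range n, Z i * W i = r • (1 : Matrix (Fin g) (Fin g) R)) :
    ∃ h : Matrix (KI g n) (KI g n) R, (∀ a b, h a b ≠ 0 → kdeg n a = kdeg n b + 1) ∧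
      kmat Z n * h + h * kmat Z n = r • (1 : Matrix (KI g n) (KI g n) R) := by
  refine ⟨∑ i ∈ Finset.range n, khom R g n i * kdiag n (W i), fun a b h => ?_, ?_⟩
  · rw [Matrix.sum_apply] at h
    obtain ⟨i, _, hi⟩ := Finset.exists_ne_zero_of_sum_ne_zero h
    have := deg_mul_right (kdeg n) (kdeg n) (kdeg n) 1 0 (khom R g n i) (kdiag n (W i))
      (khom_deg n i) (fun a b h => by rw [add_zero]; exact kdiag_deg n _ a b h) a b hi
    simpa using this
  · rw [Finset.mul_sum, Finset.sum_mul, ← Finset.sum_add_distrib, ← kdiag_smul_one, ← hr,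
      kdiag_sum]
    refine Finset.sum_congr rfl fun i hi => ?_
    rw [Finset.mem_range] at hi
    have h1 := kmat_kdiag_comm Z (W i) n (fun j hj => hW j hj i hi)
    rw [← mul_assoc, mul_assoc (khom R g n i), ← h1, ← mul_assoc, ← add_mul,
      khom_homotopy Z n i hi, ← kdiag_mul]

end Kos

end Vale.Agent.P202C
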