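import Vale.Agent.P202C.VDefs
import Vale.Agent.P202C.Kos

/-!
P202 in characteristic p, section (V), V1: Gaussian elimination over a local ring.
-/

set_option autoImplicit false

namespace Vale.Agent.P202C.V

open IsLocalRing Vale.Agent.P202C

universe u v

section

variable {R : Type u} [CommRing R] {ι ι' ι'' : Type} [Fintype ι] [DecidableEq ι] [Fintype ι']
  [DecidableEq ι'] [Fintype ι''] [DecidableEq ι'']

/-- the identity retract -/
def Retr.refl (K : FCx R ι) : Retr K K where
  A := 1
  B := 1
  H := 0
  hA := by rw [one_mul, mul_one]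
  hB := by rw [one_mul, mul_one]
  hAB := by rw [one_mul]
  hBA := by rw [one_mul, mul_zero, zero_mul, add_zero, sub_zero]
  dA := fun a b h => by
    by_cases hab : a = b
    · rw [hab]
    · exact absurd (Matrix.one_apply_ne hab) h
  dB := fun a b h => by
    by_cases hab : a = b
    · rw [hab]
    · exact absurd (Matrix.one_apply_ne hab) h
  dH := fun _ _ h => absurd rfl h

/-- composition of retracts -/
def Retr.trans {K : FCx R ι} {G : FCx R ι'} {L : FCx R ι''} (r : Retr K G) (s : Retr G L) :
    Retr K L where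
  A := s.A * r.A
  B := r.B * s.B
  H := r.H + r.B * s.H * r.A
  hA := by rw [Matrix.mul_assoc, r.hA, ← Matrix.mul_assoc, s.hA, Matrix.mul_assoc]
  hB := by rw [← Matrix.mul_assoc, r.hB, Matrix.mul_assoc, s.hB, ← Matrix.mul_assoc]
  hAB := by
    rw [Matrix.mul_assoc, ← Matrix.mul_assoc r.A, r.hAB, Matrix.one_mul, s.hAB]
  hBA := by
    have h1 : r.B * s.B * (s.A * r.A) = r.B * (s.B * s.A) * r.A := by
      simp only [Matrix.mul_assoc]
    rw [h1, s.hBA, Matrix.mul_sub, Matrix.sub_mul, Matrix.mul_one, r.hBA, Matrix.mul_add,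
      Matrix.add_mul, Matrix.mul_add, Matrix.add_mul]
    have h2 : r.B * (G.mat * s.H) * r.A = K.mat * (r.B * s.H * r.A) := by
      rw [← Matrix.mul_assoc r.B, ← r.hB]
      simp only [Matrix.mul_assoc]
    have h3 : r.B * (s.H * G.mat) * r.A = r.B * s.H * r.A * K.mat := by
      simp only [Matrix.mul_assoc]
      rw [r.hA]
    rw [h2, h3]
    abel
  dA := fun a b h => by
    have := deg_mul_right L.deg G.deg K.deg 0 0 s.A r.A
      (fun a b h => by rw [add_zero]; exact s.dA a b h)
      (fun a b h => by rw [add_zero]; exact r.dA a b h) a b h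
    simpa using this
  dB := fun a b h => by
    have := deg_mul_right K.deg G.deg L.deg 0 0 r.B s.B
      (fun a b h => by rw [add_zero]; exact r.dB a b h)
      (fun a b h => by rw [add_zero]; exact s.dB a b h) a b h
    simpa using this
  dH := fun a b h => by
    by_cases h0 : r.H a b = 0
    · have h1 : (r.B * s.H * r.A) a b ≠ 0 := by
        intro h2
        apply h
        rw [Matrix.add_apply, h0, h2, add_zero]
      have h3 := deg_mul_right K.deg G.deg K.deg (0 + 1) 0 (r.B * s.H) r.A
        (fun a b h => deg_mul_right K.deg G.deg G.deg 0 1 r.B s.H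
          (fun a b h => by rw [add_zero]; exact r.dB a b h) s.dH a b h)
        (fun a b h => by rw [add_zero]; exact r.dA a b h) a b h1
      simpa using h3
    · exact r.dH a b h0

/-! ### one elimination step -/

/-- the remaining indices -/
abbrev GI (a b : ι) : Type := {i : ι // i ≠ a ∧ i ≠ b}

variable (R) in
/-- inclusion matrix -/
def gP (a b : ι) : Matrix (GI a b) ι R := fun i j => if i.1 = j then 1 else 0

variable (R) in
/-- transposed inclusion matrix -/
def gQ (a b : ι) : Matrix ι (GI a b) R := fun j i => if i.1 = j then 1 else 0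

theorem gP_gQ (a b : ι) : gP R a b * gQ R a b = 1 := by
  ext i j
  rw [Matrix.mul_apply, Finset.sum_eq_single i.1]
  · unfold gP gQ
    rw [if_pos rfl, one_mul, Matrix.one_apply]
    by_cases h : i = j
    · rw [if_pos h, if_pos (by rw [h])]
    · rw [if_neg h, if_neg]
      intro h2
      exact h (Subtype.ext h2.symm)
  · intro k _ hk
    unfold gP
    rw [if_neg (fun h => hk h.symm), zero_mul]
  · intro h
    exact absurd (Finset.mem_univ _) h

theorem gQ_gP (a b : ι) (hab : a ≠ b) :
    gQ R a b * gP R a b = 1 - Matrix.single a a 1 - Matrix.single b b 1 := by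
  ext i j
  rw [Matrix.mul_apply, Matrix.sub_apply, Matrix.sub_apply, Matrix.one_apply]
  by_cases hi : i ≠ a ∧ i ≠ b
  · rw [Finset.sum_eq_single (⟨i, hi⟩ : GI a b)]
    · unfold gP gQ
      rw [if_pos rfl, one_mul, Matrix.single_apply_of_ne, Matrix.single_apply_of_ne, sub_zero,
        sub_zero]
      · rintro ⟨h, _⟩
        exact hi.2 h.symm
      · rintro ⟨h, _⟩
        exact hi.1 h.symm
    · intro k _ hk
      unfold gQ
      rw [if_neg (fun h => hk (Subtype.ext h)), zero_mul]
    · intro h
      exact absurd (Finset.mem_univ _) h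
  · rw [Finset.sum_eq_zero]
    · by_cases hia : i = a
      · subst hia
        by_cases hj : i = j
        · subst hj
          rw [if_pos rfl, Matrix.single_apply_same, Matrix.single_apply_of_ne, sub_self, sub_zero]
          rintro ⟨h, _⟩
          exact hab h.symm
        · rw [if_neg hj, Matrix.single_apply_of_ne, Matrix.single_apply_of_ne, sub_zero, sub_zero]
          · rintro ⟨h, _⟩
            exact hab h.symm
          · rintro ⟨_, h⟩
            exact hj h
      · have hib : i = b := by
          by_contra h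
          exact hi ⟨hia, h⟩
        subst hib
        by_cases hj : i = j
        · subst hj
          rw [if_pos rfl, Matrix.single_apply_same, Matrix.single_apply_of_ne, sub_zero, sub_self]
          rintro ⟨h, _⟩
          exact hab h
        · rw [if_neg hj, Matrix.single_apply_of_ne, Matrix.single_apply_of_ne, sub_zero, sub_zero]
          · rintro ⟨_, h⟩
            exact hj h
          · rintro ⟨h, _⟩
            exact hab h
    · intro k _
      unfold gQ
      rw [if_neg, zero_mul]
      intro h
      exact hi ⟨fun h2 => k.2.1 (h.trans h2), fun h2 => k.2.2 (h.trans h2)⟩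

theorem gP_single (a b : ι) (v : R) : gP R a b * Matrix.single b a v = 0 := by
  ext i j
  rw [Matrix.mul_apply, Finset.sum_eq_zero]
  · rfl
  · intro k _
    by_cases hk : k = b
    · unfold gP
      rw [if_neg (fun h => i.2.2 (h.trans hk)), zero_mul]
    · rw [Matrix.single_apply_of_ne _ _ _ _ _ (fun h => hk h.1.symm), mul_zero]

theorem single_gQ (a b : ι) (v : R) : Matrix.single b a v * gQ R a b = 0 := by
  ext i j
  rw [Matrix.mul_apply, Finset.sum_eq_zero]
  · rfl
  · intro k _
    by_cases hk : k = a
    · unfold gQ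
      rw [if_neg (fun h => j.2.1 (h.trans hk)), mul_zero]
    · rw [Matrix.single_apply_of_ne _ _ _ _ _ (fun h => hk h.2.symm), zero_mul]

end

section

variable {R : Type u} [CommRing R] {ι : Type} [Fintype ι] [DecidableEq ι]

/-- one step of Gaussian elimination -/
theorem gauss_step [Nontrivial R] (K : FCx R ι) (a b : ι) (v : R) (hv : K.mat a b * v = 1) :
    ∃ (G : FCx R (GI a b)) (_ : Retr K G), ∀ i, G.deg i = K.deg i.1 := by
  have hne : K.mat a b ≠ 0 := by
    intro h
    rw [h, zero_mul] at hv
    exact zero_ne_one hv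
  have hdeg := K.hdeg a b hne
  have hab : a ≠ b := by
    rintro rfl
    omega
  set M := K.mat with hM
  have hMM : M * M = 0 := K.sq
  set H : Matrix ι ι R := Matrix.single b a v with hH
  have h1 : H * M * H = H := by
    rw [hH, Matrix.single_mul_mul_single]
    rw [mul_comm v (M a b), hv, one_mul]
  have h2 : Matrix.single a a 1 * M * H = Matrix.single a a 1 := by
    rw [hH, Matrix.single_mul_mul_single, one_mul, hv]
  have h3 : H * M * Matrix.single b b 1 = Matrix.single b b 1 := by
    rw [hH, Matrix.single_mul_mul_single, mul_one, mul_comm v (M a b), hv]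
  have h4 : H * H = 0 := by
    rw [hH, Matrix.single_mul_single_of_ne]
    exact hab
  have h5 : gP R a b * H = 0 := gP_single a b v
  have h6 : H * gQ R a b = 0 := single_gQ a b v
  have dM : ∀ i j, M i j ≠ 0 → K.deg i = K.deg j + (-1) := fun i j h => by
    have := K.hdeg i j h
    omega
  have dH : ∀ i j, H i j ≠ 0 → K.deg i = K.deg j + 1 := fun i j h => by
    by_cases hij : b = i ∧ a = j
    · rw [← hij.1, ← hij.2]
      exact hdeg
    · exact absurd (Matrix.single_apply_of_ne _ _ _ _ _ hij) h
  have dP : ∀ i j, gP R a b i j ≠ 0 → K.deg i.1 = K.deg j + 0 := fun i j h => by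
    by_cases hij : i.1 = j
    · rw [hij, add_zero]
    · exact absurd (if_neg hij) h
  have dQ : ∀ i j, gQ R a b i j ≠ 0 → K.deg i = K.deg j.1 + 0 := fun i j h => by
    by_cases hij : j.1 = i
    · rw [hij, add_zero]
    · exact absurd (if_neg hij) h
  have dOne : ∀ i j, (1 : Matrix ι ι R) i j ≠ 0 → K.deg i = K.deg j + 0 := fun i j h => by
    by_cases hij : i = j
    · rw [hij, add_zero]
    · exact absurd (Matrix.one_apply_ne hij) h
  have dMH : ∀ i j, (1 - M * H) i j ≠ 0 → K.deg i = K.deg j + 0 := fun i j h => by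
    by_cases h0 : (1 : Matrix ι ι R) i j = 0
    · have h7 : (M * H) i j ≠ 0 := by
        intro h8
        apply h
        rw [Matrix.sub_apply, h0, h8, sub_zero]
      have := deg_mul_right K.deg K.deg K.deg (-1) 1 M H dM dH i j h7
      simpa using this
    · exact dOne i j h0
  have dHM : ∀ i j, (1 - H * M) i j ≠ 0 → K.deg i = K.deg j + 0 := fun i j h => by
    by_cases h0 : (1 : Matrix ι ι R) i j = 0
    · have h7 : (H * M) i j ≠ 0 := by
        intro h8
        apply h
        rw [Matrix.sub_apply, h0, h8, sub_zero]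
      have := deg_mul_right K.deg K.deg K.deg 1 (-1) H M dH dM i j h7
      simpa using this
    · exact dOne i j h0
  set A : Matrix (GI a b) ι R := gP R a b * (1 - M * H) with hA
  set B : Matrix ι (GI a b) R := (1 - H * M) * gQ R a b with hB
  have dA : ∀ i j, A i j ≠ 0 → K.deg i.1 = K.deg j + 0 := fun i j h => by
    have := deg_mul_right (fun i : GI a b => K.deg i.1) K.deg K.deg 0 0 _ _ dP dMH i j h
    simpa using this
  have dB : ∀ i j, B i j ≠ 0 → K.deg i = K.deg j.1 + 0 := fun i j h => by
    have := deg_mul_right K.deg K.deg (fun i : GI a b => K.deg i.1) 0 0 _ _ dHM dQ i j h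
    simpa using this
  have hAB : A * B = 1 := by
    rw [hA, hB]
    have e : gP R a b * (1 - M * H) * ((1 - H * M) * gQ R a b) =
        gP R a b * ((1 - M * H) * (1 - H * M)) * gQ R a b := by
      simp only [Matrix.mul_assoc]
    rw [e]
    have e2 : (1 - M * H) * (1 - H * M) = 1 - M * H - H * M := by
      rw [Matrix.mul_sub, Matrix.mul_one, Matrix.sub_mul, Matrix.one_mul]
      have : M * H * (H * M) = 0 := by
        rw [Matrix.mul_assoc M H, ← Matrix.mul_assoc H H M, h4, Matrix.zero_mul, Matrix.mul_zero]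
      rw [this, sub_zero]
    rw [e2, Matrix.mul_sub, Matrix.mul_sub, Matrix.mul_one, Matrix.sub_mul, Matrix.sub_mul, gP_gQ,
      ← Matrix.mul_assoc (gP R a b) H M, h5, Matrix.zero_mul, Matrix.zero_mul, sub_zero,
      Matrix.mul_assoc (gP R a b) (M * H), Matrix.mul_assoc M H, h6, Matrix.mul_zero,
      Matrix.mul_zero, sub_zero]
  have hBA : B * A = 1 - (M * H + H * M) := by
    rw [hA, hB]
    have e : (1 - H * M) * gQ R a b * (gP R a b * (1 - M * H)) =
        (1 - H * M) * (gQ R a b * gP R a b) * (1 - M * H) := by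
      simp only [Matrix.mul_assoc]
    rw [e, gQ_gP a b hab]
    have e1 : (1 - H * M) * Matrix.single b b (1 : R) = 0 := by
      rw [Matrix.sub_mul, Matrix.one_mul, h3, sub_self]
    have e2 : (1 - H * M) * Matrix.single a a (1 : R) * (1 - M * H) = 0 := by
      rw [Matrix.mul_assoc, Matrix.mul_sub (Matrix.single a a (1 : R)), Matrix.mul_one,
        ← Matrix.mul_assoc (Matrix.single a a (1 : R)), h2, sub_self, Matrix.mul_zero]
    have e0 : (1 - H * M) * (1 - Matrix.single a a (1 : R) - Matrix.single b b (1 : R)) =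
        (1 - H * M) - (1 - H * M) * Matrix.single a a (1 : R) := by
      rw [Matrix.mul_sub, e1, sub_zero, Matrix.mul_sub, Matrix.mul_one]
    rw [e0, Matrix.sub_mul, e2, sub_zero, Matrix.mul_sub, Matrix.mul_one,
      Matrix.sub_mul (1 : Matrix ι ι R) (H * M) (M * H), Matrix.one_mul]
    have e3 : H * M * (M * H) = 0 := by
      rw [Matrix.mul_assoc H M, ← Matrix.mul_assoc M M H, hMM, Matrix.zero_mul, Matrix.mul_zero]
    rw [e3, sub_zero]
    abel
  have hAMH : A * M * H = 0 := by
    rw [hA, Matrix.mul_assoc, Matrix.mul_assoc, Matrix.sub_mul, Matrix.one_mul]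
    have : M * H * (M * H) = M * H := by
      rw [Matrix.mul_assoc M H, ← Matrix.mul_assoc H M H, h1]
    rw [this, sub_self, Matrix.mul_zero]
  have hHMB : H * (M * B) = 0 := by
    rw [hB, ← Matrix.mul_assoc H M, ← Matrix.mul_assoc (H * M), Matrix.mul_sub, Matrix.mul_one]
    have : H * M * (H * M) = H * M := by
      rw [← Matrix.mul_assoc (H * M) H M, h1]
    rw [this, sub_self, Matrix.zero_mul]
  have key1 : A * M * B * A = A * M := by
    rw [Matrix.mul_assoc (A * M), hBA, Matrix.mul_sub, Matrix.mul_one, Matrix.mul_add,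
      ← Matrix.mul_assoc (A * M) M H, Matrix.mul_assoc A M M, hMM, Matrix.mul_zero,
      Matrix.zero_mul, zero_add, ← Matrix.mul_assoc (A * M) H M, hAMH, Matrix.zero_mul, sub_zero]
  have key2 : B * (A * M * B) = M * B := by
    have e : B * (A * M * B) = B * A * (M * B) := by
      simp only [Matrix.mul_assoc]
    rw [e, hBA, Matrix.sub_mul, Matrix.one_mul, Matrix.add_mul, Matrix.mul_assoc M H, hHMB,
      Matrix.mul_zero, zero_add, Matrix.mul_assoc H M, ← Matrix.mul_assoc M M B, hMM,
      Matrix.zero_mul, Matrix.mul_zero, sub_zero]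
  refine ⟨⟨fun i => K.deg i.1, A * M * B, ?_, ?_⟩, ⟨A, B, H, ?_, ?_, hAB, ?_, ?_, ?_, dH⟩,
    fun i => rfl⟩
  · rw [← Matrix.mul_assoc (A * M * B), ← Matrix.mul_assoc (A * M * B) A M, key1,
      Matrix.mul_assoc A M M, hMM, Matrix.mul_zero, Matrix.zero_mul]
  · intro i j h
    have h7 := deg_mul_right (fun i : GI a b => K.deg i.1) K.deg (fun i : GI a b => K.deg i.1)
      (0 + (-1)) 0 (A * M) B
      (fun i j h => deg_mul_right (fun i : GI a b => K.deg i.1) K.deg K.deg 0 (-1) A M dA dM i j h)
      dB i j h
    have h8 : K.deg i.1 = K.deg j.1 + (0 + (-1) + 0) := h7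
    show K.deg j.1 = K.deg i.1 + 1
    omega
  · exact key1.symm
  · exact key2.symm
  · exact hBA
  · intro i j h
    have := dA i j h
    rw [add_zero] at this
    exact this
  · intro i j h
    have := dB i j h
    rw [add_zero] at this
    exact this

theorem card_GI_lt (a b : ι) : Fintype.card (GI a b) < Fintype.card ι :=
  Fintype.card_subtype_lt (x := a) (fun h => h.1 rfl)

end

theorem exists_minimal_aux {R : Type u} [CommRing R] [IsLocalRing R] : ∀ (N : ℕ) {ι : Type}
    [Fintype ι] [DecidableEq ι] (K : FCx R ι), Fintype.card ι = N →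
    ∃ (ι' : Type) (_ : Fintype ι') (_ : DecidableEq ι') (G : FCx R ι') (_ : Retr K G),
      (∀ a b, G.mat a b ∈ maximalIdeal R) ∧ (∀ a, ∃ b, G.deg a = K.deg b) := by
  intro N
  induction N using Nat.strong_induction_on with
  | _ N ih =>
    intro ι _ _ K hN
    by_cases hmin : ∀ a b, K.mat a b ∈ maximalIdeal R
    · exact ⟨ι, inferInstance, inferInstance, K, Retr.refl K, hmin, fun a => ⟨a, rfl⟩⟩
    · push Not at hmin
      obtain ⟨a, b, hab⟩ := hmin
      have hu : IsUnit (K.mat a b) := by
        by_contra h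
        exact hab ((mem_maximalIdeal _).mpr h)
      obtain ⟨v, hv⟩ := hu.exists_right_inv
      obtain ⟨G, r, hG⟩ := gauss_step K a b v hv
      obtain ⟨ι', i1, i2, G', r', h1, h2⟩ := ih (Fintype.card (GI a b))
        (by rw [← hN]; exact card_GI_lt a b) G rfl
      refine ⟨ι', i1, i2, G', r.trans r', h1, fun c => ?_⟩
      obtain ⟨d, hd⟩ := h2 c
      exact ⟨d.1, by rw [hd, hG]⟩

theorem exists_minimal {R : Type u} [CommRing R] [IsLocalRing R] {ι : Type} [Fintype ι]
    [DecidableEq ι] (K : FCx R ι) :
    ∃ (ι' : Type) (_ : Fintype ι') (_ : DecidableEq ι') (G : FCx R ι') (_ : Retr K G),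
      (∀ a b, G.mat a b ∈ maximalIdeal R) ∧ (∀ a, ∃ b, G.deg a = K.deg b) :=
  exists_minimal_aux (Fintype.card ι) K rfl

end Vale.Agent.P202C.V
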