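import Vale.Agent.P202C.VDefs

/-!
P202 in characteristic p, V2: consequences of a strong deformation retract of free complexes;
homology of a minimal complex with coefficients in the residue field.
-/

set_option autoImplicit false

namespace Vale.Agent.P202C.V

open IsLocalRing Vale.Agent.P202C

universe u v

section general

variable {R : Type u} [CommRing R]

theorem v2_mem_sub {M : Type v} [AddCommGroup M] [Module R M] {N P : Submodule R M} {x : P} :
    x ∈ N.submoduleOf P ↔ (x : M) ∈ N := Iff.rfl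

theorem v2_rlen_eq {M : Type v} [AddCommGroup M] [Module R M] {M' : Type v} [AddCommGroup M']
    [Module R M'] (N P : Submodule R M) (N' P' : Submodule R M') (f : M →ₗ[R] M')
    (g : M' →ₗ[R] M) (hfP : ∀ x ∈ P, f x ∈ P') (hfN : ∀ x ∈ N, f x ∈ N')
    (hgP : ∀ y ∈ P', g y ∈ P) (hgN : ∀ y ∈ N', g y ∈ N)
    (h1 : ∀ x ∈ P, g (f x) - x ∈ N) (h2 : ∀ y ∈ P', f (g y) - y ∈ N') :
    rlen N P = rlen N' P' := by
  unfold rlen
  let F : (P ⧸ N.submoduleOf P) →ₗ[R] (P' ⧸ N'.submoduleOf P') :=
    Submodule.mapQ _ _ (f.restrict hfP) (fun x hx => by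
      rw [Submodule.mem_comap, v2_mem_sub]
      rw [v2_mem_sub] at hx
      exact hfN _ hx)
  have hbij : Function.Bijective F := by
    constructor
    · rw [← LinearMap.ker_eq_bot, LinearMap.ker_eq_bot']
      intro q hq
      obtain ⟨x, rfl⟩ := Submodule.Quotient.mk_surjective _ q
      have hq' : (Submodule.Quotient.mk (f.restrict hfP x) : P' ⧸ N'.submoduleOf P') = 0 := hq
      rw [Submodule.Quotient.mk_eq_zero, v2_mem_sub] at hq'
      rw [Submodule.Quotient.mk_eq_zero, v2_mem_sub]
      have h3 := hgN _ hq'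
      have h4 := h1 _ x.2
      have h5 : (x : M) = g (f x) - (g (f x) - x) := by abel
      rw [h5]
      exact N.sub_mem h3 h4
    · intro q
      obtain ⟨y, rfl⟩ := Submodule.Quotient.mk_surjective _ q
      refine ⟨Submodule.Quotient.mk ⟨g y, hgP _ y.2⟩, ?_⟩
      change (Submodule.Quotient.mk (f.restrict hfP ⟨g y, hgP _ y.2⟩) :
        P' ⧸ N'.submoduleOf P') = _
      rw [Submodule.Quotient.eq, v2_mem_sub]
      exact h2 _ y.2
  exact (LinearEquiv.ofBijective F hbij).length_eq

variable {V : Type v} [AddCommGroup V] [Module R V]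

theorem v2_act_apply {ι κ : Type} [Fintype ι] [Fintype κ] (m : Matrix κ ι R) (x : ι → V) (a : κ) :
    act m V x a = ∑ b, m a b • x b := rfl

theorem v2_act_mul {ι κ μ : Type} [Fintype ι] [Fintype κ] [Fintype μ] (m : Matrix μ κ R)
    (m' : Matrix κ ι R) (x : ι → V) : act (m * m') V x = act m V (act m' V x) := by
  funext a
  simp only [v2_act_apply, Matrix.mul_apply, Finset.sum_smul, Finset.smul_sum]
  rw [Finset.sum_comm]
  refine Finset.sum_congr rfl fun b _ => Finset.sum_congr rfl fun c _ => ?_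
  rw [mul_smul]

theorem v2_act_one {ι : Type} [Fintype ι] [DecidableEq ι] (x : ι → V) :
    act (1 : Matrix ι ι R) V x = x := by
  funext a
  simp only [v2_act_apply, Matrix.one_apply, ite_smul, one_smul, zero_smul, Finset.sum_ite_eq,
    Finset.mem_univ, if_true]

theorem v2_act_add {ι κ : Type} [Fintype ι] [Fintype κ] (m m' : Matrix κ ι R) (x : ι → V) :
    act (m + m') V x = act m V x + act m' V x := by
  funext a
  simp only [v2_act_apply, Matrix.add_apply, add_smul, Finset.sum_add_distrib, Pi.add_apply]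

theorem v2_act_sub {ι κ : Type} [Fintype ι] [Fintype κ] (m m' : Matrix κ ι R) (x : ι → V) :
    act (m - m') V x = act m V x - act m' V x := by
  funext a
  simp only [v2_act_apply, Matrix.sub_apply, sub_smul, Finset.sum_sub_distrib, Pi.sub_apply]

/-- maps of degree `c` -/
theorem v2_act_deg {ι κ : Type} [Fintype ι] [Fintype κ] {K : FCx R ι} {G : FCx R κ}
    {m : Matrix κ ι R} {c : ℤ} (hm : ∀ a b, m a b ≠ 0 → G.deg a = K.deg b + c) {j : ℤ}
    {x : ι → V} (hx : x ∈ degPart K V j) : act m V x ∈ degPart G V (j + c) := by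
  intro a ha
  rw [v2_act_apply]
  refine Finset.sum_eq_zero fun b _ => ?_
  by_cases h : m a b = 0
  · rw [h, zero_smul]
  · have h1 := hm a b h
    have h2 : K.deg b ≠ j := by
      intro h3
      rw [h3] at h1
      exact ha h1
    rw [hx b h2, smul_zero]

theorem v2_mem_N {ι : Type} [Fintype ι] (K : FCx R ι) (j : ℤ) (x : ι → V) :
    x ∈ botF R (ι → V) j ⊔ (degPart K V (j + 1)).map (act K.mat V)
      ↔ ∃ y ∈ degPart K V (j + 1), act K.mat V y = x := by
  unfold botF
  rw [bot_sup_eq, Submodule.mem_map]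

theorem v2_mem_P {ι : Type} [Fintype ι] (K : FCx R ι) (j : ℤ) (x : ι → V) :
    x ∈ degPart K V j ⊓ (botF R (ι → V) (j - 1)).comap (act K.mat V)
      ↔ x ∈ degPart K V j ∧ act K.mat V x = 0 := by
  unfold botF
  rw [Submodule.mem_inf, Submodule.mem_comap, Submodule.mem_bot]

end general

theorem retr_Hc_eq {R : Type u} [CommRing R] {ι ι' : Type} [Fintype ι] [DecidableEq ι] [Fintype ι']
    [DecidableEq ι'] {K : FCx R ι} {G : FCx R ι'} (r : Retr K G)
    (V : Type v) [AddCommGroup V] [Module R V] (j : ℤ) : Hc G V j = Hc K V j := by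
  have hA : ∀ {j : ℤ} {x : ι → V}, x ∈ degPart K V j → act r.A V x ∈ degPart G V j := by
    intro j x hx
    have h := v2_act_deg (c := 0) (m := r.A) (fun a b hab => by rw [r.dA a b hab, add_zero]) hx
    rwa [add_zero] at h
  have hB : ∀ {j : ℤ} {x : ι' → V}, x ∈ degPart G V j → act r.B V x ∈ degPart K V j := by
    intro j x hx
    have h := v2_act_deg (c := 0) (m := r.B) (fun a b hab => by rw [r.dB a b hab, add_zero]) hx
    rwa [add_zero] at h
  have hAd : ∀ x : ι → V, act r.A V (act K.mat V x) = act G.mat V (act r.A V x) := by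
    intro x
    rw [← v2_act_mul, r.hA, v2_act_mul]
  have hBd : ∀ x : ι' → V, act r.B V (act G.mat V x) = act K.mat V (act r.B V x) := by
    intro x
    rw [← v2_act_mul, ← r.hB, v2_act_mul]
  unfold Hc hl
  refine v2_rlen_eq _ _ _ _ (act r.B V) (act r.A V) ?_ ?_ ?_ ?_ ?_ ?_
  · intro y hy
    rw [v2_mem_P] at hy ⊢
    refine ⟨hB hy.1, ?_⟩
    rw [← hBd, hy.2, map_zero]
  · intro y hy
    rw [v2_mem_N] at hy ⊢
    obtain ⟨z, hz, rfl⟩ := hy
    exact ⟨act r.B V z, hB hz, (hBd z).symm⟩
  · intro x hx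
    rw [v2_mem_P] at hx ⊢
    refine ⟨hA hx.1, ?_⟩
    rw [← hAd, hx.2, map_zero]
  · intro x hx
    rw [v2_mem_N] at hx ⊢
    obtain ⟨z, hz, rfl⟩ := hx
    exact ⟨act r.A V z, hA hz, (hAd z).symm⟩
  · intro y _
    rw [← v2_act_mul, r.hAB, v2_act_one, sub_self]
    exact Submodule.zero_mem _
  · intro x hx
    rw [v2_mem_P] at hx
    have h1 : act r.B V (act r.A V x) - x = act K.mat V (-(act r.H V x)) := by
      rw [← v2_act_mul, r.hBA, v2_act_sub, v2_act_one, v2_act_add, v2_act_mul, v2_act_mul, hx.2,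
        map_zero, map_neg]
      abel
    rw [h1, v2_mem_N]
    refine ⟨_, Submodule.neg_mem _ (v2_act_deg (c := 1) r.dH hx.1), rfl⟩

theorem retr_null {R : Type u} [CommRing R] {ι ι' : Type} [Fintype ι] [DecidableEq ι] [Fintype ι']
    [DecidableEq ι'] {K : FCx R ι} {G : FCx R ι'} (r : Retr K G) (x : R) (h : Matrix ι ι R)
    (hd : ∀ a b, h a b ≠ 0 → K.deg a = K.deg b + 1)
    (hh : K.mat * h + h * K.mat = x • (1 : Matrix ι ι R)) :
    ∃ h' : Matrix ι' ι' R, (∀ a b, h' a b ≠ 0 → G.deg a = G.deg b + 1) ∧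
      G.mat * h' + h' * G.mat = x • (1 : Matrix ι' ι' R) := by
  refine ⟨r.A * h * r.B, fun a b hab => ?_, ?_⟩
  · rw [Matrix.mul_apply] at hab
    obtain ⟨c, -, hc⟩ := Finset.exists_ne_zero_of_sum_ne_zero hab
    have hB := right_ne_zero_of_mul hc
    have hc2 := left_ne_zero_of_mul hc
    rw [Matrix.mul_apply] at hc2
    obtain ⟨d, -, hd2⟩ := Finset.exists_ne_zero_of_sum_ne_zero hc2
    rw [r.dA _ _ (left_ne_zero_of_mul hd2), hd _ _ (right_ne_zero_of_mul hd2), r.dB _ _ hB]
  · have h1 : G.mat * (r.A * h * r.B) + r.A * h * r.B * G.mat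
        = r.A * (K.mat * h + h * K.mat) * r.B := by
      rw [← Matrix.mul_assoc, ← Matrix.mul_assoc, ← r.hA, Matrix.mul_assoc (r.A * h), ← r.hB]
      simp only [Matrix.mul_add, Matrix.add_mul, Matrix.mul_assoc]
    rw [h1, hh, Matrix.mul_smul, Matrix.mul_one, Matrix.smul_mul, r.hAB]

/-- for a minimal complex the homology with coefficients in the residue field is everything -/
theorem Hc_residue {R : Type u} [CommRing R] [IsLocalRing R] {ι : Type} [Fintype ι]
    (G : FCx R ι) (hG : ∀ a b, G.mat a b ∈ maximalIdeal R) (j : ℤ) :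
    Hc G (R ⧸ maximalIdeal R) j = ((Finset.univ.filter (fun a => G.deg a = j)).card : ℕ∞) := by
  classical
  have hz : ∀ x : ι → R ⧸ maximalIdeal R, act G.mat (R ⧸ maximalIdeal R) x = 0 := by
    intro x
    funext a
    rw [v2_act_apply]
    refine Finset.sum_eq_zero fun b _ => ?_
    obtain ⟨y, hy⟩ := Ideal.Quotient.mk_surjective (x b)
    rw [← hy]
    have h1 : G.mat a b • (Ideal.Quotient.mk (maximalIdeal R) y)
        = Ideal.Quotient.mk (maximalIdeal R) (G.mat a b * y) := by
      rw [map_mul]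
      rfl
    rw [h1, Ideal.Quotient.eq_zero_iff_mem]
    exact Ideal.mul_mem_right _ _ (hG a b)
  have hsimple : Module.length R (R ⧸ maximalIdeal R) = 1 := by
    rw [Module.length_eq_one_iff, isSimpleModule_iff_isCoatom]
    exact (maximalIdeal.isMaximal R).out
  have hlen : Module.length R (degPart G (R ⧸ maximalIdeal R) j)
      = ((Finset.univ.filter (fun a => G.deg a = j)).card : ℕ∞) := by
    let e : degPart G (R ⧸ maximalIdeal R) j ≃ₗ[R]
        ({a // G.deg a = j} → R ⧸ maximalIdeal R) :=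
      { toFun := fun x a => x.1 a.1
        map_add' := fun x y => rfl
        map_smul' := fun c x => rfl
        invFun := fun y => ⟨fun a => if h : G.deg a = j then y ⟨a, h⟩ else 0, fun a ha => by
          exact dif_neg ha⟩
        left_inv := fun x => by
          ext a
          by_cases h : G.deg a = j
          · simp [h]
          · simp only [h, dif_neg, not_false_iff]
            exact (x.2 a h).symm
        right_inv := fun y => by
          funext a
          simp [a.2] }
    rw [e.length_eq, Module.length_pi_of_fintype]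
    simp only [hsimple, Finset.sum_const, nsmul_eq_mul, mul_one, Finset.card_univ]
    rw [Fintype.card_subtype]
  unfold Hc hl
  rw [← hlen]
  have hN : botF R (ι → R ⧸ maximalIdeal R) j ⊔
      (degPart G (R ⧸ maximalIdeal R) (j + 1)).map (act G.mat (R ⧸ maximalIdeal R)) = ⊥ := by
    rw [eq_bot_iff]
    intro x hx
    rw [v2_mem_N] at hx
    obtain ⟨y, -, rfl⟩ := hx
    rw [hz]
    exact Submodule.zero_mem _
  have hP : degPart G (R ⧸ maximalIdeal R) j ⊓
      (botF R (ι → R ⧸ maximalIdeal R) (j - 1)).comap (act G.mat (R ⧸ maximalIdeal R))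
        = degPart G (R ⧸ maximalIdeal R) j := by
    ext x
    rw [v2_mem_P]
    exact ⟨fun h => h.1, fun h => ⟨h, hz x⟩⟩
  rw [hN, hP]
  unfold rlen
  have h0 : (⊥ : Submodule R (ι → R ⧸ maximalIdeal R)).submoduleOf
      (degPart G (R ⧸ maximalIdeal R) j) = ⊥ := by
    ext x
    rw [v2_mem_sub, Submodule.mem_bot, Submodule.mem_bot]
    exact ⟨fun h => Subtype.ext h, fun h => by rw [h]; rfl⟩
  exact (Submodule.quotEquivOfEqBot _ h0).length_eq

end Vale.Agent.P202C.V
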