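import Vale.Agent.P202C.SI
import Vale.Agent.P202C.V1
import Vale.Agent.P202C.V2

/-!
P202 parts (V) and (VI) (helper19): the minimal Koszul model of a finite free extension and its
Euler characteristics.
-/

set_option autoImplicit false

namespace Vale.Agent.P202C.SA

open IsLocalRing Vale.Agent.P202C Vale.Agent.P202C.V

universe u v w

section Transfer

variable {R : Type u} [CommRing R] {X : Type v} [AddCommGroup X] [Module R X] {Y : Type w}
  [AddCommGroup Y] [Module R Y]

theorem kdF_map (f : X →ₗ[R] Y) : ∀ (n : ℕ) (z : Fin n → (X →ₗ[R] X)) (w : Fin n → (Y →ₗ[R] Y)),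
    (∀ i x, f (z i x) = w i (f x)) → ∀ (v : KI n → X) (k : KI n),
      f (kdF n z v k) = kdF n w (fun k => f (v k)) k
  | 0, _, _, _, _, _ => map_zero f
  | n + 1, z, w, h, v, Sum.inl k => by
    change f (kdF n (fun i => z i.succ) (fun k => v (Sum.inl k)) k + z 0 (v (Sum.inr k))) =
      kdF n (fun i => w i.succ) (fun k => f (v (Sum.inl k))) k + w 0 (f (v (Sum.inr k)))
    rw [map_add, h 0, kdF_map f n _ (fun i => w i.succ) (fun i => h i.succ)]
  | n + 1, z, w, h, v, Sum.inr k => by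
    change f (-(kdF n (fun i => z i.succ) (fun k => v (Sum.inr k)) k)) =
      -(kdF n (fun i => w i.succ) (fun k => f (v (Sum.inr k))) k)
    rw [map_neg, kdF_map f n _ (fun i => w i.succ) (fun i => h i.succ)]

theorem good_kdF {n : ℕ} {z : Fin n → (X →ₗ[R] X)} (hz : ∀ i j x, z i (z j x) = z j (z i x)) :
    (∀ v, kdF n z (kdF n z v) = 0) ∧
      ∀ P : Submodule R X, (∀ i, ∀ x ∈ P, z i x ∈ P) → Stab (kdF n z) (Fm (kdeg n) P) := by
  have key : ∀ (l : List (X →ₗ[R] X)) (hn : l.length = n) (hl : ∀ i, z i = l.get (i.cast hn.symm)),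
      Cm l → ((∀ v, kdF n z (kdF n z v) = 0) ∧
      ∀ P : Submodule R X, St l P → Stab (kdF n z) (Fm (kdeg n) P)) := by
    intro l hn hl hC
    subst hn
    have hz' : z = l.get := funext hl
    rw [hz', ← kd_eq_kdF]
    exact ⟨(good_kd l hC).dd, (good_kd l hC).stab⟩
  have h := key (List.ofFn z) (List.length_ofFn) (fun i => by simp) (Cm_ofFn hz)
  refine ⟨h.1, fun P hP => h.2 P ?_⟩
  intro y hy x hx
  obtain ⟨i, rfl⟩ := (List.mem_ofFn' _ _).1 hy
  exact hP i x hx

/-- isomorphic coefficient modules have the same Koszul homology -/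
theorem Hk_iso {n : ℕ} {z : Fin n → (X →ₗ[R] X)} {w : Fin n → (Y →ₗ[R] Y)} (e : X ≃ₗ[R] Y)
    (he : ∀ i x, e (z i x) = w i (e x)) (hz : ∀ i j x, z i (z j x) = z j (z i x))
    (hw : ∀ i j x, w i (w j x) = w j (w i x)) (j : ℤ) :
    Hk (List.ofFn z) ⊤ ⊥ j = Hk (List.ofFn w) ⊤ ⊥ j := by
  rw [← Hk_eq_kdF _ _ _ z rfl, ← Hk_eq_kdF _ _ _ w rfl]
  refine Hl_transfer ((e : X →ₗ[R] Y).compLeft (KI n)) ?_ (good_kdF hz).1
    ((good_kdF hz).2 ⊤ (fun _ _ _ => trivial)) ((good_kdF hw).2 ⊥ (fun i x hx => by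
      rw [Submodule.mem_bot] at hx ⊢
      rw [hx, map_zero])) ?_ ?_ j
  · intro v
    funext k
    exact kdF_map (e : X →ₗ[R] Y) n z w he v k
  · intro i
    apply le_antisymm
    · intro v hv
      refine Submodule.mem_sup_left ⟨fun k => e.symm (v k), fun k => ⟨trivial, fun hk => ?_⟩, ?_⟩
      · change e.symm (v k) = 0
        rw [(hv k).2 hk, map_zero]
      · funext k
        exact e.apply_symm_apply (v k)
    · refine sup_le ?_ (Fm_mono bot_le _)
      rintro _ ⟨v, hv, rfl⟩ k
      refine ⟨trivial, fun hk => ?_⟩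
      change e (v k) = 0
      rw [(hv k).2 hk, map_zero]
  · intro i
    ext v
    constructor
    · rintro ⟨hv1, hv2⟩ k
      have h1 : e (v k) ∈ (⊥ : Submodule R Y) := (hv2 k).1
      rw [Submodule.mem_bot] at h1
      exact ⟨by rw [Submodule.mem_bot]; exact e.map_eq_zero_iff.1 h1, (hv1 k).2⟩
    · intro hv
      refine ⟨fun k => ⟨trivial, (hv k).2⟩, fun k => ?_⟩
      have h1 : v k = 0 := (hv k).1
      refine ⟨?_, fun _ => ?_⟩
      · change e (v k) ∈ (⊥ : Submodule R Y)
        rw [h1, map_zero]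
        exact Submodule.zero_mem _
      · change e (v k) = 0
        rw [h1, map_zero]

theorem rl_top_bot (M : Type v) [AddCommGroup M] [Module R M] :
    rl (⊤ : Submodule R M) ⊥ = Module.length R M := by
  unfold rl
  have h : (⊥ : Submodule R M).submoduleOf ⊤ = ⊥ := by
    ext x
    constructor
    · intro hx
      have : (x : M) = 0 := hx
      exact (Submodule.mem_bot R).2 (Subtype.ext this)
    · intro hx
      rw [(Submodule.mem_bot R).1 hx]
      exact Submodule.zero_mem _
  exact ((Submodule.quotEquivOfEqBot _ h).trans Submodule.topEquiv).length_eq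

theorem rl_top_surj (f : X →ₗ[R] Y) (hf : Function.Surjective f) (T : Submodule R Y) :
    rl (⊤ : Submodule R Y) T = rl ⊤ (T.comap f) := by
  have h := rl_map f ⊤ T
  rw [Submodule.map_top, LinearMap.range_eq_top.2 hf, top_sup_eq, top_inf_eq] at h
  exact h

theorem rl_top_quot (f : X →ₗ[R] Y) (hf : Function.Surjective f) :
    rl (⊤ : Submodule R X) (LinearMap.ker f) = Module.length R Y := by
  rw [← rl_top_bot, rl_top_surj f hf]
  rfl

/-- the lowest basis element of the Koszul complex -/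
def kbot : (n : ℕ) → KI n
  | 0 => ()
  | n + 1 => Sum.inl (kbot n)

theorem kdeg_zero : ∀ (n : ℕ) (k : KI n), kdeg n k = 0 → k = kbot n
  | 0, _, _ => rfl
  | n + 1, Sum.inl k, h => congrArg Sum.inl (kdeg_zero n k h)
  | n + 1, Sum.inr k, h => by
    have h1 : kdeg n k + 1 = 0 := h
    have := (kdeg_bd n k).1
    omega

theorem kdeg_kbot : ∀ (n : ℕ), kdeg n (kbot n) = 0
  | 0 => rfl
  | n + 1 => kdeg_kbot n

theorem kd_kbot : ∀ (l : List (X →ₗ[R] X)) (v : KI l.length → X),
    kd l v (kbot l.length) ∈ sumM l ⊤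
  | [], _ => Submodule.zero_mem _
  | z :: l, v => by
    change kd l (fun k => v (Sum.inl k)) (kbot l.length) + z (v (Sum.inr (kbot l.length))) ∈
      Submodule.map z ⊤ ⊔ sumM l ⊤
    exact Submodule.add_mem _ (Submodule.mem_sup_right (kd_kbot l _))
      (Submodule.mem_sup_left ⟨_, trivial, rfl⟩)

theorem H0_ge (l : List (X →ₗ[R] X)) (hC : Cm l) : rl ⊤ (sumM l ⊤) ≤ Hk l ⊤ ⊥ 0 := by
  classical
  have g := good_kd l hC
  have hTop : St l (⊤ : Submodule R X) := fun _ _ _ _ => trivial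
  have hBot : St l (⊥ : Submodule R X) := fun z _ x hx => by
    rw [Submodule.mem_bot] at hx ⊢
    rw [hx, map_zero]
  let f : (KI l.length → X) →ₗ[R] X := LinearMap.proj (kbot l.length)
  have h := rl_map f (Zc (kd l) (Fm (kdeg l.length) ⊤) (Fm (kdeg l.length) ⊥) 0) (sumM l ⊤)
  have h1 : (Zc (kd l) (Fm (kdeg l.length) (⊤ : Submodule R X))
      (Fm (kdeg l.length) ⊥) 0).map f ⊔ sumM l ⊤ = ⊤ := by
    rw [eq_top_iff]
    intro x _
    have h2 : (Pi.single (kbot l.length) x : KI l.length → X) ∈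
        Fm (kdeg l.length) (⊤ : Submodule R X) 0 := by
      refine fun k => ⟨trivial, fun hk => ?_⟩
      refine Pi.single_eq_of_ne ?_ _
      rintro rfl
      exact hk (kdeg_kbot _)
    refine Submodule.mem_sup_left ⟨Pi.single (kbot l.length) x, ⟨h2, fun k => ?_⟩,
      Pi.single_eq_same (M := fun _ : KI l.length => X) _ _⟩
    have h3 := g.stab ⊤ hTop 0 _ h2
    have h4 := (kdeg_bd l.length k).1
    have h5 : kd l (Pi.single (kbot l.length) x) k = 0 := (h3 k).2 (by omega)
    exact ⟨(Submodule.mem_bot R).2 h5, fun _ => h5⟩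
  rw [h1] at h
  rw [h]
  refine rl_mono_right (le_inf ?_ ?_) inf_le_left
  · exact Bd_le_Zc g.dd (g.stab ⊤ hTop) (g.stab ⊥ hBot) (Fm_mono bot_le) 0
  · intro v hv
    obtain ⟨b, hb, a, _, rfl⟩ := mem_Bd.1 hv
    have hb0 : b = 0 := by
      funext k
      exact (hb k).1
    rw [hb0, zero_add]
    exact kd_kbot l a

end Transfer

section Ring

variable (R : Type u) [CommRing R] {S : Type v} [CommRing S] [Algebra R S]

/-- multiplication operators -/
def mulE (s : S) : S →ₗ[R] S := LinearMap.mulLeft R s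

theorem mulE_apply (s x : S) : mulE R s x = s * x := rfl

theorem Cm_mulE (rs : List S) : Cm (rs.map (mulE R)) := by
  intro a ha b hb x
  obtain ⟨s, _, rfl⟩ := List.mem_map.1 ha
  obtain ⟨t, _, rfl⟩ := List.mem_map.1 hb
  rw [mulE_apply, mulE_apply, mulE_apply, mulE_apply]
  ring

theorem St_mulE (rs : List S) (I : Ideal S) : St (rs.map (mulE R)) (I.restrictScalars R) := by
  intro a ha x hx
  obtain ⟨s, _, rfl⟩ := List.mem_map.1 ha
  exact I.mul_mem_left s hx

theorem map_mulE_sup (r : S) (I : Ideal S) :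
    (⊤ : Submodule R S).map (mulE R r) ⊔ I.restrictScalars R =
      (I ⊔ Ideal.span {r}).restrictScalars R := by
  apply le_antisymm
  · refine sup_le ?_ ?_
    · rintro _ ⟨x, _, rfl⟩
      change r * x ∈ I ⊔ Ideal.span {r}
      exact Submodule.mem_sup_right (Ideal.mem_span_singleton.2 ⟨x, rfl⟩)
    · intro x hx
      exact Submodule.mem_sup_left hx
  · intro x hx
    have hx' : x ∈ I ⊔ Ideal.span {r} := hx
    obtain ⟨a, ha, b, hb, rfl⟩ := Submodule.mem_sup.1 hx'
    obtain ⟨c, rfl⟩ := Ideal.mem_span_singleton.1 hb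
    rw [add_comm]
    exact Submodule.add_mem _ (Submodule.mem_sup_left ⟨c, trivial, rfl⟩)
      (Submodule.mem_sup_right ha)

theorem sumM_mulE (rs : List S) : ∀ I : Ideal S,
    sumM (rs.map (mulE R)) ⊤ ⊔ I.restrictScalars R = (I ⊔ Ideal.ofList rs).restrictScalars R := by
  induction rs with
  | nil =>
    intro I
    change ⊥ ⊔ I.restrictScalars R = _
    rw [bot_sup_eq, Ideal.ofList_nil, sup_bot_eq]
  | cons r rs ih =>
    intro I
    change ((⊤ : Submodule R S).map (mulE R r) ⊔ sumM (rs.map (mulE R)) ⊤) ⊔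
      I.restrictScalars R = _
    rw [sup_comm ((⊤ : Submodule R S).map (mulE R r)), sup_assoc, map_mulE_sup, ih,
      Ideal.ofList_cons, sup_assoc]

theorem Hk_regular (rs : List S) : ∀ I : Ideal S,
    (∀ i (hi : i < rs.length), ∀ x, rs[i] * x ∈ I ⊔ Ideal.ofList (rs.take i) →
      x ∈ I ⊔ Ideal.ofList (rs.take i)) →
    Hk (rs.map (mulE R)) ⊤ (I.restrictScalars R) 0 =
      rl ⊤ ((I ⊔ Ideal.ofList rs).restrictScalars R) ∧
    ∀ j, j ≠ 0 → Hk (rs.map (mulE R)) ⊤ (I.restrictScalars R) j = 0 := by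
  induction rs with
  | nil =>
    intro I _
    constructor
    · change Hk [] ⊤ (I.restrictScalars R) 0 = _
      rw [Hk_nil _ _ le_top, Ideal.ofList_nil, sup_bot_eq]
    · intro j hj
      exact Hk_out [] _ _ (by
        rcases lt_or_gt_of_ne hj with h | h
        · exact Or.inl h
        · exact Or.inr (by simpa using h))
  | cons r rs ih =>
    intro I h
    have hC := Cm_mulE R (r :: rs)
    have h0 := h 0 (by simp)
    rw [List.take_zero, Ideal.ofList_nil, sup_bot_eq, List.getElem_cons_zero] at h0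
    have key : ∀ j, Hk ((r :: rs).map (mulE R)) ⊤ (I.restrictScalars R) j =
        Hk (rs.map (mulE R)) ⊤ ((I ⊔ Ideal.span {r}).restrictScalars R) j := by
      intro j
      rw [← map_mulE_sup]
      exact Hk_inj hC le_top (fun _ _ _ _ => trivial) (St_mulE R (r :: rs) I)
        (fun x _ hx => h0 x hx) j
    have ih' := ih (I ⊔ Ideal.span {r}) (by
      intro i hi x hx
      have h1 := h (i + 1) (by simpa using hi) x
      rw [List.take_succ_cons, Ideal.ofList_cons, ← sup_assoc, List.getElem_cons_succ] at h1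
      exact h1 hx)
    refine ⟨?_, fun j hj => by rw [key]; exact ih'.2 j hj⟩
    rw [key, ih'.1, Ideal.ofList_cons, sup_assoc]

end Ring

end Vale.Agent.P202C.SA
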