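import Vale.Agent.P202C.F5b
import Vale.Agent.P202C.MainIneq
import Vale.Agent.P202C.SM

/-!
P202 in characteristic p, F5 (helper19): Euler characteristics of the Koszul complex of a flat local
extension with coefficients in `S ⊗ N`.
-/

set_option autoImplicit false

namespace Vale.Agent.P202C.SA

open IsLocalRing Vale.Agent.P202C Vale.Agent.P202C.V TensorProduct

universe u v w

section

variable {R : Type u} [CommRing R] [IsLocalRing R] [IsNoetherianRing R]
  {S : Type v} [CommRing S] [IsLocalRing S] [IsNoetherianRing S] [Algebra R S]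
  [Module.Flat R S] [IsLocalHom (algebraMap R S)]

theorem xiS_add {D : ℕ} (z : Fin D → S)
    (hzl : Module.length S (S ⧸ Ideal.span (Set.range z)) ≠ ⊤)
    (N₁ N₂ N₃ : Type u) [AddCommGroup N₁] [Module R N₁] [Module.Finite R N₁]
    [AddCommGroup N₂] [Module R N₂] [Module.Finite R N₂]
    [AddCommGroup N₃] [Module R N₃] [Module.Finite R N₃] (g : N₁ →ₗ[R] N₂) (h : N₂ →ₗ[R] N₃)
    (hg : Function.Injective g) (hh : Function.Surjective h) (hgh : Function.Exact g h) :
    chG (kosS z) (S ⊗[R] N₂) D = chG (kosS z) (S ⊗[R] N₁) D + chG (kosS z) (S ⊗[R] N₃) D := by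
  refine (chG_add (kosS z) D (kosS_deg z) (g.baseChange S) (h.baseChange S) ?_ ?_ ?_
    (kosS_fin z hzl _) (kosS_fin z hzl _)).2
  · exact Module.Flat.lTensor_preserves_injective_linearMap (M := S) g hg
  · exact LinearMap.lTensor_surjective S hh
  · exact lTensor_exact S hgh hh

theorem xiS_equiv {D : ℕ} (z : Fin D → S) {N N' : Type u} [AddCommGroup N] [Module R N]
    [AddCommGroup N'] [Module R N'] (e : N ≃ₗ[R] N') :
    chG (kosS z) (S ⊗[R] N) D = chG (kosS z) (S ⊗[R] N') D :=
  chG_equiv (kosS z) (e.baseChange R S N N') D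

theorem xiS_van {D : ℕ} (z : Fin D → S)
    (hzl : Module.length S (S ⧸ Ideal.span (Set.range z)) ≠ ⊤)
    (hfib : Module.length S (S ⧸ (maximalIdeal R).map (algebraMap R S)) ≠ ⊤)
    (N : Type u) [AddCommGroup N] [Module R N] [hN : Module.Finite R N] (hd : dimM R D N) :
    chG (kosS z) (S ⊗[R] N) D = 0 := by
  revert hd
  induction hN using IsNoetherianRing.induction_on_isQuotientEquivQuotientPrime R with
  | subsingleton N =>
    intro _
    have : Subsingleton (S ⊗[R] N) := inferInstance
    exact chG_subsingleton _ _ _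
  | quotient N q ε =>
    intro hd
    rw [xiS_equiv z ε]
    refine kosS_van z hzl _ (dim_prime hfib q.asIdeal ?_ _ ?_)
    · intro c hc
      exact hd c fun i => by
        rw [ε.support_eq]
        exact hc i
    · intro r hr v
      induction v using TensorProduct.induction_on with
      | zero => rw [smul_zero]
      | tmul s n =>
        rw [TensorProduct.smul_tmul', smul_eq_mul, ← Algebra.smul_def, TensorProduct.smul_tmul]
        have : r • n = 0 := by
          obtain ⟨x, rfl⟩ := Ideal.Quotient.mk_surjective n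
          change Ideal.Quotient.mk q.asIdeal (r * x) = 0
          exact Ideal.Quotient.eq_zero_iff_mem.2 (Ideal.mul_mem_right _ _ hr)
        rw [this, TensorProduct.tmul_zero]
      | add a b ha hb => rw [smul_add, ha, hb, add_zero]
  | exact N₁ N₂ N₃ f g hf hg hfg h₁ h₃ =>
    intro hd
    have h4 : ∀ {A : Type u} [AddCommGroup A] [Module R A],
        (Module.support R A ⊆ Module.support R N₂) → dimM R D A :=
      fun hs c hc => hd c fun i => hs (hc i)
    rw [xiS_add z hzl N₁ N₂ N₃ f g hf hg hfg, h₁ (h4 (Module.support_subset_of_injective f hf)),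
      h₃ (h4 (Module.support_subset_of_surjective g hg)), add_zero]

/-- the additive function `N ↦ χ(z; S ⊗ N)` -/
noncomputable def xiS {D : ℕ} (z : Fin D → S)
    (hzl : Module.length S (S ⧸ Ideal.span (Set.range z)) ≠ ⊤)
    (hfib : Module.length S (S ⧸ (maximalIdeal R).map (algebraMap R S)) ≠ ⊤) : Xi R D where
  f N _ _ := chG (kosS z) (S ⊗[R] N) D
  add N₁ N₂ N₃ _ _ _ _ _ _ _ _ _ g h hg hh hgh := xiS_add z hzl N₁ N₂ N₃ g h hg hh hgh
  van N _ _ _ hd := xiS_van z hzl hfib N hd

theorem chG_baseChange {D : ℕ} {ι : Type} [Fintype ι] (G : FCx S ι) {X : Type w} [AddCommGroup X]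
    [Module R X] (N : Submodule R X) : 
    (∀ j, Hc G (N.baseChange S) j = Hc G (S ⊗[R] N) j) ∧
      chG G (N.baseChange S) D = chG G (S ⊗[R] N) D := by
  have hinj : Function.Injective (N.subtype.baseChange S) :=
    Module.Flat.lTensor_preserves_injective_linearMap (M := S) N.subtype N.subtype_injective
  have e : (S ⊗[R] N) ≃ₗ[S] N.baseChange S := LinearEquiv.ofInjective (N.subtype.baseChange S) hinj
  exact ⟨fun j => (Hc_equiv G e j).symm, (chG_equiv G e D).symm⟩

/-- the twist of a submodule -/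
def v3SubEquiv {A : Type u} [CommRing A] (φ : A →+* A) {M : Type v} [AddCommGroup M] [Module A M]
    (N : Submodule A M) : v3Sub φ N ≃ₗ[A] Tw φ N where
  toFun x := (⟨x.1, x.2⟩ : N)
  map_add' := fun _ _ => rfl
  map_smul' := fun _ _ => rfl
  invFun x := ⟨(show N from x).1, (show N from x).2⟩
  left_inv := fun _ => rfl
  right_inv := fun _ => rfl

/-- F5 -/
theorem F5_main (p : ℕ) [Fact p.Prime] [CharP R p] (hF : (frobenius R p).Finite)
    (hfib : Module.length S (S ⧸ (maximalIdeal R).map (algebraMap R S)) ≠ ⊤)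
    (D : ℕ) (hD : ringKrullDim R = D) (z : Fin D → S)
    (hzl : Module.length S (S ⧸ Ideal.span (Set.range z)) ≠ ⊤)
    (N : Type u) [AddCommGroup N] [Module R N] [Module.Finite R N] (m : ℕ)
    (f : N →ₗ[R] (Fin m → R)) (hf : Function.Injective f) (y : R) (hy : y ∈ nonZeroDivisors R)
    (k : ℕ) (h : ∀ v : Fin m → R, y ^ k • v ∈ LinearMap.range f) (e : ℕ) :
    (∀ j, Hc (kosS z) (S ⊗[R] Tw (iterateFrobenius R p e) N) j ≠ ⊤) ∧
    MI.chiG (kosS z) (S ⊗[R] Tw (iterateFrobenius R p e) N) D =
      ((twc (iterateFrobenius R p e)).toNat : ℤ) * ((p : ℤ) ^ (e * D) *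
        (m * MI.chiG (kosS z) S D)) := by
  have hR : ∀ c : LTSeries (PrimeSpectrum R), c.length ≤ D := by
    intro c
    have h := Order.LTSeries.length_le_krullDim c
    have h2 : (c.length : WithBot ℕ∞) ≤ (D : WithBot ℕ∞) := by
      rw [← hD]
      exact h
    exact_mod_cast h2
  have hφ := iterateFrobenius_finite p hF e
  have i1 := Tw_finite (iterateFrobenius R p e) hφ N
  refine ⟨kosS_fin z hzl _, ?_⟩
  have h1 := xi_frob p hF e D hD hR (xiS z hzl hfib) N
  rw [(xiS z hzl hfib).sub_free hR m f hf y hy k h] at h1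
  have h2 : chG (kosS z) (S ⊗[R] R) D = chG (kosS z) S D :=
    chG_equiv (kosS z) (TensorProduct.AlgebraTensorModule.rid R S S) D
  change chG (kosS z) (S ⊗[R] Tw (iterateFrobenius R p e) N) D = _ * (_ * (_ *
    chG (kosS z) S D))
  rw [← h2]
  exact h1

omit [Module.Flat R S] in
/-- the fibre -/
theorem F5_fibre (hfib : Module.length S (S ⧸ (maximalIdeal R).map (algebraMap R S)) ≠ ⊤)
    {D : ℕ} (hD : 1 ≤ D) (z : Fin D → S) (hz : ∀ l, z l ∈ maximalIdeal S)
    (hzl : Module.length S (S ⧸ Ideal.span (Set.range z)) ≠ ⊤) :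
    (∀ j, Hc (kosS z) (S ⧸ (maximalIdeal R).map (algebraMap R S)) j ≠ ⊤) ∧
    MI.chiG (kosS z) (S ⧸ (maximalIdeal R).map (algebraMap R S)) D = 0 ∧
    1 ≤ Hc (kosS z) (S ⧸ (maximalIdeal R).map (algebraMap R S)) 0 := by
  refine ⟨kosS_fin z hzl _, ?_, ?_⟩
  · refine kosS_van z hzl _ (dimM_of_dimlt' ?_)
    have h1 : dimlt 1 (⊤ : Submodule S (S ⧸ (maximalIdeal R).map (algebraMap R S))) ⊥ :=
      w2_dimlt_one (by
        rw [rl_top_bot]
        exact hfib)
    exact fun c hc => lt_of_lt_of_le (h1 c hc) hD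
  · have hle : (maximalIdeal R).map (algebraMap R S) ≤ maximalIdeal S := by
      rw [Ideal.map_le_iff_le_comap]
      intro r hr
      change algebraMap R S r ∈ maximalIdeal S
      rw [IsLocalRing.mem_maximalIdeal, mem_nonunits_iff]
      intro hu
      exact (IsLocalRing.mem_maximalIdeal _).1 hr (isUnit_of_map_unit (algebraMap R S) _ hu)
    unfold kosS
    rw [Hc_kos]
    have hC := Cm_ofFn (R := S)
      (z := endo (S ⧸ (maximalIdeal R).map (algebraMap R S))
        (fun i => z i • (1 : Matrix Unit Unit S))) (endo_comm _ (scalar_comm z))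
    refine le_trans ?_ (H0_ge _ hC)
    rw [Order.one_le_iff_ne_zero]
    intro h0
    have h1 := w2_le_of_rl_zero h0
    let π : (Unit → S ⧸ (maximalIdeal R).map (algebraMap R S)) →ₗ[S] (S ⧸ maximalIdeal S) :=
      (Submodule.mapQ ((maximalIdeal R).map (algebraMap R S)) (maximalIdeal S) LinearMap.id hle) ∘ₗ
        LinearMap.proj ()
    have h2 : sumM (List.ofFn (endo (S ⧸ (maximalIdeal R).map (algebraMap R S))
        (fun i => z i • (1 : Matrix Unit Unit S)))) ⊤ ≤ LinearMap.ker π := by
      refine sumM_ofFn_le _ _ _ fun i x _ => ?_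
      rw [LinearMap.mem_ker]
      have h3 : endo (S ⧸ (maximalIdeal R).map (algebraMap R S))
          (fun i => z i • (1 : Matrix Unit Unit S)) i x = z i • x := by
        change act (z i • (1 : Matrix Unit Unit S)) _ x = z i • x
        rw [act_smul, act_one]
      rw [h3, map_smul]
      obtain ⟨y, hy⟩ := Submodule.Quotient.mk_surjective _ (π x)
      rw [← hy, ← Submodule.Quotient.mk_smul, Submodule.Quotient.mk_eq_zero]
      exact Ideal.mul_mem_right _ _ (hz i)
    have h3 := h2 (h1 (show (fun _ => Submodule.Quotient.mk 1 :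
      Unit → S ⧸ (maximalIdeal R).map (algebraMap R S)) ∈ ⊤ from trivial))
    rw [LinearMap.mem_ker] at h3
    have h4 : (Submodule.Quotient.mk 1 : S ⧸ maximalIdeal S) = 0 := h3
    rw [Submodule.Quotient.mk_eq_zero] at h4
    exact (IsLocalRing.mem_maximalIdeal _).1 h4 isUnit_one

end

end Vale.Agent.P202C.SA
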