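import Vale.Agent.P202C.SI

/-!
P202 in characteristic p, F5 (helper19), part a: additive functions on finite modules with Serre
vanishing (Xi), the rank and Frobenius formulas for them.
-/

set_option autoImplicit false

namespace Vale.Agent.P202C.SA

open IsLocalRing Vale.Agent.P202C Vale.Agent.P202C.V

universe u v w

/-- an additive function on finite `R`-modules vanishing on modules of dimension `< D` -/
structure Xi (R : Type u) [CommRing R] (D : ℕ) where
  f : (N : Type u) → [AddCommGroup N] → [Module R N] → ℤ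
  add : ∀ (N₁ N₂ N₃ : Type u) [AddCommGroup N₁] [Module R N₁] [Module.Finite R N₁]
    [AddCommGroup N₂] [Module R N₂] [Module.Finite R N₂]
    [AddCommGroup N₃] [Module R N₃] [Module.Finite R N₃] (g : N₁ →ₗ[R] N₂) (h : N₂ →ₗ[R] N₃),
    Function.Injective g → Function.Surjective h → Function.Exact g h → f N₂ = f N₁ + f N₃
  van : ∀ (N : Type u) [AddCommGroup N] [Module R N] [Module.Finite R N], dimM R D N → f N = 0

section

variable {R : Type u} [CommRing R] {D : ℕ} (ξ : Xi R D)

theorem dimM_subsingleton (D : ℕ) (N : Type v) [AddCommGroup N] [Module R N] [Subsingleton N] :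
    dimM R D N := by
  intro c hc
  have h := hc 0
  rw [Module.support_eq_empty] at h
  exact absurd h (Set.notMem_empty _)

theorem Xi.zero (N : Type u) [AddCommGroup N] [Module R N] [Subsingleton N] : ξ.f N = 0 := by
  have : Module.Finite R N := inferInstance
  exact ξ.van N (dimM_subsingleton D N)

theorem Xi.equiv {N N' : Type u} [AddCommGroup N] [Module R N] [Module.Finite R N]
    [AddCommGroup N'] [Module R N'] [Module.Finite R N'] (e : N ≃ₗ[R] N') : ξ.f N = ξ.f N' := by
  have h := ξ.add N N' PUnit (e : N →ₗ[R] N') 0 e.injective (fun _ => ⟨0, rfl⟩) (by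
    intro x
    exact ⟨fun _ => ⟨e.symm x, e.apply_symm_apply x⟩, fun _ => rfl⟩)
  rw [h, ξ.zero PUnit, add_zero]

theorem Xi.pow (V : Type u) [AddCommGroup V] [Module R V] [Module.Finite R V] (m : ℕ) :
    ξ.f (Fin m → V) = m * ξ.f V := by
  induction m with
  | zero =>
    rw [ξ.zero]
    simp
  | succ m ih =>
    let f : V →ₗ[R] (Fin (m + 1) → V) :=
      { toFun := fun v => Fin.cons v 0
        map_add' := fun v w => by
          funext k
          refine Fin.cases ?_ (fun k => ?_) k
          · rfl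
          · exact (add_zero (0 : V)).symm
        map_smul' := fun r v => by
          funext k
          refine Fin.cases ?_ (fun k => ?_) k
          · rfl
          · exact (smul_zero r).symm }
    have this := ξ.add V (Fin (m + 1) → V) (Fin m → V) f
      (LinearMap.funLeft R V (Fin.succ : Fin m → Fin (m + 1)))
      (fun v w hvw => congrFun hvw 0)
      (LinearMap.funLeft_surjective_of_injective R V _ (Fin.succ_injective m))
      (by
        intro x
        constructor
        · intro hx
          refine ⟨x 0, ?_⟩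
          funext k
          refine Fin.cases ?_ (fun k => ?_) k
          · rfl
          · exact (congrFun hx k).symm
        · rintro ⟨y, rfl⟩
          rfl)
    rw [this, ih]
    push_cast
    ring

theorem Xi.of_sub [IsNoetherianRing R] {U V : Type u} [AddCommGroup U] [Module R U]
    [Module.Finite R U] [AddCommGroup V] [Module R V] [Module.Finite R V] (f : U →ₗ[R] V)
    (hf : Function.Injective f) (h : dimM R D (V ⧸ LinearMap.range f)) : ξ.f U = ξ.f V := by
  have := ξ.add U V (V ⧸ LinearMap.range f) f (LinearMap.range f).mkQ hf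
    (Submodule.mkQ_surjective _) (LinearMap.exact_map_mkQ_range f)
  rw [this, ξ.van _ h, add_zero]

theorem dimM_coker [IsNoetherianRing R]
    (hR : ∀ c : LTSeries (PrimeSpectrum R), c.length ≤ D)
    {V : Type u} [AddCommGroup V] [Module R V] (m : ℕ)
    (f : V →ₗ[R] (Fin m → R)) (y : R) (hy : y ∈ nonZeroDivisors R)
    (N : ℕ) (h : ∀ v : Fin m → R, y ^ N • v ∈ LinearMap.range f) :
    dimM R D ((Fin m → R) ⧸ LinearMap.range f) := by
  refine dimM_of_lt hR _ fun p hp => ?_
  have hyp : y ∈ p.asIdeal := by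
    obtain ⟨x, hx⟩ := (Module.mem_support_iff' (R := R)).1 hp
    by_contra hy'
    have hyN : y ^ N ∉ p.asIdeal := fun h0 => hy' (p.isPrime.mem_of_pow_mem N h0)
    apply hx (y ^ N) hyN
    obtain ⟨v, rfl⟩ := Submodule.Quotient.mk_surjective _ x
    rw [← Submodule.Quotient.mk_smul, Submodule.Quotient.mk_eq_zero]
    exact h v
  obtain ⟨q, hq, hqp⟩ := Ideal.exists_minimalPrimes_le (bot_le : (⊥ : Ideal R) ≤ p.asIdeal)
  refine ⟨⟨q, hq.1.1⟩, lt_of_le_of_ne hqp ?_⟩
  intro heq
  have hyq : y ∈ q := by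
    have : q = p.asIdeal := congrArg PrimeSpectrum.asIdeal heq
    rw [this]
    exact hyp
  have hdis := Ideal.disjoint_nonZeroDivisors_of_mem_minimalPrimes hq
  exact Set.disjoint_left.1 hdis hyq hy

theorem Xi.sub_free [IsNoetherianRing R]
    (hR : ∀ c : LTSeries (PrimeSpectrum R), c.length ≤ D)
    {V : Type u} [AddCommGroup V] [Module R V] [Module.Finite R V] (m : ℕ)
    (f : V →ₗ[R] (Fin m → R)) (hf : Function.Injective f) (y : R) (hy : y ∈ nonZeroDivisors R)
    (N : ℕ) (h : ∀ v : Fin m → R, y ^ N • v ∈ LinearMap.range f) :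
    ξ.f V = m * ξ.f R := by
  rw [ξ.of_sub f hf (dimM_coker hR m f y hy N h), ξ.pow]

theorem xi_rank [IsNoetherianRing R] (hR : ∀ c : LTSeries (PrimeSpectrum R), c.length ≤ D)
    (P : Ideal R) [hP : P.IsPrime] (V : Type u) [AddCommGroup V] [Module R V] [Module.Finite R V]
    (h : ∀ r ∈ P, ∀ v : V, r • v = 0) :
    ∃ m : ℕ, ∀ ξ : Xi R D, ξ.f V = m * ξ.f (R ⧸ P) := by
  obtain ⟨m, f, hf, c, hc, hcf⟩ := exists_free_sub P h
  refine ⟨m, fun ξ => ?_⟩
  rw [← ξ.pow (R ⧸ P) m, ξ.of_sub f hf ?_]
  refine dimM_of_lt hR _ fun p hp => ?_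
  obtain ⟨x, hx⟩ := (Module.mem_support_iff' (R := R)).1 hp
  obtain ⟨v, rfl⟩ := Submodule.Quotient.mk_surjective _ x
  have hcp : c ∈ p.asIdeal := by
    by_contra hcp
    apply hx c hcp
    rw [← Submodule.Quotient.mk_smul, Submodule.Quotient.mk_eq_zero]
    exact hcf v
  have hPp : P ≤ p.asIdeal := by
    intro r hr
    by_contra hrp
    apply hx r hrp
    rw [← Submodule.Quotient.mk_smul, h r hr v, Submodule.Quotient.mk_zero]
  exact ⟨⟨P, hP⟩, lt_of_le_of_ne hPp fun heq => hc (by
    have h1 : P = p.asIdeal := congrArg PrimeSpectrum.asIdeal heq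
    rw [h1]
    exact hcp)⟩

/-- the function given by a complex with Serre vanishing -/
noncomputable def SerreLike.xi {ι : Type} [Fintype ι] {G : FCx R ι} (hG : SerreLike G D) :
    Xi R D where
  f N _ _ := chG G N D
  add N₁ N₂ N₃ _ _ _ _ _ _ _ _ _ g h hg hh hgh :=
    (chG_add G D hG.deg g h hg hh hgh (hG.fin _) (hG.fin _)).2
  van N _ _ _ hN := hG.van N hN

end

section Frob

variable {R : Type u} [CommRing R] [IsLocalRing R] [IsNoetherianRing R]

theorem xi_frob_prime (p : ℕ) [hp : Fact p.Prime] [CharP R p]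
    (hF : (frobenius R p).Finite) (e D : ℕ) (hD : ringKrullDim R = D)
    (hR : ∀ c : LTSeries (PrimeSpectrum R), c.length ≤ D) (ξ : Xi R D) (P : Ideal R)
    [P.IsPrime] :
    ξ.f (Tw (iterateFrobenius R p e) (R ⧸ P)) =
      ((twc (iterateFrobenius R p e)).toNat : ℤ) * ((p : ℤ) ^ (e * D) * ξ.f (R ⧸ P)) := by
  have hφ := iterateFrobenius_finite p hF e
  have := Tw_finite (iterateFrobenius R p e) hφ (R ⧸ P)
  obtain ⟨m, hm⟩ := xi_rank hR P (Tw (iterateFrobenius R p e) (R ⧸ P)) (by
    intro r hr v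
    have h1 : (iterateFrobenius R p e) r ∈ P := by
      rw [iterateFrobenius_def]
      exact Ideal.pow_mem_of_mem P hr _ (pow_pos hp.out.pos e)
    change (iterateFrobenius R p e) r • (show R ⧸ P from v) = 0
    obtain ⟨x, hx⟩ := Ideal.Quotient.mk_surjective (show R ⧸ P from v)
    rw [← hx]
    change Ideal.Quotient.mk P ((iterateFrobenius R p e) r * x) = 0
    exact Ideal.Quotient.eq_zero_iff_mem.2 (Ideal.mul_mem_right _ _ h1))
  by_cases hdim : dimM R D (R ⧸ P)
  · rw [hm ξ, ξ.van _ hdim, mul_zero, mul_zero, mul_zero]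
  · obtain ⟨ι', _, G', hG', hpos, hfr⟩ := sop_complex (R := R) p e D hD
    have h1 : chG G' (Tw (iterateFrobenius R p e) (R ⧸ P)) D = m * chG G' (R ⧸ P) D := hm hG'.xi
    rw [(twist_chG hG' _ hφ (R ⧸ P)).2, hfr (R ⧸ P)] at h1
    have h2 := hpos (R ⧸ P) hdim
    have h3 : ((twc (iterateFrobenius R p e)).toNat : ℤ) * (p : ℤ) ^ (e * D) = m := by
      refine mul_right_cancel₀ h2.ne' ?_
      rw [mul_assoc]
      exact h1
    rw [hm ξ, ← h3, mul_assoc]

theorem xi_frob (p : ℕ) [hp : Fact p.Prime] [CharP R p]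
    (hF : (frobenius R p).Finite) (e D : ℕ) (hD : ringKrullDim R = D)
    (hR : ∀ c : LTSeries (PrimeSpectrum R), c.length ≤ D) (ξ : Xi R D)
    (V : Type u) [AddCommGroup V] [Module R V] [hV : Module.Finite R V] :
    ξ.f (Tw (iterateFrobenius R p e) V) =
      ((twc (iterateFrobenius R p e)).toNat : ℤ) * ((p : ℤ) ^ (e * D) * ξ.f V) := by
  have hφ := iterateFrobenius_finite p hF e
  induction hV using IsNoetherianRing.induction_on_isQuotientEquivQuotientPrime R with
  | subsingleton N =>
    have : Subsingleton (Tw (iterateFrobenius R p e) N) := ‹Subsingleton N›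
    rw [ξ.zero, ξ.zero, mul_zero, mul_zero]
  | quotient N q ε =>
    have i1 := Tw_finite (iterateFrobenius R p e) hφ N
    have i2 := Tw_finite (iterateFrobenius R p e) hφ (R ⧸ q.asIdeal)
    rw [ξ.equiv ε, ξ.equiv (v3Equiv (iterateFrobenius R p e) ε)]
    exact xi_frob_prime p hF e D hD hR ξ q.asIdeal
  | exact N₁ N₂ N₃ f g hf hg hfg h₁ h₃ =>
    have i1 := Tw_finite (iterateFrobenius R p e) hφ N₁
    have i2 := Tw_finite (iterateFrobenius R p e) hφ N₂
    have i3 := Tw_finite (iterateFrobenius R p e) hφ N₃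
    rw [ξ.add N₁ N₂ N₃ f g hf hg hfg,
      ξ.add (Tw (iterateFrobenius R p e) N₁) (Tw (iterateFrobenius R p e) N₂)
        (Tw (iterateFrobenius R p e) N₃) (v3Map (iterateFrobenius R p e) f)
        (v3Map (iterateFrobenius R p e) g) hf hg hfg, h₁, h₃]
    ring

end Frob

end Vale.Agent.P202C.SA
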