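import Vale.Agent.P202C.F5a

/-!
P202 in characteristic p, F5 (helper19), part b: flat local homomorphisms with Artinian fibre,
Euler characteristics with `S`-lengths.
-/

set_option autoImplicit false

namespace Vale.Agent.P202C.SA

open IsLocalRing Vale.Agent.P202C Vale.Agent.P202C.V TensorProduct

universe u v w

section One

variable {S : Type v} [CommRing S] [IsLocalRing S] [IsNoetherianRing S]

/-- the Koszul complex of elements of `S` -/
def kosS {D : ℕ} (z : Fin D → S) : FCx S (KI D × Unit) :=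
  kos D (fun i => z i • (1 : Matrix Unit Unit S)) (scalar_comm z)

theorem kosS_W {D : ℕ} (z : Fin D → S)
    (hzl : Module.length S (S ⧸ Ideal.span (Set.range z)) ≠ ⊤) :
    ∃ N : ℕ, ∀ r ∈ maximalIdeal S ^ N, ∃ W : Fin D → Matrix Unit Unit S,
      ∑ i, (z i • (1 : Matrix Unit Unit S)) * W i = r • (1 : Matrix Unit Unit S) := by
  obtain ⟨N, hN⟩ := exists_pow_of_length_ne_top hzl
  refine ⟨N, fun r hr => ?_⟩
  have h1 := hN r hr (Submodule.Quotient.mk 1)
  rw [← Submodule.Quotient.mk_smul, Submodule.Quotient.mk_eq_zero, smul_eq_mul, mul_one] at h1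
  obtain ⟨a, ha⟩ := Ideal.mem_span_range_iff_exists_fun.1 h1
  refine ⟨fun i => a i • 1, ?_⟩
  rw [← ha, Finset.sum_smul]
  refine Finset.sum_congr rfl fun i _ => ?_
  rw [smul_mul_smul_comm, one_mul, mul_comm]

theorem kosS_deg {D : ℕ} (z : Fin D → S) (a : KI D × Unit) :
    0 ≤ (kosS z).deg a ∧ (kosS z).deg a ≤ D := kdeg_bd D a.1

theorem kosS_fin {D : ℕ} (z : Fin D → S)
    (hzl : Module.length S (S ⧸ Ideal.span (Set.range z)) ≠ ⊤)
    (V : Type w) [AddCommGroup V] [Module S V] [Module.Finite S V] (j : ℤ) :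
    Hc (kosS z) V j ≠ ⊤ := by
  obtain ⟨N, hN⟩ := kosS_W z hzl
  unfold kosS
  rw [Hc_kos]
  exact (kos_serre D _ (scalar_comm z) N hN V).2.1 j

theorem kosS_van {D : ℕ} (z : Fin D → S)
    (hzl : Module.length S (S ⧸ Ideal.span (Set.range z)) ≠ ⊤)
    (V : Type w) [AddCommGroup V] [Module S V] [Module.Finite S V] (h : dimM S D V) :
    chG (kosS z) V D = 0 := by
  obtain ⟨N, hN⟩ := kosS_W z hzl
  unfold kosS
  rw [chG_kos]
  exact (kos_serre D _ (scalar_comm z) N hN V).2.2 h

theorem sumM_mem {X : Type w} [AddCommGroup X] [Module S X] {l : List (X →ₗ[S] X)}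
    {P : Submodule S X} {z : X →ₗ[S] X} (hz : z ∈ l) {x : X} (hx : x ∈ P) : z x ∈ sumM l P := by
  induction l with
  | nil => simp at hz
  | cons w l ih =>
    rcases List.mem_cons.1 hz with h | h
    · subst h
      exact Submodule.mem_sup_left ⟨x, hx, rfl⟩
    · exact Submodule.mem_sup_right (ih h)

theorem dimM_of_dimlt' {D : ℕ} {V : Type w} [AddCommGroup V] [Module S V]
    (h : dimlt D (⊤ : Submodule S V) ⊥) : dimM S D V := by
  intro c hc
  refine h c fun i => ?_
  obtain ⟨x, hx⟩ := (Module.mem_support_iff' (R := S)).1 (hc i)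
  exact ⟨x, trivial, fun s hs h0 => hx s hs h0⟩

end One

section Two

variable {R : Type u} [CommRing R] [IsLocalRing R] [IsNoetherianRing R]
  {S : Type v} [CommRing S] [IsLocalRing S] [IsNoetherianRing S] [Algebra R S]
  [IsLocalHom (algebraMap R S)]

/-- elements of `S` multiplying `V` into `T` -/
def colI {V : Type w} [AddCommGroup V] [Module S V] (T : Submodule S V) : Ideal S where
  carrier := {s | ∀ v : V, s • v ∈ T}
  zero_mem' := fun v => by rw [zero_smul]; exact T.zero_mem
  add_mem' := fun {a b} ha hb v => by rw [add_smul]; exact T.add_mem (ha v) (hb v)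
  smul_mem' := fun c a ha v => by
    rw [smul_eq_mul, mul_smul]
    exact T.smul_mem c (ha v)

theorem dim_prime (hfib : Module.length S (S ⧸ (maximalIdeal R).map (algebraMap R S)) ≠ ⊤)
    {D : ℕ} (P : Ideal R) [hP : P.IsPrime] (hd : dimM R D (R ⧸ P)) (V : Type w) [AddCommGroup V]
    [Module S V] [Module.Finite S V] (hV : ∀ r ∈ P, ∀ v : V, algebraMap R S r • v = 0) :
    dimM S D V := by
  -- the dimension of `R / P`
  have hnt : Nontrivial (R ⧸ P) := Ideal.Quotient.nontrivial_iff.2 hP.ne_top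
  have hloc : IsLocalRing (R ⧸ P) :=
    IsLocalRing.of_surjective' (Ideal.Quotient.mk P) Ideal.Quotient.mk_surjective
  obtain ⟨d, hdim⟩ : ∃ d : ℕ, ringKrullDim (R ⧸ P) = d := by
    have h1 : ringKrullDim (R ⧸ P) ≠ ⊤ := ringKrullDim_ne_top
    have h2 : ringKrullDim (R ⧸ P) ≠ ⊥ := ringKrullDim_ne_bot
    obtain ⟨x, hx⟩ := WithBot.ne_bot_iff_exists.1 h2
    rw [← hx] at h1
    have h3 : x ≠ ⊤ := fun h => h1 (by rw [h]; rfl)
    obtain ⟨d, rfl⟩ := ENat.ne_top_iff_exists.1 h3
    exact ⟨d, hx.symm⟩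
  have hdD : d < D := by
    have h1 : ((d : ℕ) : WithBot ℕ∞) ≤ ringKrullDim (R ⧸ P) := hdim.ge
    obtain ⟨c, hc⟩ := Order.le_krullDim_iff.1 h1
    have hmono : StrictMono (PrimeSpectrum.comap (Ideal.Quotient.mk P)) :=
      Monotone.strictMono_of_injective
        (fun a b hab => Ideal.comap_mono hab)
        (PrimeSpectrum.comap_injective_of_surjective _ Ideal.Quotient.mk_surjective)
    have h2 := hd (c.map _ hmono) (by
      intro i
      rw [Module.mem_support_iff']
      refine ⟨1, fun r hr h0 => hr ?_⟩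
      have h3 : Ideal.Quotient.mk P r = 0 := by
        have : r • (1 : R ⧸ P) = Ideal.Quotient.mk P r := by
          rw [Algebra.smul_def, mul_one]
          rfl
        rw [← this]
        exact h0
      change Ideal.Quotient.mk P r ∈ (c i).asIdeal
      rw [h3]
      exact Ideal.zero_mem _)
    have h4 : (c.map _ hmono).length = c.length := rfl
    omega
  obtain ⟨ys, hlen, hys, K, hK⟩ := exists_sop (R := R ⧸ P) d hdim
  obtain ⟨ys', rfl⟩ := List.map_surjective_iff.2 (Ideal.Quotient.mk_surjective (I := P)) ys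
  have hys' : ∀ y ∈ ys', y ∈ maximalIdeal R := by
    intro y hy
    rw [IsLocalRing.mem_maximalIdeal, mem_nonunits_iff]
    intro hu
    have := hys _ (List.mem_map_of_mem hy)
    rw [IsLocalRing.mem_maximalIdeal, mem_nonunits_iff] at this
    exact this (hu.map _)
  -- over `S`
  have hzs : ∀ y ∈ ys'.map (algebraMap R S), y ∈ maximalIdeal S := by
    intro y hy
    obtain ⟨x, hx, rfl⟩ := List.mem_map.1 hy
    rw [IsLocalRing.mem_maximalIdeal, mem_nonunits_iff]
    intro hu
    exact (IsLocalRing.mem_maximalIdeal _).1 (hys' x hx) (isUnit_of_map_unit (algebraMap R S) _ hu)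
  obtain ⟨A, hA⟩ := exists_pow_of_length_ne_top hfib
  have hA' : maximalIdeal S ^ A ≤ (maximalIdeal R).map (algebraMap R S) := by
    intro s hs
    have h1 := hA s hs (Submodule.Quotient.mk 1)
    rw [← Submodule.Quotient.mk_smul, Submodule.Quotient.mk_eq_zero, smul_eq_mul, mul_one] at h1
    exact h1
  set T : Submodule S V := sumM ((ys'.map (algebraMap R S)).map
    (fun y => y • (LinearMap.id : V →ₗ[S] V))) ⊤ with hT
  have h1 : ∀ y ∈ ys', algebraMap R S y ∈ colI T := by
    intro y hy v
    exact sumM_mem (z := algebraMap R S y • (LinearMap.id : V →ₗ[S] V))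
      (List.mem_map.2 ⟨algebraMap R S y, List.mem_map_of_mem hy, rfl⟩) trivial
  have h2 : ∀ r ∈ maximalIdeal R ^ K, algebraMap R S r ∈ colI T := by
    intro r hr
    have h3 : Ideal.Quotient.mk P r ∈ maximalIdeal (R ⧸ P) ^ K := by
      have h4 : Ideal.Quotient.mk P r ∈ (maximalIdeal R ^ K).map (Ideal.Quotient.mk P) :=
        Ideal.mem_map_of_mem _ hr
      rw [Ideal.map_pow] at h4
      refine Ideal.pow_right_mono ?_ K h4
      rw [Ideal.map_le_iff_le_comap]
      intro x hx
      change Ideal.Quotient.mk P x ∈ maximalIdeal (R ⧸ P)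
      rw [IsLocalRing.mem_maximalIdeal, mem_nonunits_iff]
      intro hu
      obtain ⟨y, hy⟩ := Ideal.Quotient.mk_surjective (I := P) (hu.unit⁻¹ : (R ⧸ P)ˣ).val
      have h5 : Ideal.Quotient.mk P (x * y) = 1 := by
        rw [map_mul, hy]
        exact hu.mul_val_inv
      have h6 : x * y - 1 ∈ P := by
        rw [← Ideal.Quotient.eq_zero_iff_mem, map_sub, h5, map_one, sub_self]
      have h7 : x * y - 1 ∈ maximalIdeal R := IsLocalRing.le_maximalIdeal hP.ne_top h6
      have h8 : (1 : R) ∈ maximalIdeal R := by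
        have : (1 : R) = x * y - (x * y - 1) := by ring
        rw [this]
        exact Ideal.sub_mem _ (Ideal.mul_mem_right _ _ hx) h7
      exact (IsLocalRing.mem_maximalIdeal _).1 h8 isUnit_one
    have h4 := hK h3
    rw [← Ideal.map_ofList] at h4
    obtain ⟨j, hj, hjr⟩ := (Ideal.mem_map_iff_of_surjective _ Ideal.Quotient.mk_surjective).1 h4
    have h5 : r - j ∈ P := by
      rw [← Ideal.Quotient.eq_zero_iff_mem, map_sub, hjr, sub_self]
    have h6 : algebraMap R S j ∈ colI T := by
      have : Ideal.ofList ys' ≤ (colI T).comap (algebraMap R S) := by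
        unfold Ideal.ofList
        rw [Ideal.span_le]
        intro y hy
        exact h1 y hy
      exact this hj
    have h7 : r = (r - j) + j := by ring
    rw [h7, map_add]
    refine Ideal.add_mem _ (fun v => ?_) h6
    rw [hV _ h5 v]
    exact T.zero_mem
  have hfin : rl ⊤ (T ⊔ ⊥) ≠ ⊤ := by
    unfold rl
    refine length_ne_top_of_pow (A * K) fun s hs x => ?_
    obtain ⟨x, rfl⟩ := Submodule.Quotient.mk_surjective _ x
    rw [← Submodule.Quotient.mk_smul, Submodule.Quotient.mk_eq_zero]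
    change s • (x : V) ∈ T ⊔ ⊥
    rw [sup_bot_eq]
    rw [pow_mul] at hs
    have h3 := Ideal.pow_right_mono hA' K hs
    rw [← Ideal.map_pow] at h3
    have h4 : (maximalIdeal R ^ K).map (algebraMap R S) ≤ colI T := by
      rw [Ideal.map_le_iff_le_comap]
      exact h2
    exact h4 h3 x
  have h9 := w2_dim_bound (ys'.map (algebraMap R S)) hzs ⊤ ⊥ hfin
  refine dimM_of_dimlt' fun c hc => ?_
  have h10 := h9 c hc
  rw [List.length_map] at h10
  rw [List.length_map] at hlen
  omega

end Two

end Vale.Agent.P202C.SA
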