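import Mathlib

/-!
P202C, module F7 (helper16): F-finiteness passes to `R[X]` and to localisations.
-/

set_option autoImplicit false

namespace Vale.Agent.P202C.FFin

open Polynomial

universe u

/-- the elements `g i` generate `A` over its `p`-th powers -/
def Gen {A : Type u} [CommRing A] (p : ℕ) {ι : Type} [Fintype ι] (g : ι → A) (a : A) : Prop :=
  ∃ c : ι → A, a = ∑ i, c i ^ p * g i

theorem fin_gen {A B : Type u} [CommRing A] [CommRing B] (f : A →+* B) (h : f.Finite) :
    ∃ (n : ℕ) (g : Fin n → B), ∀ b, ∃ c : Fin n → A, b = ∑ i, f (c i) * g i := by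
  let _ := f.toAlgebra
  have hfin : Module.Finite A B := h
  obtain ⟨n, g, hg⟩ := Submodule.fg_iff_exists_fin_generating_family.mp hfin.fg_top
  refine ⟨n, g, fun a => ?_⟩
  have h1 : a ∈ Submodule.span A (Set.range g) := by rw [hg]; exact Submodule.mem_top
  obtain ⟨c, hc⟩ := (Submodule.mem_span_range_iff_exists_fun A).mp h1
  exact ⟨c, hc.symm⟩

theorem gen_fin {A B : Type u} [CommRing A] [CommRing B] (f : A →+* B) {ι : Type} [Fintype ι]
    (g : ι → B) (h : ∀ b, ∃ c : ι → A, b = ∑ i, f (c i) * g i) : f.Finite := by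
  let _ := f.toAlgebra
  show Module.Finite A B
  refine ⟨Submodule.fg_def.2 ⟨Set.range g, Set.finite_range g, ?_⟩⟩
  rw [eq_top_iff]
  intro b _
  obtain ⟨c, hc⟩ := h b
  exact (Submodule.mem_span_range_iff_exists_fun A).mpr ⟨c, hc.symm⟩

theorem gen_of_finite {A : Type u} [CommRing A] (p : ℕ) [Fact p.Prime] [CharP A p]
    (h : (frobenius A p).Finite) : ∃ (n : ℕ) (g : Fin n → A), ∀ a, Gen p g a :=
  fin_gen (frobenius A p) h

theorem finite_of_gen {A : Type u} [CommRing A] (p : ℕ) [Fact p.Prime] [CharP A p]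
    {ι : Type} [Fintype ι] (g : ι → A) (h : ∀ a, Gen p g a) : (frobenius A p).Finite :=
  gen_fin (frobenius A p) g h

theorem gen_poly {A : Type u} [CommRing A] (p : ℕ) [Fact p.Prime] [CharP A p]
    {ι : Type} [Fintype ι] (g : ι → A) (h : ∀ a, Gen p g a) (P : A[X]) :
    Gen p (fun q : ι × Fin p => (C (g q.1) * X ^ (q.2 : ℕ) : A[X])) P := by
  classical
  have hp : p.Prime := Fact.out
  induction P using Polynomial.induction_on' with
  | add P Q hP hQ =>
    obtain ⟨c, hc⟩ := hP
    obtain ⟨d, hd⟩ := hQ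
    refine ⟨fun i => c i + d i, ?_⟩
    rw [hc, hd, ← Finset.sum_add_distrib]
    refine Finset.sum_congr rfl fun i _ => ?_
    rw [add_pow_char]
    ring
  | monomial k a =>
    obtain ⟨c, hc⟩ := h a
    refine ⟨fun q => if (q.2 : ℕ) = k % p then C (c q.1) * X ^ (k / p) else 0, ?_⟩
    rw [Fintype.sum_prod_type]
    have h1 : ∀ i, ∑ j : Fin p, (if ((i, j) : ι × Fin p).2.val = k % p then
        C (c ((i, j) : ι × Fin p).1) * X ^ (k / p) else 0 : A[X]) ^ p *
          (C (g ((i, j) : ι × Fin p).1) * X ^ (((i, j) : ι × Fin p).2 : ℕ)) =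
        C (c i ^ p * g i) * X ^ k := by
      intro i
      rw [Finset.sum_eq_single ⟨k % p, Nat.mod_lt _ hp.pos⟩]
      · simp only [if_true]
        rw [mul_pow, ← C_pow, ← pow_mul, C_mul]
        have h2 : (X : A[X]) ^ k = X ^ (k / p * p) * X ^ (k % p) := by
          rw [← pow_add, Nat.div_add_mod']
        rw [h2]; ring
      · intro j _ hj
        have h3 : ¬ (j : ℕ) = k % p := by
          intro h4
          apply hj
          ext
          exact h4
        simp only [h3, if_false]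
        rw [zero_pow hp.ne_zero, zero_mul]
      · intro h5
        exact absurd (Finset.mem_univ _) h5
    rw [Finset.sum_congr rfl fun i _ => h1 i, ← Finset.sum_mul, ← map_sum, ← hc, C_mul_X_pow_eq_monomial]

theorem gen_loc {A B : Type u} [CommRing A] [CommRing B] [Algebra A B] (M : Submonoid A)
    [IsLocalization M B] (p : ℕ) [Fact p.Prime] {ι : Type} [Fintype ι] (g : ι → A)
    (h : ∀ a, Gen p g a) (b : B) : Gen p (fun i => algebraMap A B (g i)) b := by
  have hp : p.Prime := Fact.out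
  obtain ⟨⟨a, s⟩, hb⟩ := IsLocalization.surj M b
  obtain ⟨c, hc⟩ := h (a * s ^ (p - 1))
  obtain ⟨u, hu⟩ := IsLocalization.map_units B s
  have hu1 : algebraMap A B s * (↑u⁻¹ : B) = 1 := by rw [← hu]; exact u.mul_inv
  refine ⟨fun i => algebraMap A B (c i) * ↑u⁻¹, ?_⟩
  have h1 : b = (algebraMap A B (a * s ^ (p - 1))) * (↑u⁻¹ : B) ^ p := by
    have h2 : b = algebraMap A B a * ↑u⁻¹ := by
      calc b = b * (algebraMap A B s * ↑u⁻¹) := by rw [hu1, mul_one]
        _ = b * algebraMap A B s * ↑u⁻¹ := by ring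
        _ = _ := by rw [hb]
    obtain ⟨q, hq⟩ : ∃ q, p = q + 1 := ⟨p - 1, (Nat.succ_pred_eq_of_pos hp.pos).symm⟩
    rw [h2, map_mul, map_pow, hq, Nat.add_sub_cancel]
    calc algebraMap A B a * (↑u⁻¹ : B)
        = algebraMap A B a * (↑u⁻¹ : B) * (algebraMap A B s * ↑u⁻¹) ^ q := by
          rw [hu1, one_pow, mul_one]
      _ = _ := by rw [mul_pow]; ring
  rw [h1, hc, map_sum, Finset.sum_mul]
  refine Finset.sum_congr rfl fun i _ => ?_
  rw [map_mul, map_pow, mul_pow]
  ring

theorem charP_of_map {A B : Type*} [CommRing A] [CommRing B] [Nontrivial B] (f : A →+* B)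
    (p : ℕ) [Fact p.Prime] [CharP A p] : CharP B p := by
  have h1 : ((p : ℕ) : B) = 0 := by
    rw [← map_natCast f, CharP.cast_eq_zero, map_zero]
  exact (CharP.charP_iff_prime_eq_zero (Fact.out : p.Prime)).2 h1

end Vale.Agent.P202C.FFin
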