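import Vale.Agent.P202C.Hom2

/-!
# P202C, part I: the abstract main inequality
-/

namespace Vale.Agent.P202C.HC

open Submodule Finset

variable {R M : Type*} [CommRing R] [AddCommGroup M] [Module R M]

theorem FW.mono {w w' : ℕ} (hw : w ≤ w') {h : ℤ → ℕ∞} (hh : FW w h) : FW w' h :=
  ⟨hh.fin, fun m hm => hh.supp m (by omega)⟩

theorem ch_window {w w' : ℕ} (hw : w ≤ w') {h : ℤ → ℕ∞} (hh : FW w h) : ch w' h = ch w h := by
  unfold ch
  refine (Finset.sum_subset ?_ ?_).symm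
  · intro m hm
    simp only [Finset.mem_Icc] at hm ⊢
    omega
  · intro m hm hm'
    simp only [Finset.mem_Icc] at hm hm'
    rw [hh.supp m (by omega)]
    simp

theorem toNat_le {a b : ℕ∞} (hab : a ≤ b) (hb : b ≠ ⊤) : a.toNat ≤ b.toNat :=
  ENat.toNat_le_toNat hab hb

theorem sum_ne_top' {ι : Type*} (s : Finset ι) (f : ι → ℕ∞) (hf : ∀ i ∈ s, f i ≠ ⊤) :
    ∑ i ∈ s, f i ≠ ⊤ := by
  classical
  induction s using Finset.induction_on with
  | empty => simp
  | insert a s ha ih =>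
    rw [Finset.sum_insert ha]
    exact WithTop.add_ne_top.2 ⟨hf a (by simp), ih (fun i hi => hf i (by simp [hi]))⟩

theorem toNat_sum {ι : Type*} (s : Finset ι) (f : ι → ℕ∞) (hf : ∀ i ∈ s, f i ≠ ⊤) :
    (∑ i ∈ s, f i).toNat = ∑ i ∈ s, (f i).toNat := by
  classical
  induction s using Finset.induction_on with
  | empty => simp
  | insert a s ha ih =>
    rw [Finset.sum_insert ha, Finset.sum_insert ha,
      ENat.toNat_add (hf a (by simp)) (sum_ne_top' _ _ fun i hi => hf i (by simp [hi])),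
      ih (fun i hi => hf i (by simp [hi]))]

/-- the position of `{G_i ⊗ L_0 (i ≥ 1), G_0 ⊗ L_Q}` -/
def pK (Q : ℤ) : ℕ → ℤ := fun i => if i = 0 then Q else 0

/-- the position of `{G_i ⊗ L_{(1 - i) Q - N}}` -/
def pF (D : ℕ) (Q N : ℤ) : ℕ → ℤ := fun i => if i ≤ D then (1 - i) * Q - N else 0

theorem Va_zero (D : ℕ) {Q : ℤ} (hQ : 0 ≤ Q) : Va D Q (fun _ => 0) := by
  intro i _
  simpa using hQ

theorem Va_pK (D : ℕ) {Q : ℤ} (hQ : 0 ≤ Q) : Va D Q (pK Q) := by
  intro i _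
  unfold pK
  rw [if_neg (by omega : ¬ i + 1 = 0)]
  split_ifs <;> omega

theorem Va_pF (D : ℕ) (Q N : ℤ) : Va D Q (pF D Q N) := by
  intro i hi
  unfold pF
  rw [if_pos (by omega), if_pos hi]
  push_cast
  linarith

theorem zero_le_pK {Q : ℤ} (hQ : 0 ≤ Q) : (fun _ => 0 : ℕ → ℤ) ≤ pK Q := by
  intro i
  unfold pK
  show (0 : ℤ) ≤ if i = 0 then Q else 0
  split_ifs <;> omega

theorem pF_le_pK (D : ℕ) {Q : ℤ} (hQ : 0 ≤ Q) : pF D Q 0 ≤ pK Q := by
  intro i
  unfold pK pF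
  show (if i ≤ D then (1 - (i : ℤ)) * Q - 0 else 0) ≤ if i = 0 then Q else 0
  split_ifs with h1 h2 h3
  · subst h2; simp
  · have : (1 : ℤ) - i ≤ 0 := by
      have : 0 < i := Nat.pos_of_ne_zero h2
      omega
    nlinarith
  · omega
  · exact le_rfl

theorem pF_le_pF (D : ℕ) (Q : ℤ) {N : ℤ} (hN : 0 ≤ N) : pF D Q N ≤ pF D Q 0 := by
  intro i
  unfold pF
  show (if i ≤ D then (1 - (i : ℤ)) * Q - N else 0) ≤ if i ≤ D then (1 - (i : ℤ)) * Q - 0 else 0
  split_ifs <;> omega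

variable {d : M →ₗ[R] M} {D : ℕ} {Q : ℤ} {T : (ℕ → ℤ) → ℤ → Submodule R M}
  {st : ℕ → ℤ → ℤ → ℕ∞}

/-- the zero complex -/
def Z0 : ℤ → Submodule R M := fun _ => ⊥

theorem IsCx_Z0 : IsCx d Z0 := IsCx_bot

theorem Z0_le (A : ℤ → Submodule R M) : Z0 ≤ A := fun _ => bot_le

/-- an Euler characteristic is at least minus the sum over the nonzero degrees -/
theorem ch_ge {w : ℕ} {h : ℤ → ℕ∞} :
    -(∑ m ∈ Finset.Icc (1 : ℤ) w, ((h m).toNat : ℤ)) -
      ∑ m ∈ Finset.Icc (-(w : ℤ)) (-1), ((h m).toNat : ℤ) ≤ ch w h := by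
  unfold ch
  have h1 : Finset.Icc (-(w : ℤ)) w =
      (Finset.Icc (-(w : ℤ)) (-1) ∪ {0}) ∪ Finset.Icc (1 : ℤ) w := by
    ext x
    simp only [Finset.mem_Icc, Finset.mem_union, Finset.mem_singleton]
    omega
  rw [h1, Finset.sum_union, Finset.sum_union]
  · have h2 : -(∑ m ∈ Finset.Icc (1 : ℤ) w, ((h m).toNat : ℤ)) ≤
        ∑ m ∈ Finset.Icc (1 : ℤ) w, sg m * ((h m).toNat : ℤ) := by
      rw [← Finset.sum_neg_distrib]
      refine Finset.sum_le_sum fun m _ => ?_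
      have : (0 : ℤ) ≤ ((h m).toNat : ℤ) := Int.natCast_nonneg _
      unfold sg
      split_ifs <;> linarith
    have h3 : -(∑ m ∈ Finset.Icc (-(w : ℤ)) (-1), ((h m).toNat : ℤ)) ≤
        ∑ m ∈ Finset.Icc (-(w : ℤ)) (-1), sg m * ((h m).toNat : ℤ) := by
      rw [← Finset.sum_neg_distrib]
      refine Finset.sum_le_sum fun m _ => ?_
      have : (0 : ℤ) ≤ ((h m).toNat : ℤ) := Int.natCast_nonneg _
      unfold sg
      split_ifs <;> linarith
    have h4 : (0 : ℤ) ≤ ∑ m ∈ ({0} : Finset ℤ), sg m * ((h m).toNat : ℤ) := by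
      rw [Finset.sum_singleton]
      have : (0 : ℤ) ≤ ((h 0).toNat : ℤ) := Int.natCast_nonneg _
      unfold sg
      simp
    linarith
  · rw [Finset.disjoint_left]
    intro x hx
    simp only [Finset.mem_Icc, Finset.mem_singleton] at hx ⊢
    omega
  · rw [Finset.disjoint_left]
    intro x hx
    simp only [Finset.mem_Icc, Finset.mem_union, Finset.mem_singleton] at hx ⊢
    omega

theorem Tw.main (h : Tw d D Q T st) (hQ : 0 ≤ Q) {w : ℕ} (hst : ∀ i, i ≤ D → ∀ s, FW w (st i s))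
    {N : ℤ} (hN : 0 ≤ N)
    (hz : ∀ m, Zc d (T (pF D Q 0)) Z0 m ≤ Bd d (T (pF D Q N)) Z0 m)
    (hK0 : ∀ m < 0, hl d (T (pK Q)) Z0 m = 0) :
    FW (w + 1) (hl d (T fun _ => 0) Z0) ∧
    ∑ s ∈ Finset.Ico 0 Q, ch w (st 0 s) -
      ∑ i ∈ range (D + 1), ∑ s ∈ Finset.Ico ((1 - i) * Q) 0, ch w (st i s) -
      ∑ m ∈ Finset.Icc (1 : ℤ) (w + 1 : ℕ), ∑ i ∈ range (D + 1),
        ∑ s ∈ Finset.Ico ((1 - i) * Q - N) ((1 - i) * Q), ((st i s (m + 1)).toNat : ℤ) -
      ∑ m ∈ Finset.Icc (-((w + 1 : ℕ) : ℤ)) (-1), ∑ i ∈ range (D + 1),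
        ∑ s ∈ Finset.Ico ((1 - i) * Q) 0, ((st i s m).toNat : ℤ) ≤
      ch (w + 1) (hl d (T fun _ => 0) Z0) := by
  have hst' : ∀ i, i ≤ D → ∀ s, FW (w + 1) (st i s) := fun i hi s => (hst i hi s).mono (by omega)
  have v0 := Va_zero D hQ
  have vK := Va_pK D hQ
  have vF := Va_pF D Q 0
  have vN := Va_pF D Q N
  have c0 := h.cx _ v0
  have cK := h.cx _ vK
  have cF := h.cx _ vF
  have cN := h.cx _ vN
  have l1 : T (pK Q) ≤ T (fun _ => 0) := h.anti _ _ (zero_le_pK hQ)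
  have l2 : T (pK Q) ≤ T (pF D Q 0) := h.anti _ _ (pF_le_pK D hQ)
  have l3 : T (pF D Q 0) ≤ T (pF D Q N) := h.anti _ _ (pF_le_pF D Q hN)
  have hD1 : ∀ j, D < j → (fun _ => 0 : ℕ → ℤ) j = pK Q j := fun j hj => by
    show (0 : ℤ) = pK Q j
    unfold pK
    rw [if_neg (by omega)]
  have hD2 : ∀ j, D < j → pF D Q 0 j = pK Q j := fun j hj => by
    unfold pK pF
    rw [if_neg (by omega), if_neg (by omega)]
  have hD3 : ∀ j, D < j → pF D Q N j = pF D Q 0 j := fun j hj => by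
    unfold pF
    rw [if_neg (by omega), if_neg (by omega)]
  -- the three relative Euler characteristics
  obtain ⟨f1, e1⟩ := h.chi_eq hst' v0 vK (zero_le_pK hQ) hD1
  obtain ⟨f2, e2⟩ := h.chi_eq hst' vF vK (pF_le_pK D hQ) hD2
  -- bound of the homology of `K'`
  have hb : ∀ m, hl d (T (pF D Q 0)) Z0 m ≤ ∑ i ∈ range (D + 1),
      ∑ s ∈ Finset.Ico ((1 - i) * Q - N) ((1 - i) * Q), st i s (m + 1) := by
    intro m
    refine (hl_BC_le_of_zero h.dd cN cF IsCx_Z0 l3 (Z0_le _) m (hz m)).trans ?_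
    refine (h.hl_le vN vF (pF_le_pF D Q hN) hD3 (m + 1)).trans (le_of_eq ?_)
    refine Finset.sum_congr rfl fun i hi => ?_
    have hi' : i ≤ D := by
      have := Finset.mem_range.1 hi
      omega
    unfold pF
    rw [if_pos hi', if_pos hi', sub_zero]
  have hfin : ∀ m, (∑ i ∈ range (D + 1),
      ∑ s ∈ Finset.Ico ((1 - i) * Q - N) ((1 - i) * Q), st i s (m + 1)) ≠ ⊤ := by
    intro m
    exact sum_ne_top' _ _ fun i hi => sum_ne_top' _ _ fun s _ =>
      (hst i (by have := Finset.mem_range.1 hi; omega) s).fin _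
  have fF : FW (w + 1) (hl d (T (pF D Q 0)) Z0) := by
    refine ⟨fun m => ne_top_of_le_ne_top (hfin m) (hb m), fun m hm => ?_⟩
    refine le_antisymm ((hb m).trans (le_of_eq ?_)) zero_le
    refine Finset.sum_eq_zero fun i hi => Finset.sum_eq_zero fun s _ => ?_
    refine (hst i (by have := Finset.mem_range.1 hi; omega) s).supp _ ?_
    push_cast at hm
    omega
  have fK : FW (w + 1) (hl d (T (pK Q)) Z0) := by
    refine ⟨fun m => ?_, fun m hm => ?_⟩
    · refine ne_top_of_le_ne_top ?_ (hl_BC_le h.dd cF cK IsCx_Z0 l2 (Z0_le _) m)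
      exact WithTop.add_ne_top.2 ⟨fF.fin m, f2.fin (m + 1)⟩
    · have h1 := hl_BC_le h.dd cF cK IsCx_Z0 l2 (Z0_le _) m
      have h2 := h.hl_le vF vK (pF_le_pK D hQ) hD2 (m + 1)
      have h3 : ∑ i ∈ range (D + 1), ∑ s ∈ Finset.Ico (pF D Q 0 i) (pK Q i), st i s (m + 1) =
          0 := by
        refine Finset.sum_eq_zero fun i hi => Finset.sum_eq_zero fun s _ => ?_
        refine (hst i (by have := Finset.mem_range.1 hi; omega) s).supp _ ?_
        push_cast at hm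
        omega
      rw [h3] at h2
      rw [fF.supp m hm, le_antisymm h2 zero_le, add_zero] at h1
      exact le_antisymm h1 zero_le
  have f0 : FW (w + 1) (hl d (T fun _ => 0) Z0) :=
    FW_AC h.dd c0 cK IsCx_Z0 l1 (Z0_le _) f1 fK
  refine ⟨f0, ?_⟩
  have a1 := chi_add h.dd c0 cK IsCx_Z0 l1 (Z0_le _) f1 fK
  have a2 := chi_add h.dd cF cK IsCx_Z0 l2 (Z0_le _) f2 fK
  -- evaluation of the relative Euler characteristics
  have e1' : ch (w + 1) (hl d (T fun _ => 0) (T (pK Q))) = ∑ s ∈ Finset.Ico 0 Q, ch w (st 0 s) := by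
    rw [e1, Finset.sum_eq_single 0]
    · unfold pK
      rw [if_pos rfl]
      exact Finset.sum_congr rfl fun s _ => ch_window (by omega) (hst 0 (by omega) s)
    · intro i _ hi
      unfold pK
      rw [if_neg hi]
      simp
    · intro hh
      exact absurd (Finset.mem_range.2 (by omega)) hh
  have e2' : ch (w + 1) (hl d (T (pF D Q 0)) (T (pK Q))) =
      ∑ i ∈ range (D + 1), ∑ s ∈ Finset.Ico ((1 - i) * Q) 0, ch w (st i s) := by
    rw [e2]
    refine Finset.sum_congr rfl fun i hi => ?_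
    have hi' : i ≤ D := by
      have := Finset.mem_range.1 hi
      omega
    by_cases h0 : i = 0
    · subst h0
      unfold pF pK
      rw [if_pos (by omega), if_pos rfl]
      have h1 : Finset.Ico ((1 - ((0 : ℕ) : ℤ)) * Q - 0) Q = ∅ := by
        rw [Finset.Ico_eq_empty_iff]; simp
      have h2 : Finset.Ico ((1 - ((0 : ℕ) : ℤ)) * Q) 0 = ∅ := by
        rw [Finset.Ico_eq_empty_iff]; simpa using hQ
      rw [h1, h2]
      simp
    · unfold pF pK
      rw [if_pos hi', if_neg h0, sub_zero]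
      exact Finset.sum_congr rfl fun s _ => ch_window (by omega) (hst i hi' s)
  -- lower bound for the Euler characteristic of `K'`
  have b1 := ch_ge (w := w + 1) (h := hl d (T (pF D Q 0)) Z0)
  have b2 : ∑ m ∈ Finset.Icc (1 : ℤ) (w + 1 : ℕ), ((hl d (T (pF D Q 0)) Z0 m).toNat : ℤ) ≤
      ∑ m ∈ Finset.Icc (1 : ℤ) (w + 1 : ℕ), ∑ i ∈ range (D + 1),
        ∑ s ∈ Finset.Ico ((1 - i) * Q - N) ((1 - i) * Q), ((st i s (m + 1)).toNat : ℤ) := by
    refine Finset.sum_le_sum fun m _ => ?_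
    have h1 := toNat_le (hb m) (hfin m)
    rw [toNat_sum] at h1
    · have h2 : ∑ i ∈ range (D + 1), (∑ s ∈ Finset.Ico ((1 - (i : ℤ)) * Q - N) ((1 - i) * Q),
          st i s (m + 1)).toNat = ∑ i ∈ range (D + 1),
          ∑ s ∈ Finset.Ico ((1 - (i : ℤ)) * Q - N) ((1 - i) * Q), (st i s (m + 1)).toNat := by
        refine Finset.sum_congr rfl fun i hi => toNat_sum _ _ fun s _ => ?_
        exact (hst i (by have := Finset.mem_range.1 hi; omega) s).fin _
      rw [h2] at h1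
      exact_mod_cast h1
    · intro i hi
      exact sum_ne_top' _ _ fun s _ => (hst i (by have := Finset.mem_range.1 hi; omega) s).fin _
  have b3 : ∑ m ∈ Finset.Icc (-((w + 1 : ℕ) : ℤ)) (-1), ((hl d (T (pF D Q 0)) Z0 m).toNat : ℤ) ≤
      ∑ m ∈ Finset.Icc (-((w + 1 : ℕ) : ℤ)) (-1), ∑ i ∈ range (D + 1),
        ∑ s ∈ Finset.Ico ((1 - i) * Q) 0, ((st i s m).toNat : ℤ) := by
    refine Finset.sum_le_sum fun m hm => ?_
    have hm0 : m < 0 := by
      have := (Finset.mem_Icc.1 hm).2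
      omega
    have h1 := hl_AC_le h.dd cF cK IsCx_Z0 l2 (Z0_le _) m
    rw [hK0 m hm0, zero_add] at h1
    have h2 := h1.trans (h.hl_le vF vK (pF_le_pK D hQ) hD2 m)
    have h3 : ∑ i ∈ range (D + 1), ∑ s ∈ Finset.Ico (pF D Q 0 i) (pK Q i), st i s m =
        ∑ i ∈ range (D + 1), ∑ s ∈ Finset.Ico ((1 - (i : ℤ)) * Q) 0, st i s m := by
      refine Finset.sum_congr rfl fun i hi => ?_
      have hi' : i ≤ D := by
        have := Finset.mem_range.1 hi
        omega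
      by_cases h0 : i = 0
      · subst h0
        unfold pF pK
        rw [if_pos (by omega), if_pos rfl]
        have h1 : Finset.Ico ((1 - ((0 : ℕ) : ℤ)) * Q - 0) Q = ∅ := by
          rw [Finset.Ico_eq_empty_iff]; simp
        have h2 : Finset.Ico ((1 - ((0 : ℕ) : ℤ)) * Q) 0 = ∅ := by
          rw [Finset.Ico_eq_empty_iff]; simpa using hQ
        rw [h1, h2]
      · unfold pF pK
        rw [if_pos hi', if_neg h0, sub_zero]
    rw [h3] at h2
    have hne : ∀ i ∈ range (D + 1), ∑ s ∈ Finset.Ico ((1 - (i : ℤ)) * Q) 0, st i s m ≠ ⊤ := by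
      intro i hi
      exact sum_ne_top' _ _ fun s _ => (hst i (by have := Finset.mem_range.1 hi; omega) s).fin _
    have h4 := toNat_le h2 (sum_ne_top' _ _ hne)
    rw [toNat_sum _ _ hne] at h4
    have h5 : ∑ i ∈ range (D + 1), (∑ s ∈ Finset.Ico ((1 - (i : ℤ)) * Q) 0, st i s m).toNat =
        ∑ i ∈ range (D + 1), ∑ s ∈ Finset.Ico ((1 - (i : ℤ)) * Q) 0, (st i s m).toNat := by
      refine Finset.sum_congr rfl fun i hi => toNat_sum _ _ fun s _ => ?_
      exact (hst i (by have := Finset.mem_range.1 hi; omega) s).fin _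
    rw [h5] at h4
    exact_mod_cast h4
  rw [a1, e1']
  rw [e2'] at a2
  linarith

end Vale.Agent.P202C.HC
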