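import Vale.Agent.P202C.Defs
import Vale.Agent.P202C.Hom3

/-!
# P202C, part I: the total families of a free complex with coefficients in a filtered complex
-/

set_option autoImplicit false

namespace Vale.Agent.P202C

open Finset

universe u v

variable {R : Type u} [CommRing R] {ι : Type} [Fintype ι] (G : FCx R ι)
  {X : Type v} [AddCommGroup X] [Module R X] (C : FiltCx R X)

theorem totd_apply (x : ι → X) (a : ι) :
    totd G C x a = (∑ b, G.mat a b • x b) + sgn (G.deg a) • C.d (x a) := rfl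

theorem sgn_sq (i : ℤ) : sgn i * sgn i = 1 := by
  unfold sgn
  split_ifs <;> norm_num

theorem sgn_succ (i : ℤ) : sgn (i + 1) = - sgn i := by
  unfold sgn
  by_cases h : Even i
  · have : ¬ Even (i + 1) := by rw [Int.even_add_one]; simpa using h
    simp [h, this]
  · have : Even (i + 1) := by rw [Int.even_add_one]; exact h
    simp [h, this]

theorem totd_totd (x : ι → X) : totd G C (totd G C x) = 0 := by
  classical
  funext a
  rw [totd_apply]
  have h1 : ∑ b, G.mat a b • totd G C x b = ∑ b, G.mat a b • (sgn (G.deg b) • C.d (x b)) := by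
    have h2 : ∑ b, G.mat a b • totd G C x b =
        ∑ b, G.mat a b • (∑ c, G.mat b c • x c) +
          ∑ b, G.mat a b • (sgn (G.deg b) • C.d (x b)) := by
      rw [← Finset.sum_add_distrib]
      refine Finset.sum_congr rfl fun b _ => ?_
      rw [totd_apply, smul_add]
    have h3 : ∑ b, G.mat a b • (∑ c, G.mat b c • x c) = 0 := by
      have h4 : ∑ b, G.mat a b • (∑ c, G.mat b c • x c) = ∑ c, (G.mat * G.mat) a c • x c := by
        simp only [Finset.smul_sum, smul_smul]
        rw [Finset.sum_comm]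
        refine Finset.sum_congr rfl fun c _ => ?_
        rw [Matrix.mul_apply, Finset.sum_smul]
      rw [h4, G.sq]
      simp
    rw [h2, h3, zero_add]
  have h5 : sgn (G.deg a) • C.d (totd G C x a) =
      ∑ b, G.mat a b • (sgn (G.deg a) • C.d (x b)) := by
    rw [totd_apply, map_add, map_sum, map_zsmul, C.dd, smul_zero, add_zero, Finset.smul_sum]
    refine Finset.sum_congr rfl fun b _ => ?_
    rw [map_smul, smul_comm]
  rw [h1, h5, ← Finset.sum_add_distrib]
  refine Finset.sum_eq_zero fun b _ => ?_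
  rw [← smul_add, ← add_smul]
  by_cases h : G.mat a b = 0
  · rw [h, zero_smul]
  · rw [G.hdeg a b h, sgn_succ, neg_add_cancel, zero_smul, smul_zero]

variable {C} in
theorem FiltCx.F_mono {s t : ℤ} (h : s ≤ t) : C.F t ≤ C.F s := by
  obtain ⟨k, rfl⟩ : ∃ k : ℕ, t = s + k := ⟨(t - s).toNat, by omega⟩
  clear h
  induction k with
  | zero => simp
  | succ k ih =>
    refine le_trans ?_ ih
    have := C.F_anti (s + k)
    have h2 : s + ((k + 1 : ℕ) : ℤ) = s + k + 1 := by push_cast; ring
    rw [h2]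
    exact this

/-- positions indexed by natural numbers -/
def TT (a : ℕ → ℤ) : ℤ → Submodule R (ι → X) := fam G C fun i => a i.toNat

variable {G C}

theorem mem_TT {a : ℕ → ℤ} {j : ℤ} {x : ι → X} :
    x ∈ TT G C a j ↔ ∀ b, x b ∈ C.gr (G.deg b - j) ∧ x b ∈ C.F (a (G.deg b).toNat) := Iff.rfl

theorem TT_anti {a b : ℕ → ℤ} (h : a ≤ b) : TT G C b ≤ TT G C a := by
  intro j x hx c
  exact ⟨(hx c).1, FiltCx.F_mono (h _) (hx c).2⟩

variable {D : ℕ} {Q : ℤ}

theorem mat_mem (hdeg : ∀ a, 0 ≤ G.deg a ∧ G.deg a ≤ D) (hS : Shift G C Q) {a : ℕ → ℤ}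
    (ha : HC.Va D Q a) {c b : ι} {j : ℤ} {z : X} (hz : z ∈ C.gr (G.deg b - j))
    (hz' : z ∈ C.F (a (G.deg b).toNat)) :
    G.mat c b • z ∈ C.gr (G.deg c - (j - 1)) ⊓ C.F (a (G.deg c).toNat) := by
  by_cases h : G.mat c b = 0
  · rw [h, zero_smul]; exact Submodule.zero_mem _
  · have h1 := G.hdeg c b h
    refine ⟨?_, ?_⟩
    · have h2 : G.deg c - (j - 1) = G.deg b - j := by omega
      rw [h2]
      exact Submodule.smul_mem _ _ hz
    · have h3 := hS c b _ z hz'
      refine FiltCx.F_mono ?_ h3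
      have h4 := hdeg b
      have h5 := hdeg c
      have h6 : (G.deg b).toNat = (G.deg c).toNat + 1 := by omega
      rw [h6]
      exact ha _ (by omega)

theorem TT_cx (hdeg : ∀ a, 0 ≤ G.deg a ∧ G.deg a ≤ D) (hS : Shift G C Q) {a : ℕ → ℤ}
    (ha : HC.Va D Q a) : HC.IsCx (totd G C) (TT G C a) := by
  intro j
  rintro _ ⟨x, hx, rfl⟩
  intro c
  rw [totd_apply]
  refine Submodule.add_mem _ (Submodule.sum_mem _ fun b _ => ?_) ?_
  · exact mat_mem hdeg hS ha (hx b).1 (hx b).2
  · refine ⟨?_, ?_⟩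
    · have h2 : G.deg c - (j - 1) = G.deg c - j + 1 := by ring
      rw [h2]
      exact zsmul_mem (C.d_gr _ _ (hx c).1) _
    · exact zsmul_mem (C.d_F _ _ (hx c).2) _

/-- the number of basis elements of degree `i` -/
noncomputable def rk (G : FCx R ι) (i : ℤ) : ℕ := Fintype.card {b // G.deg b = i}

/-- the step lengths -/
noncomputable def stp (G : FCx R ι) (C : FiltCx R X) (i : ℕ) (s m : ℤ) : ℕ∞ :=
  (rk G i : ℕ∞) * sl C s (i - m)

/-- extension by zero of a family indexed by the basis elements of degree `i` -/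
def exz (G : FCx R ι) (i : ℕ) (z : {b // G.deg b = i} → X) : ι → X :=
  fun b => if h : G.deg b = i then z ⟨b, h⟩ else 0

theorem exz_of (i : ℕ) (z : {b // G.deg b = i} → X) (b : ι) (h : G.deg b = i) :
    exz G i z b = z ⟨b, h⟩ := by simp [exz, h]

theorem exz_not (i : ℕ) (z : {b // G.deg b = i} → X) (b : ι) (h : G.deg b ≠ i) :
    exz G i z b = 0 := by simp [exz, h]

theorem TT_step (hdeg : ∀ a, 0 ≤ G.deg a ∧ G.deg a ≤ D) (hS : Shift G C Q) {a : ℕ → ℤ} {i : ℕ}
    (hi : i ≤ D) (ha : HC.Va D Q a) (hb : HC.Va D Q (Function.update a i (a i + 1))) (m : ℤ) :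
    HC.hl (totd G C) (TT G C a) (TT G C (Function.update a i (a i + 1))) m =
      stp G C i (a i) m := by
  classical
  set s := a i with hs
  set k : ℤ := i - m with hk
  set ψ := Function.update a i (s + 1) with hψ
  set Zs : Submodule R X := C.gr k ⊓ C.F s ⊓ (C.F (s + 1)).comap C.d with hZs
  set Bs : Submodule R X := (C.gr k ⊓ C.F (s + 1)) ⊔ (C.gr (k - 1) ⊓ C.F s).map C.d with hBs
  have hψi : ψ i = s + 1 := by rw [hψ, Function.update_self]
  have hψn : ∀ j, j ≠ i → ψ j = a j := fun j hj => by rw [hψ, Function.update_of_ne hj]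
  have haψ : a ≤ ψ := by
    intro j
    show a j ≤ ψ j
    by_cases hj : j = i
    · rw [hj, hψi]; omega
    · rw [hψn j hj]
  have hcx := TT_cx hdeg hS ha
  have hcx' := TT_cx hdeg hS hb
  set Z := HC.Zc (totd G C) (TT G C a) (TT G C ψ) m with hZ
  set W := HC.Bd (totd G C) (TT G C a) (TT G C ψ) m with hW
  have hWZ : W ≤ Z := HC.Bd_le_Zc (totd_totd G C) hcx hcx' (TT_anti haψ) m
  -- the contribution of the neighbours is small
  have hnb : ∀ (x : ι → X) (j : ℤ), x ∈ TT G C a j → ∀ b, G.deg b = i → ∀ c,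
      G.mat b c • x c ∈ C.gr (G.deg b - (j - 1)) ⊓ C.F (s + 1) := by
    intro x j hx b hb' c
    by_cases h : G.mat b c = 0
    · rw [h, zero_smul]; exact Submodule.zero_mem _
    · have h5 := G.hdeg b c h
      have h6 : x c ∈ C.F (ψ (G.deg c).toNat) := by
        rw [hψn _ (by omega)]
        exact (hx c).2
      have h7 := mat_mem hdeg hS hb (c := b) (hx c).1 h6
      rw [hb'] at h7 ⊢
      simpa [hψi] using h7
  -- the components of a cycle
  have hcomp : ∀ x ∈ Z, ∀ b : {b // G.deg b = i}, x b.1 ∈ Zs := by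
    rintro x hx ⟨b, hb'⟩
    have h1 := hx.1 b
    have h2 := hx.2 b
    rw [hb'] at h1 h2
    refine ⟨⟨h1.1, ?_⟩, ?_⟩
    · have := h1.2
      simpa using this
    · have h3 := h2.2
      rw [totd_apply] at h3
      simp only [Int.toNat_natCast, hψi] at h3
      have h4 : (∑ c, G.mat b c • x c) ∈ C.F (s + 1) :=
        Submodule.sum_mem _ fun c _ => (hnb x m hx.1 b hb' c).2
      have h5 : sgn (G.deg b) • C.d (x b) ∈ C.F (s + 1) := by
        have := (C.F (s + 1)).sub_mem h3 h4
        rwa [add_sub_cancel_left] at this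
      have h6 : sgn (G.deg b) • (sgn (G.deg b) • C.d (x b)) ∈ C.F (s + 1) := zsmul_mem h5 _
      rw [smul_smul, sgn_sq, one_smul] at h6
      exact h6
  have hextT : ∀ (z : {b // G.deg b = i} → X) (j : ℤ),
      (∀ b, z b ∈ C.gr (i - j) ⊓ C.F s) → exz G i z ∈ TT G C a j := by
    intro z j hz b
    by_cases h : G.deg b = i
    · rw [exz_of i z b h, h]
      simpa using hz ⟨b, h⟩
    · rw [exz_not i z b h]
      exact ⟨Submodule.zero_mem _, Submodule.zero_mem _⟩
  have hextd : ∀ (z : {b // G.deg b = i} → X) (b : ι) (h : G.deg b = i),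
      totd G C (exz G i z) b = sgn i • C.d (z ⟨b, h⟩) := by
    intro z b h
    rw [totd_apply, exz_of i z b h, h]
    have : ∑ c, G.mat b c • exz G i z c = 0 := by
      refine Finset.sum_eq_zero fun c _ => ?_
      by_cases h1 : G.mat b c = 0
      · rw [h1, zero_smul]
      · have h2 := G.hdeg b c h1
        rw [exz_not i z c (by omega), smul_zero]
    rw [this, zero_add]
  let Φ : Z →ₗ[R] ({b // G.deg b = i} → (Zs ⧸ Bs.comap Zs.subtype)) :=
    LinearMap.pi fun b => (Bs.comap Zs.subtype).mkQ ∘ₗ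
      ((LinearMap.proj b.1 ∘ₗ Z.subtype).codRestrict Zs fun x => hcomp x.1 x.2 b)
  have hΦ : ∀ (x : Z) b, Φ x b = (Bs.comap Zs.subtype).mkQ ⟨x.1 b.1, hcomp x.1 x.2 b⟩ :=
    fun x b => rfl
  have hsurj : Function.Surjective Φ := by
    intro y
    choose z hz using fun b => Submodule.mkQ_surjective (Bs.comap Zs.subtype) (y b)
    have h1 : exz G i (fun b => (z b).1) ∈ TT G C a m := by
      refine hextT _ m fun b => ?_
      exact (z b).2.1
    have h2 : exz G i (fun b => (z b).1) ∈ Z := by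
      refine ⟨h1, ?_⟩
      intro b
      have h3 := hcx.mem h1 b
      refine ⟨h3.1, ?_⟩
      by_cases h : G.deg b = i
      · rw [hextd _ b h, h]
        simp only [Int.toNat_natCast, hψi]
        have h12 : C.d (z ⟨b, h⟩ : X) ∈ C.F (s + 1) := (z ⟨b, h⟩).2.2
        exact zsmul_mem h12 _
      · show _ ∈ C.F (ψ (G.deg b).toNat)
        rw [hψn (G.deg b).toNat (by have := hdeg b; omega)]
        exact h3.2
    refine ⟨⟨_, h2⟩, ?_⟩
    funext b
    rw [hΦ, ← hz b]
    congr 1
    apply Subtype.ext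
    exact exz_of i (fun b => (z b).1) b.1 b.2
  have hker : LinearMap.ker Φ = W.comap Z.subtype := by
    ext x
    rw [LinearMap.mem_ker]
    constructor
    · intro hx
      have h1 : ∀ b : {b // G.deg b = i}, x.1 b.1 ∈ Bs := by
        intro b
        have h2 := congrFun hx b
        rw [hΦ] at h2
        exact (Submodule.Quotient.mk_eq_zero (Bs.comap Zs.subtype)).1 h2
      have h3 : ∀ b : {b // G.deg b = i}, ∃ v ∈ C.gr (k - 1) ⊓ C.F s,
          x.1 b.1 - C.d v ∈ C.gr k ⊓ C.F (s + 1) := by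
        intro b
        obtain ⟨u, hu, w, ⟨v, hv, rfl⟩, h4⟩ := Submodule.mem_sup.1 (h1 b)
        refine ⟨v, hv, ?_⟩
        rw [← h4, add_sub_cancel_right]
        exact hu
      choose v hv hv' using h3
      have h4 : exz G i (fun b => sgn i • v b) ∈ TT G C a (m + 1) := by
        refine hextT _ (m + 1) fun b => ?_
        have h5 : (i : ℤ) - (m + 1) = k - 1 := by rw [hk]; ring
        rw [h5]
        exact ⟨zsmul_mem (hv b).1 _, zsmul_mem (hv b).2 _⟩
      have h6 : x.1 - totd G C (exz G i fun b => sgn i • v b) ∈ TT G C ψ m := by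
        intro b
        have h7 := hcx.mem' h4 b
        have h8 := x.2.1 b
        refine ⟨(C.gr _).sub_mem h8.1 h7.1, ?_⟩
        by_cases h : G.deg b = i
        · rw [Pi.sub_apply, hextd _ b h, map_zsmul, smul_smul, sgn_sq, one_smul, h]
          simp only [Int.toNat_natCast, hψi]
          exact (hv' ⟨b, h⟩).2
        · show _ ∈ C.F (ψ (G.deg b).toNat)
          rw [hψn (G.deg b).toNat (by have := hdeg b; omega)]
          exact (C.F _).sub_mem h8.2 h7.2
      have h9 : x.1 = (x.1 - totd G C (exz G i fun b => sgn i • v b)) +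
          totd G C (exz G i fun b => sgn i • v b) := by abel
      show x.1 ∈ W
      rw [h9]
      exact Submodule.add_mem_sup h6 ⟨_, h4, rfl⟩
    · intro hx
      have hx' : x.1 ∈ W := hx
      obtain ⟨u, hu, w, ⟨y, hy, rfl⟩, h4⟩ := Submodule.mem_sup.1 hx'
      funext b
      rw [hΦ]
      refine (Submodule.Quotient.mk_eq_zero _).2 ?_
      show x.1 b.1 ∈ Bs
      rw [← h4, Pi.add_apply, totd_apply]
      have h5 := hu b.1
      rw [b.2] at h5
      have h6 : u b.1 ∈ C.gr k ⊓ C.F (s + 1) := ⟨h5.1, by simpa [hψi] using h5.2⟩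
      have h7 : (∑ c, G.mat b.1 c • y c) ∈ C.gr k ⊓ C.F (s + 1) := by
        refine Submodule.sum_mem _ fun c _ => ?_
        have := hnb y (m + 1) hy b.1 b.2 c
        rw [b.2, add_sub_cancel_right] at this
        exact this
      have h8 := hy b.1
      rw [b.2] at h8
      have h9 : sgn (G.deg b.1) • C.d (y b.1) ∈ (C.gr (k - 1) ⊓ C.F s).map C.d := by
        have h10 : k - 1 = (i : ℤ) - (m + 1) := by rw [hk]; ring
        have h11 : C.d (y b.1) ∈ (C.gr (k - 1) ⊓ C.F s).map C.d := by
          refine ⟨y b.1, ⟨?_, by simpa using h8.2⟩, rfl⟩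
          rw [h10]
          exact h8.1
        exact zsmul_mem h11 _
      rw [← add_assoc]
      exact Submodule.add_mem_sup (Submodule.add_mem _ h6 h7) h9
  show Module.length R (Z ⧸ W.comap Z.subtype) = _
  rw [← hker, (LinearMap.quotKerEquivOfSurjective Φ hsurj).length_eq,
    Module.length_pi_of_fintype]
  unfold stp rk sl rlen
  rw [Finset.sum_const, Finset.card_univ, nsmul_eq_mul]
  rfl

end Vale.Agent.P202C
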