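import Vale.Agent.P202C.Fam

/-!
# P202C, part I: the main inequality for total families
-/

set_option autoImplicit false

namespace Vale.Agent.P202C

open Finset

universe u v

variable {R : Type u} [CommRing R] {ι : Type} [Fintype ι] {G : FCx R ι}
  {X : Type v} [AddCommGroup X] [Module R X] {C : FiltCx R X} {D : ℕ} {Q : ℤ}

theorem TT_Tw (hdeg : ∀ a, 0 ≤ G.deg a ∧ G.deg a ≤ D) (hS : Shift G C Q) :
    HC.Tw (totd G C) D Q (TT G C) (stp G C) :=
  ⟨totd_totd G C, fun _ _ h => TT_anti h, fun _ ha => TT_cx hdeg hS ha,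
    fun _ _ hi ha hb m => TT_step hdeg hS hi ha hb m⟩

theorem totd_exz (i : ℕ) (z : {b // G.deg b = i} → X) (b : ι) (h : (i : ℤ) ≤ G.deg b) :
    totd G C (exz G i z) b = if h : G.deg b = i then sgn i • C.d (z ⟨b, h⟩) else 0 := by
  have h0 : ∑ c, G.mat b c • exz G i z c = 0 := by
    refine Finset.sum_eq_zero fun c _ => ?_
    by_cases h1 : G.mat b c = 0
    · rw [h1, zero_smul]
    · have h2 := G.hdeg b c h1
      rw [exz_not i z c (by omega), smul_zero]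
  rw [totd_apply, h0, zero_add]
  split_ifs with h1
  · rw [exz_of i z b h1, h1]
  · rw [exz_not i z b h1, map_zero, smul_zero]

/-- exactness of the columns implies exactness of the total complex -/
theorem TT_exact (hdeg : ∀ a, 0 ≤ G.deg a ∧ G.deg a ≤ D) (hS : Shift G C Q) {a : ℕ → ℤ}
    (ha : HC.Va D Q a) (m : ℤ)
    (hex : ∀ i : ℕ, i ≤ D → ∀ x ∈ C.gr (i - m) ⊓ C.F (a i), C.d x = 0 →
      ∃ y ∈ C.gr (i - m - 1) ⊓ C.F (a i), C.d y = x)
    (x : ι → X) (hx : x ∈ TT G C a m) (hx0 : totd G C x = 0) :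
    ∃ y ∈ TT G C a (m + 1), totd G C y = x := by
  classical
  have hcx := TT_cx hdeg hS ha
  have key : ∀ j : ℕ, j ≤ D + 1 → ∃ y ∈ TT G C a (m + 1), ∀ b, (D : ℤ) + 1 - j ≤ G.deg b →
      (x - totd G C y) b = 0 := by
    intro j
    induction j with
    | zero =>
      intro _
      refine ⟨0, Submodule.zero_mem _, fun b hb => ?_⟩
      have := hdeg b
      simp only [Nat.cast_zero, sub_zero] at hb
      omega
    | succ j ih =>
      intro hj
      obtain ⟨y, hy, hz⟩ := ih (by omega)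
      set i : ℕ := D - j with hi
      have hiD : i ≤ D := by omega
      have hij : (D : ℤ) + 1 - (j + 1 : ℕ) = i := by push_cast; omega
      set x' := x - totd G C y with hx'
      have hx'T : x' ∈ TT G C a m := Submodule.sub_mem _ hx (hcx.mem' hy)
      have hx'0 : totd G C x' = 0 := by rw [hx', map_sub, hx0, totd_totd, sub_zero]
      have h1 : ∀ b : {b // G.deg b = i}, ∃ v ∈ C.gr (i - m - 1) ⊓ C.F (a i), C.d v = x' b.1 := by
        rintro ⟨b, hb⟩
        have h2 := hx'T b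
        rw [hb] at h2
        refine hex i hiD (x' b) ⟨h2.1, by simpa using h2.2⟩ ?_
        have h3 := congrFun hx'0 b
        rw [totd_apply] at h3
        have h4 : ∑ c, G.mat b c • x' c = 0 := by
          refine Finset.sum_eq_zero fun c _ => ?_
          by_cases h5 : G.mat b c = 0
          · rw [h5, zero_smul]
          · have h6 := G.hdeg b c h5
            rw [hz c (by omega), smul_zero]
        rw [h4, zero_add] at h3
        have h7 : sgn (G.deg b) • (sgn (G.deg b) • C.d (x' b)) = 0 := by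
          have h8 : sgn (G.deg b) • C.d (x' b) = 0 := h3
          rw [h8, smul_zero]
        rwa [smul_smul, sgn_sq, one_smul] at h7
      choose v hv hv' using h1
      have h2 : exz G i (fun b => sgn i • v b) ∈ TT G C a (m + 1) := by
        intro b
        by_cases h : G.deg b = i
        · rw [exz_of i _ b h, h]
          have h3 : (i : ℤ) - (m + 1) = i - m - 1 := by ring
          refine ⟨?_, ?_⟩
          · show _ ∈ C.gr ((i : ℤ) - (m + 1))
            rw [h3]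
            exact zsmul_mem (hv ⟨b, h⟩).1 _
          · simp only [Int.toNat_natCast]
            exact zsmul_mem (hv ⟨b, h⟩).2 _
        · rw [exz_not i _ b h]
          exact ⟨Submodule.zero_mem _, Submodule.zero_mem _⟩
      refine ⟨y + exz G i (fun b => sgn i • v b), Submodule.add_mem _ hy h2, fun b hb => ?_⟩
      rw [hij] at hb
      rw [map_add, ← sub_sub, ← hx', Pi.sub_apply, totd_exz i _ b hb]
      split_ifs with h
      · rw [map_zsmul, smul_smul, sgn_sq, one_smul, hv' ⟨b, h⟩, sub_self]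
      · rw [sub_zero]
        exact hz b (by omega)
  obtain ⟨y, hy, hz⟩ := key (D + 1) le_rfl
  refine ⟨y, hy, ?_⟩
  funext b
  have h1 := hz b (by have := hdeg b; push_cast; omega)
  rw [Pi.sub_apply, sub_eq_zero] at h1
  exact h1.symm

theorem hl_eq_zero_of_exact {a : ℕ → ℤ} {m : ℤ}
    (h : ∀ x ∈ TT G C a m, totd G C x = 0 → ∃ y ∈ TT G C a (m + 1), totd G C y = x) :
    HC.hl (totd G C) (TT G C a) HC.Z0 m = 0 := by
  refine HC.ql_eq_zero.2 ?_
  rintro x ⟨hx, hx0⟩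
  obtain ⟨y, hy, hyx⟩ := h x hx ((Submodule.mem_bot R).1 hx0)
  exact Submodule.mem_sup_right ⟨y, hy, hyx⟩

theorem stp_FW {n : ℕ} (hsl : ∀ s k, sl C s k ≠ ⊤) (hsl0 : ∀ s k, (k < 0 ∨ (n : ℤ) < k) → sl C s k = 0)
    (i : ℕ) (hi : i ≤ D) (s : ℤ) : HC.FW (D + n) (stp G C i s) := by
  refine ⟨fun m => ?_, fun m hm => ?_⟩
  · unfold stp
    exact WithTop.mul_ne_top (WithTop.coe_ne_top) (hsl _ _)
  · unfold stp
    rw [hsl0 _ _ (by push_cast at hm; omega), mul_zero]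

theorem sg_eq (m : ℤ) : HC.sg m = (-1) ^ m.natAbs := by
  unfold HC.sg
  split_ifs with h
  · rw [Even.neg_one_pow (Int.natAbs_even.2 h)]
  · rw [Odd.neg_one_pow (Int.natAbs_odd.2 (Int.not_even_iff_odd.1 h))]

theorem sg_sub (i k : ℤ) : HC.sg (i - k) = HC.sg i * HC.sg k := by
  unfold HC.sg
  by_cases h1 : Even i <;> by_cases h2 : Even k <;> simp [h1, h2, Int.even_sub]

theorem ch_stp {n : ℕ} (hsl : ∀ s k, sl C s k ≠ ⊤)
    (hsl0 : ∀ s k, (k < 0 ∨ (n : ℤ) < k) → sl C s k = 0) (i : ℕ) (hi : i ≤ D) (s : ℤ) :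
    HC.ch (D + n) (stp G C i s) = (-1) ^ i * (rk G i : ℤ) * slEul C n s := by
  unfold HC.ch slEul
  have h1 : ∑ m ∈ Finset.Icc (-((D + n : ℕ) : ℤ)) (D + n : ℕ), HC.sg m * ((stp G C i s m).toNat : ℤ) =
      ∑ k ∈ Finset.Icc ((i : ℤ) - (D + n : ℕ)) (i + (D + n : ℕ)),
        HC.sg (i - k) * ((rk G i : ℤ) * ((sl C s k).toNat : ℤ)) := by
    refine Finset.sum_bij' (fun m _ => (i : ℤ) - m) (fun k _ => (i : ℤ) - k) ?_ ?_ ?_ ?_ ?_
    · intro m hm
      simp only [Finset.mem_Icc] at hm ⊢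
      omega
    · intro m hm
      simp only [Finset.mem_Icc] at hm ⊢
      omega
    · intro m _; ring
    · intro m _; ring
    · intro m _
      have h2 : (i : ℤ) - (i - m) = m := by ring
      rw [h2]
      unfold stp
      congr 1
      obtain ⟨c, hc⟩ := ENat.ne_top_iff_exists.1 (hsl s (i - m))
      rw [← hc]
      have : ((rk G i : ℕ∞) * (c : ℕ∞)).toNat = rk G i * c := by
        rw [← Nat.cast_mul]; simp
      rw [this]
      simp
  rw [h1]
  have h3 : ∑ k ∈ Finset.Icc ((i : ℤ) - (D + n : ℕ)) (i + (D + n : ℕ)),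
        HC.sg (i - k) * ((rk G i : ℤ) * ((sl C s k).toNat : ℤ)) =
      ∑ k ∈ Finset.Icc (0 : ℤ) n, HC.sg (i - k) * ((rk G i : ℤ) * ((sl C s k).toNat : ℤ)) := by
    symm
    refine Finset.sum_subset ?_ ?_
    · intro k hk
      simp only [Finset.mem_Icc] at hk ⊢
      push_cast
      omega
    · intro k _ hk
      simp only [Finset.mem_Icc] at hk
      rw [hsl0 s k (by omega)]
      simp
  rw [h3]
  have h4 : ∑ k ∈ Finset.Icc (0 : ℤ) n, HC.sg (i - k) * ((rk G i : ℤ) * ((sl C s k).toNat : ℤ)) =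
      ∑ k ∈ Finset.range (n + 1), HC.sg (i - k) * ((rk G i : ℤ) * ((sl C s (k : ℤ)).toNat : ℤ)) := by
    refine Finset.sum_bij' (fun k _ => k.toNat) (fun k _ => (k : ℤ)) ?_ ?_ ?_ ?_ ?_
    · intro k hk
      simp only [Finset.mem_Icc, Finset.mem_range] at hk ⊢
      omega
    · intro k hk
      simp only [Finset.mem_Icc, Finset.mem_range] at hk ⊢
      omega
    · intro k hk
      simp only [Finset.mem_Icc] at hk
      omega
    · intro k _; simp
    · intro k hk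
      simp only [Finset.mem_Icc] at hk
      have : ((k.toNat : ℕ) : ℤ) = k := by omega
      rw [this]
  rw [h4, Finset.mul_sum]
  refine Finset.sum_congr rfl fun k _ => ?_
  rw [sg_sub, sg_eq, sg_eq, Int.natAbs_natCast, Int.natAbs_natCast]
  ring

theorem main_TT (hdeg : ∀ a, 0 ≤ G.deg a ∧ G.deg a ≤ D) (hS : Shift G C Q) (hQ : 0 ≤ Q) {n : ℕ}
    (hsl : ∀ s k, sl C s k ≠ ⊤) (hsl0 : ∀ s k, (k < 0 ∨ (n : ℤ) < k) → sl C s k = 0)
    {N : ℤ} (hN : 0 ≤ N)
    (hcontr : ∀ m, ∀ x ∈ TT G C (HC.pF D Q 0) m, totd G C x = 0 →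
      ∃ y ∈ TT G C (HC.pF D Q N) (m + 1), totd G C y = x)
    (hlow : ∀ i : ℕ, i ≤ D → ∀ s : ℤ, s < (1 - i) * Q → ∀ k : ℤ, k + 2 ≤ i → sl C s k = 0)
    (hhigh : ∀ i : ℕ, i ≤ D → ∀ s : ℤ, (1 - i) * Q ≤ s → s < 0 → ∀ k : ℤ, i < k → sl C s k = 0)
    (hF : ∀ s, 0 ≤ s → ∀ k, 1 ≤ k → ∀ x ∈ C.gr k ⊓ C.F s, C.d x = 0 →
      ∃ y ∈ C.gr (k - 1) ⊓ C.F s, C.d y = x) :
    HC.FW (D + n + 1) (HC.hl (totd G C) (TT G C fun _ => 0) HC.Z0) ∧
    (rk G 0 : ℤ) * ∑ s ∈ Finset.Ico 0 Q, slEul C n s -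
      ∑ i ∈ range (D + 1), (-1) ^ i * (rk G i : ℤ) *
        ∑ s ∈ Finset.Ico ((1 - (i : ℤ)) * Q) 0, slEul C n s ≤
      HC.ch (D + n + 1) (HC.hl (totd G C) (TT G C fun _ => 0) HC.Z0) := by
  have hT := TT_Tw hdeg hS
  have hz : ∀ m, HC.Zc (totd G C) (TT G C (HC.pF D Q 0)) HC.Z0 m ≤
      HC.Bd (totd G C) (TT G C (HC.pF D Q N)) HC.Z0 m := by
    rintro m x ⟨hx, hx0⟩
    obtain ⟨y, hy, hyx⟩ := hcontr m x hx ((Submodule.mem_bot R).1 hx0)
    exact Submodule.mem_sup_right ⟨y, hy, hyx⟩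
  have hK0 : ∀ m < 0, HC.hl (totd G C) (TT G C (HC.pK Q)) HC.Z0 m = 0 := by
    intro m hm
    refine hl_eq_zero_of_exact fun x hx hx0 => ?_
    refine TT_exact hdeg hS (HC.Va_pK D hQ) m (fun i _ x hx hx0 => ?_) x hx hx0
    have h1 : 0 ≤ HC.pK Q i := by
      unfold HC.pK
      split_ifs <;> omega
    exact hF _ h1 _ (by omega) x hx hx0
  have hmain := HC.Tw.main hT hQ (fun i hi s => stp_FW (G := G) hsl hsl0 i hi s) hN hz hK0
  refine ⟨hmain.1, le_trans (le_of_eq ?_) hmain.2⟩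
  have e1 : ∑ m ∈ Finset.Icc (1 : ℤ) (D + n + 1 : ℕ), ∑ i ∈ range (D + 1),
        ∑ s ∈ Finset.Ico ((1 - (i : ℤ)) * Q - N) ((1 - i) * Q),
          ((stp G C i s (m + 1)).toNat : ℤ) = 0 := by
    refine Finset.sum_eq_zero fun m hm => Finset.sum_eq_zero fun i hi =>
      Finset.sum_eq_zero fun s hs => ?_
    have h1 := (Finset.mem_Icc.1 hm).1
    have h2 := (Finset.mem_Ico.1 hs).2
    have h3 : i ≤ D := by have := Finset.mem_range.1 hi; omega
    unfold stp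
    rw [hlow i h3 s h2 _ (by omega)]
    simp
  have e2 : ∑ m ∈ Finset.Icc (-((D + n + 1 : ℕ) : ℤ)) (-1), ∑ i ∈ range (D + 1),
        ∑ s ∈ Finset.Ico ((1 - (i : ℤ)) * Q) 0, ((stp G C i s m).toNat : ℤ) = 0 := by
    refine Finset.sum_eq_zero fun m hm => Finset.sum_eq_zero fun i hi =>
      Finset.sum_eq_zero fun s hs => ?_
    have h1 := (Finset.mem_Icc.1 hm).2
    have h2 := Finset.mem_Ico.1 hs
    have h3 : i ≤ D := by have := Finset.mem_range.1 hi; omega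
    unfold stp
    rw [hhigh i h3 s h2.1 h2.2 _ (by omega)]
    simp
  rw [e1, e2, sub_zero, sub_zero]
  congr 1
  · rw [Finset.mul_sum]
    refine Finset.sum_congr rfl fun s _ => ?_
    rw [ch_stp hsl hsl0 0 (by omega) s]
    simp
  · refine Finset.sum_congr rfl fun i hi => ?_
    have h3 : i ≤ D := by have := Finset.mem_range.1 hi; omega
    rw [Finset.mul_sum]
    exact Finset.sum_congr rfl fun s _ => (ch_stp hsl hsl0 i h3 s).symm

omit [Fintype ι] in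
/-- alternating sums over windows -/
theorem eul_eq {δ : (ι → X) →ₗ[R] (ι → X)} {A B : ℤ → Submodule R (ι → X)} {w N : ℕ} (hw : w < N)
    (h : HC.FW w (hl δ A B)) : eul δ A B N = HC.ch w (hl δ A B) := by
  unfold eul HC.ch
  symm
  have h1 : ∑ j ∈ Finset.Ico (-(N : ℤ)) N, (-1 : ℤ) ^ j.natAbs * ((hl δ A B j).toNat : ℤ) =
      ∑ j ∈ Finset.Ico (-(N : ℤ)) N, HC.sg j * ((hl δ A B j).toNat : ℤ) :=
    Finset.sum_congr rfl fun j _ => by rw [sg_eq]
  rw [h1]
  refine Finset.sum_subset ?_ ?_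
  · intro j hj
    simp only [Finset.mem_Icc, Finset.mem_Ico] at hj ⊢
    omega
  · intro j _ hj
    simp only [Finset.mem_Icc] at hj
    rw [h.supp j (by omega)]
    simp

/-- **The main inequality**, in the notation of `Defs.lean`. -/
theorem main_fam (hdeg : ∀ a, 0 ≤ G.deg a ∧ G.deg a ≤ D) (hS : Shift G C Q) (hQ : 0 ≤ Q) {n : ℕ}
    (hsl : ∀ s k, sl C s k ≠ ⊤) (hsl0 : ∀ s k, (k < 0 ∨ (n : ℤ) < k) → sl C s k = 0)
    {N : ℤ} (hN : 0 ≤ N)
    (hcontr : ∀ m, ∀ x ∈ fam G C (fun i => (1 - i) * Q) m, totd G C x = 0 →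
      ∃ y ∈ fam G C (fun i => (1 - i) * Q - N) (m + 1), totd G C y = x)
    (hlow : ∀ i : ℕ, i ≤ D → ∀ s : ℤ, s < (1 - i) * Q → ∀ k : ℤ, k + 2 ≤ i → sl C s k = 0)
    (hhigh : ∀ i : ℕ, i ≤ D → ∀ s : ℤ, (1 - i) * Q ≤ s → s < 0 → ∀ k : ℤ, i < k → sl C s k = 0)
    (hF : ∀ s, 0 ≤ s → ∀ k, 1 ≤ k → ∀ x ∈ C.gr k ⊓ C.F s, C.d x = 0 →
      ∃ y ∈ C.gr (k - 1) ⊓ C.F s, C.d y = x) (W : ℕ) (hW : D + n + 1 < W) :
    (∀ j, hl (totd G C) (botF R (ι → X)) (fam G C fun _ => 0) j ≠ ⊤) ∧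
    (∀ j : ℤ, (j < -((D + n + 1 : ℕ) : ℤ) ∨ ((D + n + 1 : ℕ) : ℤ) < j) →
      hl (totd G C) (botF R (ι → X)) (fam G C fun _ => 0) j = 0) ∧
    (rk G 0 : ℤ) * ∑ s ∈ Finset.Ico 0 Q, slEul C n s -
      ∑ i ∈ range (D + 1), (-1) ^ i * (rk G i : ℤ) *
        ∑ s ∈ Finset.Ico ((1 - (i : ℤ)) * Q) 0, slEul C n s ≤
      eul (totd G C) (botF R (ι → X)) (fam G C fun _ => 0) W := by
  have hfam : ∀ (N : ℤ) (j : ℤ), fam G C (fun i => (1 - i) * Q - N) j = TT G C (HC.pF D Q N) j := by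
    intro N j
    ext x
    refine forall_congr' fun b => ?_
    have h1 := hdeg b
    have h2 : HC.pF D Q N (G.deg b).toNat = (1 - G.deg b) * Q - N := by
      unfold HC.pF
      rw [if_pos (by omega), Int.toNat_of_nonneg h1.1]
    show x b ∈ C.gr (G.deg b - j) ⊓ C.F ((1 - G.deg b) * Q - N) ↔
      x b ∈ C.gr (G.deg b - j) ⊓ C.F (HC.pF D Q N (G.deg b).toNat)
    rw [h2]
  have hfam0 : ∀ (j : ℤ), fam G C (fun i => (1 - i) * Q) j = TT G C (HC.pF D Q 0) j := by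
    intro j
    rw [← hfam 0 j]
    simp only [sub_zero]
  have hm := main_TT hdeg hS hQ hsl hsl0 hN (fun m x hx hx0 => by
    rw [← hfam0] at hx
    obtain ⟨y, hy, hyx⟩ := hcontr m x hx hx0
    rw [hfam] at hy
    exact ⟨y, hy, hyx⟩) hlow hhigh hF
  have he : hl (totd G C) (botF R (ι → X)) (fam G C fun _ => 0) =
      HC.hl (totd G C) (TT G C fun _ => 0) HC.Z0 := rfl
  have h1 : HC.FW (D + n + 1) (hl (totd G C) (botF R (ι → X)) (fam G C fun _ => 0)) := hm.1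
  refine ⟨h1.fin, h1.supp, ?_⟩
  rw [eul_eq hW h1]
  exact hm.2

end Vale.Agent.P202C
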