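import Mathlib

/-!
P202 in characteristic p: lengths over `R` and over `S`.
-/

set_option autoImplicit false

namespace Vale.Agent.P202C

open IsLocalRing

universe u v w

theorem fin_length_le (R : Type u) (S : Type v) [CommRing R] [CommRing S] [IsLocalRing S]
    [Algebra R S] (M : Type w) [AddCommGroup M] [Module S M] (h : IsFiniteLength S M) :
    ∀ [Module R M] [IsScalarTower R S M],
      Module.length R M ≤ Module.length R (S ⧸ maximalIdeal S) * Module.length S M := by
  induction h with
  | of_subsingleton =>
    intro _ _
    rw [Module.length_eq_zero]
    exact zero_le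
  | @of_simple_quotient M _ _ N hs hN ih =>
    intro _ _
    obtain ⟨I, hI, ⟨φ⟩⟩ := isSimpleModule_iff_quot_maximal.mp hs
    have hI' : I = maximalIdeal S := IsLocalRing.eq_maximalIdeal hI
    subst hI'
    have h1 : Module.length R M = Module.length R N + Module.length R (M ⧸ N) :=
      Module.length_eq_add_of_exact (N.subtype.restrictScalars R)
        (N.mkQ.restrictScalars R) N.injective_subtype N.mkQ_surjective
        (by exact LinearMap.exact_subtype_mkQ N)
    have h2 : Module.length S M = Module.length S N + Module.length S (M ⧸ N) :=
      Module.length_eq_add_of_exact N.subtype N.mkQ N.injective_subtype N.mkQ_surjective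
        (LinearMap.exact_subtype_mkQ N)
    have h3 : Module.length S (M ⧸ N) = 1 := Module.length_eq_one_iff.mpr hs
    have h4 : Module.length R (M ⧸ N) = Module.length R (S ⧸ maximalIdeal S) :=
      (φ.restrictScalars R).length_eq
    rw [h1, h2, h3, h4, mul_add, mul_one]
    exact add_le_add ih le_rfl

end Vale.Agent.P202C
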