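import Mathlib

/-!
P202 in characteristic p: the limit over the powers of Frobenius.
-/

set_option autoImplicit false

namespace Vale.Agent.P202C

theorem fin_pow_add_le (Q c : ℝ) (hQ : 1 ≤ Q) (hc : 0 ≤ c) (n : ℕ) :
    (Q + c) ^ (n + 1) ≤ Q ^ (n + 1) + (n + 1) * c * (1 + c) ^ n * Q ^ n := by
  have hQ0 : 0 ≤ Q := by linarith
  induction n with
  | zero => simp
  | succ n ih =>
    have h1 : (Q + c) ^ (n + 1) ≤ (1 + c) ^ (n + 1) * Q ^ (n + 1) := by
      rw [← mul_pow]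
      refine pow_le_pow_left₀ (by linarith) ?_ _
      nlinarith
    calc (Q + c) ^ (n + 1 + 1) = Q * (Q + c) ^ (n + 1) + c * (Q + c) ^ (n + 1) := by ring
      _ ≤ Q * (Q ^ (n + 1) + (n + 1) * c * (1 + c) ^ n * Q ^ n) +
          c * ((1 + c) ^ (n + 1) * Q ^ (n + 1)) := by gcongr
      _ = Q ^ (n + 1 + 1) + ((n + 1) * c * (1 + c) ^ n + c * (1 + c) ^ (n + 1)) * Q ^ (n + 1) := by
          ring
      _ ≤ Q ^ (n + 1 + 1) + (((n + 1 : ℕ) : ℝ) + 1) * c * (1 + c) ^ (n + 1) * Q ^ (n + 1) := by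
          have h2 : (1 + c) ^ n ≤ (1 + c) ^ (n + 1) :=
            pow_le_pow_right₀ (by linarith) (by omega)
          have h3 : ((n : ℝ) + 1) * c * (1 + c) ^ n ≤ (n + 1) * c * (1 + c) ^ (n + 1) := by
            gcongr
          have h4 : ((n + 1) * c * (1 + c) ^ n + c * (1 + c) ^ (n + 1)) ≤
              (((n + 1 : ℕ) : ℝ) + 1) * c * (1 + c) ^ (n + 1) := by
            push_cast
            linarith
          gcongr

/-- if `A * Q^(n+1) - C * Q^n ≤ B * (Q+c)^(n+1)` for arbitrarily large `Q` then `A ≤ B`. -/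
theorem fin_limit (A B C : ℝ) (c n : ℕ) (hB : 0 ≤ B)
    (h : ∀ K : ℕ, ∃ Q : ℕ, K ≤ Q ∧
      A * (Q : ℝ) ^ (n + 1) - C * (Q : ℝ) ^ n ≤ B * ((Q : ℝ) + c) ^ (n + 1)) : A ≤ B := by
  by_contra hAB
  push Not at hAB
  set W : ℝ := |C| + B * ((n + 1) * c * (1 + c) ^ n) with hW
  obtain ⟨K, hK⟩ := exists_nat_gt (W / (A - B))
  obtain ⟨Q, hQ, hq⟩ := h (K + 1)
  have hQ1 : (1 : ℝ) ≤ Q := by
    have : 1 ≤ Q := by omega
    exact_mod_cast this
  have h1 := fin_pow_add_le (Q : ℝ) c hQ1 (by positivity) n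
  have h2 : A * (Q : ℝ) ^ (n + 1) - C * (Q : ℝ) ^ n ≤
      B * ((Q : ℝ) ^ (n + 1) + (n + 1) * c * (1 + c) ^ n * (Q : ℝ) ^ n) :=
    hq.trans (mul_le_mul_of_nonneg_left h1 hB)
  have hpos : (0 : ℝ) < (Q : ℝ) ^ n := by positivity
  have h3 : (A - B) * Q ≤ W := by
    have h4 : ((A - B) * Q) * (Q : ℝ) ^ n ≤ W * (Q : ℝ) ^ n := by
      have h5 : C * (Q : ℝ) ^ n ≤ |C| * (Q : ℝ) ^ n :=
        mul_le_mul_of_nonneg_right (le_abs_self C) hpos.le
      rw [hW]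
      have h6 : (Q : ℝ) ^ (n + 1) = Q * (Q : ℝ) ^ n := by ring
      rw [h6] at h2
      nlinarith
    exact le_of_mul_le_mul_right h4 hpos
  have h4 : W < (A - B) * Q := by
    have h5 : W / (A - B) < Q := by
      have : (K : ℝ) ≤ Q := by
        have : K ≤ Q := by omega
        exact_mod_cast this
      linarith
    rw [div_lt_iff₀ (by linarith)] at h5
    linarith
  linarith

end Vale.Agent.P202C
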