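import Vale.Agent.P202C.Blk

/-!
P202C, module FLAT (helper16): `R` is flat over `𝔽[Y]` if `y` is a regular sequence.
Elementary local criterion of flatness by relations.
-/

set_option autoImplicit false

namespace Vale.Agent.P202C.Flat

open IsLocalRing Pointwise

universe u v w

section Core

variable {A : Type w} [CommRing A] {R : Type u} [CommRing R] (f : A →+* R)

/-- the relation `x r0 + ∑ a i r i = 0` is trivial -/
def TR (x : A) {ι : Type} [Fintype ι] (a : ι → A) (r0 : R) (r : ι → R) : Prop :=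
  ∃ (κ : Type) (_ : Fintype κ) (b0 : κ → A) (b : ι → κ → A) (s : κ → R),
    (r0 = ∑ j, f (b0 j) * s j) ∧ (∀ i, r i = ∑ j, f (b i j) * s j) ∧
      ∀ j, x * b0 j + ∑ i, a i * b i j = 0

/-- flatness modulo `x`, as a statement on relations -/
def FlatMod (x : A) : Prop :=
  ∀ (ι : Type) [Fintype ι] (a : ι → A) (r0 : R) (r : ι → R),
    f x * r0 + ∑ i, f (a i) * r i = 0 →
    ∃ (κ : Type) (_ : Fintype κ) (c : κ → A) (b : ι → κ → A) (s : κ → R) (t : ι → R),
      (∀ i, r i = ∑ j, f (b i j) * s j + f x * t i) ∧ ∀ j, x * c j = ∑ i, a i * b i j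

theorem tr_one {x : A} (hreg : ∀ z : R, f x * z = 0 → z = 0) (hfl : FlatMod f x)
    {ι : Type} [Fintype ι] (a : ι → A) (r0 : R) (r : ι → R)
    (h : f x * r0 + ∑ i, f (a i) * r i = 0) : TR f x a r0 r := by
  classical
  obtain ⟨κ, _, c, b, s, t, h1, h2⟩ := hfl ι a r0 r h
  refine ⟨κ ⊕ ι, inferInstance, Sum.elim (fun j => - c j) (fun i => - a i),
    fun i => Sum.elim (b i) (fun i' => if i' = i then x else 0), Sum.elim s t, ?_, ?_, ?_⟩
  · have h3 : f x * (r0 + (∑ j, f (c j) * s j + ∑ i, f (a i) * t i)) = 0 := by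
      rw [mul_add, mul_add, Finset.mul_sum, Finset.mul_sum]
      have h4 : ∑ i, f (a i) * r i =
          ∑ j, f x * (f (c j) * s j) + ∑ i, f x * (f (a i) * t i) := by
        calc ∑ i, f (a i) * r i
            = ∑ i, (∑ j, f (a i) * (f (b i j) * s j) + f (a i) * (f x * t i)) := by
              refine Finset.sum_congr rfl fun i _ => ?_
              rw [h1 i, mul_add, Finset.mul_sum]
          _ = ∑ i, ∑ j, f (a i) * (f (b i j) * s j) + ∑ i, f (a i) * (f x * t i) :=
              Finset.sum_add_distrib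
          _ = ∑ j, f x * (f (c j) * s j) + ∑ i, f x * (f (a i) * t i) := by
              congr 1
              · rw [Finset.sum_comm]
                refine Finset.sum_congr rfl fun j _ => ?_
                have h5 := congrArg f (h2 j)
                rw [map_mul, map_sum] at h5
                rw [← mul_assoc, h5, Finset.sum_mul]
                refine Finset.sum_congr rfl fun i _ => ?_
                rw [map_mul]; ring
              · refine Finset.sum_congr rfl fun i _ => ?_
                ring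
      rw [← h4]
      exact h
    have h6 := hreg _ h3
    rw [Fintype.sum_sum_type]
    simp only [Sum.elim_inl, Sum.elim_inr, map_neg, neg_mul, Finset.sum_neg_distrib]
    linear_combination h6
  · intro i
    rw [Fintype.sum_sum_type]
    simp only [Sum.elim_inl, Sum.elim_inr]
    rw [h1 i]
    congr 1
    rw [Finset.sum_eq_single i]
    · simp
    · intro j _ hj
      simp [hj]
    · intro hi
      exact absurd (Finset.mem_univ i) hi
  · intro j
    rcases j with j | i'
    · simp only [Sum.elim_inl]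
      rw [← h2 j]; ring
    · simp only [Sum.elim_inr]
      rw [Finset.sum_eq_single i']
      · simp; ring
      · intro i _ hi
        rw [if_neg (Ne.symm hi), mul_zero]
      · intro hi
        exact absurd (Finset.mem_univ i') hi

theorem tr_pow {x : A} (hreg : ∀ z : R, f x * z = 0 → z = 0) (hfl : FlatMod f x) (t : ℕ) :
    ∀ {ι : Type} [Fintype ι] (a : ι → A) (r0 : R) (r : ι → R),
      f (x ^ t) * r0 + ∑ i, f (a i) * r i = 0 → TR f (x ^ t) a r0 r := by
  classical
  induction t with
  | zero =>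
    intro ι _ a r0 r h
    refine ⟨ι, inferInstance, fun i => - a i, fun i j => if i = j then 1 else 0, r, ?_, ?_, ?_⟩
    · simp only [map_neg, neg_mul, Finset.sum_neg_distrib]
      rw [pow_zero, map_one, one_mul] at h
      linear_combination h
    · intro i
      rw [Finset.sum_eq_single i]
      · simp
      · intro j _ hj
        simp [Ne.symm hj]
      · intro hi
        exact absurd (Finset.mem_univ i) hi
    · intro j
      rw [Finset.sum_eq_single j]
      · simp
      · intro i _ hi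
        simp [hi]
      · intro hi
        exact absurd (Finset.mem_univ j) hi
  | succ t ih =>
    intro ι _ a r0 r h
    have h' : f x * (f (x ^ t) * r0) + ∑ i, f (a i) * r i = 0 := by
      rw [← h, pow_succ, map_mul]; ring
    obtain ⟨κ, _, b0, b, s, h1, h2, h3⟩ := tr_one f hreg hfl a _ r h'
    have h4 : f (x ^ t) * r0 + ∑ j, f (- b0 j) * s j = 0 := by
      rw [h1]
      simp only [map_neg, neg_mul, Finset.sum_neg_distrib]
      ring
    obtain ⟨κ', _, c0, c, v, h5, h6, h7⟩ := ih (fun j => - b0 j) r0 s h4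
    refine ⟨κ', inferInstance, c0, fun i k => ∑ j, b i j * c j k, v, h5, ?_, ?_⟩
    · intro i
      rw [h2 i]
      calc ∑ j, f (b i j) * s j = ∑ j, ∑ k, f (b i j) * (f (c j k) * v k) := by
            refine Finset.sum_congr rfl fun j _ => ?_
            rw [h6 j, Finset.mul_sum]
        _ = ∑ k, f (∑ j, b i j * c j k) * v k := by
            rw [Finset.sum_comm]
            refine Finset.sum_congr rfl fun k _ => ?_
            rw [map_sum, Finset.sum_mul]
            refine Finset.sum_congr rfl fun j _ => ?_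
            rw [map_mul]; ring
    · intro k
      have h8 : ∑ i, a i * ∑ j, b i j * c j k = ∑ j, (∑ i, a i * b i j) * c j k := by
        simp only [Finset.mul_sum, Finset.sum_mul]
        rw [Finset.sum_comm]
        refine Finset.sum_congr rfl fun j _ => Finset.sum_congr rfl fun i _ => ?_
        ring
      rw [h8]
      have h9 : ∀ j, (∑ i, a i * b i j) * c j k = x * ((- b0 j) * c j k) := by
        intro j
        have := h3 j
        linear_combination (c j k) * this
      rw [Finset.sum_congr rfl (fun j _ => h9 j), ← Finset.mul_sum]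
      have h10 := h7 k
      linear_combination x * h10

/-- submodule of trivial relations -/
def Triv {l : ℕ} (a : Fin l → A) : Submodule R (Fin l → R) :=
  Submodule.span R {v | ∃ b : Fin l → A, (∑ i, a i * b i = 0) ∧ v = fun i => f (b i)}

theorem artin_rees [IsNoetherianRing A] (x : A) {l : ℕ} (a : Fin l → A) :
    ∃ c : ℕ, ∀ s : ℕ, ∀ z : A, z ∈ Ideal.span (Set.range a) → x ^ (s + c) ∣ z →
      ∃ e : Fin l → A, z = x ^ s * ∑ i, a i * e i := by
  obtain ⟨c, hc⟩ := Ideal.exists_pow_inf_eq_pow_smul (Ideal.span {x}) (M := A)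
    (Ideal.span (Set.range a))
  refine ⟨c, fun s z hz hdvd => ?_⟩
  have h1 : z ∈ (Ideal.span {x} ^ (s + c) • (⊤ : Submodule A A)) ⊓
      (Ideal.span (Set.range a) : Submodule A A) := by
    refine ⟨?_, hz⟩
    rw [Ideal.span_singleton_pow]
    obtain ⟨w, rfl⟩ := hdvd
    have := Submodule.smul_mem_smul (I := Ideal.span {x ^ (s + c)}) (N := (⊤ : Submodule A A))
      (Ideal.mem_span_singleton_self (x ^ (s + c))) (Submodule.mem_top (x := w))
    simpa using this
  rw [hc (s + c) (by omega), Nat.add_sub_cancel, Ideal.span_singleton_pow] at h1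
  have h2 : z ∈ Ideal.span {x ^ s} * Ideal.span (Set.range a) := by
    have h3 : Ideal.span {x ^ s} • (Ideal.span {x} ^ c • (⊤ : Submodule A A) ⊓
        (Ideal.span (Set.range a) : Submodule A A)) ≤
        Ideal.span {x ^ s} • (Ideal.span (Set.range a) : Submodule A A) :=
      Submodule.smul_mono le_rfl inf_le_right
    exact h3 h1
  obtain ⟨y, hy, hyz⟩ := Ideal.mem_span_singleton_mul.1 h2
  obtain ⟨e, he⟩ := Ideal.mem_span_range_iff_exists_fun.1 hy
  refine ⟨e, ?_⟩
  rw [← hyz, ← he]
  congr 1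
  exact Finset.sum_congr rfl fun i _ => mul_comm _ _

theorem mem_triv_add [IsNoetherianRing A] {x : A}
    (hreg : ∀ z : R, f x * z = 0 → z = 0) (hfl : FlatMod f x) {l : ℕ} (a : Fin l → A)
    (r : Fin l → R) (h : ∑ i, f (a i) * r i = 0) (s : ℕ) :
    ∃ v ∈ Triv f a, ∃ w : Fin l → R, r = v + f x ^ s • w := by
  classical
  obtain ⟨c, hc⟩ := artin_rees x a
  have h0 : f (x ^ (s + c)) * 0 + ∑ i, f (a i) * r i = 0 := by
    rw [mul_zero, zero_add, h]
  obtain ⟨κ, _, b0, b, v, h1, h2, h3⟩ := tr_pow f hreg hfl (s + c) a 0 r h0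
  have h4 : ∀ j, ∃ e : Fin l → A, ∑ i, a i * b i j = x ^ s * ∑ i, a i * e i := by
    intro j
    refine hc s _ ?_ ?_
    · exact Ideal.sum_mem _ fun i _ =>
        Ideal.mul_mem_right _ _ (Ideal.subset_span ⟨i, rfl⟩)
    · refine ⟨- b0 j, ?_⟩
      linear_combination h3 j
  choose e he using h4
  refine ⟨∑ j, v j • (fun i => f (b i j - x ^ s * e j i)), ?_, fun i => ∑ j, f (e j i) * v j, ?_⟩
  · refine Submodule.sum_mem _ fun j _ => Submodule.smul_mem _ _ (Submodule.subset_span ?_)
    refine ⟨fun i => b i j - x ^ s * e j i, ?_, rfl⟩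
    have h5 : ∑ i, a i * (b i j - x ^ s * e j i) =
        ∑ i, a i * b i j - x ^ s * ∑ i, a i * e j i := by
      rw [Finset.mul_sum, ← Finset.sum_sub_distrib]
      exact Finset.sum_congr rfl fun i _ => by ring
    rw [h5, he j, sub_self]
  · funext i
    rw [Pi.add_apply, Finset.sum_apply, Pi.smul_apply, h2 i, smul_eq_mul, Finset.mul_sum,
      ← Finset.sum_add_distrib]
    refine Finset.sum_congr rfl fun j _ => ?_
    rw [Pi.smul_apply, smul_eq_mul, map_sub, map_mul, map_pow]
    ring

theorem mem_triv [IsNoetherianRing A] [IsLocalRing R] [IsNoetherianRing R] {x : A}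
    (hx : f x ∈ maximalIdeal R)
    (hreg : ∀ z : R, f x * z = 0 → z = 0) (hfl : FlatMod f x) {l : ℕ} (a : Fin l → A)
    (r : Fin l → R) (h : ∑ i, f (a i) * r i = 0) : r ∈ Triv f a := by
  have hne : Ideal.span {f x} ≠ ⊤ := by
    intro htop
    have h1 : (1 : R) ∈ Ideal.span {f x} := htop ▸ Submodule.mem_top
    have h2 : Ideal.span {f x} ≤ maximalIdeal R := by
      rw [Ideal.span_le]; simpa using hx
    exact (Ideal.ne_top_iff_one _).1 (maximalIdeal.isMaximal R).ne_top (h2 h1)
  have hK := Ideal.iInf_pow_smul_eq_bot_of_isLocalRing (M := (Fin l → R) ⧸ Triv f a)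
    (Ideal.span {f x}) hne
  have h3 : (Triv f a).mkQ r ∈ (⨅ i : ℕ, Ideal.span {f x} ^ i •
      (⊤ : Submodule R ((Fin l → R) ⧸ Triv f a))) := by
    rw [Submodule.mem_iInf]
    intro s
    obtain ⟨v, hv, w, hw⟩ := mem_triv_add f hreg hfl a r h s
    have h4 : (Triv f a).mkQ r = f x ^ s • (Triv f a).mkQ w := by
      rw [hw, map_add, map_smul]
      have : (Triv f a).mkQ v = 0 := by
        rw [Submodule.mkQ_apply, Submodule.Quotient.mk_eq_zero]; exact hv
      rw [this, zero_add]
    rw [h4, Ideal.span_singleton_pow]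
    exact Submodule.smul_mem_smul (Ideal.mem_span_singleton_self _) Submodule.mem_top
  rw [hK, Submodule.mem_bot, Submodule.mkQ_apply, Submodule.Quotient.mk_eq_zero] at h3
  exact h3

theorem flat_of_flatMod [IsNoetherianRing A] [IsLocalRing R] [IsNoetherianRing R] {x : A}
    (hx : f x ∈ maximalIdeal R)
    (hreg : ∀ z : R, f x * z = 0 → z = 0) (hfl : FlatMod f x) : f.Flat := by
  let _ := f.toAlgebra
  show Module.Flat A R
  refine Module.Flat.of_forall_isTrivialRelation ?_
  intro l a r h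
  have h' : ∑ i, f (a i) * r i = 0 := h
  have h1 := mem_triv f hx hreg hfl a r h'
  unfold Triv at h1
  rw [Submodule.mem_span_set'] at h1
  obtain ⟨n, c, g, hg⟩ := h1
  choose b hb1 hb2 using fun j => (g j).2
  refine ⟨n, fun i j => b j i, c, ?_, ?_⟩
  · intro i
    rw [← hg, Finset.sum_apply]
    refine Finset.sum_congr rfl fun j _ => ?_
    rw [hb2 j, Pi.smul_apply, smul_eq_mul, mul_comm]
    rfl
  · intro j
    exact hb1 j

theorem rel_of_flat_alg {A' : Type w} {R' : Type u} [CommRing A'] [CommRing R'] [Algebra A' R']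
    [Module.Flat A' R'] {ι : Type} [Fintype ι] (a : ι → A') (r : ι → R')
    (h : ∑ i, algebraMap A' R' (a i) * r i = 0) :
    ∃ (k : ℕ) (b : ι → Fin k → A') (s : Fin k → R'),
      (∀ i, r i = ∑ j, algebraMap A' R' (b i j) * s j) ∧ ∀ j, ∑ i, a i * b i j = 0 := by
  have h1 : ∑ i, a i • r i = 0 := by
    rw [← h]
    exact Finset.sum_congr rfl fun i _ => Algebra.smul_def _ _
  obtain ⟨k, b, s, h4, h5⟩ := Module.Flat.isTrivialRelation_of_sum_smul_eq_zero
    (R := A') (M := R') (f := a) (x := r) h1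
  refine ⟨k, b, s, fun i => ?_, h5⟩
  rw [h4 i]
  exact Finset.sum_congr rfl fun j _ => Algebra.smul_def _ _

theorem rel_of_flat {A' : Type w} {R' : Type u} [CommRing A'] [CommRing R'] (g : A' →+* R')
    (hflat : g.Flat) {ι : Type} [Fintype ι] (a : ι → A') (r : ι → R')
    (h : ∑ i, g (a i) * r i = 0) :
    ∃ (k : ℕ) (b : ι → Fin k → A') (s : Fin k → R'),
      (∀ i, r i = ∑ j, g (b i j) * s j) ∧ ∀ j, ∑ i, a i * b i j = 0 :=
  @rel_of_flat_alg A' R' _ _ g.toAlgebra hflat ι _ a r h

theorem flatMod_of_flat (x : A) {A' : Type w} {R' : Type u} [CommRing A'] [CommRing R']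
    (π : A →+* A') (ρ : R →+* R') (hπ : Function.Surjective π) (hρ : Function.Surjective ρ)
    (hπk : ∀ a, π a = 0 → ∃ c, a = x * c) (hρk : ∀ r, ρ r = 0 → ∃ t, r = f x * t)
    (hρx : ρ (f x) = 0) (g : A' →+* R') (hg : ∀ a, g (π a) = ρ (f a)) (hflat : g.Flat) :
    FlatMod f x := by
  intro ι _ a r0 r h
  have h1 : ∑ i, g (π (a i)) * ρ (r i) = 0 := by
    have h2 := congrArg ρ h
    rw [map_add, map_sum, map_zero, map_mul, hρx, zero_mul, zero_add] at h2
    rw [← h2]
    refine Finset.sum_congr rfl fun i _ => ?_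
    rw [hg, map_mul]
  obtain ⟨k, bb, ss, h4, h5⟩ := rel_of_flat g hflat (fun i => π (a i)) (fun i => ρ (r i)) h1
  choose b hb using fun i j => hπ (bb i j)
  choose s hs using fun j => hρ (ss j)
  have h6 : ∀ i, ∃ t, r i = ∑ j, f (b i j) * s j + f x * t := by
    intro i
    have h7 : ρ (r i - ∑ j, f (b i j) * s j) = 0 := by
      rw [map_sub, h4 i, map_sum, sub_eq_zero]
      refine Finset.sum_congr rfl fun j _ => ?_
      rw [map_mul, ← hg, hb, hs]
    obtain ⟨t, ht⟩ := hρk _ h7
    exact ⟨t, by linear_combination ht⟩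
  choose t ht using h6
  have h8 : ∀ j, ∃ c, x * c = ∑ i, a i * b i j := by
    intro j
    have h9 : π (∑ i, a i * b i j) = 0 := by
      rw [map_sum, ← h5 j]
      refine Finset.sum_congr rfl fun i _ => ?_
      rw [map_mul, hb]
    obtain ⟨c, hc⟩ := hπk _ h9
    exact ⟨c, hc.symm⟩
  choose c hc using h8
  exact ⟨Fin k, inferInstance, c, b, s, t, ht, hc⟩

end Core

section Poly

variable (𝔽 : Type w) [Field 𝔽]

/-- `X_0 ↦ 0`, `X_(j+1) ↦ X_j` -/
noncomputable def piP (N : ℕ) : MvPolynomial (Fin (N + 1)) 𝔽 →ₐ[𝔽] MvPolynomial (Fin N) 𝔽 :=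
  MvPolynomial.aeval (Fin.cons 0 (fun j => MvPolynomial.X j))

/-- `X_j ↦ X_(j+1)` -/
noncomputable def ioP (N : ℕ) : MvPolynomial (Fin N) 𝔽 →ₐ[𝔽] MvPolynomial (Fin (N + 1)) 𝔽 :=
  MvPolynomial.rename Fin.succ

theorem piP_ioP (N : ℕ) (a : MvPolynomial (Fin N) 𝔽) : piP 𝔽 N (ioP 𝔽 N a) = a := by
  have h : (piP 𝔽 N).comp (ioP 𝔽 N) = AlgHom.id 𝔽 _ := by
    apply MvPolynomial.algHom_ext
    intro j
    simp [piP, ioP]
  exact DFunLike.congr_fun h a

theorem sub_ioP_piP (N : ℕ) (a : MvPolynomial (Fin (N + 1)) 𝔽) :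
    ∃ c, a - ioP 𝔽 N (piP 𝔽 N a) = MvPolynomial.X 0 * c := by
  have h : ∀ a, MvPolynomial.X 0 ∣ a - ioP 𝔽 N (piP 𝔽 N a) := by
    intro a
    have h1 : (Ideal.Quotient.mkₐ 𝔽 (Ideal.span {(MvPolynomial.X 0 : MvPolynomial (Fin (N + 1)) 𝔽)})).comp
        ((ioP 𝔽 N).comp (piP 𝔽 N)) =
        Ideal.Quotient.mkₐ 𝔽 (Ideal.span {(MvPolynomial.X 0 : MvPolynomial (Fin (N + 1)) 𝔽)}) := by
      apply MvPolynomial.algHom_ext
      intro j
      refine Fin.cases ?_ (fun j => ?_) j
      · simp only [AlgHom.comp_apply, piP, MvPolynomial.aeval_X, Fin.cons_zero, map_zero]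
        symm
        exact Ideal.Quotient.eq_zero_iff_mem.2 (Ideal.mem_span_singleton_self _)
      · simp [piP, ioP]
    have h2 := DFunLike.congr_fun h1 a
    rw [← Ideal.mem_span_singleton, ← Ideal.Quotient.eq_zero_iff_mem, map_sub, sub_eq_zero]
    exact h2.symm
  exact h a

theorem flat_poly (N : ℕ) : ∀ (R : Type u) [CommRing R] [IsLocalRing R] [IsNoetherianRing R]
    (f : MvPolynomial (Fin N) 𝔽 →+* R), (∀ j, f (MvPolynomial.X j) ∈ maximalIdeal R) →
    RingTheory.Sequence.IsWeaklyRegular R (List.ofFn (fun j => f (MvPolynomial.X j))) →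
    f.Flat := by
  induction N with
  | zero =>
    intro R _ _ _ f _ _
    have e : IsField (MvPolynomial (Fin 0) 𝔽) :=
      (MvPolynomial.isEmptyRingEquiv 𝔽 (Fin 0)).toMulEquiv.isField (Field.toIsField 𝔽)
    exact RingHom.Flat.of_isField e f
  | succ N ih =>
    intro R _ _ _ f hm hreg
    rw [List.ofFn_succ, RingTheory.Sequence.isWeaklyRegular_cons_iff'] at hreg
    obtain ⟨hr1, hr2⟩ := hreg
    let I : Ideal R := Ideal.span {f (MvPolynomial.X 0)}
    have hI : I ≤ maximalIdeal R := by
      rw [Ideal.span_le]; simpa using hm 0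
    have hIne : I ≠ ⊤ := fun h => (maximalIdeal.isMaximal R).ne_top (top_le_iff.1 (h ▸ hI))
    have hnt : Nontrivial (R ⧸ I) := Ideal.Quotient.nontrivial_iff.2 hIne
    have hloc : IsLocalRing (R ⧸ I) :=
      IsLocalRing.of_surjective' (Ideal.Quotient.mk I) Ideal.Quotient.mk_surjective
    let g : MvPolynomial (Fin N) 𝔽 →+* R ⧸ I :=
      (Ideal.Quotient.mk I).comp (f.comp (ioP 𝔽 N).toRingHom)
    have hgX : ∀ j, g (MvPolynomial.X j) = Ideal.Quotient.mk I (f (MvPolynomial.X j.succ)) := by
      intro j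
      show Ideal.Quotient.mk I (f (ioP 𝔽 N (MvPolynomial.X j))) = _
      simp [ioP]
    have hgflat : g.Flat := by
      refine ih (R ⧸ I) g ?_ ?_
      · intro j
        rw [hgX]
        have h1 : ¬ IsUnit (f (MvPolynomial.X j.succ)) := (mem_maximalIdeal _).1 (hm j.succ)
        rw [mem_maximalIdeal, mem_nonunits_iff]
        intro hu
        apply h1
        obtain ⟨u, hu'⟩ := hu.exists_right_inv
        obtain ⟨v, rfl⟩ := Ideal.Quotient.mk_surjective u
        rw [← map_mul, ← map_one (Ideal.Quotient.mk I), Ideal.Quotient.eq] at hu'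
        by_contra hnu
        have h3 : f (MvPolynomial.X j.succ) * v ∈ maximalIdeal R :=
          Ideal.mul_mem_right _ _ (hm j.succ)
        have h4 : (1 : R) ∈ maximalIdeal R := by
          have h5 := Ideal.sub_mem _ h3 (hI hu')
          simp at h5
        exact (Ideal.ne_top_iff_one _).1 (maximalIdeal.isMaximal R).ne_top h4
      · have h2 : List.ofFn (fun j => g (MvPolynomial.X j)) =
            (List.ofFn (fun j : Fin N => f (MvPolynomial.X j.succ))).map (Ideal.Quotient.mk I) := by
          rw [List.map_ofFn]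
          congr 1
          funext j
          exact hgX j
        rw [h2]
        have hII : (f (MvPolynomial.X 0) • (⊤ : Submodule R R)) = I := by
          rw [← Submodule.ideal_span_singleton_smul]
          simp [I]
        let e : QuotSMulTop (f (MvPolynomial.X 0)) R ≃+ R ⧸ I :=
          (Submodule.quotEquivOfEq _ _ hII).toAddEquiv
        refine (AddEquiv.isWeaklyRegular_congr (e := e) ?_).1 hr2
        refine List.forall₂_same.2 ?_
        intro c hc x
        obtain ⟨d, _, rfl⟩ := List.mem_map.1 hc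
        obtain ⟨y, rfl⟩ := Submodule.Quotient.mk_surjective _ x
        rfl
    refine flat_of_flatMod f (x := MvPolynomial.X 0) (hm 0) ?_ ?_
    · intro z hz
      exact hr1.right_eq_zero_of_smul hz
    · refine flatMod_of_flat f (MvPolynomial.X 0) (piP 𝔽 N).toRingHom (Ideal.Quotient.mk I)
        (fun a => ⟨ioP 𝔽 N a, piP_ioP 𝔽 N a⟩) Ideal.Quotient.mk_surjective ?_ ?_ ?_ g ?_ hgflat
      · intro a ha
        obtain ⟨c, hc⟩ := sub_ioP_piP 𝔽 N a
        refine ⟨c, ?_⟩
        have ha' : piP 𝔽 N a = 0 := ha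
        rw [ha', map_zero, sub_zero] at hc
        exact hc
      · intro r hr
        rw [Ideal.Quotient.eq_zero_iff_mem, Ideal.mem_span_singleton] at hr
        exact hr
      · exact Ideal.Quotient.eq_zero_iff_mem.2 (Ideal.mem_span_singleton_self _)
      · intro a
        show Ideal.Quotient.mk I (f (ioP 𝔽 N (piP 𝔽 N a))) = Ideal.Quotient.mk I (f a)
        obtain ⟨c, hc⟩ := sub_ioP_piP 𝔽 N a
        rw [eq_comm, Ideal.Quotient.eq, ← map_sub, hc, map_mul]
        exact Ideal.mul_mem_right _ _ (Ideal.mem_span_singleton_self _)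

end Poly

/-- (FL) `R` is flat over `𝔽[Y]` if `y` is a regular sequence -/
theorem flat_of_regular (𝔽 : Type w) [Field 𝔽] {n : ℕ} (R : Type u) [CommRing R] [IsLocalRing R]
    [IsNoetherianRing R] [Algebra (PolyA 𝔽 n) R]
    (hreg : RingTheory.Sequence.IsRegular R (List.ofFn (fun j : Fin (n + 1) => yR 𝔽 R j)))
    (hm : ∀ j : Fin (n + 1), yR 𝔽 R j ∈ maximalIdeal R) :
    Module.Flat (PolyA 𝔽 n) R := by
  have h := flat_poly 𝔽 (n + 1) R (algebraMap (PolyA 𝔽 n) R) hm hreg.toIsWeaklyRegular
  exact RingHom.flat_algebraMap_iff.1 h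

end Vale.Agent.P202C.Flat
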