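import Vale.Agent.P202C.Free4

/-!
P202 in characteristic p, section (EF): generic freeness of `M0` (helper59), final part:
cocycles of degree zero, flat base change.
-/

set_option autoImplicit false

namespace Vale.Agent.P202C

open TensorProduct

universe u v w

/-! ### flat base change -/

section FrBc

variable {A : Type w} [CommRing A] {R : Type u} [CommRing R] [Algebra A R] [Module.Flat A R]
  {X : Type v} [AddCommGroup X] [Module A X]

theorem fr_bc (P : Submodule A X) {Y : Type v} [AddCommGroup Y] [Module A Y]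
    (φ : X →ₗ[A] Y) (z : R ⊗[A] X) (hz : z ∈ P.baseChange R) (h : φ.baseChange R z = 0) :
    z ∈ (P ⊓ LinearMap.ker φ).baseChange R := by
  obtain ⟨z', rfl⟩ := hz
  set ψ : P →ₗ[A] Y := φ ∘ₗ P.subtype with hψ
  have h1 : ψ.baseChange R z' = 0 := by
    rw [hψ, LinearMap.baseChange_comp, LinearMap.comp_apply]
    exact h
  have hex := Module.Flat.lTensor_exact R (LinearMap.exact_subtype_ker_map ψ)
  obtain ⟨z'', hz''⟩ := (hex z').1 h1
  rw [← hz'']
  clear hz'' h1 h hex
  induction z'' using TensorProduct.induction_on with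
  | zero => simp
  | tmul r x =>
    have h2 : (x : P).1 ∈ P ⊓ LinearMap.ker φ := ⟨(x : P).2, x.2⟩
    exact Submodule.tmul_mem_baseChange_of_mem (A := R) r h2
  | add x y hx hy =>
    rw [map_add, map_add]
    exact Submodule.add_mem _ hx hy

theorem fr_M0_bc (C : FiltCx A X) :
    (C.bc R).gr 0 ⊓ (C.bc R).F 0 ⊓ LinearMap.ker (C.bc R).d =
      (C.gr 0 ⊓ C.F 0 ⊓ LinearMap.ker C.d).baseChange R := by
  apply le_antisymm
  · rintro z ⟨⟨h1, h2⟩, h3⟩
    have h4 : (C.F 0).mkQ.baseChange R z = 0 := by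
      obtain ⟨w, rfl⟩ := h2
      rw [← LinearMap.comp_apply, ← LinearMap.baseChange_comp]
      have e : (C.F 0).mkQ ∘ₗ (C.F 0).subtype = 0 := by
        ext x
        simp
      rw [e, LinearMap.baseChange_zero, LinearMap.zero_apply]
    have h5 := fr_bc (C.gr 0) (C.F 0).mkQ z h1 h4
    rw [Submodule.ker_mkQ] at h5
    exact fr_bc (C.gr 0 ⊓ C.F 0) C.d z h5 h3
  · rintro _ ⟨z, rfl⟩
    induction z using TensorProduct.induction_on with
    | zero =>
      rw [map_zero]
      exact Submodule.zero_mem _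
    | tmul r x =>
      obtain ⟨⟨a1, a2⟩, a3⟩ := x.2
      refine ⟨⟨?_, ?_⟩, ?_⟩
      · exact Submodule.tmul_mem_baseChange_of_mem (A := R) r a1
      · exact Submodule.tmul_mem_baseChange_of_mem (A := R) r a2
      · show C.d.baseChange R (r ⊗ₜ[A] x.1) = 0
        rw [LinearMap.baseChange_tmul]
        have : C.d x.1 = 0 := a3
        rw [this, tmul_zero]
    | add x y hx hy =>
      rw [map_add]
      exact Submodule.add_mem _ hx hy

theorem fr_final (P : Submodule A X) {m : ℕ} (g : P →ₗ[A] (Fin m → A))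
    (hg : Function.Injective g) (a : A) (hga : ∀ v, a • v ∈ LinearMap.range g)
    (PR : Submodule R (R ⊗[A] X)) (hPR : PR = P.baseChange R) :
    ∃ f : PR →ₗ[R] (Fin m → R), Function.Injective f ∧
      ∀ v, algebraMap A R a • v ∈ LinearMap.range f := by
  classical
  subst hPR
  have hι : Function.Injective (P.subtype.baseChange R) :=
    Module.Flat.lTensor_preserves_injective_linearMap (M := R) P.subtype P.injective_subtype
  have hgR : Function.Injective (g.baseChange R) :=
    Module.Flat.lTensor_preserves_injective_linearMap (M := R) g hg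
  let e : (R ⊗[A] P) ≃ₗ[R] P.baseChange R := LinearEquiv.ofInjective _ hι
  let κ : (R ⊗[A] (Fin m → A)) ≃ₗ[R] (Fin m → R) := TensorProduct.piScalarRight A R R (Fin m)
  refine ⟨κ.toLinearMap ∘ₗ g.baseChange R ∘ₗ e.symm.toLinearMap, ?_, ?_⟩
  · exact κ.injective.comp (hgR.comp e.symm.injective)
  · intro v
    have key : ∀ w : R ⊗[A] (Fin m → A), ∃ y : R ⊗[A] P,
        g.baseChange R y = algebraMap A R a • w := by
      intro w
      induction w using TensorProduct.induction_on with
      | zero => exact ⟨0, by simp⟩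
      | tmul r x =>
        obtain ⟨y, hy⟩ := hga x
        refine ⟨r ⊗ₜ[A] y, ?_⟩
        rw [LinearMap.baseChange_tmul, hy, tmul_smul, algebraMap_smul]
      | add x y hx hy =>
        obtain ⟨x', hx'⟩ := hx
        obtain ⟨y', hy'⟩ := hy
        exact ⟨x' + y', by rw [map_add, hx', hy', smul_add]⟩
    obtain ⟨y, hy⟩ := key (κ.symm v)
    refine ⟨e y, ?_⟩
    show κ (g.baseChange R (e.symm (e y))) = _
    rw [LinearEquiv.symm_apply_apply, hy, map_smul, LinearEquiv.apply_symm_apply]

end FrBc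

/-! ### cocycles of degree zero -/

section FrCoc

variable (𝔽 : Type w) [Field 𝔽] {n : ℕ}

theorem fr_num2 (τ : Fin n → Fin 3) : num2 τ = 0 ↔ ∀ l, τ l ≠ 2 := by
  unfold num2
  rw [Finset.card_eq_zero, Finset.filter_eq_empty_iff]
  exact ⟨fun h l => h (Finset.mem_univ l), fun h l _ => h l⟩

/-- the cocycles of degree zero over `A` -/
noncomputable abbrev MA0 (b : Fin n → ℤ) : Submodule (PolyA 𝔽 n) (XA 𝔽 n) :=
  (CA 𝔽 b).gr 0 ⊓ (CA 𝔽 b).F 0 ⊓ LinearMap.ker (CA 𝔽 b).d

theorem fr_step {b : Fin n → ℤ} {f : XA 𝔽 n} (hf : f ∈ MA0 𝔽 b) (τ : Fin n → Fin 3)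
    (hτ : ∀ l, τ l ≠ 2) (l : Fin n) :
    f (Function.update τ l 0) = f (Function.update τ l 1) := by
  classical
  have h1 : dA 𝔽 n f = 0 := hf.2
  have h2 := congrFun h1 (Function.update τ l 2)
  rw [dA_apply] at h2
  have h3 : Finset.univ.filter (fun m => Function.update τ l 2 m = 2) = {l} := by
    ext m
    simp only [Finset.mem_filter, Finset.mem_univ, true_and, Finset.mem_singleton]
    constructor
    · intro h
      by_contra hne
      rw [Function.update_of_ne hne] at h
      exact hτ m h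
    · rintro rfl
      rw [Function.update_self]
  rw [h3, Finset.sum_singleton, Function.update_idem, Function.update_idem] at h2
  have h4 : (f (Function.update τ l 0) - f (Function.update τ l 1)) = 0 := by
    unfold csg at h2
    rcases neg_one_pow_eq_or ℤ (Finset.univ.filter
      (fun m => m < l ∧ Function.update τ l 2 m = 2)).card with h | h
    · rw [h, one_smul] at h2
      exact h2
    · rw [h, neg_smul, one_smul] at h2
      exact neg_eq_zero.1 h2
  exact sub_eq_zero.1 h4

theorem fr_const {b : Fin n → ℤ} {f : XA 𝔽 n} (hf : f ∈ MA0 𝔽 b) (τ : Fin n → Fin 3)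
    (hτ : ∀ l, τ l ≠ 2) : f τ = f (fun _ => 0) := by
  classical
  have h1 : ∀ s : Finset (Fin n), f (fun l => if l ∈ s then 1 else 0) = f (fun _ => 0) := by
    intro s
    induction s using Finset.induction_on with
    | empty => simp
    | insert a s ha ih =>
      have h2 := fr_step 𝔽 hf (fun l => if l ∈ s then (1 : Fin 3) else 0) (fun l => by
        split_ifs <;> decide) a
      have e1 : Function.update (fun l => if l ∈ s then (1 : Fin 3) else 0) a 0 =
          fun l => if l ∈ s then 1 else 0 := by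
        funext l
        by_cases h : l = a
        · subst h
          rw [Function.update_self, if_neg ha]
        · rw [Function.update_of_ne h]
      have e2 : Function.update (fun l => if l ∈ s then (1 : Fin 3) else 0) a 1 =
          fun l => if l ∈ insert a s then 1 else 0 := by
        funext l
        by_cases h : l = a
        · subst h
          rw [Function.update_self, if_pos (Finset.mem_insert_self _ _)]
        · rw [Function.update_of_ne h]
          simp only [Finset.mem_insert, h, false_or]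
      rw [e1, e2, ih] at h2
      exact h2.symm
  have h3 : τ = fun l => if l ∈ Finset.univ.filter (fun l => τ l = 1) then 1 else 0 := by
    funext l
    have h4 := hτ l
    by_cases h5 : τ l = 1
    · simp [h5]
    · simp only [Finset.mem_filter, Finset.mem_univ, true_and, h5, if_false]
      revert h4 h5
      generalize τ l = c
      intro h4 h5
      fin_cases c
      · rfl
      · exact absurd rfl h5
      · exact absurd rfl h4
  rw [h3]
  exact h1 _

theorem fr_zero {b : Fin n → ℤ} {f : XA 𝔽 n} (hf : f ∈ MA0 𝔽 b) (τ : Fin n → Fin 3)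
    (hτ : ¬ ∀ l, τ l ≠ 2) : f τ = 0 := by
  refine hf.1.1 τ ?_
  rw [← fr_num2] at hτ
  exact_mod_cast hτ

theorem fr_ev_mem {b : Fin n → ℤ} {f : XA 𝔽 n} (hf : f ∈ MA0 𝔽 b) :
    f (fun _ => 0) ∈ MSub 𝔽 b := by
  refine ⟨hf.1.2 _, ?_⟩
  have h := hf.1.2 (fun _ => 1)
  rwa [fr_const 𝔽 hf (fun _ => 1) (fun l => by decide)] at h

theorem fr_lift_mem {b : Fin n → ℤ} {h : Lau 𝔽 n} (hh : h ∈ MSub 𝔽 b) :
    (fun τ => if ∀ l, τ l ≠ 2 then h else 0 : XA 𝔽 n) ∈ MA0 𝔽 b := by
  classical
  refine ⟨⟨?_, ?_⟩, ?_⟩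
  · intro τ hτ
    beta_reduce
    rw [if_neg]
    rw [← fr_num2]
    exact_mod_cast hτ
  · intro τ
    show inBlk 𝔽 b τ 0 (if ∀ l, τ l ≠ 2 then h else 0)
    split_ifs with h1
    · intro m hm
      obtain ⟨a1, a2⟩ := (mem_MSub 𝔽).1 hh m hm
      exact ⟨a1, fun l _ => (a2 l).2, fun l _ => (a2 l).1⟩
    · exact inBlk_zero 𝔽 b τ 0
  · show dA 𝔽 n _ = 0
    funext τ
    rw [dA_apply]
    refine Finset.sum_eq_zero fun l hl => ?_
    have e1 : (∀ l', Function.update τ l 0 l' ≠ 2) ↔ (∀ l', Function.update τ l 1 l' ≠ 2) := by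
      have : ∀ c : Fin 3, c ≠ 2 → ((∀ l', Function.update τ l c l' ≠ 2) ↔
          ∀ l', l' ≠ l → τ l' ≠ 2) := by
        intro c hc
        constructor
        · intro h1 l' hl'
          have := h1 l'
          rwa [Function.update_of_ne hl'] at this
        · intro h1 l'
          by_cases h2 : l' = l
          · subst h2
            rw [Function.update_self]
            exact hc
          · rw [Function.update_of_ne h2]
            exact h1 l' h2
      rw [this 0 (by decide), this 1 (by decide)]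
    simp only [e1, sub_self, smul_zero]

/-- comparison with the free module over `A` -/
theorem fr_main (b : Fin n → ℤ) : ∃ (g : MA0 𝔽 b →ₗ[PolyA 𝔽 n] (Fin n.factorial → PolyA 𝔽 n))
    (N : ℕ), Function.Injective g ∧
      ∀ v, (MvPolynomial.X 0 ^ N : PolyA 𝔽 n) • v ∈ LinearMap.range g := by
  classical
  obtain ⟨e⟩ := free_bstar 𝔽 (n := n)
  -- a common shift
  obtain ⟨N, hN1, hN2⟩ : ∃ N : ℕ, (∀ l, b l ≤ bstar n l + N) ∧ ∀ l, bstar n l ≤ b l + N := by
    refine ⟨∑ l, (b l - bstar n l).natAbs, fun l => ?_, fun l => ?_⟩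
    · have h1 := Finset.single_le_sum (f := fun l => (b l - bstar n l).natAbs)
        (fun i _ => Nat.zero_le _) (Finset.mem_univ l)
      push_cast
      have h2 : ((b l - bstar n l).natAbs : ℤ) ≤ ∑ l, ((b l - bstar n l).natAbs : ℤ) := by
        exact_mod_cast h1
      rw [Int.natCast_natAbs] at h2
      simp only [Int.natCast_natAbs] at h2 ⊢
      have h3 := le_abs_self (b l - bstar n l)
      linarith
    · have h1 := Finset.single_le_sum (f := fun l => (b l - bstar n l).natAbs)
        (fun i _ => Nat.zero_le _) (Finset.mem_univ l)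
      push_cast
      have h2 : ((b l - bstar n l).natAbs : ℤ) ≤ ∑ l, ((b l - bstar n l).natAbs : ℤ) := by
        exact_mod_cast h1
      rw [Int.natCast_natAbs] at h2
      simp only [Int.natCast_natAbs] at h2 ⊢
      have h3 := neg_abs_le (b l - bstar n l)
      linarith
  let g0 : MA0 𝔽 b →ₗ[PolyA 𝔽 n] MSub 𝔽 (bstar n) :=
    { toFun := fun x => ⟨(MvPolynomial.X 0 ^ N : PolyA 𝔽 n) • x.1 (fun _ => 0),
        fr_X0_mem 𝔽 N b (bstar n) hN1 _ (fr_ev_mem 𝔽 x.2)⟩
      map_add' := fun x y => by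
        apply Subtype.ext
        show (MvPolynomial.X 0 ^ N : PolyA 𝔽 n) • (x.1 (fun _ => 0) + y.1 (fun _ => 0)) = _
        rw [smul_add]
        rfl
      map_smul' := fun a x => by
        apply Subtype.ext
        show (MvPolynomial.X 0 ^ N : PolyA 𝔽 n) • (a • x.1 (fun _ => 0)) =
          a • ((MvPolynomial.X 0 ^ N : PolyA 𝔽 n) • x.1 (fun _ => 0))
        rw [smul_comm] }
  refine ⟨e.toLinearMap ∘ₗ g0, N + N, ?_, ?_⟩
  · refine e.injective.comp ?_
    rw [← LinearMap.ker_eq_bot, LinearMap.ker_eq_bot']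
    intro x hx
    have h1 : (MvPolynomial.X 0 ^ N : PolyA 𝔽 n) • x.1 (fun _ => 0) = 0 := congrArg Subtype.val hx
    have h2 := fr_X0_inj 𝔽 N _ h1
    apply Subtype.ext
    funext τ
    by_cases hτ : ∀ l, τ l ≠ 2
    · rw [fr_const 𝔽 x.2 τ hτ, h2]
      rfl
    · rw [fr_zero 𝔽 x.2 τ hτ]
      rfl
  · intro v
    have h1 := fr_X0_mem 𝔽 N (bstar n) b hN2 _ (e.symm v).2
    refine ⟨⟨_, fr_lift_mem 𝔽 h1⟩, ?_⟩
    have h3 : g0 ⟨_, fr_lift_mem 𝔽 h1⟩ = (MvPolynomial.X 0 ^ (N + N) : PolyA 𝔽 n) • e.symm v := by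
      apply Subtype.ext
      show (MvPolynomial.X 0 ^ N : PolyA 𝔽 n) • (if ∀ l : Fin n, (0 : Fin 3) ≠ 2 then
        (MvPolynomial.X 0 ^ N : PolyA 𝔽 n) • (e.symm v).1 else 0) =
        (MvPolynomial.X 0 ^ (N + N) : PolyA 𝔽 n) • (e.symm v).1
      rw [if_pos (fun _ => by decide), smul_smul, pow_add]
    show e (g0 ⟨_, fr_lift_mem 𝔽 h1⟩) = _
    rw [h3, map_smul, LinearEquiv.apply_symm_apply]

/-- (EF) `M0 b` embeds into a free module of rank `n!` with cokernel killed by a power of `y_0` -/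
theorem M0_free (R : Type u) [CommRing R] [Algebra (PolyA 𝔽 n) R] [Module.Flat (PolyA 𝔽 n) R]
    (b : Fin n → ℤ) :
    ∃ (f : ↥((CR 𝔽 R b).gr 0 ⊓ (CR 𝔽 R b).F 0 ⊓ LinearMap.ker (CR 𝔽 R b).d) →ₗ[R]
        (Fin n.factorial → R)) (N : ℕ), Function.Injective f ∧
      ∀ v, yR 𝔽 R (0 : Fin (n + 1)) ^ N • v ∈ LinearMap.range f := by
  obtain ⟨g, N, hg, hga⟩ := fr_main 𝔽 b
  obtain ⟨f, hf, hfa⟩ := fr_final (R := R) (MA0 𝔽 b) g hg _ hga _ (fr_M0_bc (R := R) (CA 𝔽 b))
  refine ⟨f, N, hf, fun v => ?_⟩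
  have h := hfa v
  rw [map_pow] at h
  exact h

end FrCoc

end Vale.Agent.P202C
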