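import Vale.Agent.P202C.Mon
import Vale.Agent.P202.Asymp

/-!
P202 in characteristic p, module MULT: the multiplicity of a Cohen-Macaulay local ring is the
colength of a minimal reduction.
-/

set_option autoImplicit false

namespace Vale.Agent.P202C

open IsLocalRing Vale.Agent.P202 RingTheory.Sequence

universe u

section Mult

variable {R : Type u} [CommRing R]

/-- colength of the power of a nonzerodivisor modulo `K` -/
theorem mu_last (K : Ideal R) (a : R) (ha : ∀ r, a * r ∈ K → r ∈ K) (e : ℕ) :
    cl (K ⊔ Ideal.span {a ^ e}) = (e : ℕ∞) * cl (K ⊔ Ideal.span {a}) := by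
  induction e with
  | zero =>
    have h : K ⊔ Ideal.span {a ^ 0} = ⊤ := by
      rw [pow_zero, Ideal.span_singleton_one, sup_top_eq]
    rw [h, cl_top, Nat.cast_zero, zero_mul]
  | succ e ih =>
    have h1 := cl_qt (K ⊔ Ideal.span {a ^ (e + 1)}) a
    have h2 : qt (K ⊔ Ideal.span {a ^ (e + 1)}) a = K ⊔ Ideal.span {a ^ e} := by
      ext w
      rw [mem_qt]
      constructor
      · intro hw
        obtain ⟨k, hk, z, hz, hkz⟩ := Submodule.mem_sup.mp hw
        obtain ⟨r, rfl⟩ := Ideal.mem_span_singleton'.mp hz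
        have h3 : w - r * a ^ e ∈ K := by
          apply ha
          have h4 : a * (w - r * a ^ e) = k := by
            rw [mul_sub, ← hkz]
            ring
          rw [h4]
          exact hk
        have h5 : w = (w - r * a ^ e) + r * a ^ e := by ring
        rw [h5]
        exact Submodule.add_mem_sup h3 (Ideal.mem_span_singleton'.mpr ⟨r, rfl⟩)
      · intro hw
        obtain ⟨k, hk, z, hz, rfl⟩ := Submodule.mem_sup.mp hw
        obtain ⟨r, rfl⟩ := Ideal.mem_span_singleton'.mp hz
        have h5 : a * (k + r * a ^ e) = a * k + r * a ^ (e + 1) := by ring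
        rw [h5]
        exact Submodule.add_mem_sup (Ideal.mul_mem_left _ _ hk)
          (Ideal.mem_span_singleton'.mpr ⟨r, rfl⟩)
    have h3 : K ⊔ Ideal.span {a ^ (e + 1)} ⊔ Ideal.span {a} = K ⊔ Ideal.span {a} := by
      rw [sup_assoc]
      congr 1
      refine sup_eq_right.mpr ?_
      rw [Ideal.span_singleton_le_span_singleton]
      exact dvd_pow_self a (Nat.succ_ne_zero e)
    rw [h1, h2, h3, ih]
    push_cast
    ring

theorem mu_wr_iff (l : List R) (a : R) : IsWeaklyRegular R (l ++ [a]) ↔
    IsWeaklyRegular R l ∧ ∀ r, a * r ∈ Ideal.ofList l → r ∈ Ideal.ofList l := by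
  rw [isWeaklyRegular_append_iff, isWeaklyRegular_singleton_iff,
    isSMulRegular_quotient_iff_mem_of_smul_mem]
  simp only [smul_eq_mul, Ideal.mul_top]

theorem mu_wr_pow {l : List R} {a : R} (h : IsWeaklyRegular R (l ++ [a])) (e : ℕ) :
    IsWeaklyRegular R (l ++ [a ^ e]) := by
  rw [isWeaklyRegular_append_iff, isWeaklyRegular_singleton_iff] at h ⊢
  exact ⟨h.1, h.2.pow e⟩

theorem mu_ofList_perm {l l' : List R} (h : List.Perm l l') : Ideal.ofList l = Ideal.ofList l' :=
  congrArg Ideal.span (Set.ext fun _ => h.mem_iff)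

theorem mu_ofList_concat (l : List R) (a : R) :
    Ideal.ofList (l ++ [a]) = Ideal.ofList l ⊔ Ideal.span {a} := by
  rw [Ideal.ofList_append, Ideal.ofList_singleton]

variable [IsLocalRing R] [IsNoetherianRing R]

/-- colength of the powers of a regular sequence -/
theorem mu_pow (A : ℕ) (hA : 0 < A) (l2 : List R) : ∀ l1 : List R,
    (∀ r ∈ l1, r ∈ maximalIdeal R) → (∀ r ∈ l2, r ∈ maximalIdeal R) →
    IsWeaklyRegular R (l1 ++ l2) →
    cl (Ideal.ofList (l1 ++ l2.map (· ^ A))) =
      ((A ^ l2.length : ℕ) : ℕ∞) * cl (Ideal.ofList (l1 ++ l2)) := by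
  induction l2 with
  | nil =>
    intro l1 _ _ _
    simp
  | cons a l2 ih =>
    intro l1 h1 h2 h3
    have ha : a ∈ maximalIdeal R := h2 a List.mem_cons_self
    have h2' : ∀ r ∈ l2, r ∈ maximalIdeal R := fun r hr => h2 r (List.mem_cons_of_mem _ hr)
    have haA : a ^ A ∈ maximalIdeal R := Ideal.pow_mem_of_mem _ ha A hA
    have hall : ∀ r ∈ l1 ++ a :: l2, r ∈ maximalIdeal R := by
      intro r hr
      rcases List.mem_append.mp hr with h | h
      · exact h1 r h
      · exact h2 r h
    have hp1 : List.Perm (l1 ++ a :: l2) ((l1 ++ l2) ++ [a]) := by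
      refine List.perm_middle.trans ?_
      exact (List.perm_append_singleton a (l1 ++ l2)).symm
    have h4 : IsWeaklyRegular R ((l1 ++ l2) ++ [a]) :=
      IsLocalRing.isWeaklyRegular_of_perm_of_subset_maximalIdeal h3 hp1 hall
    have h5 : IsWeaklyRegular R ((l1 ++ l2) ++ [a ^ A]) := mu_wr_pow h4 A
    have hp2 : List.Perm ((l1 ++ l2) ++ [a ^ A]) ((l1 ++ [a ^ A]) ++ l2) := by
      refine (List.perm_append_singleton (a ^ A) (l1 ++ l2)).trans ?_
      rw [List.append_assoc, List.singleton_append]
      exact List.perm_middle.symm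
    have hall2 : ∀ r ∈ (l1 ++ l2) ++ [a ^ A], r ∈ maximalIdeal R := by
      intro r hr
      rcases List.mem_append.mp hr with h | h
      · rcases List.mem_append.mp h with h | h
        · exact h1 r h
        · exact h2' r h
      · rw [List.mem_singleton.mp h]
        exact haA
    have h6 : IsWeaklyRegular R ((l1 ++ [a ^ A]) ++ l2) :=
      IsLocalRing.isWeaklyRegular_of_perm_of_subset_maximalIdeal h5 hp2 hall2
    have h1' : ∀ r ∈ l1 ++ [a ^ A], r ∈ maximalIdeal R := by
      intro r hr
      rcases List.mem_append.mp hr with h | h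
      · exact h1 r h
      · rw [List.mem_singleton.mp h]
        exact haA
    have h7 := ih (l1 ++ [a ^ A]) h1' h2' h6
    have e1 : l1 ++ (a :: l2).map (· ^ A) = (l1 ++ [a ^ A]) ++ l2.map (· ^ A) := by
      rw [List.map_cons, List.append_assoc, List.singleton_append]
    rw [e1, h7, ← mu_ofList_perm hp2, mu_ofList_concat, mu_last _ a ((mu_wr_iff _ _).mp h4).2 A,
      mu_ofList_perm hp1, mu_ofList_concat, List.length_cons, pow_succ]
    push_cast
    ring

theorem mu_yp (n : ℕ) (y : Fin n → R) (hy : ∀ l, y l ∈ maximalIdeal R)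
    (hreg : IsRegular R (List.ofFn y)) (A : ℕ) (hA : 0 < A) :
    Module.length R (R ⧸ Mon.yp y A) =
      ((A ^ n : ℕ) : ℕ∞) * Module.length R (R ⧸ Mon.yp y 1) := by
  have hyA : ∀ A, Mon.yp y A = Ideal.ofList ((List.ofFn y).map (· ^ A)) := by
    intro A
    unfold Mon.yp Ideal.ofList
    congr 1
    ext r
    simp
  have h := mu_pow A hA (List.ofFn y) [] (by simp) (by
    intro r hr
    obtain ⟨i, rfl⟩ := (List.mem_ofFn' y r).mp hr
    exact hy i) (by simpa using hreg.toIsWeaklyRegular)
  rw [List.nil_append, List.nil_append, List.length_ofFn] at h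
  rw [hyA A, hyA 1]
  have e : (List.ofFn y).map (· ^ 1) = List.ofFn y := by
    simp only [pow_one]
    exact List.map_id' _
  rw [e]
  exact h

theorem mu_choose (n N : ℕ) : ∀ c, N.choose (n + 1) ≤ (N - c).choose (n + 1) + c * N ^ n := by
  intro c
  induction c with
  | zero => simp
  | succ c ih =>
    refine ih.trans ?_
    rcases Nat.eq_zero_or_pos (N - c) with h | h
    · have h2 : N - (c + 1) = 0 := by omega
      rw [h, h2, Nat.choose_zero_succ]
      nlinarith [Nat.zero_le (N ^ n)]
    · obtain ⟨M, hM⟩ : ∃ M, N - c = M + 1 := ⟨N - c - 1, by omega⟩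
      have hM2 : N - (c + 1) = M := by omega
      rw [hM, hM2, Nat.choose_succ_succ]
      have h3 : M.choose n ≤ N ^ n := (Nat.choose_le_pow M n).trans (Nat.pow_le_pow_left (by omega) n)
      nlinarith

omit [IsLocalRing R] [IsNoetherianRing R] in
theorem mu_span_eq {D : ℕ} (y : Fin D → R) : Ideal.span (Set.range y) = Mon.yp y 1 := by
  unfold Mon.yp
  simp only [pow_one]

end Mult

/-- (MULT) the multiplicity of a Cohen-Macaulay ring -/
theorem mult_of_reduction_proved (R : Type u) [CommRing R] [IsLocalRing R] [IsNoetherianRing R]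
    (D : ℕ) (hD : ringKrullDim R = D) (y : Fin D → R) (hy : ∀ l, y l ∈ maximalIdeal R)
    (hreg : RingTheory.Sequence.IsRegular R (List.ofFn y))
    (c : ℕ) (hc : ∀ t : ℕ, maximalIdeal R ^ (t + c) ≤ Ideal.span (Set.range y) ^ t) :
    Module.length R (R ⧸ Ideal.span (Set.range y)) ≠ ⊤ ∧
    HasMult R ((Module.length R (R ⧸ Ideal.span (Set.range y))).toNat : ℝ) := by
  have hfin : Module.length R (R ⧸ Ideal.span (Set.range y)) ≠ ⊤ := by
    have h1 : maximalIdeal R ^ (1 + c) ≤ Ideal.span (Set.range y) := by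
      have := hc 1
      rwa [pow_one] at this
    have h2 := cl_sup_pow_ne_top (Ideal.span (Set.range y)) (1 + c)
    rw [sup_eq_left.mpr h1] at h2
    exact h2
  refine ⟨hfin, D, hD, ?_⟩
  cases D with
  | zero =>
    have h0 : Ideal.span (Set.range y) = ⊥ := by
      rw [Set.range_eq_empty, Ideal.span_empty]
    have h1 : ∀ N, 1 + c ≤ N → maximalIdeal R ^ N = Ideal.span (Set.range y) := by
      intro N hN
      rw [h0]
      have := hc 1
      rw [pow_one, h0] at this
      exact le_bot_iff.mp ((Ideal.pow_le_pow_right hN).trans this)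
    refine tendsto_const_nhds.congr' ?_
    filter_upwards [Filter.eventually_ge_atTop (1 + c)] with N hN
    rw [h1 N hN]
    simp
  | succ n =>
    set L := (Module.length R (R ⧸ Ideal.span (Set.range y))).toNat with hL
    have hfin' : Module.length R (R ⧸ Mon.yp y 1) ≠ ⊤ := by
      rw [← mu_span_eq]
      exact hfin
    have hlr : Mon.lr y 1 = L := by
      unfold Mon.lr
      rw [hL, mu_span_eq]
    have hlrA : ∀ A, 0 < A → Mon.lr y A = A ^ (n + 1) * L := by
      intro A hA
      have h1 := mu_yp (n + 1) y hy hreg A hA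
      unfold Mon.lr
      rw [h1, ENat.toNat_mul, ENat.toNat_natCast, ← hlr]
      rfl
    have hpc : ∀ a, Mon.pc y 1 a = (a + n).choose n * L := by
      intro a
      apply le_antisymm
      · have := Mon.pc_le y hfin' a
        rwa [hlr] at this
      · have h1 := Mon.pc_ge y hfin' (Nat.lt_succ_self a)
        rw [one_mul, hlrA _ (Nat.succ_pos a), hlr] at h1
        omega
    have hI : ∀ t, Module.length R (R ⧸ Mon.yp y 1 ^ t) =
        (((t + n).choose (n + 1) * L : ℕ) : ℕ∞) := by
      intro t
      have h1 := Mon.rlen_chain (fun d => Mon.yp y 1 ^ d)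
        (fun d => Ideal.pow_le_pow_right (Nat.le_succ d)) t
      rw [← Mon.rlen_top]
      have h0 : (Mon.yp y 1 ^ 0 : Ideal R) = ⊤ := by rw [pow_zero, Ideal.one_eq_top]
      rw [h0] at h1
      rw [h1, ← Mon.sum_choose n t, Finset.sum_mul, Nat.cast_sum]
      refine Finset.sum_congr rfl fun d _ => ?_
      rw [← hpc d, Mon.coe_pc y hfin' d]
    have hle1 : ∀ N, (Module.length R (R ⧸ maximalIdeal R ^ N)).toNat ≤
        L * (N + n).choose (n + 1) := by
      intro N
      have h1 : Mon.yp y 1 ^ N ≤ maximalIdeal R ^ N := by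
        rw [← mu_span_eq]
        refine Ideal.pow_right_mono ?_ N
        rw [Ideal.span_le]
        rintro _ ⟨l, rfl⟩
        exact hy l
      have h2 := (cl_anti h1 : cl _ ≤ cl _)
      unfold cl at h2
      rw [hI N] at h2
      have h3 := ENat.toNat_le_toNat h2 (ENat.natCast_ne_top _)
      rw [ENat.toNat_natCast] at h3
      rw [mul_comm]
      exact h3
    have hle2 : ∀ N, L * (N + n).choose (n + 1) ≤
        (Module.length R (R ⧸ maximalIdeal R ^ (N + c))).toNat := by
      intro N
      have h1 : maximalIdeal R ^ (N + c) ≤ Mon.yp y 1 ^ N := by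
        rw [← mu_span_eq]
        exact hc N
      have h2 := (cl_anti h1 : cl _ ≤ cl _)
      unfold cl at h2
      rw [hI N] at h2
      have h4 : Module.length R (R ⧸ maximalIdeal R ^ (N + c)) ≠ ⊤ := by
        have := cl_sup_pow_ne_top (⊥ : Ideal R) (N + c)
        rw [bot_sup_eq] at this
        exact this
      have h3 := ENat.toNat_le_toNat h2 h4
      rw [ENat.toNat_natCast] at h3
      rw [mul_comm]
      exact h3
    refine limit_exists (fun N => (Module.length R (R ⧸ maximalIdeal R ^ N)).toNat) L (L * c) n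
      (fun N => (hle1 N).trans (Nat.le_add_right _ _)) (fun N => ?_)
    have h1 := mu_choose n N c
    rcases Nat.lt_or_ge N c with h | h
    · have h2 : N - c = 0 := by omega
      rw [h2, Nat.choose_zero_succ, zero_add] at h1
      calc L * N.choose (n + 1) ≤ L * (c * N ^ n) := Nat.mul_le_mul_left _ h1
        _ = L * c * N ^ n := by ring
        _ ≤ _ := Nat.le_add_left _ _
    · have h3 := hle2 (N - c)
      rw [Nat.sub_add_cancel h] at h3
      have h4 : (N - c).choose (n + 1) ≤ (N - c + n).choose (n + 1) :=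
        Nat.choose_le_choose _ (Nat.le_add_right _ _)
      calc L * N.choose (n + 1) ≤ L * ((N - c).choose (n + 1) + c * N ^ n) :=
            Nat.mul_le_mul_left _ h1
        _ ≤ L * ((N - c + n).choose (n + 1) + c * N ^ n) :=
            Nat.mul_le_mul_left _ (Nat.add_le_add_right h4 _)
        _ = L * (N - c + n).choose (n + 1) + L * c * N ^ n := by ring
        _ ≤ _ := Nat.add_le_add_right h3 _

end Vale.Agent.P202C
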