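import Mathlib

/-! # P202C, part IV: numerics (helper40)

`r_l` are the critical points (up to sign) of `Phi(x) = x(x+1)...(x+n)/(n+1)`, `l < r_l < l+1`
for `l = 0..n-1` (zero based). With `b_l = floor(r_l Q)`:

* `l Q <= b_l < (l+1) Q`;
* the sum over `s` in `[-i Q, 0)` of `prod_l (b_l + s + 1)` is `O(Q^n)` for `i <= n`;
* the sum over `s` in `[0, Q)` of `prod_l (b_l + s + 1)` is `n! Q^(n+1) + O(Q^n)`.
-/

namespace Vale.Agent.P202C

open Finset Polynomial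

/-- `x(x+1)...(x+n)` as a real polynomial. -/
noncomputable def ascPoly (n : ℕ) : ℝ[X] := ∏ j ∈ range (n + 1), (X + C (j : ℝ))

theorem ascPoly_monic (n : ℕ) : (ascPoly n).Monic :=
  monic_prod_of_monic _ _ fun _ _ => monic_X_add_C _

theorem ascPoly_natDegree (n : ℕ) : (ascPoly n).natDegree = n + 1 := by
  unfold ascPoly
  rw [natDegree_prod_of_monic _ _ fun _ _ => monic_X_add_C _]
  have h : ∀ j ∈ range (n + 1), (X + C (j : ℝ)).natDegree = 1 := fun j _ =>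
    natDegree_X_add_C (j : ℝ)
  rw [sum_congr rfl h]
  simp

theorem ascPoly_eval (n : ℕ) (x : ℝ) : (ascPoly n).eval x = ∏ j ∈ range (n + 1), (x + j) := by
  unfold ascPoly
  rw [eval_prod]
  simp

theorem ascPoly_eval_neg (n i : ℕ) (hi : i ≤ n) : (ascPoly n).eval (-(i : ℝ)) = 0 := by
  rw [ascPoly_eval]
  apply prod_eq_zero (mem_range.mpr (Nat.lt_succ_of_le hi))
  ring

theorem exists_root (n : ℕ) (l : Fin n) :
    ∃ r : ℝ, ((l : ℕ) : ℝ) < r ∧ r < (l : ℕ) + 1 ∧ (derivative (ascPoly n)).eval (-r) = 0 := by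
  have hab : -(((l : ℕ) + 1 : ℕ) : ℝ) < -((l : ℕ) : ℝ) := by push_cast; linarith
  obtain ⟨c, hc, hc'⟩ := exists_hasDerivAt_eq_zero (f := fun x => (ascPoly n).eval x)
    (f' := fun x => (derivative (ascPoly n)).eval x) hab
    (ascPoly n).continuous.continuousOn
    (by
      show (ascPoly n).eval _ = (ascPoly n).eval _
      rw [ascPoly_eval_neg n _ (by omega), ascPoly_eval_neg n _ (by omega)])
    (fun x _ => (ascPoly n).hasDerivAt x)
  refine ⟨-c, ?_, ?_, ?_⟩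
  · linarith [hc.2]
  · have := hc.1
    push_cast at this
    linarith
  · rw [neg_neg]; exact hc'

/-- the roots -/
noncomputable def rt (n : ℕ) (l : Fin n) : ℝ := (exists_root n l).choose

theorem rt_gt (n : ℕ) (l : Fin n) : ((l : ℕ) : ℝ) < rt n l := (exists_root n l).choose_spec.1

theorem rt_lt (n : ℕ) (l : Fin n) : rt n l < (l : ℕ) + 1 := (exists_root n l).choose_spec.2.1

theorem rt_root (n : ℕ) (l : Fin n) : (derivative (ascPoly n)).eval (-rt n l) = 0 :=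
  (exists_root n l).choose_spec.2.2

theorem rt_injective (n : ℕ) : Function.Injective (rt n) := by
  intro a b hab
  have h1 := rt_gt n a
  have h2 := rt_lt n a
  have h3 := rt_gt n b
  have h4 := rt_lt n b
  rw [hab] at h1 h2
  have h5 : ((a : ℕ) : ℝ) < (b : ℕ) + 1 := lt_trans h1 h4
  have h6 : ((b : ℕ) : ℝ) < (a : ℕ) + 1 := lt_trans h3 h2
  apply Fin.ext
  have h7 : (a : ℕ) < (b : ℕ) + 1 := by exact_mod_cast h5
  have h8 : (b : ℕ) < (a : ℕ) + 1 := by exact_mod_cast h6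
  omega

theorem derivative_ascPoly (n : ℕ) :
    derivative (ascPoly n) = C ((n : ℝ) + 1) * ∏ l : Fin n, (X + C (rt n l)) := by
  have hdeg : (derivative (ascPoly n)).natDegree = n := by
    have h0 := ascPoly_natDegree n
    have h1 := natDegree_derivative_le (ascPoly n)
    rw [h0] at h1
    apply le_antisymm (by simpa using h1)
    apply le_natDegree_of_ne_zero
    rw [coeff_derivative]
    have h := ascPoly_monic n
    rw [Monic, leadingCoeff, ascPoly_natDegree] at h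
    rw [h, one_mul]
    positivity
  have hlc : (derivative (ascPoly n)).coeff n = (n : ℝ) + 1 := by
    rw [coeff_derivative]
    have h := ascPoly_monic n
    rw [Monic, leadingCoeff, ascPoly_natDegree] at h
    rw [h, one_mul]
  have hmon : (∏ l : Fin n, (X + C (rt n l))).Monic :=
    monic_prod_of_monic _ _ fun _ _ => monic_X_add_C _
  have hdeg2 : (∏ l : Fin n, (X + C (rt n l))).natDegree = n := by
    rw [natDegree_prod_of_monic _ _ fun _ _ => monic_X_add_C _]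
    simp
  have hdvd : ∏ l : Fin n, (X + C (rt n l)) ∣ derivative (ascPoly n) := by
    apply Fintype.prod_dvd_of_coprime
    · intro a b hab
      have h1 : (X + C (rt n a) : ℝ[X]) = X - C (-rt n a) := by rw [C_neg, sub_neg_eq_add]
      have h2 : (X + C (rt n b) : ℝ[X]) = X - C (-rt n b) := by rw [C_neg, sub_neg_eq_add]
      show IsCoprime (X + C (rt n a)) (X + C (rt n b))
      rw [h1, h2]
      apply isCoprime_X_sub_C_of_isUnit_sub
      rw [isUnit_iff_ne_zero]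
      intro h
      exact hab (rt_injective n (by linarith))
    · intro a
      have h1 : (X + C (rt n a) : ℝ[X]) = X - C (-rt n a) := by rw [C_neg, sub_neg_eq_add]
      rw [h1, dvd_iff_isRoot]
      exact rt_root n a
  obtain ⟨c, hc⟩ := hdvd
  have hne : derivative (ascPoly n) ≠ 0 := by
    intro h
    rw [h, coeff_zero] at hlc
    have : (0 : ℝ) < n + 1 := by positivity
    linarith
  have hc0 : c ≠ 0 := by
    rintro rfl
    rw [mul_zero] at hc
    exact hne hc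
  have hcdeg : c.natDegree = 0 := by
    have h := congrArg natDegree hc
    rw [hdeg, hmon.natDegree_mul' hc0, hdeg2] at h
    omega
  obtain ⟨a, rfl⟩ := natDegree_eq_zero.mp hcdeg
  have h3 : a = (n : ℝ) + 1 := by
    rw [hc, coeff_mul_C] at hlc
    have h := hmon
    rw [Monic, leadingCoeff, hdeg2] at h
    rw [h, one_mul] at hlc
    exact hlc
  rw [hc, h3, mul_comm]

/-- `Phi(x) = x(x+1)...(x+n)/(n+1)`. -/
noncomputable def Phi (n : ℕ) (x : ℝ) : ℝ := (ascPoly n).eval x / ((n : ℝ) + 1)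

theorem hasDerivAt_Phi (n : ℕ) (x : ℝ) :
    HasDerivAt (Phi n) (∏ l : Fin n, (x + rt n l)) x := by
  have h := ((ascPoly n).hasDerivAt x).div_const ((n : ℝ) + 1)
  have h2 : (derivative (ascPoly n)).eval x / ((n : ℝ) + 1) = ∏ l : Fin n, (x + rt n l) := by
    rw [derivative_ascPoly, eval_mul, eval_C, eval_prod]
    have : (n : ℝ) + 1 ≠ 0 := by positivity
    rw [mul_div_cancel_left₀ _ this]
    simp
  rw [h2] at h
  exact h

theorem Phi_neg (n i : ℕ) (hi : i ≤ n) : Phi n (-(i : ℝ)) = 0 := by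
  rw [Phi, ascPoly_eval_neg n i hi, zero_div]

theorem Phi_zero (n : ℕ) : Phi n 0 = 0 := by
  have := Phi_neg n 0 (Nat.zero_le _)
  simpa using this

theorem Phi_one (n : ℕ) : Phi n 1 = (n.factorial : ℝ) := by
  rw [Phi, ascPoly_eval]
  have h : ∏ j ∈ range (n + 1), ((1 : ℝ) + j) = ((n + 1).factorial : ℝ) := by
    rw [← prod_range_add_one_eq_factorial]
    push_cast
    exact prod_congr rfl fun j _ => by ring
  rw [h, Nat.factorial_succ]
  push_cast
  have : (n : ℝ) + 1 ≠ 0 := by positivity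
  field_simp

theorem abs_prod_sub_prod_le {ι : Type*} (s : Finset ι) (a b : ι → ℝ) (M δ : ℝ) (hM : 1 ≤ M)
    (hδ : 0 ≤ δ) (ha : ∀ i ∈ s, |a i| ≤ M) (hb : ∀ i ∈ s, |b i| ≤ M)
    (hab : ∀ i ∈ s, |a i - b i| ≤ δ) :
    |∏ i ∈ s, a i - ∏ i ∈ s, b i| ≤ s.card * M ^ s.card * δ := by
  classical
  induction s using Finset.induction_on with
  | empty => simp
  | insert x s hx ih =>
    have h1 := ih (fun i hi => ha i (mem_insert_of_mem hi)) (fun i hi => hb i (mem_insert_of_mem hi))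
      (fun i hi => hab i (mem_insert_of_mem hi))
    have hax := ha x (mem_insert_self _ _)
    have habx := hab x (mem_insert_self _ _)
    have hpb : |∏ i ∈ s, b i| ≤ M ^ s.card := by
      rw [abs_prod]
      calc ∏ i ∈ s, |b i| ≤ ∏ _i ∈ s, M :=
            prod_le_prod (fun _ _ => abs_nonneg _) fun i hi => hb i (mem_insert_of_mem hi)
        _ = M ^ s.card := by rw [prod_const]
    rw [prod_insert hx, prod_insert hx, card_insert_of_notMem hx]
    have hM0 : (0 : ℝ) ≤ M := by linarith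
    have h2 : a x * ∏ i ∈ s, a i - b x * ∏ i ∈ s, b i =
        a x * (∏ i ∈ s, a i - ∏ i ∈ s, b i) + (a x - b x) * ∏ i ∈ s, b i := by ring
    rw [h2]
    have hMk : (0 : ℝ) ≤ M ^ s.card := pow_nonneg hM0 _
    calc _ ≤ |a x * (∏ i ∈ s, a i - ∏ i ∈ s, b i)| + |(a x - b x) * ∏ i ∈ s, b i| :=
          abs_add_le _ _
      _ = |a x| * |∏ i ∈ s, a i - ∏ i ∈ s, b i| + |a x - b x| * |∏ i ∈ s, b i| := by
          rw [abs_mul, abs_mul]
      _ ≤ M * (s.card * M ^ s.card * δ) + δ * M ^ s.card := by gcongr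
      _ ≤ M * (s.card * M ^ s.card * δ) + δ * M ^ s.card * M := by
          have : δ * M ^ s.card * 1 ≤ δ * M ^ s.card * M := by gcongr
          linarith
      _ = _ := by push_cast; ring

/-- `b_l = floor(r_l Q)`. -/
noncomputable def bb (n Q : ℕ) (l : Fin n) : ℤ := ⌊rt n l * Q⌋

theorem bb_ge (n Q : ℕ) (l : Fin n) : ((l : ℕ) : ℤ) * Q ≤ bb n Q l := by
  rw [bb, Int.le_floor]
  push_cast
  exact mul_le_mul_of_nonneg_right (rt_gt n l).le (Nat.cast_nonneg _)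

theorem bb_lt (n Q : ℕ) (hQ : 1 ≤ Q) (l : Fin n) : bb n Q l < (((l : ℕ) : ℤ) + 1) * Q := by
  rw [bb, Int.floor_lt]
  push_cast
  have hQ' : (0 : ℝ) < Q := by exact_mod_cast hQ
  exact mul_lt_mul_of_pos_right (rt_lt n l) hQ'

/-- the Euler characteristic of `O(b + s)` on `(P^1)^n` -/
noncomputable def chis (n Q : ℕ) (s : ℤ) : ℤ := ∏ l : Fin n, (bb n Q l + s + 1)

theorem chis_step (n Q : ℕ) (hQ : 1 ≤ Q) (s : ℤ) (hs1 : -((n : ℤ) + 1) * Q ≤ s)
    (hs2 : s ≤ ((n : ℤ) + 1) * Q) :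
    |(chis n Q s : ℝ) - (Q : ℝ) ^ (n + 1) * (Phi n (((s : ℝ) + 1) / Q) - Phi n ((s : ℝ) / Q))| ≤
      2 * n * (2 * n + 3) ^ n * (Q : ℝ) ^ n / Q := by
  have hQ' : (0 : ℝ) < Q := by exact_mod_cast hQ
  have hQ1 : (1 : ℝ) ≤ Q := by exact_mod_cast hQ
  have hlt : (s : ℝ) / Q < ((s : ℝ) + 1) / Q := by
    apply div_lt_div_of_pos_right _ hQ'
    linarith
  obtain ⟨ξ, hξ, hξ'⟩ := exists_hasDerivAt_eq_slope (Phi n)
    (fun x => ∏ l : Fin n, (x + rt n l)) hlt
    (fun x _ => (hasDerivAt_Phi n x).continuousAt.continuousWithinAt)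
    (fun x _ => hasDerivAt_Phi n x)
  have h1 : ((s : ℝ) + 1) / Q - (s : ℝ) / Q = 1 / Q := by ring
  rw [h1] at hξ'
  have h2 : Phi n (((s : ℝ) + 1) / Q) - Phi n ((s : ℝ) / Q) =
      (∏ l : Fin n, (ξ + rt n l)) / Q := by
    rw [hξ']
    field_simp
  have h3 : (chis n Q s : ℝ) =
      (Q : ℝ) ^ n * ∏ l : Fin n, (((bb n Q l : ℝ) + s + 1) / Q) := by
    rw [chis, prod_div_distrib, prod_const, card_univ, Fintype.card_fin]
    push_cast
    field_simp
  have h4 : (Q : ℝ) ^ (n + 1) * ((∏ l : Fin n, (ξ + rt n l)) / Q) =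
      (Q : ℝ) ^ n * ∏ l : Fin n, (ξ + rt n l) := by
    rw [pow_succ]
    field_simp
  rw [h2, h3, h4, ← mul_sub, abs_mul, abs_of_nonneg (by positivity : (0 : ℝ) ≤ (Q : ℝ) ^ n)]
  have hs1' : -((n : ℝ) + 1) * Q ≤ s := by exact_mod_cast hs1
  have hs2' : (s : ℝ) ≤ ((n : ℝ) + 1) * Q := by exact_mod_cast hs2
  have hx1 : -((n : ℝ) + 1) ≤ (s : ℝ) / Q := by rw [le_div_iff₀ hQ']; exact hs1'
  have hx2 : (s : ℝ) / Q ≤ (n : ℝ) + 1 := by rw [div_le_iff₀ hQ']; exact hs2'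
  have hx3 : ((s : ℝ) + 1) / Q = (s : ℝ) / Q + 1 / Q := by ring
  have hQ2 : (1 : ℝ) / Q ≤ 1 := by rw [div_le_one hQ']; exact hQ1
  have hξ1 := hξ.1
  have hξ2 := hξ.2
  rw [hx3] at hξ2
  have hn0 : (0 : ℝ) ≤ n := Nat.cast_nonneg _
  have key := abs_prod_sub_prod_le (univ : Finset (Fin n))
    (fun l => ((bb n Q l : ℝ) + s + 1) / Q) (fun l => ξ + rt n l) (2 * n + 3) (2 / Q)
    (by linarith) (by positivity) ?_ ?_ ?_
  · rw [card_univ, Fintype.card_fin] at key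
    calc _ ≤ (Q : ℝ) ^ n * (n * (2 * n + 3) ^ n * (2 / Q)) := by
          apply mul_le_mul_of_nonneg_left key (by positivity)
      _ = _ := by ring
  · intro l _
    have hl : ((l : ℕ) : ℝ) + 1 ≤ n := by exact_mod_cast l.2
    have hl0 : (0 : ℝ) ≤ ((l : ℕ) : ℝ) := Nat.cast_nonneg _
    have h5 : (bb n Q l : ℝ) ≤ rt n l * Q := Int.floor_le _
    have h6 : rt n l * Q - 1 < bb n Q l := Int.sub_one_lt_floor _
    have h7 : ((bb n Q l : ℝ) + s + 1) / Q = (bb n Q l : ℝ) / Q + (s : ℝ) / Q + 1 / Q := by ring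
    have h8 : (bb n Q l : ℝ) / Q ≤ rt n l := by rw [div_le_iff₀ hQ']; exact h5
    have h9 : rt n l - 1 / Q ≤ (bb n Q l : ℝ) / Q := by
      rw [le_div_iff₀ hQ', sub_mul, one_div, inv_mul_cancel₀ hQ'.ne']
      exact h6.le
    have h10 := rt_lt n l
    have h11 := rt_gt n l
    have h12 : (0 : ℝ) < 1 / Q := by positivity
    show |((bb n Q l : ℝ) + s + 1) / Q| ≤ _
    rw [h7, abs_le]
    constructor <;> linarith
  · intro l _
    have hl : ((l : ℕ) : ℝ) + 1 ≤ n := by exact_mod_cast l.2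
    have hl0 : (0 : ℝ) ≤ ((l : ℕ) : ℝ) := Nat.cast_nonneg _
    have h10 := rt_lt n l
    have h11 := rt_gt n l
    show |ξ + rt n l| ≤ _
    rw [abs_le]
    constructor <;> linarith
  · intro l _
    have h5 : (bb n Q l : ℝ) ≤ rt n l * Q := Int.floor_le _
    have h6 : rt n l * Q - 1 < bb n Q l := Int.sub_one_lt_floor _
    have h7 : ((bb n Q l : ℝ) + s + 1) / Q = (bb n Q l : ℝ) / Q + (s : ℝ) / Q + 1 / Q := by ring
    have h8 : (bb n Q l : ℝ) / Q ≤ rt n l := by rw [div_le_iff₀ hQ']; exact h5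
    have h9 : rt n l - 1 / Q ≤ (bb n Q l : ℝ) / Q := by
      rw [le_div_iff₀ hQ', sub_mul, one_div, inv_mul_cancel₀ hQ'.ne']
      exact h6.le
    have h12 : (0 : ℝ) < 1 / Q := by positivity
    have h13 : (2 : ℝ) / Q = 1 / Q + 1 / Q := by ring
    show |((bb n Q l : ℝ) + s + 1) / Q - (ξ + rt n l)| ≤ _
    rw [h7, abs_le, h13]
    constructor <;> linarith

theorem sum_Ico_tele (f : ℤ → ℝ) (a : ℤ) (k : ℕ) :
    ∑ s ∈ Ico a (a + k), (f (s + 1) - f s) = f (a + k) - f a := by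
  induction k with
  | zero => simp
  | succ k ih =>
    have h : Ico a (a + ((k + 1 : ℕ) : ℤ)) = insert (a + k) (Ico a (a + k)) := by
      ext x
      simp only [mem_Ico, mem_insert]
      push_cast
      omega
    rw [h, sum_insert (by simp), ih]
    push_cast
    rw [← add_assoc]
    ring

theorem chis_sum (n Q : ℕ) (hQ : 1 ≤ Q) (A B : ℤ) (hAB : A ≤ B) (hA : -((n : ℤ) + 1) ≤ A)
    (hB : B ≤ n + 1) :
    |(∑ s ∈ Ico (A * Q) (B * Q), (chis n Q s : ℝ)) - (Q : ℝ) ^ (n + 1) * (Phi n B - Phi n A)| ≤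
      2 * n * (2 * n + 3) ^ n * (2 * n + 2) * (Q : ℝ) ^ n := by
  have hQ' : (0 : ℝ) < Q := by exact_mod_cast hQ
  have hQz : (0 : ℤ) < Q := by exact_mod_cast hQ
  obtain ⟨k, hk⟩ := Int.eq_ofNat_of_zero_le (a := B * Q - A * Q) (by nlinarith)
  have hBQ : B * Q = A * Q + k := by linarith
  have htele := sum_Ico_tele (fun s => (Q : ℝ) ^ (n + 1) * Phi n ((s : ℝ) / Q)) (A * Q) k
  rw [← hBQ] at htele
  have e1 : (((B * Q : ℤ) : ℝ)) / Q = B := by push_cast; field_simp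
  have e2 : (((A * Q : ℤ) : ℝ)) / Q = A := by push_cast; field_simp
  simp only [e1, e2] at htele
  rw [mul_sub, ← htele, ← sum_sub_distrib]
  calc _ ≤ ∑ s ∈ Ico (A * Q) (B * Q), |(chis n Q s : ℝ) -
          ((Q : ℝ) ^ (n + 1) * Phi n (((s + 1 : ℤ) : ℝ) / Q) -
            (Q : ℝ) ^ (n + 1) * Phi n ((s : ℝ) / Q))| := abs_sum_le_sum_abs _ _
    _ ≤ ∑ _s ∈ Ico (A * Q) (B * Q), 2 * n * (2 * n + 3) ^ n * (Q : ℝ) ^ n / Q := by
        apply sum_le_sum
        intro s hs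
        rw [mem_Ico] at hs
        have h := chis_step n Q hQ s (by nlinarith [hs.1]) (by nlinarith [hs.2])
        rw [mul_sub] at h
        push_cast
        exact h
    _ = (B * Q - A * Q : ℝ) * (2 * n * (2 * n + 3) ^ n * (Q : ℝ) ^ n / Q) := by
        rw [sum_const, Int.card_Ico, nsmul_eq_mul, hk]
        congr 1
        have : ((B * Q - A * Q : ℤ) : ℝ) = ((k : ℤ) : ℝ) := by rw [hk]
        push_cast at this
        rw [this]
        simp
    _ ≤ ((2 * n + 2) * Q) * (2 * n * (2 * n + 3) ^ n * (Q : ℝ) ^ n / Q) := by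
        apply mul_le_mul_of_nonneg_right _ (by positivity)
        have hA' : -((n : ℝ) + 1) ≤ A := by exact_mod_cast hA
        have hB' : (B : ℝ) ≤ n + 1 := by exact_mod_cast hB
        rw [← sub_mul]
        apply mul_le_mul_of_nonneg_right _ hQ'.le
        linarith
    _ = _ := by field_simp

/-- the sums over `[-iQ, -jQ)` are `O(Q^n)` -/
theorem chis_sum_neg (n Q : ℕ) (hQ : 1 ≤ Q) (i j : ℕ) (hji : j ≤ i) (hi : i ≤ n) :
    |(∑ s ∈ Ico (-(i : ℤ) * Q) (-(j : ℤ) * Q), (chis n Q s : ℝ))| ≤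
      2 * n * (2 * n + 3) ^ n * (2 * n + 2) * (Q : ℝ) ^ n := by
  have h := chis_sum n Q hQ (-(i : ℤ)) (-(j : ℤ)) (by omega) (by omega) (by omega)
  have e1 : Phi n ((-(i : ℤ) : ℤ) : ℝ) = 0 := by
    push_cast; exact Phi_neg n i hi
  have e2 : Phi n ((-(j : ℤ) : ℤ) : ℝ) = 0 := by
    push_cast; exact Phi_neg n j (by omega)
  rw [e1, e2] at h
  simpa using h

/-- the sum over `[0, Q)` is `n! Q^(n+1) + O(Q^n)` -/
theorem chis_sum_pos (n Q : ℕ) (hQ : 1 ≤ Q) :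
    |(∑ s ∈ Ico (0 : ℤ) Q, (chis n Q s : ℝ)) - (n.factorial : ℝ) * (Q : ℝ) ^ (n + 1)| ≤
      2 * n * (2 * n + 3) ^ n * (2 * n + 2) * (Q : ℝ) ^ n := by
  have h := chis_sum n Q hQ 0 1 (by omega) (by omega) (by omega)
  rw [zero_mul, one_mul, Int.cast_one, Int.cast_zero, Phi_one, Phi_zero, sub_zero,
    mul_comm ((Q : ℝ) ^ (n + 1))] at h
  exact h

/-- Plan.numer -/
theorem numer (n : ℕ) : ∃ c : ℝ, ∀ Q : ℕ, 0 < Q → ∃ b : Fin n → ℤ,
    (∀ l : Fin n, (l : ℤ) * Q ≤ b l ∧ b l ≤ ((l : ℤ) + 1) * Q - 1) ∧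
    |((∑ s ∈ Finset.Ico (0 : ℤ) Q, ∏ l, (b l + s + 1) : ℤ) : ℝ) -
      (n.factorial : ℝ) * (Q : ℝ) ^ (n + 1)| ≤ c * (Q : ℝ) ^ n ∧
    ∀ i : ℕ, 1 ≤ i → i ≤ n + 1 →
      |((∑ s ∈ Finset.Ico ((1 - (i : ℤ)) * Q) 0, ∏ l, (b l + s + 1) : ℤ) : ℝ)| ≤
        c * (Q : ℝ) ^ n := by
  refine ⟨2 * n * (2 * n + 3) ^ n * (2 * n + 2), fun Q hQ => ⟨bb n Q, fun l => ⟨bb_ge n Q l, ?_⟩,
    ?_, ?_⟩⟩
  · have h := bb_lt n Q hQ l
    omega
  · have h := chis_sum_pos n Q hQ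
    have e : ((∑ s ∈ Finset.Ico (0 : ℤ) Q, ∏ l, (bb n Q l + s + 1) : ℤ) : ℝ) =
        ∑ s ∈ Finset.Ico (0 : ℤ) Q, (chis n Q s : ℝ) := by
      rw [Int.cast_sum]
      rfl
    rw [e]
    exact h
  · intro i hi1 hi2
    have h := chis_sum_neg n Q hQ (i - 1) 0 (Nat.zero_le _) (by omega)
    have e1 : -(((i - 1 : ℕ)) : ℤ) * Q = (1 - (i : ℤ)) * Q := by
      rw [Nat.cast_sub hi1]
      push_cast
      ring
    have e2 : -(((0 : ℕ)) : ℤ) * (Q : ℤ) = 0 := by simp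
    rw [e1, e2] at h
    have e : ((∑ s ∈ Finset.Ico ((1 - (i : ℤ)) * Q) 0, ∏ l, (bb n Q l + s + 1) : ℤ) : ℝ) =
        ∑ s ∈ Finset.Ico ((1 - (i : ℤ)) * Q) 0, (chis n Q s : ℝ) := by
      rw [Int.cast_sum]
      rfl
    rw [e]
    exact h

end Vale.Agent.P202C
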