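import Vale.Agent.P202.Seq

/-!
P202 in characteristic p, module REDUCTION: in a Cohen-Macaulay local ring with infinite residue
field there is a regular sequence which is a reduction of the maximal ideal.

Depth is treated by hand with ideals: `rdReg I a` means that `a` is a nonzerodivisor modulo `I`;
`rdDp k I` means that there is a regular sequence of length `k` modulo `I`; `rdDp_drop` is the
independence of the choice of the first element.
-/

set_option autoImplicit false

namespace Vale.Agent.P202C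

open IsLocalRing Vale.Agent.P202

universe u

section Red

variable {R : Type u} [CommRing R]

/-- `a` is a nonzerodivisor modulo `I` -/
def rdReg (I : Ideal R) (a : R) : Prop := ∀ r, a * r ∈ I → r ∈ I

theorem rdReg_swap {I : Ideal R} {a z : R} (ha : rdReg I a)
    (hz : rdReg (I ⊔ Ideal.span {a}) z) : rdReg (I ⊔ Ideal.span {z}) a := by
  intro u hu
  obtain ⟨i, hi, w, hw, hiw⟩ := Submodule.mem_sup.mp hu
  obtain ⟨v, rfl⟩ := Ideal.mem_span_singleton'.mp hw
  have h1 : z * v ∈ I ⊔ Ideal.span {a} := by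
    have h2 : z * v = u * a - i := by rw [mul_comm u a, ← hiw]; ring
    rw [h2]
    exact Ideal.sub_mem _ (Ideal.mem_sup_right (Ideal.mem_span_singleton'.mpr ⟨u, rfl⟩))
      (Ideal.mem_sup_left hi)
  obtain ⟨i', hi', w', hw', hiw'⟩ := Submodule.mem_sup.mp (hz v h1)
  obtain ⟨t, rfl⟩ := Ideal.mem_span_singleton'.mp hw'
  have h3 : a * (u - z * t) ∈ I := by
    have h4 : a * (u - z * t) = i + z * i' := by
      have h5 : v = i' + t * a := hiw'.symm
      rw [mul_sub, ← hiw, h5]
      ring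
    rw [h4]
    exact Ideal.add_mem _ hi (Ideal.mul_mem_left _ _ hi')
  have h6 := ha _ h3
  have h7 : u = (u - z * t) + t * z := by ring
  rw [h7]
  exact Submodule.add_mem_sup h6 (Ideal.mem_span_singleton'.mpr ⟨t, rfl⟩)

variable [IsLocalRing R]

/-- no socle modulo `I` -/
def rdSf (I : Ideal R) : Prop := ∀ r, (∀ m ∈ maximalIdeal R, m * r ∈ I) → r ∈ I

theorem rdSf_of_reg {I : Ideal R} {a : R} (ha : a ∈ maximalIdeal R) (h : rdReg I a) : rdSf I :=
  fun r hr => h r (hr a ha)

theorem rdSf_shift {I : Ideal R} {a x : R} (ha : a ∈ maximalIdeal R)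
    (hra : rdReg I a) (hrx : rdReg I x) (hs : rdSf (I ⊔ Ideal.span {a})) :
    rdSf (I ⊔ Ideal.span {x}) := by
  intro u hu
  obtain ⟨i, hi, w, hw, hiw⟩ := Submodule.mem_sup.mp (hu a ha)
  obtain ⟨v, rfl⟩ := Ideal.mem_span_singleton'.mp hw
  have hv : v ∈ I ⊔ Ideal.span {a} := by
    apply hs
    intro m hm
    obtain ⟨j, hj, w', hw', hjw⟩ := Submodule.mem_sup.mp (hu m hm)
    obtain ⟨t, rfl⟩ := Ideal.mem_span_singleton'.mp hw'
    have h1 : x * (a * t - m * v) ∈ I := by
      have h2 : x * (a * t - m * v) = m * i - a * j := by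
        linear_combination a * hjw - m * hiw
      rw [h2]
      exact Ideal.sub_mem _ (Ideal.mul_mem_left _ _ hi) (Ideal.mul_mem_left _ _ hj)
    have h3 := hrx _ h1
    have h4 : m * v = -(a * t - m * v) + t * a := by ring
    rw [h4]
    exact Submodule.add_mem_sup (Submodule.neg_mem _ h3) (Ideal.mem_span_singleton'.mpr ⟨t, rfl⟩)
  obtain ⟨i', hi', w', hw', hiw'⟩ := Submodule.mem_sup.mp hv
  obtain ⟨t, rfl⟩ := Ideal.mem_span_singleton'.mp hw'
  have h3 : a * (u - x * t) ∈ I := by
    have h4 : a * (u - x * t) = i + x * i' := by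
      linear_combination -hiw - x * hiw'
    rw [h4]
    exact Ideal.add_mem _ hi (Ideal.mul_mem_left _ _ hi')
  have h6 := hra _ h3
  have h7 : u = (u - x * t) + t * x := by ring
  rw [h7]
  exact Submodule.add_mem_sup h6 (Ideal.mem_span_singleton'.mpr ⟨t, rfl⟩)

/-- there is a regular sequence of length `k` modulo `I` -/
def rdDp : ℕ → Ideal R → Prop
  | 0, _ => True
  | k + 1, I => ∃ a ∈ maximalIdeal R, rdReg I a ∧ rdDp k (I ⊔ Ideal.span {a})

theorem rdSf_of_dp {k : ℕ} {I : Ideal R} (h : rdDp (k + 1) I) : rdSf I := by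
  obtain ⟨a, ha, hr, _⟩ := h
  exact rdSf_of_reg ha hr

variable [IsNoetherianRing R]

/-- the ideals to avoid in order to be regular modulo `I` -/
theorem rd_ass (I : Ideal R) (hs : rdSf I) : ∃ s : Finset (Ideal R),
    (∀ V ∈ s, ¬ maximalIdeal R ≤ V) ∧ ∀ x, (∀ V ∈ s, x ∉ V) → rdReg I x := by
  refine ⟨(associatedPrimes.finite R (R ⧸ I)).toFinset, fun V hV hle => ?_, fun x hx r hr => ?_⟩
  · rw [Set.Finite.mem_toFinset, AssociatedPrimes.mem_iff, isAssociatedPrime_iff] at hV
    obtain ⟨hVp, z, rfl⟩ := hV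
    obtain ⟨r, rfl⟩ := Ideal.Quotient.mk_surjective z
    have hrI : r ∈ I := by
      apply hs
      intro m hm
      have h1 := hle hm
      rw [Submodule.mem_colon_singleton, Submodule.mem_bot] at h1
      rw [← Ideal.Quotient.eq_zero_iff_mem, map_mul]
      exact h1
    apply hVp.ne_top
    rw [Ideal.eq_top_iff_one, Submodule.mem_colon_singleton, Submodule.mem_bot,
      Ideal.Quotient.eq_zero_iff_mem.mpr hrI, smul_zero]
  · by_contra hrI
    have h1 : x ∈ ⋃ p ∈ associatedPrimes R (R ⧸ I), (p : Set R) := by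
      rw [biUnion_associatedPrimes_eq_zero_divisors R (R ⧸ I)]
      refine ⟨Ideal.Quotient.mk I r, fun h0 => hrI (Ideal.Quotient.eq_zero_iff_mem.mp h0), ?_⟩
      have h2 : x • (Ideal.Quotient.mk I r) = Ideal.Quotient.mk I (x * r) := by
        rw [map_mul]; rfl
      rw [h2, Ideal.Quotient.eq_zero_iff_mem]
      exact hr
    rw [Set.mem_iUnion₂] at h1
    obtain ⟨V, hV, hxV⟩ := h1
    exact hx V ((Set.Finite.mem_toFinset _).mpr hV) hxV

theorem rd_common [Infinite (ResidueField R)] {I J : Ideal R} (hI : rdSf I) (hJ : rdSf J) :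
    ∃ z ∈ maximalIdeal R, rdReg I z ∧ rdReg J z := by
  classical
  obtain ⟨s, hs, hs'⟩ := rd_ass I hI
  obtain ⟨t, ht, ht'⟩ := rd_ass J hJ
  obtain ⟨z, hz, hzs⟩ := avoid (maximalIdeal R) (s ∪ t) (by
    intro W hW
    rcases Finset.mem_union.mp hW with h | h
    · exact hs W h
    · exact ht W h)
  exact ⟨z, hz, hs' z fun V hV => hzs V (Finset.mem_union_left _ hV),
    ht' z fun V hV => hzs V (Finset.mem_union_right _ hV)⟩

theorem rd_common3 [Infinite (ResidueField R)] {I J K : Ideal R} (hI : rdSf I) (hJ : rdSf J)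
    (hK : rdSf K) :
    ∃ z ∈ maximalIdeal R, rdReg I z ∧ rdReg J z ∧ rdReg K z := by
  classical
  obtain ⟨s, hs, hs'⟩ := rd_ass I hI
  obtain ⟨t, ht, ht'⟩ := rd_ass J hJ
  obtain ⟨w, hw, hw'⟩ := rd_ass K hK
  obtain ⟨z, hz, hzs⟩ := avoid (maximalIdeal R) (s ∪ (t ∪ w)) (by
    intro W hW
    rcases Finset.mem_union.mp hW with h | h
    · exact hs W h
    · rcases Finset.mem_union.mp h with h | h
      · exact ht W h
      · exact hw W h)
  exact ⟨z, hz, hs' z fun V hV => hzs V (Finset.mem_union_left _ hV),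
    ht' z fun V hV => hzs V (Finset.mem_union_right _ (Finset.mem_union_left _ hV)),
    hw' z fun V hV => hzs V (Finset.mem_union_right _ (Finset.mem_union_right _ hV))⟩

/-- independence of the first element -/
theorem rdDp_drop [Infinite (ResidueField R)] (k : ℕ) : ∀ (I : Ideal R) (x : R),
    x ∈ maximalIdeal R → rdDp (k + 1) I → rdReg I x → rdDp k (I ⊔ Ideal.span {x}) := by
  induction k with
  | zero => intro I x _ _ _; trivial
  | succ k ih =>
    intro I x hx hI hrx
    have hsI := rdSf_of_dp hI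
    obtain ⟨a, ha, hra, hIa⟩ := hI
    have hsa := rdSf_of_dp hIa
    have hsx := rdSf_shift ha hra hrx hsa
    obtain ⟨z, hz, hz1, hz2, hz3⟩ := rd_common3 hsI hsa hsx
    refine ⟨z, hz, hz3, ?_⟩
    have h1 := ih _ z hz hIa hz2
    have h2 : rdReg (I ⊔ Ideal.span {z}) a := rdReg_swap hra hz2
    have h3 : rdReg (I ⊔ Ideal.span {z}) x := rdReg_swap hrx hz3
    have h4 : rdDp (k + 1) (I ⊔ Ideal.span {z}) := by
      refine ⟨a, ha, h2, ?_⟩
      rw [sup_right_comm]
      exact h1
    have h5 := ih _ x hx h4 h3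
    rw [sup_right_comm] at h5
    exact h5

/-- one step of the construction -/
theorem rd_step [Infinite (ResidueField R)] (k : ℕ) (I : Ideal R) (hI : rdDp (k + 1) I) :
    ∃ x ∈ maximalIdeal R, rdReg I x ∧ Sup (maximalIdeal R) I x ∧
      rdDp k (I ⊔ Ideal.span {x}) := by
  obtain ⟨s, hs, hs'⟩ := rd_ass I (rdSf_of_dp hI)
  obtain ⟨x, hx, hxs, hsup⟩ := exists_sup I s hs
  exact ⟨x, hx, hs' x hxs, hsup, rdDp_drop k I x hx hI (hs' x hxs)⟩

theorem rd_seq [Infinite (ResidueField R)] (D : ℕ) (h : rdDp D (⊥ : Ideal R)) : ∀ n, n ≤ D →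
    ∃ X : ℕ → R, (∀ i, i < n → X i ∈ maximalIdeal R ∧ rdReg (P X i) (X i) ∧
      Sup (maximalIdeal R) (P X i) (X i)) ∧ rdDp (D - n) (P X n) := by
  intro n
  induction n with
  | zero =>
    intro _
    refine ⟨fun _ => 0, fun i hi => absurd hi (Nat.not_lt_zero _), ?_⟩
    rw [P_zero]
    exact h
  | succ n ih =>
    intro hn
    obtain ⟨X, hX, hd⟩ := ih (by omega)
    have e : D - n = (D - (n + 1)) + 1 := by omega
    rw [e] at hd
    obtain ⟨x, hx, hrx, hsx, hdx⟩ := rd_step _ _ hd
    have hP : ∀ i, i ≤ n → P (Function.update X n x) i = P X i := fun i hi =>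
      P_congr fun j hj => Function.update_of_ne (by omega) _ _
    refine ⟨Function.update X n x, fun i hi => ?_, ?_⟩
    · rcases Nat.lt_succ_iff_lt_or_eq.mp hi with h | h
      · rw [hP i h.le, Function.update_of_ne (by omega)]
        exact hX i h
      · subst h
        rw [hP i le_rfl, Function.update_self]
        exact ⟨hx, hrx, hsx⟩
    · rw [P_succ, hP n le_rfl, Function.update_self]
      exact hdx

/-- the reduction property -/
theorem rd_red (D : ℕ) (X : ℕ → R) (hX : ∀ i, i < D → X i ∈ maximalIdeal R ∧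
    Sup (maximalIdeal R) (P X i) (X i)) (hfin : ∃ c, maximalIdeal R ^ c ≤ P X D) :
    ∀ i, i ≤ D → ∃ N₀, ∀ N, N₀ ≤ N →
      maximalIdeal R ^ (N + 1) ≤ P X (D - i) ⊔ P X D * maximalIdeal R ^ N := by
  intro i
  induction i with
  | zero =>
    intro _
    obtain ⟨c, hc⟩ := hfin
    refine ⟨c, fun N hN => ?_⟩
    exact ((Ideal.pow_le_pow_right (by omega)).trans hc).trans le_sup_left
  | succ i ih =>
    intro hi
    obtain ⟨N₀, hN₀⟩ := ih (by omega)
    set j := D - (i + 1) with hj
    have hj1 : D - i = j + 1 := by omega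
    have hjD : j < D := by omega
    rw [hj1] at hN₀
    obtain ⟨hxm, c, hc⟩ := hX j hjD
    set n := maximalIdeal R with hn
    have hPD : P X D ≤ n := by
      unfold P
      rw [Ideal.span_le]
      rintro _ ⟨l, hl, rfl⟩
      exact (hX l hl).1
    have hxP : X j ∈ P X D := Ideal.subset_span ⟨j, hjD, rfl⟩
    obtain ⟨k, hk⟩ := artin_rees n (P X j ⊔ Ideal.span {X j})
    refine ⟨N₀ + k + c, fun N hN z hz => ?_⟩
    have h1 := hN₀ N (by omega) hz
    rw [P_succ] at h1
    obtain ⟨u, hu, v, hv, rfl⟩ := Submodule.mem_sup.mp h1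
    have hv' : v ∈ n ^ (N + 1) := by
      rw [pow_succ']
      exact Ideal.mul_mono_left hPD hv
    have hu' : u ∈ n ^ (N + 1) := by
      have h3 : u = (u + v) - v := by ring
      rw [h3]
      exact Ideal.sub_mem _ hz hv'
    have h2 : u ∈ n ^ (N + 1 - k) * (P X j ⊔ Ideal.span {X j}) :=
      hk (N + 1) (by omega) ⟨hu', hu⟩
    rw [Ideal.mul_sup] at h2
    obtain ⟨p, hp, q, hq, rfl⟩ := Submodule.mem_sup.mp h2
    obtain ⟨w, hw, rfl⟩ := Ideal.mem_mul_span_singleton.mp hq
    have hp' : p ∈ P X j := Ideal.mul_le_right hp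
    have h3 : w ∈ P X j ⊔ n ^ N := by
      refine hc N (by omega) w (Ideal.pow_le_pow_right (by omega) hw) ?_
      have h4 : X j * w = (p + w * X j) - p := by ring
      rw [h4]
      exact Ideal.sub_mem _ (Ideal.mem_sup_right hu') (Ideal.mem_sup_left hp')
    obtain ⟨p', hp1, w', hw', rfl⟩ := Submodule.mem_sup.mp h3
    have h5 : p + (p' + w') * X j + v = (p + p' * X j) + (X j * w' + v) := by ring
    rw [h5]
    exact Submodule.add_mem_sup (Ideal.add_mem _ hp' (Ideal.mul_mem_right _ _ hp1))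
      (Ideal.add_mem _ (Ideal.mul_mem_mul hxP hw') hv)

omit [IsLocalRing R] [IsNoetherianRing R] in
theorem rd_ofList (X : ℕ → R) (D i : ℕ) (hi : i ≤ D) :
    Ideal.ofList ((List.ofFn (fun l : Fin D => X l)).take i) = P X i := by
  unfold Ideal.ofList P
  congr 1
  ext r
  simp only [Set.mem_ofPred_eq, Set.mem_image]
  rw [List.mem_take_iff_getElem]
  constructor
  · rintro ⟨j, hj, rfl⟩
    rw [List.length_ofFn] at hj
    exact ⟨j, by omega, by simp⟩
  · rintro ⟨j, hj, rfl⟩
    exact ⟨j, by rw [List.length_ofFn]; omega, by simp⟩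

omit [IsNoetherianRing R] in
theorem rd_dp_of_list (rs : List R) (h : RingTheory.Sequence.IsRegular R rs) : ∀ i, i ≤ rs.length →
    rdDp i (Ideal.ofList (rs.take (rs.length - i))) := by
  intro i
  induction i with
  | zero => intro _; trivial
  | succ i ih =>
    intro hi
    set j := rs.length - (i + 1) with hj
    have hj1 : rs.length - i = j + 1 := by omega
    have hjl : j < rs.length := by omega
    have h1 := ih (by omega)
    rw [hj1, List.take_add_one, List.getElem?_eq_getElem hjl] at h1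
    simp only [Option.toList_some, Ideal.ofList_append, Ideal.ofList_singleton] at h1
    refine ⟨rs[j], ?_, ?_, h1⟩
    · rw [mem_maximalIdeal, mem_nonunits_iff]
      intro hu
      apply h.top_ne_smul
      rw [smul_eq_mul, Ideal.mul_top]
      symm
      exact Ideal.eq_top_of_isUnit_mem _ (Ideal.subset_span (List.getElem_mem hjl)) hu
    · intro r hr
      have h2 := h.regular_mod_prev j hjl
      rw [isSMulRegular_quotient_iff_mem_of_smul_mem] at h2
      have h3 := h2 r
      rw [smul_eq_mul, Ideal.mul_top] at h3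
      exact h3 hr

/-- (GEN) regular sequence which is a reduction of the maximal ideal -/
theorem exists_reduction_proved (R : Type u) [CommRing R] [IsLocalRing R] [IsNoetherianRing R]
    [Infinite (ResidueField R)] (D : ℕ) (hD : ringKrullDim R = D)
    (hCM : ∃ rs : List R, RingTheory.Sequence.IsRegular R rs ∧ rs.length = D) :
    ∃ y : Fin D → R, (∀ l, y l ∈ maximalIdeal R) ∧
      RingTheory.Sequence.IsRegular R (List.ofFn y) ∧
      ∃ c : ℕ, ∀ t : ℕ, maximalIdeal R ^ (t + c) ≤ Ideal.span (Set.range y) ^ t := by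
  obtain ⟨rs, hrs, hl⟩ := hCM
  have h0 := rd_dp_of_list rs hrs rs.length le_rfl
  rw [Nat.sub_self, List.take_zero, Ideal.ofList_nil, hl] at h0
  obtain ⟨X, hX, -⟩ := rd_seq D h0 D le_rfl
  have hPD : P X D ≤ maximalIdeal R := by
    unfold P
    rw [Ideal.span_le]
    rintro _ ⟨l, hl, rfl⟩
    exact (hX l hl).1
  have hLall : Ideal.ofList (List.ofFn (fun l : Fin D => X l)) = P X D := by
    have := rd_ofList X D D le_rfl
    rwa [List.take_of_length_le (by rw [List.length_ofFn])] at this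
  have hspan : Ideal.span (Set.range (fun l : Fin D => X l)) = P X D := by
    unfold P
    congr 1
    ext r
    constructor
    · rintro ⟨l, rfl⟩
      exact ⟨l, l.isLt, rfl⟩
    · rintro ⟨j, hj, rfl⟩
      exact ⟨⟨j, hj⟩, rfl⟩
  have hreg : RingTheory.Sequence.IsRegular R (List.ofFn (fun l : Fin D => X l)) := by
    refine ⟨⟨fun i hi => ?_⟩, ?_⟩
    · rw [List.length_ofFn] at hi
      rw [isSMulRegular_quotient_iff_mem_of_smul_mem]
      intro r hr
      rw [smul_eq_mul, Ideal.mul_top, rd_ofList X D i hi.le] at hr ⊢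
      refine (hX i hi).2.1 r ?_
      simpa using hr
    · rw [hLall, smul_eq_mul, Ideal.mul_top]
      intro h
      have h1 : (1 : R) ∈ maximalIdeal R := hPD (h ▸ Submodule.mem_top)
      exact (Ideal.ne_top_iff_one _).mp (maximalIdeal.isMaximal R).ne_top h1
  -- finite length
  have hdim : ringKrullDim (R ⧸ P X D) = 0 := by
    have h1 := ringKrullDim_add_length_eq_ringKrullDim_of_isRegular _ hreg
    rw [hLall, List.length_ofFn, hD] at h1
    have hnt : Nontrivial (R ⧸ P X D) := Ideal.Quotient.nontrivial_iff.mpr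
      (fun h => (maximalIdeal.isMaximal R).ne_top (top_le_iff.mp (h ▸ hPD)))
    have h2 : (0 : WithBot ℕ∞) ≤ ringKrullDim (R ⧸ P X D) := ringKrullDim_nonneg_of_nontrivial
    obtain ⟨e, he⟩ : ∃ e : ℕ∞, ringKrullDim (R ⧸ P X D) = (e : WithBot ℕ∞) := by
      cases h : ringKrullDim (R ⧸ P X D) with
      | bot => rw [h] at h2; exact absurd h2 (by simp)
      | coe e => exact ⟨e, rfl⟩
    rw [he] at h1 ⊢
    have h3 : e + (D : ℕ∞) = (D : ℕ∞) := by exact_mod_cast h1
    have h4 : e + (D : ℕ∞) ≤ 0 + (D : ℕ∞) := by rw [h3, zero_add]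
    have h5 : e ≤ 0 := (ENat.add_le_add_iff_right (ENat.natCast_ne_top D)).mp h4
    have h6 : e = 0 := le_antisymm h5 zero_le
    rw [h6]
    rfl
  have hfin : ∃ c, maximalIdeal R ^ c ≤ P X D := by
    have hnt : Nontrivial (R ⧸ P X D) := Ideal.Quotient.nontrivial_iff.mpr
      (fun h => (maximalIdeal.isMaximal R).ne_top (top_le_iff.mp (h ▸ hPD)))
    have h1 : Ring.KrullDimLE 0 (R ⧸ P X D) := ringKrullDimZero_iff_ringKrullDim_eq_zero.mpr hdim
    have h2 := Ideal.krullDimLE_zero_quotient_iff_forall_minimalPrimes_isMaximal.mp h1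
    have h3 : maximalIdeal R ≤ (P X D).radical := by
      rw [← Ideal.sInf_minimalPrimes]
      refine le_sInf fun K hK => ?_
      rw [IsLocalRing.eq_maximalIdeal (h2 K hK)]
    exact Ideal.exists_pow_le_of_le_radical_of_fg h3 (IsNoetherian.noetherian _)
  obtain ⟨N₀, hN₀⟩ := rd_red D X (fun i hi => ⟨(hX i hi).1, (hX i hi).2.2⟩) hfin D le_rfl
  rw [Nat.sub_self, P_zero] at hN₀
  refine ⟨fun l : Fin D => X l, fun l => (hX l l.isLt).1, hreg, N₀, fun t => ?_⟩
  rw [hspan]
  have h1 : maximalIdeal R ^ (t + N₀) ≤ P X D ^ t * maximalIdeal R ^ N₀ := by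
    induction t with
    | zero => simp
    | succ t ih =>
      have h2 := hN₀ (t + N₀) (by omega)
      rw [bot_sup_eq] at h2
      have e : t + 1 + N₀ = t + N₀ + 1 := by ring
      rw [e]
      refine h2.trans ?_
      rw [pow_succ', mul_assoc]
      exact Ideal.mul_mono_right ih
  exact h1.trans Ideal.mul_le_left

end Red

end Vale.Agent.P202C
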