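import Vale.Agent.P202C.SN
import Vale.Agent.P202C.Flat
import Vale.Agent.P202C.Free
import Vale.Agent.P202C.Mult
import Vale.Agent.P202C.MainIneq
import Vale.Agent.P202C.SliceP
import Vale.Agent.P202C.Acyc
import Vale.Agent.P202C.Num
import Vale.Agent.P202C.Red
import Vale.Agent.P202C.Cms
import Vale.Agent.P202C.FinLim
import Vale.Agent.P202C.FinLen
import Vale.Agent.P202.Full

/-!
P202 in characteristic p, stage T1 (Cohen-Macaulay): assembly.
-/

set_option autoImplicit false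

namespace Vale.Agent.P202C

open IsLocalRing TensorProduct Vale.Agent.P202

universe u v w

/-! ### signs -/

theorem fin_le_nneg {n : ℕ} (b : Fin n → ℤ) (Q : ℕ) (hQ : 0 < Q)
    (hb : ∀ l : Fin n, (l : ℤ) * Q ≤ b l ∧ b l ≤ ((l : ℤ) + 1) * Q - 1) (i s : ℤ)
    (hi : 0 ≤ i) (hiD : i ≤ (n + 1 : ℕ)) (hs : s < (1 - i) * Q) : i - 1 ≤ nneg b s := by
  rcases le_or_gt i 1 with h1 | h1
  · have : (0 : ℤ) ≤ nneg b s := by positivity
    omega
  obtain ⟨m, rfl⟩ : ∃ m : ℕ, i = m + 1 := ⟨(i - 1).toNat, by omega⟩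
  have hm : m ≤ n := by omega
  have h2 : (Finset.univ.filter (fun l : Fin n => (l : ℕ) < m)).card = m := by
    rw [Fin.card_filter_val_lt]
    omega
  have h3 : m ≤ nneg b s := by
    unfold nneg
    rw [← h2]
    refine Finset.card_le_card fun l hl => ?_
    simp only [Finset.mem_filter, Finset.mem_univ, true_and] at hl ⊢
    have h4 := (hb l).2
    have h5 : ((l : ℤ) + 1) * Q ≤ m * Q := by
      have : ((l : ℤ) + 1) ≤ m := by exact_mod_cast hl
      exact mul_le_mul_of_nonneg_right this (by positivity)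
    have h6 : (1 - ((m : ℤ) + 1)) * Q = - (m * Q) := by ring
    rw [h6] at hs
    omega
  omega

theorem fin_nneg_lt {n : ℕ} (b : Fin n → ℤ) (Q : ℕ) (hQ : 0 < Q)
    (hb : ∀ l : Fin n, (l : ℤ) * Q ≤ b l ∧ b l ≤ ((l : ℤ) + 1) * Q - 1) (i s k : ℤ)
    (hi : 0 ≤ i) (hs : (1 - i) * Q ≤ s) (hik : i ≤ k) (hk : 1 ≤ k) : (nneg b s : ℤ) < k := by
  have h1 : (nneg b s : ℤ) ≤ max (i - 1) 0 := by
    obtain ⟨m, hm⟩ : ∃ m : ℕ, max (i - 1) 0 = m := ⟨(max (i - 1) 0).toNat, by omega⟩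
    rw [hm]
    have h2 : nneg b s ≤ (Finset.univ.filter (fun l : Fin n => (l : ℕ) < m)).card := by
      unfold nneg
      refine Finset.card_le_card fun l hl => ?_
      simp only [Finset.mem_filter, Finset.mem_univ, true_and] at hl ⊢
      by_contra h3
      push Not at h3
      have h4 := (hb l).1
      have h5 : (m : ℤ) * Q ≤ (l : ℤ) * Q := by
        have : (m : ℤ) ≤ l := by exact_mod_cast h3
        exact mul_le_mul_of_nonneg_right this (by positivity)
      have h6 : (1 - i) * Q ≥ -(m * Q) := by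
        have h7 : -(m : ℤ) ≤ 1 - i := by omega
        have := mul_le_mul_of_nonneg_right h7 (show (0 : ℤ) ≤ Q by positivity)
        linarith
      omega
    have h3 : (Finset.univ.filter (fun l : Fin n => (l : ℕ) < m)).card ≤ m := by
      rw [Fin.card_filter_val_lt]
      exact min_le_right _ _
    exact_mod_cast h2.trans h3
  omega

/-! ### frobenius powers -/

theorem fin_entry_mem {R : Type u} [CommRing R] (p : ℕ) [Fact p.Prime] [CharP R p] (I J : Ideal R)
    (c e Q : ℕ) (hQ : p ^ e = Q + c) (h : I ^ (Q + c) ≤ J ^ Q) (r : R) (hr : r ∈ I) :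
    iterateFrobenius R p e r ∈ J ^ Q := by
  rw [iterateFrobenius_def, hQ]
  exact h (Ideal.pow_mem_pow hr _)

/-! ### one value of `q` -/

section Step

variable {R : Type u} [CommRing R] [IsLocalRing R] [IsNoetherianRing R]
  (p : ℕ) [Fact p.Prime] [CharP R p] {n : ℕ} [Algebra (PolyA (ZMod p) n) R]
  [Module.Flat (PolyA (ZMod p) n) R]

theorem fin_step {ι : Type} [Fintype ι] [DecidableEq ι] (G : FCx R ι)
    (hdeg : ∀ a, 0 ≤ G.deg a ∧ G.deg a ≤ (n + 1 : ℕ)) (hmin : ∀ a b, G.mat a b ∈ maximalIdeal R)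
    (hnul : ∃ N : ℕ, ∀ r ∈ maximalIdeal R ^ N, ∃ h : Matrix ι ι R,
        (∀ a b, h a b ≠ 0 → G.deg a = G.deg b + 1) ∧
        G.mat * h + h * G.mat = r • (1 : Matrix ι ι R))
    (hy : ∀ j : Fin (n + 1), yR (ZMod p) R j ∈ maximalIdeal R)
    (c : ℕ) (hc : ∀ t : ℕ, maximalIdeal R ^ (t + c) ≤ yI (ZMod p) n R ^ t)
    (lam : ℕ) (hlam : Module.length R (R ⧸ yI (ZMod p) n R) = lam)
    (e Q : ℕ) (hQ : 0 < Q) (hQe : p ^ e = Q + c) (b : Fin n → ℤ)
    (hb : ∀ l : Fin n, (l : ℤ) * Q ≤ b l ∧ b l ≤ ((l : ℤ) + 1) * Q - 1) :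
    (∑ a with G.deg a = 0, ∑ s ∈ Finset.Ico (0 : ℤ) Q, ((lam : ℤ) * ∏ l, (b l + s + 1))) -
      (∑ a with 2 ≤ G.deg a, sgn (G.deg a) *
        ∑ s ∈ Finset.Ico ((1 - G.deg a) * Q) 0, ((lam : ℤ) * ∏ l, (b l + s + 1))) ≤
      MI.chiG (G.map (iterateFrobenius R p e)) (MI.M0 (CR (ZMod p) R b)) (n + 1) := by
  have h := main_ineq' (G.map (iterateFrobenius R p e)) (CR (ZMod p) R b) (Q : ℤ) (n + 1) n
    (by omega) (by exact_mod_cast hQ) ?_ hdeg (fun k hk => gr_CR (ZMod p) R b k hk) ?_ ?_ ?_ ?_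
  · have h2 := h.2
    simp only [slEul_CR (ZMod p) R b _ lam hlam] at h2
    exact h2
  · intro a b' s x hx
    exact shift_CR (ZMod p) R b Q _ (fin_entry_mem p _ _ c e Q hQe (hc Q) _ (hmin a b')) s x hx
  · intro s k
    rw [sl_CR]
    split_ifs
    · rw [hlam, ← Nat.cast_mul]
      exact ENat.natCast_ne_top _
    · exact ENat.zero_ne_top
  · intro i s k hi hiD hs hk
    rw [sl_CR, if_neg]
    have := fin_le_nneg b Q hQ hb i s hi hiD hs
    omega
  · intro i s k hi hiD hs hik hk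
    exact pos_CR (ZMod p) R b s k (fin_nneg_lt b Q hQ hb i s k hi hs hik hk)
  · obtain ⟨N, hN⟩ := hnul
    obtain ⟨M, hM⟩ := con_CR (ZMod p) (G.map (iterateFrobenius R p e)) b (Q : ℤ) (by positivity)
      (n + 1) hdeg (N * p ^ e) (fun j => by
        obtain ⟨h, hh1, hh2⟩ := hN (yR (ZMod p) R j ^ N) (Ideal.pow_mem_pow (hy j) N)
        refine ⟨h.map (iterateFrobenius R p e), fun a b hab => hh1 a b fun h0 => hab ?_, ?_⟩
        · rw [Matrix.map_apply, h0, map_zero]
        · have h3 := congrArg (fun m : Matrix ι ι R => m.map (iterateFrobenius R p e)) hh2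
          rw [Matrix.map_add _ (map_add _), Matrix.map_mul, Matrix.map_mul] at h3
          refine h3.trans ?_
          ext a b
          rw [Matrix.map_apply, Matrix.smul_apply, Matrix.smul_apply, smul_eq_mul, smul_eq_mul,
            map_mul, iterateFrobenius_def, ← pow_mul, Matrix.one_apply]
          split_ifs
          · rw [map_one]
          · rw [map_zero])
    refine ⟨M, fun j x hx hx0 => ?_⟩
    have h1 := hM (Q : ℤ) j x (by
      have : (fun i : ℤ => (Q : ℤ) - i * Q) = fun i : ℤ => (1 - i) * (Q : ℤ) := by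
        funext i
        ring
      rw [this]
      exact hx) hx0
    have : (fun i : ℤ => (Q : ℤ) - i * Q - M) = fun i : ℤ => (1 - i) * (Q : ℤ) - M := by
      funext i
      ring
    rw [this] at h1
    exact h1

end Step


/-! ### the numerical inequality for one `q` -/

theorem fin_num {ι : Type} [Fintype ι] (deg : ι → ℤ) (n Q lam : ℕ) (hdeg : ∀ a, 0 ≤ deg a ∧ deg a ≤ (n + 1 : ℕ))
    (c : ℝ) (b : Fin n → ℤ)
    (h0 : |((∑ s ∈ Finset.Ico (0 : ℤ) Q, ∏ l, (b l + s + 1) : ℤ) : ℝ) -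
      (n.factorial : ℝ) * (Q : ℝ) ^ (n + 1)| ≤ c * (Q : ℝ) ^ n)
    (h1 : ∀ i : ℕ, 1 ≤ i → i ≤ n + 1 →
      |((∑ s ∈ Finset.Ico ((1 - (i : ℤ)) * Q) 0, ∏ l, (b l + s + 1) : ℤ) : ℝ)| ≤
        c * (Q : ℝ) ^ n) (X : ℤ)
    (h : (∑ a with deg a = 0, ∑ s ∈ Finset.Ico (0 : ℤ) Q, ((lam : ℤ) * ∏ l, (b l + s + 1))) -
      (∑ a with 2 ≤ deg a, sgn (deg a) *
        ∑ s ∈ Finset.Ico ((1 - deg a) * Q) 0, ((lam : ℤ) * ∏ l, (b l + s + 1))) ≤ X) :
    (((Finset.univ.filter (fun a => deg a = 0)).card * lam * n.factorial : ℕ) : ℝ) * (Q : ℝ) ^ (n + 1)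
      - (2 * (Fintype.card ι : ℝ) * lam * c) * (Q : ℝ) ^ n ≤ X := by
  have hc : 0 ≤ c * (Q : ℝ) ^ n := (abs_nonneg _).trans h0
  have hX : (((∑ a with deg a = 0, ∑ s ∈ Finset.Ico (0 : ℤ) Q, ((lam : ℤ) * ∏ l, (b l + s + 1))) -
      (∑ a with 2 ≤ deg a, sgn (deg a) *
        ∑ s ∈ Finset.Ico ((1 - deg a) * Q) 0, ((lam : ℤ) * ∏ l, (b l + s + 1))) : ℤ) : ℝ) ≤ X := by
    exact_mod_cast h
  rw [Int.cast_sub] at hX
  set g : ℕ := (Finset.univ.filter (fun a => deg a = 0)).card with hg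
  have e1 : ((∑ a with deg a = 0, ∑ s ∈ Finset.Ico (0 : ℤ) Q,
      ((lam : ℤ) * ∏ l, (b l + s + 1)) : ℤ) : ℝ) =
      (g : ℝ) * (lam * ((∑ s ∈ Finset.Ico (0 : ℤ) Q, ∏ l, (b l + s + 1) : ℤ) : ℝ)) := by
    rw [Finset.sum_const, ← hg, nsmul_eq_mul, ← Finset.mul_sum]
    push_cast
    ring
  have e2 : |((∑ a with 2 ≤ deg a, sgn (deg a) *
        ∑ s ∈ Finset.Ico ((1 - deg a) * Q) 0, ((lam : ℤ) * ∏ l, (b l + s + 1)) : ℤ) : ℝ)| ≤
      (Fintype.card ι : ℝ) * (lam * (c * (Q : ℝ) ^ n)) := by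
    rw [Int.cast_sum]
    refine (Finset.abs_sum_le_sum_abs _ _).trans ?_
    have e3 : ∀ a ∈ Finset.univ.filter (fun a => 2 ≤ deg a), |((sgn (deg a) *
        ∑ s ∈ Finset.Ico ((1 - deg a) * Q) 0, ((lam : ℤ) * ∏ l, (b l + s + 1)) : ℤ) : ℝ)| ≤
        lam * (c * (Q : ℝ) ^ n) := by
      intro a ha
      rw [Finset.mem_filter] at ha
      obtain ⟨i, hi⟩ : ∃ i : ℕ, deg a = i := ⟨(deg a).toNat, by have := (hdeg a).1; omega⟩
      have hi2 := (hdeg a).2
      rw [hi] at ha hi2 ⊢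
      have h2 := h1 i (by omega) (by omega)
      rw [← Finset.mul_sum]
      push_cast
      push_cast at h2
      rw [abs_mul, abs_mul]
      have h3 : |((sgn (i : ℤ) : ℤ) : ℝ)| = 1 := by
        unfold sgn
        split_ifs <;> simp
      rw [h3, one_mul, abs_of_nonneg (show (0 : ℝ) ≤ lam by positivity)]
      exact mul_le_mul_of_nonneg_left h2 (by positivity)
    refine (Finset.sum_le_sum e3).trans ?_
    rw [Finset.sum_const, nsmul_eq_mul]
    refine mul_le_mul_of_nonneg_right ?_ (by positivity)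
    exact_mod_cast Finset.card_le_univ _
  rw [e1] at hX
  have e4 : (n.factorial : ℝ) * (Q : ℝ) ^ (n + 1) - c * (Q : ℝ) ^ n ≤
      ((∑ s ∈ Finset.Ico (0 : ℤ) Q, ∏ l, (b l + s + 1) : ℤ) : ℝ) := by
    have := (abs_le.mp h0).1
    linarith
  have e5 : (g : ℝ) * (lam * ((n.factorial : ℝ) * (Q : ℝ) ^ (n + 1) - c * (Q : ℝ) ^ n)) ≤
      (g : ℝ) * (lam * ((∑ s ∈ Finset.Ico (0 : ℤ) Q, ∏ l, (b l + s + 1) : ℤ) : ℝ)) := by
    gcongr
  have e6 : (g : ℝ) * (lam * (c * (Q : ℝ) ^ n)) ≤ (Fintype.card ι : ℝ) * (lam * (c * (Q : ℝ) ^ n)) := by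
    refine mul_le_mul_of_nonneg_right ?_ (by positivity)
    rw [hg]
    exact_mod_cast Finset.card_le_univ _
  have e7 := le_of_abs_le e2
  push_cast
  nlinarith

theorem fin_res_length (R : Type u) (S : Type v) [CommRing R] [IsLocalRing R] [CommRing S]
    [IsLocalRing S] [Algebra R S] [Module.Finite R S] [IsLocalHom (algebraMap R S)] :
    Module.length R (S ⧸ maximalIdeal S) ≠ ⊤ := by
  have h1 : Module.length R (ResidueField S) = Module.length (ResidueField R) (ResidueField S) :=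
    Module.length_eq_of_surjective (IsLocalRing.residue_surjective)
  change Module.length R (ResidueField S) ≠ ⊤
  rw [h1]
  exact Module.length_ne_top

theorem fin_nzd (R : Type u) [CommRing R] (n : ℕ) (y : Fin (n + 1) → R)
    (h : RingTheory.Sequence.IsRegular R (List.ofFn y)) : y 0 ∈ nonZeroDivisors R := by
  have h1 := h.toIsWeaklyRegular
  rw [List.ofFn_succ, RingTheory.Sequence.isWeaklyRegular_cons_iff] at h1
  rw [mem_nonZeroDivisors_iff_right]
  intro x hx
  have h2 := h1.1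
  apply h2
  simp only [smul_eq_mul, mul_zero]
  rw [mul_comm]
  exact hx

/-! ### the core theorem -/

theorem fin_core (R : Type u) [CommRing R] [IsLocalRing R] [IsNoetherianRing R]
    [Infinite (ResidueField R)] (p : ℕ) [Fact p.Prime] [CharP R p] (hF : (frobenius R p).Finite)
    (S : Type v) [CommRing S] [IsLocalRing S] [IsNoetherianRing S] [Algebra R S] [Module.Finite R S]
    [Module.Free R S] [IsLocalHom (algebraMap R S)] (n : ℕ) (hD : ringKrullDim R = (n + 1 : ℕ))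
    (hCM : ∃ rs : List R, RingTheory.Sequence.IsRegular R rs ∧ rs.length = n + 1) :
    ∃ eR eS : ℕ, HasMult R eR ∧ HasMult S eS ∧ eR ≤ eS := by
  obtain ⟨y, hy, hyreg, c, hc⟩ := exists_reduction_proved R (n + 1) hD hCM
  obtain ⟨hl, hm⟩ := mult_of_reduction_proved R (n + 1) hD y hy hyreg c hc
  obtain ⟨hDS, hCMS⟩ := cm_of_free R S (n + 1) hD hCM
  have hinf : Infinite (ResidueField S) :=
    Infinite.of_injective (ResidueField.map (algebraMap R S)) (RingHom.injective _)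
  obtain ⟨z, hz, hzreg, c', hc'⟩ := exists_reduction_proved S (n + 1) hDS hCMS
  obtain ⟨hlS, hmS⟩ := mult_of_reduction_proved S (n + 1) hDS z hz hzreg c' hc'
  obtain ⟨lam, hlam⟩ := ENat.ne_top_iff_exists.mp hl
  obtain ⟨mu, hmu⟩ := ENat.ne_top_iff_exists.mp hlS
  rw [← hlam, ENat.toNat_natCast] at hm
  rw [← hmu, ENat.toNat_natCast] at hmS
  refine ⟨lam, mu, hm, hmS, ?_⟩
  -- length over `R` of the residue field of `S`
  have hfin : Module.length R (S ⧸ maximalIdeal S) ≠ ⊤ := fin_res_length R S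
  obtain ⟨f, hf⟩ := ENat.ne_top_iff_exists.mp hfin
  have hlen := fin_length_le R S (S ⧸ Ideal.span (Set.range z))
    (Module.length_ne_top_iff.mp hlS)
  rw [← hf, ← hmu] at hlen
  have hlR : Module.length R (S ⧸ Ideal.span (Set.range z)) ≠ ⊤ := by
    intro h
    rw [h, top_le_iff, ← Nat.cast_mul] at hlen
    exact ENat.natCast_ne_top _ hlen
  obtain ⟨L, hL⟩ := ENat.ne_top_iff_exists.mp hlR
  rw [← hL] at hlen
  have hLf : L ≤ f * mu := by exact_mod_cast hlen
  have hfpos : 1 ≤ f := by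
    have : 0 < Module.length R (S ⧸ maximalIdeal S) := Module.length_pos
    rw [← hf] at this
    exact_mod_cast this
  obtain ⟨ι, _, _, G, hdeg, hmin, hg0, hnul, hfrob, hchi, hsub⟩ :=
    model_pf R p hF S (n + 1) hD z hz hlR hzreg
  rw [← hf] at hg0
  set g : ℕ := (Finset.univ.filter (fun a => G.deg a = 0)).card with hg
  have hfg : f ≤ g := by exact_mod_cast hg0
  rw [← hL, ENat.toNat_natCast] at hchi
  -- the algebra structure
  let _ : Algebra (ZMod p) R := ZMod.algebra R p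
  let _ : Algebra (PolyA (ZMod p) n) R := (MvPolynomial.aeval y).toRingHom.toAlgebra
  have hyR : ∀ j, yR (ZMod p) R j = y j := fun j => by
    show MvPolynomial.aeval y (MvPolynomial.X j) = y j
    rw [MvPolynomial.aeval_X]
  have hyI : yI (ZMod p) n R = Ideal.span (Set.range y) := by
    unfold yI
    congr 1
    ext x
    simp only [hyR]
  have hyR' : (fun j : Fin (n + 1) => yR (ZMod p) R j) = y := funext hyR
  have hflat : Module.Flat (PolyA (ZMod p) n) R :=
    Flat.flat_of_regular (ZMod p) R (by rw [hyR']; exact hyreg) (fun j => by rw [hyR]; exact hy j)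
  obtain ⟨cn, hcn⟩ := numer n
  have key : g * lam ≤ L := by
    have h1 : ((g * lam * n.factorial : ℕ) : ℝ) ≤ ((n.factorial * L : ℕ) : ℝ) := by
      refine fin_limit _ _ (2 * (Fintype.card ι : ℝ) * lam * cn) c n (by positivity) fun K => ?_
      have hp := (Fact.out : p.Prime).two_le
      obtain ⟨e, he⟩ : ∃ e : ℕ, K + c + 1 ≤ p ^ e := by
        refine ⟨K + c + 1, ?_⟩
        exact (Nat.lt_pow_self (by omega)).le
      obtain ⟨Q, hQ⟩ : ∃ Q : ℕ, p ^ e = Q + c := ⟨p ^ e - c, by omega⟩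
      have hQ0 : 0 < Q := by omega
      refine ⟨Q, by omega, ?_⟩
      obtain ⟨b, hb, hb0, hb1⟩ := hcn Q hQ0
      have h2 := fin_step p G hdeg hmin hnul (fun j => by rw [hyR]; exact hy j) c
        (fun t => by rw [hyI]; exact hc t) lam (by rw [hyI]; exact hlam.symm) e Q hQ0 hQ b hb
      have h3 := fin_num G.deg n Q lam hdeg cn b hb0 hb1 _ h2
      refine h3.trans ?_
      obtain ⟨f0, N0, hf0, hN0⟩ := M0_free (ZMod p) R b
      have : Module.Finite R (MI.M0 (CR (ZMod p) R b)) :=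
        Module.Finite.of_injective f0 hf0
      have h4 := (hfrob (MI.M0 (CR (ZMod p) R b)) e).2
      have h5 := hsub (MI.M0 (CR (ZMod p) R b)) n.factorial f0 (yR (ZMod p) R 0) N0 hf0
        (by rw [hyR]; exact hy 0) ?_ hN0
      · rw [h4, h5, hchi]
        have h7 : ((p : ℝ)) ^ e = Q + c := by exact_mod_cast hQ
        push_cast
        rw [pow_mul, h7]
        apply le_of_eq
        ring
      · rw [hyR]
        exact fin_nzd R n y hyreg
    have h2 : g * lam * n.factorial ≤ n.factorial * L := by exact_mod_cast h1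
    have h3 : 0 < n.factorial := n.factorial_pos
    rw [mul_comm] at h2
    exact Nat.le_of_mul_le_mul_left h2 h3
  have h5 : f * lam ≤ f * mu := (Nat.mul_le_mul_right _ hfg).trans (key.trans hLf)
  exact Nat.le_of_mul_le_mul_left h5 (by omega)

end Vale.Agent.P202C
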