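import Vale.Agent.P202C.Blk

/-!
P202 in characteristic p, section (EF): generic freeness of `M0` (helper59).
Part 1: the boxes of monomials are free over the symmetric functions.
-/

set_option autoImplicit false

namespace Vale.Agent.P202C

universe u v w

section FrSpan

variable {k : Type u} {A : Type v} [CommRing k] [CommRing A] [Algebra k A]

/-- the box: span of the monomials `∏_{l<m} T_l ^ i_l`, `i_l ≤ b_l` -/
noncomputable def frBox (k : Type u) {A : Type v} [CommRing k] [CommRing A] [Algebra k A]
    (T : ℕ → A) (b : ℕ → ℕ) : ℕ → Submodule k A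
  | 0 => Submodule.span k {1}
  | m + 1 => ⨆ a : Fin (b m + 1), (frBox k T b m).map (LinearMap.mulLeft k (T m ^ (a : ℕ)))

/-- the elementary symmetric functions of `T_0,…,T_{m-1}` -/
def frE {A : Type v} [CommRing A] (T : ℕ → A) : ℕ → ℕ → A
  | 0, 0 => 1
  | 0, _ + 1 => 0
  | m + 1, 0 => frE T m 0
  | m + 1, j + 1 => frE T m (j + 1) + T m * frE T m j

theorem frE_zero (T : ℕ → A) (m : ℕ) : frE T m 0 = 1 := by
  induction m with
  | zero => rfl
  | succ m ih => exact ih

theorem frE_gt (T : ℕ → A) (m : ℕ) : ∀ j, m < j → frE T m j = 0 := by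
  induction m with
  | zero =>
    intro j hj
    cases j with
    | zero => omega
    | succ j => rfl
  | succ m ih =>
    intro j hj
    cases j with
    | zero => omega
    | succ j =>
      show frE T m (j + 1) + T m * frE T m j = 0
      rw [ih (j + 1) (by omega), ih j (by omega), mul_zero, add_zero]

/-- the span of `e_j · box`, `0 ≤ j ≤ m` -/
noncomputable def frV (k : Type u) {A : Type v} [CommRing k] [CommRing A] [Algebra k A]
    (T : ℕ → A) (b : ℕ → ℕ) (m : ℕ) : Submodule k A :=
  ⨆ j : Fin (m + 1), (frBox k T b m).map (LinearMap.mulLeft k (frE T m (j : ℕ)))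

theorem frBox_mem (T : ℕ → A) (b : ℕ → ℕ) (m a : ℕ) (ha : a ≤ b m) (g : A)
    (hg : g ∈ frBox k T b m) : T m ^ a * g ∈ frBox k T b (m + 1) := by
  refine Submodule.mem_iSup_of_mem (⟨a, by omega⟩ : Fin (b m + 1)) ?_
  exact ⟨g, hg, rfl⟩

theorem frV_mem (T : ℕ → A) (b : ℕ → ℕ) (m j : ℕ) (g : A)
    (hg : g ∈ frBox k T b m) : frE T m j * g ∈ frV k T b m := by
  by_cases hj : j ≤ m
  · refine Submodule.mem_iSup_of_mem (⟨j, by omega⟩ : Fin (m + 1)) ?_
    exact ⟨g, hg, rfl⟩
  · rw [frE_gt T m j (by omega), zero_mul]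
    exact Submodule.zero_mem _

theorem frV_low (T : ℕ → A) (b : ℕ → ℕ) (m : ℕ) (g : A) (hg : g ∈ frBox k T b m) :
    ∀ j a, a + j ≤ b m → T m ^ a * (frE T m j * g) ∈ frV k T b (m + 1) := by
  intro j
  induction j with
  | zero =>
    intro a ha
    have h := frV_mem (k := k) T b (m + 1) 0 _ (frBox_mem T b m a (by omega) g hg)
    rw [frE_zero, one_mul] at h
    rwa [frE_zero, one_mul]
  | succ j ih =>
    intro a ha
    have h := frV_mem (k := k) T b (m + 1) (j + 1) _ (frBox_mem T b m a (by omega) g hg)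
    have h2 := ih (a + 1) (by omega)
    have h3 : T m ^ a * (frE T m (j + 1) * g) =
        frE T (m + 1) (j + 1) * (T m ^ a * g) - T m ^ (a + 1) * (frE T m j * g) := by
      show _ = (frE T m (j + 1) + T m * frE T m j) * (T m ^ a * g) - _
      ring
    rw [h3]
    exact Submodule.sub_mem _ h h2

theorem frV_high (T : ℕ → A) (b : ℕ → ℕ) (m : ℕ) (g : A) (hg : g ∈ frBox k T b m) :
    ∀ c j a, j + c = m → a ≤ b m + 1 → m + 1 ≤ a + j →
      T m ^ a * (frE T m j * g) ∈ frV k T b (m + 1) := by
  intro c
  induction c with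
  | zero =>
    intro j a hj ha haj
    obtain ⟨a', rfl⟩ : ∃ a', a = a' + 1 := ⟨a - 1, by omega⟩
    have h := frV_mem (k := k) T b (m + 1) (j + 1) _ (frBox_mem T b m a' (by omega) g hg)
    have h3 : T m ^ (a' + 1) * (frE T m j * g) = frE T (m + 1) (j + 1) * (T m ^ a' * g) := by
      show _ = (frE T m (j + 1) + T m * frE T m j) * (T m ^ a' * g)
      rw [frE_gt T m (j + 1) (by omega)]
      ring
    rwa [h3]
  | succ c ih =>
    intro j a hj ha haj
    obtain ⟨a', rfl⟩ : ∃ a', a = a' + 1 := ⟨a - 1, by omega⟩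
    have h := frV_mem (k := k) T b (m + 1) (j + 1) _ (frBox_mem T b m a' (by omega) g hg)
    have h2 := ih (j + 1) a' (by omega) (by omega) (by omega)
    have h3 : T m ^ (a' + 1) * (frE T m j * g) =
        frE T (m + 1) (j + 1) * (T m ^ a' * g) - T m ^ a' * (frE T m (j + 1) * g) := by
      show _ = (frE T m (j + 1) + T m * frE T m j) * (T m ^ a' * g) - _
      ring
    rw [h3]
    exact Submodule.sub_mem _ h h2

/-- the boxes are generated by the previous box: `B(b + (1,…,1)) ⊆ ∑ e_j B(b)` -/
theorem frBox_le (T : ℕ → A) (b : ℕ → ℕ) (m : ℕ) (hb : ∀ l < m, l ≤ b l) :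
    frBox k T (fun l => b l + 1) m ≤ frV k T b m := by
  induction m with
  | zero =>
    have h := frV_mem (k := k) T b 0 0 1 (Submodule.mem_span_singleton_self 1)
    rw [frE_zero, one_mul] at h
    exact (Submodule.span_singleton_le_iff_mem _ _).2 h
  | succ m ih =>
    refine iSup_le fun a => ?_
    rintro _ ⟨g, hg, rfl⟩
    have hg' := ih (fun l hl => hb l (by omega)) hg
    have hbm := hb m (by omega)
    have key : ∀ g ∈ frV k T b m, T m ^ (a : ℕ) * g ∈ frV k T b (m + 1) := by
      have : frV k T b m ≤ (frV k T b (m + 1)).comap (LinearMap.mulLeft k (T m ^ (a : ℕ))) := by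
        refine iSup_le fun j => ?_
        rintro _ ⟨g, hg, rfl⟩
        show T m ^ (a : ℕ) * (frE T m (j : ℕ) * g) ∈ frV k T b (m + 1)
        have ha := a.2
        have hj := j.2
        by_cases h : (a : ℕ) + j ≤ m
        · exact frV_low T b m g hg _ _ (by omega)
        · exact frV_high T b m g hg (m - j) _ _ (by omega) (by simpa using Nat.lt_succ_iff.1 ha)
            (by omega)
      exact fun g hg => this hg
    exact key g hg'

theorem frBox_prod (T : ℕ → A) (b i : ℕ → ℕ) (m : ℕ) (h : ∀ l < m, i l ≤ b l) :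
    ∏ l ∈ Finset.range m, T l ^ i l ∈ frBox k T b m := by
  induction m with
  | zero =>
    rw [Finset.range_zero, Finset.prod_empty]
    exact Submodule.mem_span_singleton_self 1
  | succ m ih =>
    rw [Finset.prod_range_succ, mul_comm]
    exact frBox_mem T b m _ (h m (by omega)) _ (ih fun l hl => h l (by omega))

theorem frBox_span (T : ℕ → A) (b : ℕ → ℕ) (m : ℕ) : frBox k T b m ≤
    Submodule.span k {x | ∃ i : ℕ → ℕ, (∀ l < m, i l ≤ b l) ∧
      x = ∏ l ∈ Finset.range m, T l ^ i l} := by
  induction m with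
  | zero =>
    refine Submodule.span_mono ?_
    rintro _ rfl
    exact ⟨fun _ => 0, fun l hl => by omega, by simp⟩
  | succ m ih =>
    refine iSup_le fun a => ?_
    refine (Submodule.map_mono ih).trans ?_
    rw [Submodule.map_span, Submodule.span_le]
    rintro _ ⟨_, ⟨i, hi, rfl⟩, rfl⟩
    refine Submodule.subset_span ⟨fun l => if l = m then a else i l, fun l hl => ?_, ?_⟩
    · simp only
      split_ifs with h
      · rw [h]
        have := a.2
        omega
      · exact hi l (by omega)
    · rw [Finset.prod_range_succ]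
      beta_reduce
      rw [if_pos rfl, mul_comm]
      show T m ^ (a : ℕ) * _ = T m ^ (a : ℕ) * _
      congr 1
      refine Finset.prod_congr rfl fun l hl => ?_
      have := Finset.mem_range.1 hl
      rw [if_neg (by omega)]

open Polynomial in
theorem frE_coeff (T : ℕ → A) (m j : ℕ) :
    (∏ l ∈ Finset.range m, (1 + C (T l) * X)).coeff j = frE T m j := by
  induction m generalizing j with
  | zero =>
    rw [Finset.range_zero, Finset.prod_empty]
    cases j with
    | zero => rw [coeff_one, if_pos rfl]; rfl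
    | succ j => rw [coeff_one, if_neg (by omega)]; rfl
  | succ m ih =>
    rw [Finset.prod_range_succ, mul_add, mul_one, ← mul_assoc, coeff_add, ih]
    cases j with
    | zero =>
      rw [mul_coeff_zero, coeff_X_zero, mul_zero, add_zero]
      rfl
    | succ j =>
      rw [coeff_mul_X, mul_comm, coeff_C_mul, ih]
      rfl

end FrSpan

end Vale.Agent.P202C
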