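import Vale.Agent.P202C.Free1

/-!
P202 in characteristic p, section (EF), part 2: freeness of the module of sections of the
bundle `b* = (0,1,…,n-1)` over `A = 𝔽[Y_0..Y_n]` (helper59).
-/

set_option autoImplicit false

namespace Vale.Agent.P202C

universe u v w

section FrConc

variable (𝔽 : Type w) [Field 𝔽] (n : ℕ)

/-- the variables -/
noncomputable def frZ (l : ℕ) : Lau 𝔽 n :=
  if h : l < n then AddMonoidAlgebra.single (Pi.single (⟨l, h⟩ : Fin n) (1 : ℤ), (0 : ℤ)) 1 else 1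

/-- the grading variable -/
noncomputable def frT : Lau 𝔽 n := AddMonoidAlgebra.single ((0 : Fin n → ℤ), (1 : ℤ)) 1

theorem fr_prod_single {κ : Type*} (s : Finset κ) (g : κ → (Fin n → ℤ) × ℤ) :
    ∏ l ∈ s, (AddMonoidAlgebra.single (g l) (1 : 𝔽) : Lau 𝔽 n) =
      AddMonoidAlgebra.single (∑ l ∈ s, g l) 1 := by
  classical
  induction s using Finset.induction_on with
  | empty => rw [Finset.prod_empty, Finset.sum_empty, AddMonoidAlgebra.one_def]
  | insert a s ha ih =>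
    rw [Finset.prod_insert ha, Finset.sum_insert ha, ih, AddMonoidAlgebra.single_mul_single,
      mul_one]

theorem frE_eq (j : ℕ) : frE (frZ 𝔽 n) n j =
    ∑ E ∈ (Finset.univ : Finset (Fin n)).powersetCard j,
      AddMonoidAlgebra.single (indE E, (0 : ℤ)) (1 : 𝔽) := by
  classical
  rw [← frE_coeff, Finset.prod_range, Finset.prod_one_add, Polynomial.finsetSum_coeff,
    Finset.powersetCard_eq_filter, Finset.sum_filter]
  refine Finset.sum_congr rfl fun E _ => ?_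
  have h1 : ∏ l ∈ E, (Polynomial.C (frZ 𝔽 n (l : ℕ)) * Polynomial.X) =
      Polynomial.C (AddMonoidAlgebra.single (indE E, (0 : ℤ)) (1 : 𝔽)) * Polynomial.X ^ E.card := by
    rw [Finset.prod_mul_distrib, Finset.prod_const, ← map_prod]
    congr 2
    have h2 : ∀ l ∈ E, frZ 𝔽 n (l : ℕ) =
        AddMonoidAlgebra.single (Pi.single l (1 : ℤ), (0 : ℤ)) 1 := by
      intro l _
      unfold frZ
      rw [dif_pos l.2]
    rw [Finset.prod_congr rfl h2, fr_prod_single]
    congr 1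
    refine Prod.ext ?_ ?_
    · rw [Prod.fst_sum]
      funext l
      rw [Finset.sum_apply]
      simp only [Pi.single_apply, indE]
      rw [Finset.sum_ite_eq]
    · rw [Prod.snd_sum]
      simp
  rw [h1, Polynomial.coeff_C_mul, Polynomial.coeff_X_pow]
  by_cases h : j = E.card
  · rw [if_pos h, mul_one, if_pos h.symm]
  · rw [if_neg h, mul_zero, if_neg (fun h' => h h'.symm)]

theorem frE_elemE (j : Fin (n + 1)) : elemE 𝔽 n j = frT 𝔽 n * frE (frZ 𝔽 n) n (j : ℕ) := by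
  rw [frE_eq, Finset.mul_sum]
  unfold elemE frT
  refine Finset.sum_congr rfl fun E _ => ?_
  rw [AddMonoidAlgebra.single_mul_single, mul_one]
  congr 1
  refine Prod.ext ?_ ?_
  · show indE E = 0 + indE E
    rw [zero_add]
  · show (1 : ℤ) = 1 + 0
    norm_num

/-- index set of the basis -/
abbrev frI (n : ℕ) : Type := (l : Fin n) → Fin ((l : ℕ) + 1)

/-- the basis monomials -/
noncomputable def frS (i : frI n) : Lau 𝔽 n :=
  AddMonoidAlgebra.single (fun l => ((i l : ℕ) : ℤ), (0 : ℤ)) 1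

theorem frZ_prod (i : ℕ → ℕ) : ∏ l ∈ Finset.range n, frZ 𝔽 n l ^ i l =
    AddMonoidAlgebra.single (fun l : Fin n => ((i l : ℕ) : ℤ), (0 : ℤ)) 1 := by
  classical
  rw [Finset.prod_range]
  have h2 : ∀ l ∈ (Finset.univ : Finset (Fin n)), frZ 𝔽 n (l : ℕ) ^ i (l : ℕ) =
      AddMonoidAlgebra.single (i (l : ℕ) • ((Pi.single l (1 : ℤ), (0 : ℤ)) : (Fin n → ℤ) × ℤ)) 1 := by
    intro l _
    unfold frZ
    rw [dif_pos l.2, AddMonoidAlgebra.single_pow, one_pow]
  rw [Finset.prod_congr rfl h2, fr_prod_single]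
  congr 1
  refine Prod.ext ?_ ?_
  · rw [Prod.fst_sum]
    funext l
    rw [Finset.sum_apply]
    simp only [Prod.smul_fst, Pi.smul_apply, Pi.single_apply, smul_ite, smul_zero]
    rw [Finset.sum_ite_eq]
    simp
  · rw [Prod.snd_sum]
    simp

/-- the degree `t` part of the span of the basis -/
noncomputable def frW (t : ℕ) : Submodule 𝔽 (Lau 𝔽 n) :=
  Submodule.span 𝔽 (Set.range fun p : ↥((Finset.univ : Finset (Fin (n + 1))).finsuppAntidiag t) ×
    frI n => toLau 𝔽 n (MvPolynomial.monomial p.1.1 1) * frS 𝔽 n p.2)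

theorem frW_mul (t : ℕ) (j : Fin (n + 1)) (x : Lau 𝔽 n) (hx : x ∈ frW 𝔽 n t) :
    elemE 𝔽 n j * x ∈ frW 𝔽 n (t + 1) := by
  classical
  have h : frW 𝔽 n t ≤ (frW 𝔽 n (t + 1)).comap (LinearMap.mulLeft 𝔽 (elemE 𝔽 n j)) := by
    unfold frW
    rw [Submodule.span_le]
    rintro _ ⟨⟨⟨α, hα⟩, i⟩, rfl⟩
    refine Submodule.subset_span ⟨⟨⟨Finsupp.single j 1 + α, ?_⟩, i⟩, ?_⟩
    · rw [Finset.mem_finsuppAntidiag] at hα ⊢
      refine ⟨?_, Finset.subset_univ _⟩
      have hα1 : ∑ l, α l = t := hα.1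
      show ∑ l, ((Finsupp.single j 1 : Fin (n + 1) →₀ ℕ) l + α l) = t + 1
      rw [Finset.sum_add_distrib, hα1]
      simp only [Finsupp.single_apply]
      rw [Finset.sum_ite_eq, if_pos (Finset.mem_univ _), add_comm]
    · show toLau 𝔽 n (MvPolynomial.monomial (Finsupp.single j 1 + α) 1) * frS 𝔽 n i =
        elemE 𝔽 n j * (toLau 𝔽 n (MvPolynomial.monomial α 1) * frS 𝔽 n i)
      have e1 : (MvPolynomial.monomial (Finsupp.single j 1 + α) (1 : 𝔽)) =
          MvPolynomial.X j * MvPolynomial.monomial α 1 := by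
        rw [MvPolynomial.X, MvPolynomial.monomial_mul, one_mul]
      have e2 : toLau 𝔽 n (MvPolynomial.X j) = elemE 𝔽 n j := by
        unfold toLau
        rw [MvPolynomial.aeval_X]
      rw [e1, map_mul, e2, mul_assoc]
  exact h hx

theorem frBox_W (t : ℕ) : ∀ g ∈ frBox 𝔽 (frZ 𝔽 n) (fun l => l + t) n,
    frT 𝔽 n ^ t * g ∈ frW 𝔽 n t := by
  classical
  induction t with
  | zero =>
    intro g hg
    rw [pow_zero, one_mul]
    have h1 := frBox_span (k := 𝔽) (frZ 𝔽 n) (fun l => l + 0) n hg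
    refine (Submodule.span_le (p := frW 𝔽 n 0)).2 ?_ h1
    rintro _ ⟨i, hi, rfl⟩
    rw [frZ_prod]
    refine Submodule.subset_span ⟨⟨⟨0, ?_⟩, fun l => ⟨i l, ?_⟩⟩, ?_⟩
    · rw [Finset.mem_finsuppAntidiag]
      simp
    · have := hi l l.2
      omega
    · show toLau 𝔽 n (MvPolynomial.monomial 0 1) * frS 𝔽 n _ = _
      have e1 : (MvPolynomial.monomial 0 (1 : 𝔽) : PolyA 𝔽 n) = 1 := rfl
      rw [e1, map_one, one_mul]
      rfl
  | succ t ih =>
    intro g hg
    have h1 := frBox_le (k := 𝔽) (frZ 𝔽 n) (fun l => l + t) n (fun l _ => by omega) hg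
    have h2 : frV 𝔽 (frZ 𝔽 n) (fun l => l + t) n ≤
        (frW 𝔽 n (t + 1)).comap (LinearMap.mulLeft 𝔽 (frT 𝔽 n ^ (t + 1))) := by
      refine iSup_le fun j => ?_
      rintro _ ⟨g, hg, rfl⟩
      show frT 𝔽 n ^ (t + 1) * (frE (frZ 𝔽 n) n (j : ℕ) * g) ∈ frW 𝔽 n (t + 1)
      have h3 := frW_mul 𝔽 n t j _ (ih g hg)
      rw [frE_elemE] at h3
      have e : frT 𝔽 n ^ (t + 1) * (frE (frZ 𝔽 n) n (j : ℕ) * g) =
          frT 𝔽 n * frE (frZ 𝔽 n) n (j : ℕ) * (frT 𝔽 n ^ t * g) := by ring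
      rw [e]
      exact h3
    exact h2 h1

theorem frT_pow (t : ℕ) : frT 𝔽 n ^ t = AddMonoidAlgebra.single ((0 : Fin n → ℤ), (t : ℤ)) 1 := by
  unfold frT
  rw [AddMonoidAlgebra.single_pow, one_pow]
  congr 1
  refine Prod.ext ?_ ?_
  · show t • (0 : Fin n → ℤ) = 0
    rw [smul_zero]
  · show t • (1 : ℤ) = t
    simp

/-- every monomial of the box lies in the span -/
theorem fr_single_mem (t : ℕ) (i : Fin n → ℕ) (hi : ∀ l, i l ≤ l + t) :
    AddMonoidAlgebra.single (fun l => (i l : ℤ), (t : ℤ)) (1 : 𝔽) ∈ frW 𝔽 n t := by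
  have h1 := frBox_W 𝔽 n t (∏ l ∈ Finset.range n, frZ 𝔽 n l ^ (if h : l < n then i ⟨l, h⟩ else 0))
    (frBox_prod (frZ 𝔽 n) (fun l => l + t) (fun l => if h : l < n then i ⟨l, h⟩ else 0) n
      (fun l hl => by
        simp only [dif_pos hl]
        exact hi ⟨l, hl⟩))
  rw [frZ_prod, frT_pow, AddMonoidAlgebra.single_mul_single, mul_one] at h1
  convert h1 using 2
  refine Prod.ext ?_ ?_
  · funext l
    simp
  · simp

end FrConc

end Vale.Agent.P202C
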