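import Vale.Agent.P202C.Free2

/-!
P202 in characteristic p, section (EF), part 3: linear independence (dimension count) and the
basis (helper59).
-/

set_option autoImplicit false

namespace Vale.Agent.P202C

universe u v w

section FrInd

variable (𝔽 : Type w) [Field 𝔽] (n : ℕ)

/-- the family of degree `t` -/
noncomputable def frFam (t : ℕ)
    (p : ↥((Finset.univ : Finset (Fin (n + 1))).finsuppAntidiag t) × frI n) : Lau 𝔽 n :=
  toLau 𝔽 n (MvPolynomial.monomial p.1.1 1) * frS 𝔽 n p.2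

theorem fr_card (t : ℕ) :
    Fintype.card (↥((Finset.univ : Finset (Fin (n + 1))).finsuppAntidiag t) × frI n) =
      Fintype.card ((l : Fin n) → Fin ((l : ℕ) + t + 1)) := by
  rw [Fintype.card_prod, Fintype.card_coe, Finset.card_finsuppAntidiag_nat_eq_choose,
    Fintype.card_pi, Fintype.card_pi]
  simp only [Fintype.card_fin, Finset.card_univ]
  rw [Fin.prod_univ_eq_prod_range (fun l => l + 1) n,
    Fin.prod_univ_eq_prod_range (fun l => l + t + 1) n, Finset.prod_range_add_one_eq_factorial]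
  have h1 : ∏ l ∈ Finset.range n, (l + t + 1) = (t + 1).ascFactorial n := by
    rw [Nat.ascFactorial_eq_prod_range]
    exact Finset.prod_congr rfl fun l _ => by omega
  rw [h1, Nat.ascFactorial_eq_factorial_mul_choose, mul_comm]
  congr 1
  rw [show n + 1 + t - 1 = t + n by omega]
  exact (Nat.choose_symm_add).symm ▸ rfl

theorem fr_single_indep {κ : Type*} [Fintype κ] (g : κ → (Fin n → ℤ) × ℤ)
    (hg : Function.Injective g) :
    LinearIndependent 𝔽 (fun i => (AddMonoidAlgebra.single (g i) (1 : 𝔽) : Lau 𝔽 n)) := by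
  classical
  rw [Fintype.linearIndependent_iff]
  intro c hc i
  have h := congrArg (fun f : Lau 𝔽 n => f.coeff (g i)) hc
  simp only [AddMonoidAlgebra.coeff_sum, AddMonoidAlgebra.coeff_smul, AddMonoidAlgebra.coeff_single,
    AddMonoidAlgebra.coeff_zero, Finsupp.coe_zero, Pi.zero_apply, Finsupp.finsetSum_apply,
    Finsupp.smul_apply, Finsupp.single_apply, smul_eq_mul, mul_ite, mul_one, mul_zero] at h
  rw [Finset.sum_eq_single i] at h
  · rwa [if_pos rfl] at h
  · intro j _ hj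
    rw [if_neg (fun h' => hj (hg h'))]
  · intro h'
    exact absurd (Finset.mem_univ i) h'

theorem frFam_indep (t : ℕ) : LinearIndependent 𝔽 (frFam 𝔽 n t) := by
  classical
  rw [linearIndependent_iff_card_le_finrank_span]
  set gg : ((l : Fin n) → Fin ((l : ℕ) + t + 1)) → (Fin n → ℤ) × ℤ :=
    fun i => (fun l => ((i l : ℕ) : ℤ), (t : ℤ)) with hgg
  have hinj : Function.Injective gg := by
    intro i i' h
    have h1 := (Prod.mk.inj h).1
    funext l
    have h2 := congrFun h1 l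
    exact Fin.ext (by exact_mod_cast h2)
  have hli := fr_single_indep 𝔽 n gg hinj
  have hle : Submodule.span 𝔽 (Set.range (fun i => (AddMonoidAlgebra.single (gg i) (1 : 𝔽) :
      Lau 𝔽 n))) ≤ Submodule.span 𝔽 (Set.range (frFam 𝔽 n t)) := by
    rw [Submodule.span_le]
    rintro _ ⟨i, rfl⟩
    have h := fr_single_mem 𝔽 n t (fun l => (i l : ℕ)) (fun l => by
      have := (i l).2
      omega)
    exact h
  have hfin : Module.Finite 𝔽 (Submodule.span 𝔽 (Set.range (frFam 𝔽 n t))) :=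
    Module.Finite.span_of_finite 𝔽 (Set.finite_range _)
  have h1 := Submodule.finrank_mono hle
  rw [finrank_span_eq_card hli] at h1
  rw [fr_card]
  exact h1

theorem fr_ext {𝔽 : Type w} [Field 𝔽] {n : ℕ} {f g : Lau 𝔽 n}
    (h : ∀ m, f.coeff m = g.coeff m) : f = g :=
  AddMonoidAlgebra.coeff_injective (Finsupp.ext h)

/-- homogeneous elements for the `T`-degree -/
def frH (t : ℤ) (f : Lau 𝔽 n) : Prop := ∀ m, f.coeff m ≠ 0 → m.2 = t

variable {𝔽 n}

theorem frH_mul {s t : ℤ} {f g : Lau 𝔽 n} (hf : frH 𝔽 n s f) (hg : frH 𝔽 n t g) :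
    frH 𝔽 n (s + t) (f * g) := by
  classical
  intro m hm
  have h1 : m ∈ (f * g).coeff.support := Finsupp.mem_support_iff.mpr hm
  obtain ⟨x, hx, y, hy, rfl⟩ := Finset.mem_add.mp (AddMonoidAlgebra.support_coeff_mul_subset f g h1)
  show x.2 + y.2 = s + t
  rw [hf x (Finsupp.mem_support_iff.mp hx), hg y (Finsupp.mem_support_iff.mp hy)]

theorem frH_single (m : (Fin n → ℤ) × ℤ) (r : 𝔽) :
    frH 𝔽 n m.2 (AddMonoidAlgebra.single m r) := by
  classical
  intro m' hm'
  rw [AddMonoidAlgebra.coeff_single, Finsupp.single_apply] at hm'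
  by_cases h2 : m = m'
  · rw [h2]
  · rw [if_neg h2] at hm'
    exact absurd rfl hm'

theorem frH_sum {t : ℤ} {κ : Type*} (s : Finset κ) (f : κ → Lau 𝔽 n)
    (h : ∀ i ∈ s, frH 𝔽 n t (f i)) : frH 𝔽 n t (∑ i ∈ s, f i) := by
  classical
  intro m hm
  by_contra hcon
  apply hm
  rw [AddMonoidAlgebra.coeff_sum, Finsupp.finsetSum_apply]
  refine Finset.sum_eq_zero fun i hi => ?_
  by_contra h'
  exact hcon (h i hi m h')

theorem frH_elemE (j : Fin (n + 1)) : frH 𝔽 n 1 (elemE 𝔽 n j) := by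
  unfold elemE
  exact frH_sum _ _ fun E _ => frH_single (indE E, (1 : ℤ)) 1

theorem frH_one : frH 𝔽 n 0 (1 : Lau 𝔽 n) := by
  rw [AddMonoidAlgebra.one_def]
  exact frH_single 0 1

theorem frH_pow {t : ℤ} {f : Lau 𝔽 n} (hf : frH 𝔽 n t f) (k : ℕ) : frH 𝔽 n (k * t) (f ^ k) := by
  induction k with
  | zero =>
    rw [pow_zero, Nat.cast_zero, zero_mul]
    exact frH_one
  | succ k ih =>
    rw [pow_succ]
    have h := frH_mul ih hf
    push_cast
    rwa [add_mul, one_mul]

theorem frH_mono (α : Fin (n + 1) →₀ ℕ) :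
    frH 𝔽 n ((∑ l, α l : ℕ) : ℤ) (toLau 𝔽 n (MvPolynomial.monomial α 1)) := by
  classical
  have h1 : toLau 𝔽 n (MvPolynomial.monomial α 1) = ∏ l, elemE 𝔽 n l ^ α l := by
    unfold toLau
    rw [MvPolynomial.aeval_monomial, map_one, one_mul, Finsupp.prod_fintype]
    intro i
    rw [pow_zero]
  rw [h1]
  have h2 : ∀ s : Finset (Fin (n + 1)), frH 𝔽 n ((∑ l ∈ s, α l : ℕ) : ℤ)
      (∏ l ∈ s, elemE 𝔽 n l ^ α l) := by
    intro s
    induction s using Finset.induction_on with
    | empty =>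
      rw [Finset.prod_empty, Finset.sum_empty, Nat.cast_zero]
      exact frH_one
    | insert a s ha ih =>
      rw [Finset.prod_insert ha, Finset.sum_insert ha]
      have h3 := frH_mul (frH_pow (frH_elemE (𝔽 := 𝔽) a) (α a)) ih
      push_cast at h3 ⊢
      rwa [mul_one] at h3
  exact h2 _

theorem frH_Fam (α : Fin (n + 1) →₀ ℕ) (i : frI n) :
    frH 𝔽 n ((∑ l, α l : ℕ) : ℤ) (toLau 𝔽 n (MvPolynomial.monomial α 1) * frS 𝔽 n i) := by
  have h := frH_mul (frH_mono (𝔽 := 𝔽) α) (frH_single (𝔽 := 𝔽)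
    (((fun l => ((i l : ℕ) : ℤ)), (0 : ℤ)) : (Fin n → ℤ) × ℤ) 1)
  rw [add_zero] at h
  exact h

variable (𝔽 n)

theorem fr_expand (a : PolyA 𝔽 n) : toLau 𝔽 n a = ∑ β ∈ a.support,
    a.coeff β • toLau 𝔽 n (MvPolynomial.monomial β 1) := by
  conv_lhs => rw [← MvPolynomial.support_sum_monomial_coeff a]
  rw [map_sum]
  refine Finset.sum_congr rfl fun β _ => ?_
  rw [← map_smul, MvPolynomial.smul_monomial, smul_eq_mul, mul_one]

theorem fr_coeff (a : PolyA 𝔽 n) (i : frI n) (m : (Fin n → ℤ) × ℤ) (t : ℕ) (hm : m.2 = t) :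
    (toLau 𝔽 n a * frS 𝔽 n i).coeff m =
      ∑ β ∈ (Finset.univ : Finset (Fin (n + 1))).finsuppAntidiag t,
        a.coeff β * (toLau 𝔽 n (MvPolynomial.monomial β 1) * frS 𝔽 n i).coeff m := by
  classical
  have h1 : (toLau 𝔽 n a * frS 𝔽 n i).coeff m = ∑ β ∈ a.support,
      a.coeff β * (toLau 𝔽 n (MvPolynomial.monomial β 1) * frS 𝔽 n i).coeff m := by
    rw [fr_expand, Finset.sum_mul, AddMonoidAlgebra.coeff_sum, Finsupp.finsetSum_apply]
    refine Finset.sum_congr rfl fun β _ => ?_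
    rw [smul_mul_assoc, AddMonoidAlgebra.coeff_smul, Finsupp.smul_apply, smul_eq_mul]
  rw [h1]
  have h2 : ∀ β : Fin (n + 1) →₀ ℕ,
      β ∉ (Finset.univ : Finset (Fin (n + 1))).finsuppAntidiag t →
      (toLau 𝔽 n (MvPolynomial.monomial β 1) * frS 𝔽 n i).coeff m = 0 := by
    intro β hβ
    by_contra hcon
    apply hβ
    have h3 := frH_Fam (𝔽 := 𝔽) β i m hcon
    rw [hm] at h3
    rw [Finset.mem_finsuppAntidiag]
    exact ⟨by exact_mod_cast h3.symm, Finset.subset_univ _⟩
  rw [← Finset.sum_subset (Finset.inter_subset_left : a.support ∩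
    (Finset.univ : Finset (Fin (n + 1))).finsuppAntidiag t ⊆ a.support)]
  · refine Finset.sum_subset Finset.inter_subset_right fun β hβ hβ' => ?_
    rw [Finset.mem_inter, not_and'] at hβ'
    have := hβ' hβ
    rw [MvPolynomial.notMem_support_iff] at this
    rw [this, zero_mul]
  · intro β hβ hβ'
    rw [Finset.mem_inter, not_and] at hβ'
    rw [h2 β (hβ' hβ), mul_zero]

theorem fr_coeff' (a : PolyA 𝔽 n) (i : frI n) (m : (Fin n → ℤ) × ℤ) (t : ℕ) (hm : m.2 = t) :
    ∑ β : ↥((Finset.univ : Finset (Fin (n + 1))).finsuppAntidiag t),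
      (a.coeff β.1 • frFam 𝔽 n t (β, i)).coeff m = (a • frS 𝔽 n i : Lau 𝔽 n).coeff m := by
  have h2 := fr_coeff 𝔽 n a i m t hm
  have h3 : (a • frS 𝔽 n i : Lau 𝔽 n) = toLau 𝔽 n a * frS 𝔽 n i := rfl
  rw [h3, h2]
  rw [← Finset.sum_coe_sort ((Finset.univ : Finset (Fin (n + 1))).finsuppAntidiag t)
    (fun β => a.coeff β * (toLau 𝔽 n (MvPolynomial.monomial β 1) * frS 𝔽 n i).coeff m)]
  refine Finset.sum_congr rfl fun β _ => ?_
  rw [AddMonoidAlgebra.coeff_smul, Finsupp.smul_apply, smul_eq_mul]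
  rfl

/-- the basis monomials are linearly independent over `A` -/
theorem frS_indep : LinearIndependent (PolyA 𝔽 n) (frS 𝔽 n) := by
  classical
  rw [Fintype.linearIndependent_iff]
  intro a ha i
  refine MvPolynomial.ext _ _ fun α => ?_
  rw [MvPolynomial.coeff_zero]
  set t : ℕ := ∑ l, α l with ht
  have hα : α ∈ (Finset.univ : Finset (Fin (n + 1))).finsuppAntidiag t := by
    rw [Finset.mem_finsuppAntidiag]
    exact ⟨rfl, Finset.subset_univ _⟩
  have key : ∑ p : ↥((Finset.univ : Finset (Fin (n + 1))).finsuppAntidiag t) × frI n,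
      ((a p.2).coeff p.1.1) • frFam 𝔽 n t p = 0 := by
    refine fr_ext fun m => ?_
    rw [AddMonoidAlgebra.coeff_sum, Finsupp.finsetSum_apply, AddMonoidAlgebra.coeff_zero,
      Finsupp.coe_zero, Pi.zero_apply]
    by_cases hm : m.2 = t
    · have h1 := congrArg (fun f : Lau 𝔽 n => f.coeff m) ha
      rw [AddMonoidAlgebra.coeff_sum, Finsupp.finsetSum_apply, AddMonoidAlgebra.coeff_zero,
        Finsupp.coe_zero, Pi.zero_apply] at h1
      rw [← h1, Fintype.sum_prod_type_right]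
      exact Finset.sum_congr rfl fun i _ => fr_coeff' 𝔽 n (a i) i m t hm
    · refine (Finset.sum_eq_zero fun p _ => ?_)
      rw [AddMonoidAlgebra.coeff_smul, Finsupp.smul_apply]
      have h2 : (frFam 𝔽 n t p).coeff m = 0 := by
        by_contra hcon
        apply hm
        have h3 := frH_Fam (𝔽 := 𝔽) p.1.1 p.2 m hcon
        have h4 := (Finset.mem_finsuppAntidiag.1 p.1.2).1
        rw [h3]
        exact_mod_cast h4
      rw [h2, smul_zero]
  have h5 := Fintype.linearIndependent_iff.1 (frFam_indep 𝔽 n t) _ key (⟨α, hα⟩, i)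
  exact h5

end FrInd

end Vale.Agent.P202C
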