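import Vale.Agent.P202C.Free3

/-!
P202 in characteristic p, section (EF), part 4: the module of sections and the comparison with a
free module over `A` (helper59).
-/

set_option autoImplicit false

namespace Vale.Agent.P202C

universe u v w

section FrSub

variable (𝔽 : Type w) [Field 𝔽] {n : ℕ}

/-- the global sections of the bundle `b` in filtration `0` -/
def MSub (b : Fin n → ℤ) : Submodule (PolyA 𝔽 n) (Lau 𝔽 n) where
  carrier := {f | inBlk 𝔽 b (fun _ => 0) 0 f ∧ inBlk 𝔽 b (fun _ => 1) 0 f}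
  zero_mem' := ⟨inBlk_zero 𝔽 b _ 0, inBlk_zero 𝔽 b _ 0⟩
  add_mem' := fun {f g} hf hg =>
    ⟨inBlk_add 𝔽 b _ 0 hf.1 hg.1, inBlk_add 𝔽 b _ 0 hf.2 hg.2⟩
  smul_mem' := fun a f hf => by
    have h1 := inBlk_mul 𝔽 0 b (fun _ => 0) 0 0 (inBlk_toLau 𝔽 (fun _ => 0) a) hf.1
    have h2 := inBlk_mul 𝔽 0 b (fun _ => 1) 0 0 (inBlk_toLau 𝔽 (fun _ => 1) a) hf.2
    rw [zero_add, zero_add] at h1 h2
    exact ⟨h1, h2⟩

theorem mem_MSub {b : Fin n → ℤ} {f : Lau 𝔽 n} : f ∈ MSub 𝔽 b ↔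
    ∀ m : (Fin n → ℤ) × ℤ, f.coeff m ≠ 0 → 0 ≤ m.2 ∧ ∀ l, 0 ≤ m.1 l ∧ m.1 l ≤ b l + m.2 := by
  constructor
  · rintro ⟨h1, h2⟩ m hm
    obtain ⟨a1, a2, a3⟩ := h1 m hm
    obtain ⟨c1, c2, c3⟩ := h2 m hm
    exact ⟨a1, fun l => ⟨c3 l rfl, a2 l rfl⟩⟩
  · intro h
    refine ⟨fun m hm => ?_, fun m hm => ?_⟩
    · obtain ⟨a1, a2⟩ := h m hm
      exact ⟨a1, fun l _ => (a2 l).2, fun l _ => (a2 l).1⟩
    · obtain ⟨a1, a2⟩ := h m hm
      exact ⟨a1, fun l _ => (a2 l).2, fun l _ => (a2 l).1⟩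

/-- the special bundle -/
def bstar (n : ℕ) : Fin n → ℤ := fun l => (l : ℕ)

theorem frS_mem (i : frI n) : frS 𝔽 n i ∈ MSub 𝔽 (bstar n) := by
  classical
  rw [mem_MSub]
  intro m hm
  unfold frS at hm
  rw [AddMonoidAlgebra.coeff_single, Finsupp.single_apply] at hm
  by_cases h : ((fun l => ((i l : ℕ) : ℤ), (0 : ℤ)) : (Fin n → ℤ) × ℤ) = m
  · rw [← h]
    refine ⟨le_rfl, fun l => ⟨?_, ?_⟩⟩
    · show (0 : ℤ) ≤ ((i l : ℕ) : ℤ)
      exact Int.natCast_nonneg _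
    · show ((i l : ℕ) : ℤ) ≤ ((l : ℕ) : ℤ) + 0
      have := (i l).2
      omega
  · rw [if_neg h] at hm
    exact absurd rfl hm

theorem fr_W_le (t : ℕ) (x : Lau 𝔽 n) (hx : x ∈ frW 𝔽 n t) :
    x ∈ Submodule.span (PolyA 𝔽 n) (Set.range (frS 𝔽 n)) := by
  unfold frW at hx
  induction hx using Submodule.span_induction with
  | mem x hx =>
    obtain ⟨⟨α, i⟩, rfl⟩ := hx
    exact Submodule.smul_mem _ (MvPolynomial.monomial α.1 1) (Submodule.subset_span ⟨i, rfl⟩)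
  | zero => exact Submodule.zero_mem _
  | add x y _ _ h1 h2 => exact Submodule.add_mem _ h1 h2
  | smul c x _ h =>
    have e : c • x = (MvPolynomial.C c : PolyA 𝔽 n) • x := by
      have h1 : (MvPolynomial.C c : PolyA 𝔽 n) • x = toLau 𝔽 n (MvPolynomial.C c) * x := rfl
      rw [h1]
      unfold toLau
      rw [MvPolynomial.aeval_C, Algebra.smul_def]
    rw [e]
    exact Submodule.smul_mem _ _ h

theorem fr_span : Submodule.span (PolyA 𝔽 n) (Set.range (frS 𝔽 n)) = MSub 𝔽 (bstar n) := by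
  classical
  refine le_antisymm (Submodule.span_le.2 ?_) fun f hf => ?_
  · rintro _ ⟨i, rfl⟩
    exact frS_mem 𝔽 i
  · rw [mem_MSub] at hf
    have h1 : f = ∑ m ∈ f.coeff.support, (AddMonoidAlgebra.single m (f.coeff m) : Lau 𝔽 n) := by
      refine fr_ext fun m => ?_
      rw [AddMonoidAlgebra.coeff_sum, Finsupp.finsetSum_apply]
      simp only [AddMonoidAlgebra.coeff_single, Finsupp.single_apply]
      rw [Finset.sum_ite_eq']
      split_ifs with h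
      · rfl
      · exact Finsupp.notMem_support_iff.1 h
    rw [h1]
    refine Submodule.sum_mem _ fun m hm => ?_
    obtain ⟨a1, a2⟩ := hf m (Finsupp.mem_support_iff.1 hm)
    obtain ⟨t, ht⟩ := Int.eq_ofNat_of_zero_le a1
    have h2 := fr_single_mem 𝔽 n t (fun l => (m.1 l).toNat) (fun l => by
      have h3 := a2 l
      have h4 : m.1 l ≤ ((l : ℕ) : ℤ) + m.2 := h3.2
      omega)
    have h5 : ((fun l => (((m.1 l).toNat : ℕ) : ℤ), (t : ℤ)) : (Fin n → ℤ) × ℤ) = m := by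
      refine Prod.ext ?_ ht.symm
      funext l
      exact Int.toNat_of_nonneg (a2 l).1
    rw [h5] at h2
    have h6 : (AddMonoidAlgebra.single m (f.coeff m) : Lau 𝔽 n) =
        f.coeff m • AddMonoidAlgebra.single m (1 : 𝔽) := by
      rw [AddMonoidAlgebra.smul_single, smul_eq_mul, mul_one]
    rw [h6]
    exact fr_W_le 𝔽 t _ (Submodule.smul_mem _ _ h2)

theorem card_frI : Fintype.card (frI n) = n.factorial := by
  rw [Fintype.card_pi]
  simp only [Fintype.card_fin]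
  rw [Fin.prod_univ_eq_prod_range (fun l => l + 1) n, Finset.prod_range_add_one_eq_factorial]

/-- the sections of the special bundle are free of rank `n!` -/
theorem free_bstar : Nonempty (MSub 𝔽 (bstar n) ≃ₗ[PolyA 𝔽 n] (Fin n.factorial → PolyA 𝔽 n)) := by
  classical
  have e1 := (Module.Basis.span (frS_indep 𝔽 n)).equivFun
  rw [fr_span 𝔽] at e1
  exact ⟨e1.trans (LinearEquiv.funCongrLeft (PolyA 𝔽 n) (PolyA 𝔽 n)
    (Fintype.equivFinOfCardEq (card_frI (n := n))).symm)⟩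

/-- multiplication by `y_0` is the shift of the grading -/
theorem fr_X0 (N : ℕ) (f : Lau 𝔽 n) : ((MvPolynomial.X 0 ^ N : PolyA 𝔽 n)) • f =
    AddMonoidAlgebra.single ((0 : Fin n → ℤ), (N : ℤ)) 1 * f := by
  have h1 : ((MvPolynomial.X 0 ^ N : PolyA 𝔽 n)) • f =
    toLau 𝔽 n (MvPolynomial.X 0 ^ N) * f := rfl
  have h2 : toLau 𝔽 n (MvPolynomial.X 0) = frT 𝔽 n := by
    unfold toLau
    rw [MvPolynomial.aeval_X, frE_elemE]
    show frT 𝔽 n * frE (frZ 𝔽 n) n 0 = frT 𝔽 n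
    rw [frE_zero, mul_one]
  rw [h1, map_pow, h2, frT_pow]

theorem fr_X0_inj (N : ℕ) (f : Lau 𝔽 n) (h : ((MvPolynomial.X 0 ^ N : PolyA 𝔽 n)) • f = 0) :
    f = 0 := by
  rw [fr_X0] at h
  have h1 := congrArg (fun g : Lau 𝔽 n =>
    AddMonoidAlgebra.single ((0 : Fin n → ℤ), (-(N : ℤ))) (1 : 𝔽) * g) h
  simp only [mul_zero] at h1
  rw [← mul_assoc, AddMonoidAlgebra.single_mul_single, mul_one] at h1
  have h2 : (((0 : Fin n → ℤ), (-(N : ℤ))) + ((0 : Fin n → ℤ), (N : ℤ)) : (Fin n → ℤ) × ℤ) = 0 := by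
    refine Prod.ext ?_ ?_
    · show (0 : Fin n → ℤ) + 0 = 0
      rw [add_zero]
    · show -(N : ℤ) + N = 0
      ring
  rw [h2, ← AddMonoidAlgebra.one_def, one_mul] at h1
  exact h1

theorem fr_X0_mem (N : ℕ) (b b' : Fin n → ℤ) (h : ∀ l, b l ≤ b' l + N) (f : Lau 𝔽 n)
    (hf : f ∈ MSub 𝔽 b) : ((MvPolynomial.X 0 ^ N : PolyA 𝔽 n)) • f ∈ MSub 𝔽 b' := by
  classical
  rw [mem_MSub] at hf ⊢
  rw [fr_X0]
  intro m hm
  have h1 : m ∈ (AddMonoidAlgebra.single ((0 : Fin n → ℤ), (N : ℤ)) 1 * f : Lau 𝔽 n).coeff.support :=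
    Finsupp.mem_support_iff.mpr hm
  obtain ⟨x, hx, y, hy, rfl⟩ := Finset.mem_add.mp (AddMonoidAlgebra.support_coeff_mul_subset _ f h1)
  have hx' : x = ((0 : Fin n → ℤ), (N : ℤ)) := by
    rw [AddMonoidAlgebra.coeff_single] at hx
    exact Finset.mem_singleton.1 (Finsupp.support_single_subset hx)
  obtain ⟨a1, a2⟩ := hf y (Finsupp.mem_support_iff.mp hy)
  subst hx'
  refine ⟨?_, fun l => ⟨?_, ?_⟩⟩
  · show (0 : ℤ) ≤ N + y.2
    omega
  · show (0 : ℤ) ≤ 0 + y.1 l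
    have := (a2 l).1
    omega
  · show (0 : ℤ) + y.1 l ≤ b' l + (N + y.2)
    have h3 := (a2 l).2
    have h4 := h l
    omega

end FrSub

end Vale.Agent.P202C
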