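import Vale.Agent.P202C.Slice2

/-!
P202 in characteristic p, stage 2: the blocks over an arbitrary commutative ring `R0` (instead of a field).
-/

set_option autoImplicit false

namespace Vale.Agent.P202C.Gn

open IsLocalRing TensorProduct

universe u v w

section Blocks

variable (𝔽 : Type w) [CommRing 𝔽] (n : ℕ)

/-- `A = 𝔽[Y_0,…,Y_n]` -/
abbrev PolyA : Type w := MvPolynomial (Fin (n + 1)) 𝔽

/-- Laurent polynomials in `z_0..z_{n-1}` and `T`: monomials `(i, s)`, `i : Fin n → ℤ`, `s : ℤ`. -/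
abbrev Lau : Type w := AddMonoidAlgebra 𝔽 ((Fin n → ℤ) × ℤ)

/-- `Y_j ↦ T * e_j(z)` -/
noncomputable def elemE (j : Fin (n + 1)) : Lau 𝔽 n :=
  ∑ E ∈ (Finset.univ : Finset (Fin n)).powersetCard j.val,
    AddMonoidAlgebra.single (indE E, (1 : ℤ)) (1 : 𝔽)

/-- the structure map `A → Λ` -/
noncomputable def toLau : PolyA 𝔽 n →ₐ[𝔽] Lau 𝔽 n := MvPolynomial.aeval (elemE 𝔽 n)

/-- `Λ` as an algebra over `A` -/
noncomputable instance algLau : Algebra (PolyA 𝔽 n) (Lau 𝔽 n) := (toLau 𝔽 n).toRingHom.toAlgebra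

/-- total space of the cochain complex over `A`: one copy of `Λ` for each `τ : Fin n → Fin 3`. -/
abbrev XA : Type w := (Fin n → Fin 3) → Lau 𝔽 n

theorem XA_smul_apply (a : PolyA 𝔽 n) (f : XA 𝔽 n) (τ : Fin n → Fin 3) :
    (a • f) τ = toLau 𝔽 n a * f τ := rfl

/-- elements of `Λ` with all monomials allowed -/
def inBlk {n : ℕ} (b : Fin n → ℤ) (τ : Fin n → Fin 3) (s : ℤ) (f : Lau 𝔽 n) : Prop :=
  ∀ m : (Fin n → ℤ) × ℤ, f.coeff m ≠ 0 → allowed b τ s m

end Blocks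

section Blocks

variable (𝔽 : Type w) [CommRing 𝔽] {n : ℕ}

theorem inBlk_zero (b : Fin n → ℤ) (τ : Fin n → Fin 3) (s : ℤ) :
    inBlk 𝔽 b τ s (0 : Lau 𝔽 n) := by
  intro m hm
  exact absurd rfl hm

theorem inBlk_add (b : Fin n → ℤ) (τ : Fin n → Fin 3) (s : ℤ) {f g : Lau 𝔽 n}
    (hf : inBlk 𝔽 b τ s f) (hg : inBlk 𝔽 b τ s g) : inBlk 𝔽 b τ s (f + g) := by
  intro m hm
  by_cases h : f.coeff m = 0
  · refine hg m fun h2 => hm ?_
    rw [AddMonoidAlgebra.coeff_add, Finsupp.add_apply, h, h2, add_zero]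
  · exact hf m h

/-- products of block elements: the bundle parameters and the filtrations add up -/
theorem inBlk_mul (b b' : Fin n → ℤ) (τ : Fin n → Fin 3) (s s' : ℤ) {f g : Lau 𝔽 n}
    (hf : inBlk 𝔽 b τ s f) (hg : inBlk 𝔽 b' τ s' g) :
    inBlk 𝔽 (b + b') τ (s + s') (f * g) := by
  classical
  intro m hm
  have h1 : m ∈ (f * g).coeff.support := Finsupp.mem_support_iff.mpr hm
  obtain ⟨x, hx, y, hy, rfl⟩ := Finset.mem_add.mp (AddMonoidAlgebra.support_coeff_mul_subset f g h1)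
  obtain ⟨a1, a2, a3⟩ := hf x (Finsupp.mem_support_iff.mp hx)
  obtain ⟨c1, c2, c3⟩ := hg y (Finsupp.mem_support_iff.mp hy)
  refine ⟨?_, fun l hl => ?_, fun l hl => ?_⟩
  · show s + s' ≤ x.2 + y.2
    exact add_le_add a1 c1
  · show x.1 l + y.1 l ≤ (b l + b' l) + (x.2 + y.2)
    have h2 := a2 l hl
    have h3 := c2 l hl
    linarith
  · show 0 ≤ x.1 l + y.1 l
    exact add_nonneg (a3 l hl) (c3 l hl)

theorem inBlk_single {b : Fin n → ℤ} {τ : Fin n → Fin 3} {s : ℤ} {m : (Fin n → ℤ) × ℤ}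
    (h : allowed b τ s m) (r : 𝔽) : inBlk 𝔽 b τ s (AddMonoidAlgebra.single m r : Lau 𝔽 n) := by
  classical
  intro m' hm'
  rw [AddMonoidAlgebra.coeff_single, Finsupp.single_apply] at hm'
  by_cases h2 : m = m'
  · rwa [← h2]
  · rw [if_neg h2] at hm'
    exact absurd rfl hm'

theorem inBlk_sum {b : Fin n → ℤ} {τ : Fin n → Fin 3} {s : ℤ} {κ : Type*} (t : Finset κ)
    (f : κ → Lau 𝔽 n) (h : ∀ i ∈ t, inBlk 𝔽 b τ s (f i)) : inBlk 𝔽 b τ s (∑ i ∈ t, f i) := by
  classical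
  induction t using Finset.induction_on with
  | empty => exact inBlk_zero 𝔽 b τ s
  | insert a t ha ih =>
    rw [Finset.sum_insert ha]
    exact inBlk_add 𝔽 b τ s (h a (Finset.mem_insert_self a t))
      (ih fun i hi => h i (Finset.mem_insert_of_mem hi))

theorem inBlk_neg {b : Fin n → ℤ} {τ : Fin n → Fin 3} {s : ℤ} {f : Lau 𝔽 n}
    (h : inBlk 𝔽 b τ s f) : inBlk 𝔽 b τ s (-f) := by
  intro m hm
  refine h m fun h2 => hm ?_
  rw [AddMonoidAlgebra.coeff_neg, Finsupp.neg_apply, h2, neg_zero]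

theorem inBlk_mono {b : Fin n → ℤ} {τ τ' : Fin n → Fin 3} {s : ℤ} {f : Lau 𝔽 n}
    (hτ : ∀ l, τ' l = τ l ∨ τ' l = 2) (h : inBlk 𝔽 b τ s f) : inBlk 𝔽 b τ' s f := by
  intro m hm
  obtain ⟨a1, a2, a3⟩ := h m hm
  refine ⟨a1, fun l hl => a2 l ?_, fun l hl => a3 l ?_⟩
  · rcases hτ l with h3 | h3
    · rw [← h3, hl]
    · rw [hl] at h3
      exact absurd h3 (by decide)
  · rcases hτ l with h3 | h3
    · rw [← h3, hl]
    · rw [hl] at h3
      exact absurd h3 (by decide)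

/-- `Y_j` raises the filtration by one in every block -/
theorem inBlk_elemE (τ : Fin n → Fin 3) (j : Fin (n + 1)) :
    inBlk 𝔽 0 τ 1 (elemE 𝔽 n j) := by
  unfold elemE
  refine inBlk_sum 𝔽 _ _ fun E _ => inBlk_single 𝔽 ⟨le_rfl, fun l _ => ?_, fun l _ => ?_⟩ 1
  · show indE E l ≤ 0 + 1
    unfold indE
    split_ifs <;> norm_num
  · show 0 ≤ indE E l
    unfold indE
    split_ifs <;> norm_num

theorem inBlk_anti (b : Fin n → ℤ) (τ : Fin n → Fin 3) (s s' : ℤ) (h : s' ≤ s) {f : Lau 𝔽 n}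
    (hf : inBlk 𝔽 b τ s f) : inBlk 𝔽 b τ s' f := fun m hm =>
  ⟨h.trans (hf m hm).1, (hf m hm).2⟩

theorem inBlk_toLau (τ : Fin n → Fin 3) (a : PolyA 𝔽 n) :
    inBlk 𝔽 0 τ 0 (toLau 𝔽 n a) := by
  induction a using MvPolynomial.induction_on with
  | C r =>
    have h1 : toLau 𝔽 n (MvPolynomial.C r) = AddMonoidAlgebra.single 0 r := by
      unfold toLau
      rw [MvPolynomial.aeval_C]
      rfl
    rw [h1]
    exact inBlk_single 𝔽 ⟨le_rfl, fun l _ => le_of_eq (zero_add _).symm, fun l _ => le_rfl⟩ r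
  | add p q hp hq =>
    rw [map_add]
    exact inBlk_add 𝔽 0 τ 0 hp hq
  | mul_X p j hp =>
    rw [map_mul]
    have h1 : toLau 𝔽 n (MvPolynomial.X j) = elemE 𝔽 n j := by
      unfold toLau
      rw [MvPolynomial.aeval_X]
    rw [h1]
    have h2 := inBlk_mul 𝔽 0 0 τ 0 1 hp (inBlk_elemE 𝔽 τ j)
    rw [add_zero, zero_add] at h2
    exact inBlk_anti 𝔽 0 τ 1 0 (by norm_num) h2

/-- the filtration `F_s` of `XA` for the bundle `b` -/
def FA (b : Fin n → ℤ) (s : ℤ) : Submodule (PolyA 𝔽 n) (XA 𝔽 n) where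
  carrier := {f | ∀ τ, inBlk 𝔽 b τ s (f τ)}
  zero_mem' := fun τ => inBlk_zero 𝔽 b τ s
  add_mem' := fun {f g} hf hg τ => inBlk_add 𝔽 b τ s (hf τ) (hg τ)
  smul_mem' := fun a f hf τ => by
    rw [XA_smul_apply]
    have h := inBlk_mul 𝔽 0 b τ 0 s (inBlk_toLau 𝔽 τ a) (hf τ)
    rwa [zero_add, zero_add] at h

/-- cochains of degree `k` -/
def grA (n : ℕ) (k : ℤ) : Submodule (PolyA 𝔽 n) (XA 𝔽 n) where
  carrier := {f | ∀ τ, (num2 τ : ℤ) ≠ k → f τ = 0}
  zero_mem' := fun _ _ => rfl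
  add_mem' := fun {f g} hf hg τ h => by
    change f τ + g τ = 0
    rw [hf τ h, hg τ h, add_zero]
  smul_mem' := fun a f hf τ h => by
    rw [XA_smul_apply, hf τ h, mul_zero]

/-- the Cech differential -/
noncomputable def dA (n : ℕ) : XA 𝔽 n →ₗ[PolyA 𝔽 n] XA 𝔽 n where
  toFun f := fun τ => ∑ l ∈ Finset.univ.filter (fun l => τ l = 2),
    csg τ l • (f (Function.update τ l 0) - f (Function.update τ l 1))
  map_add' := fun f g => by
    funext τ
    rw [Pi.add_apply, ← Finset.sum_add_distrib]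
    refine Finset.sum_congr rfl fun l _ => ?_
    rw [Pi.add_apply, Pi.add_apply, ← smul_add]
    congr 1
    abel
  map_smul' := fun a f => by
    funext τ
    rw [RingHom.id_apply, XA_smul_apply, Finset.mul_sum]
    refine Finset.sum_congr rfl fun l _ => ?_
    rw [XA_smul_apply, XA_smul_apply, mul_smul_comm, mul_sub]

theorem dA_apply (f : XA 𝔽 n) (τ : Fin n → Fin 3) :
    dA 𝔽 n f τ = ∑ l ∈ Finset.univ.filter (fun l => τ l = 2),
      csg τ l • (f (Function.update τ l 0) - f (Function.update τ l 1)) := rfl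

/-- second differences -/
noncomputable def dd2 (f : XA 𝔽 n) (τ : Fin n → Fin 3) (l m : Fin n) : Lau 𝔽 n :=
  (f (Function.update (Function.update τ l 0) m 0) - f (Function.update (Function.update τ l 0) m 1))
    - (f (Function.update (Function.update τ l 1) m 0)
      - f (Function.update (Function.update τ l 1) m 1))

theorem dd2_symm (f : XA 𝔽 n) (τ : Fin n → Fin 3) {l m : Fin n} (h : m ≠ l) :
    dd2 𝔽 f τ l m = dd2 𝔽 f τ m l := by
  unfold dd2
  rw [Function.update_comm h, Function.update_comm h, Function.update_comm h,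
    Function.update_comm h]
  abel

theorem dA_dA (f : XA 𝔽 n) : dA 𝔽 n (dA 𝔽 n f) = 0 := by
  classical
  funext τ
  rw [dA_apply]
  have h1 : ∀ l ∈ Finset.univ.filter (fun l => τ l = 2),
      csg τ l • (dA 𝔽 n f (Function.update τ l 0) - dA 𝔽 n f (Function.update τ l 1)) =
      ∑ m ∈ Finset.univ.filter (fun l => τ l = 2),
        if m = l then 0 else (if l < m then -(csg τ l * csg τ m) else csg τ l * csg τ m) •
          dd2 𝔽 f τ l m := by
    intro l hl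
    have hl2 : τ l = 2 := by simpa using hl
    have h2 : ∀ c : Fin 3, c ≠ 2 → dA 𝔽 n f (Function.update τ l c) =
        ∑ m ∈ Finset.univ.filter (fun l => τ l = 2), if m = l then 0 else
          (if l < m then -csg τ m else csg τ m) •
            (f (Function.update (Function.update τ l c) m 0)
              - f (Function.update (Function.update τ l c) m 1)) := by
      intro c hc
      rw [dA_apply]
      have h3 : (Finset.univ.filter (fun m => Function.update τ l c m = 2)) =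
          (Finset.univ.filter (fun l => τ l = 2)).erase l := by
        ext m'
        simp only [Finset.mem_filter, Finset.mem_univ, true_and, Finset.mem_erase]
        by_cases h : m' = l
        · subst h
          rw [Function.update_self]
          simp [hc]
        · rw [Function.update_of_ne h]
          simp [h]
      rw [h3, ← Finset.add_sum_erase _ _ hl, if_pos rfl, zero_add]
      refine Finset.sum_congr rfl fun m hm => ?_
      have hm1 := Finset.ne_of_mem_erase hm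
      rw [if_neg hm1, csg_update τ hl2 hm1 hc]
    rw [h2 0 (by decide), h2 1 (by decide), ← Finset.sum_sub_distrib, Finset.smul_sum]
    refine Finset.sum_congr rfl fun m _ => ?_
    by_cases hm : m = l
    · rw [if_pos hm, if_pos hm, if_pos hm, sub_zero, smul_zero]
    · rw [if_neg hm, if_neg hm, if_neg hm, ← smul_sub, smul_smul]
      congr 1
      split_ifs
      · ring
      · ring
  rw [Finset.sum_congr rfl h1, ← Finset.sum_product']
  refine Finset.sum_involution (fun x _ => (x.2, x.1)) ?_ ?_ ?_ ?_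
  · rintro ⟨l, m⟩ _
    by_cases hm : m = l
    · simp [hm]
    · have hm' : l ≠ m := fun h => hm h.symm
      simp only [if_neg hm, if_neg hm']
      rw [dd2_symm 𝔽 f τ hm]
      rcases lt_or_gt_of_ne hm with h | h
      · rw [if_neg (not_lt.mpr h.le), if_pos h, ← add_smul]
        have : csg τ l * csg τ m + -(csg τ m * csg τ l) = 0 := by ring
        rw [this, zero_smul]
      · rw [if_pos h, if_neg (not_lt.mpr h.le), ← add_smul]
        have : -(csg τ l * csg τ m) + csg τ m * csg τ l = 0 := by ring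
        rw [this, zero_smul]
  · rintro ⟨l, m⟩ _ hne heq
    have h3 : m = l := (Prod.mk.inj heq).1
    exact hne (by simp [h3])
  · rintro ⟨l, m⟩ hx
    simp only [Finset.mem_product] at hx ⊢
    exact ⟨hx.2, hx.1⟩
  · rintro ⟨l, m⟩ _
    rfl

theorem dA_gr (k : ℤ) (f : XA 𝔽 n) (hf : f ∈ grA 𝔽 n k) : dA 𝔽 n f ∈ grA 𝔽 n (k + 1) := by
  intro τ hτ
  rw [dA_apply]
  refine Finset.sum_eq_zero fun l hl => ?_
  have hl2 : τ l = 2 := by simpa using hl
  have h1 : ∀ c : Fin 3, c ≠ 2 → f (Function.update τ l c) = 0 := by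
    intro c hc
    refine hf _ fun h => hτ ?_
    rw [← num2_update τ hl2 hc]
    push_cast
    rw [h]
  rw [h1 0 (by decide), h1 1 (by decide), sub_zero, smul_zero]

theorem dA_F (b : Fin n → ℤ) (s : ℤ) (f : XA 𝔽 n) (hf : f ∈ FA 𝔽 b s) :
    dA 𝔽 n f ∈ FA 𝔽 b s := by
  intro τ
  rw [dA_apply]
  refine inBlk_sum 𝔽 _ _ fun l hl => ?_
  have hl2 : τ l = 2 := by simpa using hl
  have h1 : ∀ c : Fin 3, inBlk 𝔽 b τ s (f (Function.update τ l c)) := by
    intro c
    refine inBlk_mono 𝔽 (fun m => ?_) (hf (Function.update τ l c))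
    by_cases hm : m = l
    · subst hm
      exact Or.inr hl2
    · exact Or.inl (Function.update_of_ne hm _ _).symm
  have h2 : inBlk 𝔽 b τ s (f (Function.update τ l 0) - f (Function.update τ l 1)) := by
    rw [sub_eq_add_neg]
    exact inBlk_add 𝔽 b τ s (h1 0) (inBlk_neg 𝔽 (h1 1))
  unfold csg
  rcases neg_one_pow_eq_or ℤ (Finset.univ.filter (fun m => m < l ∧ τ m = 2)).card with h | h
  · rw [h, one_smul]
    exact h2
  · rw [h, neg_smul, one_smul]
    exact inBlk_neg 𝔽 h2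

/-- the filtered complex over `A` -/
noncomputable def CA (b : Fin n → ℤ) : FiltCx (PolyA 𝔽 n) (XA 𝔽 n) where
  d := dA 𝔽 n
  gr := grA 𝔽 n
  F := FA 𝔽 b
  dd := dA_dA 𝔽
  d_gr := dA_gr 𝔽
  d_F := dA_F 𝔽 b
  F_anti := fun s f hf τ => inBlk_anti 𝔽 b τ (s + 1) s (by omega) (hf τ)

end Blocks


section Slices

variable (𝔽 : Type w) [CommRing 𝔽] {n : ℕ}

open Classical in
/-- keep the monomials with the property `p` -/
noncomputable def rsP (p : (Fin n → ℤ) × ℤ → Prop) : Lau 𝔽 n →+ Lau 𝔽 n where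
  toFun f := AddMonoidAlgebra.ofCoeff (f.coeff.filter p)
  map_zero' := by
    apply AddMonoidAlgebra.coeff_injective
    rw [AddMonoidAlgebra.coeff_ofCoeff, AddMonoidAlgebra.coeff_zero, Finsupp.filter_zero]
  map_add' := fun f g => by
    apply AddMonoidAlgebra.coeff_injective
    rw [AddMonoidAlgebra.coeff_ofCoeff, AddMonoidAlgebra.coeff_add, AddMonoidAlgebra.coeff_add,
      Finsupp.filter_add]

theorem rsP_coeff_pos {p : (Fin n → ℤ) × ℤ → Prop} (f : Lau 𝔽 n) {m : (Fin n → ℤ) × ℤ}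
    (h : p m) : (rsP 𝔽 p f).coeff m = f.coeff m := by
  classical
  unfold rsP
  exact Finsupp.filter_apply_pos _ _ h

theorem rsP_coeff_neg {p : (Fin n → ℤ) × ℤ → Prop} (f : Lau 𝔽 n) {m : (Fin n → ℤ) × ℤ}
    (h : ¬ p m) : (rsP 𝔽 p f).coeff m = 0 := by
  classical
  unfold rsP
  exact Finsupp.filter_apply_neg _ _ h

theorem rsP_ne {p : (Fin n → ℤ) × ℤ → Prop} {f : Lau 𝔽 n} {m : (Fin n → ℤ) × ℤ}
    (h : (rsP 𝔽 p f).coeff m ≠ 0) : p m ∧ f.coeff m ≠ 0 := by
  by_cases hp : p m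
  · rw [rsP_coeff_pos 𝔽 f hp] at h
    exact ⟨hp, h⟩
  · exact absurd (rsP_coeff_neg 𝔽 f hp) h

theorem lau_ext {f g : Lau 𝔽 n} (h : ∀ m, f.coeff m = g.coeff m) : f = g :=
  AddMonoidAlgebra.coeff_injective (Finsupp.ext h)

/-- differential in the direction `l` -/
noncomputable def Dd (l : Fin n) (f : XA 𝔽 n) : XA 𝔽 n := fun τ =>
  if τ l = 2 then csg τ l • (f (Function.update τ l 0) - f (Function.update τ l 1)) else 0

/-- the map used in the homotopy, depending on the type -/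
noncomputable def rt01 (b : Fin n → ℤ) (l : Fin n) (c : Fin 3) : Lau 𝔽 n →+ Lau 𝔽 n :=
  if c = 0 then rsP 𝔽 (p0 b l) else -rsP 𝔽 (p1 b l)

/-- homotopy in the direction `l` -/
noncomputable def Hh (b : Fin n → ℤ) (l : Fin n) (f : XA 𝔽 n) : XA 𝔽 n := fun τ =>
  if τ l = 2 then 0 else csg τ l • rt01 𝔽 b l (τ l) (f (Function.update τ l 2))

/-- projection in the direction `l` -/
noncomputable def Pp (b : Fin n → ℤ) (l : Fin n) (f : XA 𝔽 n) : XA 𝔽 n := fun τ =>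
  if τ l = 2 then rsP 𝔽 (pH b l) (f τ) else rsP 𝔽 (p0 b l) (f (Function.update τ l 1))

theorem Dd_apply (l : Fin n) (f : XA 𝔽 n) (τ : Fin n → Fin 3) : Dd 𝔽 l f τ =
    if τ l = 2 then csg τ l • (f (Function.update τ l 0) - f (Function.update τ l 1)) else 0 := rfl

theorem Hh_apply (b : Fin n → ℤ) (l : Fin n) (f : XA 𝔽 n) (τ : Fin n → Fin 3) :
    Hh 𝔽 b l f τ =
      if τ l = 2 then 0 else csg τ l • rt01 𝔽 b l (τ l) (f (Function.update τ l 2)) := rfl

theorem Pp_apply (b : Fin n → ℤ) (l : Fin n) (f : XA 𝔽 n) (τ : Fin n → Fin 3) :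
    Pp 𝔽 b l f τ = if τ l = 2 then rsP 𝔽 (pH b l) (f τ) else
      rsP 𝔽 (p0 b l) (f (Function.update τ l 1)) := rfl

theorem dA_eq_sum (f : XA 𝔽 n) : dA 𝔽 n f = ∑ l, Dd 𝔽 l f := by
  funext τ
  rw [dA_apply, Finset.sum_apply, Finset.sum_filter]
  rfl

theorem Hh_zero (b : Fin n → ℤ) (m : Fin n) : Hh 𝔽 b m 0 = 0 := by
  funext τ
  unfold Hh
  split_ifs
  · rfl
  · rw [Pi.zero_apply, map_zero, smul_zero]
    rfl

theorem Hh_add (b : Fin n → ℤ) (m : Fin n) (f g : XA 𝔽 n) :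
    Hh 𝔽 b m (f + g) = Hh 𝔽 b m f + Hh 𝔽 b m g := by
  funext τ
  rw [Pi.add_apply]
  unfold Hh
  split_ifs
  · rw [add_zero]
  · rw [Pi.add_apply, map_add, smul_add]

theorem Hh_sum (b : Fin n → ℤ) (m : Fin n) {κ : Type*} (t : Finset κ) (f : κ → XA 𝔽 n) :
    Hh 𝔽 b m (∑ i ∈ t, f i) = ∑ i ∈ t, Hh 𝔽 b m (f i) := by
  classical
  induction t using Finset.induction_on with
  | empty => rw [Finset.sum_empty, Finset.sum_empty, Hh_zero]
  | insert a t ha ih => rw [Finset.sum_insert ha, Finset.sum_insert ha, Hh_add, ih]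

theorem zsmul_hom (φ : Lau 𝔽 n →+ Lau 𝔽 n) (z : ℤ) (f : Lau 𝔽 n) : φ (z • f) = z • φ f :=
  map_zsmul φ z f

/-- off-diagonal terms cancel -/
theorem Dd_Hh_ne (b : Fin n → ℤ) {l m : Fin n} (hlm : m ≠ l) (f : XA 𝔽 n) :
    Dd 𝔽 l (Hh 𝔽 b m f) + Hh 𝔽 b m (Dd 𝔽 l f) = 0 := by
  funext τ
  rw [Pi.add_apply, Pi.zero_apply, Dd_apply, Hh_apply, Hh_apply, Hh_apply, Dd_apply]
  by_cases hl : τ l = 2
  · rw [if_pos hl]
    rw [Function.update_of_ne hlm, Function.update_of_ne hlm]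
    by_cases hm : τ m = 2
    · rw [if_pos hm, if_pos hm, if_pos hm, sub_zero, smul_zero, add_zero]
    · rw [if_neg hm, if_neg hm, if_neg hm, Function.update_of_ne hlm.symm, if_pos hl,
        csg_update τ hl hlm (by decide), csg_update τ hl hlm (by decide),
        csg_update2 τ hm hlm.symm, zsmul_hom, map_sub, Function.update_comm hlm,
        Function.update_comm hlm, ← smul_sub, smul_smul, smul_smul, ← add_smul]
      have h1 : csg τ l * (if l < m then -csg τ m else csg τ m) +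
          csg τ m * (if m < l then -csg τ l else csg τ l) = 0 := by
        rcases lt_or_gt_of_ne hlm with h | h
        · rw [if_neg (not_lt.mpr h.le), if_pos h]
          ring
        · rw [if_pos h, if_neg (not_lt.mpr h.le)]
          ring
      rw [h1, zero_smul]
  · rw [if_neg hl, zero_add]
    by_cases hm : τ m = 2
    · rw [if_pos hm]
    · rw [if_neg hm, Function.update_of_ne hlm.symm, if_neg hl, map_zero, smul_zero]

theorem rs_split (b : Fin n → ℤ) (l : Fin n) (f : Lau 𝔽 n) :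
    f - (rsP 𝔽 (p0 b l) f + rsP 𝔽 (p1 b l) f) = rsP 𝔽 (pH b l) f := by
  refine lau_ext 𝔽 fun m => ?_
  rw [AddMonoidAlgebra.coeff_sub, Finsupp.sub_apply, AddMonoidAlgebra.coeff_add,
    Finsupp.add_apply]
  by_cases h0 : m.1 l ≤ b l + m.2
  · rw [rsP_coeff_pos 𝔽 (p := p0 b l) f h0, rsP_coeff_neg 𝔽 (p := p1 b l) f (fun h => h.1 h0),
      rsP_coeff_neg 𝔽 (p := pH b l) f (fun h => h.1 h0), add_zero, sub_self]
  · by_cases h1 : 0 ≤ m.1 l
    · rw [rsP_coeff_neg 𝔽 (p := p0 b l) f h0, rsP_coeff_pos 𝔽 (p := p1 b l) f ⟨h0, h1⟩,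
        rsP_coeff_neg 𝔽 (p := pH b l) f (fun h => h.2 h1), zero_add, sub_self]
    · rw [rsP_coeff_neg 𝔽 (p := p0 b l) f h0, rsP_coeff_neg 𝔽 (p := p1 b l) f (fun h => h1 h.2),
        rsP_coeff_pos 𝔽 (p := pH b l) f ⟨h0, h1⟩, zero_add, sub_zero]

theorem rs_type0 {b : Fin n → ℤ} {τ : Fin n → Fin 3} {s : ℤ} {l : Fin n} {f : Lau 𝔽 n}
    (hl : τ l = 0) (hf : inBlk 𝔽 b τ s f) :
    rsP 𝔽 (p0 b l) f = f ∧ rsP 𝔽 (p1 b l) f = 0 := by
  constructor
  · refine lau_ext 𝔽 fun m => ?_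
    by_cases h : f.coeff m = 0
    · by_cases h0 : p0 b l m
      · exact rsP_coeff_pos 𝔽 f h0
      · rw [rsP_coeff_neg 𝔽 f h0, h]
    · exact rsP_coeff_pos 𝔽 f ((hf m h).2.1 l hl)
  · refine lau_ext 𝔽 fun m => ?_
    rw [AddMonoidAlgebra.coeff_zero, Finsupp.zero_apply]
    by_contra h
    obtain ⟨h1, h2⟩ := rsP_ne 𝔽 h
    exact h1.1 ((hf m h2).2.1 l hl)

theorem rs_type1 {b : Fin n → ℤ} {τ : Fin n → Fin 3} {s : ℤ} {l : Fin n} {f : Lau 𝔽 n}
    (hl : τ l = 1) (hf : inBlk 𝔽 b τ s f) :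
    f - rsP 𝔽 (p1 b l) f = rsP 𝔽 (p0 b l) f := by
  have h1 := rs_split 𝔽 b l f
  have h2 : rsP 𝔽 (pH b l) f = 0 := by
    refine lau_ext 𝔽 fun m => ?_
    rw [AddMonoidAlgebra.coeff_zero, Finsupp.zero_apply]
    by_contra h
    obtain ⟨h3, h4⟩ := rsP_ne 𝔽 h
    exact h3.2 ((hf m h4).2.2 l hl)
  rw [h2, sub_eq_zero] at h1
  nth_rw 1 [h1]
  rw [add_sub_cancel_right]

/-- diagonal terms -/
theorem Dd_Hh_self {b : Fin n → ℤ} {s : ℤ} (m : Fin n) {f : XA 𝔽 n} (hf : f ∈ FA 𝔽 b s) :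
    Dd 𝔽 m (Hh 𝔽 b m f) + Hh 𝔽 b m (Dd 𝔽 m f) = f - Pp 𝔽 b m f := by
  funext τ
  rw [Pi.add_apply, Pi.sub_apply, Dd_apply, Hh_apply, Hh_apply, Hh_apply, Dd_apply, Pp_apply]
  by_cases hm : τ m = 2
  · have e1 : Function.update τ m 2 = τ := by
      rw [← hm, Function.update_eq_self]
    rw [if_pos hm, if_pos hm, if_pos hm, add_zero, Function.update_self, Function.update_self,
      if_neg (by decide), if_neg (by decide), csg_self, csg_self, Function.update_idem,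
      Function.update_idem, e1, ← smul_sub, smul_smul, csg_sq, one_smul]
    unfold rt01
    rw [if_pos rfl, if_neg (by decide), AddMonoidHom.neg_apply, sub_neg_eq_add]
    have h1 := rs_split 𝔽 b m (f τ)
    rw [← h1, sub_sub_cancel]
  · rw [if_neg hm, if_neg hm, if_neg hm, zero_add, Function.update_self, if_pos rfl, csg_self,
      Function.update_idem, Function.update_idem, zsmul_hom, smul_smul, csg_sq, one_smul]
    rcases fin3_cases (τ m) hm with h0 | h1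
    · have e0 : Function.update τ m 0 = τ := by
        rw [← h0, Function.update_eq_self]
      rw [e0, h0, map_sub]
      unfold rt01
      rw [if_pos rfl, (rs_type0 𝔽 h0 (hf τ)).1]
    · have e1 : Function.update τ m 1 = τ := by
        rw [← h1, Function.update_eq_self]
      rw [e1, h1, map_sub]
      unfold rt01
      have h2 := (rs_type0 𝔽 (l := m) (Function.update_self m (0 : Fin 3) τ)
        (hf (Function.update τ m 0))).2
      have h3 := rs_type1 𝔽 h1 (hf τ)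
      rw [if_neg (by decide), AddMonoidHom.neg_apply, AddMonoidHom.neg_apply, h2, ← h3, neg_zero,
        zero_sub, neg_neg, sub_sub_cancel]

/-- **The homotopy formula.** -/
theorem homotopy {b : Fin n → ℤ} {s : ℤ} (m : Fin n) {f : XA 𝔽 n} (hf : f ∈ FA 𝔽 b s) :
    dA 𝔽 n (Hh 𝔽 b m f) + Hh 𝔽 b m (dA 𝔽 n f) = f - Pp 𝔽 b m f := by
  classical
  rw [dA_eq_sum, dA_eq_sum, Hh_sum, ← Finset.sum_add_distrib,
    Finset.sum_eq_single m, Dd_Hh_self 𝔽 m hf]
  · intro l _ hl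
    exact Dd_Hh_ne 𝔽 b (fun h => hl h.symm) f
  · intro h
    exact absurd (Finset.mem_univ m) h

theorem inBlk_zsmul_csg {b : Fin n → ℤ} {τ : Fin n → Fin 3} {s : ℤ} (τ' : Fin n → Fin 3)
    (l : Fin n) {f : Lau 𝔽 n} (h : inBlk 𝔽 b τ s f) : inBlk 𝔽 b τ s (csg τ' l • f) := by
  unfold csg
  rcases neg_one_pow_eq_or ℤ (Finset.univ.filter (fun m => m < l ∧ τ' m = 2)).card with h1 | h1
  · rw [h1, one_smul]
    exact h
  · rw [h1, neg_smul, one_smul]
    exact inBlk_neg 𝔽 h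

theorem Hh_F {b : Fin n → ℤ} {s : ℤ} (m : Fin n) {f : XA 𝔽 n} (hf : f ∈ FA 𝔽 b s) :
    Hh 𝔽 b m f ∈ FA 𝔽 b s := by
  intro τ
  unfold Hh
  split_ifs with hm
  · exact inBlk_zero 𝔽 b τ s
  · refine inBlk_zsmul_csg 𝔽 τ m ?_
    have h1 := hf (Function.update τ m 2)
    rcases fin3_cases (τ m) hm with h0 | h0
    · unfold rt01
      rw [if_pos h0]
      intro x hx
      obtain ⟨h2, h3⟩ := rsP_ne 𝔽 hx
      obtain ⟨a1, a2, a3⟩ := h1 x h3
      refine ⟨a1, fun l hl => ?_, fun l hl => ?_⟩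
      · by_cases hlm : l = m
        · rw [hlm]; exact h2
        · exact a2 l (by rw [Function.update_of_ne hlm]; exact hl)
      · by_cases hlm : l = m
        · rw [hlm, h0] at hl
          exact absurd hl (by decide)
        · exact a3 l (by rw [Function.update_of_ne hlm]; exact hl)
    · unfold rt01
      rw [if_neg (by rw [h0]; decide), AddMonoidHom.neg_apply]
      refine inBlk_neg 𝔽 ?_
      intro x hx
      obtain ⟨h2, h3⟩ := rsP_ne 𝔽 hx
      obtain ⟨a1, a2, a3⟩ := h1 x h3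
      refine ⟨a1, fun l hl => ?_, fun l hl => ?_⟩
      · by_cases hlm : l = m
        · rw [hlm, h0] at hl
          exact absurd hl (by decide)
        · exact a2 l (by rw [Function.update_of_ne hlm]; exact hl)
      · by_cases hlm : l = m
        · rw [hlm]; exact h2.2
        · exact a3 l (by rw [Function.update_of_ne hlm]; exact hl)

theorem Hh_gr {b : Fin n → ℤ} {k : ℤ} (m : Fin n) {f : XA 𝔽 n} (hf : f ∈ grA 𝔽 n k) :
    Hh 𝔽 b m f ∈ grA 𝔽 n (k - 1) := by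
  intro τ hτ
  unfold Hh
  split_ifs with hm
  · rfl
  · have h1 : f (Function.update τ m 2) = 0 := by
      refine hf _ fun h => hτ ?_
      have h2 := num2_update (Function.update τ m 2) (Function.update_self m (2 : Fin 3) τ) hm
      rw [Function.update_idem, Function.update_eq_self] at h2
      have h3 : (num2 τ : ℤ) + 1 = num2 (Function.update τ m 2) := by exact_mod_cast h2
      linarith
    rw [h1, map_zero, smul_zero]

/-- `f` is harmonic in the direction `m` -/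
def HarD (b : Fin n → ℤ) (m : Fin n) (f : XA 𝔽 n) : Prop :=
  (∀ τ x, (f τ).coeff x ≠ 0 → (τ m = 2 → b m + x.2 < x.1 m ∧ x.1 m < 0) ∧
    (τ m ≠ 2 → 0 ≤ x.1 m ∧ x.1 m ≤ b m + x.2)) ∧
  ∀ τ, f (Function.update τ m 0) = f (Function.update τ m 1)

theorem Pp_har {b : Fin n → ℤ} {s : ℤ} (m : Fin n) {f : XA 𝔽 n} (hf : f ∈ FA 𝔽 b s) :
    HarD 𝔽 b m (Pp 𝔽 b m f) := by
  refine ⟨fun τ x hx => ⟨fun hm => ?_, fun hm => ?_⟩, fun τ => ?_⟩
  · unfold Pp at hx
    rw [if_pos hm] at hx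
    obtain ⟨h1, -⟩ := rsP_ne 𝔽 hx
    exact ⟨not_le.mp h1.1, not_le.mp h1.2⟩
  · unfold Pp at hx
    rw [if_neg hm] at hx
    obtain ⟨h1, h2⟩ := rsP_ne 𝔽 hx
    exact ⟨(hf _ x h2).2.2 m (Function.update_self m (1 : Fin 3) τ), h1⟩
  · unfold Pp
    rw [Function.update_self, Function.update_self, if_neg (by decide), if_neg (by decide),
      Function.update_idem, Function.update_idem]

theorem Pp_har_ne {b : Fin n → ℤ} {m m' : Fin n} (hmm : m' ≠ m) {f : XA 𝔽 n}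
    (hf : HarD 𝔽 b m' f) : HarD 𝔽 b m' (Pp 𝔽 b m f) := by
  refine ⟨fun τ x hx => ?_, fun τ => ?_⟩
  · unfold Pp at hx
    split_ifs at hx with hm
    · exact hf.1 τ x (rsP_ne 𝔽 hx).2
    · have h1 := hf.1 _ x (rsP_ne 𝔽 hx).2
      rw [Function.update_of_ne hmm] at h1
      exact h1
  · unfold Pp
    rw [Function.update_of_ne hmm.symm, Function.update_of_ne hmm.symm, hf.2,
      Function.update_comm hmm, Function.update_comm hmm, hf.2]

theorem Pp_F {b : Fin n → ℤ} {s : ℤ} (m : Fin n) {f : XA 𝔽 n} (hf : f ∈ FA 𝔽 b s) :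
    Pp 𝔽 b m f ∈ FA 𝔽 b s := by
  have h1 := homotopy 𝔽 m hf
  have h2 : Pp 𝔽 b m f = f - (dA 𝔽 n (Hh 𝔽 b m f) + Hh 𝔽 b m (dA 𝔽 n f)) := by
    rw [h1, sub_sub_cancel]
  rw [h2]
  exact Submodule.sub_mem _ hf (Submodule.add_mem _ (dA_F 𝔽 b s _ (Hh_F 𝔽 m hf))
    (Hh_F 𝔽 m (dA_F 𝔽 b s f hf)))

/-- **Reduction to harmonic cochains.**  `W` is `F (s+1)` or `0`. -/
theorem exists_har {b : Fin n → ℤ} {s k : ℤ} (W : Submodule (PolyA 𝔽 n) (XA 𝔽 n))
    (hWd : ∀ f ∈ W, dA 𝔽 n f ∈ W) (hWH : ∀ m, ∀ f ∈ W, Hh 𝔽 b m f ∈ W)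
    (t : Finset (Fin n)) {x : XA 𝔽 n}
    (h1 : x ∈ grA 𝔽 n k) (h2 : x ∈ FA 𝔽 b s) (h3 : dA 𝔽 n x ∈ W) :
    ∃ y ∈ grA 𝔽 n k, y ∈ FA 𝔽 b s ∧ dA 𝔽 n y ∈ W ∧ (∀ m ∈ t, HarD 𝔽 b m y) ∧
      ∃ z ∈ grA 𝔽 n (k - 1) ⊓ FA 𝔽 b s, ∃ w ∈ grA 𝔽 n k ⊓ W, x - y = dA 𝔽 n z + w := by
  classical
  induction t using Finset.induction_on with
  | empty =>
    exact ⟨x, h1, h2, h3, fun m hm => absurd hm (Finset.notMem_empty m), 0,
      Submodule.zero_mem _, 0, Submodule.zero_mem _, by rw [sub_self, map_zero, add_zero]⟩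
  | insert a t ha ih =>
    obtain ⟨y, hy1, hy2, hy3, hy4, z, hz, w, hw, he⟩ := ih
    have hh := homotopy 𝔽 a hy2
    have hgr1 : Hh 𝔽 b a y ∈ grA 𝔽 n (k - 1) := Hh_gr 𝔽 a hy1
    have hgr2 : Hh 𝔽 b a (dA 𝔽 n y) ∈ grA 𝔽 n k := by
      have h4 := Hh_gr 𝔽 (b := b) a (dA_gr 𝔽 k y hy1)
      rwa [add_sub_cancel_right] at h4
    have hgr3 : dA 𝔽 n (Hh 𝔽 b a y) ∈ grA 𝔽 n k := by
      have h4 := dA_gr 𝔽 (k - 1) _ hgr1
      rwa [sub_add_cancel] at h4
    have hP : Pp 𝔽 b a y = y - (dA 𝔽 n (Hh 𝔽 b a y) + Hh 𝔽 b a (dA 𝔽 n y)) := by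
      rw [hh, sub_sub_cancel]
    refine ⟨Pp 𝔽 b a y, ?_, Pp_F 𝔽 a hy2, ?_, ?_, z + Hh 𝔽 b a y, ?_, w + Hh 𝔽 b a (dA 𝔽 n y),
      ?_, ?_⟩
    · rw [hP]
      exact Submodule.sub_mem _ hy1 (Submodule.add_mem _ hgr3 hgr2)
    · rw [hP, map_sub, map_add, dA_dA, zero_add]
      exact Submodule.sub_mem _ hy3 (hWd _ (hWH a _ hy3))
    · intro m hm
      rcases Finset.mem_insert.mp hm with h | h
      · rw [h]
        exact Pp_har 𝔽 a hy2
      · exact Pp_har_ne 𝔽 (fun h' => ha (by rw [← h']; exact h)) (hy4 m h)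
    · exact Submodule.add_mem _ hz ⟨hgr1, Hh_F 𝔽 a hy2⟩
    · exact Submodule.add_mem _ hw ⟨hgr2, hWH a _ hy3⟩
    · have h5 : x - Pp 𝔽 b a y = (x - y) + (y - Pp 𝔽 b a y) := by abel
      rw [h5, he, ← hh, map_add]
      abel

end Slices



section Slices

variable (𝔽 : Type w) [CommRing 𝔽] {n : ℕ}

/-- boundaries of the slice -/
noncomputable def NA (b : Fin n → ℤ) (k s : ℤ) : Submodule (PolyA 𝔽 n) (XA 𝔽 n) :=
  (grA 𝔽 n k ⊓ FA 𝔽 b (s + 1)) ⊔ (grA 𝔽 n (k - 1) ⊓ FA 𝔽 b s).map (dA 𝔽 n)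

/-- cycles of the slice -/
noncomputable def PA (b : Fin n → ℤ) (k s : ℤ) : Submodule (PolyA 𝔽 n) (XA 𝔽 n) :=
  grA 𝔽 n k ⊓ FA 𝔽 b s ⊓ (FA 𝔽 b (s + 1)).comap (dA 𝔽 n)

theorem FA_anti (b : Fin n → ℤ) {s s' : ℤ} (h : s' ≤ s) : FA 𝔽 b s ≤ FA 𝔽 b s' :=
  fun _ hf τ => inBlk_anti 𝔽 b τ s s' h (hf τ)

theorem red_univ {b : Fin n → ℤ} {s k : ℤ} {x : XA 𝔽 n} (hx : x ∈ PA 𝔽 b k s) :
    ∃ y ∈ PA 𝔽 b k s, (∀ m, HarD 𝔽 b m y) ∧ x - y ∈ NA 𝔽 b k s := by
  obtain ⟨⟨h1, h2⟩, h3⟩ := hx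
  obtain ⟨y, a1, a2, a3, a4, z, hz, w, hw, he⟩ := exists_har 𝔽 (FA 𝔽 b (s + 1))
    (fun f hf => dA_F 𝔽 b (s + 1) f hf) (fun m f hf => Hh_F 𝔽 m hf) Finset.univ h1 h2 h3
  refine ⟨y, ⟨⟨a1, a2⟩, a3⟩, fun m => a4 m (Finset.mem_univ m), ?_⟩
  rw [he, add_comm (dA 𝔽 n z) w]
  exact Submodule.add_mem_sup hw (Submodule.mem_map_of_mem hz)

/-- **exactness of `F s` in high degrees** -/
theorem exact_A {b : Fin n → ℤ} {s k : ℤ} (hk : (negc b s : ℤ) < k) {x : XA 𝔽 n}
    (h1 : x ∈ grA 𝔽 n k) (h2 : x ∈ FA 𝔽 b s) (h3 : dA 𝔽 n x = 0) :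
    x ∈ (grA 𝔽 n (k - 1) ⊓ FA 𝔽 b s).map (dA 𝔽 n) := by
  obtain ⟨y, a1, a2, a3, a4, z, hz, w, hw, he⟩ := exists_har 𝔽 (b := b) (s := s) (k := k) ⊥
    (fun f hf => by
      rw [(Submodule.mem_bot _).mp hf, map_zero]
      exact Submodule.zero_mem _)
    (fun m f hf => by
      rw [(Submodule.mem_bot _).mp hf, Hh_zero]
      exact Submodule.zero_mem _) Finset.univ h1 h2 ((Submodule.mem_bot _).mpr h3)
  have hw0 : w = 0 := (Submodule.mem_bot _).mp hw.2
  have hy0 : y = 0 := by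
    funext τ
    rw [Pi.zero_apply]
    by_cases hτ : (num2 τ : ℤ) = k
    · refine lau_ext 𝔽 fun m => ?_
      rw [AddMonoidAlgebra.coeff_zero, Finsupp.zero_apply]
      by_contra hne
      obtain ⟨l, hl1, hl2⟩ := exists_of_num2_gt (b := b) (s := s) (τ := τ) (by omega)
      obtain ⟨c1, c2⟩ := ((a4 l (Finset.mem_univ l)).1 τ m hne).1 hl1
      have c3 := (a2 τ m hne).1
      omega
    · exact a1 τ hτ
  rw [hy0, hw0, sub_zero, add_zero] at he
  rw [he]
  exact Submodule.mem_map_of_mem hz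

/-- the value of a harmonic cochain at the lowest level -/
theorem har_low {b : Fin n → ℤ} {s k : ℤ} {y : XA 𝔽 n} (h1 : y ∈ grA 𝔽 n k)
    (h4 : ∀ m, HarD 𝔽 b m y) {τ : Fin n → Fin 3} {i : Fin n → ℤ}
    (hne : (y τ).coeff (i, s) ≠ 0) :
    k = negc b s ∧ (∀ l, τ l = 2 ↔ b l + s < 0) ∧
      (∀ l, b l + s < 0 → b l + s < i l ∧ i l < 0) ∧
      (∀ l, ¬ b l + s < 0 → 0 ≤ i l ∧ i l ≤ b l + s) := by
  have hk : (num2 τ : ℤ) = k := by
    by_contra h
    rw [h1 τ h] at hne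
    exact hne rfl
  have hiff : ∀ l, τ l = 2 ↔ b l + s < 0 := by
    intro l
    constructor
    · intro hl
      obtain ⟨c1, c2⟩ := ((h4 l).1 τ _ hne).1 hl
      simp only at c1 c2
      omega
    · intro hl
      by_contra h
      obtain ⟨c1, c2⟩ := ((h4 l).1 τ _ hne).2 h
      simp only at c1 c2
      omega
  refine ⟨?_, hiff, fun l hl => ?_, fun l hl => ?_⟩
  · rw [← hk]
    unfold num2 negc
    congr 2
    ext l
    simp only [Finset.mem_filter, Finset.mem_univ, true_and]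
    exact hiff l
  · exact ((h4 l).1 τ _ hne).1 ((hiff l).mpr hl)
  · exact ((h4 l).1 τ _ hne).2 (fun h => hl ((hiff l).mp h))

/-- raising the filtration -/
theorem FA_succ {b : Fin n → ℤ} {s : ℤ} {y : XA 𝔽 n} (h2 : y ∈ FA 𝔽 b s)
    (h : ∀ τ i, (y τ).coeff (i, s) = 0) : y ∈ FA 𝔽 b (s + 1) := by
  intro τ m hm
  obtain ⟨c1, c2, c3⟩ := h2 τ m hm
  refine ⟨?_, c2, c3⟩
  rcases eq_or_lt_of_le c1 with h3 | h3
  · exfalso
    apply hm
    have := h τ m.1
    rwa [h3] at this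
  · omega

/-- **vanishing of the slices** -/
theorem slice_zero {b : Fin n → ℤ} {s k : ℤ} (hk : k ≠ negc b s) : PA 𝔽 b k s ≤ NA 𝔽 b k s := by
  intro x hx
  obtain ⟨y, hy, hH, hN⟩ := red_univ 𝔽 hx
  have h1 : y ∈ FA 𝔽 b (s + 1) := by
    refine FA_succ 𝔽 hy.1.2 fun τ i => ?_
    by_contra hne
    exact hk (har_low 𝔽 hy.1.1 hH hne).1
  have h2 : y ∈ NA 𝔽 b k s := Submodule.mem_sup_left ⟨hy.1.1, h1⟩
  have h3 := Submodule.add_mem _ hN h2
  rwa [sub_add_cancel] at h3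

/-! ### the slice in the critical degree -/

/-- the maximal ideal of `A` -/
noncomputable def mA (n : ℕ) : Ideal (PolyA 𝔽 n) := Ideal.span (Set.range MvPolynomial.X)

theorem sub_C_mem (a : PolyA 𝔽 n) :
    a - MvPolynomial.C (MvPolynomial.constantCoeff a) ∈ mA 𝔽 n := by
  induction a using MvPolynomial.induction_on with
  | C r =>
    rw [MvPolynomial.constantCoeff_C, sub_self]
    exact Ideal.zero_mem _
  | add p q hp hq =>
    rw [map_add, map_add]
    have h : p + q - (MvPolynomial.C (MvPolynomial.constantCoeff p) +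
        MvPolynomial.C (MvPolynomial.constantCoeff q)) =
        (p - MvPolynomial.C (MvPolynomial.constantCoeff p)) +
          (q - MvPolynomial.C (MvPolynomial.constantCoeff q)) := by ring
    rw [h]
    exact Ideal.add_mem _ hp hq
  | mul_X p j hp =>
    rw [map_mul, MvPolynomial.constantCoeff_X, mul_zero, map_zero, sub_zero]
    exact Ideal.mul_mem_left _ _ (Ideal.subset_span ⟨j, rfl⟩)

theorem mA_le_ker : mA 𝔽 n ≤ RingHom.ker (MvPolynomial.constantCoeff (R := 𝔽)) := by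
  unfold mA
  rw [Ideal.span_le]
  rintro _ ⟨j, rfl⟩
  exact MvPolynomial.constantCoeff_X 𝔽 j

/-- the class of a scalar -/
noncomputable def clC (n : ℕ) (r : 𝔽) : PolyA 𝔽 n ⧸ mA 𝔽 n :=
  Ideal.Quotient.mk (mA 𝔽 n) (MvPolynomial.C r)

theorem clC_eq_zero {r : 𝔽} (h : clC 𝔽 n r = 0) : r = 0 := by
  unfold clC at h
  have h1 := mA_le_ker 𝔽 (Ideal.Quotient.eq_zero_iff_mem.mp h)
  rwa [RingHom.mem_ker, MvPolynomial.constantCoeff_C] at h1

theorem clC_surj (q : PolyA 𝔽 n ⧸ mA 𝔽 n) : ∃ r, clC 𝔽 n r = q := by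
  obtain ⟨a, rfl⟩ := Ideal.Quotient.mk_surjective q
  refine ⟨MvPolynomial.constantCoeff a, ?_⟩
  unfold clC
  rw [eq_comm, Ideal.Quotient.eq]
  exact sub_C_mem 𝔽 a

theorem clC_smul (a : PolyA 𝔽 n) (r : 𝔽) :
    a • clC 𝔽 n r = clC 𝔽 n (MvPolynomial.constantCoeff a * r) := by
  unfold clC
  have h1 : a • (Ideal.Quotient.mk (mA 𝔽 n)) (MvPolynomial.C r) =
      (Ideal.Quotient.mk (mA 𝔽 n)) (a * MvPolynomial.C r) := rfl
  rw [h1, Ideal.Quotient.eq, map_mul, ← sub_mul]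
  exact Ideal.mul_mem_right _ _ (sub_C_mem 𝔽 a)

theorem toLau_C (r : 𝔽) : toLau 𝔽 n (MvPolynomial.C r) = AddMonoidAlgebra.single 0 r := by
  unfold toLau
  rw [MvPolynomial.aeval_C]
  rfl

/-- the part of positive degree -/
theorem inBlk_toLau_sub (τ : Fin n → Fin 3) (a : PolyA 𝔽 n) :
    inBlk 𝔽 0 τ 1 (toLau 𝔽 n (a - MvPolynomial.C (MvPolynomial.constantCoeff a))) := by
  have h := sub_C_mem 𝔽 a
  generalize a - MvPolynomial.C (MvPolynomial.constantCoeff a) = c at h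
  unfold mA at h
  refine Submodule.span_induction (p := fun c _ => inBlk 𝔽 0 τ 1 (toLau 𝔽 n c)) ?_ ?_ ?_ ?_ h
  · rintro _ ⟨j, rfl⟩
    have h1 : toLau 𝔽 n (MvPolynomial.X j) = elemE 𝔽 n j := by
      unfold toLau
      rw [MvPolynomial.aeval_X]
    rw [h1]
    exact inBlk_elemE 𝔽 τ j
  · rw [map_zero]
    exact inBlk_zero 𝔽 0 τ 1
  · intro x y _ _ hx hy
    rw [map_add]
    exact inBlk_add 𝔽 0 τ 1 hx hy
  · intro r x _ hx
    rw [smul_eq_mul, map_mul]
    have h2 := inBlk_mul 𝔽 0 0 τ 0 1 (inBlk_toLau 𝔽 τ r) hx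
    rwa [add_zero, zero_add] at h2

theorem coeff_single_zero_mul (r : 𝔽) (f : Lau 𝔽 n) (m : (Fin n → ℤ) × ℤ) :
    ((AddMonoidAlgebra.single 0 r : Lau 𝔽 n) * f).coeff m = r * f.coeff m := by
  exact AddMonoidAlgebra.coeff_single_zero_mul f r m

theorem coeff_low {b : Fin n → ℤ} {τ : Fin n → Fin 3} {s : ℤ} {f : Lau 𝔽 n}
    (hf : inBlk 𝔽 b τ s f) (a : PolyA 𝔽 n) (i : Fin n → ℤ) :
    (toLau 𝔽 n a * f).coeff (i, s) = MvPolynomial.constantCoeff a * f.coeff (i, s) := by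
  have h1 : toLau 𝔽 n a = toLau 𝔽 n (MvPolynomial.C (MvPolynomial.constantCoeff a)) +
      toLau 𝔽 n (a - MvPolynomial.C (MvPolynomial.constantCoeff a)) := by
    rw [← map_add, add_sub_cancel]
  rw [h1, add_mul, AddMonoidAlgebra.coeff_add, Finsupp.add_apply, toLau_C,
    coeff_single_zero_mul]
  have h2 := inBlk_mul 𝔽 0 b τ 1 s (inBlk_toLau_sub 𝔽 τ a) hf
  have h3 : (toLau 𝔽 n (a - MvPolynomial.C (MvPolynomial.constantCoeff a)) * f).coeff (i, s)
      = 0 := by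
    by_contra h
    have := (h2 _ h).1
    simp only at this
    omega
  rw [h3, add_zero]

/-- evaluation at the harmonic monomials -/
noncomputable def evA (b : Fin n → ℤ) (k s : ℤ) :
    ↥(PA 𝔽 b k s) →ₗ[PolyA 𝔽 n] (↥(hS b s) → PolyA 𝔽 n ⧸ mA 𝔽 n) where
  toFun f := fun i => clC 𝔽 n ((f.1 (τ1 b s)).coeff (i.1, s))
  map_add' := fun f g => by
    funext i
    rw [Pi.add_apply]
    show clC 𝔽 n ((f.1 (τ1 b s) + g.1 (τ1 b s)).coeff (i.1, s)) = _
    rw [AddMonoidAlgebra.coeff_add, Finsupp.add_apply]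
    unfold clC
    rw [map_add, map_add]
  map_smul' := fun a f => by
    funext i
    rw [Pi.smul_apply, RingHom.id_apply, clC_smul]
    show clC 𝔽 n ((toLau 𝔽 n a * f.1 (τ1 b s)).coeff (i.1, s)) = _
    rw [coeff_low 𝔽 (f.2.1.2 (τ1 b s))]

theorem evA_apply (b : Fin n → ℤ) (k s : ℤ) (f : ↥(PA 𝔽 b k s)) (i : ↥(hS b s)) :
    evA 𝔽 b k s f i = clC 𝔽 n ((f.1 (τ1 b s)).coeff (i.1, s)) := rfl

theorem coeff_zsmul (z : ℤ) (f : Lau 𝔽 n) (m : (Fin n → ℤ) × ℤ) :
    (z • f).coeff m = z • f.coeff m := by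
  rw [AddMonoidAlgebra.coeff_smul, Finsupp.smul_apply]

theorem coeff_sum' {κ : Type*} (t : Finset κ) (f : κ → Lau 𝔽 n) (m : (Fin n → ℤ) × ℤ) :
    (∑ i ∈ t, f i).coeff m = ∑ i ∈ t, (f i).coeff m := by
  rw [AddMonoidAlgebra.coeff_sum, Finsupp.finsetSum_apply]

/-- boundaries evaluate to zero -/
theorem ev_NA {b : Fin n → ℤ} {k s : ℤ} {x : XA 𝔽 n} (hx : x ∈ NA 𝔽 b k s) {i : Fin n → ℤ}
    (hi : i ∈ hS b s) : (x (τ1 b s)).coeff (i, s) = 0 := by
  obtain ⟨h1, h2⟩ := mem_hS.mp hi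
  unfold NA at hx
  rw [Submodule.mem_sup] at hx
  obtain ⟨y, hy, z, hz, rfl⟩ := hx
  obtain ⟨z, hz, rfl⟩ := hz
  rw [Pi.add_apply, AddMonoidAlgebra.coeff_add, Finsupp.add_apply]
  have e1 : (y (τ1 b s)).coeff (i, s) = 0 := by
    by_contra h
    have := (hy.2 _ _ h).1
    simp only at this
    omega
  have e2 : (dA 𝔽 n z (τ1 b s)).coeff (i, s) = 0 := by
    rw [dA_apply, coeff_sum']
    refine Finset.sum_eq_zero fun l hl => ?_
    have hl2 : τ1 b s l = 2 := by simpa using hl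
    have hl3 : b l + s < 0 := by
      by_contra h
      unfold τ1 at hl2
      rw [if_neg h] at hl2
      exact absurd hl2 (by decide)
    obtain ⟨c1, c2⟩ := h1 l hl3
    have e3 : (z (Function.update (τ1 b s) l 0)).coeff (i, s) = 0 := by
      by_contra h
      have := (hz.2 _ _ h).2.1 l (by rw [Function.update_self])
      simp only at this
      omega
    have e4 : (z (Function.update (τ1 b s) l 1)).coeff (i, s) = 0 := by
      by_contra h
      have := (hz.2 _ _ h).2.2 l (by rw [Function.update_self])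
      simp only at this
      omega
    rw [coeff_zsmul, AddMonoidAlgebra.coeff_sub, Finsupp.sub_apply, e3, e4, sub_zero, smul_zero]
  rw [e1, e2, add_zero]

/-- a harmonic cochain is determined by its values at `τ1` -/
theorem har_diag {b : Fin n → ℤ} {s : ℤ} {y : XA 𝔽 n} (h4 : ∀ m, HarD 𝔽 b m y)
    {τ : Fin n → Fin 3} (hτ : ∀ l, τ l = 2 ↔ b l + s < 0) : y τ = y (τ1 b s) := by
  classical
  suffices H : ∀ (t : Finset (Fin n)) (τ : Fin n → Fin 3), (∀ l, τ l = 2 ↔ b l + s < 0) →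
      (∀ l, l ∉ t → τ l = τ1 b s l) → y τ = y (τ1 b s) from
    H Finset.univ τ hτ (fun l hl => absurd (Finset.mem_univ l) hl)
  intro t
  induction t using Finset.induction_on with
  | empty =>
    intro τ _ h
    have : τ = τ1 b s := funext fun l => h l (Finset.notMem_empty l)
    rw [this]
  | insert a t ha ih =>
    intro τ hτ h
    by_cases h1 : τ a = τ1 b s a
    · refine ih τ hτ fun l hl => ?_
      by_cases h2 : l = a
      · rw [h2, h1]
      · exact h l (by simp [h2, hl])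
    · have h2 : ¬ b a + s < 0 := by
        intro h3
        apply h1
        rw [(hτ a).mpr h3]
        unfold τ1
        rw [if_pos h3]
      have h3 : τ1 b s a = 1 := by
        unfold τ1
        rw [if_neg h2]
      have h4' : τ a = 0 := by
        rcases fin3_cases (τ a) (fun h5 => h2 ((hτ a).mp h5)) with h5 | h5
        · exact h5
        · rw [h3] at h1
          exact absurd h5 h1
      have h5 : Function.update τ a 0 = τ := by rw [← h4', Function.update_eq_self]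
      have h6 := (h4 a).2 τ
      rw [h5] at h6
      rw [h6]
      refine ih _ (fun l => ?_) fun l hl => ?_
      · by_cases h7 : l = a
        · rw [h7, Function.update_self]
          simp [h2]
        · rw [Function.update_of_ne h7]
          exact hτ l
      · by_cases h7 : l = a
        · rw [h7, Function.update_self, h3]
        · rw [Function.update_of_ne h7]
          exact h l (by simp [h7, hl])

theorem ker_evA (b : Fin n → ℤ) (k s : ℤ) :
    LinearMap.ker (evA 𝔽 b k s) = (NA 𝔽 b k s).submoduleOf (PA 𝔽 b k s) := by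
  ext f
  rw [LinearMap.mem_ker]
  constructor
  · intro h
    show f.1 ∈ NA 𝔽 b k s
    obtain ⟨y, hy, hH, hN⟩ := red_univ 𝔽 f.2
    have h0 : ∀ i ∈ hS b s, (y (τ1 b s)).coeff (i, s) = 0 := by
      intro i hi
      have h1 := congrFun h ⟨i, hi⟩
      rw [evA_apply, Pi.zero_apply] at h1
      have h2 := clC_eq_zero 𝔽 h1
      have h3 := ev_NA 𝔽 hN hi
      rw [Pi.sub_apply, AddMonoidAlgebra.coeff_sub, Finsupp.sub_apply] at h3
      have h4 : (f.1 (τ1 b s)).coeff (i, s) = 0 := h2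
      rw [h4, zero_sub, neg_eq_zero] at h3
      exact h3
    have h1 : y ∈ FA 𝔽 b (s + 1) := by
      refine FA_succ 𝔽 hy.1.2 fun τ i => ?_
      by_contra hne
      obtain ⟨-, hτ, c1, c2⟩ := har_low 𝔽 hy.1.1 hH hne
      rw [har_diag 𝔽 hH hτ] at hne
      exact hne (h0 i (mem_hS.mpr ⟨c1, c2⟩))
    have h2 : y ∈ NA 𝔽 b k s := Submodule.mem_sup_left ⟨hy.1.1, h1⟩
    have h3 := Submodule.add_mem _ hN h2
    rwa [sub_add_cancel] at h3
  · intro h
    have h' : f.1 ∈ NA 𝔽 b k s := h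
    funext i
    rw [evA_apply, Pi.zero_apply, ev_NA 𝔽 h' i.2]
    unfold clC
    rw [map_zero, map_zero]

open Classical in
/-- representative of a family of scalars -/
noncomputable def repX (b : Fin n → ℤ) (s : ℤ) (g : ↥(hS b s) → 𝔽) : XA 𝔽 n := fun τ =>
  if ∀ l, τ l = 2 ↔ b l + s < 0 then
    ∑ i : ↥(hS b s), AddMonoidAlgebra.single (i.1, s) (g i) else 0

theorem repX_mem (b : Fin n → ℤ) (s : ℤ) (g : ↥(hS b s) → 𝔽) :
    repX 𝔽 b s g ∈ PA 𝔽 b (negc b s) s := by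
  classical
  have hd : dA 𝔽 n (repX 𝔽 b s g) = 0 := by
    funext τ
    rw [dA_apply, Pi.zero_apply]
    refine Finset.sum_eq_zero fun l hl => ?_
    have hl2 : τ l = 2 := by simpa using hl
    have h1 : repX 𝔽 b s g (Function.update τ l 0) = repX 𝔽 b s g (Function.update τ l 1) := by
      unfold repX
      have h2 : (∀ m, Function.update τ l 0 m = 2 ↔ b m + s < 0) ↔
          (∀ m, Function.update τ l 1 m = 2 ↔ b m + s < 0) := by
        refine forall_congr' fun m => ?_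
        by_cases hm : m = l
        · rw [hm, Function.update_self, Function.update_self]
          simp
        · rw [Function.update_of_ne hm, Function.update_of_ne hm]
      by_cases h3 : ∀ m, Function.update τ l 0 m = 2 ↔ b m + s < 0
      · rw [if_pos h3, if_pos (h2.mp h3)]
      · rw [if_neg h3, if_neg (fun h => h3 (h2.mpr h))]
    rw [h1, sub_self, smul_zero]
  refine ⟨⟨?_, ?_⟩, ?_⟩
  · intro τ hτ
    unfold repX
    rw [if_neg]
    intro h
    apply hτ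
    unfold num2 negc
    congr 2
    ext l
    simp only [Finset.mem_filter, Finset.mem_univ, true_and]
    exact h l
  · intro τ
    unfold repX
    split_ifs with h
    · refine inBlk_sum 𝔽 _ _ fun i _ => inBlk_single 𝔽 ⟨le_rfl, fun l hl => ?_, fun l hl => ?_⟩ _
      · obtain ⟨c1, c2⟩ := mem_hS.mp i.2
        have h1 : ¬ b l + s < 0 := by
          rw [← h l, hl]
          decide
        exact (c2 l h1).2
      · obtain ⟨c1, c2⟩ := mem_hS.mp i.2
        have h1 : ¬ b l + s < 0 := by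
          rw [← h l, hl]
          decide
        exact (c2 l h1).1
    · exact inBlk_zero 𝔽 b τ s
  · show dA 𝔽 n (repX 𝔽 b s g) ∈ FA 𝔽 b (s + 1)
    rw [hd]
    exact Submodule.zero_mem _

theorem evA_surj (b : Fin n → ℤ) (s : ℤ) : Function.Surjective (evA 𝔽 b (negc b s) s) := by
  classical
  intro q
  choose g hg using fun i => clC_surj 𝔽 (q i)
  refine ⟨⟨repX 𝔽 b s g, repX_mem 𝔽 b s g⟩, ?_⟩
  funext i
  rw [evA_apply, ← hg i]
  congr 1
  show (repX 𝔽 b s g (τ1 b s)).coeff (i.1, s) = g i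
  unfold repX
  rw [if_pos, coeff_sum', Finset.sum_eq_single i]
  · rw [AddMonoidAlgebra.coeff_single, Finsupp.single_eq_same]
  · intro j _ hj
    rw [AddMonoidAlgebra.coeff_single, Finsupp.single_apply, if_neg]
    intro h
    exact hj (Subtype.ext (Prod.mk.inj h).1)
  · intro h
    exact absurd (Finset.mem_univ i) h
  · intro l
    unfold τ1
    split_ifs with h
    · simp [h]
    · simp [h]

/-- **the slice in the critical degree** -/
noncomputable def sliceEquiv (b : Fin n → ℤ) (s : ℤ) :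
    (↥(PA 𝔽 b (negc b s) s) ⧸ (NA 𝔽 b (negc b s) s).submoduleOf (PA 𝔽 b (negc b s) s))
      ≃ₗ[PolyA 𝔽 n] (↥(hS b s) → PolyA 𝔽 n ⧸ mA 𝔽 n) :=
  (Submodule.quotEquivOfEq _ _ (ker_evA 𝔽 b (negc b s) s).symm).trans
    ((evA 𝔽 b (negc b s) s).quotKerEquivOfSurjective (evA_surj 𝔽 b s))

end Slices



end Vale.Agent.P202C.Gn
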