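import Mathlib

/-!
# P202C, part I: homology of pairs of submodule families

One ambient module `M` with one differential `d`; a complex is a family `A : ℤ → Submodule R M`
with `d (A m) ≤ A (m - 1)`.  For complexes `B ≤ A` the homology of `A / B` in degree `m` is
`Zc A B m / Bd A B m`, and `hl A B m` is its length.
-/

namespace Vale.Agent.P202C.HC

open Submodule

variable {R M N : Type*} [CommRing R] [AddCommGroup M] [Module R M] [AddCommGroup N] [Module R N]

/-- the length of `V / (U ⊓ V)` -/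
noncomputable def ql (U V : Submodule R M) : ℕ∞ := Module.length R (V ⧸ U.comap V.subtype)

theorem ql_eq_zero {U V : Submodule R M} : ql U V = 0 ↔ V ≤ U := by
  unfold ql
  rw [Module.length_eq_zero_iff, Submodule.Quotient.subsingleton_iff]
  constructor
  · intro h x hx
    have : (⟨x, hx⟩ : V) ∈ U.comap V.subtype := by rw [h]; trivial
    exact this
  · intro h
    ext ⟨x, hx⟩
    simp [h hx]

theorem ql_self (U : Submodule R M) : ql U U = 0 := ql_eq_zero.2 le_rfl

/-- `f(V) / (U ⊓ f(V)) = V / (f⁻¹(U) ⊓ V)` -/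
theorem ql_comap (f : M →ₗ[R] N) (U : Submodule R N) (V : Submodule R M) :
    ql (U.comap f) V = ql U (V.map f) := by
  unfold ql
  let g : V →ₗ[R] (V.map f) := (f.domRestrict V).codRestrict (V.map f) (fun x => ⟨x, x.2, rfl⟩)
  have hg : Function.Surjective g := by
    rintro ⟨y, x, hx, rfl⟩
    exact ⟨⟨x, hx⟩, rfl⟩
  have hk : LinearMap.ker ((U.comap (V.map f).subtype).mkQ ∘ₗ g) = (U.comap f).comap V.subtype := by
    ext x
    simp only [LinearMap.mem_ker, LinearMap.comp_apply, Submodule.mkQ_apply,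
      Submodule.Quotient.mk_eq_zero, mem_comap]
    exact Iff.rfl
  have hs : Function.Surjective ((U.comap (V.map f).subtype).mkQ ∘ₗ g) :=
    (Submodule.mkQ_surjective _).comp hg
  rw [← hk]
  exact (LinearMap.quotKerEquivOfSurjective _ hs).length_eq

theorem ql_sup (U V : Submodule R M) : ql U (V ⊔ U) = ql U V := by
  unfold ql
  let g : V →ₗ[R] ((V ⊔ U : Submodule R M) ⧸ U.comap (V ⊔ U).subtype) :=
    (U.comap (V ⊔ U).subtype).mkQ ∘ₗ (Submodule.inclusion le_sup_left)
  have hk : LinearMap.ker g = U.comap V.subtype := by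
    ext x
    simp [g, LinearMap.mem_ker]
  have hs : Function.Surjective g := by
    intro y
    obtain ⟨⟨y, hy⟩, rfl⟩ := Submodule.mkQ_surjective _ y
    obtain ⟨v, hv, u, hu, rfl⟩ := Submodule.mem_sup.1 hy
    refine ⟨⟨v, hv⟩, ?_⟩
    simp only [g, LinearMap.comp_apply, Submodule.mkQ_apply]
    rw [Submodule.Quotient.eq]
    simp only [Submodule.mem_comap, Submodule.subtype_apply, Submodule.coe_sub,
      Submodule.coe_inclusion]
    have : v - (v + u) = -u := by abel
    rw [this]
    exact U.neg_mem hu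
  rw [← hk]
  exact (LinearMap.quotKerEquivOfSurjective g hs).length_eq.symm

theorem ql_inf (U V : Submodule R M) : ql (U ⊓ V) V = ql U V := by
  unfold ql
  have : (U ⊓ V).comap V.subtype = U.comap V.subtype := by
    ext x; simp
  rw [this]

theorem ql_inf' {U V W : Submodule R M} (h : W ≤ V) : ql (U ⊓ V) W = ql U W := by
  unfold ql
  have : (U ⊓ V).comap W.subtype = U.comap W.subtype := by
    ext x
    simp only [mem_comap, subtype_apply, mem_inf]
    exact ⟨fun h => h.1, fun h' => ⟨h', h x.2⟩⟩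
  rw [this]

theorem ql_anti {U U' : Submodule R M} (h : U ≤ U') (V : Submodule R M) : ql U' V ≤ ql U V :=
  Module.length_le_of_surjective (Submodule.factor (Submodule.comap_mono h))
    (Submodule.factor_surjective _)

theorem ql_mono (U : Submodule R M) {V V' : Submodule R M} (h : V ≤ V') : ql U V ≤ ql U V' := by
  unfold ql
  let g : V →ₗ[R] (V' ⧸ U.comap V'.subtype) := (U.comap V'.subtype).mkQ ∘ₗ (Submodule.inclusion h)
  have hk : LinearMap.ker g = U.comap V.subtype := by
    ext x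
    simp [g, LinearMap.mem_ker]
  rw [← hk]
  exact Module.length_le_of_injective ((LinearMap.ker g).liftQ g le_rfl)
    (LinearMap.ker_eq_bot.1 (Submodule.ker_liftQ_eq_bot _ _ _ le_rfl))

theorem ql_add {U V W : Submodule R M} (h1 : U ≤ V) (h2 : V ≤ W) :
    ql U W = ql U V + ql V W := by
  unfold ql
  have hle : U.comap V.subtype ≤ (U.comap W.subtype).comap (Submodule.inclusion h2) :=
    fun x hx => hx
  refine Module.length_eq_add_of_exact
    (Submodule.mapQ (U.comap V.subtype) (U.comap W.subtype) (Submodule.inclusion h2) hle)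
    (Submodule.factor (Submodule.comap_mono h1)) ?_ (Submodule.factor_surjective _) ?_
  · rw [← LinearMap.ker_eq_bot, Submodule.ker_mapQ]
    have : (U.comap W.subtype).comap (Submodule.inclusion h2) = U.comap V.subtype := by
      ext x; simp
    rw [this]
    exact Submodule.mkQ_map_self _
  · intro z
    obtain ⟨z, rfl⟩ := Submodule.Quotient.mk_surjective _ z
    have hfac : (Submodule.factor (Submodule.comap_mono h1 (f := W.subtype)))
        (Submodule.Quotient.mk z) = 0 ↔ (z : M) ∈ V := by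
      unfold Submodule.factor
      rw [Submodule.mapQ_apply]
      exact Submodule.Quotient.mk_eq_zero _
    rw [hfac]
    constructor
    · intro hz
      exact ⟨Submodule.Quotient.mk ⟨z, hz⟩, rfl⟩
    · rintro ⟨c, hc⟩
      obtain ⟨c, rfl⟩ := Submodule.Quotient.mk_surjective _ c
      rw [Submodule.mapQ_apply] at hc
      have h3 := (Submodule.Quotient.eq _).1 hc
      have h4 : ((Submodule.inclusion h2 c : W) : M) - (z : M) ∈ U := h3
      have h5 : (z : M) = (c : M) - (((Submodule.inclusion h2 c : W) : M) - (z : M)) := by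
        simp
      rw [h5]
      exact V.sub_mem c.2 (h1 h4)

/-! ## complexes -/

variable (d : M →ₗ[R] M)

/-- a complex inside `(M, d)` -/
def IsCx (A : ℤ → Submodule R M) : Prop := ∀ m, (A m).map d ≤ A (m - 1)

/-- cycles of `A` modulo `B` -/
def Zc (A B : ℤ → Submodule R M) (m : ℤ) : Submodule R M := A m ⊓ (B (m - 1)).comap d

/-- boundaries of `A` modulo `B` -/
def Bd (A B : ℤ → Submodule R M) (m : ℤ) : Submodule R M := B m ⊔ (A (m + 1)).map d

/-- the length of the homology of `A / B` in degree `m` -/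
noncomputable def hl (A B : ℤ → Submodule R M) (m : ℤ) : ℕ∞ := ql (Bd d A B m) (Zc d A B m)

variable {d} {A B C : ℤ → Submodule R M}

theorem IsCx.mem (hA : IsCx d A) {m : ℤ} {x : M} (hx : x ∈ A m) : d x ∈ A (m - 1) :=
  hA m ⟨x, hx, rfl⟩

theorem IsCx.mem' (hA : IsCx d A) {m : ℤ} {x : M} (hx : x ∈ A (m + 1)) : d x ∈ A m := by
  have := hA.mem hx
  rwa [add_sub_cancel_right] at this

theorem Bd_le_Zc (hd : ∀ x, d (d x) = 0) (hA : IsCx d A) (hB : IsCx d B) (hBA : B ≤ A) (m : ℤ) :
    Bd d A B m ≤ Zc d A B m := by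
  refine sup_le (le_inf (hBA m) (fun x hx => hB.mem hx)) ?_
  rintro _ ⟨x, hx, rfl⟩
  refine ⟨hA.mem' hx, ?_⟩
  simp only [comap_coe, Set.mem_preimage, hd]
  exact (B (m - 1)).zero_mem

/-- the length of the image of `H_m(B/C) → H_m(A/C)` -/
noncomputable def al (d : M →ₗ[R] M) (A B C : ℤ → Submodule R M) (m : ℤ) : ℕ∞ :=
  ql (Bd d A C m) (Zc d B C m)

/-- the length of the image of `H_m(A/C) → H_m(A/B)` -/
noncomputable def be (d : M →ₗ[R] M) (A B C : ℤ → Submodule R M) (m : ℤ) : ℕ∞ :=
  ql (Bd d A B m) (Zc d A C m)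

/-- the length of the image of `H_{m+1}(A/B) → H_m(B/C)` -/
noncomputable def ga (d : M →ₗ[R] M) (A B C : ℤ → Submodule R M) (m : ℤ) : ℕ∞ :=
  ql (Bd d B C m) ((Zc d A B (m + 1)).map d)

section LES

set_option linter.unusedSectionVars false

variable (hd : ∀ x, d (d x) = 0) (hA : IsCx d A) (hB : IsCx d B) (hC : IsCx d C)
  (hBA : B ≤ A) (hCB : C ≤ B)

include hd hA hB hC hBA hCB

theorem hl_AC (m : ℤ) : hl d A C m = al d A B C m + be d A B C m := by
  have hCA : C ≤ A := hCB.trans hBA
  have hBZ : Bd d A C m ≤ Zc d A C m := Bd_le_Zc hd hA hC hCA m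
  have h1 : Bd d A C m ≤ Zc d B C m ⊔ Bd d A C m := le_sup_right
  have hZBA : Zc d B C m ≤ Zc d A C m := inf_le_inf_right _ (hBA m)
  have h2 : Zc d B C m ⊔ Bd d A C m ≤ Zc d A C m := sup_le hZBA hBZ
  unfold hl al be
  rw [ql_add h1 h2, ql_sup]
  congr 1
  have h3 : Zc d B C m ⊔ Bd d A C m = Bd d A B m ⊓ Zc d A C m := by
    apply le_antisymm
    · refine sup_le (le_inf ?_ hZBA) (le_inf ?_ hBZ)
      · exact (inf_le_left).trans le_sup_left
      · exact sup_le_sup_right (hCB m) _
    · rintro x ⟨hx1, hx2⟩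
      obtain ⟨b, hb, y, hy, rfl⟩ := Submodule.mem_sup.1 hx1
      refine Submodule.mem_sup.2 ⟨b, ⟨hb, ?_⟩, y, Submodule.mem_sup_right hy, rfl⟩
      have h4 : d (b + y) ∈ C (m - 1) := hx2.2
      obtain ⟨z, -, rfl⟩ := hy
      rw [map_add, hd, add_zero] at h4
      exact h4
  rw [h3, ql_inf]

theorem hl_BC (m : ℤ) : hl d B C m = ga d A B C m + al d A B C m := by
  have hCA : C ≤ A := hCB.trans hBA
  have hBZ : Bd d B C m ≤ Zc d B C m := Bd_le_Zc hd hB hC hCB m
  have hZ : (Zc d A B (m + 1)).map d ≤ Zc d B C m := by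
    rintro _ ⟨x, hx, rfl⟩
    refine ⟨?_, ?_⟩
    · have := hx.2
      simp only [comap_coe, Set.mem_preimage, add_sub_cancel_right] at this
      exact this
    · simp only [comap_coe, Set.mem_preimage, hd]
      exact (C (m - 1)).zero_mem
  have h1 : Bd d B C m ≤ (Zc d A B (m + 1)).map d ⊔ Bd d B C m := le_sup_right
  have h2 : (Zc d A B (m + 1)).map d ⊔ Bd d B C m ≤ Zc d B C m := sup_le hZ hBZ
  unfold hl al ga
  rw [ql_add h1 h2, ql_sup]
  congr 1
  have h3 : (Zc d A B (m + 1)).map d ⊔ Bd d B C m = Bd d A C m ⊓ Zc d B C m := by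
    apply le_antisymm
    · refine sup_le (le_inf ?_ hZ) (le_inf ?_ hBZ)
      · exact (Submodule.map_mono inf_le_left).trans le_sup_right
      · exact sup_le_sup_left (Submodule.map_mono (hBA _)) _
    · rintro x ⟨hx1, hx2⟩
      obtain ⟨c, hc, y, hy, rfl⟩ := Submodule.mem_sup.1 hx1
      obtain ⟨z, hz, rfl⟩ := hy
      have h4 : c + d z ∈ B m := hx2.1
      have h5 : d z ∈ B m := by
        have := (B m).sub_mem h4 (hCB m hc)
        rwa [add_sub_cancel_left] at this
      rw [add_comm c (d z)]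
      refine Submodule.add_mem_sup ⟨z, ⟨hz, ?_⟩, rfl⟩ (Submodule.mem_sup_left hc)
      simp only [comap_coe, Set.mem_preimage, add_sub_cancel_right]
      exact h5
  rw [h3, ql_inf]

theorem hl_AB (m : ℤ) : hl d A B m = be d A B C m + ga d A B C (m - 1) := by
  have hCA : C ≤ A := hCB.trans hBA
  have hBZ : Bd d A B m ≤ Zc d A B m := Bd_le_Zc hd hA hB hBA m
  have hZ : Zc d A C m ≤ Zc d A B m := inf_le_inf_left _ (Submodule.comap_mono (hCB _))
  have h1 : Bd d A B m ≤ Zc d A C m ⊔ Bd d A B m := le_sup_right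
  have h2 : Zc d A C m ⊔ Bd d A B m ≤ Zc d A B m := sup_le hZ hBZ
  unfold hl be ga
  rw [ql_add h1 h2, ql_sup]
  congr 1
  rw [sub_add_cancel, ← ql_comap]
  have h3 : Zc d A C m ⊔ Bd d A B m = (Bd d B C (m - 1)).comap d ⊓ Zc d A B m := by
    apply le_antisymm
    · refine sup_le (le_inf ?_ hZ) (le_inf ?_ hBZ)
      · intro x hx
        exact Submodule.mem_sup_left hx.2
      · refine sup_le ?_ ?_
        · intro x hx
          refine Submodule.mem_sup_right ⟨x, ?_, rfl⟩
          rw [sub_add_cancel]; exact hx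
        · rintro _ ⟨x, hx, rfl⟩
          simp only [mem_comap, hd]
          exact Submodule.zero_mem _
    · rintro x ⟨hx1, hx2⟩
      obtain ⟨c, hc, y, hy, h5⟩ := Submodule.mem_sup.1 hx1
      obtain ⟨z, hz, rfl⟩ := hy
      rw [sub_add_cancel] at hz
      refine Submodule.mem_sup.2 ⟨x - z, ⟨(A m).sub_mem hx2.1 (hBA m hz), ?_⟩, z,
        Submodule.mem_sup_left hz, sub_add_cancel _ _⟩
      simp only [comap_coe, Set.mem_preimage, map_sub]
      rw [← h5, add_sub_cancel_right]
      exact hc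
  rw [h3, ql_inf]

theorem hl_AC_le (m : ℤ) : hl d A C m ≤ hl d B C m + hl d A B m := by
  rw [hl_AC hd hA hB hC hBA hCB, hl_BC hd hA hB hC hBA hCB, hl_AB hd hA hB hC hBA hCB]
  exact add_le_add le_add_self le_self_add

theorem hl_AB_le (m : ℤ) : hl d A B m ≤ hl d A C m + hl d B C (m - 1) := by
  rw [hl_AC hd hA hB hC hBA hCB, hl_BC hd hA hB hC hBA hCB, hl_AB hd hA hB hC hBA hCB]
  exact add_le_add le_add_self le_self_add

theorem hl_BC_le (m : ℤ) : hl d B C m ≤ hl d A C m + hl d A B (m + 1) := by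
  rw [hl_AC hd hA hB hC hBA hCB, hl_BC hd hA hB hC hBA hCB, hl_AB hd hA hB hC hBA hCB,
    add_sub_cancel_right, add_comm]
  exact add_le_add le_self_add le_add_self

/-- if `H_m(B/C) → H_m(A/C)` is zero -/
theorem hl_BC_le_of_zero (m : ℤ) (h0 : Zc d B C m ≤ Bd d A C m) :
    hl d B C m ≤ hl d A B (m + 1) := by
  have h1 : al d A B C m = 0 := ql_eq_zero.2 h0
  rw [hl_BC hd hA hB hC hBA hCB, hl_AB hd hA hB hC hBA hCB, h1, add_sub_cancel_right, add_zero]
  exact le_add_self

end LES

end Vale.Agent.P202C.HC
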