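import Vale.Agent.P202C.Hom

/-!
# P202C, part I (continued): Euler characteristics, positions, the abstract main inequality
-/

namespace Vale.Agent.P202C.HC

open Submodule Finset

variable {R M : Type*} [CommRing R] [AddCommGroup M] [Module R M]

/-! ## Euler characteristics -/

/-- the sign -/
def sg (m : ℤ) : ℤ := if Even m then 1 else -1

theorem sg_sq (m : ℤ) : sg m * sg m = 1 := by unfold sg; split_ifs <;> norm_num

theorem sg_succ (m : ℤ) : sg (m + 1) = - sg m := by
  unfold sg
  by_cases h : Even m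
  · have : ¬ Even (m + 1) := by rw [Int.even_add_one]; simpa using h
    simp [h, this]
  · have : Even (m + 1) := by rw [Int.even_add_one]; exact h
    simp [h, this]

/-- alternating sum over a window -/
noncomputable def ch (w : ℕ) (h : ℤ → ℕ∞) : ℤ := ∑ m ∈ Finset.Icc (-(w : ℤ)) w, sg m * ((h m).toNat : ℤ)

/-- finite and supported in the window -/
structure FW (w : ℕ) (h : ℤ → ℕ∞) : Prop where
  fin : ∀ m, h m ≠ ⊤
  supp : ∀ m, (m < -(w : ℤ) ∨ (w : ℤ) < m) → h m = 0

theorem sum_sg_shift (w : ℕ) (g : ℤ → ℤ) :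
    ∑ m ∈ Finset.Icc (-(w : ℤ)) w, sg m * (g m + g (m - 1)) =
      sg w * g w + sg w * g (-(w : ℤ) - 1) := by
  have key : ∀ k : ℕ, ∑ m ∈ Finset.Ico (-(w : ℤ)) (-(w : ℤ) + k), sg m * (g m + g (m - 1)) =
      sg w * g (-(w : ℤ) - 1) - sg (-(w : ℤ) + k) * g (-(w : ℤ) + k - 1) := by
    intro k
    induction k with
    | zero =>
      have h1 : sg (-(w : ℤ)) = sg w := by
        unfold sg
        simp
      simp [h1]
    | succ k ih =>
      have h2 : Finset.Ico (-(w : ℤ)) (-(w : ℤ) + (k + 1 : ℕ)) =
          insert (-(w : ℤ) + k) (Finset.Ico (-(w : ℤ)) (-(w : ℤ) + k)) := by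
        ext x
        simp only [Finset.mem_Ico, Finset.mem_insert]
        push_cast
        omega
      rw [h2, Finset.sum_insert (by simp), ih]
      have h3 : -(w : ℤ) + ((k + 1 : ℕ) : ℤ) = -(w : ℤ) + k + 1 := by push_cast; ring
      rw [h3, sg_succ, add_sub_cancel_right]
      ring
  have h4 := key (2 * w + 1)
  have h5 : Finset.Icc (-(w : ℤ)) w = Finset.Ico (-(w : ℤ)) (-(w : ℤ) + (2 * w + 1 : ℕ)) := by
    ext x
    simp only [Finset.mem_Ico, Finset.mem_Icc]
    push_cast
    omega
  rw [h5, h4]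
  have h6 : -(w : ℤ) + ((2 * w + 1 : ℕ) : ℤ) = w + 1 := by push_cast; ring
  rw [h6, sg_succ, add_sub_cancel_right]
  ring

theorem toNat_add' {a b : ℕ∞} (ha : a ≠ ⊤) (hb : b ≠ ⊤) :
    ((a + b).toNat : ℤ) = (a.toNat : ℤ) + (b.toNat : ℤ) := by
  lift a to ℕ using ha
  lift b to ℕ using hb
  norm_cast

variable {d : M →ₗ[R] M} {A B C : ℤ → Submodule R M}

section Chi

variable (hd : ∀ x, d (d x) = 0) (hA : IsCx d A) (hB : IsCx d B) (hC : IsCx d C)
  (hBA : B ≤ A) (hCB : C ≤ B)

include hd hA hB hC hBA hCB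

theorem FW_AC {w : ℕ} (h1 : FW w (hl d A B)) (h2 : FW w (hl d B C)) : FW w (hl d A C) := by
  refine ⟨fun m => ?_, fun m hm => ?_⟩
  · refine ne_top_of_le_ne_top ?_ (hl_AC_le hd hA hB hC hBA hCB m)
    exact WithTop.add_ne_top.2 ⟨h2.fin m, h1.fin m⟩
  · have := hl_AC_le hd hA hB hC hBA hCB m
    rw [h1.supp m hm, h2.supp m hm, add_zero] at this
    exact le_antisymm this zero_le

theorem chi_add {w : ℕ} (h1 : FW w (hl d A B)) (h2 : FW w (hl d B C)) :
    ch w (hl d A C) = ch w (hl d A B) + ch w (hl d B C) := by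
  have eAC := hl_AC hd hA hB hC hBA hCB
  have eBC := hl_BC hd hA hB hC hBA hCB
  have eAB := hl_AB hd hA hB hC hBA hCB
  have ga_ne : ∀ m, ga d A B C m ≠ ⊤ := fun m =>
    ne_top_of_le_ne_top (h2.fin m) (by rw [eBC]; exact le_self_add)
  have al_ne : ∀ m, al d A B C m ≠ ⊤ := fun m =>
    ne_top_of_le_ne_top (h2.fin m) (by rw [eBC]; exact le_add_self)
  have be_ne : ∀ m, be d A B C m ≠ ⊤ := fun m =>
    ne_top_of_le_ne_top (h1.fin m) (by rw [eAB]; exact le_self_add)
  have g1 : ga d A B C w = 0 := by
    have h3 := h1.supp (w + 1) (Or.inr (by omega))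
    rw [eAB, add_sub_cancel_right] at h3
    exact (add_eq_zero.1 h3).2
  have g2 : ga d A B C (-(w : ℤ) - 1) = 0 := by
    have h3 := h2.supp (-(w : ℤ) - 1) (Or.inl (by omega))
    rw [eBC] at h3
    exact (add_eq_zero.1 h3).1
  unfold ch
  have e1 : ∀ m, ((hl d A C m).toNat : ℤ) = (al d A B C m).toNat + (be d A B C m).toNat :=
    fun m => by rw [eAC, toNat_add' (al_ne m) (be_ne m)]
  have e2 : ∀ m, ((hl d B C m).toNat : ℤ) = (ga d A B C m).toNat + (al d A B C m).toNat :=
    fun m => by rw [eBC, toNat_add' (ga_ne m) (al_ne m)]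
  have e3 : ∀ m, ((hl d A B m).toNat : ℤ) = (be d A B C m).toNat + (ga d A B C (m - 1)).toNat :=
    fun m => by rw [eAB, toNat_add' (be_ne m) (ga_ne _)]
  have h4 := sum_sg_shift w (fun m => ((ga d A B C m).toNat : ℤ))
  rw [g1, g2] at h4
  simp only [ENat.toNat_zero, Nat.cast_zero, mul_zero, add_zero] at h4
  have h5 : ∑ m ∈ Finset.Icc (-(w : ℤ)) w, sg m * ((hl d A B m).toNat : ℤ) +
      ∑ m ∈ Finset.Icc (-(w : ℤ)) w, sg m * ((hl d B C m).toNat : ℤ) =
      ∑ m ∈ Finset.Icc (-(w : ℤ)) w, sg m * ((hl d A C m).toNat : ℤ) +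
      ∑ m ∈ Finset.Icc (-(w : ℤ)) w, sg m * (((ga d A B C m).toNat : ℤ) +
        ((ga d A B C (m - 1)).toNat : ℤ)) := by
    rw [← Finset.sum_add_distrib, ← Finset.sum_add_distrib]
    refine Finset.sum_congr rfl fun m _ => ?_
    rw [e1, e2, e3]
    ring
  rw [h5, h4, add_zero]

end Chi

/-! ## positions -/

/-- admissible positions -/
def Va (D : ℕ) (Q : ℤ) (a : ℕ → ℤ) : Prop := ∀ i, i + 1 ≤ D → a i ≤ a (i + 1) + Q

theorem pos_induction (D : ℕ) (Q : ℤ) (b : ℕ → ℤ) (hb : Va D Q b) {P : (ℕ → ℤ) → Prop}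
    (h0 : P b)
    (h1 : ∀ (a : ℕ → ℤ) (i : ℕ), i ≤ D → Va D Q a → Va D Q (Function.update a i (a i + 1)) →
      Function.update a i (a i + 1) ≤ b → (∀ j, D < j → a j = b j) →
      P (Function.update a i (a i + 1)) → P a) :
    ∀ a : ℕ → ℤ, Va D Q a → a ≤ b → (∀ j, D < j → a j = b j) → P a := by
  have key : ∀ N : ℕ, ∀ a : ℕ → ℤ, Va D Q a → a ≤ b → (∀ j, D < j → a j = b j) →
      (∑ i ∈ range (D + 1), (b i - a i).toNat) = N → P a := by
    intro N
    induction N with
    | zero =>
      intro a ha hab hD hs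
      have : a = b := by
        funext i
        by_cases hi : D < i
        · exact hD i hi
        · have h2 := (Finset.sum_eq_zero_iff.1 hs) i (Finset.mem_range.2 (by omega))
          have h3 : a i ≤ b i := hab i
          omega
      rw [this]; exact h0
    | succ N ih =>
      intro a ha hab hD hs
      have hne : ((range (D + 1)).filter fun i => a i < b i).Nonempty := by
        by_contra hcon
        rw [Finset.not_nonempty_iff_eq_empty] at hcon
        have : ∑ i ∈ range (D + 1), (b i - a i).toNat = 0 := by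
          refine Finset.sum_eq_zero fun i hi => ?_
          have h2 : i ∉ (range (D + 1)).filter fun i => a i < b i := by rw [hcon]; simp
          have h3 : ¬ a i < b i := fun h => h2 (Finset.mem_filter.2 ⟨hi, h⟩)
          omega
        omega
      obtain ⟨i, hi⟩ : ∃ i, i ∈ ((range (D + 1)).filter fun i => a i < b i) ∧
          ∀ j ∈ ((range (D + 1)).filter fun i => a i < b i), j ≤ i :=
        ⟨_, Finset.max'_mem _ hne, fun j hj => Finset.le_max' _ j hj⟩
      obtain ⟨hi, hmax⟩ := hi
      simp only [Finset.mem_filter, Finset.mem_range] at hi hmax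
      obtain ⟨hiD, hlt⟩ := hi
      have hub : Function.update a i (a i + 1) ≤ b := by
        intro j
        by_cases hj : j = i
        · subst hj
          simp only [Function.update_self]
          omega
        · rw [Function.update_of_ne hj]
          exact hab j
      have hua : Va D Q (Function.update a i (a i + 1)) := by
        intro j hj
        by_cases h1 : j = i
        · subst h1
          rw [Function.update_self, Function.update_of_ne (by omega)]
          have h3 : b (j + 1) = a (j + 1) := by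
            by_contra hcon
            have := hmax (j + 1) ⟨by omega, lt_of_le_of_ne (hab _) (fun h => hcon h.symm)⟩
            omega
          have := hb j hj
          omega
        · rw [Function.update_of_ne h1]
          by_cases h2 : j + 1 = i
          · rw [← h2, Function.update_self]
            have := ha j hj
            omega
          · rw [Function.update_of_ne h2]
            exact ha j hj
      refine h1 a i (by omega) ha hua hub hD (ih _ hua hub ?_ ?_)
      · intro j hj
        rw [Function.update_of_ne (by omega)]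
        exact hD j hj
      · have h3 : ∑ j ∈ range (D + 1), (b j - a j).toNat =
            ∑ j ∈ range (D + 1), ((b j - Function.update a i (a i + 1) j).toNat +
              if j = i then 1 else 0) := by
          refine Finset.sum_congr rfl fun j _ => ?_
          by_cases hj : j = i
          · subst hj
            rw [Function.update_self, if_pos rfl]
            omega
          · rw [Function.update_of_ne hj, if_neg hj, add_zero]
        rw [Finset.sum_add_distrib, Finset.sum_ite_eq', if_pos (Finset.mem_range.2 hiD)] at h3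
        omega
  intro a ha hab hD
  exact key _ a ha hab hD rfl

/-- the sum over a path -/
theorem path_sum {α : Type*} [AddCommMonoid α] (D : ℕ) (f : ℕ → ℤ → α) (a b : ℕ → ℤ) (i : ℕ)
    (hi : i ≤ D) (h : Function.update a i (a i + 1) ≤ b) :
    ∑ j ∈ range (D + 1), ∑ s ∈ Finset.Ico (a j) (b j), f j s = f i (a i) +
      ∑ j ∈ range (D + 1), ∑ s ∈ Finset.Ico (Function.update a i (a i + 1) j) (b j), f j s := by
  have hib : a i < b i := by
    have := h i
    simp only [Function.update_self] at this
    omega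
  have h3 : ∑ j ∈ range (D + 1), ∑ s ∈ Finset.Ico (a j) (b j), f j s =
      ∑ j ∈ range (D + 1), ((if j = i then f i (a i) else 0) +
        ∑ s ∈ Finset.Ico (Function.update a i (a i + 1) j) (b j), f j s) := by
    refine Finset.sum_congr rfl fun j _ => ?_
    by_cases hj : j = i
    · subst hj
      rw [Function.update_self, if_pos rfl]
      have : Finset.Ico (a j) (b j) = insert (a j) (Finset.Ico (a j + 1) (b j)) := by
        ext x
        simp only [Finset.mem_Ico, Finset.mem_insert]
        omega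
      rw [this, Finset.sum_insert (by simp)]
    · rw [Function.update_of_ne hj, if_neg hj, zero_add]
  rw [h3, Finset.sum_add_distrib, Finset.sum_ite_eq', if_pos (Finset.mem_range.2 (by omega))]

/-- Twisted complexes inside `(M, d)`: `T a m` is the part of total degree `m` of
`{G_i ⊗ L_{a i}}_i`, `st i s m` is the length of the homology in degree `m` of the slice
`G_i ⊗ (L_s / L_{s+1})`. -/
structure Tw (d : M →ₗ[R] M) (D : ℕ) (Q : ℤ) (T : (ℕ → ℤ) → ℤ → Submodule R M)
    (st : ℕ → ℤ → ℤ → ℕ∞) : Prop where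
  dd : ∀ x, d (d x) = 0
  anti : ∀ a b : ℕ → ℤ, a ≤ b → T b ≤ T a
  cx : ∀ a, Va D Q a → IsCx d (T a)
  step : ∀ (a : ℕ → ℤ) (i : ℕ), i ≤ D → Va D Q a → Va D Q (Function.update a i (a i + 1)) →
    ∀ m, hl d (T a) (T (Function.update a i (a i + 1))) m = st i (a i) m

theorem IsCx_bot : IsCx d (fun _ => (⊥ : Submodule R M)) := by
  intro m
  rw [Submodule.map_bot]

variable {D : ℕ} {Q : ℤ} {T : (ℕ → ℤ) → ℤ → Submodule R M} {st : ℕ → ℤ → ℤ → ℕ∞}

/-- slices, inequality -/
theorem Tw.hl_le (h : Tw d D Q T st) {a b : ℕ → ℤ} (ha : Va D Q a) (hb : Va D Q b) (hab : a ≤ b)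
    (hD : ∀ j, D < j → a j = b j) (m : ℤ) :
    hl d (T a) (T b) m ≤ ∑ i ∈ range (D + 1), ∑ s ∈ Finset.Ico (a i) (b i), st i s m := by
  refine pos_induction D Q b hb (P := fun a => hl d (T a) (T b) m ≤
    ∑ i ∈ range (D + 1), ∑ s ∈ Finset.Ico (a i) (b i), st i s m) ?_ ?_ a ha hab hD
  · have : hl d (T b) (T b) m = 0 := by
      refine ql_eq_zero.2 ?_
      exact inf_le_left.trans le_sup_left
    rw [this]
    exact zero_le
  · intro a i hi ha hua hub hD ih
    have hau : a ≤ Function.update a i (a i + 1) := by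
      intro j
      by_cases hj : j = i
      · subst hj; simp
      · rw [Function.update_of_ne hj]
    rw [path_sum D (fun i s => st i s m) a b i hi hub]
    refine (hl_AC_le h.dd (h.cx _ ha) (h.cx _ hua) (h.cx _ hb) (h.anti _ _ hau) (h.anti _ _ hub)
      m).trans ?_
    rw [h.step a i hi ha hua, add_comm]
    exact add_le_add_right ih _

/-- slices, Euler characteristic -/
theorem Tw.chi_eq (h : Tw d D Q T st) {w : ℕ} (hst : ∀ i, i ≤ D → ∀ s, FW w (st i s))
    {a b : ℕ → ℤ} (ha : Va D Q a) (hb : Va D Q b) (hab : a ≤ b)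
    (hD : ∀ j, D < j → a j = b j) :
    FW w (hl d (T a) (T b)) ∧ ch w (hl d (T a) (T b)) =
      ∑ i ∈ range (D + 1), ∑ s ∈ Finset.Ico (a i) (b i), ch w (st i s) := by
  refine pos_induction D Q b hb (P := fun a => FW w (hl d (T a) (T b)) ∧
    ch w (hl d (T a) (T b)) =
      ∑ i ∈ range (D + 1), ∑ s ∈ Finset.Ico (a i) (b i), ch w (st i s)) ?_ ?_ a ha hab hD
  · have : ∀ m, hl d (T b) (T b) m = 0 := fun m => by
      refine ql_eq_zero.2 ?_
      exact inf_le_left.trans le_sup_left
    refine ⟨⟨fun m => by rw [this]; simp, fun m _ => this m⟩, ?_⟩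
    unfold ch
    simp [this]
  · intro a i hi ha hua hub hD ih
    have hau : a ≤ Function.update a i (a i + 1) := by
      intro j
      by_cases hj : j = i
      · subst hj; simp
      · rw [Function.update_of_ne hj]
    have h1 : hl d (T a) (T (Function.update a i (a i + 1))) = st i (a i) := by
      funext m
      exact h.step a i hi ha hua m
    have hF : FW w (hl d (T a) (T (Function.update a i (a i + 1)))) := by
      rw [h1]; exact hst i hi _
    refine ⟨FW_AC h.dd (h.cx _ ha) (h.cx _ hua) (h.cx _ hb) (h.anti _ _ hau) (h.anti _ _ hub)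
      hF ih.1, ?_⟩
    rw [path_sum D (fun i s => ch w (st i s)) a b i hi hub,
      chi_add h.dd (h.cx _ ha) (h.cx _ hua) (h.cx _ hb) (h.anti _ _ hau) (h.anti _ _ hub) hF ih.1,
      h1, ih.2]

end Vale.Agent.P202C.HC
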