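import Mathlib

/-!
P202 in characteristic p, sections (V)+(VI), module W3: two finite length lemmas over local rings.
-/

set_option autoImplicit false

namespace Vale.Agent.P202C.SA

open IsLocalRing

universe u v

/-- a finitely generated module killed by the maximal ideal has finite length -/
theorem W3_base {R : Type u} [CommRing R] [IsLocalRing R]
    {M : Type v} [AddCommGroup M] [Module R M] [Module.Finite R M]
    (h : ∀ r ∈ maximalIdeal R, ∀ x : M, r • x = 0) : Module.length R M ≠ ⊤ := by
  have hs : IsSimpleModule R (R ⧸ maximalIdeal R) := by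
    rw [isSimpleModule_iff_isCoatom]
    exact (maximalIdeal.isMaximal R).out
  obtain ⟨n, x, hx⟩ := Module.Finite.exists_fin (R := R) (M := M)
  have hl : ∀ i : Fin n, maximalIdeal R ≤ LinearMap.ker (LinearMap.toSpanSingleton R M (x i)) := by
    intro i r hr
    rw [LinearMap.mem_ker, LinearMap.toSpanSingleton_apply]
    exact h r hr (x i)
  let g : (Fin n → R ⧸ maximalIdeal R) →ₗ[R] M :=
    ∑ i : Fin n, (Submodule.liftQ (maximalIdeal R) (LinearMap.toSpanSingleton R M (x i)) (hl i)).comp
      (LinearMap.proj i)
  have hg : Function.Surjective g := by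
    rw [← LinearMap.range_eq_top, eq_top_iff, ← hx, Submodule.span_le]
    rintro _ ⟨i, rfl⟩
    refine ⟨Pi.single i (Submodule.Quotient.mk 1), ?_⟩
    simp only [g, LinearMap.sum_apply, LinearMap.comp_apply, LinearMap.proj_apply]
    rw [Finset.sum_eq_single i]
    · rw [Pi.single_eq_same, Submodule.liftQ_apply, LinearMap.toSpanSingleton_apply, one_smul]
    · intro j _ hj
      rw [Pi.single_eq_of_ne hj, map_zero]
    · intro hi
      exact absurd (Finset.mem_univ i) hi
  rw [Module.length_ne_top_iff, isFiniteLength_iff_isNoetherian_isArtinian]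
  exact ⟨isNoetherian_of_surjective g (LinearMap.range_eq_top.2 hg),
    isArtinian_of_surjective _ g hg⟩

theorem length_ne_top_of_pow {R : Type u} [CommRing R] [IsLocalRing R] [IsNoetherianRing R]
    {M : Type v} [AddCommGroup M] [Module R M] [Module.Finite R M] (N : ℕ)
    (h : ∀ r ∈ maximalIdeal R ^ N, ∀ x : M, r • x = 0) : Module.length R M ≠ ⊤ := by
  induction N generalizing M with
  | zero =>
    have : Subsingleton M := by
      refine ⟨fun a b => ?_⟩
      have h1 : ∀ x : M, x = 0 := by
        intro x
        have := h 1 (by rw [pow_zero, Ideal.one_eq_top]; trivial) x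
        rwa [one_smul] at this
      rw [h1 a, h1 b]
    rw [Module.length_eq_zero]
    exact ENat.zero_ne_top
  | succ N ih =>
    have h1 : Module.length R (maximalIdeal R ^ N • (⊤ : Submodule R M) : Submodule R M) ≠ ⊤ := by
      have : IsNoetherian R M := inferInstance
      apply W3_base
      rintro r hr ⟨x, hx⟩
      apply Subtype.ext
      change r • x = 0
      refine Submodule.smul_induction_on hx ?_ ?_
      · intro s hs y _
        rw [← mul_smul]
        apply h
        rw [pow_succ']
        exact Ideal.mul_mem_mul hr hs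
      · intro a b ha hb
        rw [smul_add, ha, hb, add_zero]
    have h2 : Module.length R (M ⧸ (maximalIdeal R ^ N • (⊤ : Submodule R M))) ≠ ⊤ := by
      apply ih
      intro r hr x
      obtain ⟨y, rfl⟩ := Submodule.Quotient.mk_surjective _ x
      rw [← Submodule.Quotient.mk_smul, Submodule.Quotient.mk_eq_zero]
      exact Submodule.smul_mem_smul hr Submodule.mem_top
    rw [Module.length_eq_add_of_exact
      (maximalIdeal R ^ N • (⊤ : Submodule R M)).subtype
      (maximalIdeal R ^ N • (⊤ : Submodule R M)).mkQ
      (Submodule.injective_subtype _) (Submodule.mkQ_surjective _)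
      (LinearMap.exact_subtype_mkQ _)]
    exact WithTop.add_ne_top.2 ⟨h1, h2⟩

theorem exists_pow_of_length_ne_top {R : Type u} [CommRing R] [IsLocalRing R]
    {M : Type v} [AddCommGroup M] [Module R M] (h : Module.length R M ≠ ⊤) :
    ∃ N : ℕ, ∀ r ∈ maximalIdeal R ^ N, ∀ x : M, r • x = 0 := by
  rw [Module.length_ne_top_iff, isFiniteLength_iff_isNoetherian_isArtinian] at h
  obtain ⟨hN, hA⟩ := h
  let f : ℕ →o (Submodule R M)ᵒᵈ :=
    ⟨fun i => OrderDual.toDual (maximalIdeal R ^ i • (⊤ : Submodule R M)), fun i j hij =>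
      OrderDual.toDual_le_toDual.2 (Submodule.smul_mono_left (Ideal.pow_le_pow_right hij))⟩
  obtain ⟨n, hn⟩ := IsArtinian.monotone_stabilizes f
  have h1 : maximalIdeal R ^ n • (⊤ : Submodule R M)
      = maximalIdeal R ^ (n + 1) • (⊤ : Submodule R M) := by
    have := hn (n + 1) (Nat.le_succ n)
    exact OrderDual.toDual.injective this
  have h2 : maximalIdeal R ^ n • (⊤ : Submodule R M) = ⊥ := by
    apply Submodule.eq_bot_of_le_smul_of_le_jacobson_bot (maximalIdeal R)
    · exact IsNoetherian.noetherian _
    · rw [← Submodule.mul_smul, ← pow_succ', ← h1]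
    · rw [IsLocalRing.jacobson_eq_maximalIdeal ⊥ bot_ne_top]
  refine ⟨n, fun r hr x => ?_⟩
  have h3 : r • x ∈ maximalIdeal R ^ n • (⊤ : Submodule R M) :=
    Submodule.smul_mem_smul hr Submodule.mem_top
  rw [h2, Submodule.mem_bot] at h3
  exact h3

end Vale.Agent.P202C.SA
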