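import Vale.Agent.P202C.SG
import Vale.Agent.P202C.W3

/-!
P202 part VI (helper19): Koszul complexes satisfy Serre's vanishing.
-/

set_option autoImplicit false

namespace Vale.Agent.P202C.SA

open IsLocalRing Vale.Agent.P202C

universe u v w

variable {R : Type u} [CommRing R]

theorem Xk_eq {X : Type v} [AddCommGroup X] [Module R X] (l : List (X →ₗ[R] X))
    (P Q : Submodule R X) : Xk l P Q =
      ∑ j ∈ Finset.range (l.length + 1), (-1 : ℤ) ^ j * ((Hk l P Q j).toNat : ℤ) := rfl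

variable {κ : Type} [Fintype κ] [DecidableEq κ]

theorem chG_kos (n : ℕ) (Z : Fin n → Matrix κ κ R) (hZ : ∀ i j, Z i * Z j = Z j * Z i)
    (V : Type v) [AddCommGroup V] [Module R V] :
    chG (kos n Z hZ) V n = Xk (List.ofFn (endo V Z)) ⊤ ⊥ := by
  rw [Xk_eq, List.length_ofFn]
  unfold chG
  simp only [Hc_kos]

theorem sumM_ofFn_mem {X : Type v} [AddCommGroup X] [Module R X] {n : ℕ}
    (z : Fin n → (X →ₗ[R] X)) (P : Submodule R X) (i : Fin n) (x : X) (hx : x ∈ P) :
    z i x ∈ sumM (List.ofFn z) P := by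
  induction n with
  | zero => exact i.elim0
  | succ n ih =>
    rw [List.ofFn_succ]
    refine Fin.cases ?_ (fun i => ?_) i
    · exact Submodule.mem_sup_left ⟨x, hx, rfl⟩
    · exact Submodule.mem_sup_right (ih (fun i => z i.succ) i)

theorem sumM_ofFn_le {X : Type v} [AddCommGroup X] [Module R X] {n : ℕ}
    (z : Fin n → (X →ₗ[R] X)) (P T : Submodule R X) (h : ∀ i, ∀ x ∈ P, z i x ∈ T) :
    sumM (List.ofFn z) P ≤ T := by
  induction n with
  | zero =>
    rw [List.ofFn_zero]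
    exact bot_le
  | succ n ih =>
    rw [List.ofFn_succ]
    refine sup_le ?_ (ih (fun i => z i.succ) fun i => h i.succ)
    rintro _ ⟨x, hx, rfl⟩
    exact h 0 x hx

theorem dimlt_of_dimM {D : ℕ} {V : Type v} [AddCommGroup V] [Module R V] (h : dimM R D V) :
    dimlt D (⊤ : Submodule R (κ → V)) ⊥ := by
  intro c hc
  refine h c fun i => ?_
  obtain ⟨x, _, hx⟩ := hc i
  rw [Module.mem_support_iff']
  by_contra hcon
  push Not at hcon
  choose s hs hs0 using hcon
  apply hx (∏ a, s (x a))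
  · intro hmem
    obtain ⟨a, _, ha⟩ := ((c i).isPrime.prod_mem_iff).1 hmem
    exact hs (x a) ha
  · rw [Submodule.mem_bot]
    funext a
    rw [Pi.smul_apply, Pi.zero_apply, ← Finset.prod_erase_mul _ _ (Finset.mem_univ a), mul_smul,
      hs0, smul_zero]

theorem kos_serre [IsLocalRing R] [IsNoetherianRing R] (n : ℕ) (Z : Fin n → Matrix κ κ R)
    (hZ : ∀ i j, Z i * Z j = Z j * Z i) (N : ℕ)
    (hN : ∀ r ∈ maximalIdeal R ^ N, ∃ W : Fin n → Matrix κ κ R,
      ∑ i, Z i * W i = r • (1 : Matrix κ κ R))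
    (V : Type v) [AddCommGroup V] [Module R V] [Module.Finite R V] :
    rl ⊤ (sumM (List.ofFn (endo V Z)) ⊤ ⊔ ⊥) ≠ ⊤ ∧
    (∀ j, Hk (List.ofFn (endo V Z)) ⊤ ⊥ j ≠ ⊤) ∧
      (dimM R n V → Xk (List.ofFn (endo V Z)) ⊤ ⊥ = 0) := by
  have hCm := Cm_ofFn (R := R) (z := endo V Z) (endo_comm V hZ)
  have hfin : rl ⊤ (sumM (List.ofFn (endo V Z)) ⊤ ⊔ ⊥) ≠ ⊤ := by
    unfold rl
    refine length_ne_top_of_pow N ?_
    intro r hr x
    obtain ⟨x, rfl⟩ := Submodule.Quotient.mk_surjective _ x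
    rw [← Submodule.Quotient.mk_smul, Submodule.Quotient.mk_eq_zero]
    obtain ⟨W, hW⟩ := hN r hr
    change r • (x : κ → V) ∈ sumM (List.ofFn (endo V Z)) ⊤ ⊔ ⊥
    have h1 : r • (x : κ → V) = ∑ i, endo V Z i (act (W i) V x) := by
      have h2 : act (∑ i, Z i * W i) V (x : κ → V) = r • (x : κ → V) := by
        rw [hW, act_smul, act_one]
      rw [← h2]
      have h3 : ∀ s : Finset (Fin n), act (∑ i ∈ s, Z i * W i) V (x : κ → V) =
          ∑ i ∈ s, endo V Z i (act (W i) V x) := by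
        intro s
        induction s using Finset.induction_on with
        | empty => rw [Finset.sum_empty, Finset.sum_empty, act_zero]
        | insert a s ha ih =>
          rw [Finset.sum_insert ha, Finset.sum_insert ha, act_add, ih, act_mul]
          rfl
      exact h3 _
    rw [h1]
    refine Submodule.mem_sup_left (Submodule.sum_mem _ fun i _ => ?_)
    exact sumM_ofFn_mem (endo V Z) ⊤ i _ trivial
  have h := serre (List.ofFn (endo V Z)) hCm ⊤ ⊥ bot_le (fun _ _ _ _ => trivial)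
    (fun z _ x hx => by
      rw [Submodule.mem_bot] at hx ⊢
      rw [hx, map_zero]) hfin
  refine ⟨hfin, h.1, fun hd => h.2 ?_⟩
  rw [List.length_ofFn]
  exact dimlt_of_dimM hd

theorem kos_serreLike [IsLocalRing R] [IsNoetherianRing R] (n : ℕ) (Z : Fin n → Matrix κ κ R)
    (hZ : ∀ i j, Z i * Z j = Z j * Z i) (N : ℕ)
    (hN : ∀ r ∈ maximalIdeal R ^ N, ∃ W : Fin n → Matrix κ κ R,
      ∑ i, Z i * W i = r • (1 : Matrix κ κ R)) : SerreLike (kos n Z hZ) n where
  deg a := kdeg_bd n a.1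
  fin V _ _ _ j := by
    rw [Hc_kos]
    exact (kos_serre n Z hZ N hN V).2.1 j
  van V _ _ _ hd := by
    rw [chG_kos]
    exact (kos_serre n Z hZ N hN V).2.2 hd

end Vale.Agent.P202C.SA
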