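import Vale.Agent.P202C.KSLink
import Vale.Agent.P202C.SH

/-!
P202: Serre vanishing for the Koszul complex `KS z` over a Noetherian local ring `S`, `S/(z)` of
finite length; coefficients in any universe (helper99).
-/

set_option autoImplicit false

namespace Vale.Agent.P202C

open IsLocalRing TensorProduct Vale.Agent.P202

universe u v w

section KSserre

variable {S : Type v} [CommRing S] {D : ℕ} (z : Fin D → S)

theorem kss_sumM (W : Type w) [AddCommGroup W] [Module S W] (m : ℕ) (i : ℕ) (hi : i < m) (x : W) :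
    zz z i • x ∈ SA.sumM (kl z W m) ⊤ := by
  induction m with
  | zero => omega
  | succ m ih =>
    by_cases h : i = m
    · rw [h]
      exact Submodule.mem_sup_left ⟨x, trivial, rfl⟩
    · exact Submodule.mem_sup_right (ih (by omega))

theorem kss_span (W : Type w) [AddCommGroup W] [Module S W] (s : S)
    (hs : s ∈ Ideal.span (Set.range z)) (x : W) : s • x ∈ SA.sumM (kl z W D) ⊤ := by
  obtain ⟨c, rfl⟩ := (Ideal.mem_span_range_iff_exists_fun).mp hs
  rw [Finset.sum_smul]
  refine Submodule.sum_mem _ fun i _ => ?_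
  have h1 := kss_sumM z W D i.1 i.2 x
  have h2 : zz z i.1 = z i := dif_pos i.2
  rw [h2] at h1
  rw [mul_smul]
  exact Submodule.smul_mem _ _ h1

/-- quotient of a finite module killed by `I`, `S/I` of finite length -/
theorem kss_len {I : Ideal S} (hI : Module.length S (S ⧸ I) ≠ ⊤) (W : Type w) [AddCommGroup W]
    [Module S W] [Module.Finite S W] (h : ∀ s ∈ I, ∀ x : W, s • x = 0) :
    Module.length S W ≠ ⊤ := by
  classical
  obtain ⟨k, f, hf⟩ := Module.Finite.exists_fin' S W
  let g : Fin k → ((S ⧸ I) →ₗ[S] W) := fun i =>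
    Submodule.liftQ I (LinearMap.toSpanSingleton S W (f (Pi.single i 1))) (by
      intro s hs
      rw [LinearMap.mem_ker, LinearMap.toSpanSingleton_apply]
      exact h s hs _)
  let G : (Fin k → S ⧸ I) →ₗ[S] W := ∑ i, (g i).comp (LinearMap.proj i)
  have hG : Function.Surjective G := by
    intro w
    obtain ⟨v, rfl⟩ := hf w
    refine ⟨fun i => Submodule.Quotient.mk (v i), ?_⟩
    have h1 : G (fun i => Submodule.Quotient.mk (v i)) = ∑ i, v i • f (Pi.single i 1) := by
      rw [LinearMap.sum_apply]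
      rfl
    have h2 : v = ∑ i, v i • (Pi.single i 1 : Fin k → S) := by
      funext j
      rw [Finset.sum_apply, Finset.sum_eq_single j]
      · rw [Pi.smul_apply, Pi.single_eq_same, smul_eq_mul, mul_one]
      · intro i _ hij
        rw [Pi.smul_apply, Pi.single_eq_of_ne hij.symm, smul_zero]
      · intro h
        exact absurd (Finset.mem_univ j) h
    rw [h1]
    conv_rhs => rw [h2]
    rw [map_sum]
    exact Finset.sum_congr rfl fun i _ => (map_smul f _ _).symm
  refine ne_top_of_le_ne_top ?_ (Module.length_le_of_surjective G hG)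
  rw [Module.length_pi_of_fintype, Finset.sum_const, nsmul_eq_mul]
  exact WithTop.mul_ne_top (ENat.natCast_ne_top _) hI

variable [IsNoetherianRing S]

/-- **Serre** for `KS z` -/
theorem kss_serre (hzl : Module.length S (S ⧸ Ideal.span (Set.range z)) ≠ ⊤)
    (W : Type w) [AddCommGroup W] [Module S W] [Module.Finite S W] :
    (∀ j, Hc (KS z) W j ≠ ⊤) ∧ (SA.dimM S D W → SA.chG (KS z) W D = 0) := by
  have hfin : SA.rl (⊤ : Submodule S W) (SA.sumM (kl z W D) ⊤ ⊔ ⊥) ≠ ⊤ := by
    unfold SA.rl
    refine kss_len hzl _ ?_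
    intro s hs x
    obtain ⟨x, rfl⟩ := Submodule.Quotient.mk_surjective _ x
    rw [← Submodule.Quotient.mk_smul, Submodule.Quotient.mk_eq_zero]
    exact Submodule.mem_sup_left (kss_span z W s hs x.1)
  have h := SA.serre (kl z W D) (kl_Cm z W D) ⊤ ⊥ bot_le (fun _ _ _ _ => trivial)
    (fun z _ x hx => by
      rw [Submodule.mem_bot] at hx ⊢
      rw [hx, map_zero]) hfin
  refine ⟨fun j => by rw [Hc_KS]; exact h.1 j, fun hd => ?_⟩
  have h1 : SA.chG (KS z) W D = MI.chiG (KS z) W D := rfl
  rw [h1, chiG_KS]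
  refine h.2 ?_
  rw [kl_length]
  intro c hc
  refine hd c fun i => ?_
  obtain ⟨x, _, hx⟩ := hc i
  rw [Module.mem_support_iff']
  exact ⟨x, fun s hs h0 => hx s hs (by rw [h0]; exact Submodule.zero_mem _)⟩

theorem kss_fin (hzl : Module.length S (S ⧸ Ideal.span (Set.range z)) ≠ ⊤)
    (W : Type w) [AddCommGroup W] [Module S W] [Module.Finite S W] (j : ℤ) :
    Hc (KS z) W j ≠ ⊤ := (kss_serre z hzl W).1 j

/-- additivity -/
theorem kss_add (hzl : Module.length S (S ⧸ Ideal.span (Set.range z)) ≠ ⊤)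
    {N₁ N₂ N₃ : Type w} [AddCommGroup N₁] [Module S N₁] [Module.Finite S N₁]
    [AddCommGroup N₂] [Module S N₂]
    [AddCommGroup N₃] [Module S N₃] [Module.Finite S N₃] (f : N₁ →ₗ[S] N₂) (g : N₂ →ₗ[S] N₃)
    (hf : Function.Injective f) (hg : Function.Surjective g) (hfg : Function.Exact f g) :
    MI.chiG (KS z) N₂ D = MI.chiG (KS z) N₁ D + MI.chiG (KS z) N₃ D :=
  (SA.chG_add (KS z) D (KS_deg z) f g hf hg hfg (kss_fin z hzl N₁) (kss_fin z hzl N₃)).2

/-- submodule with cokernel of dimension `< D` -/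
theorem kss_sub (hzl : Module.length S (S ⧸ Ideal.span (Set.range z)) ≠ ⊤)
    {N₁ N₂ : Type w} [AddCommGroup N₁] [Module S N₁] [Module.Finite S N₁]
    [AddCommGroup N₂] [Module S N₂] [Module.Finite S N₂] (f : N₁ →ₗ[S] N₂)
    (hf : Function.Injective f) (h : SA.dimM S D (N₂ ⧸ LinearMap.range f)) :
    MI.chiG (KS z) N₁ D = MI.chiG (KS z) N₂ D := by
  have h1 := kss_add z hzl f (LinearMap.range f).mkQ hf (Submodule.mkQ_surjective _)
    (LinearMap.exact_map_mkQ_range f)
  have h2 : MI.chiG (KS z) (N₂ ⧸ LinearMap.range f) D = 0 := (kss_serre z hzl _).2 h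
  rw [h1, h2, add_zero]

variable [IsLocalRing S]

/-- chains of primes of `S` -/
theorem kss_dim (hz : ∀ l, z l ∈ maximalIdeal S)
    (hzl : Module.length S (S ⧸ Ideal.span (Set.range z)) ≠ ⊤)
    (c : LTSeries (PrimeSpectrum S)) : c.length ≤ D := by
  classical
  have h1 := Order.LTSeries.length_le_krullDim c
  have hart : IsArtinianRing (S ⧸ Ideal.span (Set.range z)) := by
    have h2 : IsFiniteLength S (S ⧸ Ideal.span (Set.range z)) := by
      rwa [← Module.length_ne_top_iff]
    have h3 : IsArtinian S (S ⧸ Ideal.span (Set.range z)) :=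
      (isFiniteLength_iff_isNoetherian_isArtinian.mp h2).2
    exact isArtinian_of_tower S h3
  have h4 : ringKrullDim (S ⧸ Ideal.span (Set.range z)) ≤ 0 :=
    (Ring.krullDimLE_iff (n := 0)).mp inferInstance
  have h5 := ringKrullDim_le_ringKrullDim_quotient_add_card (Finset.univ.image z) (by
    intro s hs
    rw [Finset.coe_image, Finset.coe_univ, Set.image_univ] at hs
    obtain ⟨i, rfl⟩ := hs
    rw [IsLocalRing.ringJacobson_eq_maximalIdeal]
    exact hz i)
  rw [Finset.coe_image, Finset.coe_univ, Set.image_univ] at h5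
  have h6 : ((Finset.univ.image z).card : WithBot ℕ∞) ≤ (D : WithBot ℕ∞) := by
    have h7 : (Finset.univ.image z).card ≤ D := by
      refine Finset.card_image_le.trans ?_
      rw [Finset.card_univ, Fintype.card_fin]
    exact_mod_cast h7
  have h8 : (c.length : WithBot ℕ∞) ≤ (D : WithBot ℕ∞) := by
    refine h1.trans (h5.trans ((add_le_add h4 h6).trans ?_))
    rw [zero_add]
  exact_mod_cast h8

end KSserre

end Vale.Agent.P202C
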