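import Vale.Agent.P202C.F5
import Vale.Agent.P202C.KSserre

/-!
P202 in characteristic p, F5 (helper19) for the Koszul complex `KS z`.
-/

set_option autoImplicit false

namespace Vale.Agent.P202C

open IsLocalRing Vale.Agent.P202C.V TensorProduct

universe u v w

section

variable {R : Type u} [CommRing R] [IsLocalRing R] [IsNoetherianRing R]
  {S : Type v} [CommRing S] [IsLocalRing S] [IsNoetherianRing S] [Algebra R S]
  [Module.Flat R S] [IsLocalHom (algebraMap R S)]

theorem ksf_add {D : ℕ} (z : Fin D → S)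
    (hzl : Module.length S (S ⧸ Ideal.span (Set.range z)) ≠ ⊤)
    (N₁ N₂ N₃ : Type u) [AddCommGroup N₁] [Module R N₁] [Module.Finite R N₁]
    [AddCommGroup N₂] [Module R N₂] [Module.Finite R N₂]
    [AddCommGroup N₃] [Module R N₃] [Module.Finite R N₃] (g : N₁ →ₗ[R] N₂) (h : N₂ →ₗ[R] N₃)
    (hg : Function.Injective g) (hh : Function.Surjective h) (hgh : Function.Exact g h) :
    MI.chiG (KS z) (S ⊗[R] N₂) D = MI.chiG (KS z) (S ⊗[R] N₁) D +
      MI.chiG (KS z) (S ⊗[R] N₃) D := by
  refine kss_add z hzl (g.baseChange S) (h.baseChange S) ?_ ?_ ?_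
  · exact Module.Flat.lTensor_preserves_injective_linearMap (M := S) g hg
  · exact LinearMap.lTensor_surjective S hh
  · exact lTensor_exact S hgh hh

theorem ksf_equiv {D : ℕ} (z : Fin D → S) {N N' : Type u} [AddCommGroup N] [Module R N]
    [AddCommGroup N'] [Module R N'] (e : N ≃ₗ[R] N') :
    MI.chiG (KS z) (S ⊗[R] N) D = MI.chiG (KS z) (S ⊗[R] N') D :=
  SA.chG_equiv (KS z) (e.baseChange R S N N') D

theorem ksf_van {D : ℕ} (z : Fin D → S)
    (hzl : Module.length S (S ⧸ Ideal.span (Set.range z)) ≠ ⊤)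
    (hfib : Module.length S (S ⧸ (maximalIdeal R).map (algebraMap R S)) ≠ ⊤)
    (N : Type u) [AddCommGroup N] [Module R N] [hN : Module.Finite R N] (hd : SA.dimM R D N) :
    MI.chiG (KS z) (S ⊗[R] N) D = 0 := by
  revert hd
  induction hN using IsNoetherianRing.induction_on_isQuotientEquivQuotientPrime R with
  | subsingleton N =>
    intro _
    have : Subsingleton (S ⊗[R] N) := inferInstance
    exact SA.chG_subsingleton _ _ _
  | quotient N q ε =>
    intro hd
    rw [ksf_equiv z ε]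
    refine (kss_serre z hzl _).2 (SA.dim_prime hfib q.asIdeal ?_ _ ?_)
    · intro c hc
      exact hd c fun i => by
        rw [ε.support_eq]
        exact hc i
    · intro r hr v
      induction v using TensorProduct.induction_on with
      | zero => rw [smul_zero]
      | tmul s n =>
        rw [TensorProduct.smul_tmul', smul_eq_mul, ← Algebra.smul_def, TensorProduct.smul_tmul]
        have : r • n = 0 := by
          obtain ⟨x, rfl⟩ := Ideal.Quotient.mk_surjective n
          change Ideal.Quotient.mk q.asIdeal (r * x) = 0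
          exact Ideal.Quotient.eq_zero_iff_mem.2 (Ideal.mul_mem_right _ _ hr)
        rw [this, TensorProduct.tmul_zero]
      | add a b ha hb => rw [smul_add, ha, hb, add_zero]
  | exact N₁ N₂ N₃ f g hf hg hfg h₁ h₃ =>
    intro hd
    have h4 : ∀ {A : Type u} [AddCommGroup A] [Module R A],
        (Module.support R A ⊆ Module.support R N₂) → SA.dimM R D A :=
      fun hs c hc => hd c fun i => hs (hc i)
    rw [ksf_add z hzl N₁ N₂ N₃ f g hf hg hfg, h₁ (h4 (Module.support_subset_of_injective f hf)),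
      h₃ (h4 (Module.support_subset_of_surjective g hg)), add_zero]

/-- the additive function `N ↦ χ(z; S ⊗ N)` -/
noncomputable def ksfXi {D : ℕ} (z : Fin D → S)
    (hzl : Module.length S (S ⧸ Ideal.span (Set.range z)) ≠ ⊤)
    (hfib : Module.length S (S ⧸ (maximalIdeal R).map (algebraMap R S)) ≠ ⊤) : SA.Xi R D where
  f N _ _ := MI.chiG (KS z) (S ⊗[R] N) D
  add N₁ N₂ N₃ _ _ _ _ _ _ _ _ _ g h hg hh hgh := ksf_add z hzl N₁ N₂ N₃ g h hg hh hgh
  van N _ _ _ hd := ksf_van z hzl hfib N hd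

theorem ksf_chains (D : ℕ) (hD : ringKrullDim R = D) (c : LTSeries (PrimeSpectrum R)) :
    c.length ≤ D := by
  have h := Order.LTSeries.length_le_krullDim c
  have h2 : (c.length : WithBot ℕ∞) ≤ (D : WithBot ℕ∞) := by
    rw [← hD]
    exact h
  exact_mod_cast h2

/-- U2 -/
theorem KS_frob' (p : ℕ) [hp : Fact p.Prime] [CharP R p] (hF : (frobenius R p).Finite)
    (hfib : Module.length S (S ⧸ (maximalIdeal R).map (algebraMap R S)) ≠ ⊤)
    (D : ℕ) (hD : ringKrullDim R = D) (z : Fin D → S)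
    (hzl : Module.length S (S ⧸ Ideal.span (Set.range z)) ≠ ⊤)
    (V : Type u) [AddCommGroup V] [Module R V] [Module.Finite R V] (e : ℕ) :
    twc (iterateFrobenius R p e) ≠ ⊤ ∧ twc (iterateFrobenius R p e) ≠ 0 ∧
    (∀ j, Hc (KS z) (S ⊗[R] Tw (iterateFrobenius R p e) V) j ≠ ⊤) ∧
    MI.chiG (KS z) (S ⊗[R] Tw (iterateFrobenius R p e) V) D =
      ((twc (iterateFrobenius R p e)).toNat : ℤ) * (p : ℤ) ^ (e * D) *
        MI.chiG (KS z) (S ⊗[R] V) D := by
  have hφ := iterateFrobenius_finite p hF e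
  have i1 := Tw_finite (iterateFrobenius R p e) hφ V
  refine ⟨twc_ne_top _ hφ (fun r hr => ?_), twc_ne_zero _, kss_fin z hzl _, ?_⟩
  · rw [iterateFrobenius_def]
    exact Ideal.pow_mem_of_mem _ hr _ (pow_pos hp.out.pos e)
  · have h1 := SA.xi_frob p hF e D hD (ksf_chains D hD) (ksfXi z hzl hfib) V
    rw [mul_assoc]
    exact h1

/-- U3 -/
theorem KS_sub' (hfib : Module.length S (S ⧸ (maximalIdeal R).map (algebraMap R S)) ≠ ⊤)
    (D : ℕ) (hD : ringKrullDim R = D) (z : Fin D → S)
    (hzl : Module.length S (S ⧸ Ideal.span (Set.range z)) ≠ ⊤)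
    (V : Type u) [AddCommGroup V] [Module R V] [Module.Finite R V] (m : ℕ)
    (f : V →ₗ[R] (Fin m → R)) (y : R) (N : ℕ) (hf : Function.Injective f)
    (hy' : y ∈ nonZeroDivisors R)
    (hfy : ∀ v : Fin m → R, y ^ N • v ∈ LinearMap.range f) :
    MI.chiG (KS z) (S ⊗[R] V) D = m * MI.chiG (KS z) S D := by
  have h1 := (ksfXi z hzl hfib).sub_free (ksf_chains D hD) m f hf y hy' N hfy
  have h2 : MI.chiG (KS z) (S ⊗[R] R) D = MI.chiG (KS z) S D :=
    SA.chG_equiv (KS z) (TensorProduct.AlgebraTensorModule.rid R S S) D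
  rw [← h2]
  exact h1

/-- combined form -/
theorem KS_comb (p : ℕ) [hp : Fact p.Prime] [CharP R p] (hF : (frobenius R p).Finite)
    (hfib : Module.length S (S ⧸ (maximalIdeal R).map (algebraMap R S)) ≠ ⊤)
    (D : ℕ) (hD : ringKrullDim R = D) (z : Fin D → S)
    (hzl : Module.length S (S ⧸ Ideal.span (Set.range z)) ≠ ⊤)
    (V : Type u) [AddCommGroup V] [Module R V] [Module.Finite R V] (m : ℕ)
    (f : V →ₗ[R] (Fin m → R)) (y : R) (N : ℕ) (hf : Function.Injective f)
    (hy' : y ∈ nonZeroDivisors R)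
    (hfy : ∀ v : Fin m → R, y ^ N • v ∈ LinearMap.range f) (e : ℕ) :
    twc (iterateFrobenius R p e) ≠ ⊤ ∧ twc (iterateFrobenius R p e) ≠ 0 ∧
    (∀ j, Hc (KS z) (S ⊗[R] Tw (iterateFrobenius R p e) V) j ≠ ⊤) ∧
    MI.chiG (KS z) (S ⊗[R] Tw (iterateFrobenius R p e) V) D =
      ((twc (iterateFrobenius R p e)).toNat : ℤ) * (p : ℤ) ^ (e * D) *
        (m * MI.chiG (KS z) S D) := by
  have h1 := KS_frob' p hF hfib D hD z hzl V e
  refine ⟨h1.1, h1.2.1, h1.2.2.1, ?_⟩
  rw [h1.2.2.2, KS_sub' hfib D hD z hzl V m f y N hf hy' hfy]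

/-- the same for the base change of the twist of a submodule -/
theorem KS_comb_sub (p : ℕ) [hp : Fact p.Prime] [CharP R p] (hF : (frobenius R p).Finite)
    (hfib : Module.length S (S ⧸ (maximalIdeal R).map (algebraMap R S)) ≠ ⊤)
    (D : ℕ) (hD : ringKrullDim R = D) (z : Fin D → S)
    (hzl : Module.length S (S ⧸ Ideal.span (Set.range z)) ≠ ⊤)
    {X : Type w} [AddCommGroup X] [Module R X] (M : Submodule R X) [Module.Finite R M] (m : ℕ)
    (f : M →ₗ[R] (Fin m → R)) (y : R) (N : ℕ) (hf : Function.Injective f)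
    (hy' : y ∈ nonZeroDivisors R)
    (hfy : ∀ v : Fin m → R, y ^ N • v ∈ LinearMap.range f) (e : ℕ) :
    (∀ j, Hc (KS z) ((v3Sub (iterateFrobenius R p e) M).baseChange S) j ≠ ⊤) ∧
    MI.chiG (KS z) ((v3Sub (iterateFrobenius R p e) M).baseChange S) D =
      ((twc (iterateFrobenius R p e)).toNat : ℤ) * (p : ℤ) ^ (e * D) *
        (m * MI.chiG (KS z) S D) := by
  -- replace `M` by an isomorphic module in the universe of `R`
  let M' : Type u := LinearMap.range f
  let ε : M ≃ₗ[R] LinearMap.range f := LinearEquiv.ofInjective f hf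
  have key := KS_comb p hF hfib D hD z hzl (LinearMap.range f) m (LinearMap.range f).subtype y N
    (LinearMap.range f).subtype_injective hy' (by
      intro v
      rw [Submodule.range_subtype]
      exact hfy v) e
  have e1 : (v3Sub (iterateFrobenius R p e) M) ≃ₗ[R]
      Tw (iterateFrobenius R p e) (LinearMap.range f) :=
    (SA.v3SubEquiv (iterateFrobenius R p e) M).trans (v3Equiv (iterateFrobenius R p e) ε)
  have e2 : (S ⊗[R] (v3Sub (iterateFrobenius R p e) M)) ≃ₗ[S]
      (S ⊗[R] Tw (iterateFrobenius R p e) (LinearMap.range f)) :=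
    e1.baseChange R S _ _
  have h3 := SA.chG_baseChange (D := D) (KS z) (v3Sub (iterateFrobenius R p e) M) (S := S)
  refine ⟨fun j => ?_, ?_⟩
  · rw [h3.1 j, SA.Hc_equiv (KS z) e2 j]
    exact key.2.2.1 j
  · have h4 : MI.chiG (KS z) ((v3Sub (iterateFrobenius R p e) M).baseChange S) D =
        MI.chiG (KS z) (S ⊗[R] (v3Sub (iterateFrobenius R p e) M)) D := h3.2
    have h5 : MI.chiG (KS z) (S ⊗[R] (v3Sub (iterateFrobenius R p e) M)) D =
        MI.chiG (KS z) (S ⊗[R] Tw (iterateFrobenius R p e) (LinearMap.range f)) D :=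
      SA.chG_equiv (KS z) e2 D
    rw [h4, h5, key.2.2.2]

end

end Vale.Agent.P202C
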