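import Vale.Agent.P202C.SK

/-!
P202 part V (helper19): the Koszul complex of commuting matrices as a free complex `FCx`, its
homology and null homotopies.
-/

set_option autoImplicit false

namespace Vale.Agent.P202C.SA

open Vale.Agent.P202C

universe u v

section Act

variable {R : Type u} [CommRing R] {ι κ μ : Type} [Fintype ι] [Fintype κ] [Fintype μ]
  (V : Type v) [AddCommGroup V] [Module R V]

theorem act_apply (m : Matrix κ ι R) (x : ι → V) (a : κ) : act m V x a = ∑ b, m a b • x b := rfl

theorem act_zero (x : ι → V) : act (0 : Matrix κ ι R) V x = 0 := by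
  funext a
  rw [act_apply]
  simp

theorem act_neg (m : Matrix κ ι R) (x : ι → V) : act (-m) V x = -(act m V x) := by
  funext a
  rw [Pi.neg_apply, act_apply, act_apply]
  simp

theorem act_add (m m' : Matrix κ ι R) (x : ι → V) : act (m + m') V x = act m V x + act m' V x := by
  funext a
  rw [Pi.add_apply, act_apply, act_apply, act_apply, ← Finset.sum_add_distrib]
  exact Finset.sum_congr rfl fun b _ => by rw [Matrix.add_apply, add_smul]

theorem act_mul (m : Matrix μ κ R) (m' : Matrix κ ι R) (x : ι → V) :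
    act (m * m') V x = act m V (act m' V x) := by
  funext a
  rw [act_apply, act_apply]
  simp only [act_apply, Matrix.mul_apply, Finset.smul_sum, Finset.sum_smul, mul_smul]
  rw [Finset.sum_comm]

theorem act_one [DecidableEq ι] (x : ι → V) : act (1 : Matrix ι ι R) V x = x := by
  funext a
  rw [act_apply]
  simp [Matrix.one_apply, ite_smul]

theorem act_smul (r : R) (m : Matrix κ ι R) (x : ι → V) : act (r • m) V x = r • act m V x := by
  funext a
  rw [Pi.smul_apply, act_apply, act_apply, Finset.smul_sum]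
  exact Finset.sum_congr rfl fun b _ => by rw [Matrix.smul_apply, smul_eq_mul, mul_smul]

end Act

section Kos

variable {R : Type u} [CommRing R] {κ : Type} [Fintype κ] [DecidableEq κ]

/-- Koszul complex of commuting matrices -/
def kos (n : ℕ) (Z : Fin n → Matrix κ κ R) (hZ : ∀ i j, Z i * Z j = Z j * Z i) :
    FCx R (KI n × κ) where
  deg x := kdeg n x.1
  mat := Matrix.compRingEquiv (KI n) κ R (kmat n Z)
  sq := by rw [← map_mul, kmat_sq n Z hZ, map_zero]
  hdeg a b h := kmat_deg n Z a.1 b.1 (fun h0 => h (by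
    change kmat n Z a.1 b.1 a.2 b.2 = 0
    rw [h0]
    rfl))

theorem kos_mat_apply (n : ℕ) (Z : Fin n → Matrix κ κ R) (hZ : ∀ i j, Z i * Z j = Z j * Z i)
    (i j : KI n) (a b : κ) : (kos n Z hZ).mat (i, a) (j, b) = kmat n Z i j a b := rfl

variable (V : Type v) [AddCommGroup V] [Module R V]

/-- the endomorphisms of `κ → V` given by matrices -/
def endo {n : ℕ} (Z : Fin n → Matrix κ κ R) (i : Fin n) : (κ → V) →ₗ[R] (κ → V) := act (Z i) V

theorem endo_comm {n : ℕ} {Z : Fin n → Matrix κ κ R} (hZ : ∀ i j, Z i * Z j = Z j * Z i)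
    (i j : Fin n) (x : κ → V) : endo V Z i (endo V Z j x) = endo V Z j (endo V Z i x) := by
  change act (Z i) V (act (Z j) V x) = act (Z j) V (act (Z i) V x)
  rw [← act_mul, ← act_mul, hZ]

theorem Cm_ofFn {X : Type v} [AddCommGroup X] [Module R X] {n : ℕ} {z : Fin n → (X →ₗ[R] X)}
    (h : ∀ i j x, z i (z j x) = z j (z i x)) : Cm (List.ofFn z) := by
  intro a ha b hb x
  obtain ⟨i, rfl⟩ := (List.mem_ofFn' _ _).1 ha
  obtain ⟨j, rfl⟩ := (List.mem_ofFn' _ _).1 hb
  exact h i j x

theorem kdF_apply : ∀ (n : ℕ) (Z : Fin n → Matrix κ κ R) (v : KI n → (κ → V)) (i : KI n),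
    kdF n (endo V Z) v i = ∑ j, act (kmat n Z i j) V (v j)
  | 0, Z, v, i => by
    change (0 : κ → V) = ∑ j, act (0 : Matrix κ κ R) V (v j)
    simp only [act_zero, Finset.sum_const_zero]
  | n + 1, Z, v, Sum.inl i => by
    have ih := kdF_apply n (fun i => Z i.succ) (fun k => v (Sum.inl k)) i
    change kdF n (endo V fun i => Z i.succ) (fun k => v (Sum.inl k)) i +
      act (Z 0) V (v (Sum.inr i)) =
      ∑ j : KI n ⊕ KI n, act (kstep (kmat n fun i => Z i.succ) (Z 0) (Sum.inl i) j) V (v j)
    rw [Fintype.sum_sum_type, ih]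
    congr 1
    change _ = ∑ j : KI n, act ((Matrix.diagonal fun _ => Z 0 : Matrix (KI n) (KI n) _) i j) V
      (v (Sum.inr j))
    rw [Finset.sum_eq_single i]
    · rw [Matrix.diagonal_apply_eq]
    · intro j _ hj
      rw [Matrix.diagonal_apply_ne' _ hj, act_zero]
    · intro h
      exact absurd (Finset.mem_univ i) h
  | n + 1, Z, v, Sum.inr i => by
    have ih := kdF_apply n (fun i => Z i.succ) (fun k => v (Sum.inr k)) i
    change -(kdF n (endo V fun i => Z i.succ) (fun k => v (Sum.inr k)) i) =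
      ∑ j : KI n ⊕ KI n, act (kstep (kmat n fun i => Z i.succ) (Z 0) (Sum.inr i) j) V (v j)
    rw [Fintype.sum_sum_type, ih]
    change _ = ∑ j : KI n, act (0 : Matrix κ κ R) V (v (Sum.inl j)) +
      ∑ j : KI n, act (-(kmat n (fun i => Z i.succ) i j)) V (v (Sum.inr j))
    simp only [act_zero, act_neg, Finset.sum_const_zero, zero_add, Finset.sum_neg_distrib]

/-- currying -/
def cur (ι : Type) (κ : Type) (V : Type v) [AddCommGroup V] [Module R V] :
    (ι × κ → V) →ₗ[R] (ι → (κ → V)) where
  toFun x := fun i a => x (i, a)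
  map_add' := fun _ _ => rfl
  map_smul' := fun _ _ => rfl

theorem cur_comm (n : ℕ) (Z : Fin n → Matrix κ κ R) (hZ : ∀ i j, Z i * Z j = Z j * Z i)
    (x : KI n × κ → V) :
    cur (R := R) (KI n) κ V (act (kos n Z hZ).mat V x) = kdF n (endo V Z) (cur (R := R) (KI n) κ V x) := by
  funext i
  rw [kdF_apply]
  funext a
  change ∑ b : KI n × κ, (kos n Z hZ).mat (i, a) b • x b = _
  rw [Fintype.sum_prod_type, Finset.sum_apply]
  rfl

theorem Hc_kos (n : ℕ) (Z : Fin n → Matrix κ κ R) (hZ : ∀ i j, Z i * Z j = Z j * Z i) (j : ℤ) :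
    Hc (kos n Z hZ) V j = Hk (List.ofFn (endo V Z)) ⊤ ⊥ j := by
  rw [← Hk_eq_kdF _ _ _ (endo V Z) rfl]
  have hCm := Cm_ofFn (R := R) (z := endo V Z) (endo_comm V hZ)
  have hgood := good_kd _ hCm
  change Hl (act (kos n Z hZ).mat V) (degPart (kos n Z hZ) V) (botF R (KI n × κ → V)) j = _
  have hsq : ∀ x, act (kos n Z hZ).mat V (act (kos n Z hZ).mat V x) = 0 := by
    intro x
    rw [← act_mul, (kos n Z hZ).sq, act_zero]
  refine Hl_transfer (cur (R := R) (KI n) κ V) (cur_comm V n Z hZ) hsq ?_ ?_ ?_ ?_ j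
  · intro i x hx a ha
    change ∑ b, (kos n Z hZ).mat a b • x b = 0
    refine Finset.sum_eq_zero fun b _ => ?_
    by_cases hb : (kos n Z hZ).mat a b = 0
    · rw [hb, zero_smul]
    · have h1 := (kos n Z hZ).hdeg a b hb
      rw [hx b (by omega), smul_zero]
  · intro i v hv
    have : v = 0 := by
      funext k
      exact (hv k).1
    rw [this, map_zero]
    exact Submodule.zero_mem _
  · intro i
    apply le_antisymm
    · intro v hv
      refine Submodule.mem_sup_left ⟨fun x => v x.1 x.2, fun a ha => ?_, rfl⟩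
      have := (hv a.1).2 ha
      exact congrFun this a.2
    · refine sup_le ?_ (Fm_mono bot_le _)
      rintro _ ⟨x, hx, rfl⟩ k
      refine ⟨trivial, fun hk => ?_⟩
      funext a
      exact hx (k, a) hk
  · intro i
    rw [eq_comm, eq_comm, botF, eq_bot_iff]
    rintro x ⟨_, hx⟩
    change x = 0
    funext a
    exact congrFun (hx a.1).1 a.2

/-- null homotopies -/
theorem kos_null (n : ℕ) (Z : Fin n → Matrix κ κ R) (hZ : ∀ i j, Z i * Z j = Z j * Z i)
    (W : Fin n → Matrix κ κ R) (hW : ∀ i j, W i * Z j = Z j * W i) (r : R)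
    (hr : ∑ i, W i * Z i = r • (1 : Matrix κ κ R)) :
    ∃ h : Matrix (KI n × κ) (KI n × κ) R,
      (∀ a b, h a b ≠ 0 → (kos n Z hZ).deg a = (kos n Z hZ).deg b + 1) ∧
      (kos n Z hZ).mat * h + h * (kos n Z hZ).mat = r • (1 : Matrix (KI n × κ) (KI n × κ) R) := by
  let H : Matrix (KI n) (KI n) (Matrix κ κ R) :=
    ∑ k, (Matrix.diagonal fun _ => W k) * hmat n k
  refine ⟨Matrix.compRingEquiv (KI n) κ R H, ?_, ?_⟩
  · intro a b hab
    by_contra hne
    apply hab
    change H a.1 b.1 a.2 b.2 = 0
    have : H a.1 b.1 = 0 := by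
      have e : H = ∑ k, (Matrix.diagonal fun _ => W k) * hmat n k := rfl
      rw [e, Matrix.sum_apply]
      refine Finset.sum_eq_zero fun k _ => ?_
      rw [Matrix.diagonal_mul]
      by_cases hk : hmat (α := Matrix κ κ R) n k a.1 b.1 = 0
      · rw [hk, mul_zero]
      · exact absurd (hmat_deg n k a.1 b.1 hk) hne
    rw [this]
    rfl
  · change Matrix.compRingEquiv (KI n) κ R (kmat n Z) * Matrix.compRingEquiv (KI n) κ R H +
      Matrix.compRingEquiv (KI n) κ R H * Matrix.compRingEquiv (KI n) κ R (kmat n Z) = _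
    rw [← map_mul, ← map_mul, ← map_add]
    have h1 : kmat n Z * H + H * kmat n Z = Matrix.diagonal fun _ => r • (1 : Matrix κ κ R) := by
      change kmat n Z * (∑ k, (Matrix.diagonal fun _ => W k) * hmat n k) +
        (∑ k, (Matrix.diagonal fun _ => W k) * hmat n k) * kmat n Z = _
      rw [Finset.mul_sum, Finset.sum_mul, ← Finset.sum_add_distrib]
      have h2 : ∀ k, kmat n Z * ((Matrix.diagonal fun _ => W k) * hmat n k) +
          (Matrix.diagonal fun _ => W k) * hmat n k * kmat n Z =
          Matrix.diagonal fun _ => W k * Z k := by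
        intro k
        have hc := kmat_comm (W k) n Z (hW k)
        rw [← Matrix.mul_assoc, ← hc, Matrix.mul_assoc, Matrix.mul_assoc, ← Matrix.mul_add,
          kmat_hmat, Matrix.diagonal_mul_diagonal]
      rw [Finset.sum_congr rfl fun k _ => h2 k, ← hr]
      ext i j : 1
      rw [Matrix.sum_apply]
      by_cases hij : i = j
      · subst hij
        simp only [Matrix.diagonal_apply_eq]
      · simp only [Matrix.diagonal_apply_ne _ hij, Finset.sum_const_zero]
    rw [h1]
    ext ⟨i, a⟩ ⟨j, b⟩
    change (Matrix.diagonal fun _ => r • (1 : Matrix κ κ R)) i j a b = _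
    rw [Matrix.smul_apply, Matrix.one_apply]
    by_cases hij : i = j
    · subst hij
      rw [Matrix.diagonal_apply_eq, Matrix.smul_apply, Matrix.one_apply]
      by_cases hab : a = b
      · subst hab
        simp
      · rw [if_neg hab, if_neg]
        intro h
        exact hab (Prod.mk.inj h).2
    · rw [Matrix.diagonal_apply_ne _ hij, if_neg]
      · simp
      · intro h
        exact hij (Prod.mk.inj h).1

end Kos

end Vale.Agent.P202C.SA
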