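import Vale.Agent.P202C.UPlan
import Vale.Agent.P202C.SL

/-!
P202: the link between the Koszul complex `KS z` and helper19's library `SA` (helper98).
-/

set_option autoImplicit false

namespace Vale.Agent.P202C

open IsLocalRing

universe u v w

section Link

variable {S : Type v} [CommRing S] {D : ℕ} (z : Fin D → S)

/-- `z` extended by zero -/
def zz (l : ℕ) : S := if h : l < D then z ⟨l, h⟩ else 0

theorem zmat_eq (l : ℕ) : zmat z l = zz z l • (1 : Matrix (Fin 1) (Fin 1) S) := by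
  unfold zmat zz
  split_ifs
  · rfl
  · rw [zero_smul]

variable (V : Type w) [AddCommGroup V] [Module S V]

/-- the endomorphisms `z_(n-1), …, z_0` of `V` -/
def kl : ℕ → List (V →ₗ[S] V)
  | 0 => []
  | n + 1 => (zz z n • (LinearMap.id : V →ₗ[S] V)) :: kl n

theorem kl_length (n : ℕ) : (kl z V n).length = n := by
  induction n with
  | zero => rfl
  | succ n ih =>
    change (kl z V n).length + 1 = n + 1
    rw [ih]

theorem kl_eq_map (n : ℕ) : kl z V n =
    ((List.range n).reverse.map (zz z)).map (fun y => y • (LinearMap.id : V →ₗ[S] V)) := by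
  induction n with
  | zero => rfl
  | succ n ih =>
    rw [List.range_succ, List.reverse_append]
    change (zz z n • (LinearMap.id : V →ₗ[S] V)) :: kl z V n = _
    rw [ih]
    rfl

/-- comparison of the index types -/
def ksig : (n : ℕ) → (SA.KI (kl z V n).length ≃ KI 1 n)
  | 0 => (Equiv.ofUnique Unit (Fin 1) : Unit ≃ Fin 1)
  | n + 1 => (Equiv.sumCongr (ksig n) (ksig n) :
      (SA.KI (kl z V n).length ⊕ SA.KI (kl z V n).length) ≃ (KI 1 n ⊕ KI 1 n))

theorem ksig_inl (n : ℕ) (a : SA.KI (kl z V n).length) :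
    ksig z V (n + 1) (Sum.inl a : SA.KI (kl z V n).length ⊕ SA.KI (kl z V n).length) =
      (Sum.inl (ksig z V n a) : KI 1 n ⊕ KI 1 n) := rfl

theorem ksig_inr (n : ℕ) (a : SA.KI (kl z V n).length) :
    ksig z V (n + 1) (Sum.inr a : SA.KI (kl z V n).length ⊕ SA.KI (kl z V n).length) =
      (Sum.inr (ksig z V n a) : KI 1 n ⊕ KI 1 n) := rfl

theorem ksig_deg : ∀ (n : ℕ) (a : SA.KI (kl z V n).length),
    kdeg n (ksig z V n a) = SA.kdeg (kl z V n).length a
  | 0, _ => rfl
  | n + 1, Sum.inl a => ksig_deg n a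
  | n + 1, Sum.inr a => by
    change kdeg n (ksig z V n a) + 1 = SA.kdeg (kl z V n).length a + 1
    rw [ksig_deg n a]

theorem act_blk {n : ℕ} (A B C E : Matrix (KI 1 n) (KI 1 n) S) (x : KI 1 (n + 1) → V) :
    act (blk A B C E) V x = (Sum.elim
      (act A V (fun k => x (Sum.inl k : KI 1 n ⊕ KI 1 n)) +
        act B V (fun k => x (Sum.inr k : KI 1 n ⊕ KI 1 n)))
      (act C V (fun k => x (Sum.inl k : KI 1 n ⊕ KI 1 n)) +
        act E V (fun k => x (Sum.inr k : KI 1 n ⊕ KI 1 n))) : (KI 1 n ⊕ KI 1 n) → V) := by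
  funext a
  change ∑ b : KI 1 n ⊕ KI 1 n, blk A B C E a b • x b = _
  rw [Fintype.sum_sum_type]
  rcases a with a | a <;> rfl

theorem act_sig : ∀ (n : ℕ) (x : KI 1 n → V) (a : SA.KI (kl z V n).length),
    act (kmat (zmat z) n) V x (ksig z V n a) = SA.kd (kl z V n) (fun k => x (ksig z V n k)) a
  | 0, x, a => by
    rw [kmat_zero, SA.act_zero]
    rfl
  | n + 1, x, Sum.inl a => by
    rw [kmat_succ, act_blk]
    change act (kmat (zmat z) n) V (fun k => x (Sum.inl k : KI 1 n ⊕ KI 1 n)) (ksig z V n a) +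
      act (kdiag n (zmat z n)) V (fun k => x (Sum.inr k : KI 1 n ⊕ KI 1 n)) (ksig z V n a) =
      SA.kd (kl z V n) (fun k => x (Sum.inl (ksig z V n k) : KI 1 n ⊕ KI 1 n)) a +
        (zz z n • (LinearMap.id : V →ₗ[S] V)) (x (Sum.inr (ksig z V n a) : KI 1 n ⊕ KI 1 n))
    rw [act_sig n (fun k => x (Sum.inl k : KI 1 n ⊕ KI 1 n)) a, zmat_eq, kdiag_smul_one,
      SA.act_smul, SA.act_one]
    rfl
  | n + 1, x, Sum.inr a => by
    rw [kmat_succ, act_blk]
    change act (0 : Matrix (KI 1 n) (KI 1 n) S) V (fun k => x (Sum.inl k : KI 1 n ⊕ KI 1 n))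
        (ksig z V n a) +
      act (-(kmat (zmat z) n)) V (fun k => x (Sum.inr k : KI 1 n ⊕ KI 1 n)) (ksig z V n a) =
      -(SA.kd (kl z V n) (fun k => x (Sum.inr (ksig z V n k) : KI 1 n ⊕ KI 1 n)) a)
    rw [SA.act_zero, SA.act_neg, Pi.zero_apply, zero_add, Pi.neg_apply,
      act_sig n (fun k => x (Sum.inr k : KI 1 n ⊕ KI 1 n)) a]

theorem kl_Cm (n : ℕ) : SA.Cm (kl z V n) := by
  rw [kl_eq_map]
  intro a ha b hb x
  obtain ⟨c, _, rfl⟩ := List.mem_map.1 ha
  obtain ⟨d, _, rfl⟩ := List.mem_map.1 hb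
  change c • d • x = d • c • x
  exact smul_comm c d x

/-- **link** -/
theorem Hc_KS (j : ℤ) : Hc (KS z) V j = SA.Hk (kl z V D) ⊤ ⊥ j := by
  have hgood := SA.good_kd _ (kl_Cm z V D)
  change SA.Hl (act (KS z).mat V) (degPart (KS z) V) (botF S (KI 1 D → V)) j = _
  have hsq : ∀ x, act (KS z).mat V (act (KS z).mat V x) = 0 := by
    intro x
    rw [← SA.act_mul, (KS z).sq, SA.act_zero]
  let f : (KI 1 D → V) →ₗ[S] (SA.KI (kl z V D).length → V) :=
    { toFun := fun x k => x (ksig z V D k)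
      map_add' := fun _ _ => rfl
      map_smul' := fun _ _ => rfl }
  refine SA.Hl_transfer f ?_ hsq ?_ ?_ ?_ ?_ j
  · intro x
    funext a
    exact act_sig z V D x a
  · intro i x hx a ha
    change ∑ b, (KS z).mat a b • x b = 0
    refine Finset.sum_eq_zero fun b _ => ?_
    by_cases hb : (KS z).mat a b = 0
    · rw [hb, zero_smul]
    · have h1 := (KS z).hdeg a b hb
      rw [hx b (by omega), smul_zero]
  · intro i v hv
    have : v = 0 := by
      funext k
      exact (hv k).1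
    rw [this, map_zero]
    exact Submodule.zero_mem _
  · intro i
    apply le_antisymm
    · intro v hv
      refine Submodule.mem_sup_left ⟨fun x => v ((ksig z V D).symm x), fun a ha => ?_, ?_⟩
      · refine (hv ((ksig z V D).symm a)).2 ?_
        rw [← ksig_deg, Equiv.apply_symm_apply]
        exact ha
      · funext k
        change v ((ksig z V D).symm (ksig z V D k)) = v k
        rw [Equiv.symm_apply_apply]
    · refine sup_le ?_ (SA.Fm_mono bot_le _)
      rintro _ ⟨x, hx, rfl⟩ k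
      refine ⟨trivial, fun hk => ?_⟩
      refine hx (ksig z V D k) ?_
      change kdeg D (ksig z V D k) ≠ i
      rw [ksig_deg]
      exact hk
  · intro i
    rw [eq_comm, eq_comm, botF, eq_bot_iff]
    rintro x ⟨_, hx⟩
    change x = 0
    funext a
    have h1 := (hx ((ksig z V D).symm a)).1
    change x (ksig z V D ((ksig z V D).symm a)) = 0 at h1
    rwa [Equiv.apply_symm_apply] at h1

/-- **link**, Euler characteristic -/
theorem chiG_KS : MI.chiG (KS z) V D = SA.Xk (kl z V D) ⊤ ⊥ := by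
  change _ = ∑ j ∈ Finset.range ((kl z V D).length + 1), (-1 : ℤ) ^ j *
    ((SA.Hk (kl z V D) ⊤ ⊥ j).toNat : ℤ)
  rw [kl_length]
  unfold MI.chiG
  exact Finset.sum_congr rfl fun j _ => by rw [Hc_KS]

end Link

end Vale.Agent.P202C
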