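import Vale.Agent.P202C.KSserre

/-!
P202, (U3): Koszul Euler characteristic of submodules of free modules with small cokernel
(helper99).
-/

set_option autoImplicit false

namespace Vale.Agent.P202C

open IsLocalRing TensorProduct Vale.Agent.P202

universe u v w

section KSsub

variable (R : Type u) [CommRing R] [IsLocalRing R] [IsNoetherianRing R]
  (S : Type v) [CommRing S] [IsLocalRing S] [IsNoetherianRing S] [Algebra R S] [Module.Flat R S]
  [IsLocalHom (algebraMap R S)] (D : ℕ)

omit [IsLocalRing R] [IsNoetherianRing R] [IsLocalHom (algebraMap R S)] in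
/-- support of a module killed by a power of a nonzerodivisor -/
theorem kss_dimM (z : Fin D → S) (hz : ∀ l, z l ∈ maximalIdeal S)
    (hzl : Module.length S (S ⧸ Ideal.span (Set.range z)) ≠ ⊤) (W : Type w) [AddCommGroup W]
    [Module S W] (y : R) (hy' : y ∈ nonZeroDivisors R) (N : ℕ)
    (h : ∀ x : W, (algebraMap R S y) ^ N • x = 0) : SA.dimM S D W := by
  have hyS : algebraMap R S y ∈ nonZeroDivisors S := by
    rw [mem_nonZeroDivisors_iff_right]
    intro s hs
    have h1 : Function.Injective (LinearMap.lTensor S (LinearMap.mulLeft R y)) :=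
      Module.Flat.lTensor_preserves_injective_linearMap _ (fun a b hab => by
        have h2 : y * a = y * b := hab
        exact (mul_cancel_left_mem_nonZeroDivisors hy').mp h2)
    have h3 : LinearMap.lTensor S (LinearMap.mulLeft R y) (s ⊗ₜ[R] (1 : R)) =
        LinearMap.lTensor S (LinearMap.mulLeft R y) 0 := by
      rw [map_zero, LinearMap.lTensor_tmul, LinearMap.mulLeft_apply, mul_one]
      have h4 : s ⊗ₜ[R] y = (s * algebraMap R S y) ⊗ₜ[R] (1 : R) := by
        have h5 : y = y • (1 : R) := by rw [smul_eq_mul, mul_one]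
        conv_lhs => rw [h5]
        rw [← TensorProduct.smul_tmul, Algebra.smul_def, mul_comm]
      rw [h4, hs, TensorProduct.zero_tmul]
    have h6 := h1 h3
    have h7 := congrArg (TensorProduct.rid R S) h6
    rwa [TensorProduct.rid_tmul, one_smul, map_zero] at h7
  refine SA.dimM_of_lt (kss_dim z hz hzl) _ fun p hp => ?_
  have hyp : algebraMap R S y ∈ p.asIdeal := by
    obtain ⟨x, hx⟩ := (Module.mem_support_iff' (R := S)).1 hp
    by_contra hy0
    have hyN : (algebraMap R S y) ^ N ∉ p.asIdeal := fun h0 => hy0 (p.isPrime.mem_of_pow_mem N h0)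
    exact hx _ hyN (h x)
  obtain ⟨q, hq, hqp⟩ := Ideal.exists_minimalPrimes_le (bot_le : (⊥ : Ideal S) ≤ p.asIdeal)
  refine ⟨⟨q, hq.1.1⟩, lt_of_le_of_ne hqp ?_⟩
  intro heq
  have hyq : algebraMap R S y ∈ q := by
    have : q = p.asIdeal := congrArg PrimeSpectrum.asIdeal heq
    rw [this]
    exact hyp
  exact Set.disjoint_left.1 (Ideal.disjoint_nonZeroDivisors_of_mem_minimalPrimes hq) hyq hyS

omit [IsLocalRing R] [IsNoetherianRing R] [IsLocalHom (algebraMap R S)] in
theorem kss_sub_lift (z : Fin D → S) (hz : ∀ l, z l ∈ maximalIdeal S)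
    (hzl : Module.length S (S ⧸ Ideal.span (Set.range z)) ≠ ⊤)
    (V : Type u) [AddCommGroup V] [Module R V] [Module.Finite R V] {m : ℕ}
    (f : V →ₗ[R] (Fin m → R)) (hinj : Function.Injective (f.baseChange S)) (y : R) (N : ℕ)
    (hy' : y ∈ nonZeroDivisors R) (hfy : ∀ v : Fin m → R, y ^ N • v ∈ LinearMap.range f) :
    MI.chiG (KS z) (S ⊗[R] V) D = MI.chiG (KS z) (S ⊗[R] (Fin m → R)) D := by
  refine kss_sub z hzl (f.baseChange S) hinj ?_
  refine kss_dimM R S D z hz hzl _ y hy' N ?_
  intro x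
  obtain ⟨x, rfl⟩ := Submodule.Quotient.mk_surjective _ x
  rw [← Submodule.Quotient.mk_smul, Submodule.Quotient.mk_eq_zero]
  induction x using TensorProduct.induction_on with
  | zero =>
    rw [smul_zero]
    exact Submodule.zero_mem _
  | add a b ha hb =>
    rw [smul_add]
    exact Submodule.add_mem _ ha hb
  | tmul s v =>
    obtain ⟨w, hw⟩ := hfy v
    refine ⟨s ⊗ₜ[R] w, ?_⟩
    rw [LinearMap.baseChange_tmul, hw, ← map_pow, algebraMap_smul, TensorProduct.tmul_smul]

omit [IsLocalRing R] [IsNoetherianRing R] [IsLocalHom (algebraMap R S)] in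
theorem kss_sub_free (z : Fin D → S) (hz : ∀ l, z l ∈ maximalIdeal S)
    (hzl : Module.length S (S ⧸ Ideal.span (Set.range z)) ≠ ⊤)
    (V : Type u) [AddCommGroup V] [Module R V] [Module.Finite R V] (m : ℕ)
    (f : V →ₗ[R] (Fin m → R)) (y : R) (N : ℕ) (hf : Function.Injective f)
    (hy' : y ∈ nonZeroDivisors R) (hfy : ∀ v : Fin m → R, y ^ N • v ∈ LinearMap.range f) :
    MI.chiG (KS z) (S ⊗[R] V) D = m * MI.chiG (KS z) S D := by
  have hinj : Function.Injective (f.baseChange S) :=
    Module.Flat.lTensor_preserves_injective_linearMap f hf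
  have h1 : MI.chiG (KS z) (S ⊗[R] V) D = MI.chiG (KS z) (S ⊗[R] (Fin m → R)) D := by
    refine kss_sub_lift R S D z hz hzl V f hinj y N hy' hfy
  have h2 : MI.chiG (KS z) (S ⊗[R] (Fin m → R)) D = MI.chiG (KS z) (Fin m → S) D :=
    SA.chG_equiv (KS z) (TensorProduct.piScalarRight R S S (Fin m)) D
  have h3 : MI.chiG (KS z) (Fin m → S) D = m * MI.chiG (KS z) S D :=
    (SA.chG_pow (KS z) D (KS_deg z) S (kss_fin z hzl S) m).2
  rw [h1, h2, h3]

/-- (U3) -/
theorem KS_sub_pf (hD : ringKrullDim R = D) (z : Fin D → S) (hz : ∀ l, z l ∈ maximalIdeal S)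
    (hzl : Module.length S (S ⧸ Ideal.span (Set.range z)) ≠ ⊤)
    (V : Type u) [AddCommGroup V] [Module R V] [Module.Finite R V] (m : ℕ)
    (f : V →ₗ[R] (Fin m → R)) (y : R) (N : ℕ) (hf : Function.Injective f)
    (hy : y ∈ maximalIdeal R) (hy' : y ∈ nonZeroDivisors R)
    (hfy : ∀ v : Fin m → R, y ^ N • v ∈ LinearMap.range f) :
    MI.chiG (KS z) (S ⊗[R] V) D = m * MI.chiG (KS z) S D :=
  kss_sub_free R S D z hz hzl V m f y N hf hy' hfy

end KSsub

end Vale.Agent.P202C
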