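import Vale.Agent.P202C.Hom
import Vale.Agent.P202C.Defs
import Vale.Agent.P202.Def

/-!
P202 in characteristic p, stage 2: lengths of powers of parameter ideals (no Lech formula needed).
-/

set_option autoImplicit false

namespace Vale.Agent.P202C

open IsLocalRing

universe u v w

namespace Mon

section Gen

variable {R : Type u} [CommRing R] {M : Type v} [AddCommGroup M] [Module R M]

theorem rlen_eq_ql (N P : Submodule R M) : rlen N P = HC.ql N P := rfl

theorem rlen_top (N : Submodule R M) : rlen N ⊤ = Module.length R (M ⧸ N) := by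
  exact (Submodule.Quotient.equiv (N.submoduleOf ⊤) N Submodule.topEquiv (by
    ext x
    constructor
    · rintro ⟨y, hy, rfl⟩
      exact hy
    · intro hx
      exact ⟨⟨x, trivial⟩, hx, rfl⟩)).length_eq

theorem rlen_add {U V W : Submodule R M} (h1 : U ≤ V) (h2 : V ≤ W) :
    rlen U W = rlen U V + rlen V W := HC.ql_add h1 h2

/-- a module generated by `s i` modulo `N`, with `I s_i ⊆ N` -/
theorem rlen_gen_le {ι : Type w} [Fintype ι] (I : Ideal R) (N P : Submodule R M) (s : ι → M)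
    (hP : P ≤ N ⊔ Submodule.span R (Set.range s)) (hs : ∀ i, ∀ a ∈ I, a • s i ∈ N) :
    rlen N P ≤ (Fintype.card ι : ℕ∞) * Module.length R (R ⧸ I) := by
  classical
  have h1 : rlen N P ≤ rlen N (Submodule.span R (Set.range s) ⊔ N) := by
    rw [sup_comm] at hP
    exact HC.ql_mono N hP
  refine h1.trans ?_
  rw [rlen_eq_ql, HC.ql_sup]
  unfold HC.ql
  set S : Submodule R M := Submodule.span R (Set.range s) with hS
  let s' : ι → ↥S := fun i => ⟨s i, Submodule.subset_span ⟨i, rfl⟩⟩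
  let Q := ↥S ⧸ N.comap S.subtype
  have hk : ∀ i, I ≤ LinearMap.ker (LinearMap.toSpanSingleton R Q
      (Submodule.Quotient.mk (s' i))) := by
    intro i a ha
    rw [LinearMap.mem_ker, LinearMap.toSpanSingleton_apply, ← Submodule.Quotient.mk_smul,
      Submodule.Quotient.mk_eq_zero]
    exact hs i a ha
  let ψ : (ι → R ⧸ I) →ₗ[R] Q := ∑ i, (Submodule.liftQ I (LinearMap.toSpanSingleton R Q
      (Submodule.Quotient.mk (s' i))) (hk i)) ∘ₗ LinearMap.proj i
  have hψ : Function.Surjective ψ := by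
    intro q
    obtain ⟨x, rfl⟩ := Submodule.Quotient.mk_surjective _ q
    obtain ⟨c, hc⟩ := (Submodule.mem_span_range_iff_exists_fun R).mp x.2
    refine ⟨fun i => Submodule.Quotient.mk (c i), ?_⟩
    have h2 : x = ∑ i, c i • s' i := by
      apply Subtype.ext
      rw [← hc, Submodule.coe_sum]
      rfl
    have h3 : (Submodule.Quotient.mk x : Q) = ∑ i, c i • Submodule.Quotient.mk (s' i) := by
      rw [h2]
      have := map_sum (N.comap S.subtype).mkQ (fun i => c i • s' i) Finset.univ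
      exact this
    rw [h3]
    show ψ _ = _
    rw [LinearMap.sum_apply]
    refine Finset.sum_congr rfl fun i _ => ?_
    rw [LinearMap.comp_apply, LinearMap.proj_apply, Submodule.liftQ_apply,
      LinearMap.toSpanSingleton_apply]
  refine (Module.length_le_of_surjective ψ hψ).trans ?_
  rw [Module.length_pi_of_fintype, Finset.sum_const, Finset.card_univ, nsmul_eq_mul]

theorem rlen_chain (J : ℕ → Submodule R M) (hJ : ∀ d, J (d + 1) ≤ J d) (T : ℕ) :
    rlen (J T) (J 0) = ∑ d ∈ Finset.range T, rlen (J (d + 1)) (J d) := by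
  have hJ' : ∀ T, J T ≤ J 0 := by
    intro T
    induction T with
    | zero => exact le_rfl
    | succ T ih => exact (hJ T).trans ih
  induction T with
  | zero =>
    rw [Finset.range_zero, Finset.sum_empty]
    exact HC.ql_self _
  | succ T ih =>
    rw [Finset.sum_range_succ, ← ih, rlen_add (hJ T) (hJ' T), add_comm]

end Gen

section Box

/-- exponents in the box `[0,A)^D` of total degree `d` -/
abbrev Bx (D A d : ℕ) : Type := {α : Fin D → Fin A // ∑ i, (α i : ℕ) = d}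

theorem sum_card_bx (D A : ℕ) : ∑ d ∈ Finset.range (D * A + 1), Fintype.card (Bx D A d) = A ^ D := by
  classical
  have h1 : Fintype.card (Fin D → Fin A) = A ^ D := by
    rw [Fintype.card_fun, Fintype.card_fin, Fintype.card_fin]
  rw [← h1, ← Finset.card_univ,
    Finset.card_eq_sum_card_fiberwise (f := fun α : Fin D → Fin A => ∑ i, (α i : ℕ))
      (t := Finset.range (D * A + 1))]
  · refine Finset.sum_congr rfl fun d _ => ?_
    rw [Fintype.card_subtype]
  · intro α _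
    rw [Finset.mem_coe, Finset.mem_range, Nat.lt_succ_iff]
    calc ∑ i, (α i : ℕ) ≤ ∑ _i : Fin D, A := Finset.sum_le_sum fun i _ => (α i).2.le
      _ = D * A := by rw [Finset.sum_const, Finset.card_univ, Fintype.card_fin, smul_eq_mul]

/-- the number of monomials of degree `a` -/
theorem card_bx {n A a : ℕ} (h : a < A) : Fintype.card (Bx (n + 1) A a) = (a + n).choose n := by
  classical
  have e1 : Bx (n + 1) A a ≃ {P : Fin (n + 1) →₀ ℕ // (P.sum fun _ => id) = a} := by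
    refine Equiv.ofBijective (fun α => ⟨Finsupp.equivFunOnFinite.symm (fun i => (α.1 i : ℕ)), ?_⟩) ?_
    · rw [Finsupp.sum_fintype _ _ (fun _ => rfl)]
      exact α.2
    · constructor
      · intro α β hαβ
        apply Subtype.ext
        funext i
        apply Fin.ext
        have := congrArg (fun P => (P : {P : Fin (n + 1) →₀ ℕ // (P.sum fun _ => id) = a}).1 i) hαβ
        exact this
      · rintro ⟨P, hP⟩
        rw [Finsupp.sum_fintype _ _ (fun _ => rfl)] at hP
        have h2 : ∀ i, P i < A := fun i => by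
          refine lt_of_le_of_lt ?_ h
          rw [← hP]
          exact Finset.single_le_sum (f := fun i => id (P i)) (fun _ _ => Nat.zero_le _)
            (Finset.mem_univ i)
        refine ⟨⟨fun i => ⟨P i, h2 i⟩, hP⟩, ?_⟩
        apply Subtype.ext
        ext i
        rfl
  rw [Fintype.card_congr (e1.trans (Sym.equivNatSum (Fin (n + 1)) a).symm),
    Sym.card_sym_eq_choose, Fintype.card_fin]
  have h3 : n + 1 + a - 1 = a + n := by omega
  rw [h3]
  exact Nat.choose_symm_of_eq_add rfl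

end Box

section Powers

variable {R : Type u} [CommRing R] {D : ℕ} (Y : Fin D → R)

/-- the ideal generated by `Y_j^m` -/
def yp (m : ℕ) : Ideal R := Ideal.span (Set.range (fun j => Y j ^ m))

/-- monomial -/
def mono (α : Fin D → ℕ) : R := ∏ i, Y i ^ α i

theorem mono_mem (α : Fin D → ℕ) : mono Y α ∈ yp Y 1 ^ (∑ i, α i) := by
  unfold mono
  rw [← Finset.prod_pow_eq_pow_sum]
  refine Ideal.prod_mem_prod fun i _ => Ideal.pow_mem_pow ?_ _
  refine Ideal.subset_span ⟨i, ?_⟩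
  exact pow_one _

theorem pow_le (d : ℕ) : yp Y 1 ^ d ≤
    Ideal.span {x | ∃ α : Fin D → ℕ, ∑ i, α i = d ∧ x = mono Y α} := by
  classical
  induction d with
  | zero =>
    rw [pow_zero, Ideal.one_eq_top]
    intro x _
    have h1 : (1 : R) ∈ Ideal.span {x | ∃ α : Fin D → ℕ, ∑ i, α i = 0 ∧ x = mono Y α} := by
      refine Ideal.subset_span ⟨fun _ => 0, by simp, ?_⟩
      unfold mono
      simp
    rw [(Ideal.eq_top_iff_one _).mpr h1]
    trivial
  | succ d ih =>
    rw [pow_succ]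
    refine (Ideal.mul_mono_left ih).trans ?_
    unfold yp
    rw [Ideal.span_mul_span', Ideal.span_le]
    rintro _ ⟨_, ⟨α, hα, rfl⟩, _, ⟨j, rfl⟩, rfl⟩
    refine Ideal.subset_span ⟨fun i => α i + if i = j then 1 else 0, ?_, ?_⟩
    · rw [Finset.sum_add_distrib, hα, Finset.sum_ite_eq' Finset.univ j (fun _ => 1)]
      simp
    · unfold mono
      simp only [pow_add, Finset.prod_mul_distrib]
      congr 1
      rw [Finset.prod_eq_single j]
      · simp
      · intro i _ hi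
        simp [hi]
      · intro h
        exact absurd (Finset.mem_univ j) h

/-- the chain `J_d = (Y)^d + (Y_j^A)` -/
def Jc (A d : ℕ) : Ideal R := yp Y 1 ^ d ⊔ yp Y A

theorem Jc_anti (A d : ℕ) : Jc Y A (d + 1) ≤ Jc Y A d :=
  sup_le_sup_right (Ideal.pow_le_pow_right (Nat.le_succ d)) _

theorem mono_big {A : ℕ} {α : Fin D → ℕ} {j : Fin D} (h : A ≤ α j) : mono Y α ∈ yp Y A := by
  classical
  unfold mono
  rw [← Finset.mul_prod_erase Finset.univ _ (Finset.mem_univ j)]
  refine Ideal.mul_mem_right _ _ ?_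
  obtain ⟨c, hc⟩ := Nat.exists_eq_add_of_le h
  rw [hc, pow_add]
  exact Ideal.mul_mem_right _ _ (Ideal.subset_span ⟨j, rfl⟩)

/-- the pieces of the chain -/
theorem piece_le (A d : ℕ) : rlen (Jc Y A (d + 1)) (Jc Y A d) ≤
    (Fintype.card (Bx D A d) : ℕ∞) * Module.length R (R ⧸ yp Y 1) := by
  refine rlen_gen_le (yp Y 1) _ _ (fun α : Bx D A d => mono Y (fun i => (α.1 i : ℕ))) ?_ ?_
  · refine sup_le ((pow_le Y d).trans ?_) (le_sup_of_le_left le_sup_right)
    rw [Ideal.span_le]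
    rintro _ ⟨α, hα, rfl⟩
    by_cases h : ∀ i, α i < A
    · refine Submodule.mem_sup_right (Submodule.subset_span ?_)
      exact ⟨(⟨fun i => ⟨α i, h i⟩, hα⟩ : Bx D A d), rfl⟩
    · push Not at h
      obtain ⟨j, hj⟩ := h
      exact Submodule.mem_sup_left (Submodule.mem_sup_right (mono_big Y hj))
  · intro α a ha
    refine Submodule.mem_sup_left ?_
    rw [smul_eq_mul, pow_succ']
    have h1 := mono_mem Y (fun i => (α.1 i : ℕ))
    rw [α.2] at h1
    exact Ideal.mul_mem_mul ha h1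

theorem Jc_last (A : ℕ) : Jc Y A (D * A + 1) = yp Y A := by
  refine le_antisymm (sup_le ((pow_le Y _).trans ?_) le_rfl) le_sup_right
  rw [Ideal.span_le]
  rintro _ ⟨α, hα, rfl⟩
  have h : ∃ j, A ≤ α j := by
    by_contra hc
    push Not at hc
    have h1 : ∑ i, α i ≤ D * A := by
      calc ∑ i, α i ≤ ∑ _i : Fin D, A := Finset.sum_le_sum fun i _ => (hc i).le
        _ = D * A := by rw [Finset.sum_const, Finset.card_univ, Fintype.card_fin, smul_eq_mul]
    omega
  obtain ⟨j, hj⟩ := h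
  exact mono_big Y hj

theorem Jc_zero (A : ℕ) : Jc Y A 0 = ⊤ := by
  unfold Jc
  rw [pow_zero, Ideal.one_eq_top, top_sup_eq]

theorem yp_pow_le (A : ℕ) : yp Y A ≤ yp Y 1 ^ A := by
  unfold yp
  rw [Ideal.span_le]
  rintro _ ⟨j, rfl⟩
  refine Ideal.pow_mem_pow (Ideal.subset_span ?_) A
  exact ⟨j, pow_one _⟩

theorem Jc_small {A d : ℕ} (h : d ≤ A) : Jc Y A d = yp Y 1 ^ d :=
  sup_eq_left.mpr ((yp_pow_le Y A).trans (Ideal.pow_le_pow_right h))

theorem length_yp (A : ℕ) : Module.length R (R ⧸ yp Y A) =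
    ∑ d ∈ Finset.range (D * A + 1), rlen (Jc Y A (d + 1)) (Jc Y A d) := by
  rw [← rlen_chain (Jc Y A) (Jc_anti Y A), Jc_last, Jc_zero]
  exact (rlen_top _).symm

/-- **(L1)** `ℓ(R/(Y_j^A)) ≤ A^D ℓ(R/(Y))` -/
theorem length_yp_le (A : ℕ) : Module.length R (R ⧸ yp Y A) ≤
    ((A ^ D : ℕ) : ℕ∞) * Module.length R (R ⧸ yp Y 1) := by
  rw [length_yp, ← sum_card_bx D A, Nat.cast_sum, Finset.sum_mul]
  exact Finset.sum_le_sum fun d _ => piece_le Y A d

end Powers

section Powers2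

variable {R : Type u} [CommRing R] {n : ℕ} (Y : Fin (n + 1) → R)

/-- **(L2)** upper bound -/
theorem mon_le (a : ℕ) : rlen (yp Y 1 ^ (a + 1)) (yp Y 1 ^ a) ≤
    (((a + n).choose n : ℕ) : ℕ∞) * Module.length R (R ⧸ yp Y 1) := by
  have h := piece_le Y (a + 1) a
  rwa [Jc_small Y le_rfl, Jc_small Y (Nat.le_succ a), card_bx (Nat.lt_succ_self a)] at h

/-- **(L2)** lower bound -/
theorem mon_ge {a A : ℕ} (hA : a < A) :
    (((a + n).choose n : ℕ) : ℕ∞) * Module.length R (R ⧸ yp Y 1) +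
      Module.length R (R ⧸ yp Y A) ≤ rlen (yp Y 1 ^ (a + 1)) (yp Y 1 ^ a) +
      ((A ^ (n + 1) : ℕ) : ℕ∞) * Module.length R (R ⧸ yp Y 1) := by
  classical
  have ha : a ∈ Finset.range ((n + 1) * A + 1) := by
    rw [Finset.mem_range]
    nlinarith
  rw [length_yp Y A, ← sum_card_bx (n + 1) A, Nat.cast_sum, Finset.sum_mul,
    ← Finset.add_sum_erase _ _ ha, ← Finset.add_sum_erase _ _ ha, card_bx hA,
    Jc_small Y hA.le, Jc_small Y (Nat.succ_le_of_lt hA), add_left_comm]
  gcongr with d hd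
  exact piece_le Y A d

end Powers2

section Limits

variable {R : Type u} [CommRing R] {n : ℕ} (y : Fin (n + 1) → R)

/-- `ℓ(R/(y_j^m))` -/
noncomputable def lr (m : ℕ) : ℕ := (Module.length R (R ⧸ yp y m)).toNat

theorem yp_yp (m A : ℕ) : yp (fun j => y j ^ m) A = yp y (m * A) := by
  unfold yp
  simp only [pow_mul]

theorem fin_yp {m : ℕ} (h : Module.length R (R ⧸ yp y m) ≠ ⊤) (A : ℕ) :
    Module.length R (R ⧸ yp y (m * A)) ≠ ⊤ := by
  have h1 := length_yp_le (fun j => y j ^ m) A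
  rw [yp_yp, yp_yp, mul_one] at h1
  intro h2
  rw [h2, top_le_iff] at h1
  rw [← ENat.natCast_toNat h, ← Nat.cast_mul] at h1
  exact ENat.natCast_ne_top _ h1

theorem coe_lr {m : ℕ} (h : Module.length R (R ⧸ yp y m) ≠ ⊤) :
    ((lr y m : ℕ) : ℕ∞) = Module.length R (R ⧸ yp y m) := ENat.natCast_toNat h

theorem lr_mul_le {m : ℕ} (h : Module.length R (R ⧸ yp y m) ≠ ⊤) (A : ℕ) :
    lr y (m * A) ≤ A ^ (n + 1) * lr y m := by
  have h1 := length_yp_le (fun j => y j ^ m) A
  rw [yp_yp, yp_yp, mul_one, ← coe_lr y h, ← coe_lr y (fin_yp y h A), ← Nat.cast_mul,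
    Nat.cast_le] at h1
  exact h1

/-- the piece `ℓ(I^a/I^(a+1))` for `I = (y_j^m)` -/
noncomputable def pc (m a : ℕ) : ℕ := (rlen (yp y m ^ (a + 1)) (yp y m ^ a)).toNat

theorem pc_fin {m : ℕ} (h : Module.length R (R ⧸ yp y m) ≠ ⊤) (a : ℕ) :
    rlen (yp y m ^ (a + 1)) (yp y m ^ a) ≠ ⊤ := by
  have h1 := mon_le (fun j => y j ^ m) a
  rw [yp_yp, mul_one] at h1
  intro h2
  rw [h2, top_le_iff] at h1
  rw [← ENat.natCast_toNat h, ← Nat.cast_mul] at h1
  exact ENat.natCast_ne_top _ h1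

theorem coe_pc {m : ℕ} (h : Module.length R (R ⧸ yp y m) ≠ ⊤) (a : ℕ) :
    ((pc y m a : ℕ) : ℕ∞) = rlen (yp y m ^ (a + 1)) (yp y m ^ a) := ENat.natCast_toNat (pc_fin y h a)

theorem pc_le {m : ℕ} (h : Module.length R (R ⧸ yp y m) ≠ ⊤) (a : ℕ) :
    pc y m a ≤ (a + n).choose n * lr y m := by
  have h1 := mon_le (fun j => y j ^ m) a
  rw [yp_yp, mul_one, ← coe_lr y h, ← coe_pc y h, ← Nat.cast_mul, Nat.cast_le] at h1
  exact h1

theorem pc_ge {m : ℕ} (h : Module.length R (R ⧸ yp y m) ≠ ⊤) {a A : ℕ} (hA : a < A) :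
    (a + n).choose n * lr y m + lr y (m * A) ≤ pc y m a + A ^ (n + 1) * lr y m := by
  have h1 := mon_ge (fun j => y j ^ m) hA
  rw [yp_yp, yp_yp, mul_one, ← coe_lr y h, ← coe_pc y h, ← coe_lr y (fin_yp y h A),
    ← Nat.cast_mul, ← Nat.cast_mul, ← Nat.cast_add, ← Nat.cast_add, Nat.cast_le] at h1
  exact h1

/-- the normalised length -/
noncomputable def fE (p e : ℕ) : ℝ := (lr y (p ^ e) : ℝ) / ((p : ℝ) ^ e) ^ (n + 1)

theorem fin_pow (h : Module.length R (R ⧸ yp y 1) ≠ ⊤) (m : ℕ) :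
    Module.length R (R ⧸ yp y m) ≠ ⊤ := by
  have h1 := fin_yp y h m
  rwa [one_mul] at h1

theorem fE_anti {p : ℕ} (hp : 1 < p) (h : Module.length R (R ⧸ yp y 1) ≠ ⊤) :
    Antitone (fE y p) := by
  refine antitone_nat_of_succ_le fun e => ?_
  unfold fE
  have hp0 : (0 : ℝ) < p := by exact_mod_cast (by omega : 0 < p)
  have h1 := lr_mul_le y (fin_pow y h (p ^ e)) p
  rw [← pow_succ] at h1
  rw [div_le_div_iff₀ (by positivity) (by positivity)]
  have h2 : (lr y (p ^ (e + 1)) : ℝ) ≤ (p : ℝ) ^ (n + 1) * lr y (p ^ e) := by exact_mod_cast h1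
  calc (lr y (p ^ (e + 1)) : ℝ) * ((p : ℝ) ^ e) ^ (n + 1)
      ≤ ((p : ℝ) ^ (n + 1) * lr y (p ^ e)) * ((p : ℝ) ^ e) ^ (n + 1) :=
        mul_le_mul_of_nonneg_right h2 (by positivity)
    _ = (lr y (p ^ e) : ℝ) * ((p : ℝ) ^ (e + 1)) ^ (n + 1) := by
        rw [pow_succ (p : ℝ) e, mul_pow]
        ring

theorem fE_nonneg (p e : ℕ) : 0 ≤ fE y p e := by
  unfold fE
  positivity

/-- **(L4), (L5)** the limit `E` of `ℓ(R/(y^{p^e}))/p^{e(n+1)}` -/
theorem exists_E {p : ℕ} (hp : 1 < p) (h : Module.length R (R ⧸ yp y 1) ≠ ⊤) :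
    ∃ E : ℝ, 0 ≤ E ∧ (∀ e, E ≤ fE y p e) ∧
      Filter.Tendsto (fE y p) Filter.atTop (nhds E) ∧
      ∀ a, Filter.Tendsto (fun e => (pc y (p ^ e) a : ℝ) / ((p : ℝ) ^ e) ^ (n + 1))
        Filter.atTop (nhds (((a + n).choose n : ℝ) * E)) := by
  have hp0 : (0 : ℝ) < p := by exact_mod_cast (by omega : 0 < p)
  have hb : BddBelow (Set.range (fE y p)) := ⟨0, by
    rintro _ ⟨e, rfl⟩
    exact fE_nonneg y p e⟩
  have hE := tendsto_atTop_ciInf (fE_anti y hp h) hb
  refine ⟨⨅ e, fE y p e, le_ciInf (fE_nonneg y p), fun e => ciInf_le hb e, hE, fun a => ?_⟩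
  set E := ⨅ e, fE y p e with hEdef
  have hA : a < p ^ a := Nat.lt_pow_self hp
  have hE' : Filter.Tendsto (fun e => fE y p (e + a)) Filter.atTop (nhds E) :=
    hE.comp (Filter.tendsto_add_atTop_nat a)
  have lo : Filter.Tendsto (fun e => ((a + n).choose n : ℝ) * fE y p e -
      (((p ^ a : ℕ) : ℝ)) ^ (n + 1) * (fE y p e - fE y p (e + a))) Filter.atTop
      (nhds (((a + n).choose n : ℝ) * E)) := by
    have h1 := (hE.const_mul ((a + n).choose n : ℝ)).sub
      ((hE.sub hE').const_mul ((((p ^ a : ℕ) : ℝ)) ^ (n + 1)))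
    rw [sub_self, mul_zero, sub_zero] at h1
    exact h1
  refine tendsto_of_tendsto_of_tendsto_of_le_of_le lo (hE.const_mul ((a + n).choose n : ℝ)) ?_ ?_
  · intro e
    have h1 := pc_ge y (fin_pow y h (p ^ e)) hA
    have h2 : ((a + n).choose n : ℝ) * lr y (p ^ e) + lr y (p ^ e * p ^ a) ≤
        pc y (p ^ e) a + ((p ^ a : ℕ) : ℝ) ^ (n + 1) * lr y (p ^ e) := by exact_mod_cast h1
    have h3 : (0 : ℝ) < ((p : ℝ) ^ e) ^ (n + 1) := by positivity
    have h4 : (lr y (p ^ e * p ^ a) : ℝ) =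
        ((p ^ a : ℕ) : ℝ) ^ (n + 1) * fE y p (e + a) * ((p : ℝ) ^ e) ^ (n + 1) := by
      unfold fE
      rw [← pow_add, Nat.cast_pow]
      have h5 : ((p : ℝ) ^ (e + a)) ^ (n + 1) ≠ 0 := by positivity
      field_simp
      rw [pow_add (p : ℝ) e a]
      ring
    have h6 : (lr y (p ^ e) : ℝ) = fE y p e * ((p : ℝ) ^ e) ^ (n + 1) := by
      unfold fE
      field_simp
    rw [h4, h6] at h2
    show _ ≤ (pc y (p ^ e) a : ℝ) / ((p : ℝ) ^ e) ^ (n + 1)
    rw [le_div_iff₀ h3]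
    linarith
  · intro e
    have h1 := pc_le y (fin_pow y h (p ^ e)) a
    have h2 : (pc y (p ^ e) a : ℝ) ≤ ((a + n).choose n : ℝ) * lr y (p ^ e) := by exact_mod_cast h1
    show (pc y (p ^ e) a : ℝ) / ((p : ℝ) ^ e) ^ (n + 1) ≤
      ((a + n).choose n : ℝ) * ((lr y (p ^ e) : ℝ) / ((p : ℝ) ^ e) ^ (n + 1))
    rw [← mul_div_assoc]
    exact div_le_div_of_nonneg_right h2 (by positivity)

end Limits

section LocalR

variable {R : Type u} [CommRing R] {n : ℕ} (y : Fin (n + 1) → R)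

theorem sum_choose (n a : ℕ) :
    ∑ d ∈ Finset.range a, (d + n).choose n = (a + n).choose (n + 1) := by
  induction a with
  | zero =>
    rw [Finset.range_zero, Finset.sum_empty, Nat.choose_eq_zero_of_lt (by omega)]
  | succ a ih =>
    rw [Finset.sum_range_succ, ih]
    have h3 : a + 1 + n = (a + n) + 1 := by omega
    rw [h3, Nat.choose_succ_succ, add_comm]

theorem length_pow_le {m : ℕ} (h : Module.length R (R ⧸ yp y m) ≠ ⊤) (a : ℕ) :
    Module.length R (R ⧸ yp y m ^ a) ≤ (((a + n).choose (n + 1) * lr y m : ℕ) : ℕ∞) := by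
  have h1 := rlen_chain (fun d => yp y m ^ d) (fun d => Ideal.pow_le_pow_right (Nat.le_succ d)) a
  rw [← rlen_top]
  have h0 : (yp y m ^ 0 : Ideal R) = ⊤ := by rw [pow_zero, Ideal.one_eq_top]
  rw [h0] at h1
  refine h1.le.trans ?_
  have h2 : ∀ d ∈ Finset.range a, rlen (yp y m ^ (d + 1)) (yp y m ^ d) ≤
      (((d + n).choose n * lr y m : ℕ) : ℕ∞) := by
    intro d _
    rw [← coe_pc y h]
    exact_mod_cast pc_le y h d
  refine (Finset.sum_le_sum h2).trans ?_
  rw [← Nat.cast_sum, Nat.cast_le, ← Finset.sum_mul]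
  exact Nat.mul_le_mul_right _ (le_of_eq (sum_choose n a))

/-- **(L3)** `e(R) m^(n+1) ≤ ℓ(R/(y_j^m))` -/
theorem mult_le [IsLocalRing R] {e : ℝ} (he : P202.HasMult R e) (hD : ringKrullDim R = (n + 1 : ℕ))
    (hy : ∀ j, y j ∈ maximalIdeal R) {m : ℕ} (hm : 0 < m)
    (h : Module.length R (R ⧸ yp y m) ≠ ⊤) : e * (m : ℝ) ^ (n + 1) ≤ lr y m := by
  obtain ⟨d, hd, he⟩ := he
  have hd' : d = n + 1 := by
    rw [hd] at hD
    exact_mod_cast hD
  subst hd'
  have hm0 : (0 : ℝ) < m := by exact_mod_cast hm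
  have hsub : ∀ a : ℕ, yp y m ^ a ≤ maximalIdeal R ^ (m * a) := by
    intro a
    rw [pow_mul]
    refine Ideal.pow_right_mono ?_ a
    unfold yp
    rw [Ideal.span_le]
    rintro _ ⟨j, rfl⟩
    exact Ideal.pow_mem_pow (hy j) m
  have hlen : ∀ a : ℕ, ((Module.length R (R ⧸ maximalIdeal R ^ (m * a))).toNat : ℝ) ≤
      ((a + n).choose (n + 1) : ℝ) * lr y m := by
    intro a
    have h1 : Module.length R (R ⧸ maximalIdeal R ^ (m * a)) ≤
        (((a + n).choose (n + 1) * lr y m : ℕ) : ℕ∞) :=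
      (Module.length_le_of_surjective (Submodule.factor (hsub a))
        (Submodule.factor_surjective (hsub a))).trans (length_pow_le y h a)
    have h2 := ENat.toNat_le_toNat h1 (ENat.natCast_ne_top _)
    rw [ENat.toNat_natCast] at h2
    exact_mod_cast h2
  have hma : Filter.Tendsto (fun a : ℕ => m * a) Filter.atTop Filter.atTop :=
    Filter.tendsto_id.const_mul_atTop' hm
  have hl := he.comp hma
  have hone : Filter.Tendsto (fun a : ℕ => ((a : ℝ) + n) / a) Filter.atTop (nhds 1) := by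
    have h1 : Filter.Tendsto (fun a : ℕ => (1 : ℝ) + (n : ℝ) / a) Filter.atTop (nhds (1 + 0)) :=
      tendsto_const_nhds.add (tendsto_const_div_atTop_nhds_zero_nat (n : ℝ))
    rw [add_zero] at h1
    refine h1.congr' ?_
    filter_upwards [Filter.eventually_gt_atTop 0] with a ha
    have : (a : ℝ) ≠ 0 := by exact_mod_cast ha.ne'
    field_simp
  have hr : Filter.Tendsto (fun a : ℕ => (((a : ℝ) + n) / a) ^ (n + 1) *
      ((lr y m : ℝ) / (m : ℝ) ^ (n + 1))) Filter.atTop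
      (nhds (1 ^ (n + 1) * ((lr y m : ℝ) / (m : ℝ) ^ (n + 1)))) :=
    (hone.pow (n + 1)).mul_const _
  rw [one_pow, one_mul] at hr
  have hle : e ≤ (lr y m : ℝ) / (m : ℝ) ^ (n + 1) := by
    refine le_of_tendsto_of_tendsto hl hr ?_
    filter_upwards [Filter.eventually_gt_atTop 0] with a ha
    have ha0 : (0 : ℝ) < a := by exact_mod_cast ha
    show ((n + 1).factorial : ℝ) *
        ((Module.length R (R ⧸ maximalIdeal R ^ (m * a))).toNat : ℝ) / ((m * a : ℕ) : ℝ) ^ (n + 1) ≤ _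
    have h1 : ((n + 1).factorial : ℝ) * ((a + n).choose (n + 1) : ℝ) ≤ ((a : ℝ) + n) ^ (n + 1) := by
      have h2 : (n + 1).factorial * (a + n).choose (n + 1) ≤ (a + n) ^ (n + 1) := by
        rw [← Nat.descFactorial_eq_factorial_mul_choose]
        exact Nat.descFactorial_le_pow _ _
      exact_mod_cast h2
    rw [Nat.cast_mul, mul_pow, div_pow, div_mul_div_comm, div_le_div_iff₀ (by positivity)
      (by positivity)]
    have h3 := hlen a
    have h4 : ((n + 1).factorial : ℝ) *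
        ((Module.length R (R ⧸ maximalIdeal R ^ (m * a))).toNat : ℝ) ≤
        ((a : ℝ) + n) ^ (n + 1) * lr y m := by
      calc ((n + 1).factorial : ℝ) *
          ((Module.length R (R ⧸ maximalIdeal R ^ (m * a))).toNat : ℝ)
          ≤ ((n + 1).factorial : ℝ) * (((a + n).choose (n + 1) : ℝ) * lr y m) :=
            mul_le_mul_of_nonneg_left h3 (by positivity)
        _ = (((n + 1).factorial : ℝ) * ((a + n).choose (n + 1) : ℝ)) * lr y m := by ring
        _ ≤ ((a : ℝ) + n) ^ (n + 1) * lr y m := mul_le_mul_of_nonneg_right h1 (by positivity)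
    calc ((n + 1).factorial : ℝ) *
        ((Module.length R (R ⧸ maximalIdeal R ^ (m * a))).toNat : ℝ) *
          ((a : ℝ) ^ (n + 1) * (m : ℝ) ^ (n + 1))
        ≤ (((a : ℝ) + n) ^ (n + 1) * lr y m) * ((a : ℝ) ^ (n + 1) * (m : ℝ) ^ (n + 1)) :=
          mul_le_mul_of_nonneg_right h4 (by positivity)
      _ = _ := by ring
  rwa [le_div_iff₀ (by positivity)] at hle

/-- the multiplicity is at most `E` -/
theorem mult_le_fE [IsLocalRing R] {e : ℝ} (he : P202.HasMult R e)
    (hD : ringKrullDim R = (n + 1 : ℕ)) (hy : ∀ j, y j ∈ maximalIdeal R) {p : ℕ} (hp : 1 < p)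
    (h : Module.length R (R ⧸ yp y 1) ≠ ⊤) (k : ℕ) : e ≤ fE y p k := by
  have h1 := mult_le y he hD hy (m := p ^ k) (by positivity) (fin_pow y h _)
  unfold fE
  have hp0 : (0 : ℝ) < p := by exact_mod_cast (by omega : 0 < p)
  rw [le_div_iff₀ (by positivity)]
  rw [Nat.cast_pow] at h1
  exact h1

/-- **all together** -/
theorem exists_E_local [IsLocalRing R] (hD : ringKrullDim R = (n + 1 : ℕ))
    (hy : ∀ j, y j ∈ maximalIdeal R) {p : ℕ} (hp : 1 < p)
    (h : Module.length R (R ⧸ yp y 1) ≠ ⊤) :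
    ∃ E : ℝ, 0 ≤ E ∧ (∀ e, E ≤ fE y p e) ∧ (∀ e, P202.HasMult R e → e ≤ E) ∧
      Filter.Tendsto (fE y p) Filter.atTop (nhds E) ∧
      ∀ a, Filter.Tendsto (fun e => (pc y (p ^ e) a : ℝ) / ((p : ℝ) ^ e) ^ (n + 1))
        Filter.atTop (nhds (((a + n).choose n : ℝ) * E)) := by
  obtain ⟨E, h1, h2, h3, h4⟩ := exists_E y hp h
  exact ⟨E, h1, h2, fun e he => ge_of_tendsto h3 (Filter.Eventually.of_forall fun k =>
    mult_le_fE y he hD hy hp h k), h3, h4⟩

end LocalR

end Mon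

end Vale.Agent.P202C
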