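import Vale.Agent.P202C.Blk
import Vale.Agent.P202.Def

/-!
P202 in characteristic p, Cohen-Macaulay stage T1: the exact interfaces of the sections (all stubs).
Section owners prove the theorems with exactly these statements in their own files.
-/

set_option autoImplicit false

namespace Vale.Agent.P202C.Plan

open IsLocalRing TensorProduct Vale.Agent.P202C Vale.Agent.P202

universe u v w

/-- Euler characteristic of `G ⊗ V`, degrees `0..D` -/
noncomputable def chiG {R : Type u} [CommRing R] {ι : Type} [Fintype ι] (G : FCx R ι)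
    (V : Type v) [AddCommGroup V] [Module R V] (D : ℕ) : ℤ :=
  ∑ j ∈ Finset.range (D + 1), (-1 : ℤ) ^ j * ((Hc G V j).toNat : ℤ)

/-- the cocycles of degree zero in `F 0` -/
def M0 {R : Type u} [CommRing R] {X : Type v} [AddCommGroup X] [Module R X]
    (C : FiltCx R X) : Submodule R X := C.gr 0 ⊓ C.F 0 ⊓ LinearMap.ker C.d

/-! #### (I) abstract part, helper27 -/

/-- (I.1) main inequality (only `K'` is needed, helper98) -/
theorem main_ineq {R : Type u} [CommRing R] {ι : Type} [Fintype ι] (G : FCx R ι)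
    {X : Type v} [AddCommGroup X] [Module R X] (C : FiltCx R X) (Q : ℤ) (D n : ℕ) (hQ : 0 < Q)
    (hsh : Shift G C Q) (hdeg : ∀ a, 0 ≤ G.deg a ∧ G.deg a ≤ D)
    (hgr : ∀ k, (k < 0 ∨ (n : ℤ) < k) → C.gr k = ⊥)
    (hfin : ∀ s k, sl C s k ≠ ⊤)
    (hA : ∀ i s k : ℤ, 0 ≤ i → i ≤ D → s < (1 - i) * Q → k < i - 1 → sl C s k = 0)
    (hP : ∀ i s k : ℤ, 0 ≤ i → i ≤ D → (1 - i) * Q ≤ s → i < k →
      ∀ x ∈ C.gr k ⊓ C.F s, C.d x = 0 → ∃ w ∈ C.gr (k - 1) ⊓ C.F s, C.d w = x)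
    (hcon : ∃ M : ℕ, ∀ j : ℤ, ∀ x ∈ fam G C (fun i => (1 - i) * Q) j, totd G C x = 0 →
      ∃ w ∈ fam G C (fun i => (1 - i) * Q - M) (j + 1), totd G C w = x)
    (hfinH : ∀ j, Hc G (M0 C) j ≠ ⊤) :
    (∑ a with G.deg a = 0, ∑ s ∈ Finset.Ico (0 : ℤ) Q, slEul C n s) -
      (∑ a with 2 ≤ G.deg a, sgn (G.deg a) *
        ∑ s ∈ Finset.Ico ((1 - G.deg a) * Q) 0, slEul C n s) ≤ chiG G (M0 C) D := by
  sorry

/-! #### (II) explicit blocks and flat base change, helper98 -/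

section Blocks

variable (𝔽 : Type w) [Field 𝔽] {n : ℕ} (R : Type u) [CommRing R] [Algebra (PolyA 𝔽 n) R]

/-- number of negative factors -/
def nneg {n : ℕ} (b : Fin n → ℤ) (s : ℤ) : ℕ :=
  (Finset.univ.filter (fun l => b l + s ≤ -2)).card

/-- (II.1) slices -/
theorem sl_CR [Module.Flat (PolyA 𝔽 n) R] (b : Fin n → ℤ) (s k : ℤ) :
    sl (CR 𝔽 R b) s k = if k = (nneg b s : ℤ) then
      Module.length R (R ⧸ yI 𝔽 n R) * ((∏ l, (b l + s + 1).natAbs : ℕ) : ℕ∞) else 0 := by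
  sorry

/-- (II.2) positivity -/
theorem pos_CR [Module.Flat (PolyA 𝔽 n) R] (b : Fin n → ℤ) (s k : ℤ) (hk : (nneg b s : ℤ) < k) :
    ∀ x ∈ (CR 𝔽 R b).gr k ⊓ (CR 𝔽 R b).F s, (CR 𝔽 R b).d x = 0 →
      ∃ w ∈ (CR 𝔽 R b).gr (k - 1) ⊓ (CR 𝔽 R b).F s, (CR 𝔽 R b).d w = x := by
  sorry

/-- (II.3) cochain degrees -/
theorem gr_CR (b : Fin n → ℤ) (k : ℤ) (hk : k < 0 ∨ (n : ℤ) < k) : (CR 𝔽 R b).gr k = ⊥ := by
  sorry

/-- (II.4) elements of `(y)^Q` raise the filtration by `Q` -/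
theorem shift_CR (b : Fin n → ℤ) (Q : ℕ) (r : R) (hr : r ∈ yI 𝔽 n R ^ Q) (s : ℤ)
    (x : R ⊗[PolyA 𝔽 n] XA 𝔽 n) (hx : x ∈ (CR 𝔽 R b).F s) : r • x ∈ (CR 𝔽 R b).F (s + Q) := by
  sorry

/-! #### (III) acyclicity at `-∞`, helper28 -/

/-- (III) if large powers of the `y_j` are null homotopic on `G` then cycles are boundaries after
going to a lower filtration -/
theorem con_CR {ι : Type} [Fintype ι] [DecidableEq ι] (G : FCx R ι) (b : Fin n → ℤ) (Q : ℤ)
    (hQ : 0 ≤ Q) (D : ℕ) (hdeg : ∀ a, 0 ≤ G.deg a ∧ G.deg a ≤ D) (N : ℕ)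
    (hh : ∀ j : Fin (n + 1), ∃ h : Matrix ι ι R, (∀ a b, h a b ≠ 0 → G.deg a = G.deg b + 1) ∧
      G.mat * h + h * G.mat = (yR 𝔽 R j ^ N) • (1 : Matrix ι ι R)) :
    ∃ M : ℕ, ∀ t j : ℤ, ∀ x ∈ fam G (CR 𝔽 R b) (fun i => t - i * Q) j,
      totd G (CR 𝔽 R b) x = 0 →
      ∃ w ∈ fam G (CR 𝔽 R b) (fun i => t - i * Q - M) (j + 1), totd G (CR 𝔽 R b) w = x := by
  sorry

/-! #### (E-free) generic freeness of `M0`, helper59 -/

/-- (EF) `M0 b` embeds into a free module of rank `n!` with cokernel killed by a power of `y_0` -/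
theorem M0_free [Module.Flat (PolyA 𝔽 n) R] (b : Fin n → ℤ) :
    ∃ (f : M0 (CR 𝔽 R b) →ₗ[R] (Fin n.factorial → R)) (N : ℕ), Function.Injective f ∧
      ∀ v, yR 𝔽 R (0 : Fin (n + 1)) ^ N • v ∈ LinearMap.range f := by
  sorry

end Blocks

/-! #### (IV) numerics, helper40 -/

theorem numer (n : ℕ) : ∃ c : ℝ, ∀ Q : ℕ, 0 < Q → ∃ b : Fin n → ℤ,
    (∀ l : Fin n, (l : ℤ) * Q ≤ b l ∧ b l ≤ ((l : ℤ) + 1) * Q - 1) ∧
    |((∑ s ∈ Finset.Ico (0 : ℤ) Q, ∏ l, (b l + s + 1) : ℤ) : ℝ) -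
      (n.factorial : ℝ) * (Q : ℝ) ^ (n + 1)| ≤ c * (Q : ℝ) ^ n ∧
    ∀ i : ℕ, 1 ≤ i → i ≤ n + 1 →
      |((∑ s ∈ Finset.Ico ((1 - (i : ℤ)) * Q) 0, ∏ l, (b l + s + 1) : ℤ) : ℝ)| ≤
        c * (Q : ℝ) ^ n := by
  sorry

/-! #### (V)+(VI) minimal Koszul model and its Euler characteristics, helper19 and others -/

/-- the data of a minimal model of `K(z;S)` -/
theorem model (R : Type u) [CommRing R] [IsLocalRing R] [IsNoetherianRing R]
    (p : ℕ) [Fact p.Prime] [CharP R p] (hF : (frobenius R p).Finite)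
    (S : Type v) [CommRing S] [IsLocalRing S] [Algebra R S] [Module.Finite R S] [Module.Free R S]
    [IsLocalHom (algebraMap R S)]
    (D : ℕ) (hD : ringKrullDim R = D) (z : Fin D → S) (hz : ∀ l, z l ∈ maximalIdeal S)
    (hzl : Module.length R (S ⧸ Ideal.span (Set.range z)) ≠ ⊤)
    (hzr : RingTheory.Sequence.IsRegular S (List.ofFn z)) :
    ∃ (ι : Type) (_ : Fintype ι) (_ : DecidableEq ι) (G : FCx R ι),
      (∀ a, 0 ≤ G.deg a ∧ G.deg a ≤ D) ∧
      (∀ a b, G.mat a b ∈ maximalIdeal R) ∧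
      (Module.length R (S ⧸ maximalIdeal S) ≤ ((Finset.univ.filter (fun a => G.deg a = 0)).card : ℕ∞)) ∧
      (∃ N : ℕ, ∀ r ∈ maximalIdeal R ^ N, ∃ h : Matrix ι ι R,
        (∀ a b, h a b ≠ 0 → G.deg a = G.deg b + 1) ∧ G.mat * h + h * G.mat = r • (1 : Matrix ι ι R)) ∧
      (∀ (V : Type u) [AddCommGroup V] [Module R V] [Module.Finite R V] (e : ℕ),
        (∀ j, Hc (G.map (iterateFrobenius R p e)) V j ≠ ⊤) ∧
        chiG (G.map (iterateFrobenius R p e)) V D = (p : ℤ) ^ (e * D) * chiG G V D) ∧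
      ((chiG G R D : ℤ) = ((Module.length R (S ⧸ Ideal.span (Set.range z))).toNat : ℤ)) ∧
      (∀ (V : Type u) [AddCommGroup V] [Module R V] [Module.Finite R V] (m : ℕ)
        (f : V →ₗ[R] (Fin m → R)) (y : R) (N : ℕ), Function.Injective f →
        y ∈ maximalIdeal R → y ∈ nonZeroDivisors R →
        (∀ v : Fin m → R, y ^ N • v ∈ LinearMap.range f) → chiG G V D = m * chiG G R D) := by
  sorry

/-! #### (VII) systems of parameters, flatness, multiplicities -/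

/-- (FL) `R` is flat over `𝔽[Y]` if `y` is a regular sequence with `R / (y)` of finite length -/
theorem flat_of_regular (𝔽 : Type w) [Field 𝔽] {n : ℕ} (R : Type u) [CommRing R] [IsLocalRing R]
    [IsNoetherianRing R] [Algebra (PolyA 𝔽 n) R]
    (hreg : RingTheory.Sequence.IsRegular R (List.ofFn (fun j : Fin (n + 1) => yR 𝔽 R j)))
    (hm : ∀ j : Fin (n + 1), yR 𝔽 R j ∈ maximalIdeal R) :
    Module.Flat (PolyA 𝔽 n) R := by
  sorry

/-- (GEN) regular sequence which is a reduction of the maximal ideal -/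
theorem exists_reduction (R : Type u) [CommRing R] [IsLocalRing R] [IsNoetherianRing R]
    [Infinite (ResidueField R)] (D : ℕ) (hD : ringKrullDim R = D)
    (hCM : ∃ rs : List R, RingTheory.Sequence.IsRegular R rs ∧ rs.length = D) :
    ∃ y : Fin D → R, (∀ l, y l ∈ maximalIdeal R) ∧
      RingTheory.Sequence.IsRegular R (List.ofFn y) ∧
      ∃ c : ℕ, ∀ t : ℕ, maximalIdeal R ^ (t + c) ≤ Ideal.span (Set.range y) ^ t := by
  sorry

/-- (MULT) the multiplicity of a Cohen-Macaulay ring -/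
theorem mult_of_reduction (R : Type u) [CommRing R] [IsLocalRing R] [IsNoetherianRing R]
    (D : ℕ) (hD : ringKrullDim R = D) (y : Fin D → R) (hy : ∀ l, y l ∈ maximalIdeal R)
    (hreg : RingTheory.Sequence.IsRegular R (List.ofFn y))
    (c : ℕ) (hc : ∀ t : ℕ, maximalIdeal R ^ (t + c) ≤ Ideal.span (Set.range y) ^ t) :
    Module.length R (R ⧸ Ideal.span (Set.range y)) ≠ ⊤ ∧
    HasMult R ((Module.length R (R ⧸ Ideal.span (Set.range y))).toNat : ℝ) := by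
  sorry

/-- (CMS) finite free local extensions of Cohen-Macaulay rings -/
theorem cm_of_free (R : Type u) [CommRing R] [IsLocalRing R] [IsNoetherianRing R]
    (S : Type v) [CommRing S] [IsLocalRing S] [Algebra R S] [Module.Finite R S] [Module.Free R S]
    [IsLocalHom (algebraMap R S)] (D : ℕ) (hD : ringKrullDim R = D)
    (hCM : ∃ rs : List R, RingTheory.Sequence.IsRegular R rs ∧ rs.length = D) :
    ringKrullDim S = D ∧ ∃ rs : List S, RingTheory.Sequence.IsRegular S rs ∧ rs.length = D := by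
  sorry

end Vale.Agent.P202C.Plan
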