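import Vale.Agent.P202C.Red

/-!
P202 in characteristic p, module F1: reductions of the maximal ideal of an arbitrary Noetherian
local ring with infinite residue field, whose elements avoid a given finite set of ideals (for
instance the associated primes: they are nonzerodivisors if the depth is positive).
-/

set_option autoImplicit false

namespace Vale.Agent.P202C

open IsLocalRing Vale.Agent.P202

universe u

section Red1

variable {R : Type u} [CommRing R] [IsLocalRing R] [IsNoetherianRing R]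

/-- the sequence: superficial, in general position -/
theorem r1_seq [Infinite (ResidueField R)] (s : Finset (Ideal R))
    (hs : ∀ V ∈ s, ¬ maximalIdeal R ≤ V) (n : ℕ) :
    ∃ X : ℕ → R, ∀ i, i < n → X i ∈ maximalIdeal R ∧ (∀ V ∈ s, X i ∉ V) ∧
      Sup (maximalIdeal R) (P X i) (X i) ∧
      ∀ V ∈ (P X i).minimalPrimes, ¬ maximalIdeal R ≤ V → X i ∉ V := by
  classical
  induction n with
  | zero => exact ⟨fun _ => 0, fun i hi => absurd hi (Nat.not_lt_zero _)⟩
  | succ n ih =>
    obtain ⟨X, hX⟩ := ih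
    have hfin : ((P X n).minimalPrimes).Finite := Ideal.finite_minimalPrimes_of_isNoetherianRing R _
    obtain ⟨x, hx, hxs, hsup⟩ := exists_sup (P X n)
      (s ∪ hfin.toFinset.filter (fun V => ¬ maximalIdeal R ≤ V)) (by
        intro V hV
        rcases Finset.mem_union.mp hV with h | h
        · exact hs V h
        · exact (Finset.mem_filter.mp h).2)
    have hP : ∀ i, i ≤ n → P (Function.update X n x) i = P X i := fun i hi =>
      P_congr fun j hj => Function.update_of_ne (by omega) _ _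
    refine ⟨Function.update X n x, fun i hi => ?_⟩
    rcases Nat.lt_succ_iff_lt_or_eq.mp hi with h | h
    · rw [hP i h.le, Function.update_of_ne (by omega)]
      exact hX i h
    · subst h
      rw [hP i le_rfl, Function.update_self]
      refine ⟨hx, fun V hV => hxs V (Finset.mem_union_left _ hV), hsup, fun V hV hV' => ?_⟩
      exact hxs V (Finset.mem_union_right _ (Finset.mem_filter.mpr
        ⟨(Set.Finite.mem_toFinset _).mpr hV, hV'⟩))

omit [IsNoetherianRing R] in
/-- heights of the minimal primes -/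
theorem r1_height (X : ℕ → R) (n : ℕ) (hX : ∀ i, i < n →
      ∀ V ∈ (P X i).minimalPrimes, ¬ maximalIdeal R ≤ V → X i ∉ V) :
    ∀ i, i ≤ n → ∀ Q ∈ (P X i).minimalPrimes, Q = maximalIdeal R ∨ (i : ℕ∞) ≤ Q.height := by
  intro i
  induction i with
  | zero =>
    intro _ Q _
    right
    simp
  | succ i ih =>
    intro hi Q hQ
    have hQp : Q.IsPrime := hQ.1.1
    have hle : P X i ≤ Q := (P_mono X (Nat.le_succ i)).trans hQ.1.2
    obtain ⟨Q', hQ', hQQ⟩ := Ideal.exists_minimalPrimes_le hle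
    have hQ'p : Q'.IsPrime := hQ'.1.1
    by_cases hm : maximalIdeal R ≤ Q'
    · left
      exact le_antisymm (IsLocalRing.le_maximalIdeal hQp.ne_top) (hm.trans hQQ)
    · right
      rcases ih (by omega) Q' hQ' with h | h
      · exact absurd h.ge hm
      · have hx : X i ∉ Q' := hX i (by omega) Q' hQ' hm
        have hxQ : X i ∈ Q := hQ.1.2 (by
          rw [P_succ]
          exact Ideal.mem_sup_right (Ideal.mem_span_singleton_self _))
        have hlt : Q' < Q := lt_of_le_of_ne hQQ (fun h0 => hx (h0 ▸ hxQ))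
        have h1 := Ideal.height_add_one_le_of_lt_of_isPrime hlt
        push_cast
        exact (add_le_add_left h 1).trans h1

theorem r1_fin (X : ℕ → R) (D : ℕ) (hD : ringKrullDim R = D) (hX : ∀ i, i < D →
      ∀ V ∈ (P X i).minimalPrimes, ¬ maximalIdeal R ≤ V → X i ∉ V) :
    ∃ c, maximalIdeal R ^ c ≤ P X D := by
  have h0 := r1_height X D hX D le_rfl
  have hm : (maximalIdeal R).height = D := by
    have h1 := IsLocalRing.maximalIdeal_height_eq_ringKrullDim (R := R)
    rw [hD] at h1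
    exact_mod_cast h1
  have h3 : maximalIdeal R ≤ (P X D).radical := by
    rw [← Ideal.sInf_minimalPrimes]
    refine le_sInf fun Q hQ => ?_
    have hQp : Q.IsPrime := hQ.1.1
    rcases h0 Q hQ with h | h
    · exact h.ge
    · by_contra hcon
      have hlt : Q < maximalIdeal R := lt_of_le_of_ne (IsLocalRing.le_maximalIdeal hQp.ne_top)
        (fun h1 => hcon h1.ge)
      have h2 := Ideal.height_add_one_le_of_lt_of_isPrime hlt
      rw [hm] at h2
      have h4 : (D : ℕ∞) + 1 ≤ D := (add_le_add_left h 1).trans h2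
      have h5 : (D + 1 : ℕ) ≤ D := by exact_mod_cast h4
      omega
  exact Ideal.exists_pow_le_of_le_radical_of_fg h3 (IsNoetherian.noetherian _)

omit [IsLocalRing R] [IsNoetherianRing R] in
theorem r1_span (X : ℕ → R) (D : ℕ) : Ideal.span (Set.range (fun l : Fin D => X l)) = P X D := by
  unfold P
  congr 1
  ext r
  constructor
  · rintro ⟨l, rfl⟩
    exact ⟨l, l.isLt, rfl⟩
  · rintro ⟨j, hj, rfl⟩
    exact ⟨⟨j, hj⟩, rfl⟩

/-- general position reductions: the sequence version -/
theorem exists_red_seq [Infinite (ResidueField R)] (s : Finset (Ideal R))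
    (hs : ∀ V ∈ s, ¬ maximalIdeal R ≤ V) (D : ℕ) (hD : ringKrullDim R = D) :
    ∃ X : ℕ → R, (∀ i, i < D → X i ∈ maximalIdeal R ∧ (∀ V ∈ s, X i ∉ V) ∧
      Sup (maximalIdeal R) (P X i) (X i)) ∧
      ∃ c : ℕ, (∀ N, c ≤ N → maximalIdeal R ^ (N + 1) ≤ P X D * maximalIdeal R ^ N) ∧
        ∀ t : ℕ, maximalIdeal R ^ (t + c) ≤ P X D ^ t := by
  obtain ⟨X, hX⟩ := r1_seq s hs D
  have hfin := r1_fin X D hD (fun i hi => (hX i hi).2.2.2)
  obtain ⟨N₀, hN₀⟩ := rd_red D X (fun i hi => ⟨(hX i hi).1, (hX i hi).2.2.1⟩) hfin D le_rfl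
  rw [Nat.sub_self, P_zero] at hN₀
  refine ⟨X, fun i hi => ⟨(hX i hi).1, (hX i hi).2.1, (hX i hi).2.2.1⟩, N₀, fun N hN => ?_,
    fun t => ?_⟩
  · have := hN₀ N hN
    rwa [bot_sup_eq] at this
  · have h1 : maximalIdeal R ^ (t + N₀) ≤ P X D ^ t * maximalIdeal R ^ N₀ := by
      induction t with
      | zero => simp
      | succ t ih =>
        have h2 := hN₀ (t + N₀) (by omega)
        rw [bot_sup_eq] at h2
        have e : t + 1 + N₀ = t + N₀ + 1 := by ring
        rw [e]
        refine h2.trans ?_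
        rw [pow_succ', mul_assoc]
        exact Ideal.mul_mono_right ih
    exact h1.trans Ideal.mul_le_left

/-- F1, general form: a reduction of the maximal ideal by `D` elements avoiding the ideals `V ∈ s` -/
theorem exists_red_avoid [Infinite (ResidueField R)] (s : Finset (Ideal R))
    (hs : ∀ V ∈ s, ¬ maximalIdeal R ≤ V) (D : ℕ) (hD : ringKrullDim R = D) :
    ∃ y : Fin D → R, (∀ l, y l ∈ maximalIdeal R) ∧ (∀ l, ∀ V ∈ s, y l ∉ V) ∧
      Module.length R (R ⧸ Ideal.span (Set.range y)) ≠ ⊤ ∧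
      ∃ c : ℕ, (∀ N, c ≤ N →
          maximalIdeal R ^ (N + 1) ≤ Ideal.span (Set.range y) * maximalIdeal R ^ N) ∧
        ∀ t : ℕ, maximalIdeal R ^ (t + c) ≤ Ideal.span (Set.range y) ^ t := by
  obtain ⟨X, hX, c, hc, hc'⟩ := exists_red_seq s hs D hD
  refine ⟨fun l : Fin D => X l, fun l => (hX l l.isLt).1, fun l => (hX l l.isLt).2.1, ?_, c, ?_⟩
  · rw [r1_span]
    have h1 : maximalIdeal R ^ (1 + c) ≤ P X D := by
      have := hc' 1
      rwa [pow_one] at this
    have h2 := cl_sup_pow_ne_top (P X D) (1 + c)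
    rw [sup_eq_left.mpr h1] at h2
    exact h2
  · rw [r1_span]
    exact ⟨hc, hc'⟩

/-- F1, plain version -/
theorem exists_red_plain [Infinite (ResidueField R)] (D : ℕ) (hD : ringKrullDim R = D) :
    ∃ y : Fin D → R, (∀ l, y l ∈ maximalIdeal R) ∧
      Module.length R (R ⧸ Ideal.span (Set.range y)) ≠ ⊤ ∧
      ∃ c : ℕ, (∀ N, c ≤ N →
          maximalIdeal R ^ (N + 1) ≤ Ideal.span (Set.range y) * maximalIdeal R ^ N) ∧
        ∀ t : ℕ, maximalIdeal R ^ (t + c) ≤ Ideal.span (Set.range y) ^ t := by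
  obtain ⟨y, h1, -, h3, h4⟩ := exists_red_avoid (R := R) ∅ (by simp) D hD
  exact ⟨y, h1, h3, h4⟩

/-- F1, version of positive depth: all `y l` are nonzerodivisors -/
theorem exists_red_reg [Infinite (ResidueField R)] (D : ℕ) (hD : ringKrullDim R = D)
    (hdep : ∃ a ∈ maximalIdeal R, a ∈ nonZeroDivisors R) :
    ∃ y : Fin D → R, (∀ l, y l ∈ maximalIdeal R) ∧ (∀ l, y l ∈ nonZeroDivisors R) ∧
      Module.length R (R ⧸ Ideal.span (Set.range y)) ≠ ⊤ ∧
      ∃ c : ℕ, (∀ N, c ≤ N →
          maximalIdeal R ^ (N + 1) ≤ Ideal.span (Set.range y) * maximalIdeal R ^ N) ∧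
        ∀ t : ℕ, maximalIdeal R ^ (t + c) ≤ Ideal.span (Set.range y) ^ t := by
  obtain ⟨a, ha, har⟩ := hdep
  have hreg : rdReg (⊥ : Ideal R) a := by
    intro r hr
    rw [Ideal.mem_bot] at hr ⊢
    exact (mul_left_mem_nonZeroDivisors_eq_zero_iff har).mp hr
  obtain ⟨s, hs, hs'⟩ := rd_ass (⊥ : Ideal R) (rdSf_of_reg ha hreg)
  obtain ⟨y, h1, h2, h3, h4⟩ := exists_red_avoid s hs D hD
  refine ⟨y, h1, fun l => ?_, h3, h4⟩
  have h5 := hs' (y l) (h2 l)
  rw [mem_nonZeroDivisors_iff_left]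
  intro r hr
  have := h5 r (by rw [Ideal.mem_bot]; exact hr)
  rwa [Ideal.mem_bot] at this

end Red1

end Vale.Agent.P202C
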