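import Mathlib

/-!
P202 part VI (helper19): relative lengths of submodules, homology of a pair of families of
submodules of one differential module, long exact sequence in numerical form, transfer.
-/

namespace Vale.Agent.P202C.SA

variable {R : Type*} [CommRing R] {M : Type*} [AddCommGroup M] [Module R M]
  {N : Type*} [AddCommGroup N] [Module R N]

/-- length of `P / Q` (for `Q ≤ P`) -/
noncomputable def rl (P Q : Submodule R M) : ℕ∞ := Module.length R (P ⧸ Q.submoduleOf P)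

theorem rl_self (P : Submodule R M) : rl P P = 0 := by
  unfold rl
  have : Subsingleton (P ⧸ P.submoduleOf P) := by
    rw [Submodule.submoduleOf_self]
    infer_instance
  exact Module.length_eq_zero

theorem rl_map (f : M →ₗ[R] N) (P : Submodule R M) (Q : Submodule R N) :
    rl (P.map f ⊔ Q) Q = rl P (P ⊓ Q.comap f) := by
  unfold rl
  let g : P →ₗ[R] (↥(P.map f ⊔ Q) ⧸ Q.submoduleOf (P.map f ⊔ Q)) :=
    (Q.submoduleOf (P.map f ⊔ Q)).mkQ ∘ₗ
      ((f ∘ₗ P.subtype).codRestrict (P.map f ⊔ Q) fun x =>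
        Submodule.mem_sup_left (Submodule.mem_map_of_mem x.2))
  have hg : Function.Surjective g := by
    intro y
    obtain ⟨⟨y, hy⟩, rfl⟩ := Submodule.Quotient.mk_surjective _ y
    obtain ⟨a, ha, b, hb, hab⟩ := Submodule.mem_sup.1 hy
    obtain ⟨x, hx, rfl⟩ := ha
    refine ⟨⟨x, hx⟩, ?_⟩
    refine (Submodule.Quotient.eq _).2 ?_
    change f x - y ∈ Q
    have : f x - y = -b := by rw [← hab]; abel
    rw [this]
    exact Q.neg_mem hb
  have hk : LinearMap.ker g = (P ⊓ Q.comap f).submoduleOf P := by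
    ext x
    rw [LinearMap.mem_ker]
    change Submodule.Quotient.mk _ = (0 : ↥(P.map f ⊔ Q) ⧸ Q.submoduleOf (P.map f ⊔ Q)) ↔ _
    rw [Submodule.Quotient.mk_eq_zero]
    constructor
    · intro h
      exact ⟨x.2, h⟩
    · intro h
      exact h.2
  rw [← hk]
  exact (g.quotKerEquivOfSurjective hg).length_eq.symm

theorem rl_add {P Q T : Submodule R M} (h1 : T ≤ Q) (h2 : Q ≤ P) : rl P T = rl P Q + rl Q T := by
  unfold rl
  -- exact sequence Q/T -> P/T -> P/Q
  let f : (Q ⧸ T.submoduleOf Q) →ₗ[R] (P ⧸ T.submoduleOf P) :=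
    Submodule.mapQ _ _ (Submodule.inclusion h2) (by
      intro x hx
      exact hx)
  let g : (P ⧸ T.submoduleOf P) →ₗ[R] (P ⧸ Q.submoduleOf P) :=
    Submodule.mapQ _ _ LinearMap.id (by
      intro x hx
      exact h1 hx)
  have hf : Function.Injective f := by
    rw [← LinearMap.ker_eq_bot, LinearMap.ker_eq_bot']
    intro x hx
    obtain ⟨x, rfl⟩ := Submodule.Quotient.mk_surjective _ x
    rw [Submodule.Quotient.mk_eq_zero]
    have : Submodule.Quotient.mk (Submodule.inclusion h2 x) = (0 : P ⧸ T.submoduleOf P) := hx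
    rw [Submodule.Quotient.mk_eq_zero] at this
    exact this
  have hg : Function.Surjective g := by
    intro y
    obtain ⟨y, rfl⟩ := Submodule.Quotient.mk_surjective _ y
    exact ⟨Submodule.Quotient.mk y, rfl⟩
  have hex : Function.Exact f g := by
    intro y
    obtain ⟨y, rfl⟩ := Submodule.Quotient.mk_surjective _ y
    constructor
    · intro hy
      have h3 : Submodule.Quotient.mk y = (0 : P ⧸ Q.submoduleOf P) := hy
      rw [Submodule.Quotient.mk_eq_zero] at h3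
      exact ⟨Submodule.Quotient.mk ⟨y, h3⟩, rfl⟩
    · rintro ⟨x, hx⟩
      obtain ⟨x, rfl⟩ := Submodule.Quotient.mk_surjective _ x
      rw [← hx]
      change Submodule.Quotient.mk (Submodule.inclusion h2 x) = (0 : P ⧸ Q.submoduleOf P)
      rw [Submodule.Quotient.mk_eq_zero]
      exact x.2
  rw [Module.length_eq_add_of_exact f g hf hg hex, add_comm]

theorem rl_sup (P Q : Submodule R M) : rl (P ⊔ Q) Q = rl P (P ⊓ Q) := by
  have := rl_map LinearMap.id P Q
  rwa [Submodule.map_id, Submodule.comap_id] at this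

theorem rl_mono_left {P P' Q : Submodule R M} (h : Q ≤ P) (h' : P ≤ P') : rl P Q ≤ rl P' Q := by
  rw [rl_add h h']
  exact le_add_self

theorem rl_mono_right {P Q Q' : Submodule R M} (h : Q ≤ Q') (h' : Q' ≤ P) : rl P Q' ≤ rl P Q := by
  rw [rl_add h h']
  exact le_self_add

/-! ### Homology of pairs of families -/

/-- relative cycles -/
def Zc (d : M →ₗ[R] M) (A B : ℤ → Submodule R M) (j : ℤ) : Submodule R M :=
  A j ⊓ (B (j - 1)).comap d

/-- relative boundaries -/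
def Bd (d : M →ₗ[R] M) (A B : ℤ → Submodule R M) (j : ℤ) : Submodule R M :=
  B j ⊔ (A (j + 1)).map d

/-- length of the homology of `A / B` in degree `j` -/
noncomputable def Hl (d : M →ₗ[R] M) (A B : ℤ → Submodule R M) (j : ℤ) : ℕ∞ :=
  rl (Zc d A B j) (Bd d A B j)

/-- `A` is a subcomplex -/
def Stab (d : M →ₗ[R] M) (A : ℤ → Submodule R M) : Prop :=
  ∀ j, ∀ x ∈ A j, d x ∈ A (j - 1)

variable {d : M →ₗ[R] M} {A B C : ℤ → Submodule R M}

theorem stab_succ (hA : Stab d A) {j : ℤ} {x : M} (hx : x ∈ A (j + 1)) : d x ∈ A j := by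
  have := hA (j + 1) x hx
  rwa [add_sub_cancel_right] at this

theorem Bd_le_Zc (hd : ∀ x, d (d x) = 0) (hA : Stab d A) (hB : Stab d B) (hBA : ∀ j, B j ≤ A j)
    (j : ℤ) : Bd d A B j ≤ Zc d A B j := by
  refine sup_le (le_inf (hBA j) fun x hx => hB j x hx) ?_
  rintro _ ⟨x, hx, rfl⟩
  refine ⟨stab_succ hA hx, ?_⟩
  change d (d x) ∈ B (j - 1)
  rw [hd]
  exact Submodule.zero_mem _

theorem mem_Bd {j : ℤ} {x : M} : x ∈ Bd d A B j ↔ ∃ b ∈ B j, ∃ a ∈ A (j + 1), b + d a = x := by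
  unfold Bd
  rw [Submodule.mem_sup]
  constructor
  · rintro ⟨b, hb, _, ⟨a, ha, rfl⟩, h⟩
    exact ⟨b, hb, a, ha, h⟩
  · rintro ⟨b, hb, a, ha, h⟩
    exact ⟨b, hb, _, ⟨a, ha, rfl⟩, h⟩

theorem mem_Zc {j : ℤ} {x : M} : x ∈ Zc d A B j ↔ x ∈ A j ∧ d x ∈ B (j - 1) := Iff.rfl

/-- numbers of the long exact sequence of a triple -/
noncomputable def lk (d : M →ₗ[R] M) (A B C : ℤ → Submodule R M) (j : ℤ) : ℕ∞ :=
  rl (Zc d B C j ⊔ Bd d A C j) (Bd d A C j)

noncomputable def ll (d : M →ₗ[R] M) (A B C : ℤ → Submodule R M) (j : ℤ) : ℕ∞ :=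
  rl (Zc d A C j) (Zc d B C j ⊔ Bd d A C j)

noncomputable def lm (d : M →ₗ[R] M) (A B C : ℤ → Submodule R M) (j : ℤ) : ℕ∞ :=
  rl (Zc d A B j) (Zc d A C j ⊔ Bd d A B j)

theorem Hl_AC (hd : ∀ x, d (d x) = 0) (hA : Stab d A) (hC : Stab d C)
    (hCB : ∀ j, C j ≤ B j) (hBA : ∀ j, B j ≤ A j) (j : ℤ) :
    Hl d A C j = ll d A B C j + lk d A B C j := by
  refine rl_add le_sup_right (sup_le ?_ (Bd_le_Zc hd hA hC (fun i => (hCB i).trans (hBA i)) j))
  exact inf_le_inf (hBA j) le_rfl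

theorem Hl_AB (hd : ∀ x, d (d x) = 0) (hA : Stab d A) (hB : Stab d B) (hC : Stab d C)
    (hCB : ∀ j, C j ≤ B j) (hBA : ∀ j, B j ≤ A j) (j : ℤ) :
    Hl d A B j = lm d A B C j + ll d A B C j := by
  have h1 : Zc d A C j ≤ Zc d A B j := inf_le_inf le_rfl (Submodule.comap_mono (hCB _))
  have h2 := Bd_le_Zc hd hA hB hBA j
  rw [Hl, rl_add le_sup_right (sup_le h1 h2), lm, ll]
  congr 1
  rw [rl_sup]
  congr 1
  ext x
  constructor
  · rintro ⟨hx, hx'⟩
    obtain ⟨b, hb, a, ha, rfl⟩ := mem_Bd.1 hx'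
    refine Submodule.add_mem _ (Submodule.mem_sup_left ⟨hb, ?_⟩)
      (Submodule.mem_sup_right (mem_Bd.2 ⟨0, Submodule.zero_mem _, a, ha, by simp⟩))
    have := hx.2
    change d (b + d a) ∈ C (j - 1) at this
    rwa [map_add, hd, add_zero] at this
  · intro hx
    refine ⟨(sup_le (inf_le_inf (hBA j) le_rfl)
      (Bd_le_Zc hd hA hC (fun i => (hCB i).trans (hBA i)) j) : _ ≤ Zc d A C j) hx, ?_⟩
    refine (sup_le ?_ ?_ : _ ≤ Bd d A B j) hx
    · intro y hy
      exact Submodule.mem_sup_left hy.1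
    · exact sup_le_sup (hCB j) le_rfl

theorem Hl_BC (hd : ∀ x, d (d x) = 0) (hA : Stab d A) (hB : Stab d B) (hC : Stab d C)
    (hCB : ∀ j, C j ≤ B j) (hBA : ∀ j, B j ≤ A j) (j : ℤ) :
    Hl d B C j = lk d A B C j + lm d A B C (j + 1) := by
  have hCA : ∀ i, C i ≤ A i := fun i => (hCB i).trans (hBA i)
  have h0 : Bd d B C j ≤ Zc d B C j ⊓ Bd d A C j :=
    le_inf (Bd_le_Zc hd hB hC hCB j) (sup_le_sup le_rfl (Submodule.map_mono (hBA _)))
  rw [Hl, rl_add h0 inf_le_left, lk, rl_sup, lm]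
  congr 1
  -- `d` induces an isomorphism
  have h1 : (Zc d A B (j + 1)).map d ⊔ Bd d B C j = Zc d B C j ⊓ Bd d A C j := by
    ext x
    constructor
    · intro hx
      refine (sup_le ?_ h0 : _ ≤ Zc d B C j ⊓ Bd d A C j) hx
      rintro _ ⟨a, ha, rfl⟩
      have h2 : d a ∈ B j := by
        have := ha.2
        change d a ∈ B (j + 1 - 1) at this
        rwa [add_sub_cancel_right] at this
      refine ⟨⟨h2, ?_⟩, mem_Bd.2 ⟨0, Submodule.zero_mem _, a, ha.1, by simp⟩⟩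
      change d (d a) ∈ C (j - 1)
      rw [hd]
      exact Submodule.zero_mem _
    · rintro ⟨⟨hx1, hx2⟩, hx3⟩
      obtain ⟨c, hc, a, ha, rfl⟩ := mem_Bd.1 hx3
      refine Submodule.add_mem _ (Submodule.mem_sup_right (Submodule.mem_sup_left hc))
        (Submodule.mem_sup_left ⟨a, ⟨ha, ?_⟩, rfl⟩)
      change d a ∈ B (j + 1 - 1)
      rw [add_sub_cancel_right]
      have : d a = (c + d a) - c := by abel
      rw [this]
      exact Submodule.sub_mem _ hx1 (hCB j hc)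
  rw [← h1, rl_map]
  congr 1
  ext x
  constructor
  · rintro ⟨hx1, hx2⟩
    obtain ⟨c, hc, b, hb, h⟩ := mem_Bd.1 (show d x ∈ Bd d B C j from hx2)
    have h3 : x = (x - b) + b := by abel
    rw [h3]
    refine Submodule.add_mem _ (Submodule.mem_sup_left ⟨Submodule.sub_mem _ hx1.1 (hBA _ hb), ?_⟩)
      (Submodule.mem_sup_right (Submodule.mem_sup_left hb))
    change d (x - b) ∈ C (j + 1 - 1)
    rw [add_sub_cancel_right, map_sub, ← h, add_sub_cancel_right]
    exact hc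
  · intro hx
    obtain ⟨y, hy, w, hw, rfl⟩ := Submodule.mem_sup.1 hx
    refine ⟨Submodule.add_mem _ ?_ (Bd_le_Zc hd hA hB hBA _ hw), ?_⟩
    · exact ⟨hy.1, hCB _ hy.2⟩
    change d (y + w) ∈ Bd d B C j
    obtain ⟨b, hb, a, ha, rfl⟩ := mem_Bd.1 hw
    refine mem_Bd.2 ⟨d y, ?_, b, hb, ?_⟩
    · have := hy.2
      change d y ∈ C (j + 1 - 1) at this
      rwa [add_sub_cancel_right] at this
    · rw [map_add, map_add, hd, add_zero]

/-- transfer along a map inducing bijections `A j / B j → A' j / B' j` -/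
theorem Hl_transfer {d' : N →ₗ[R] N} {A' B' : ℤ → Submodule R N} (f : M →ₗ[R] N)
    (hf : ∀ x, f (d x) = d' (f x)) (hd : ∀ x, d (d x) = 0) (hA : Stab d A) (hB' : Stab d' B')
    (h1 : ∀ j, A' j = (A j).map f ⊔ B' j) (h2 : ∀ j, A j ⊓ (B' j).comap f = B j) (j : ℤ) :
    Hl d A B j = Hl d' A' B' j := by
  have hBA : ∀ i, B i ≤ A i := fun i => by rw [← h2]; exact inf_le_left
  have hBf : ∀ i, ∀ x ∈ B i, f x ∈ B' i := fun i x hx => by
    rw [← h2] at hx; exact hx.2
  have h3 : Bd d' A' B' j ≤ Zc d' A' B' j := by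
    intro x hx
    obtain ⟨b, hb, a', ha', rfl⟩ := mem_Bd.1 hx
    rw [h1] at ha'
    obtain ⟨_, ⟨a, ha, rfl⟩, b2, hb2, rfl⟩ := Submodule.mem_sup.1 ha'
    refine Submodule.add_mem _ ⟨?_, hB' j b hb⟩ ?_
    · rw [h1]; exact Submodule.mem_sup_right hb
    · rw [map_add]
      refine Submodule.add_mem _ ⟨?_, ?_⟩ ⟨?_, ?_⟩
      · rw [h1, ← hf]
        exact Submodule.mem_sup_left ⟨_, stab_succ hA ha, rfl⟩
      · change d' (d' (f a)) ∈ B' (j - 1)
        rw [← hf, ← hf, hd, map_zero]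
        exact Submodule.zero_mem _
      · rw [h1]
        exact Submodule.mem_sup_right (stab_succ hB' hb2)
      · exact hB' j _ (stab_succ hB' hb2)
  have h4 : (Zc d A B j).map f ⊔ Bd d' A' B' j = Zc d' A' B' j := by
    apply le_antisymm
    · refine sup_le ?_ h3
      rintro _ ⟨x, hx, rfl⟩
      refine ⟨?_, ?_⟩
      · rw [h1]
        exact Submodule.mem_sup_left ⟨x, hx.1, rfl⟩
      · change d' (f x) ∈ B' (j - 1)
        rw [← hf]
        exact hBf _ _ hx.2
    · rintro x ⟨hx1, hx2⟩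
      rw [h1] at hx1
      obtain ⟨_, ⟨a, ha, rfl⟩, b, hb, rfl⟩ := Submodule.mem_sup.1 hx1
      refine Submodule.add_mem _ (Submodule.mem_sup_left ⟨a, ⟨ha, ?_⟩, rfl⟩)
        (Submodule.mem_sup_right (Submodule.mem_sup_left hb))
      change d a ∈ B (j - 1)
      rw [← h2]
      refine ⟨hA j a ha, ?_⟩
      change f (d a) ∈ B' (j - 1)
      have h5 : f (d a) = d' (f a + b) - d' b := by rw [hf, map_add]; abel
      rw [h5]
      exact Submodule.sub_mem _ hx2 (hB' j b hb)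
  rw [Hl, Hl, ← h4, rl_map]
  congr 1
  ext x
  constructor
  · intro hx
    obtain ⟨b, hb, a, ha, rfl⟩ := mem_Bd.1 hx
    refine ⟨Submodule.add_mem _ ⟨hBA j hb, ?_⟩ ⟨stab_succ hA ha, ?_⟩, ?_⟩
    · change d b ∈ B (j - 1)
      rw [← h2]
      refine ⟨hA j b (hBA j hb), ?_⟩
      change f (d b) ∈ B' (j - 1)
      rw [hf]
      exact hB' j _ (hBf j b hb)
    · change d (d a) ∈ B (j - 1)
      rw [hd]
      exact Submodule.zero_mem _
    · change f (b + d a) ∈ Bd d' A' B' j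
      refine mem_Bd.2 ⟨f b, hBf j b hb, f a, ?_, ?_⟩
      · rw [h1]
        exact Submodule.mem_sup_left ⟨a, ha, rfl⟩
      · rw [map_add, hf]
  · rintro ⟨hx1, hx2⟩
    obtain ⟨b, hb, a', ha', h⟩ := mem_Bd.1 (show f x ∈ Bd d' A' B' j from hx2)
    rw [h1] at ha'
    obtain ⟨_, ⟨a, ha, rfl⟩, b2, hb2, rfl⟩ := Submodule.mem_sup.1 ha'
    have h3 : x = (x - d a) + d a := by abel
    rw [h3]
    refine Submodule.add_mem _ (Submodule.mem_sup_left ?_)
      (mem_Bd.2 ⟨0, Submodule.zero_mem _, a, ha, by simp⟩)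
    rw [← h2]
    refine ⟨Submodule.sub_mem _ hx1.1 (stab_succ hA ha), ?_⟩
    change f (x - d a) ∈ B' j
    have h5 : f (x - d a) = b + d' b2 := by
      rw [map_sub, hf, ← h, map_add]; abel
    rw [h5]
    exact Submodule.add_mem _ hb (stab_succ hB' hb2)

/-! ### Euler characteristic -/

/-- Euler characteristic of `A / B`, degrees `0 .. n` -/
noncomputable def chi (d : M →ₗ[R] M) (A B : ℤ → Submodule R M) (n : ℕ) : ℤ :=
  ∑ j ∈ Finset.range (n + 1), (-1) ^ j * ((Hl d A B j).toNat : ℤ)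

theorem Hl_eq_zero_of_le {j : ℤ} (h : A j ≤ B j) : Hl d A B j = 0 := by
  have h1 : Zc d A B j ≤ Bd d A B j := fun x hx => Submodule.mem_sup_left (h hx.1)
  unfold Hl rl
  have : Subsingleton (Zc d A B j ⧸ (Bd d A B j).submoduleOf (Zc d A B j)) := by
    refine ⟨fun x y => ?_⟩
    obtain ⟨x, rfl⟩ := Submodule.Quotient.mk_surjective _ x
    obtain ⟨y, rfl⟩ := Submodule.Quotient.mk_surjective _ y
    refine (Submodule.Quotient.eq _).2 ?_
    exact h1 (x - y).2
  exact Module.length_eq_zero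

theorem chi_add (hd : ∀ x, d (d x) = 0) (hA : Stab d A) (hB : Stab d B) (hC : Stab d C)
    (hCB : ∀ j, C j ≤ B j) (hBA : ∀ j, B j ≤ A j) (n : ℕ)
    (hneg : A (-1) ≤ C (-1)) (hn : A (n + 1) ≤ C (n + 1))
    (hAB : ∀ j, Hl d A B j ≠ ⊤) (hBC : ∀ j, Hl d B C j ≠ ⊤) :
    (∀ j, Hl d A C j ≠ ⊤) ∧ chi d A C n = chi d A B n + chi d B C n := by
  have e1 := Hl_AC hd hA hC hCB hBA
  have e2 := Hl_AB hd hA hB hC hCB hBA
  have e3 := Hl_BC hd hA hB hC hCB hBA
  have hm : ∀ j, lm d A B C j ≠ ⊤ := fun j h => hAB j (by rw [e2, h]; rfl)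
  have hl : ∀ j, ll d A B C j ≠ ⊤ := fun j h => hAB j (by rw [e2, h, add_top])
  have hk : ∀ j, lk d A B C j ≠ ⊤ := fun j h => hBC j (by rw [e3, h]; rfl)
  have hm0 : lm d A B C 0 = 0 := by
    have h := e3 (-1)
    rw [Hl_eq_zero_of_le ((hBA _).trans hneg)] at h
    have := (add_eq_zero.1 h.symm).2
    simpa using this
  have hmn : lm d A B C (n + 1) = 0 := by
    have h := e2 (n + 1)
    rw [Hl_eq_zero_of_le (hn.trans (hCB _))] at h
    exact (add_eq_zero.1 h.symm).1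
  refine ⟨fun j => by rw [e1]; exact WithTop.add_ne_top.2 ⟨hl j, hk j⟩, ?_⟩
  have key : ∀ m : ℕ, (∑ j ∈ Finset.range (m + 1), (-1 : ℤ) ^ j *
      (((Hl d A B j).toNat : ℤ) + ((Hl d B C j).toNat : ℤ) - ((Hl d A C j).toNat : ℤ))) =
      ((lm d A B C 0).toNat : ℤ) + (-1) ^ m * ((lm d A B C (m + 1)).toNat : ℤ) := by
    intro m
    have hterm : ∀ j : ℕ, (((Hl d A B j).toNat : ℤ) + ((Hl d B C j).toNat : ℤ) -
        ((Hl d A C j).toNat : ℤ)) =
        ((lm d A B C j).toNat : ℤ) + ((lm d A B C (j + 1)).toNat : ℤ) := by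
      intro j
      rw [e1, e2, e3, ENat.toNat_add (hm j) (hl j), ENat.toNat_add (hk j) (hm _),
        ENat.toNat_add (hl j) (hk j)]
      push_cast
      ring
    induction m with
    | zero =>
      rw [zero_add, Finset.sum_range_one, hterm]
      simp
    | succ m ih =>
      rw [Finset.sum_range_succ, ih, hterm]
      push_cast
      ring
  have := key n
  rw [hm0, hmn] at this
  simp only [ENat.toNat_zero, Nat.cast_zero, mul_zero, add_zero] at this
  unfold chi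
  rw [← Finset.sum_add_distrib, ← sub_eq_zero, ← Finset.sum_sub_distrib]
  rw [← neg_eq_zero, ← Finset.sum_neg_distrib, ← this]
  refine Finset.sum_congr rfl fun j _ => ?_
  ring

end Vale.Agent.P202C.SA
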