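import Vale.Agent.P202C.SA

/-!
P202 part VI (helper19): iterated cones (Koszul complexes) of a list of commuting endomorphisms,
with coefficients in a subquotient `P / Q` of one module.
-/

namespace Vale.Agent.P202C.SA

variable {R : Type*} [CommRing R] {X : Type*} [AddCommGroup X] [Module R X]

/-- the family of the complex with coefficients in a submodule `P` -/
def Fm {ι : Type} (deg : ι → ℤ) (P : Submodule R X) (j : ℤ) : Submodule R (ι → X) where
  carrier := {v | ∀ i, v i ∈ P ∧ (deg i ≠ j → v i = 0)}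
  zero_mem' := fun _ => ⟨P.zero_mem, fun _ => rfl⟩
  add_mem' := fun {v w} hv hw i => ⟨P.add_mem (hv i).1 (hw i).1, fun h => by
    rw [Pi.add_apply, (hv i).2 h, (hw i).2 h, add_zero]⟩
  smul_mem' := fun r v hv i => ⟨P.smul_mem r (hv i).1, fun h => by
    rw [Pi.smul_apply, (hv i).2 h, smul_zero]⟩

theorem mem_Fm {ι : Type} {deg : ι → ℤ} {P : Submodule R X} {j : ℤ} {v : ι → X} :
    v ∈ Fm deg P j ↔ ∀ i, v i ∈ P ∧ (deg i ≠ j → v i = 0) := Iff.rfl

theorem Fm_mono {ι : Type} {deg : ι → ℤ} {P Q : Submodule R X} (h : Q ≤ P) (j : ℤ) :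
    Fm deg Q j ≤ Fm deg P j := fun _ hv i => ⟨h (hv i).1, (hv i).2⟩

/-- the cone differential of an endomorphism -/
def coneD {ι : Type} (d : (ι → X) →ₗ[R] (ι → X)) (z : X →ₗ[R] X) :
    (ι ⊕ ι → X) →ₗ[R] (ι ⊕ ι → X) where
  toFun v := Sum.elim (fun i => d (fun k => v (Sum.inl k)) i + z (v (Sum.inr i)))
    (fun i => -(d (fun k => v (Sum.inr k)) i))
  map_add' := fun v w => by
    funext s
    rcases s with i | i
    · have e : d (fun k => v (Sum.inl k) + w (Sum.inl k)) i =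
          d (fun k => v (Sum.inl k)) i + d (fun k => w (Sum.inl k)) i := congrFun (map_add d _ _) i
      change d (fun k => v (Sum.inl k) + w (Sum.inl k)) i + z (v (Sum.inr i) + w (Sum.inr i)) =
        (d (fun k => v (Sum.inl k)) i + z (v (Sum.inr i))) +
        (d (fun k => w (Sum.inl k)) i + z (w (Sum.inr i)))
      rw [e, map_add]
      abel
    · have e : d (fun k => v (Sum.inr k) + w (Sum.inr k)) i =
          d (fun k => v (Sum.inr k)) i + d (fun k => w (Sum.inr k)) i := congrFun (map_add d _ _) i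
      change -(d (fun k => v (Sum.inr k) + w (Sum.inr k)) i) =
        -(d (fun k => v (Sum.inr k)) i) + -(d (fun k => w (Sum.inr k)) i)
      rw [e]
      abel
  map_smul' := fun r v => by
    funext s
    rcases s with i | i
    · have e : d (fun k => r • v (Sum.inl k)) i = r • d (fun k => v (Sum.inl k)) i :=
        congrFun (map_smul d r _) i
      change d (fun k => r • v (Sum.inl k)) i + z (r • v (Sum.inr i)) =
        r • (d (fun k => v (Sum.inl k)) i + z (v (Sum.inr i)))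
      rw [e, map_smul, smul_add]
    · have e : d (fun k => r • v (Sum.inr k)) i = r • d (fun k => v (Sum.inr k)) i :=
        congrFun (map_smul d r _) i
      change -(d (fun k => r • v (Sum.inr k)) i) = r • -(d (fun k => v (Sum.inr k)) i)
      rw [e, smul_neg]

theorem coneD_inl {ι : Type} (d : (ι → X) →ₗ[R] (ι → X)) (z : X →ₗ[R] X) (v : ι ⊕ ι → X) (i : ι) :
    coneD d z v (Sum.inl i) = d (fun k => v (Sum.inl k)) i + z (v (Sum.inr i)) := rfl

theorem coneD_inr {ι : Type} (d : (ι → X) →ₗ[R] (ι → X)) (z : X →ₗ[R] X) (v : ι ⊕ ι → X) (i : ι) :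
    coneD d z v (Sum.inr i) = -(d (fun k => v (Sum.inr k)) i) := rfl

/-- index type of the Koszul complex -/
def KI : ℕ → Type
  | 0 => Unit
  | n + 1 => KI n ⊕ KI n

/-- degrees -/
def kdeg : (n : ℕ) → KI n → ℤ
  | 0, _ => 0
  | n + 1, Sum.inl a => kdeg n a
  | n + 1, Sum.inr a => kdeg n a + 1

/-- degrees of a cone -/
def cdeg {ι : Type} (deg : ι → ℤ) : ι ⊕ ι → ℤ := Sum.elim deg (fun a => deg a + 1)

theorem kdeg_succ (n : ℕ) : kdeg (n + 1) = cdeg (kdeg n) := by
  funext a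
  rcases a with a | a <;> rfl

/-- Koszul differential -/
def kd : (l : List (X →ₗ[R] X)) → ((KI l.length → X) →ₗ[R] (KI l.length → X))
  | [] => 0
  | z :: l => coneD (kd l) z

/-- `P` is stable under the endomorphisms of the list -/
def St (l : List (X →ₗ[R] X)) (P : Submodule R X) : Prop := ∀ z ∈ l, ∀ x ∈ P, z x ∈ P

/-- pairwise commuting -/
def Cm (l : List (X →ₗ[R] X)) : Prop := ∀ z ∈ l, ∀ w ∈ l, ∀ x, z (w x) = w (z x)

/-- data of a complex of the form considered: `d` square zero, preserving the families of the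
stable submodules -/
structure Good {ι : Type} (deg : ι → ℤ) (d : (ι → X) →ₗ[R] (ι → X)) (l : List (X →ₗ[R] X)) :
    Prop where
  dd : ∀ v, d (d v) = 0
  stab : ∀ P, St l P → Stab d (Fm deg P)
  comm : ∀ z : X →ₗ[R] X, (∀ w ∈ l, ∀ x, z (w x) = w (z x)) →
    ∀ v i, d (fun k => z (v k)) i = z (d v i)

theorem good_cone {ι : Type} {deg : ι → ℤ} {d : (ι → X) →ₗ[R] (ι → X)} {l : List (X →ₗ[R] X)}
    (h : Good deg d l) (z : X →ₗ[R] X) (hz : ∀ w ∈ l, ∀ x, z (w x) = w (z x)) :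
    Good (cdeg deg) (coneD d z) (z :: l) where
  dd := fun v => by
    funext s
    rcases s with i | i
    · rw [coneD_inl]
      have h1 : (fun k => coneD d z v (Sum.inl k)) = d (fun k => v (Sum.inl k)) +
          fun k => z (v (Sum.inr k)) := rfl
      rw [h1, map_add, h.dd, coneD_inr, map_neg, Pi.add_apply, h.comm z hz]
      simp
    · rw [coneD_inr]
      have h1 : (fun k => coneD d z v (Sum.inr k)) = -(d (fun k => v (Sum.inr k))) := rfl
      rw [h1, map_neg, h.dd]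
      simp
  stab := fun P hP j v hv => by
    have hP' : St l P := fun w hw => hP w (List.mem_cons_of_mem _ hw)
    have hl : (fun k => v (Sum.inl k)) ∈ Fm deg P j := fun i => hv (Sum.inl i)
    have hr : (fun k => v (Sum.inr k)) ∈ Fm deg P (j - 1) := fun i =>
      ⟨(hv (Sum.inr i)).1, fun hi => (hv (Sum.inr i)).2 (by
        change deg i + 1 ≠ j
        omega)⟩
    have hl' := h.stab P hP' j _ hl
    have hr' := h.stab P hP' (j - 1) _ hr
    intro s
    rcases s with i | i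
    · refine ⟨?_, fun hi => ?_⟩
      · rw [coneD_inl]
        exact P.add_mem (hl' i).1 (hP z List.mem_cons_self _ (hv (Sum.inr i)).1)
      · change deg i ≠ j - 1 at hi
        rw [coneD_inl, (hl' i).2 hi, show v (Sum.inr i) = 0 from (hr i).2 hi, map_zero, add_zero]
    · refine ⟨?_, fun hi => ?_⟩
      · rw [coneD_inr]
        exact P.neg_mem (hr' i).1
      · change deg i + 1 ≠ j - 1 at hi
        rw [coneD_inr, (hr' i).2 (by omega), neg_zero]
  comm := fun y hy v s => by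
    have hy' : ∀ w ∈ l, ∀ x, y (w x) = w (y x) := fun w hw => hy w (List.mem_cons_of_mem _ hw)
    rcases s with i | i
    · rw [coneD_inl, coneD_inl, h.comm y hy' (fun k => v (Sum.inl k)), map_add,
        hy z List.mem_cons_self]
    · rw [coneD_inr, coneD_inr, h.comm y hy' (fun k => v (Sum.inr k)), map_neg]

theorem good_kd : ∀ l : List (X →ₗ[R] X), Cm l → Good (kdeg l.length) (kd l) l
  | [], _ => ⟨fun _ => rfl, fun _ _ _ _ _ => Submodule.zero_mem _, fun z _ _ _ => (map_zero z).symm⟩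
  | z :: l, h => by
    have h1 : Cm l := fun a ha b hb =>
      h a (List.mem_cons_of_mem _ ha) b (List.mem_cons_of_mem _ hb)
    have h2 := good_cone (good_kd l h1) z
      (fun w hw => h z List.mem_cons_self w (List.mem_cons_of_mem _ hw))
    have h3 : kdeg (z :: l).length = cdeg (kdeg l.length) := kdeg_succ _
    rw [h3]
    exact h2

/-! ### cones: the numerical facts -/

section Cone

variable {ι : Type} {deg : ι → ℤ} {d : (ι → X) →ₗ[R] (ι → X)} {l : List (X →ₗ[R] X)}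
  {z : X →ₗ[R] X} {P Q : Submodule R X}

/-- mixed family in a cone -/
def Mx (deg : ι → ℤ) (P Q : Submodule R X) (j : ℤ) : Submodule R (ι ⊕ ι → X) where
  carrier := {v | ∀ i, (v (Sum.inl i) ∈ P ∧ (deg i ≠ j → v (Sum.inl i) = 0)) ∧
    (v (Sum.inr i) ∈ Q ∧ (deg i + 1 ≠ j → v (Sum.inr i) = 0))}
  zero_mem' := fun _ => ⟨⟨P.zero_mem, fun _ => rfl⟩, ⟨Q.zero_mem, fun _ => rfl⟩⟩
  add_mem' := fun {v w} hv hw i => ⟨⟨P.add_mem (hv i).1.1 (hw i).1.1, fun h => by
    rw [Pi.add_apply, (hv i).1.2 h, (hw i).1.2 h, add_zero]⟩,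
    ⟨Q.add_mem (hv i).2.1 (hw i).2.1, fun h => by
    rw [Pi.add_apply, (hv i).2.2 h, (hw i).2.2 h, add_zero]⟩⟩
  smul_mem' := fun r v hv i => ⟨⟨P.smul_mem r (hv i).1.1, fun h => by
    rw [Pi.smul_apply, (hv i).1.2 h, smul_zero]⟩, ⟨Q.smul_mem r (hv i).2.1, fun h => by
    rw [Pi.smul_apply, (hv i).2.2 h, smul_zero]⟩⟩

theorem Mx_self (P : Submodule R X) (j : ℤ) : Mx deg P P j = Fm (cdeg deg) P j := by
  ext v
  constructor
  · intro h s
    rcases s with i | i
    · exact (h i).1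
    · exact (h i).2
  · intro h i
    exact ⟨h (Sum.inl i), h (Sum.inr i)⟩

theorem Mx_mono {P Q P' Q' : Submodule R X} (h : P ≤ P') (h' : Q ≤ Q') (j : ℤ) :
    Mx deg P Q j ≤ Mx deg P' Q' j := fun _ hv i =>
  ⟨⟨h (hv i).1.1, (hv i).1.2⟩, ⟨h' (hv i).2.1, (hv i).2.2⟩⟩

theorem mem_Mx {j : ℤ} {v : ι ⊕ ι → X} : v ∈ Mx deg P Q j ↔
    (fun k => v (Sum.inl k)) ∈ Fm deg P j ∧ (fun k => v (Sum.inr k)) ∈ Fm deg Q (j - 1) := by
  constructor
  · intro h
    exact ⟨fun i => (h i).1, fun i => ⟨(h i).2.1, fun hi => (h i).2.2 (by omega)⟩⟩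
  · intro h i
    exact ⟨h.1 i, ⟨(h.2 i).1, fun hi => (h.2 i).2 (by omega)⟩⟩

theorem stab_Mx (h : Good deg d l) (hP : St l P) (hQ : St l Q) (hz : ∀ x ∈ Q, z x ∈ P) :
    Stab (coneD d z) (Mx deg P Q) := by
  intro j v hv
  rw [mem_Mx] at hv ⊢
  have h1 := h.stab P hP j _ hv.1
  have h2 := h.stab Q hQ (j - 1) _ hv.2
  refine ⟨fun i => ⟨P.add_mem (h1 i).1 (hz _ (hv.2 i).1), fun hi => ?_⟩,
    fun i => ⟨Q.neg_mem (h2 i).1, fun hi => ?_⟩⟩
  · change d (fun k => v (Sum.inl k)) i + z (v (Sum.inr i)) = 0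
    rw [(h1 i).2 hi, show v (Sum.inr i) = 0 from (hv.2 i).2 hi, map_zero, add_zero]
  · change -(d (fun k => v (Sum.inr k)) i) = 0
    rw [(h2 i).2 hi, neg_zero]

variable (R X ι) in
/-- inclusion of the base complex -/
def inlM : (ι → X) →ₗ[R] (ι ⊕ ι → X) where
  toFun v := Sum.elim v 0
  map_add' := fun v w => by
    funext s
    rcases s with i | i
    · rfl
    · simp
  map_smul' := fun r v => by
    funext s
    rcases s with i | i
    · rfl
    · simp

variable (R X ι) in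
/-- projection to the shifted complex -/
def prM : (ι ⊕ ι → X) →ₗ[R] (ι → X) where
  toFun v := fun k => v (Sum.inr k)
  map_add' := fun _ _ => rfl
  map_smul' := fun _ _ => rfl

theorem inlM_comm (v : ι → X) : inlM R X ι (d v) = coneD d z (inlM R X ι v) := by
  funext s
  rcases s with i | i
  · change d v i = d v i + z 0
    rw [map_zero, add_zero]
  · change (0 : X) = -(d (0 : ι → X) i)
    rw [map_zero]
    simp

theorem prM_comm (v : ι ⊕ ι → X) : prM R X ι (coneD d z v) = (-d) (prM R X ι v) := rfl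

theorem Hl_inl (h : Good deg d l) (hP : St l P) {P' Q' T : Submodule R X}
    (hst : Stab (coneD d z) (Mx deg Q' T)) (h1 : P' = P ⊔ Q') (h2 : P ⊓ Q' = Q) (j : ℤ) :
    Hl d (Fm deg P) (Fm deg Q) j = Hl (coneD d z) (Mx deg P' T) (Mx deg Q' T) j := by
  classical
  refine Hl_transfer (inlM R X ι) inlM_comm h.dd (h.stab P hP) hst ?_ ?_ j
  · intro i
    subst h1
    apply le_antisymm
    · intro v hv
      rw [mem_Mx] at hv
      have hex : ∀ k, ∃ p ∈ P, ∃ q ∈ Q', p + q = v (Sum.inl k) ∧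
          (deg k ≠ i → p = 0 ∧ q = 0) := by
        intro k
        by_cases hk : deg k = i
        · obtain ⟨p, hp, q, hq, hpq⟩ := Submodule.mem_sup.1 (hv.1 k).1
          exact ⟨p, hp, q, hq, hpq, fun h => absurd hk h⟩
        · exact ⟨0, P.zero_mem, 0, Q'.zero_mem, by rw [show v (Sum.inl k) = 0 from (hv.1 k).2 hk, add_zero],
            fun _ => ⟨rfl, rfl⟩⟩
      choose p hp q hq hpq hpq0 using hex
      have hv' : v = inlM R X ι p + Sum.elim q (fun k => v (Sum.inr k)) := by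
        funext s
        rcases s with k | k
        · exact (hpq k).symm
        · change v (Sum.inr k) = 0 + v (Sum.inr k)
          rw [zero_add]
      rw [hv']
      refine Submodule.add_mem _ (Submodule.mem_sup_left ⟨p, ?_, rfl⟩) (Submodule.mem_sup_right ?_)
      · exact fun k => ⟨hp k, fun hk => (hpq0 k hk).1⟩
      · rw [mem_Mx]
        exact ⟨fun k => ⟨hq k, fun hk => (hpq0 k hk).2⟩, hv.2⟩
    · refine sup_le ?_ (Mx_mono le_sup_right le_rfl i)
      rintro _ ⟨v, hv, rfl⟩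
      rw [mem_Mx]
      refine ⟨fun k => ⟨Submodule.mem_sup_left (hv k).1, (hv k).2⟩, fun k => ⟨T.zero_mem, fun _ => rfl⟩⟩
  · intro i
    subst h2
    ext v
    constructor
    · rintro ⟨hv1, hv2⟩
      have hv3 : inlM R X ι v ∈ Mx deg Q' T i := hv2
      rw [mem_Mx] at hv3
      exact fun k => ⟨⟨(hv1 k).1, (hv3.1 k).1⟩, (hv1 k).2⟩
    · intro hv
      refine ⟨fun k => ⟨(hv k).1.1, (hv k).2⟩, ?_⟩
      change inlM R X ι v ∈ Mx deg Q' T i
      rw [mem_Mx]
      exact ⟨fun k => ⟨(hv k).1.2, (hv k).2⟩, fun k => ⟨T.zero_mem, fun _ => rfl⟩⟩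

theorem Hl_neg_shift {A B : ℤ → Submodule R (ι → X)} (j : ℤ) :
    Hl (-d) (fun i => A (i - 1)) (fun i => B (i - 1)) j = Hl d A B (j - 1) := by
  have h1 : Zc (-d) (fun i => A (i - 1)) (fun i => B (i - 1)) j = Zc d A B (j - 1) := by
    ext v
    constructor
    · rintro ⟨hv1, hv2⟩
      refine ⟨hv1, ?_⟩
      have : -(d v) ∈ B (j - 1 - 1) := hv2
      exact (Submodule.neg_mem_iff (B (j - 1 - 1))).1 this
    · rintro ⟨hv1, hv2⟩
      refine ⟨hv1, ?_⟩
      change -(d v) ∈ B (j - 1 - 1)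
      exact (Submodule.neg_mem_iff (B (j - 1 - 1))).2 hv2
  have h2 : Bd (-d) (fun i => A (i - 1)) (fun i => B (i - 1)) j = Bd d A B (j - 1) := by
    ext v
    rw [mem_Bd, mem_Bd, show j - 1 + 1 = j + 1 - 1 by ring]
    constructor
    · rintro ⟨b, hb, a, ha, rfl⟩
      exact ⟨b, hb, -a, Submodule.neg_mem _ ha, by simp⟩
    · rintro ⟨b, hb, a, ha, rfl⟩
      exact ⟨b, hb, -a, Submodule.neg_mem _ ha, by simp⟩
  rw [Hl, Hl, h1, h2]

theorem Hl_inr (h : Good deg d l) (hP : St l P) (hQ : St l Q) {T : Submodule R X}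
    (hT : St l T) (hz : ∀ x ∈ P, z x ∈ T) (hzz : ∀ w ∈ l, ∀ x, z (w x) = w (z x))
    (hQP : Q ≤ P) (j : ℤ) :
    Hl (coneD d z) (Mx deg T P) (Mx deg T Q) j = Hl d (Fm deg P) (Fm deg Q) (j - 1) := by
  rw [← Hl_neg_shift]
  refine Hl_transfer (prM R X ι) prM_comm (good_cone h z hzz).dd (stab_Mx h hT hP hz) ?_ ?_ ?_ j
  · intro i v hv
    have := h.stab Q hQ (i - 1) v hv
    exact Submodule.neg_mem _ this
  · intro i
    apply le_antisymm
    · intro v hv
      refine Submodule.mem_sup_left ⟨Sum.elim (0 : ι → X) v, ?_, rfl⟩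
      change (Sum.elim (0 : ι → X) v : ι ⊕ ι → X) ∈ Mx deg T P i
      rw [mem_Mx]
      exact ⟨fun k => ⟨T.zero_mem, fun _ => rfl⟩, hv⟩
    · refine sup_le ?_ (Fm_mono hQP _)
      rintro _ ⟨v, hv, rfl⟩
      exact (mem_Mx.1 hv).2
  · intro i
    ext v
    constructor
    · rintro ⟨hv1, hv2⟩
      exact mem_Mx.2 ⟨(mem_Mx.1 hv1).1, hv2⟩
    · intro hv
      have := mem_Mx.1 hv
      exact ⟨mem_Mx.2 ⟨this.1, Fm_mono hQP _ this.2⟩, this.2⟩

end Cone

end Vale.Agent.P202C.SA
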