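import Mathlib

/-!
P202 part VI (helper19): an injective endomorphism of a finite module over a Noetherian ring has a
cokernel of smaller dimension.
-/

namespace Vale.Agent.P202C.SD

universe u v

variable {R : Type u} [CommRing R] [IsNoetherianRing R]

theorem artinian_loc_quot (p : PrimeSpectrum R) (N : Type v) [AddCommGroup N] [Module R N]
    (e : N ≃ₗ[R] R ⧸ p.asIdeal) :
    IsArtinian (Localization.AtPrime p.asIdeal) (LocalizedModule p.asIdeal.primeCompl N) := by
  let n1 : N := e.symm 1
  let x0 : LocalizedModule p.asIdeal.primeCompl N := LocalizedModule.mk n1 1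
  let f : Localization.AtPrime p.asIdeal →ₗ[Localization.AtPrime p.asIdeal]
      LocalizedModule p.asIdeal.primeCompl N := LinearMap.toSpanSingleton _ _ x0
  have hf : Function.Surjective f := by
    intro y
    induction y using LocalizedModule.induction_on with
    | h n s =>
      obtain ⟨r, hr⟩ := Ideal.Quotient.mk_surjective (e n)
      refine ⟨Localization.mk r s, ?_⟩
      change Localization.mk r s • (LocalizedModule.mk n1 1 :
        LocalizedModule p.asIdeal.primeCompl N) = _
      rw [LocalizedModule.mk_smul_mk]
      congr 1
      · change r • e.symm 1 = n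
        rw [← map_smul]
        have : r • (1 : R ⧸ p.asIdeal) = e n := by
          rw [← hr, ← map_one (Ideal.Quotient.mk p.asIdeal)]
          change Ideal.Quotient.mk p.asIdeal (r * 1) = _
          rw [mul_one]
        rw [this, LinearEquiv.symm_apply_apply]
      · rw [mul_one]
  have hk : IsLocalRing.maximalIdeal (Localization.AtPrime p.asIdeal) ≤ LinearMap.ker f := by
    intro a ha
    rw [LinearMap.mem_ker]
    induction a using Localization.induction_on with
    | H x =>
      obtain ⟨r, s⟩ := x
      have hr : r ∈ p.asIdeal := by
        by_contra hr
        have h1 : IsUnit (Localization.mk r s : Localization.AtPrime p.asIdeal) := by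
          refine IsUnit.of_mul_eq_one (Localization.mk (s : R) ⟨r, hr⟩) ?_
          rw [Localization.mk_mul, ← Localization.mk_one]
          rw [Localization.mk_eq_mk_iff, Localization.r_iff_exists]
          refine ⟨1, ?_⟩
          simp only [OneMemClass.coe_one, one_mul, Submonoid.coe_mul, mul_one]
          ring
        exact (IsLocalRing.mem_maximalIdeal _).1 ha h1
      change Localization.mk r s • (LocalizedModule.mk n1 1 :
        LocalizedModule p.asIdeal.primeCompl N) = _
      rw [LocalizedModule.mk_smul_mk]
      have : r • n1 = 0 := by
        change r • e.symm 1 = 0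
        rw [← map_smul]
        have : r • (1 : R ⧸ p.asIdeal) = 0 := by
          change Ideal.Quotient.mk p.asIdeal (r * 1) = _
          rw [mul_one]
          exact Ideal.Quotient.eq_zero_iff_mem.2 hr
        rw [this, map_zero]
      rw [this, LocalizedModule.zero_mk]
  let g := (IsLocalRing.maximalIdeal (Localization.AtPrime p.asIdeal)).liftQ f hk
  have hg : Function.Surjective g := by
    intro y
    obtain ⟨x, rfl⟩ := hf y
    exact ⟨Submodule.Quotient.mk x, rfl⟩
  have hs : IsSimpleModule (Localization.AtPrime p.asIdeal)
      (Localization.AtPrime p.asIdeal ⧸ IsLocalRing.maximalIdeal (Localization.AtPrime p.asIdeal)) := by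
    rw [isSimpleModule_iff_isCoatom]
    exact (IsLocalRing.maximalIdeal.isMaximal _).out
  have : IsArtinian (Localization.AtPrime p.asIdeal)
      (Localization.AtPrime p.asIdeal ⧸ IsLocalRing.maximalIdeal (Localization.AtPrime p.asIdeal)) :=
    inferInstance
  exact isArtinian_of_surjective _ g hg

theorem artinian_loc (p : PrimeSpectrum R) {Y : Type v} [AddCommGroup Y] [Module R Y]
    [hY : Module.Finite R Y] (h : ∀ q ∈ Module.support R Y, ¬ q < p) :
    IsArtinian (Localization.AtPrime p.asIdeal) (LocalizedModule p.asIdeal.primeCompl Y) := by
  revert h
  induction hY using IsNoetherianRing.induction_on_isQuotientEquivQuotientPrime R with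
  | subsingleton N =>
    intro _
    infer_instance
  | quotient N q e =>
    intro h
    by_cases hp : p ∈ Module.support R N
    · have hs : Module.support R N = PrimeSpectrum.zeroLocus (q.asIdeal : Set R) := by
        rw [e.support_eq, Module.support_eq_zeroLocus, Ideal.annihilator_quotient]
      have h1 : q ≤ p := by
        rw [hs] at hp
        exact hp
      have h2 : q ∈ Module.support R N := by
        rw [hs]
        exact fun x hx => hx
      have h3 : q = p := by
        rcases h1.lt_or_eq with h4 | h4
        · exact absurd h4 (h q h2)
        · exact h4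
      subst h3
      exact artinian_loc_quot q N e
    · have : Subsingleton (LocalizedModule p.asIdeal.primeCompl N) :=
        Module.notMem_support_iff.1 hp
      infer_instance
  | exact N₁ N₂ N₃ f g hf hg hfg h₁ h₃ =>
    intro h
    have i1 := h₁ (fun q hq => h q (Module.support_subset_of_injective f hf hq))
    have i3 := h₃ (fun q hq => h q (Module.support_subset_of_surjective g hg hq))
    have e1 := LocalizedModule.map_exact p.asIdeal.primeCompl f g hfg
    let f' := LocalizedModule.map p.asIdeal.primeCompl f
    let g' := LocalizedModule.map p.asIdeal.primeCompl g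
    have hf' : Function.Injective f' := LocalizedModule.map_injective _ f hf
    have hfg' : Function.Exact f' g' := e1
    exact isArtinian_of_range_eq_ker f' g' (by rw [LinearMap.exact_iff.1 hfg'])

theorem dimstep {Y : Type v} [AddCommGroup Y] [Module R Y] [Module.Finite R Y]
    (z : Y →ₗ[R] Y) (hz : Function.Injective z) (p : PrimeSpectrum R)
    (hp : p ∈ Module.support R (Y ⧸ LinearMap.range z)) :
    ∃ q ∈ Module.support R Y, q < p := by
  by_contra hcon
  push Not at hcon
  have := artinian_loc p (Y := Y) hcon
  let z' := LocalizedModule.map p.asIdeal.primeCompl z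
  have hz' : Function.Injective z' := LocalizedModule.map_injective _ z hz
  have hz2 : Function.Surjective z' := IsArtinian.surjective_of_injective_endomorphism z' hz'
  apply (Module.notMem_support_iff.2 ?_) hp
  have e1 := LocalizedModule.map_exact p.asIdeal.primeCompl z (LinearMap.range z).mkQ
    (LinearMap.exact_map_mkQ_range z)
  refine ⟨fun a b => ?_⟩
  have key : ∀ a : LocalizedModule p.asIdeal.primeCompl (Y ⧸ LinearMap.range z), a = 0 := by
    intro a
    obtain ⟨y, rfl⟩ := LocalizedModule.map_surjective p.asIdeal.primeCompl
      (LinearMap.range z).mkQ (Submodule.mkQ_surjective _) a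
    exact (e1 y).2 (hz2 y)
  rw [key a, key b]

end Vale.Agent.P202C.SD
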