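import Vale.Agent.P202C.SB
import Vale.Agent.P202C.SD

/-!
P202 part VI (helper19): the Euler characteristic of a Koszul complex of `n` commuting
endomorphisms vanishes on subquotients of dimension `< n` (Serre).
-/

namespace Vale.Agent.P202C.SA

variable {R : Type*} [CommRing R] {X : Type*} [AddCommGroup X] [Module R X]

/-- homology lengths of the Koszul complex with coefficients in `P / Q` -/
noncomputable def Hk (l : List (X →ₗ[R] X)) (P Q : Submodule R X) (j : ℤ) : ℕ∞ :=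
  Hl (kd l) (Fm (kdeg l.length) P) (Fm (kdeg l.length) Q) j

/-- its Euler characteristic -/
noncomputable def Xk (l : List (X →ₗ[R] X)) (P Q : Submodule R X) : ℤ :=
  chi (kd l) (Fm (kdeg l.length) P) (Fm (kdeg l.length) Q) l.length

theorem kdeg_bd : ∀ (n : ℕ) (a : KI n), 0 ≤ kdeg n a ∧ kdeg n a ≤ n
  | 0, _ => ⟨le_refl _, le_refl _⟩
  | n + 1, Sum.inl a => by
    have := kdeg_bd n a
    change 0 ≤ kdeg n a ∧ kdeg n a ≤ ((n + 1 : ℕ) : ℤ)
    omega
  | n + 1, Sum.inr a => by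
    have := kdeg_bd n a
    change 0 ≤ kdeg n a + 1 ∧ kdeg n a + 1 ≤ ((n + 1 : ℕ) : ℤ)
    omega

theorem Fm_bot {n : ℕ} {P Q : Submodule R X} {j : ℤ} (hj : j < 0 ∨ n < j) :
    Fm (kdeg n) P j ≤ Fm (kdeg n) Q j := by
  intro v hv i
  have h1 := kdeg_bd n i
  have h2 : v i = 0 := (hv i).2 (by omega)
  exact ⟨by rw [h2]; exact Q.zero_mem, fun _ => h2⟩

theorem Hk_out (l : List (X →ₗ[R] X)) (P Q : Submodule R X) {j : ℤ}
    (hj : j < 0 ∨ l.length < j) : Hk l P Q j = 0 :=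
  Hl_eq_zero_of_le (Fm_bot hj)

theorem Hk_self (l : List (X →ₗ[R] X)) (P : Submodule R X) (j : ℤ) : Hk l P P j = 0 :=
  Hl_eq_zero_of_le le_rfl

theorem Xk_self (l : List (X →ₗ[R] X)) (P : Submodule R X) : Xk l P P = 0 := by
  unfold Xk chi
  refine Finset.sum_eq_zero fun j _ => ?_
  have : Hl (kd l) (Fm (kdeg l.length) P) (Fm (kdeg l.length) P) j = 0 := Hk_self l P j
  rw [this]
  simp

/-- (F1) additivity -/
theorem Xk_add {l : List (X →ₗ[R] X)} (hl : Cm l) {P S Q : Submodule R X} (hQS : Q ≤ S)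
    (hSP : S ≤ P) (hP : St l P) (hS : St l S) (hQ : St l Q)
    (h1 : ∀ j, Hk l P S j ≠ ⊤) (h2 : ∀ j, Hk l S Q j ≠ ⊤) :
    (∀ j, Hk l P Q j ≠ ⊤) ∧ Xk l P Q = Xk l P S + Xk l S Q := by
  have g := good_kd l hl
  exact chi_add g.dd (g.stab P hP) (g.stab S hS) (g.stab Q hQ) (Fm_mono hQS) (Fm_mono hSP)
    l.length (Fm_bot (Or.inl (by norm_num))) (Fm_bot (Or.inr (by omega))) h1 h2

theorem Mx_kdeg {n : ℕ} (T : Submodule R X) :
    (Mx (kdeg n) T T : ℤ → Submodule R (KI n ⊕ KI n → X)) =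
      (Fm (kdeg (n + 1)) T : ℤ → Submodule R (KI (n + 1) → X)) := by
  funext j
  refine (Mx_self T j).trans ?_
  exact congrArg (fun dg => Fm dg T j) (kdeg_succ n).symm

theorem Hk_cone_eq (z : X →ₗ[R] X) (l : List (X →ₗ[R] X)) (P Q : Submodule R X) (j : ℤ) :
    Hk (z :: l) P Q j =
      Hl (coneD (kd l) z) (Mx (kdeg l.length) P P) (Mx (kdeg l.length) Q Q) j := by
  rw [Mx_kdeg, Mx_kdeg]
  rfl

theorem Xk_cone_eq (z : X →ₗ[R] X) (l : List (X →ₗ[R] X)) (P Q : Submodule R X) :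
    Xk (z :: l) P Q =
      chi (coneD (kd l) z) (Mx (kdeg l.length) P P) (Mx (kdeg l.length) Q Q) (l.length + 1) := by
  rw [Mx_kdeg, Mx_kdeg]
  rfl

/-- (F2) cones have Euler characteristic zero -/
theorem Xk_cone {z : X →ₗ[R] X} {l : List (X →ₗ[R] X)} (hl : Cm (z :: l)) {P Q : Submodule R X}
    (hQP : Q ≤ P) (hP : St (z :: l) P) (hQ : St (z :: l) Q)
    (h : ∀ j, Hk l P Q j ≠ ⊤) :
    (∀ j, Hk (z :: l) P Q j ≠ ⊤) ∧ Xk (z :: l) P Q = 0 := by
  have hl' : Cm l := fun a ha b hb =>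
    hl a (List.mem_cons_of_mem _ ha) b (List.mem_cons_of_mem _ hb)
  have hzc : ∀ w ∈ l, ∀ x, z (w x) = w (z x) :=
    fun w hw => hl z List.mem_cons_self w (List.mem_cons_of_mem _ hw)
  have g := good_kd l hl'
  have g2 := good_cone g z hzc
  have hP' : St l P := fun w hw => hP w (List.mem_cons_of_mem _ hw)
  have hQ' : St l Q := fun w hw => hQ w (List.mem_cons_of_mem _ hw)
  have hzP : ∀ x ∈ P, z x ∈ P := hP z List.mem_cons_self
  have hzQ : ∀ x ∈ Q, z x ∈ Q := hQ z List.mem_cons_self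
  -- upper part
  have e1 : ∀ j, Hl (coneD (kd l) z) (Mx (kdeg l.length) P P) (Mx (kdeg l.length) P Q) j =
      Hk l P Q (j - 1) := fun j => Hl_inr g hP' hQ' hP' hzP hzc hQP j
  -- lower part
  have e2 : ∀ j, Hl (coneD (kd l) z) (Mx (kdeg l.length) P Q) (Mx (kdeg l.length) Q Q) j =
      Hk l P Q j := fun j => (Hl_inl g hP' (stab_Mx g hQ' hQ' hzQ)
        (sup_eq_left.2 hQP).symm (inf_eq_right.2 hQP) j).symm
  have e3 := chi_add (n := l.length + 1) g2.dd (stab_Mx g hP' hP' hzP)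
    (stab_Mx g hP' hQ' (fun x hx => hzP x (hQP hx))) (stab_Mx g hQ' hQ' hzQ)
    (Mx_mono hQP le_rfl) (Mx_mono le_rfl hQP)
    (by
      rw [Mx_self, Mx_self, ← kdeg_succ]
      exact Fm_bot (Or.inl (by norm_num)))
    (by
      rw [Mx_self, Mx_self, ← kdeg_succ]
      exact Fm_bot (Or.inr (by push_cast; omega)))
    (fun j => by rw [e1]; exact h _) (fun j => by rw [e2]; exact h _)
  refine ⟨fun j => by rw [Hk_cone_eq]; exact e3.1 j, ?_⟩
  rw [Xk_cone_eq, e3.2]
  unfold chi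
  have e6 : ∑ j ∈ Finset.range (l.length + 1 + 1), (-1 : ℤ) ^ j *
      ((Hl (coneD (kd l) z) (Mx (kdeg l.length) P P) (Mx (kdeg l.length) P Q) j).toNat : ℤ) =
      - ∑ j ∈ Finset.range (l.length + 1), (-1 : ℤ) ^ j * ((Hk l P Q j).toNat : ℤ) := by
    rw [Finset.sum_range_succ']
    rw [e1]
    have h0 : Hk l P Q ((0 : ℕ) - 1 : ℤ) = 0 := Hk_out l P Q (Or.inl (by norm_num))
    rw [h0]
    simp only [ENat.toNat_zero, Nat.cast_zero, mul_zero, add_zero]
    rw [← Finset.sum_neg_distrib]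
    refine Finset.sum_congr rfl fun j _ => ?_
    rw [e1, pow_succ]
    have : ((j + 1 : ℕ) : ℤ) - 1 = j := by push_cast; ring
    rw [this]
    ring
  have e7 : ∑ j ∈ Finset.range (l.length + 1 + 1), (-1 : ℤ) ^ j *
      ((Hl (coneD (kd l) z) (Mx (kdeg l.length) P Q) (Mx (kdeg l.length) Q Q) j).toNat : ℤ) =
      ∑ j ∈ Finset.range (l.length + 1), (-1 : ℤ) ^ j * ((Hk l P Q j).toNat : ℤ) := by
    rw [Finset.sum_range_succ, e2]
    have h0 : Hk l P Q ((l.length + 1 : ℕ) : ℤ) = 0 := Hk_out l P Q (Or.inr (by push_cast; omega))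
    rw [h0]
    simp only [ENat.toNat_zero, Nat.cast_zero, mul_zero, add_zero]
    refine Finset.sum_congr rfl fun j _ => ?_
    rw [e2]
  rw [e6, e7]
  ring

/-- (F3) if `z` is injective on `P / Q` -/
theorem Hk_inj {z : X →ₗ[R] X} {l : List (X →ₗ[R] X)} (hl : Cm (z :: l)) {P Q : Submodule R X}
    (hQP : Q ≤ P) (hP : St (z :: l) P) (hQ : St (z :: l) Q)
    (hinj : ∀ x ∈ P, z x ∈ Q → x ∈ Q) (j : ℤ) :
    Hk (z :: l) P Q j = Hk l P (P.map z ⊔ Q) j := by
  classical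
  have hl' : Cm l := fun a ha b hb =>
    hl a (List.mem_cons_of_mem _ ha) b (List.mem_cons_of_mem _ hb)
  have hzc : ∀ w ∈ l, ∀ x, z (w x) = w (z x) :=
    fun w hw => hl z List.mem_cons_self w (List.mem_cons_of_mem _ hw)
  have g := good_kd l hl'
  have g2 := good_cone g z hzc
  have hP' : St l P := fun w hw => hP w (List.mem_cons_of_mem _ hw)
  have hQ' : St l Q := fun w hw => hQ w (List.mem_cons_of_mem _ hw)
  have hzP : ∀ x ∈ P, z x ∈ P := hP z List.mem_cons_self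
  have hzQ : ∀ x ∈ Q, z x ∈ Q := hQ z List.mem_cons_self
  have hSP : P.map z ⊔ Q ≤ P := by
    refine sup_le ?_ hQP
    rintro _ ⟨x, hx, rfl⟩
    exact hzP x hx
  have hS : St l (P.map z ⊔ Q) := by
    intro w hw x hx
    obtain ⟨_, ⟨a, ha, rfl⟩, b, hb, rfl⟩ := Submodule.mem_sup.1 hx
    rw [map_add, ← hzc w hw]
    exact Submodule.add_mem _ (Submodule.mem_sup_left ⟨_, hP' w hw a ha, rfl⟩)
      (Submodule.mem_sup_right (hQ' w hw b hb))
  have hzPS : ∀ x ∈ P, z x ∈ P.map z ⊔ Q := fun x hx => Submodule.mem_sup_left ⟨x, hx, rfl⟩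
  set A := (Mx (kdeg l.length) P P : ℤ → Submodule R (KI l.length ⊕ KI l.length → X)) with hAdef
  set B := (Mx (kdeg l.length) (P.map z ⊔ Q) P :
    ℤ → Submodule R (KI l.length ⊕ KI l.length → X)) with hBdef
  set C := (Mx (kdeg l.length) Q Q : ℤ → Submodule R (KI l.length ⊕ KI l.length → X)) with hCdef
  have sA : Stab (coneD (kd l) z) A := stab_Mx g hP' hP' hzP
  have sB : Stab (coneD (kd l) z) B := stab_Mx g hS hP' hzPS
  have sC : Stab (coneD (kd l) z) C := stab_Mx g hQ' hQ' hzQ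
  have hBA : ∀ j, B j ≤ A j := Mx_mono hSP le_rfl
  have hCB : ∀ j, C j ≤ B j := Mx_mono le_sup_right hQP
  -- A / B
  have e1 : ∀ j, Hl (coneD (kd l) z) A B j = Hk l P (P.map z ⊔ Q) j := fun j =>
    (Hl_inl g hP' sB (sup_eq_left.2 hSP).symm (inf_eq_right.2 hSP) j).symm
  -- B / C is acyclic
  have e2 : ∀ j, Hl (coneD (kd l) z) B C j = 0 := by
    intro j
    have hle : Zc (coneD (kd l) z) B C j ≤ Bd (coneD (kd l) z) B C j := by
      intro w hw
      obtain ⟨hw1, hw2⟩ := mem_Zc.1 hw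
      rw [hBdef, mem_Mx] at hw1
      rw [hCdef, mem_Mx] at hw2
      have hex : ∀ k, ∃ u ∈ P, ∃ q ∈ Q, z u + q = w (Sum.inl k) ∧
          (kdeg l.length k ≠ j → u = 0 ∧ q = 0) := by
        intro k
        by_cases hk : kdeg l.length k = j
        · obtain ⟨_, ⟨u, hu, rfl⟩, q, hq, hpq⟩ := Submodule.mem_sup.1 (hw1.1 k).1
          exact ⟨u, hu, q, hq, hpq, fun h => absurd hk h⟩
        · exact ⟨0, P.zero_mem, 0, Q.zero_mem, by
            rw [show w (Sum.inl k) = 0 from (hw1.1 k).2 hk, map_zero, add_zero], fun _ => ⟨rfl, rfl⟩⟩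
      choose u hu q hq huq huq0 using hex
      have hu1 : u ∈ Fm (kdeg l.length) P j := fun k => ⟨hu k, fun hk => (huq0 k hk).1⟩
      have hq1 : q ∈ Fm (kdeg l.length) Q j := fun k => ⟨hq k, fun hk => (huq0 k hk).2⟩
      have hwl : (fun k => w (Sum.inl k)) = (fun k => z (u k)) + q := by
        funext k
        exact (huq k).symm
      have hdu := g.stab P hP' j u hu1
      have hdq := g.stab Q hQ' j q hq1
      have h5 : ∀ k, z (kd l u k + w (Sum.inr k)) ∈ Q := by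
        intro k
        have h6 : coneD (kd l) z w (Sum.inl k) ∈ Q := (hw2.1 k).1
        rw [coneD_inl, hwl, map_add, Pi.add_apply, g.comm z hzc] at h6
        have h7 : z (kd l u k + w (Sum.inr k)) =
            (z (kd l u k) + kd l q k + z (w (Sum.inr k))) - kd l q k := by
          rw [map_add]; abel
        rw [h7]
        exact Q.sub_mem h6 (hdq k).1
      have h8 : ∀ k, kd l u k + w (Sum.inr k) ∈ Q := fun k =>
        hinj _ (P.add_mem (hdu k).1 (hw1.2 k).1) (h5 k)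
      refine mem_Bd.2 ⟨Sum.elim q (fun k => kd l u k + w (Sum.inr k)), ?_,
        Sum.elim (0 : KI l.length → X) u, ?_, ?_⟩
      · rw [hCdef, mem_Mx]
        refine ⟨hq1, fun k => ⟨h8 k, fun hk => ?_⟩⟩
        change kd l u k + w (Sum.inr k) = 0
        rw [(hdu k).2 hk, show w (Sum.inr k) = 0 from (hw1.2 k).2 hk, add_zero]
      · rw [hBdef, mem_Mx]
        refine ⟨fun k => ⟨Submodule.zero_mem _, fun _ => rfl⟩, ?_⟩
        rw [show j + 1 - 1 = j by ring]
        exact hu1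
      · funext s
        rcases s with k | k
        · change q k + (kd l (0 : KI l.length → X) k + z (u k)) = w (Sum.inl k)
          rw [map_zero, ← huq k, Pi.zero_apply, zero_add, add_comm]
        · change (kd l u k + w (Sum.inr k)) + -(kd l u k) = w (Sum.inr k)
          abel
    have := rl_mono_right (R := R) hle le_rfl
    have hBZ := Bd_le_Zc g2.dd sB sC hCB j
    have heq : Zc (coneD (kd l) z) B C j = Bd (coneD (kd l) z) B C j := le_antisymm hle hBZ
    rw [Hl, heq, rl_self]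
  have f1 := Hl_AC g2.dd sA sC hCB hBA
  have f2 := Hl_AB g2.dd sA sB sC hCB hBA
  have f3 := Hl_BC g2.dd sA sB sC hCB hBA
  have hk0 : lk (coneD (kd l) z) A B C j = 0 := by
    have := (f3 j).symm.trans (e2 j)
    exact (add_eq_zero.1 this).1
  have hm0 : lm (coneD (kd l) z) A B C j = 0 := by
    have := (f3 (j - 1)).symm.trans (e2 (j - 1))
    have := (add_eq_zero.1 this).2
    rwa [sub_add_cancel] at this
  have h9 : Hl (coneD (kd l) z) A C j = Hl (coneD (kd l) z) A B j := by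
    rw [f1, f2, hk0, hm0, add_zero, zero_add]
  rw [← e1, ← h9, Hk_cone_eq]

theorem Xk_inj {z : X →ₗ[R] X} {l : List (X →ₗ[R] X)} (hl : Cm (z :: l)) {P Q : Submodule R X}
    (hQP : Q ≤ P) (hP : St (z :: l) P) (hQ : St (z :: l) Q)
    (hinj : ∀ x ∈ P, z x ∈ Q → x ∈ Q) :
    Xk (z :: l) P Q = Xk l P (P.map z ⊔ Q) := by
  have h := Hk_inj hl hQP hP hQ hinj
  unfold Xk chi
  have h1 : ∀ j : ℤ, Hl (kd (z :: l)) (Fm (kdeg (z :: l).length) P)
      (Fm (kdeg (z :: l).length) Q) j = Hk l P (P.map z ⊔ Q) j := h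
  simp only [h1]
  rw [List.length_cons, Finset.sum_range_succ]
  have h0 : Hk l P (P.map z ⊔ Q) ((l.length + 1 : ℕ) : ℤ) = 0 :=
    Hk_out l _ _ (Or.inr (by push_cast; omega))
  rw [h0]
  simp only [ENat.toNat_zero, Nat.cast_zero, mul_zero, add_zero]
  rfl

/-! ### Dimension -/

/-- `p` is in the support of `P / Q` -/
def InS (p : PrimeSpectrum R) (P Q : Submodule R X) : Prop :=
  ∃ x ∈ P, ∀ s, s ∉ p.asIdeal → s • x ∉ Q

theorem inS_iff (p : PrimeSpectrum R) (P Q : Submodule R X) :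
    InS p P Q ↔ p ∈ Module.support R (P ⧸ Q.submoduleOf P) := by
  rw [Module.mem_support_iff']
  constructor
  · rintro ⟨x, hx, h⟩
    refine ⟨Submodule.Quotient.mk ⟨x, hx⟩, fun s hs h0 => h s hs ?_⟩
    rw [← Submodule.Quotient.mk_smul, Submodule.Quotient.mk_eq_zero] at h0
    exact h0
  · rintro ⟨m, h⟩
    obtain ⟨x, rfl⟩ := Submodule.Quotient.mk_surjective _ m
    refine ⟨x, x.2, fun s hs h0 => h s hs ?_⟩
    rw [← Submodule.Quotient.mk_smul, Submodule.Quotient.mk_eq_zero]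
    exact h0

/-- `dim (P / Q) < n` -/
def dimlt (n : ℕ) (P Q : Submodule R X) : Prop :=
  ∀ c : LTSeries (PrimeSpectrum R), (∀ i, InS (c i) P Q) → c.length < n

theorem dimlt_mono {n : ℕ} {P Q P' Q' : Submodule R X}
    (h : ∀ p, InS p P' Q' → InS p P Q) (hd : dimlt n P Q) : dimlt n P' Q' :=
  fun c hc => hd c fun i => h _ (hc i)

theorem le_of_dimlt_zero {P Q : Submodule R X} (h : dimlt 0 P Q) : P ≤ Q := by
  by_contra hcon
  obtain ⟨x, hx, hxQ⟩ := SetLike.not_le_iff_exists.1 hcon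
  have : Nontrivial (P ⧸ Q.submoduleOf P) := by
    refine ⟨⟨Submodule.Quotient.mk ⟨x, hx⟩, 0, fun h0 => hxQ ?_⟩⟩
    rw [Submodule.Quotient.mk_eq_zero] at h0
    exact h0
  obtain ⟨p, hp⟩ := Module.nonempty_support_of_nontrivial (R := R) (M := P ⧸ Q.submoduleOf P)
  have := h (RelSeries.singleton _ p) (fun i => (inS_iff _ _ _).2 hp)
  exact absurd this (Nat.not_lt_zero _)

theorem cons_chain {α : Type*} [Preorder α] (c : LTSeries α) (q : α) (h : q < c.head)
    (S : α → Prop) (hq : S q) (hc : ∀ i, S (c i)) :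
    ∃ c' : LTSeries α, c'.length = c.length + 1 ∧ ∀ i, S (c' i) := by
  have h' : (q, RelSeries.head c) ∈ {(a, b) : α × α | a < b} := h
  refine ⟨RelSeries.cons c q h', by simp, fun i => ?_⟩
  have hmem : (RelSeries.cons c q h') i ∈ (RelSeries.cons c q h').toList :=
    RelSeries.mem_toList.2 ⟨i, rfl⟩
  have e := RelSeries.toList_cons c q h'
  have hmem2 := e ▸ hmem
  rcases List.mem_cons.1 hmem2 with h3 | h3
  · have : S ((RelSeries.cons c q h') i) := by rw [h3]; exact hq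
    exact this
  · obtain ⟨k, hk⟩ := RelSeries.mem_toList.1 h3
    exact hk ▸ hc k

theorem dimlt_step [IsNoetherianRing R] [IsNoetherian R X] {z : X →ₗ[R] X} {P Q : Submodule R X}
    (hQP : Q ≤ P) (hzP : ∀ x ∈ P, z x ∈ P) (hzQ : ∀ x ∈ Q, z x ∈ Q)
    (hinj : ∀ x ∈ P, z x ∈ Q → x ∈ Q) {n : ℕ} (h : dimlt (n + 1) P Q) :
    dimlt n P (P.map z ⊔ Q) := by
  intro c hc
  let z' : (P ⧸ Q.submoduleOf P) →ₗ[R] (P ⧸ Q.submoduleOf P) :=
    Submodule.mapQ _ _ (z.restrict hzP) (fun x hx => hzQ x hx)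
  have hz' : Function.Injective z' := by
    rw [← LinearMap.ker_eq_bot, LinearMap.ker_eq_bot']
    intro m hm
    obtain ⟨x, rfl⟩ := Submodule.Quotient.mk_surjective _ m
    have hm' : Submodule.Quotient.mk (z.restrict hzP x) = (0 : P ⧸ Q.submoduleOf P) := hm
    rw [Submodule.Quotient.mk_eq_zero] at hm' ⊢
    exact hinj x x.2 hm'
  have h0 : c 0 ∈ Module.support R ((P ⧸ Q.submoduleOf P) ⧸ LinearMap.range z') := by
    obtain ⟨x, hx, hs⟩ := hc 0
    rw [Module.mem_support_iff']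
    refine ⟨Submodule.Quotient.mk (Submodule.Quotient.mk ⟨x, hx⟩), fun s hs' h0 => hs s hs' ?_⟩
    rw [← Submodule.Quotient.mk_smul, Submodule.Quotient.mk_eq_zero] at h0
    obtain ⟨m, hm⟩ := h0
    obtain ⟨y, rfl⟩ := Submodule.Quotient.mk_surjective _ m
    have hm' : Submodule.Quotient.mk (z.restrict hzP y) =
      (Submodule.Quotient.mk (s • ⟨x, hx⟩) : P ⧸ Q.submoduleOf P) := hm
    have h3 := (Submodule.Quotient.eq _).1 hm'
    have h4 : z y - s • x ∈ Q := h3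
    have h5 : s • x = z y - (z y - s • x) := by abel
    rw [h5]
    exact Submodule.sub_mem _ (Submodule.mem_sup_left ⟨y, y.2, rfl⟩) (Submodule.mem_sup_right h4)
  obtain ⟨q, hq, hqc⟩ := SD.dimstep z' hz' (c 0) h0
  obtain ⟨c', hc1, hc2⟩ := cons_chain c q hqc (fun p => InS p P Q) ((inS_iff _ _ _).2 hq)
    (fun i => by
      obtain ⟨x, hx, hs⟩ := hc i
      exact ⟨x, hx, fun s hs' hQ => hs s hs' (Submodule.mem_sup_right hQ)⟩)
  have h1 := h c' hc2
  omega

end Vale.Agent.P202C.SA
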