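import Vale.Agent.P202C.SC

/-!
P202 part VI (helper19): finiteness and vanishing of the Euler characteristic (Serre).
-/

namespace Vale.Agent.P202C.SA

variable {R : Type*} [CommRing R] {X : Type*} [AddCommGroup X] [Module R X]

/-- `∑ z P` -/
def sumM : List (X →ₗ[R] X) → Submodule R X → Submodule R X
  | [], _ => ⊥
  | z :: l, P => P.map z ⊔ sumM l P

theorem sumM_mono {l : List (X →ₗ[R] X)} {P P' : Submodule R X} (h : P ≤ P') :
    sumM l P ≤ sumM l P' := by
  induction l with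
  | nil => exact le_rfl
  | cons z l ih => exact sup_le_sup (Submodule.map_mono h) ih

theorem sumM_le {l : List (X →ₗ[R] X)} {P : Submodule R X} (h : St l P) : sumM l P ≤ P := by
  induction l with
  | nil => exact bot_le
  | cons z l ih =>
    refine sup_le ?_ (ih fun w hw => h w (List.mem_cons_of_mem _ hw))
    rintro _ ⟨x, hx, rfl⟩
    exact h z List.mem_cons_self x hx

theorem map_sumM {f : X →ₗ[R] X} {l : List (X →ₗ[R] X)} (hf : ∀ w ∈ l, ∀ x, f (w x) = w (f x))
    (P : Submodule R X) : (sumM l P).map f ≤ sumM l (P.map f) := by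
  induction l with
  | nil =>
    change Submodule.map f ⊥ ≤ ⊥
    rw [Submodule.map_bot]
  | cons z l ih =>
    change Submodule.map f (P.map z ⊔ sumM l P) ≤ (P.map f).map z ⊔ sumM l (P.map f)
    rw [Submodule.map_sup]
    refine sup_le_sup ?_ (ih fun w hw => hf w (List.mem_cons_of_mem _ hw))
    rintro _ ⟨_, ⟨x, hx, rfl⟩, rfl⟩
    exact ⟨f x, ⟨x, hx, rfl⟩, (hf z List.mem_cons_self x).symm⟩

theorem rl_pull {f : X →ₗ[R] X} {P P' T T' : Submodule R X} (h1 : P.map f ⊔ T' = P')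
    (h2 : T ≤ P) (h3 : T.map f ≤ T') : rl P' T' ≤ rl P T := by
  rw [← h1, rl_map]
  refine rl_mono_right (le_inf h2 ?_) inf_le_left
  intro x hx
  exact h3 ⟨x, hx, rfl⟩

theorem Hk_nil (P Q : Submodule R X) (hQP : Q ≤ P) : Hk [] P Q 0 = rl P Q := by
  unfold Hk Hl
  let f : X →ₗ[R] (KI 0 → X) := LinearMap.pi fun _ => LinearMap.id
  have hZ : Zc (kd ([] : List (X →ₗ[R] X))) (Fm (kdeg 0) P) (Fm (kdeg 0) Q) 0 =
      P.map f ⊔ Q.map f := by
    ext v
    rw [← Submodule.map_sup, sup_eq_left.2 hQP]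
    constructor
    · intro hv
      exact ⟨v (), (hv.1 ()).1, by funext u; rfl⟩
    · rintro ⟨x, hx, rfl⟩
      exact ⟨fun i => ⟨hx, fun h => absurd rfl h⟩,
        (show (0 : KI 0 → X) ∈ Fm (kdeg 0) Q (0 - 1) from Submodule.zero_mem _)⟩
  have hB : Bd (kd ([] : List (X →ₗ[R] X))) (Fm (kdeg 0) P) (Fm (kdeg 0) Q) 0 = Q.map f := by
    apply le_antisymm
    · refine sup_le ?_ ?_
      · intro v hv
        exact ⟨v (), (hv ()).1, by funext u; rfl⟩
      · rintro _ ⟨x, hx, rfl⟩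
        exact Submodule.zero_mem _
    · rintro _ ⟨x, hx, rfl⟩
      exact Submodule.mem_sup_left fun i => ⟨hx, fun h => absurd rfl h⟩
  change rl (Zc (kd ([] : List (X →ₗ[R] X))) (Fm (kdeg 0) P) (Fm (kdeg 0) Q) 0)
    (Bd (kd ([] : List (X →ₗ[R] X))) (Fm (kdeg 0) P) (Fm (kdeg 0) Q) 0) = _
  rw [hZ, hB, rl_map]
  congr 1
  ext x
  constructor
  · rintro ⟨hx, y, hy, hxy⟩
    have : y = x := congrFun hxy ()
    exact this ▸ hy
  · intro hx
    exact ⟨hQP hx, x, hx, rfl⟩

theorem Xk_nil (P Q : Submodule R X) (hQP : Q ≤ P) : Xk [] P Q = ((rl P Q).toNat : ℤ) := by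
  have h := Hk_nil P Q hQP
  unfold Xk chi
  change ∑ j ∈ Finset.range 1, (-1 : ℤ) ^ j * ((Hk [] P Q j).toNat : ℤ) = _
  rw [Finset.sum_range_one, Nat.cast_zero, h]
  simp

/-- the submodule `z^i P + Q` -/
def Pw (z : X →ₗ[R] X) (P Q : Submodule R X) (i : ℕ) : Submodule R X := P.map (z ^ i) ⊔ Q

theorem Pw_zero (z : X →ₗ[R] X) {P Q : Submodule R X} (h : Q ≤ P) : Pw z P Q 0 = P := by
  unfold Pw
  rw [pow_zero]
  have : P.map (1 : X →ₗ[R] X) = P := Submodule.map_id P
  rw [this, sup_eq_left.2 h]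

theorem pow_comm {z w : X →ₗ[R] X} (h : ∀ x, z (w x) = w (z x)) (i : ℕ) (x : X) :
    (z ^ i) (w x) = w ((z ^ i) x) := by
  induction i with
  | zero => rfl
  | succ i ih =>
    rw [pow_succ', Module.End.mul_apply, Module.End.mul_apply, ih, h]

theorem Pw_stab {z : X →ₗ[R] X} {l : List (X →ₗ[R] X)} (hl : Cm (z :: l)) {P Q : Submodule R X}
    (hP : St (z :: l) P) (hQ : St (z :: l) Q) (i : ℕ) : St (z :: l) (Pw z P Q i) := by
  intro w hw x hx
  obtain ⟨_, ⟨a, ha, rfl⟩, b, hb, rfl⟩ := Submodule.mem_sup.1 hx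
  rw [map_add, ← pow_comm (hl z List.mem_cons_self w hw)]
  exact Submodule.add_mem _ (Submodule.mem_sup_left ⟨_, hP w hw a ha, rfl⟩)
    (Submodule.mem_sup_right (hQ w hw b hb))

theorem Pw_succ {z : X →ₗ[R] X} {P Q : Submodule R X} (hQ : ∀ x ∈ Q, z x ∈ Q) (i : ℕ) :
    (Pw z P Q i).map z ⊔ Q = Pw z P Q (i + 1) := by
  unfold Pw
  rw [Submodule.map_sup, sup_assoc, sup_eq_right.2 (by
    rintro _ ⟨x, hx, rfl⟩
    exact hQ x hx : Q.map z ≤ Q), ← Submodule.map_comp]
  congr 2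
  ext x
  change z ((z ^ i) x) = (z ^ (i + 1)) x
  rw [pow_succ', Module.End.mul_apply]

theorem Pw_succ_le {z : X →ₗ[R] X} {P Q : Submodule R X} (hP : ∀ x ∈ P, z x ∈ P) (i : ℕ) :
    Pw z P Q (i + 1) ≤ Pw z P Q i := by
  refine sup_le_sup ?_ le_rfl
  rintro _ ⟨x, hx, rfl⟩
  exact ⟨z x, hP x hx, by rw [pow_succ, Module.End.mul_apply]⟩

theorem Pw_le {z : X →ₗ[R] X} {P Q : Submodule R X} (hP : ∀ x ∈ P, z x ∈ P) (hQP : Q ≤ P) (i : ℕ) :
    Pw z P Q i ≤ P := by
  induction i with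
  | zero => rw [Pw_zero z hQP]
  | succ i ih => exact (Pw_succ_le hP i).trans ih

theorem exists_inj [IsNoetherian R X] {z : X →ₗ[R] X} {P Q : Submodule R X}
    (hQ : ∀ x ∈ Q, z x ∈ Q) :
    ∃ N : ℕ, ∀ x ∈ Pw z P Q N, z x ∈ Q → x ∈ Q := by
  let K : ℕ →o Submodule R X := ⟨fun i => Q.comap (z ^ i), by
    refine monotone_nat_of_le_succ fun i x hx => ?_
    change (z ^ (i + 1)) x ∈ Q
    rw [pow_succ', Module.End.mul_apply]
    exact hQ _ hx⟩
  obtain ⟨N, hN⟩ := monotone_stabilizes_iff_noetherian.2 ‹IsNoetherian R X› K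
  refine ⟨N, fun x hx hzx => ?_⟩
  obtain ⟨_, ⟨a, ha, rfl⟩, b, hb, rfl⟩ := Submodule.mem_sup.1 hx
  rw [map_add] at hzx
  have h1 : z ((z ^ N) a) ∈ Q := by
    have : z ((z ^ N) a) = (z ((z ^ N) a) + z b) - z b := by abel
    rw [this]
    exact Q.sub_mem hzx (hQ b hb)
  have h2 : a ∈ K (N + 1) := by
    change (z ^ (N + 1)) a ∈ Q
    rw [pow_succ', Module.End.mul_apply]
    exact h1
  rw [← hN (N + 1) (Nat.le_succ N)] at h2
  exact Q.add_mem h2 hb

theorem serre [IsNoetherianRing R] [IsNoetherian R X] : ∀ (l : List (X →ₗ[R] X)), Cm l →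
    ∀ P Q : Submodule R X, Q ≤ P → St l P → St l Q → rl P (sumM l P ⊔ Q) ≠ ⊤ →
    (∀ j, Hk l P Q j ≠ ⊤) ∧ (dimlt l.length P Q → Xk l P Q = 0)
  | [], _, P, Q, hQP, _, _, hfin => by
    change rl P (⊥ ⊔ Q) ≠ ⊤ at hfin
    rw [bot_sup_eq] at hfin
    constructor
    · intro j
      by_cases hj : j = 0
      · rw [hj, Hk_nil P Q hQP]
        exact hfin
      · rw [Hk_out [] P Q (by
          rcases lt_or_gt_of_ne hj with h | h
          · exact Or.inl h
          · exact Or.inr (by simpa using h))]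
        exact ENat.zero_ne_top
    · intro hd
      have h1 : P = Q := le_antisymm (le_of_dimlt_zero hd) hQP
      rw [h1]
      exact Xk_self [] Q
  | z :: l, hl, P, Q, hQP, hP, hQ, hfin => by
    have hl' : Cm l := fun a ha b hb =>
      hl a (List.mem_cons_of_mem _ ha) b (List.mem_cons_of_mem _ hb)
    have hzc : ∀ w ∈ l, ∀ x, z (w x) = w (z x) :=
      fun w hw => hl z List.mem_cons_self w (List.mem_cons_of_mem _ hw)
    have hzP : ∀ x ∈ P, z x ∈ P := hP z List.mem_cons_self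
    have hzQ : ∀ x ∈ Q, z x ∈ Q := hQ z List.mem_cons_self
    have hPw := Pw_stab hl hP hQ
    have hPw' : ∀ i, St l (Pw z P Q i) := fun i w hw => hPw i w (List.mem_cons_of_mem _ hw)
    have hQPw : ∀ i, Q ≤ Pw z P Q i := fun i => le_sup_right
    have hQ' : St l Q := fun w hw => hQ w (List.mem_cons_of_mem _ hw)
    have hT : sumM (z :: l) P ⊔ Q ≤ P := sup_le (sumM_le hP) hQP
    -- general finiteness
    have key : ∀ i, ∀ T' : Submodule R X, sumM l (Pw z P Q i) ≤ T' → Pw z P Q (i + 1) ≤ T' →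
        T' ≤ Pw z P Q i → rl (Pw z P Q i) T' ≠ ⊤ := by
      intro i T' h1 h2 h3
      refine ne_top_of_le_ne_top hfin (rl_pull (f := z ^ i) ?_ hT ?_)
      · apply le_antisymm
        · exact sup_le le_sup_left h3
        · exact sup_le_sup le_rfl (le_trans (hQPw (i + 1)) h2)
      · rw [Submodule.map_sup]
        refine sup_le ?_ ?_
        · change ((P.map z ⊔ sumM l P)).map (z ^ i) ≤ T'
          rw [Submodule.map_sup]
          refine sup_le ?_ ?_
          · refine le_trans ?_ h2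
            refine le_trans ?_ le_sup_left
            rintro _ ⟨_, ⟨x, hx, rfl⟩, rfl⟩
            exact ⟨x, hx, by rw [pow_succ, Module.End.mul_apply]⟩
          · refine le_trans (map_sumM (fun w hw => pow_comm (hzc w hw) i) P) (le_trans ?_ h1)
            exact sumM_mono le_sup_left
        · refine le_trans ?_ ((hQPw (i + 1)).trans h2)
          rintro _ ⟨x, hx, rfl⟩
          have : ∀ k : ℕ, (z ^ k) x ∈ Q := by
            intro k
            induction k with
            | zero => exact hx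
            | succ k ih =>
              rw [pow_succ', Module.End.mul_apply]
              exact hzQ _ ih
          exact this i
    -- the pieces
    have piece : ∀ i, (∀ j, Hk (z :: l) (Pw z P Q i) (Pw z P Q (i + 1)) j ≠ ⊤) ∧
        Xk (z :: l) (Pw z P Q i) (Pw z P Q (i + 1)) = 0 := by
      intro i
      refine Xk_cone hl (Pw_succ_le hzP i) (hPw i) (hPw (i + 1)) ?_
      refine (serre l hl' _ _ (Pw_succ_le hzP i) (hPw' i) (hPw' (i + 1)) ?_).1
      exact key i _ le_sup_left le_sup_right (sup_le (sumM_le (hPw' i)) (Pw_succ_le hzP i))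
    have chain : ∀ i, (∀ j, Hk (z :: l) P (Pw z P Q i) j ≠ ⊤) ∧
        Xk (z :: l) P (Pw z P Q i) = 0 := by
      intro i
      induction i with
      | zero =>
        rw [Pw_zero z hQP]
        exact ⟨fun j => by rw [Hk_self]; exact ENat.zero_ne_top, Xk_self _ _⟩
      | succ i ih =>
        have := Xk_add hl (Pw_succ_le hzP i) (Pw_le hzP hQP i) hP (hPw i) (hPw (i + 1)) ih.1
          (piece i).1
        exact ⟨this.1, by rw [this.2, ih.2, (piece i).2, add_zero]⟩
    obtain ⟨N, hN⟩ := exists_inj (P := P) hzQ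
    -- the last piece
    have hS : Pw z P Q (N + 1) ≤ Pw z P Q N := Pw_succ_le hzP N
    have last := serre l hl' (Pw z P Q N) (Pw z P Q (N + 1)) hS (hPw' N) (hPw' (N + 1))
      (key N _ le_sup_left le_sup_right (sup_le (sumM_le (hPw' N)) hS))
    have e1 : ∀ j, Hk (z :: l) (Pw z P Q N) Q j = Hk l (Pw z P Q N) (Pw z P Q (N + 1)) j := by
      intro j
      rw [Hk_inj hl (hQPw N) (hPw N) hQ hN, Pw_succ hzQ]
    have e2 : Xk (z :: l) (Pw z P Q N) Q = Xk l (Pw z P Q N) (Pw z P Q (N + 1)) := by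
      rw [Xk_inj hl (hQPw N) (hPw N) hQ hN, Pw_succ hzQ]
    have tot := Xk_add hl (hQPw N) (Pw_le hzP hQP N) hP (hPw N) hQ (chain N).1
      (fun j => by rw [e1]; exact last.1 j)
    refine ⟨tot.1, fun hd => ?_⟩
    rw [tot.2, (chain N).2, e2, zero_add]
    apply last.2
    have hd' : dimlt (l.length + 1) (Pw z P Q N) Q :=
      dimlt_mono (fun p hp => by
        obtain ⟨x, hx, hs⟩ := hp
        exact ⟨x, Pw_le hzP hQP N hx, hs⟩) hd
    have := dimlt_step (hQPw N) (hPw N z List.mem_cons_self) hzQ hN hd'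
    rwa [Pw_succ hzQ] at this

end Vale.Agent.P202C.SA
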