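import Vale.Agent.P202C.SL

/-!
P202 part VI (helper19): additivity of the Euler characteristic of a free complex with coefficients,
complexes satisfying Serre's vanishing.
-/

set_option autoImplicit false

namespace Vale.Agent.P202C.SA

open Vale.Agent.P202C

universe u v w

section

variable {R : Type u} [CommRing R] {ι : Type} [Fintype ι]

/-- Euler characteristic of `G ⊗ V`, degrees `0..D` -/
noncomputable def chG (G : FCx R ι) (V : Type v) [AddCommGroup V] [Module R V] (D : ℕ) : ℤ :=
  ∑ j ∈ Finset.range (D + 1), (-1 : ℤ) ^ j * ((Hc G V j).toNat : ℤ)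

theorem good_act (G : FCx R ι) (V : Type v) [AddCommGroup V] [Module R V] :
    Good G.deg (act G.mat V) [] where
  dd v := by rw [← act_mul, G.sq, act_zero]
  stab P _ j v hv a := by
    refine ⟨?_, fun ha => ?_⟩
    · rw [act_apply]
      exact Submodule.sum_mem _ fun b _ => P.smul_mem _ (hv b).1
    · rw [act_apply]
      refine Finset.sum_eq_zero fun b _ => ?_
      by_cases hb : G.mat a b = 0
      · rw [hb, zero_smul]
      · have h1 := G.hdeg a b hb
        rw [(hv b).2 (by omega), smul_zero]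
  comm z _ v i := by
    rw [act_apply, act_apply, map_sum]
    exact Finset.sum_congr rfl fun b _ => by rw [map_smul]

theorem Hc_eq_Fm (G : FCx R ι) (V : Type v) [AddCommGroup V] [Module R V] (j : ℤ) :
    Hc G V j = Hl (act G.mat V) (Fm G.deg ⊤) (Fm G.deg ⊥) j := by
  have h1 : degPart G V = Fm G.deg ⊤ := by
    funext i
    ext x
    constructor
    · intro h a
      exact ⟨trivial, h a⟩
    · intro h a
      exact (h a).2
  have h2 : botF R (ι → V) = Fm G.deg ⊥ := by
    funext i
    ext x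
    constructor
    · intro h a
      have h' : x = 0 := h
      rw [h']
      exact ⟨Submodule.zero_mem _, fun _ => rfl⟩
    · intro h
      change x = 0
      funext a
      exact (h a).1
  rw [← h1, ← h2]
  rfl

theorem Hl_coeff (G : FCx R ι) {V : Type v} [AddCommGroup V] [Module R V] {V' : Type w}
    [AddCommGroup V'] [Module R V'] (f : V →ₗ[R] V') (P : Submodule R V) (Q' : Submodule R V')
    (j : ℤ) :
    Hl (act G.mat V) (Fm G.deg P) (Fm G.deg (P ⊓ Q'.comap f)) j =
      Hl (act G.mat V') (Fm G.deg (P.map f ⊔ Q')) (Fm G.deg Q') j := by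
  classical
  have g := good_act G V
  have g' := good_act G V'
  have hSt : ∀ (U : Type v) [AddCommGroup U] [Module R U] (T : Submodule R U),
      St ([] : List (U →ₗ[R] U)) T := fun U _ _ T z hz => by simp at hz
  refine Hl_transfer (f.compLeft ι) ?_ g.dd (g.stab P (fun z hz => by simp at hz))
    (g'.stab Q' (fun z hz => by simp at hz)) ?_ ?_ j
  · intro x
    funext a
    change f (act G.mat V x a) = act G.mat V' (fun b => f (x b)) a
    rw [act_apply, act_apply, map_sum]
    exact Finset.sum_congr rfl fun b _ => by rw [map_smul]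
  · intro i
    apply le_antisymm
    · intro v hv
      have hex : ∀ k, ∃ p ∈ P, ∃ q ∈ Q', f p + q = v k ∧ (G.deg k ≠ i → p = 0 ∧ q = 0) := by
        intro k
        by_cases hk : G.deg k = i
        · obtain ⟨_, ⟨p, hp, rfl⟩, q, hq, hpq⟩ := Submodule.mem_sup.1 (hv k).1
          exact ⟨p, hp, q, hq, hpq, fun h => absurd hk h⟩
        · exact ⟨0, P.zero_mem, 0, Q'.zero_mem, by
            rw [show v k = 0 from (hv k).2 hk, map_zero, add_zero], fun _ => ⟨rfl, rfl⟩⟩
      choose p hp q hq hpq hpq0 using hex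
      have hv' : v = f.compLeft ι p + q := by
        funext k
        exact (hpq k).symm
      rw [hv']
      refine Submodule.add_mem _ (Submodule.mem_sup_left ⟨p, ?_, rfl⟩) (Submodule.mem_sup_right ?_)
      · exact fun k => ⟨hp k, fun hk => (hpq0 k hk).1⟩
      · exact fun k => ⟨hq k, fun hk => (hpq0 k hk).2⟩
    · refine sup_le ?_ (Fm_mono le_sup_right i)
      rintro _ ⟨v, hv, rfl⟩ k
      refine ⟨Submodule.mem_sup_left ⟨v k, (hv k).1, rfl⟩, fun hk => ?_⟩
      change f (v k) = 0
      rw [(hv k).2 hk, map_zero]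
  · intro i
    ext v
    constructor
    · rintro ⟨hv1, hv2⟩ k
      exact ⟨⟨(hv1 k).1, (hv2 k).1⟩, (hv1 k).2⟩
    · intro hv
      refine ⟨fun k => ⟨(hv k).1.1, (hv k).2⟩, fun k => ⟨(hv k).1.2, fun hk => ?_⟩⟩
      change f (v k) = 0
      rw [(hv k).2 hk, map_zero]

theorem Hc_inj (G : FCx R ι) {V : Type v} [AddCommGroup V] [Module R V] {V' : Type w}
    [AddCommGroup V'] [Module R V'] (f : V →ₗ[R] V') (hf : Function.Injective f) (j : ℤ) :
    Hc G V j = Hl (act G.mat V') (Fm G.deg (LinearMap.range f)) (Fm G.deg ⊥) j := by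
  have h := Hl_coeff G f ⊤ ⊥ j
  rw [Hc_eq_Fm]
  have h1 : (⊤ : Submodule R V) ⊓ Submodule.comap f ⊥ = ⊥ := by
    rw [top_inf_eq]
    exact LinearMap.ker_eq_bot.2 hf
  have h2 : Submodule.map f ⊤ ⊔ ⊥ = LinearMap.range f := by
    rw [sup_bot_eq, Submodule.map_top]
  rw [h1, h2] at h
  exact h

theorem Hc_surj (G : FCx R ι) {V : Type v} [AddCommGroup V] [Module R V] {V' : Type w}
    [AddCommGroup V'] [Module R V'] (f : V →ₗ[R] V') (hf : Function.Surjective f) (j : ℤ) :
    Hl (act G.mat V) (Fm G.deg ⊤) (Fm G.deg (LinearMap.ker f)) j = Hc G V' j := by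
  have h := Hl_coeff G f ⊤ ⊥ j
  rw [Hc_eq_Fm]
  have h1 : (⊤ : Submodule R V) ⊓ Submodule.comap f ⊥ = LinearMap.ker f := by
    rw [top_inf_eq]
    rfl
  have h2 : Submodule.map f ⊤ ⊔ ⊥ = ⊤ := by
    rw [sup_bot_eq, Submodule.map_top, LinearMap.range_eq_top.2 hf]
  rw [h1, h2] at h
  exact h

theorem Hc_equiv (G : FCx R ι) {V : Type v} [AddCommGroup V] [Module R V] {V' : Type w}
    [AddCommGroup V'] [Module R V'] (e : V ≃ₗ[R] V') (j : ℤ) : Hc G V j = Hc G V' j := by
  rw [← Hc_surj G (e : V →ₗ[R] V') e.surjective, Hc_eq_Fm]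
  have : LinearMap.ker (e : V →ₗ[R] V') = ⊥ := LinearMap.ker_eq_bot.2 e.injective
  rw [this]

theorem chG_equiv (G : FCx R ι) {V : Type v} [AddCommGroup V] [Module R V] {V' : Type w}
    [AddCommGroup V'] [Module R V'] (e : V ≃ₗ[R] V') (D : ℕ) : chG G V D = chG G V' D := by
  unfold chG
  simp only [Hc_equiv G e]

theorem chG_add (G : FCx R ι) (D : ℕ) (hdeg : ∀ a, 0 ≤ G.deg a ∧ G.deg a ≤ D)
    {N₁ N₂ N₃ : Type v} [AddCommGroup N₁] [Module R N₁] [AddCommGroup N₂] [Module R N₂]
    [AddCommGroup N₃] [Module R N₃] (f : N₁ →ₗ[R] N₂) (g : N₂ →ₗ[R] N₃)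
    (hf : Function.Injective f) (hg : Function.Surjective g) (hfg : Function.Exact f g)
    (h1 : ∀ j, Hc G N₁ j ≠ ⊤) (h3 : ∀ j, Hc G N₃ j ≠ ⊤) :
    (∀ j, Hc G N₂ j ≠ ⊤) ∧ chG G N₂ D = chG G N₁ D + chG G N₃ D := by
  have gd := good_act G N₂
  have hSt : ∀ T : Submodule R N₂, St ([] : List (N₂ →ₗ[R] N₂)) T := fun T z hz => by simp at hz
  have hker : LinearMap.ker g = LinearMap.range f := LinearMap.exact_iff.1 hfg
  have e3 : ∀ j, Hl (act G.mat N₂) (Fm G.deg ⊤) (Fm G.deg (LinearMap.range f)) j = Hc G N₃ j := by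
    intro j
    rw [← hker]
    exact Hc_surj G g hg j
  have e1 : ∀ j, Hl (act G.mat N₂) (Fm G.deg (LinearMap.range f)) (Fm G.deg ⊥) j = Hc G N₁ j :=
    fun j => (Hc_inj G f hf j).symm
  have hbot : ∀ {P Q : Submodule R N₂} {j : ℤ}, (j < 0 ∨ (D : ℤ) < j) →
      Fm G.deg P j ≤ Fm G.deg Q j := by
    intro P Q j hj v hv a
    have h0 := hdeg a
    have h1 : v a = 0 := (hv a).2 (by omega)
    exact ⟨by rw [h1]; exact Q.zero_mem, fun _ => h1⟩
  have key := chi_add (n := D) gd.dd (gd.stab ⊤ (hSt _)) (gd.stab (LinearMap.range f) (hSt _))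
    (gd.stab ⊥ (hSt _)) (Fm_mono bot_le) (Fm_mono le_top) (hbot (Or.inl (by norm_num)))
    (hbot (Or.inr (by omega))) (fun j => by rw [e3]; exact h3 j) (fun j => by rw [e1]; exact h1 j)
  refine ⟨fun j => by rw [Hc_eq_Fm]; exact key.1 j, ?_⟩
  have k2 := key.2
  unfold chi at k2
  simp only [e1, e3, ← Hc_eq_Fm] at k2
  unfold chG
  rw [k2, add_comm]

theorem Hc_subsingleton (G : FCx R ι) (V : Type v) [AddCommGroup V] [Module R V] [Subsingleton V]
    (j : ℤ) : Hc G V j = 0 := by
  rw [Hc_eq_Fm]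
  refine Hl_eq_zero_of_le fun x hx a => ⟨?_, (hx a).2⟩
  rw [Submodule.mem_bot]
  exact Subsingleton.elim _ _

theorem chG_subsingleton (G : FCx R ι) (V : Type v) [AddCommGroup V] [Module R V] [Subsingleton V]
    (D : ℕ) : chG G V D = 0 := by
  unfold chG
  refine Finset.sum_eq_zero fun j _ => ?_
  rw [Hc_subsingleton]
  simp

theorem chG_pow (G : FCx R ι) (D : ℕ) (hdeg : ∀ a, 0 ≤ G.deg a ∧ G.deg a ≤ D)
    (V : Type v) [AddCommGroup V] [Module R V] (h : ∀ j, Hc G V j ≠ ⊤) (m : ℕ) :
    (∀ j, Hc G (Fin m → V) j ≠ ⊤) ∧ chG G (Fin m → V) D = m * chG G V D := by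
  induction m with
  | zero =>
    refine ⟨fun j => by rw [Hc_subsingleton]; exact ENat.zero_ne_top, ?_⟩
    rw [chG_subsingleton]
    simp
  | succ m ih =>
    let f : V →ₗ[R] (Fin (m + 1) → V) :=
      { toFun := fun v => Fin.cons v 0
        map_add' := fun v w => by
          funext k
          refine Fin.cases ?_ (fun k => ?_) k
          · rfl
          · exact (add_zero (0 : V)).symm
        map_smul' := fun r v => by
          funext k
          refine Fin.cases ?_ (fun k => ?_) k
          · rfl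
          · exact (smul_zero r).symm }
    have this := chG_add G D hdeg f
      (LinearMap.funLeft R V (Fin.succ : Fin m → Fin (m + 1)))
      (fun v w hvw => congrFun hvw 0)
      (LinearMap.funLeft_surjective_of_injective R V _ (Fin.succ_injective m))
      (by
        intro x
        constructor
        · intro hx
          refine ⟨x 0, ?_⟩
          funext k
          refine Fin.cases ?_ (fun k => ?_) k
          · rfl
          · exact (congrFun hx k).symm
        · rintro ⟨y, rfl⟩
          rfl) h ih.1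
    refine ⟨this.1, ?_⟩
    rw [this.2, ih.2]
    push_cast
    ring

/-! ### Dimension of modules, complexes with Serre vanishing -/

variable (R) in
/-- `dim V < n` -/
def dimM (n : ℕ) (V : Type v) [AddCommGroup V] [Module R V] : Prop :=
  ∀ c : LTSeries (PrimeSpectrum R), (∀ i, c i ∈ Module.support R V) → c.length < n

theorem dimM_of_lt {D : ℕ} (hR : ∀ c : LTSeries (PrimeSpectrum R), c.length ≤ D)
    (V : Type v) [AddCommGroup V] [Module R V]
    (h : ∀ p ∈ Module.support R V, ∃ q : PrimeSpectrum R, q < p) : dimM R D V := by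
  intro c hc
  obtain ⟨q, hq⟩ := h (c 0) (hc 0)
  obtain ⟨c', h1, _⟩ := cons_chain c q hq (fun _ => True) trivial (fun _ => trivial)
  have := hR c'
  omega

/-- finiteness and Serre vanishing -/
structure SerreLike (G : FCx R ι) (D : ℕ) : Prop where
  deg : ∀ a, 0 ≤ G.deg a ∧ G.deg a ≤ D
  fin : ∀ (V : Type u) [AddCommGroup V] [Module R V] [Module.Finite R V] (j : ℤ), Hc G V j ≠ ⊤
  van : ∀ (V : Type u) [AddCommGroup V] [Module R V] [Module.Finite R V], dimM R D V →
    chG G V D = 0

theorem SerreLike.of_sub [IsNoetherianRing R] {G : FCx R ι} {D : ℕ} (hG : SerreLike G D)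
    {U V : Type u} [AddCommGroup U] [Module R U] [Module.Finite R U] [AddCommGroup V] [Module R V]
    [Module.Finite R V] (f : U →ₗ[R] V) (hf : Function.Injective f)
    (h : dimM R D (V ⧸ LinearMap.range f)) : chG G U D = chG G V D := by
  have := (chG_add G D hG.deg f (LinearMap.range f).mkQ hf (Submodule.mkQ_surjective _)
    (LinearMap.exact_map_mkQ_range f) (hG.fin U) (hG.fin _)).2
  rw [this, hG.van _ h, add_zero]

/-- submodules of a free module with torsion cokernel -/
theorem SerreLike.chG_sub_free [IsNoetherianRing R] {G : FCx R ι} {D : ℕ} (hG : SerreLike G D)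
    (hR : ∀ c : LTSeries (PrimeSpectrum R), c.length ≤ D)
    {V : Type u} [AddCommGroup V] [Module R V] [Module.Finite R V] (m : ℕ)
    (f : V →ₗ[R] (Fin m → R)) (hf : Function.Injective f) (y : R) (hy : y ∈ nonZeroDivisors R)
    (N : ℕ) (h : ∀ v : Fin m → R, y ^ N • v ∈ LinearMap.range f) :
    chG G V D = m * chG G R D := by
  rw [hG.of_sub f hf ?_]
  · exact (chG_pow G D hG.deg R (hG.fin R) m).2
  · refine dimM_of_lt hR _ fun p hp => ?_
    have hyp : y ∈ p.asIdeal := by
      obtain ⟨x, hx⟩ := (Module.mem_support_iff' (R := R)).1 hp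
      by_contra hy'
      have hyN : y ^ N ∉ p.asIdeal := fun h0 => hy' (p.isPrime.mem_of_pow_mem N h0)
      apply hx (y ^ N) hyN
      obtain ⟨v, rfl⟩ := Submodule.Quotient.mk_surjective _ x
      rw [← Submodule.Quotient.mk_smul, Submodule.Quotient.mk_eq_zero]
      exact h v
    obtain ⟨q, hq, hqp⟩ := Ideal.exists_minimalPrimes_le (bot_le : (⊥ : Ideal R) ≤ p.asIdeal)
    refine ⟨⟨q, hq.1.1⟩, lt_of_le_of_ne hqp ?_⟩
    intro heq
    have hyq : y ∈ q := by
      have : q = p.asIdeal := congrArg PrimeSpectrum.asIdeal heq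
      rw [this]
      exact hyp
    have hdis := Ideal.disjoint_nonZeroDivisors_of_mem_minimalPrimes hq
    exact Set.disjoint_left.1 hdis hyq hy

end

end Vale.Agent.P202C.SA
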