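import Vale.Agent.P202C.Defs

/-!
P202 in characteristic p, sections (V)+(VI) (owner helper19): definitions.
-/

set_option autoImplicit false

namespace Vale.Agent.P202C.V

open IsLocalRing Vale.Agent.P202C

universe u v

/-- a strong deformation retract of the free complex `K` onto the free complex `G` -/
structure Retr {R : Type u} [CommRing R] {ι ι' : Type} [Fintype ι] [DecidableEq ι] [Fintype ι']
    [DecidableEq ι'] (K : FCx R ι) (G : FCx R ι') where
  A : Matrix ι' ι R
  B : Matrix ι ι' R
  H : Matrix ι ι R
  hA : A * K.mat = G.mat * A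
  hB : K.mat * B = B * G.mat
  hAB : A * B = 1
  hBA : B * A = 1 - (K.mat * H + H * K.mat)
  dA : ∀ a b, A a b ≠ 0 → G.deg a = K.deg b
  dB : ∀ a b, B a b ≠ 0 → K.deg a = G.deg b
  dH : ∀ a b, H a b ≠ 0 → K.deg a = K.deg b + 1

/-- `V` with scalars acting through `φ` -/
def Tw {R : Type u} [CommRing R] (_φ : R →+* R) (V : Type v) : Type v := V

instance {R : Type u} [CommRing R] (φ : R →+* R) (V : Type v) [AddCommGroup V] :
    AddCommGroup (Tw φ V) := inferInstanceAs (AddCommGroup V)

instance {R : Type u} [CommRing R] (φ : R →+* R) (V : Type v) [AddCommGroup V] [Module R V] :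
    Module R (Tw φ V) := Module.compHom V φ

/-- length of the twist of the residue field -/
noncomputable def twc {R : Type u} [CommRing R] [IsLocalRing R] (φ : R →+* R) : ℕ∞ :=
  Module.length R (Tw φ (R ⧸ maximalIdeal R))

end Vale.Agent.P202C.V
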