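import Vale.Agent.P202C.SE
import Vale.Agent.P202C.VDefs

/-!
P202 part VI (helper88), module W1: Euler characteristics of Koszul complexes and powers.
-/

set_option autoImplicit false

namespace Vale.Agent.P202C.SA

section W1

variable {R : Type*} [CommRing R] {X : Type*} [AddCommGroup X] [Module R X]

/-! ### finiteness -/

theorem W1_anti {z : X →ₗ[R] X} {P Q : Submodule R X} (hP : ∀ x ∈ P, z x ∈ P) {i j : ℕ}
    (h : i ≤ j) : Pw z P Q j ≤ Pw z P Q i :=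
  antitone_nat_of_succ_le (f := fun i => Pw z P Q i) (fun i => Pw_succ_le hP i) h

theorem W1_pow_mem {z : X →ₗ[R] X} {P : Submodule R X} (hP : ∀ x ∈ P, z x ∈ P) (q : ℕ) :
    ∀ x ∈ P, (z ^ q) x ∈ P := by
  intro x hx
  induction q with
  | zero => exact hx
  | succ q ih =>
    rw [pow_succ', Module.End.mul_apply]
    exact hP _ ih

theorem W1_rlpow {z : X →ₗ[R] X} {P T : Submodule R X} (hzP : ∀ x ∈ P, z x ∈ P) (hTP : T ≤ P)
    (hzT : ∀ x ∈ T, z x ∈ T) (h : rl P (P.map z ⊔ T) ≠ ⊤) (q : ℕ) :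
    rl P (P.map (z ^ q) ⊔ T) ≠ ⊤ := by
  change rl P (Pw z P T q) ≠ ⊤
  induction q with
  | zero =>
    rw [Pw_zero z hTP, rl_self]
    exact ENat.zero_ne_top
  | succ q ih =>
    rw [rl_add (Pw_succ_le hzP q) (Pw_le hzP hTP q)]
    refine WithTop.add_ne_top.2 ⟨ih, ?_⟩
    have h0 : P.map z ⊔ T ≤ P := by
      refine sup_le ?_ hTP
      rintro _ ⟨x, hx, rfl⟩
      exact hzP x hx
    refine ne_top_of_le_ne_top h (rl_pull (f := z ^ q) ?_ h0 ?_)
    · apply le_antisymm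
      · exact sup_le le_sup_left (Pw_succ_le hzP q)
      · exact sup_le_sup le_rfl le_sup_right
    · rw [Submodule.map_sup]
      refine sup_le ?_ ?_
      · refine le_trans ?_ (le_sup_left : P.map (z ^ (q + 1)) ≤ Pw z P T (q + 1))
        rintro _ ⟨_, ⟨x, hx, rfl⟩, rfl⟩
        exact ⟨x, hx, by rw [pow_succ, Module.End.mul_apply]⟩
      · refine le_trans ?_ (le_sup_right : T ≤ Pw z P T (q + 1))
        rintro _ ⟨x, hx, rfl⟩
        exact W1_pow_mem hzT q x hx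

theorem W1_comm_pow {z w : X →ₗ[R] X} (h : ∀ x, z (w x) = w (z x)) (i j : ℕ) (x : X) :
    (z ^ i) ((w ^ j) x) = (w ^ j) ((z ^ i) x) := by
  refine pow_comm (fun y => ?_) i x
  exact (pow_comm (fun u => (h u).symm) j y).symm

theorem W1_Cm_tail {z : X →ₗ[R] X} {l : List (X →ₗ[R] X)} (h : Cm (z :: l)) : Cm l :=
  fun a ha b hb => h a (List.mem_cons_of_mem _ ha) b (List.mem_cons_of_mem _ hb)

theorem W1_St_tail {z : X →ₗ[R] X} {l : List (X →ₗ[R] X)} {P : Submodule R X}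
    (h : St (z :: l) P) : St l P := fun w hw => h w (List.mem_cons_of_mem _ hw)

theorem W1_St_map {l : List (X →ₗ[R] X)} {P : Submodule R X} (h : St l P) (q : ℕ) :
    St (l.map (fun z => z ^ q)) P := by
  intro w hw
  obtain ⟨y, hy, rfl⟩ := List.mem_map.1 hw
  exact W1_pow_mem (h y hy) q

theorem W1_Cm_map {l : List (X →ₗ[R] X)} (h : Cm l) (q : ℕ) : Cm (l.map (fun z => z ^ q)) := by
  intro a ha b hb x
  obtain ⟨a', ha', rfl⟩ := List.mem_map.1 ha
  obtain ⟨b', hb', rfl⟩ := List.mem_map.1 hb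
  exact W1_comm_pow (h a' ha' b' hb') q q x

theorem W1_sumM_stab {z : X →ₗ[R] X} {l : List (X →ₗ[R] X)} {P : Submodule R X}
    (hz : ∀ w ∈ l, ∀ x, z (w x) = w (z x)) (hzP : ∀ x ∈ P, z x ∈ P) :
    ∀ x ∈ sumM l P, z x ∈ sumM l P := by
  intro x hx
  have h1 : z x ∈ sumM l (P.map z) := map_sumM hz P ⟨x, hx, rfl⟩
  refine sumM_mono ?_ h1
  rintro _ ⟨y, hy, rfl⟩
  exact hzP y hy

theorem W1_sup_stab {z : X →ₗ[R] X} {S T : Submodule R X} (hS : ∀ x ∈ S, z x ∈ S)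
    (hT : ∀ x ∈ T, z x ∈ T) : ∀ x ∈ S ⊔ T, z x ∈ S ⊔ T := by
  intro x hx
  obtain ⟨a, ha, b, hb, rfl⟩ := Submodule.mem_sup.1 hx
  rw [map_add]
  exact Submodule.add_mem _ (Submodule.mem_sup_left (hS a ha)) (Submodule.mem_sup_right (hT b hb))

theorem W1_fin_pow (q : ℕ) : ∀ (l : List (X →ₗ[R] X)), Cm l → ∀ P T : Submodule R X, T ≤ P →
    St l P → St l T → rl P (sumM l P ⊔ T) ≠ ⊤ → rl P (sumM (l.map (fun z => z ^ q)) P ⊔ T) ≠ ⊤
  | [], _, _, _, _, _, _, h => h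
  | z :: l, hl, P, T, hTP, hP, hT, h => by
    have hzc : ∀ w ∈ l, ∀ x, z (w x) = w (z x) :=
      fun w hw => hl z List.mem_cons_self w (List.mem_cons_of_mem _ hw)
    have hzP : ∀ x ∈ P, z x ∈ P := hP z List.mem_cons_self
    have hzT : ∀ x ∈ T, z x ∈ T := hT z List.mem_cons_self
    change rl P ((P.map z ⊔ sumM l P) ⊔ T) ≠ ⊤ at h
    rw [sup_assoc] at h
    have h1 := W1_rlpow hzP (sup_le (sumM_le (W1_St_tail hP)) hTP)
      (W1_sup_stab (W1_sumM_stab hzc hzP) hzT) h q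
    rw [sup_left_comm] at h1
    have hle : P.map (z ^ q) ⊔ T ≤ P := by
      refine sup_le ?_ hTP
      rintro _ ⟨x, hx, rfl⟩
      exact W1_pow_mem hzP q x hx
    have hst : St l (P.map (z ^ q) ⊔ T) := by
      intro w hw
      refine W1_sup_stab ?_ (hT w (List.mem_cons_of_mem _ hw))
      rintro _ ⟨x, hx, rfl⟩
      exact ⟨w x, hP w (List.mem_cons_of_mem _ hw) x hx, pow_comm (hzc w hw) q x⟩
    have h2 := W1_fin_pow q l (W1_Cm_tail hl) P (P.map (z ^ q) ⊔ T) hle (W1_St_tail hP) hst h1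
    rw [sup_left_comm, ← sup_assoc] at h2
    exact h2

/-! ### one step -/

section Step

variable {z : X →ₗ[R] X} {l : List (X →ₗ[R] X)} {P Q : Submodule R X}

theorem W1_key (hl : Cm (z :: l)) (hQP : Q ≤ P) (hP : St (z :: l) P) (hQ : St (z :: l) Q)
    (hfin : rl P (sumM (z :: l) P ⊔ Q) ≠ ⊤) (i : ℕ) :
    rl (Pw z P Q i) (sumM l (Pw z P Q i) ⊔ Pw z P Q (i + 1)) ≠ ⊤ := by
  have hzc : ∀ w ∈ l, ∀ x, z (w x) = w (z x) :=
    fun w hw => hl z List.mem_cons_self w (List.mem_cons_of_mem _ hw)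
  have hzP : ∀ x ∈ P, z x ∈ P := hP z List.mem_cons_self
  have hzQ : ∀ x ∈ Q, z x ∈ Q := hQ z List.mem_cons_self
  have hQPw : ∀ i, Q ≤ Pw z P Q i := fun i => le_sup_right
  have hPw' : ∀ i, St l (Pw z P Q i) := fun i => W1_St_tail (Pw_stab hl hP hQ i)
  have hT : sumM (z :: l) P ⊔ Q ≤ P := sup_le (sumM_le hP) hQP
  set T' := sumM l (Pw z P Q i) ⊔ Pw z P Q (i + 1) with hT'
  have h1 : sumM l (Pw z P Q i) ≤ T' := le_sup_left
  have h2 : Pw z P Q (i + 1) ≤ T' := le_sup_right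
  have h3 : T' ≤ Pw z P Q i := sup_le (sumM_le (hPw' i)) (Pw_succ_le hzP i)
  refine ne_top_of_le_ne_top hfin (rl_pull (f := z ^ i) ?_ hT ?_)
  · apply le_antisymm
    · exact sup_le le_sup_left h3
    · exact sup_le_sup le_rfl (le_trans (hQPw (i + 1)) h2)
  · rw [Submodule.map_sup]
    refine sup_le ?_ ?_
    · change ((P.map z ⊔ sumM l P)).map (z ^ i) ≤ T'
      rw [Submodule.map_sup]
      refine sup_le ?_ ?_
      · refine le_trans ?_ h2
        refine le_trans ?_ le_sup_left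
        rintro _ ⟨_, ⟨x, hx, rfl⟩, rfl⟩
        exact ⟨x, hx, by rw [pow_succ, Module.End.mul_apply]⟩
      · refine le_trans (map_sumM (fun w hw => pow_comm (hzc w hw) i) P) (le_trans ?_ h1)
        exact sumM_mono le_sup_left
    · refine le_trans ?_ ((hQPw (i + 1)).trans h2)
      rintro _ ⟨x, hx, rfl⟩
      exact W1_pow_mem hzQ i x hx

theorem W1_piece [IsNoetherianRing R] [IsNoetherian R X] (hl : Cm (z :: l)) (hQP : Q ≤ P)
    (hP : St (z :: l) P) (hQ : St (z :: l) Q) (hfin : rl P (sumM (z :: l) P ⊔ Q) ≠ ⊤) (i : ℕ) :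
    ∀ j, Hk l (Pw z P Q i) (Pw z P Q (i + 1)) j ≠ ⊤ := by
  have hzP : ∀ x ∈ P, z x ∈ P := hP z List.mem_cons_self
  exact (serre l (W1_Cm_tail hl) _ _ (Pw_succ_le hzP i) (W1_St_tail (Pw_stab hl hP hQ i))
    (W1_St_tail (Pw_stab hl hP hQ (i + 1))) (W1_key hl hQP hP hQ hfin i)).1

theorem W1_chain [IsNoetherianRing R] [IsNoetherian R X] (hl : Cm (z :: l)) (hQP : Q ≤ P)
    (hP : St (z :: l) P) (hQ : St (z :: l) Q) (hfin : rl P (sumM (z :: l) P ⊔ Q) ≠ ⊤) (i : ℕ) :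
    (∀ j, Hk (z :: l) P (Pw z P Q i) j ≠ ⊤) ∧ Xk (z :: l) P (Pw z P Q i) = 0 := by
  have hzP : ∀ x ∈ P, z x ∈ P := hP z List.mem_cons_self
  induction i with
  | zero =>
    rw [Pw_zero z hQP]
    exact ⟨fun j => by rw [Hk_self]; exact ENat.zero_ne_top, Xk_self _ _⟩
  | succ i ih =>
    have piece := Xk_cone hl (Pw_succ_le hzP i) (Pw_stab hl hP hQ i) (Pw_stab hl hP hQ (i + 1))
      (W1_piece hl hQP hP hQ hfin i)
    have := Xk_add hl (Pw_succ_le hzP i) (Pw_le hzP hQP i) hP (Pw_stab hl hP hQ i)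
      (Pw_stab hl hP hQ (i + 1)) ih.1 piece.1
    exact ⟨this.1, by rw [this.2, ih.2, piece.2, add_zero]⟩

theorem W1_eq [IsNoetherianRing R] [IsNoetherian R X] (hl : Cm (z :: l)) (hQP : Q ≤ P)
    (hP : St (z :: l) P) (hQ : St (z :: l) Q) (hfin : rl P (sumM (z :: l) P ⊔ Q) ≠ ⊤) {N : ℕ}
    (hN : ∀ x ∈ Pw z P Q N, z x ∈ Q → x ∈ Q) :
    Xk (z :: l) P Q = Xk l (Pw z P Q N) (Pw z P Q (N + 1)) := by
  have hzP : ∀ x ∈ P, z x ∈ P := hP z List.mem_cons_self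
  have hzQ : ∀ x ∈ Q, z x ∈ Q := hQ z List.mem_cons_self
  have hQPw : ∀ i, Q ≤ Pw z P Q i := fun i => le_sup_right
  have last := W1_piece hl hQP hP hQ hfin N
  have e1 : ∀ j, Hk (z :: l) (Pw z P Q N) Q j = Hk l (Pw z P Q N) (Pw z P Q (N + 1)) j := by
    intro j
    rw [Hk_inj hl (hQPw N) (Pw_stab hl hP hQ N) hQ hN, Pw_succ hzQ]
  have e2 : Xk (z :: l) (Pw z P Q N) Q = Xk l (Pw z P Q N) (Pw z P Q (N + 1)) := by
    rw [Xk_inj hl (hQPw N) (Pw_stab hl hP hQ N) hQ hN, Pw_succ hzQ]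
  have ch := W1_chain hl hQP hP hQ hfin N
  have tot := Xk_add hl (hQPw N) (Pw_le hzP hQP N) hP (Pw_stab hl hP hQ N) hQ ch.1
    (fun j => by rw [e1]; exact last j)
  rw [tot.2, ch.2, e2, zero_add]

/-- transfer along `z` -/
theorem W1_shift (hl : Cm (z :: l)) (hP : St (z :: l) P) (hQ : St (z :: l) Q) {N : ℕ}
    (hN : ∀ x ∈ Pw z P Q N, z x ∈ Q → x ∈ Q) (j : ℤ) :
    Hk l (Pw z P Q N) (Pw z P Q (N + 1)) j = Hk l (Pw z P Q (N + 1)) (Pw z P Q (N + 2)) j := by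
  classical
  have hzc : ∀ w ∈ l, ∀ x, z (w x) = w (z x) :=
    fun w hw => hl z List.mem_cons_self w (List.mem_cons_of_mem _ hw)
  have hzP : ∀ x ∈ P, z x ∈ P := hP z List.mem_cons_self
  have hzQ : ∀ x ∈ Q, z x ∈ Q := hQ z List.mem_cons_self
  have g := good_kd l (W1_Cm_tail hl)
  have hS : ∀ i, St l (Pw z P Q i) := fun i => W1_St_tail (Pw_stab hl hP hQ i)
  have hzPw : ∀ i, ∀ x ∈ Pw z P Q i, z x ∈ Pw z P Q (i + 1) := by
    intro i x hx
    rw [← Pw_succ hzQ]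
    exact Submodule.mem_sup_left ⟨x, hx, rfl⟩
  refine Hl_transfer (z.compLeft (KI l.length)) ?_ g.dd (g.stab _ (hS N)) (g.stab _ (hS (N + 2)))
    ?_ ?_ j
  · intro v
    funext i
    exact (g.comm z hzc v i).symm
  · intro i
    apply le_antisymm
    · intro v hv
      have hex : ∀ k, ∃ u ∈ Pw z P Q N, ∃ b ∈ Q, z u + b = v k ∧
          (kdeg l.length k ≠ i → u = 0 ∧ b = 0) := by
        intro k
        by_cases hk : kdeg l.length k = i
        · have h1 := (hv k).1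
          rw [← Pw_succ hzQ] at h1
          obtain ⟨_, ⟨u, hu, rfl⟩, b, hb, hub⟩ := Submodule.mem_sup.1 h1
          exact ⟨u, hu, b, hb, hub, fun h => absurd hk h⟩
        · exact ⟨0, Submodule.zero_mem _, 0, Submodule.zero_mem _, by
            rw [(hv k).2 hk, map_zero, add_zero], fun _ => ⟨rfl, rfl⟩⟩
      choose u hu b hb hub hub0 using hex
      have hv' : v = (z.compLeft (KI l.length)) u + b := by
        funext k
        exact (hub k).symm
      rw [hv']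
      refine Submodule.add_mem _ (Submodule.mem_sup_left ⟨u, ?_, rfl⟩) (Submodule.mem_sup_right ?_)
      · exact fun k => ⟨hu k, fun hk => (hub0 k hk).1⟩
      · exact fun k => ⟨Submodule.mem_sup_right (hb k), fun hk => (hub0 k hk).2⟩
    · refine sup_le ?_ (Fm_mono (Pw_succ_le hzP (N + 1)) i)
      rintro _ ⟨v, hv, rfl⟩
      intro k
      refine ⟨hzPw N _ (hv k).1, fun hk => ?_⟩
      change z (v k) = 0
      rw [(hv k).2 hk, map_zero]
  · intro i
    ext v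
    constructor
    · rintro ⟨hv1, hv2⟩
      have hv3 : (fun k => z (v k)) ∈ Fm (kdeg l.length) (Pw z P Q (N + 2)) i := hv2
      intro k
      refine ⟨?_, (hv1 k).2⟩
      have h1 : z (v k) ∈ Pw z P Q (N + 1 + 1) := (hv3 k).1
      rw [← Pw_succ hzQ] at h1
      obtain ⟨_, ⟨u, hu, rfl⟩, b, hb, hub⟩ := Submodule.mem_sup.1 h1
      have h2 : z (v k - u) ∈ Q := by
        rw [map_sub, ← hub, add_sub_cancel_left]
        exact hb
      have h3 := hN (v k - u) (Submodule.sub_mem _ (hv1 k).1 (Pw_succ_le hzP N hu)) h2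
      have h4 : v k = u + (v k - u) := by abel
      rw [h4]
      exact Submodule.add_mem _ hu (Submodule.mem_sup_right h3)
    · intro hv
      refine ⟨Fm_mono (Pw_succ_le hzP N) i hv, ?_⟩
      change (fun k => z (v k)) ∈ Fm (kdeg l.length) (Pw z P Q (N + 2)) i
      intro k
      refine ⟨hzPw (N + 1) _ (hv k).1, fun hk => ?_⟩
      change z (v k) = 0
      rw [(hv k).2 hk, map_zero]

theorem W1_shiftX (hl : Cm (z :: l)) (hP : St (z :: l) P) (hQ : St (z :: l) Q) {N : ℕ}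
    (hN : ∀ x ∈ Pw z P Q N, z x ∈ Q → x ∈ Q) :
    Xk l (Pw z P Q (N + 1)) (Pw z P Q (N + 2)) = Xk l (Pw z P Q N) (Pw z P Q (N + 1)) := by
  unfold Xk chi
  refine Finset.sum_congr rfl fun j _ => ?_
  have h : Hl (kd l) (Fm (kdeg l.length) (Pw z P Q N)) (Fm (kdeg l.length) (Pw z P Q (N + 1))) j =
      Hl (kd l) (Fm (kdeg l.length) (Pw z P Q (N + 1))) (Fm (kdeg l.length) (Pw z P Q (N + 2))) j :=
    W1_shift hl hP hQ hN j
  rw [h]

theorem W1_const (hl : Cm (z :: l)) (hP : St (z :: l) P) (hQ : St (z :: l) Q) {N : ℕ}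
    (hN : ∀ x ∈ Pw z P Q N, z x ∈ Q → x ∈ Q) {M : ℕ} (hM : N ≤ M) :
    Xk l (Pw z P Q M) (Pw z P Q (M + 1)) = Xk l (Pw z P Q N) (Pw z P Q (N + 1)) := by
  have hzP : ∀ x ∈ P, z x ∈ P := hP z List.mem_cons_self
  induction M, hM using Nat.le_induction with
  | base => rfl
  | succ M hM ih =>
    rw [← ih]
    exact W1_shiftX hl hP hQ (fun x hx => hN x (W1_anti hzP hM hx))

theorem W1_sum [IsNoetherianRing R] [IsNoetherian R X] (hl : Cm (z :: l)) (hQP : Q ≤ P)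
    (hP : St (z :: l) P) (hQ : St (z :: l) Q) (hfin : rl P (sumM (z :: l) P ⊔ Q) ≠ ⊤) {N : ℕ}
    (hN : ∀ x ∈ Pw z P Q N, z x ∈ Q → x ∈ Q) {M : ℕ} (hM : N ≤ M) (q : ℕ) :
    (∀ j, Hk l (Pw z P Q M) (Pw z P Q (M + q)) j ≠ ⊤) ∧
    Xk l (Pw z P Q M) (Pw z P Q (M + q)) = q * Xk l (Pw z P Q N) (Pw z P Q (N + 1)) := by
  have hzP : ∀ x ∈ P, z x ∈ P := hP z List.mem_cons_self
  have hS : ∀ i, St l (Pw z P Q i) := fun i => W1_St_tail (Pw_stab hl hP hQ i)
  induction q with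
  | zero =>
    rw [add_zero]
    exact ⟨fun j => by rw [Hk_self]; exact ENat.zero_ne_top, by rw [Xk_self]; simp⟩
  | succ q ih =>
    have h := Xk_add (W1_Cm_tail hl) (Pw_succ_le hzP (M + q)) (W1_anti hzP (Nat.le_add_right M q))
      (hS M) (hS (M + q)) (hS (M + q + 1)) ih.1 (W1_piece hl hQP hP hQ hfin (M + q))
    refine ⟨h.1, ?_⟩
    have h2 := h.2
    rw [ih.2, W1_const hl hP hQ hN (le_trans hM (Nat.le_add_right M q))] at h2
    change Xk l (Pw z P Q M) (Pw z P Q (M + q + 1)) = _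
    rw [h2]
    push_cast
    ring

theorem W1_Pw_pow (q i : ℕ) : Pw (z ^ q) P Q i = Pw z P Q (q * i) := by
  unfold Pw
  rw [← pow_mul]

theorem W1_inj_pow {N : ℕ} (hst : ∀ x ∈ Pw z P Q N, z x ∈ Pw z P Q N)
    (hN : ∀ x ∈ Pw z P Q N, z x ∈ Q → x ∈ Q) (q : ℕ) :
    ∀ x ∈ Pw z P Q N, (z ^ q) x ∈ Q → x ∈ Q := by
  induction q with
  | zero => exact fun x _ h => h
  | succ q ih =>
    intro x hx h
    rw [pow_succ, Module.End.mul_apply] at h
    exact hN x hx (ih (z x) (hst x hx) h)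

end Step

theorem W1_main [IsNoetherianRing R] [IsNoetherian R X] (q : ℕ) (hq : 0 < q) :
    ∀ (l : List (X →ₗ[R] X)), Cm l → ∀ P Q : Submodule R X, Q ≤ P → St l P → St l Q →
    rl P (sumM l P ⊔ Q) ≠ ⊤ →
    Xk (l.map (fun z => z ^ q)) P Q = (q : ℤ) ^ l.length * Xk l P Q
  | [], _, P, Q, _, _, _, _ => by
    change Xk [] P Q = (q : ℤ) ^ 0 * Xk [] P Q
    rw [pow_zero, one_mul]
  | z :: l, hl, P, Q, hQP, hP, hQ, hfin => by
    have hzc : ∀ w ∈ l, ∀ x, z (w x) = w (z x) :=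
      fun w hw => hl z List.mem_cons_self w (List.mem_cons_of_mem _ hw)
    have hzP : ∀ x ∈ P, z x ∈ P := hP z List.mem_cons_self
    have hzQ : ∀ x ∈ Q, z x ∈ Q := hQ z List.mem_cons_self
    obtain ⟨N, hN⟩ := exists_inj (P := P) hzQ
    -- the list `z ^ q :: l`
    have hstP : St ((z ^ q) :: l) P := by
      intro w hw
      rcases List.mem_cons.1 hw with rfl | hw
      · exact W1_pow_mem hzP q
      · exact hP w (List.mem_cons_of_mem _ hw)
    have hstQ : St ((z ^ q) :: l) Q := by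
      intro w hw
      rcases List.mem_cons.1 hw with rfl | hw
      · exact W1_pow_mem hzQ q
      · exact hQ w (List.mem_cons_of_mem _ hw)
    have hcm : Cm ((z ^ q) :: l) := by
      intro a ha b hb x
      rcases List.mem_cons.1 ha with rfl | ha
      · rcases List.mem_cons.1 hb with rfl | hb
        · rfl
        · exact pow_comm (hzc b hb) q x
      · rcases List.mem_cons.1 hb with rfl | hb
        · exact (pow_comm (hzc a ha) q x).symm
        · exact hl a (List.mem_cons_of_mem _ ha) b (List.mem_cons_of_mem _ hb) x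
    have hfin1 : rl P (sumM ((z ^ q) :: l) P ⊔ Q) ≠ ⊤ := by
      change rl P ((P.map z ⊔ sumM l P) ⊔ Q) ≠ ⊤ at hfin
      rw [sup_assoc] at hfin
      have h1 := W1_rlpow hzP (sup_le (sumM_le (W1_St_tail hP)) hQP)
        (W1_sup_stab (W1_sumM_stab hzc hzP) hzQ) hfin q
      change rl P ((P.map (z ^ q) ⊔ sumM l P) ⊔ Q) ≠ ⊤
      rw [sup_assoc]
      exact h1
    -- the list of all powers
    have hfin2 : rl P (sumM ((z ^ q) :: l.map (fun z => z ^ q)) P ⊔ Q) ≠ ⊤ :=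
      W1_fin_pow q (z :: l) hl P Q hQP hP hQ hfin
    have hcm2 : Cm ((z ^ q) :: l.map (fun z => z ^ q)) := W1_Cm_map hl q
    have hstP2 : St ((z ^ q) :: l.map (fun z => z ^ q)) P := W1_St_map hP q
    have hstQ2 : St ((z ^ q) :: l.map (fun z => z ^ q)) Q := W1_St_map hQ q
    have hle : N ≤ q * N := Nat.le_mul_of_pos_left N hq
    have hinj : ∀ x ∈ Pw (z ^ q) P Q N, (z ^ q) x ∈ Q → x ∈ Q := by
      intro x hx
      rw [W1_Pw_pow] at hx
      refine W1_inj_pow (N := N) (fun y hy => ?_) hN q x (W1_anti hzP hle hx)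
      exact Pw_stab hl hP hQ N z List.mem_cons_self y hy
    change Xk ((z ^ q) :: l.map (fun z => z ^ q)) P Q = (q : ℤ) ^ (l.length + 1) * Xk (z :: l) P Q
    rw [W1_eq hcm2 hQP hstP2 hstQ2 hfin2 hinj]
    have hz'P : ∀ x ∈ P, (z ^ q) x ∈ P := W1_pow_mem hzP q
    rw [W1_main q hq l (W1_Cm_tail hl) (Pw (z ^ q) P Q N) (Pw (z ^ q) P Q (N + 1))
      (Pw_succ_le hz'P N) (W1_St_tail (Pw_stab hcm hstP hstQ N))
      (W1_St_tail (Pw_stab hcm hstP hstQ (N + 1))) (W1_key hcm hQP hstP hstQ hfin1 N)]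
    rw [W1_Pw_pow, W1_Pw_pow, mul_add, mul_one, (W1_sum hl hQP hP hQ hfin hN hle q).2,
      W1_eq hl hQP hP hQ hfin hN]
    ring

end W1

universe u v

theorem Xk_pow {R : Type u} [CommRing R] [IsNoetherianRing R] {X : Type v} [AddCommGroup X]
    [Module R X] [IsNoetherian R X] (q : ℕ) (hq : 0 < q) (l : List (X →ₗ[R] X)) (hl : Cm l)
    (P Q : Submodule R X) (hQP : Q ≤ P) (hP : St l P) (hQ : St l Q)
    (hfin : rl P (sumM l P ⊔ Q) ≠ ⊤) :
    rl P (sumM (l.map (fun z => z ^ q)) P ⊔ Q) ≠ ⊤ ∧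
    Xk (l.map (fun z => z ^ q)) P Q = (q : ℤ) ^ l.length * Xk l P Q :=
  ⟨W1_fin_pow q l hl P Q hQP hP hQ hfin, W1_main q hq l hl P Q hQP hP hQ hfin⟩

end Vale.Agent.P202C.SA
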