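import Vale.Agent.P202C.SE
import Vale.Agent.P202C.VDefs

/-!
P202 in characteristic p, part VI, W2 (helper71): positivity of the Euler characteristic.
-/

set_option autoImplicit false

namespace Vale.Agent.P202C.SA

open IsLocalRing Vale.Agent.P202C

universe u v

section general

variable {R : Type u} [CommRing R] {X : Type v} [AddCommGroup X] [Module R X]

theorem w2_dimlt_iff (n : ℕ) (P Q : Submodule R X) :
    dimlt n P Q ↔ ¬ ((n : WithBot ℕ∞) ≤ Module.supportDim R (P ⧸ Q.submoduleOf P)) := by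
  constructor
  · intro h hn
    obtain ⟨l, hl⟩ := Order.le_krullDim_iff.1 hn
    have := h ⟨l.length, fun i => (l i).1, fun i => l.step i⟩ (fun i => (inS_iff _ _ _).2 (l i).2)
    change l.length < n at this
    omega
  · intro h c hc
    by_contra hcon
    push Not at hcon
    apply h
    let l : LTSeries (Module.support R (P ⧸ Q.submoduleOf P)) :=
      ⟨c.length, fun i => ⟨c i, (inS_iff _ _ _).1 (hc i)⟩, fun i => c.step i⟩
    have h1 : (l.length : WithBot ℕ∞) ≤ Module.supportDim R (P ⧸ Q.submoduleOf P) :=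
      Order.LTSeries.length_le_krullDim l
    refine le_trans ?_ h1
    exact_mod_cast hcon

theorem w2_inS_le {p q : PrimeSpectrum R} {P Q : Submodule R X} (h : InS p P Q) (hpq : p ≤ q) :
    InS q P Q := by
  obtain ⟨x, hx, hs⟩ := h
  exact ⟨x, hx, fun s hs' => hs s fun h' => hs' (hpq h')⟩

theorem w2_inS_or {p : PrimeSpectrum R} {P S Q : Submodule R X} (h : InS p P Q) :
    InS p P S ∨ InS p S Q := by
  obtain ⟨x, hx, hs⟩ := h
  by_cases h1 : ∀ s, s ∉ p.asIdeal → s • x ∉ S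
  · exact Or.inl ⟨x, hx, h1⟩
  · push Not at h1
    obtain ⟨s, hs1, hs2⟩ := h1
    refine Or.inr ⟨s • x, hs2, fun t ht => ?_⟩
    rw [← mul_smul]
    exact hs _ fun h' => (p.2.mem_or_mem h').elim ht hs1

theorem w2_inS_smul [IsNoetherian R X] {p : PrimeSpectrum R} {P Q : Submodule R X} {y : R}
    (hy : y ∈ p.asIdeal) (h : InS p P Q) :
    InS p P (P.map (y • (LinearMap.id : X →ₗ[R] X)) ⊔ Q) := by
  have h1 : p ∈ Module.support R (QuotSMulTop y (P ⧸ Q.submoduleOf P)) := by
    rw [Module.support_quotSMulTop]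
    refine ⟨(inS_iff _ _ _).1 h, ?_⟩
    rw [PrimeSpectrum.mem_zeroLocus, Set.singleton_subset_iff]
    exact hy
  rw [Module.mem_support_iff'] at h1
  obtain ⟨m, hm⟩ := h1
  obtain ⟨m1, rfl⟩ := Submodule.Quotient.mk_surjective _ m
  obtain ⟨x, rfl⟩ := Submodule.Quotient.mk_surjective _ m1
  refine ⟨x, x.2, fun s hs h0 => hm s hs ?_⟩
  obtain ⟨_, ⟨a, ha, rfl⟩, b, hb, hab⟩ := Submodule.mem_sup.1 h0
  rw [← Submodule.Quotient.mk_smul, Submodule.Quotient.mk_eq_zero, ← Submodule.Quotient.mk_smul]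
  have e : (Submodule.Quotient.mk (s • x) : P ⧸ Q.submoduleOf P) =
      y • (Submodule.Quotient.mk ⟨a, ha⟩ : P ⧸ Q.submoduleOf P) := by
    rw [← Submodule.Quotient.mk_smul, Submodule.Quotient.eq]
    change s • (x : X) - y • a ∈ Q
    have : s • (x : X) - y • a = b := by
      rw [← hab]
      change (y • a + b) - y • a = b
      abel
    rw [this]
    exact hb
  rw [e]
  exact Submodule.smul_mem_pointwise_smul _ _ _ Submodule.mem_top

theorem w2_le_of_rl_zero {P Q : Submodule R X} (h : rl P Q = 0) : P ≤ Q := by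
  unfold rl at h
  rw [Module.length_eq_zero_iff] at h
  intro x hx
  have := h.elim (Submodule.Quotient.mk ⟨x, hx⟩ : P ⧸ Q.submoduleOf P) 0
  rw [Submodule.Quotient.mk_eq_zero] at this
  exact this

/-- the inductive step of Serre's theorem -/
theorem w2_serre_step [IsNoetherianRing R] [IsNoetherian R X] {z : X →ₗ[R] X}
    {l : List (X →ₗ[R] X)} (hl : Cm (z :: l)) {P Q : Submodule R X} (hQP : Q ≤ P)
    (hP : St (z :: l) P) (hQ : St (z :: l) Q) (hfin : rl P (sumM (z :: l) P ⊔ Q) ≠ ⊤) :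
    ∃ N : ℕ, (∀ x ∈ Pw z P Q N, z x ∈ Q → x ∈ Q) ∧
      rl (Pw z P Q N) (sumM l (Pw z P Q N) ⊔ Pw z P Q (N + 1)) ≠ ⊤ ∧
      Xk (z :: l) P Q = Xk l (Pw z P Q N) (Pw z P Q (N + 1)) := by
  have hl' : Cm l := fun a ha b hb =>
    hl a (List.mem_cons_of_mem _ ha) b (List.mem_cons_of_mem _ hb)
  have hzc : ∀ w ∈ l, ∀ x, z (w x) = w (z x) :=
    fun w hw => hl z List.mem_cons_self w (List.mem_cons_of_mem _ hw)
  have hzP : ∀ x ∈ P, z x ∈ P := hP z List.mem_cons_self
  have hzQ : ∀ x ∈ Q, z x ∈ Q := hQ z List.mem_cons_self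
  have hPw := Pw_stab hl hP hQ
  have hPw' : ∀ i, St l (Pw z P Q i) := fun i w hw => hPw i w (List.mem_cons_of_mem _ hw)
  have hQPw : ∀ i, Q ≤ Pw z P Q i := fun i => le_sup_right
  have hT : sumM (z :: l) P ⊔ Q ≤ P := sup_le (sumM_le hP) hQP
  -- general finiteness
  have key : ∀ i, ∀ T' : Submodule R X, sumM l (Pw z P Q i) ≤ T' → Pw z P Q (i + 1) ≤ T' →
      T' ≤ Pw z P Q i → rl (Pw z P Q i) T' ≠ ⊤ := by
    intro i T' h1 h2 h3
    refine ne_top_of_le_ne_top hfin (rl_pull (f := z ^ i) ?_ hT ?_)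
    · apply le_antisymm
      · exact sup_le le_sup_left h3
      · exact sup_le_sup le_rfl (le_trans (hQPw (i + 1)) h2)
    · rw [Submodule.map_sup]
      refine sup_le ?_ ?_
      · change ((P.map z ⊔ sumM l P)).map (z ^ i) ≤ T'
        rw [Submodule.map_sup]
        refine sup_le ?_ ?_
        · refine le_trans ?_ h2
          refine le_trans ?_ le_sup_left
          rintro _ ⟨_, ⟨x, hx, rfl⟩, rfl⟩
          exact ⟨x, hx, by rw [pow_succ, Module.End.mul_apply]⟩
        · refine le_trans (map_sumM (fun w hw => pow_comm (hzc w hw) i) P) (le_trans ?_ h1)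
          exact sumM_mono le_sup_left
      · refine le_trans ?_ ((hQPw (i + 1)).trans h2)
        rintro _ ⟨x, hx, rfl⟩
        have : ∀ k : ℕ, (z ^ k) x ∈ Q := by
          intro k
          induction k with
          | zero => exact hx
          | succ k ih =>
            rw [pow_succ', Module.End.mul_apply]
            exact hzQ _ ih
        exact this i
  have piece : ∀ i, (∀ j, Hk (z :: l) (Pw z P Q i) (Pw z P Q (i + 1)) j ≠ ⊤) ∧
      Xk (z :: l) (Pw z P Q i) (Pw z P Q (i + 1)) = 0 := by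
    intro i
    refine Xk_cone hl (Pw_succ_le hzP i) (hPw i) (hPw (i + 1)) ?_
    refine (serre l hl' _ _ (Pw_succ_le hzP i) (hPw' i) (hPw' (i + 1)) ?_).1
    exact key i _ le_sup_left le_sup_right (sup_le (sumM_le (hPw' i)) (Pw_succ_le hzP i))
  have chain : ∀ i, (∀ j, Hk (z :: l) P (Pw z P Q i) j ≠ ⊤) ∧
      Xk (z :: l) P (Pw z P Q i) = 0 := by
    intro i
    induction i with
    | zero =>
      rw [Pw_zero z hQP]
      exact ⟨fun j => by rw [Hk_self]; exact ENat.zero_ne_top, Xk_self _ _⟩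
    | succ i ih =>
      have := Xk_add hl (Pw_succ_le hzP i) (Pw_le hzP hQP i) hP (hPw i) (hPw (i + 1)) ih.1
        (piece i).1
      exact ⟨this.1, by rw [this.2, ih.2, (piece i).2, add_zero]⟩
  obtain ⟨N, hN⟩ := exists_inj (P := P) hzQ
  have hS : Pw z P Q (N + 1) ≤ Pw z P Q N := Pw_succ_le hzP N
  have hk := key N _ le_sup_left le_sup_right (sup_le (sumM_le (hPw' N)) hS)
  have last := serre l hl' (Pw z P Q N) (Pw z P Q (N + 1)) hS (hPw' N) (hPw' (N + 1)) hk
  have e1 : ∀ j, Hk (z :: l) (Pw z P Q N) Q j = Hk l (Pw z P Q N) (Pw z P Q (N + 1)) j := by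
    intro j
    rw [Hk_inj hl (hQPw N) (hPw N) hQ hN, Pw_succ hzQ]
  have e2 : Xk (z :: l) (Pw z P Q N) Q = Xk l (Pw z P Q N) (Pw z P Q (N + 1)) := by
    rw [Xk_inj hl (hQPw N) (hPw N) hQ hN, Pw_succ hzQ]
  have tot := Xk_add hl (hQPw N) (Pw_le hzP hQP N) hP (hPw N) hQ (chain N).1
    (fun j => by rw [e1]; exact last.1 j)
  exact ⟨N, hN, hk, by rw [tot.2, (chain N).2, e2, zero_add]⟩

end general

variable {R : Type u} [CommRing R] [IsLocalRing R] [IsNoetherianRing R] {X : Type v}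
    [AddCommGroup X] [Module R X] [IsNoetherian R X]

theorem w2_dimlt_smul {y : R} (hy : y ∈ maximalIdeal R) {n : ℕ} {P Q : Submodule R X}
    (h : dimlt n P (P.map (y • (LinearMap.id : X →ₗ[R] X)) ⊔ Q)) : dimlt (n + 1) P Q := by
  rw [w2_dimlt_iff]
  intro hn
  have h1 := Module.supportDim_le_supportDim_quotSMulTop_succ (M := P ⧸ Q.submoduleOf P) hy
  have h2 : Module.supportDim R (QuotSMulTop y (P ⧸ Q.submoduleOf P)) ≤
      Module.supportDim R (P ⧸ (P.map (y • (LinearMap.id : X →ₗ[R] X)) ⊔ Q).submoduleOf P) := by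
    have hsub : Module.support R (QuotSMulTop y (P ⧸ Q.submoduleOf P)) ⊆
        Module.support R (P ⧸ (P.map (y • (LinearMap.id : X →ₗ[R] X)) ⊔ Q).submoduleOf P) := by
      intro p hp
      rw [Module.support_quotSMulTop] at hp
      obtain ⟨hp1, hp2⟩ := hp
      rw [PrimeSpectrum.mem_zeroLocus, Set.singleton_subset_iff] at hp2
      exact (inS_iff _ _ _).1 (w2_inS_smul hp2 ((inS_iff _ _ _).2 hp1))
    exact Order.krullDim_le_of_strictMono (fun a ↦ ⟨a.1, hsub a.2⟩) (fun {_ _} lt ↦ lt)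
  rw [w2_dimlt_iff] at h
  apply h
  have h3 : ((n + 1 : ℕ) : WithBot ℕ∞) ≤
      Module.supportDim R (P ⧸ (P.map (y • (LinearMap.id : X →ₗ[R] X)) ⊔ Q).submoduleOf P) + 1 :=
    hn.trans (h1.trans (by gcongr))
  push_cast at h3
  exact ENat.WithBot.add_le_add_one_right_iff.1 h3

theorem w2_dimlt_one {P Q : Submodule R X} (h : rl P Q ≠ ⊤) : dimlt 1 P Q := by
  unfold rl at h
  have hfl : IsFiniteLength R (P ⧸ Q.submoduleOf P) := Module.length_ne_top_iff.1 h
  have hart : IsArtinian R (P ⧸ Q.submoduleOf P) := (isFiniteLength_iff_isNoetherian_isArtinian.1 hfl).2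
  -- a power of the maximal ideal kills the quotient
  obtain ⟨N, hN⟩ : ∃ N : ℕ, (maximalIdeal R ^ N) • (⊤ : Submodule R (P ⧸ Q.submoduleOf P)) = ⊥ := by
    let f : ℕ →o (Submodule R (P ⧸ Q.submoduleOf P))ᵒᵈ :=
      ⟨fun k => OrderDual.toDual ((maximalIdeal R ^ k) • (⊤ : Submodule R (P ⧸ Q.submoduleOf P))),
        fun a b hab => by
          change (maximalIdeal R ^ b) • (⊤ : Submodule R (P ⧸ Q.submoduleOf P)) ≤
            (maximalIdeal R ^ a) • (⊤ : Submodule R (P ⧸ Q.submoduleOf P))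
          exact Submodule.smul_mono_left (Ideal.pow_le_pow_right hab)⟩
    obtain ⟨N, hN⟩ := IsArtinian.monotone_stabilizes f
    refine ⟨N, ?_⟩
    have h1 : (maximalIdeal R ^ N) • (⊤ : Submodule R (P ⧸ Q.submoduleOf P)) =
        (maximalIdeal R ^ (N + 1)) • (⊤ : Submodule R (P ⧸ Q.submoduleOf P)) := hN (N + 1) (Nat.le_succ N)
    refine Submodule.eq_bot_of_le_smul_of_le_jacobson_bot (maximalIdeal R) _
      (IsNoetherian.noetherian _) ?_ (maximalIdeal_le_jacobson _)
    rw [pow_succ', mul_smul] at h1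
    exact le_of_eq h1
  have hp : ∀ p : PrimeSpectrum R, InS p P Q → maximalIdeal R ≤ p.asIdeal := by
    rintro p ⟨x, hx, hs⟩
    refine Ideal.IsPrime.le_of_pow_le (n := N) ?_
    intro r hr
    by_contra hcon
    refine hs r hcon ?_
    have h1 : r • (Submodule.Quotient.mk ⟨x, hx⟩ : P ⧸ Q.submoduleOf P) ∈
        (maximalIdeal R ^ N) • (⊤ : Submodule R (P ⧸ Q.submoduleOf P)) :=
      Submodule.smul_mem_smul hr Submodule.mem_top
    rw [hN, Submodule.mem_bot, ← Submodule.Quotient.mk_smul, Submodule.Quotient.mk_eq_zero] at h1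
    exact h1
  intro c hc
  by_contra hcon
  push Not at hcon
  have h01 : c ⟨0, by omega⟩ < c ⟨1, by omega⟩ := by
    apply c.strictMono
    exact Nat.zero_lt_one
  have h2 := hp _ (hc ⟨0, by omega⟩)
  have h3 : (c ⟨1, by omega⟩).asIdeal ≤ maximalIdeal R := le_maximalIdeal (c ⟨1, by omega⟩).2.ne_top
  exact absurd (h3.trans h2) (not_le_of_gt h01)

theorem w2_dim_bound (ys : List R) (hys : ∀ y ∈ ys, y ∈ maximalIdeal R) :
    ∀ (P Q : Submodule R X), 
      rl P (sumM (ys.map (fun y => y • (LinearMap.id : X →ₗ[R] X))) P ⊔ Q) ≠ ⊤ →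
      dimlt (ys.length + 1) P Q := by
  induction ys with
  | nil =>
    intro P Q h
    change rl P (⊥ ⊔ Q) ≠ ⊤ at h
    rw [bot_sup_eq] at h
    exact w2_dimlt_one h
  | cons y l ih =>
    intro P Q h
    apply w2_dimlt_smul (hys y List.mem_cons_self)
    apply ih (fun w hw => hys w (List.mem_cons_of_mem _ hw))
    change rl P ((P.map (y • (LinearMap.id : X →ₗ[R] X)) ⊔
      sumM (l.map (fun y => y • (LinearMap.id : X →ₗ[R] X))) P) ⊔ Q) ≠ ⊤ at h
    rwa [← sup_assoc, sup_comm (sumM _ P)]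

theorem w2_St (ys : List R) (P : Submodule R X) :
    St (ys.map (fun y => y • (LinearMap.id : X →ₗ[R] X))) P := by
  intro z hz x hx
  obtain ⟨y, _, rfl⟩ := List.mem_map.1 hz
  exact P.smul_mem y hx

theorem w2_Cm (ys : List R) : Cm (ys.map (fun y => y • (LinearMap.id : X →ₗ[R] X))) := by
  intro z hz w hw x
  obtain ⟨a, _, rfl⟩ := List.mem_map.1 hz
  obtain ⟨b, _, rfl⟩ := List.mem_map.1 hw
  change a • b • x = b • a • x
  exact smul_comm a b x

theorem w2_pow (y : R) (N : ℕ) (x : X) :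
    ((y • (LinearMap.id : X →ₗ[R] X)) ^ N) x = (y ^ N) • x := by
  induction N with
  | zero => simp
  | succ N ih =>
    rw [pow_succ', Module.End.mul_apply, ih, pow_succ', mul_smul]
    rfl

/-- W2: positivity -/
theorem Xk_pos {R : Type u} [CommRing R] [IsLocalRing R] [IsNoetherianRing R] {X : Type v}
    [AddCommGroup X] [Module R X] [IsNoetherian R X] (ys : List R)
    (hys : ∀ y ∈ ys, y ∈ maximalIdeal R) (P Q : Submodule R X) (hQP : Q ≤ P)
    (hfin : rl P (sumM (ys.map (fun y => y • (LinearMap.id : X →ₗ[R] X))) P ⊔ Q) ≠ ⊤)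
    (hdim : ¬ dimlt ys.length P Q) :
    0 < Xk (ys.map (fun y => y • (LinearMap.id : X →ₗ[R] X))) P Q := by
  induction ys generalizing P Q with
  | nil =>
    change rl P (⊥ ⊔ Q) ≠ ⊤ at hfin
    rw [bot_sup_eq] at hfin
    change 0 < Xk [] P Q
    rw [Xk_nil P Q hQP]
    have h0 : rl P Q ≠ 0 := by
      intro h0
      have hle := w2_le_of_rl_zero h0
      apply hdim
      intro c hc
      obtain ⟨x, hx, hs⟩ := hc 0
      exact absurd (by rw [one_smul]; exact hle hx) (hs 1 ((c 0).asIdeal.ne_top_iff_one.1 (c 0).2.ne_top))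
    have h1 : (rl P Q).toNat ≠ 0 := by
      intro h1
      rcases ENat.toNat_eq_zero.1 h1 with h2 | h2
      · exact h0 h2
      · exact hfin h2
    exact_mod_cast Nat.pos_of_ne_zero h1
  | cons y l ih =>
    set z : X →ₗ[R] X := y • (LinearMap.id : X →ₗ[R] X) with hz
    obtain ⟨N, hN1, hN2, hN3⟩ := w2_serre_step (w2_Cm (X := X) (y :: l)) hQP (w2_St (y :: l) P)
      (w2_St (y :: l) Q) hfin
    change 0 < Xk (z :: l.map (fun y => y • (LinearMap.id : X →ₗ[R] X))) P Q
    rw [hN3]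
    have hzP : ∀ x ∈ P, z x ∈ P := fun x hx => P.smul_mem y hx
    have hzQ : ∀ x ∈ Q, z x ∈ Q := fun x hx => Q.smul_mem y hx
    refine ih (fun w hw => hys w (List.mem_cons_of_mem _ hw)) _ _ (Pw_succ_le hzP N) hN2 ?_
    intro hd
    apply hdim
    rw [← Pw_succ hzQ] at hd
    have hd1 : dimlt (l.length + 1) (Pw z P Q N) Q :=
      w2_dimlt_smul (hys y List.mem_cons_self) hd
    have hd2 : dimlt (l.length + 1) P (P.map z ⊔ Q) := by
      apply w2_dim_bound l (fun w hw => hys w (List.mem_cons_of_mem _ hw))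
      change rl P ((P.map (y • (LinearMap.id : X →ₗ[R] X)) ⊔
        sumM (l.map (fun y => y • (LinearMap.id : X →ₗ[R] X))) P) ⊔ Q) ≠ ⊤ at hfin
      rwa [← sup_assoc, sup_comm (sumM _ P)]
    intro c hc
    rcases w2_inS_or (S := Pw z P Q N) (hc 0) with h | h
    · -- the chain is in the support of `P / (y P + Q)`
      have hy0 : y ∈ (c 0).asIdeal := by
        obtain ⟨x, hx, hs⟩ := h
        by_contra hcon
        refine hs (y ^ N) (fun h' => hcon ((c 0).2.mem_of_pow_mem N h')) ?_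
        refine Submodule.mem_sup_left ⟨x, hx, ?_⟩
        exact w2_pow y N x
      have hle : ∀ i, c 0 ≤ c i := fun i => c.monotone (Fin.zero_le i)
      exact hd2 c fun i => w2_inS_smul (hle i hy0) (hc i)
    · exact hd1 c fun i => w2_inS_le h (c.monotone (Fin.zero_le i))

end Vale.Agent.P202C.SA
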