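import Mathlib

/-!
P202C, module W4: systems of parameters and generic rank.
-/

set_option autoImplicit false

namespace Vale.Agent.P202C.SA

open IsLocalRing

universe u v

/-- a Noetherian local ring of dimension `D` has `D` elements generating an ideal of finite
colength -/
theorem exists_sop {R : Type u} [CommRing R] [IsLocalRing R] [IsNoetherianRing R] (D : ℕ)
    (hD : ringKrullDim R = D) : ∃ ys : List R, ys.length = D ∧ (∀ y ∈ ys, y ∈ maximalIdeal R) ∧
      ∃ N : ℕ, maximalIdeal R ^ N ≤ Ideal.ofList ys := by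
  classical
  obtain ⟨s, hs, hc⟩ := Ideal.exists_finset_card_eq_height_of_isNoetherianRing (maximalIdeal R)
  have h1 : ((maximalIdeal R).height : WithBot ℕ∞) = ringKrullDim R :=
    IsLocalRing.maximalIdeal_height_eq_ringKrullDim
  have h2 : s.card = D := by
    rw [hD, ← hc] at h1
    exact_mod_cast h1
  have hle : Ideal.span (s : Set R) ≤ maximalIdeal R := hs.1.2
  have hof : Ideal.ofList s.toList = Ideal.span (s : Set R) := by
    unfold Ideal.ofList
    congr 1
    ext x
    simp
  refine ⟨s.toList, by rw [Finset.length_toList, h2], ?_, ?_⟩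
  · intro y hy
    exact hle (Ideal.subset_span (by simpa using hy))
  · rw [hof]
    apply Ideal.exists_pow_le_of_le_radical_of_fg _ (IsNoetherian.noetherian _)
    rw [Ideal.radical_eq_sInf]
    refine le_sInf ?_
    rintro J ⟨hJ1, hJ2⟩
    have : J.IsPrime := hJ2
    exact hs.2 ⟨hJ2, hJ1⟩ (IsLocalRing.le_maximalIdeal hJ2.ne_top)

theorem W4_domain {A : Type u} [CommRing A] [IsDomain A] {V : Type v} [AddCommGroup V]
    [Module A V] [Module.Finite A V] :
    ∃ (m : ℕ) (v : Fin m → V), LinearIndependent A v ∧
      ∃ c : A, c ≠ 0 ∧ ∀ x : V, c • x ∈ Submodule.span A (Set.range v) := by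
  classical
  obtain ⟨v, hv⟩ := exists_linearIndependent_of_le_finrank (R := A) (M := V) le_rfl
  refine ⟨_, v, hv, ?_⟩
  have h1 : Module.finrank A (Submodule.span A (Set.range v)) = Module.finrank A V := by
    rw [finrank_span_eq_card hv, Fintype.card_fin]
  have h2 := Submodule.finrank_quotient_add_finrank (Submodule.span A (Set.range v))
  have h3 : Module.finrank A (V ⧸ Submodule.span A (Set.range v)) = 0 := by omega
  rw [Module.finrank_eq_zero_iff_isTorsion] at h3
  obtain ⟨c, hc1, hc2⟩ := Submodule.annihilator_top_inter_nonZeroDivisors h3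
  refine ⟨c, nonZeroDivisors.ne_zero hc2, ?_⟩
  intro x
  have := (Submodule.mem_annihilator.1 hc1) (Submodule.Quotient.mk x) Submodule.mem_top
  rw [← Submodule.Quotient.mk_smul, Submodule.Quotient.mk_eq_zero] at this
  exact this

/-- generic freeness: a finite module killed by a prime `P` contains a free `R/P`-module with
cokernel killed by an element outside `P` -/
theorem exists_free_sub {R : Type u} [CommRing R] [IsNoetherianRing R] (P : Ideal R) [P.IsPrime]
    {V : Type v} [AddCommGroup V] [Module R V] [Module.Finite R V]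
    (h : ∀ r ∈ P, ∀ v : V, r • v = 0) :
    ∃ (m : ℕ) (f : (Fin m → (R ⧸ P)) →ₗ[R] V), Function.Injective f ∧
      ∃ c : R, c ∉ P ∧ ∀ v : V, c • v ∈ LinearMap.range f := by
  classical
  have hM : Module.IsTorsionBySet R V (P : Set R) := fun v r => h r r.2 v
  let _ : Module (R ⧸ P) V := hM.module
  have : IsScalarTower R (R ⧸ P) V := Module.IsTorsionBySet.isScalarTower hM
  have : Module.Finite (R ⧸ P) V := Module.Finite.of_restrictScalars_finite R (R ⧸ P) V
  obtain ⟨m, v, hv, c, hc, hx⟩ := W4_domain (A := R ⧸ P) (V := V)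
  refine ⟨m, (Fintype.linearCombination (R ⧸ P) v).restrictScalars R, ?_, ?_⟩
  · have := linearIndependent_iff_injective_fintypeLinearCombination.1 hv
    exact this
  · obtain ⟨c, rfl⟩ := Ideal.Quotient.mk_surjective c
    refine ⟨c, fun hcP => hc (Ideal.Quotient.eq_zero_iff_mem.2 hcP), ?_⟩
    intro x
    have h1 := hx x
    rw [Module.IsTorsionBySet.mk_smul hM] at h1
    rw [← Fintype.range_linearCombination] at h1
    obtain ⟨a, ha⟩ := h1
    exact ⟨a, ha⟩

end Vale.Agent.P202C.SA
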