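import Vale.Agent.P202C.SH
import Vale.Agent.P202C.W1
import Vale.Agent.P202C.W2
import Vale.Agent.P202C.W4
import Vale.Agent.P202C.V3

/-!
P202 part VI (helper19): the Frobenius formula `χ(G^[e]; V) = p^(eD) χ(G; V)` for complexes with
Serre vanishing.
-/

set_option autoImplicit false

namespace Vale.Agent.P202C.SA

open IsLocalRing Vale.Agent.P202C Vale.Agent.P202C.V

universe u v w

section Rank

variable {R : Type u} [CommRing R] [IsNoetherianRing R]

theorem rank_formula {D : ℕ} (hR : ∀ c : LTSeries (PrimeSpectrum R), c.length ≤ D) (P : Ideal R)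
    [hP : P.IsPrime] (V : Type u) [AddCommGroup V] [Module R V] [Module.Finite R V]
    (h : ∀ r ∈ P, ∀ v : V, r • v = 0) :
    ∃ m : ℕ, ∀ (ι : Type) [Fintype ι] (G : FCx R ι), SerreLike G D →
      chG G V D = m * chG G (R ⧸ P) D := by
  obtain ⟨m, f, hf, c, hc, hcf⟩ := exists_free_sub P h
  refine ⟨m, fun ι _ G hG => ?_⟩
  rw [← (chG_pow G D hG.deg (R ⧸ P) (hG.fin _) m).2, hG.of_sub f hf ?_]
  refine dimM_of_lt hR _ fun p hp => ?_
  obtain ⟨x, hx⟩ := (Module.mem_support_iff' (R := R)).1 hp
  obtain ⟨v, rfl⟩ := Submodule.Quotient.mk_surjective _ x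
  have hcp : c ∈ p.asIdeal := by
    by_contra hcp
    apply hx c hcp
    rw [← Submodule.Quotient.mk_smul, Submodule.Quotient.mk_eq_zero]
    exact hcf v
  have hPp : P ≤ p.asIdeal := by
    intro r hr
    by_contra hrp
    apply hx r hrp
    rw [← Submodule.Quotient.mk_smul, h r hr v, Submodule.Quotient.mk_zero]
  exact ⟨⟨P, hP⟩, lt_of_le_of_ne hPp fun heq => hc (by
    have h1 : P = p.asIdeal := congrArg PrimeSpectrum.asIdeal heq
    rw [h1]
    exact hcp)⟩

end Rank

section Frob

variable {R : Type u} [CommRing R] [IsLocalRing R]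

theorem twist_chG {D : ℕ} {ι : Type} [Fintype ι] {G : FCx R ι} (hG : SerreLike G D) (φ : R →+* R)
    (hφ : φ.Finite) (V : Type u) [AddCommGroup V] [Module R V] [Module.Finite R V] :
    (∀ j, Hc (G.map φ) V j ≠ ⊤) ∧
      chG G (Tw φ V) D = ((twc φ).toNat : ℤ) * chG (G.map φ) V D := by
  have := Tw_finite φ hφ V
  have hfin := hG.fin (Tw φ V)
  refine ⟨fun j => ne_top_of_le_ne_top (hfin j) (Hc_twist_le G φ V j), ?_⟩
  unfold chG
  rw [Finset.mul_sum]
  refine Finset.sum_congr rfl fun j _ => ?_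
  rw [Hc_twist G φ V j (hfin j), ENat.toNat_mul]
  push_cast
  ring

theorem kstep_map {α β : Type*} [Ring α] [Ring β] (ψ : α →+* β) {ι : Type} [Fintype ι]
    [DecidableEq ι] (K : Matrix ι ι α) (z : α) :
    (kstep K z).map ψ = kstep (K.map ψ) (ψ z) := by
  unfold kstep
  rw [Matrix.fromBlocks_map, Matrix.diagonal_map (map_zero ψ), Matrix.map_zero _ (map_zero ψ)]
  congr 1
  ext i j
  simp

theorem kmat_map {α β : Type*} [Ring α] [Ring β] (ψ : α →+* β) : ∀ (n : ℕ) (Z : Fin n → α),
    (kmat n Z).map ψ = kmat n (fun i => ψ (Z i))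
  | 0, _ => Matrix.map_zero _ (map_zero ψ)
  | n + 1, Z => (kstep_map ψ (kmat n fun i => Z i.succ) (Z 0)).trans
      (congrArg (fun K => kstep K (ψ (Z 0))) (kmat_map ψ n fun i => Z i.succ))

theorem Hc_congr {ι : Type} [Fintype ι] {G G' : FCx R ι} (h1 : G.deg = G'.deg)
    (h2 : G.mat = G'.mat) (V : Type v) [AddCommGroup V] [Module R V] (j : ℤ) :
    Hc G V j = Hc G' V j := by
  cases G
  cases G'
  subst h1
  subst h2
  rfl

theorem chG_kos_map {κ : Type} [Fintype κ] [DecidableEq κ] (φ : R →+* R) (n : ℕ)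
    (Z : Fin n → Matrix κ κ R) (hZ : ∀ i j, Z i * Z j = Z j * Z i)
    (Z' : Fin n → Matrix κ κ R) (hZ' : ∀ i j, Z' i * Z' j = Z' j * Z' i)
    (h : ∀ i, (Z i).map φ = Z' i) (V : Type v) [AddCommGroup V] [Module R V] :
    chG ((kos n Z hZ).map φ) V n = chG (kos n Z' hZ') V n := by
  unfold chG
  have key : ∀ j, Hc ((kos n Z hZ).map φ) V j = Hc (kos n Z' hZ') V j := by
    intro j
    refine Hc_congr (G := (kos n Z hZ).map φ) (G' := kos n Z' hZ') rfl ?_ V j
    have h1 := kmat_map φ.mapMatrix n Z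
    have h2 : (fun i => φ.mapMatrix (Z i)) = Z' := by
      funext i
      exact h i
    rw [h2] at h1
    ext ⟨i, a⟩ ⟨k, b⟩
    change φ (kmat n Z i k a b) = kmat n Z' i k a b
    rw [← h1]
    rfl
  simp only [key]

/-- endomorphisms given by scalars -/
theorem endo_scalar {n : ℕ} (y : Fin n → R) (V : Type v) [AddCommGroup V] [Module R V] :
    List.ofFn (endo V (fun i => y i • (1 : Matrix Unit Unit R))) =
      (List.ofFn y).map (fun a => a • (LinearMap.id : (Unit → V) →ₗ[R] (Unit → V))) := by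
  rw [List.map_ofFn]
  congr 1
  funext i
  refine LinearMap.ext fun x => ?_
  change act (y i • (1 : Matrix Unit Unit R)) V x = y i • x
  rw [act_smul, act_one]

theorem scalar_comm {n : ℕ} (y : Fin n → R) (i j : Fin n) :
    (y i • (1 : Matrix Unit Unit R)) * (y j • (1 : Matrix Unit Unit R)) =
      (y j • (1 : Matrix Unit Unit R)) * (y i • (1 : Matrix Unit Unit R)) := by
  rw [smul_mul_smul_comm, smul_mul_smul_comm, mul_comm (y i)]

theorem dimM_of_dimlt {D : ℕ} {V : Type v} [AddCommGroup V] [Module R V]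
    (h : dimlt D (⊤ : Submodule R (Unit → V)) ⊥) : dimM R D V := by
  intro c hc
  refine h c fun i => ?_
  obtain ⟨x, hx⟩ := (Module.mem_support_iff' (R := R)).1 (hc i)
  refine ⟨fun _ => x, trivial, fun s hs h0 => hx s hs ?_⟩
  rw [Submodule.mem_bot] at h0
  exact congrFun h0 ()

theorem sop_complex [IsNoetherianRing R] (p : ℕ) [hp : Fact p.Prime] [CharP R p] (e D : ℕ)
    (hD : ringKrullDim R = D) :
    ∃ (ι : Type) (_ : Fintype ι) (G : FCx R ι), SerreLike G D ∧
      (∀ (V : Type u) [AddCommGroup V] [Module R V] [Module.Finite R V], ¬ dimM R D V →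
        0 < chG G V D) ∧
      ∀ (V : Type u) [AddCommGroup V] [Module R V] [Module.Finite R V],
        chG (G.map (iterateFrobenius R p e)) V D = (p : ℤ) ^ (e * D) * chG G V D := by
  obtain ⟨ys, hlen, hys, N, hN⟩ := exists_sop (R := R) D hD
  obtain ⟨y, hy⟩ : ∃ y : Fin D → R, ys = List.ofFn y := by
    subst hlen
    exact ⟨ys.get, (List.ofFn_get ys).symm⟩
  subst hy
  have hW : ∀ r ∈ maximalIdeal R ^ N, ∃ W : Fin D → Matrix Unit Unit R,
      ∑ i, (y i • (1 : Matrix Unit Unit R)) * W i = r • (1 : Matrix Unit Unit R) := by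
    intro r hr
    have h1 : r ∈ Ideal.span (Set.range y) := by
      have := hN hr
      unfold Ideal.ofList at this
      have h2 : {x | x ∈ List.ofFn y} = Set.range y := by
        ext x
        exact List.mem_ofFn' _ _
      rwa [h2] at this
    obtain ⟨a, ha⟩ := Ideal.mem_span_range_iff_exists_fun.1 h1
    refine ⟨fun i => a i • 1, ?_⟩
    rw [← ha, Finset.sum_smul]
    refine Finset.sum_congr rfl fun i _ => ?_
    rw [smul_mul_smul_comm, one_mul, mul_comm]
  have hser := kos_serreLike D (fun i => y i • (1 : Matrix Unit Unit R)) (scalar_comm y) N hW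
  refine ⟨KI D × Unit, inferInstance, kos D (fun i => y i • 1) (scalar_comm y), hser, ?_, ?_⟩
  · intro V _ _ _ hV
    rw [chG_kos, endo_scalar]
    have hfin := (kos_serre D (fun i => y i • (1 : Matrix Unit Unit R)) (scalar_comm y) N hW V).1
    rw [endo_scalar] at hfin
    refine Xk_pos (List.ofFn y) hys ⊤ ⊥ bot_le hfin ?_
    rw [List.length_ofFn]
    exact fun h => hV (dimM_of_dimlt h)
  · intro V _ _ _
    have hmap := chG_kos_map (iterateFrobenius R p e) D (fun i => y i • (1 : Matrix Unit Unit R))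
      (scalar_comm y) (fun i => (y i ^ p ^ e) • (1 : Matrix Unit Unit R))
      (scalar_comm fun i => y i ^ p ^ e) (fun i => by
        ext a b
        rw [Matrix.map_apply, Matrix.smul_apply, Matrix.smul_apply, smul_eq_mul, smul_eq_mul,
          map_mul, iterateFrobenius_def, Subsingleton.elim a b, Matrix.one_apply_eq, map_one]) V
    rw [hmap, chG_kos, chG_kos]
    have hks := kos_serre D (fun i => y i • (1 : Matrix Unit Unit R)) (scalar_comm y) N hW V
    have hCm := Cm_ofFn (R := R) (z := endo V (fun i => y i • (1 : Matrix Unit Unit R)))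
      (endo_comm V (scalar_comm y))
    have h := (Xk_pow (p ^ e) (pow_pos hp.out.pos e)
      (List.ofFn (endo V (fun i => y i • (1 : Matrix Unit Unit R)))) hCm ⊤ ⊥ bot_le
      (fun _ _ _ _ => trivial) (fun z _ x hx => by
        rw [Submodule.mem_bot] at hx ⊢
        rw [hx, map_zero]) hks.1).2
    rw [List.length_ofFn] at h
    have hl : (List.ofFn (endo V (fun i => y i • (1 : Matrix Unit Unit R)))).map
        (fun z => z ^ p ^ e) =
        List.ofFn (endo V (fun i => (y i ^ p ^ e) • (1 : Matrix Unit Unit R))) := by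
      rw [List.map_ofFn]
      congr 1
      funext i
      refine LinearMap.ext fun x => ?_
      change ((act (y i • (1 : Matrix Unit Unit R)) V) ^ p ^ e) x =
        act ((y i ^ p ^ e) • (1 : Matrix Unit Unit R)) V x
      rw [act_smul, act_one]
      generalize p ^ e = k
      induction k with
      | zero => simp
      | succ k ih =>
        rw [pow_succ', Module.End.mul_apply, ih, act_smul, act_one, pow_succ', mul_smul]
    rw [hl] at h
    rw [h]
    push_cast
    rw [← pow_mul]

theorem frob_prime [IsNoetherianRing R] (p : ℕ) [hp : Fact p.Prime] [CharP R p]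
    (hF : (frobenius R p).Finite) (e D : ℕ) (hD : ringKrullDim R = D)
    (hR : ∀ c : LTSeries (PrimeSpectrum R), c.length ≤ D) {ι : Type} [Fintype ι] {G : FCx R ι}
    (hG : SerreLike G D) (P : Ideal R) [P.IsPrime] :
    chG G (Tw (iterateFrobenius R p e) (R ⧸ P)) D =
      ((twc (iterateFrobenius R p e)).toNat : ℤ) * ((p : ℤ) ^ (e * D) * chG G (R ⧸ P) D) := by
  have hφ := iterateFrobenius_finite p hF e
  have := Tw_finite (iterateFrobenius R p e) hφ (R ⧸ P)
  obtain ⟨m, hm⟩ := rank_formula hR P (Tw (iterateFrobenius R p e) (R ⧸ P)) (by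
    intro r hr v
    have h1 : (iterateFrobenius R p e) r ∈ P := by
      rw [iterateFrobenius_def]
      exact Ideal.pow_mem_of_mem P hr _ (pow_pos hp.out.pos e)
    change (iterateFrobenius R p e) r • (show R ⧸ P from v) = 0
    obtain ⟨x, hx⟩ := Ideal.Quotient.mk_surjective (show R ⧸ P from v)
    rw [← hx]
    change Ideal.Quotient.mk P ((iterateFrobenius R p e) r * x) = 0
    exact Ideal.Quotient.eq_zero_iff_mem.2 (Ideal.mul_mem_right _ _ h1))
  by_cases hdim : dimM R D (R ⧸ P)
  · rw [hm ι G hG, hG.van _ hdim, mul_zero, mul_zero, mul_zero]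
  · obtain ⟨ι', _, G', hG', hpos, hfr⟩ := sop_complex (R := R) p e D hD
    have h1 := hm ι' G' hG'
    rw [(twist_chG hG' _ hφ (R ⧸ P)).2, hfr (R ⧸ P)] at h1
    have h2 := hpos (R ⧸ P) hdim
    have h3 : ((twc (iterateFrobenius R p e)).toNat : ℤ) * (p : ℤ) ^ (e * D) = m := by
      refine mul_right_cancel₀ h2.ne' ?_
      rw [mul_assoc]
      exact h1
    rw [hm ι G hG, ← h3, mul_assoc]

theorem frob_formula [IsNoetherianRing R] (p : ℕ) [hp : Fact p.Prime] [CharP R p]
    (hF : (frobenius R p).Finite) (e D : ℕ) (hD : ringKrullDim R = D)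
    (hR : ∀ c : LTSeries (PrimeSpectrum R), c.length ≤ D) {ι : Type} [Fintype ι] {G : FCx R ι}
    (hG : SerreLike G D) (V : Type u) [AddCommGroup V] [Module R V] [hV : Module.Finite R V] :
    chG (G.map (iterateFrobenius R p e)) V D = (p : ℤ) ^ (e * D) * chG G V D := by
  have hφ := iterateFrobenius_finite p hF e
  have key : chG G (Tw (iterateFrobenius R p e) V) D =
      ((twc (iterateFrobenius R p e)).toNat : ℤ) * ((p : ℤ) ^ (e * D) * chG G V D) := by
    induction hV using IsNoetherianRing.induction_on_isQuotientEquivQuotientPrime R with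
    | subsingleton N =>
      have : Subsingleton (Tw (iterateFrobenius R p e) N) := ‹Subsingleton N›
      rw [chG_subsingleton, chG_subsingleton, mul_zero, mul_zero]
    | quotient N q ε =>
      rw [chG_equiv G ε, chG_equiv G (v3Equiv (iterateFrobenius R p e) ε)]
      exact frob_prime p hF e D hD hR hG q.asIdeal
    | exact N₁ N₂ N₃ f g hf hg hfg h₁ h₃ =>
      have i1 := Tw_finite (iterateFrobenius R p e) hφ N₁
      have i3 := Tw_finite (iterateFrobenius R p e) hφ N₃
      rw [(chG_add G D hG.deg f g hf hg hfg (hG.fin _) (hG.fin _)).2,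
        (chG_add G D hG.deg (v3Map (iterateFrobenius R p e) f) (v3Map (iterateFrobenius R p e) g)
          hf hg hfg (hG.fin _) (hG.fin _)).2, h₁, h₃]
      ring
  rw [(twist_chG hG _ hφ V).2] at key
  have hc : ((twc (iterateFrobenius R p e)).toNat : ℤ) ≠ 0 := by
    have h1 := twc_ne_zero (iterateFrobenius R p e)
    have h2 : twc (iterateFrobenius R p e) ≠ ⊤ := twc_ne_top _ hφ (by
      intro r hr
      rw [iterateFrobenius_def]
      exact Ideal.pow_mem_of_mem _ hr _ (pow_pos hp.out.pos e))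
    intro h0
    have h3 : (twc (iterateFrobenius R p e)).toNat = 0 := by exact_mod_cast h0
    rcases ENat.toNat_eq_zero.1 h3 with h4 | h4
    · exact h1 h4
    · exact h2 h4
  exact mul_left_cancel₀ hc key

end Frob

end Vale.Agent.P202C.SA
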