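import Vale.Agent.P202C.SE
import Vale.Agent.P202C.VDefs

/-!
P202 part V (helper19): the Koszul complex of commuting matrices as a free complex `FCx`.
-/

namespace Vale.Agent.P202C.SA

/-! ### the Koszul matrix over a ring -/

instance instFintypeKI : (n : ℕ) → Fintype (KI n)
  | 0 => inferInstanceAs (Fintype Unit)
  | n + 1 => haveI := instFintypeKI n; inferInstanceAs (Fintype (KI n ⊕ KI n))

instance instDecEqKI : (n : ℕ) → DecidableEq (KI n)
  | 0 => inferInstanceAs (DecidableEq Unit)
  | n + 1 => haveI := instDecEqKI n; inferInstanceAs (DecidableEq (KI n ⊕ KI n))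

section Ring

variable {α : Type*} [Ring α]

section Step

variable {ι : Type} [Fintype ι] [DecidableEq ι]

/-- cone of a scalar -/
def kstep (K : Matrix ι ι α) (z : α) : Matrix (ι ⊕ ι) (ι ⊕ ι) α :=
  Matrix.fromBlocks K (Matrix.diagonal fun _ => z) 0 (-K)

/-- first homotopy -/
def hstep0 : Matrix (ι ⊕ ι) (ι ⊕ ι) α := Matrix.fromBlocks 0 0 1 0

/-- extension of a homotopy -/
def hstep (H : Matrix ι ι α) : Matrix (ι ⊕ ι) (ι ⊕ ι) α := Matrix.fromBlocks H 0 0 (-H)

theorem diag_sum (w : α) : (Matrix.diagonal fun _ => w : Matrix (ι ⊕ ι) (ι ⊕ ι) α) =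
    Matrix.fromBlocks (Matrix.diagonal fun _ => w) 0 0 (Matrix.diagonal fun _ => w) := by
  rw [Matrix.fromBlocks_diagonal]
  congr 1
  funext s
  rcases s with s | s <;> rfl

theorem kstep_comm {K : Matrix ι ι α} {z w : α}
    (h1 : (Matrix.diagonal fun _ => w) * K = K * (Matrix.diagonal fun _ => w))
    (h2 : w * z = z * w) :
    (Matrix.diagonal fun _ => w) * kstep K z = kstep K z * (Matrix.diagonal fun _ => w) := by
  rw [diag_sum, kstep, Matrix.fromBlocks_multiply, Matrix.fromBlocks_multiply]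
  simp only [Matrix.zero_mul, Matrix.mul_zero, add_zero, zero_add, Matrix.mul_neg,
    Matrix.neg_mul, Matrix.diagonal_mul_diagonal, neg_zero, h1, h2]

theorem kstep_sq {K : Matrix ι ι α} {z : α} (hs : K * K = 0)
    (h1 : (Matrix.diagonal fun _ => z) * K = K * (Matrix.diagonal fun _ => z)) :
    kstep K z * kstep K z = 0 := by
  rw [kstep, Matrix.fromBlocks_multiply]
  simp only [Matrix.zero_mul, Matrix.mul_zero, add_zero, Matrix.mul_neg,
    Matrix.neg_mul, neg_neg, hs, h1, add_neg_cancel, Matrix.fromBlocks_zero]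

theorem hstep0_comm (w : α) :
    (Matrix.diagonal fun _ => w) * (hstep0 : Matrix (ι ⊕ ι) (ι ⊕ ι) α) =
      hstep0 * (Matrix.diagonal fun _ => w) := by
  rw [diag_sum, hstep0, Matrix.fromBlocks_multiply, Matrix.fromBlocks_multiply]
  simp only [Matrix.zero_mul, Matrix.mul_zero, add_zero, zero_add, Matrix.mul_one, Matrix.one_mul]

theorem hstep_comm {w : α} {H : Matrix ι ι α}
    (h : (Matrix.diagonal fun _ => w) * H = H * (Matrix.diagonal fun _ => w)) :
    (Matrix.diagonal fun _ => w) * hstep H = hstep H * (Matrix.diagonal fun _ => w) := by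
  rw [diag_sum, hstep, Matrix.fromBlocks_multiply, Matrix.fromBlocks_multiply]
  simp only [Matrix.zero_mul, Matrix.mul_zero, add_zero, zero_add, Matrix.mul_neg,
    Matrix.neg_mul, neg_zero, h]

theorem kstep_hstep0 (K : Matrix ι ι α) (z : α) :
    kstep K z * hstep0 + hstep0 * kstep K z = (Matrix.diagonal fun _ => z) := by
  rw [diag_sum, kstep, hstep0, Matrix.fromBlocks_multiply, Matrix.fromBlocks_multiply,
    Matrix.fromBlocks_add]
  simp only [Matrix.zero_mul, Matrix.mul_zero, add_zero, zero_add, Matrix.mul_one,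
    Matrix.one_mul, neg_add_cancel]

theorem kstep_hstep {K H : Matrix ι ι α} {z w : α}
    (h1 : (Matrix.diagonal fun _ => z) * H = H * (Matrix.diagonal fun _ => z))
    (h2 : K * H + H * K = Matrix.diagonal fun _ => w) :
    kstep K z * hstep H + hstep H * kstep K z = (Matrix.diagonal fun _ => w) := by
  rw [diag_sum, kstep, hstep, Matrix.fromBlocks_multiply, Matrix.fromBlocks_multiply,
    Matrix.fromBlocks_add]
  simp only [Matrix.zero_mul, Matrix.mul_zero, add_zero, zero_add, Matrix.mul_neg,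
    Matrix.neg_mul, neg_neg, neg_zero, h1, h2, neg_add_cancel]

end Step

/-- Koszul matrix -/
def kmat : (n : ℕ) → (Fin n → α) → Matrix (KI n) (KI n) α
  | 0, _ => 0
  | n + 1, Z => kstep (kmat n fun i => Z i.succ) (Z 0)

/-- homotopy matrices -/
def hmat : (n : ℕ) → Fin n → Matrix (KI n) (KI n) α
  | 0, _ => 0
  | n + 1, i => Fin.cases hstep0 (fun k => hstep (hmat n k)) i

theorem kmat_comm (w : α) : ∀ (n : ℕ) (Z : Fin n → α), (∀ i, w * Z i = Z i * w) →
    (Matrix.diagonal fun _ => w) * kmat n Z = kmat n Z * (Matrix.diagonal fun _ => w)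
  | 0, _, _ => (mul_zero (Matrix.diagonal fun _ : KI 0 => w)).trans
      (zero_mul (Matrix.diagonal fun _ : KI 0 => w)).symm
  | n + 1, Z, h => kstep_comm (kmat_comm w n (fun i => Z i.succ) (fun i => h i.succ)) (h 0)

theorem kmat_sq : ∀ (n : ℕ) (Z : Fin n → α), (∀ i j, Z i * Z j = Z j * Z i) →
    kmat n Z * kmat n Z = 0
  | 0, _, _ => mul_zero (0 : Matrix (KI 0) (KI 0) α)
  | n + 1, Z, h => kstep_sq (kmat_sq n (fun i => Z i.succ) (fun i j => h i.succ j.succ))
      (kmat_comm (Z 0) n (fun i => Z i.succ) (fun i => h 0 i.succ))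

theorem hmat_comm (w : α) : ∀ (n : ℕ) (k : Fin n),
    (Matrix.diagonal fun _ => w) * hmat n k = hmat n k * (Matrix.diagonal fun _ => w)
  | 0, k => k.elim0
  | n + 1, k => Fin.cases (hstep0_comm w) (fun k => hstep_comm (hmat_comm w n k)) k

theorem kmat_hmat : ∀ (n : ℕ) (Z : Fin n → α) (k : Fin n),
    kmat n Z * hmat n k + hmat n k * kmat n Z = Matrix.diagonal fun _ => Z k
  | 0, _, k => k.elim0
  | n + 1, Z, k => Fin.cases (kstep_hstep0 (kmat n fun i => Z i.succ) (Z 0))
      (fun k => kstep_hstep (hmat_comm (Z 0) n k) (kmat_hmat n (fun i => Z i.succ) k)) k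

theorem kmat_deg : ∀ (n : ℕ) (Z : Fin n → α) (i j : KI n), kmat n Z i j ≠ 0 →
    kdeg n j = kdeg n i + 1
  | 0, _, _, _, h => absurd rfl h
  | n + 1, Z, Sum.inl i, Sum.inl j, h => kmat_deg n _ i j h
  | n + 1, Z, Sum.inl i, Sum.inr j, h => by
    change kdeg n j + 1 = kdeg n i + 1
    have h' : (Matrix.diagonal fun _ => Z 0 : Matrix (KI n) (KI n) α) i j ≠ 0 := h
    by_contra hne
    apply h'
    rw [Matrix.diagonal_apply_ne]
    rintro rfl
    exact hne rfl
  | n + 1, Z, Sum.inr i, Sum.inl j, h => absurd rfl h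
  | n + 1, Z, Sum.inr i, Sum.inr j, h => by
    have h' : -(kmat n (fun i => Z i.succ) i j) ≠ 0 := h
    have := kmat_deg n _ i j (neg_ne_zero.1 h')
    change kdeg n j + 1 = kdeg n i + 1 + 1
    omega

theorem hmat_deg : ∀ (n : ℕ) (k : Fin n) (i j : KI n), hmat (α := α) n k i j ≠ 0 →
    kdeg n i = kdeg n j + 1
  | 0, k, _, _, _ => k.elim0
  | n + 1, k, i, j, h => by
    revert h
    refine Fin.cases ?_ (fun k => ?_) k
    · intro h
      change Matrix.fromBlocks (0 : Matrix (KI n) (KI n) α) 0 1 0 i j ≠ 0 at h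
      rcases i with i | i <;> rcases j with j | j
      · exact absurd rfl h
      · exact absurd rfl h
      · change (1 : Matrix (KI n) (KI n) α) i j ≠ 0 at h
        by_cases hij : i = j
        · subst hij
          rfl
        · exact absurd (Matrix.one_apply_ne hij) h
      · exact absurd rfl h
    · intro h
      change Matrix.fromBlocks (hmat (α := α) n k) 0 0 (-(hmat n k)) i j ≠ 0 at h
      rcases i with i | i <;> rcases j with j | j
      · exact hmat_deg n k i j h
      · exact absurd rfl h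
      · exact absurd rfl h
      · have h' : -(hmat (α := α) n k i j) ≠ 0 := h
        have := hmat_deg n k i j (neg_ne_zero.1 h')
        change kdeg n i + 1 = kdeg n j + 1 + 1
        omega

end Ring

/-! ### Koszul differential indexed by `Fin n` -/

section Fin

variable {R : Type*} [CommRing R] {X : Type*} [AddCommGroup X] [Module R X]

/-- Koszul differential, family version -/
def kdF : (n : ℕ) → (Fin n → (X →ₗ[R] X)) → ((KI n → X) →ₗ[R] (KI n → X))
  | 0, _ => 0
  | n + 1, z => coneD (kdF n fun i => z i.succ) (z 0)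

theorem kd_eq_kdF : ∀ l : List (X →ₗ[R] X), kd l = kdF l.length l.get
  | [] => rfl
  | z :: l => by
    change coneD (kd l) z = coneD (kdF l.length l.get) z
    rw [kd_eq_kdF l]

theorem Hk_eq_kdF (l : List (X →ₗ[R] X)) (P Q : Submodule R X) {n : ℕ} (z : Fin n → (X →ₗ[R] X))
    (h : l = List.ofFn z) (j : ℤ) :
    Hl (kdF n z) (Fm (kdeg n) P) (Fm (kdeg n) Q) j = Hk l P Q j := by
  have hn : l.length = n := by rw [h, List.length_ofFn]
  have hz : ∀ i, z i = l.get (i.cast hn.symm) := by
    intro i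
    subst h
    simp
  clear h
  subst hn
  have hz' : z = l.get := funext hz
  rw [hz', ← kd_eq_kdF]
  rfl

end Fin

end Vale.Agent.P202C.SA
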