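import Vale.Agent.P202C.SM
import Vale.Agent.P202C.MainIneq

/-!
P202 parts (V) and (VI) (helper19): the theorem `model` of `Plan.lean`.
-/

set_option autoImplicit false

namespace Vale.Agent.P202C.SA

open IsLocalRing Vale.Agent.P202C Vale.Agent.P202C.V

universe u v w

section

variable {R : Type u} [CommRing R] {S : Type v} [CommRing S] [Algebra R S] {g : ℕ}
  (b : Module.Basis (Fin g) R S)

theorem endo_leftMul (V : Type w) [AddCommGroup V] [Module R V] {D : ℕ} (z : Fin D → S)
    (i : Fin D) (x : Fin g → V) :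
    endo V (fun i => Algebra.leftMulMatrix b (z i)) i x =
      act (Algebra.leftMulMatrix b (z i)) V x := rfl

theorem leftMul_comm {D : ℕ} (z : Fin D → S) (i j : Fin D) :
    Algebra.leftMulMatrix b (z i) * Algebra.leftMulMatrix b (z j) =
      Algebra.leftMulMatrix b (z j) * Algebra.leftMulMatrix b (z i) := by
  rw [← map_mul, mul_comm, map_mul]

theorem act_leftMul (s t : S) :
    act (Algebra.leftMulMatrix b s) R (b.equivFun t) = b.equivFun (s * t) := by
  have h := Algebra.leftMulMatrix_mulVec_repr b s t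
  funext a
  have h2 := congrFun h a
  rw [act_apply]
  exact h2

theorem rl_top_ideal (I : Ideal S) :
    rl ⊤ (I.restrictScalars R) = Module.length R (S ⧸ I) := by
  rw [← rl_top_quot (Ideal.Quotient.mkₐ R I).toLinearMap Ideal.Quotient.mk_surjective]
  congr 1
  ext s
  rw [LinearMap.mem_ker]
  exact Ideal.Quotient.eq_zero_iff_mem.symm

theorem length_quot_le [IsLocalRing R] [IsLocalRing S] [IsLocalHom (algebraMap R S)] {D : ℕ}
    (z : Fin D → S) (hz : ∀ l, z l ∈ maximalIdeal S) :
    Module.length R (S ⧸ maximalIdeal S) ≤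
      Hc (kos D (fun i => Algebra.leftMulMatrix b (z i)) (leftMul_comm b z))
        (R ⧸ maximalIdeal R) 0 := by
  rw [Hc_kos]
  have hC := Cm_ofFn (R := R)
    (z := endo (R ⧸ maximalIdeal R) (fun i => Algebra.leftMulMatrix b (z i)))
    (endo_comm _ (leftMul_comm b z))
  refine le_trans ?_ (H0_ge _ hC)
  let π : S →ₗ[R] (Fin g → R ⧸ maximalIdeal R) :=
    ((Submodule.mkQ (maximalIdeal R)).compLeft (Fin g)) ∘ₗ (b.equivFun : S →ₗ[R] (Fin g → R))
  have hπ : Function.Surjective π := by
    intro x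
    choose y hy using fun a => Submodule.Quotient.mk_surjective (maximalIdeal R) (x a)
    refine ⟨b.equivFun.symm y, ?_⟩
    change (fun a => Submodule.Quotient.mk (b.equivFun (b.equivFun.symm y) a)) = x
    rw [LinearEquiv.apply_symm_apply]
    funext a
    exact hy a
  have hπz : ∀ i s, π (z i * s) =
      endo (R ⧸ maximalIdeal R) (fun i => Algebra.leftMulMatrix b (z i)) i (π s) := by
    intro i s
    funext a
    change Submodule.Quotient.mk (b.equivFun (z i * s) a) =
      act (Algebra.leftMulMatrix b (z i)) (R ⧸ maximalIdeal R) (π s) a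
    rw [← act_leftMul, act_apply, act_apply]
    change (maximalIdeal R).mkQ (∑ k, Algebra.leftMulMatrix b (z i) a k • b.equivFun s k) = _
    rw [map_sum]
    rfl
  have hker : ∀ s, π s = 0 → s ∈ maximalIdeal S := by
    intro s hs
    have h1 : ∀ a, b.equivFun s a ∈ maximalIdeal R := by
      intro a
      have := congrFun hs a
      change (Submodule.Quotient.mk (b.equivFun s a) : R ⧸ maximalIdeal R) = 0 at this
      rwa [Submodule.Quotient.mk_eq_zero] at this
    rw [← b.sum_equivFun s]
    refine Submodule.sum_mem _ fun a _ => ?_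
    rw [Algebra.smul_def]
    refine Ideal.mul_mem_right _ _ ?_
    rw [IsLocalRing.mem_maximalIdeal, mem_nonunits_iff]
    intro hu
    exact (IsLocalRing.mem_maximalIdeal _).1 (h1 a) (isUnit_of_map_unit (algebraMap R S) _ hu)
  have hle : sumM (List.ofFn (endo (R ⧸ maximalIdeal R)
      (fun i => Algebra.leftMulMatrix b (z i)))) ⊤ ≤
      ((maximalIdeal S).restrictScalars R).map π := by
    refine sumM_ofFn_le _ _ _ fun i x _ => ?_
    obtain ⟨s, rfl⟩ := hπ x
    exact ⟨z i * s, Ideal.mul_mem_right _ _ (hz i), hπz i s⟩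
  rw [rl_top_surj π hπ]
  have hcomap : (sumM (List.ofFn (endo (R ⧸ maximalIdeal R)
      (fun i => Algebra.leftMulMatrix b (z i)))) ⊤).comap π ≤
      (maximalIdeal S).restrictScalars R := by
    intro s hs
    obtain ⟨t, ht, hst⟩ := hle hs
    have h1 : π (s - t) = 0 := by rw [map_sub, hst, sub_self]
    have h2 := hker _ h1
    have h3 : s = (s - t) + t := by ring
    rw [h3]
    exact Submodule.add_mem _ h2 ht
  refine le_trans ?_ (rl_mono_right hcomap le_top)
  rw [rl_top_ideal]

theorem Hk_leftMul {D : ℕ} (z : Fin D → S) (j : ℤ) :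
    Hc (kos D (fun i => Algebra.leftMulMatrix b (z i)) (leftMul_comm b z)) R j =
      Hk ((List.ofFn z).map (mulE R)) ⊤ ⊥ j := by
  rw [Hc_kos, List.map_ofFn]
  refine (Hk_iso b.equivFun ?_ ?_ ?_ j).symm
  · intro i x
    change b.equivFun (z i * x) = act (Algebra.leftMulMatrix b (z i)) R (b.equivFun x)
    rw [act_leftMul]
  · intro i k x
    change z i * (z k * x) = z k * (z i * x)
    ring
  · intro i k x
    exact endo_comm R (leftMul_comm b z) i k x

theorem chG_leftMul [IsLocalRing S] {D : ℕ} (z : Fin D → S)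
    (hzr : RingTheory.Sequence.IsRegular S (List.ofFn z)) :
    chG (kos D (fun i => Algebra.leftMulMatrix b (z i)) (leftMul_comm b z)) R D =
      ((Module.length R (S ⧸ Ideal.span (Set.range z))).toNat : ℤ) := by
  have hreg := Hk_regular R (List.ofFn z) ⊥ (by
    intro i hi x hx
    rw [bot_sup_eq] at hx ⊢
    have h1 := hzr.toIsWeaklyRegular.regular_mod_prev i hi
    have h2 : (Ideal.ofList ((List.ofFn z).take i) • ⊤ : Submodule S S) =
        Ideal.ofList ((List.ofFn z).take i) := by
      rw [smul_eq_mul, Ideal.mul_top]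
    rw [h2] at h1
    have h3 : (List.ofFn z)[i] • (Submodule.Quotient.mk x :
        S ⧸ Ideal.ofList ((List.ofFn z).take i)) =
        (List.ofFn z)[i] • (0 : S ⧸ Ideal.ofList ((List.ofFn z).take i)) := by
      rw [smul_zero, ← Submodule.Quotient.mk_smul, Submodule.Quotient.mk_eq_zero]
      exact hx
    have h4 := h1 h3
    rwa [Submodule.Quotient.mk_eq_zero] at h4)
  have hbot : (⊥ : Ideal S).restrictScalars R = ⊥ := rfl
  rw [hbot, bot_sup_eq] at hreg
  unfold chG
  rw [Finset.sum_range_succ']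
  rw [Finset.sum_eq_zero]
  · rw [zero_add, Hk_leftMul]
    have h0 : ((0 : ℕ) : ℤ) = 0 := rfl
    rw [h0, hreg.1, pow_zero, one_mul]
    rw [rl_top_ideal]
    have h2 : Ideal.ofList (List.ofFn z) = Ideal.span (Set.range z) := by
      unfold Ideal.ofList
      congr 1
      ext x
      exact List.mem_ofFn' _ _
    rw [h2]
  · intro j _
    rw [Hk_leftMul, hreg.2 _ (by push_cast; omega)]
    simp

end

theorem chains_le {R : Type u} [CommRing R] [Nontrivial R] {D : ℕ} (hD : ringKrullDim R = D)
    (c : LTSeries (PrimeSpectrum R)) : c.length ≤ D := by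
  have h := Order.LTSeries.length_le_krullDim c
  have h2 : (c.length : WithBot ℕ∞) ≤ (D : WithBot ℕ∞) := by
    rw [← hD]
    exact h
  exact_mod_cast h2

end Vale.Agent.P202C.SA

namespace Vale.Agent.P202C

open IsLocalRing Vale.Agent.P202C.V Vale.Agent.P202C.SA

universe u v w

theorem chG_eq {R : Type u} [CommRing R] {ι : Type} [Fintype ι] (G : FCx R ι)
    (V : Type v) [AddCommGroup V] [Module R V] (D : ℕ) : MI.chiG G V D = chG G V D := rfl

theorem model_pf (R : Type u) [CommRing R] [IsLocalRing R] [IsNoetherianRing R]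
    (p : ℕ) [Fact p.Prime] [CharP R p] (hF : (frobenius R p).Finite)
    (S : Type v) [CommRing S] [IsLocalRing S] [Algebra R S] [Module.Finite R S] [Module.Free R S]
    [IsLocalHom (algebraMap R S)]
    (D : ℕ) (hD : ringKrullDim R = D) (z : Fin D → S) (hz : ∀ l, z l ∈ maximalIdeal S)
    (hzl : Module.length R (S ⧸ Ideal.span (Set.range z)) ≠ ⊤)
    (hzr : RingTheory.Sequence.IsRegular S (List.ofFn z)) :
    ∃ (ι : Type) (_ : Fintype ι) (_ : DecidableEq ι) (G : FCx R ι),
      (∀ a, 0 ≤ G.deg a ∧ G.deg a ≤ D) ∧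
      (∀ a b, G.mat a b ∈ maximalIdeal R) ∧
      (Module.length R (S ⧸ maximalIdeal S) ≤
        ((Finset.univ.filter (fun a => G.deg a = 0)).card : ℕ∞)) ∧
      (∃ N : ℕ, ∀ r ∈ maximalIdeal R ^ N, ∃ h : Matrix ι ι R,
        (∀ a b, h a b ≠ 0 → G.deg a = G.deg b + 1) ∧
        G.mat * h + h * G.mat = r • (1 : Matrix ι ι R)) ∧
      (∀ (V : Type u) [AddCommGroup V] [Module R V] [Module.Finite R V] (e : ℕ),
        (∀ j, Hc (G.map (iterateFrobenius R p e)) V j ≠ ⊤) ∧
        MI.chiG (G.map (iterateFrobenius R p e)) V D = (p : ℤ) ^ (e * D) * MI.chiG G V D) ∧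
      ((MI.chiG G R D : ℤ) =
        ((Module.length R (S ⧸ Ideal.span (Set.range z))).toNat : ℤ)) ∧
      (∀ (V : Type u) [AddCommGroup V] [Module R V] [Module.Finite R V] (m : ℕ)
        (f : V →ₗ[R] (Fin m → R)) (y : R) (N : ℕ), Function.Injective f →
        y ∈ maximalIdeal R → y ∈ nonZeroDivisors R →
        (∀ v : Fin m → R, y ^ N • v ∈ LinearMap.range f) →
        MI.chiG G V D = m * MI.chiG G R D) := by
  classical
  let b := Module.finBasis R S
  have hR := chains_le hD
  obtain ⟨N, hN⟩ := exists_pow_of_length_ne_top hzl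
  have hW : ∀ r ∈ maximalIdeal R ^ N, ∃ w : Fin D → S, ∑ i, z i * w i = algebraMap R S r := by
    intro r hr
    have h1 := hN r hr (Submodule.Quotient.mk 1)
    have h2 : (Submodule.Quotient.mk (r • (1 : S)) : S ⧸ Ideal.span (Set.range z)) = 0 := h1
    rw [Submodule.Quotient.mk_eq_zero] at h2
    obtain ⟨c, hc⟩ := Ideal.mem_span_range_iff_exists_fun.1 h2
    refine ⟨c, ?_⟩
    rw [Algebra.algebraMap_eq_smul_one, ← hc]
    exact Finset.sum_congr rfl fun i _ => mul_comm _ _
  have hW2 : ∀ r ∈ maximalIdeal R ^ N, ∃ W : Fin D → Matrix (Fin _) (Fin _) R,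
      (∀ i j, W i * Algebra.leftMulMatrix b (z j) = Algebra.leftMulMatrix b (z j) * W i) ∧
      ∑ i, Algebra.leftMulMatrix b (z i) * W i = r • 1 := by
    intro r hr
    obtain ⟨w, hw⟩ := hW r hr
    refine ⟨fun i => Algebra.leftMulMatrix b (w i), fun i j => ?_, ?_⟩
    · rw [← map_mul, mul_comm, map_mul]
    · have h1 : ∑ i, Algebra.leftMulMatrix b (z i) * Algebra.leftMulMatrix b (w i) =
          Algebra.leftMulMatrix b (∑ i, z i * w i) := by
        rw [map_sum]
        exact Finset.sum_congr rfl fun i _ => (map_mul _ _ _).symm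
      rw [h1, hw, AlgHom.commutes, Algebra.algebraMap_eq_smul_one]
  have hK := kos_serreLike D (fun i => Algebra.leftMulMatrix b (z i)) (leftMul_comm b z) N
    (fun r hr => by
      obtain ⟨W, _, h⟩ := hW2 r hr
      exact ⟨W, h⟩)
  obtain ⟨ι, _, _, G, ret, hmin, hdeg⟩ := exists_minimal
    (kos D (fun i => Algebra.leftMulMatrix b (z i)) (leftMul_comm b z))
  have hHc : ∀ (V : Type u) [AddCommGroup V] [Module R V] (j : ℤ), Hc G V j =
      Hc (kos D (fun i => Algebra.leftMulMatrix b (z i)) (leftMul_comm b z)) V j :=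
    fun V _ _ j => retr_Hc_eq ret V j
  have hch : ∀ (V : Type u) [AddCommGroup V] [Module R V], chG G V D =
      chG (kos D (fun i => Algebra.leftMulMatrix b (z i)) (leftMul_comm b z)) V D := by
    intro V _ _
    unfold chG
    simp only [hHc]
  have hG : SerreLike G D := by
    refine ⟨fun a => ?_, fun V _ _ _ j => ?_, fun V _ _ _ hd => ?_⟩
    · obtain ⟨k, hk⟩ := hdeg a
      rw [hk]
      exact hK.deg k
    · rw [hHc]
      exact hK.fin V j
    · rw [hch]
      exact hK.van V hd
  refine ⟨ι, inferInstance, inferInstance, G, hG.deg, hmin, ?_, ⟨N, ?_⟩, ?_, ?_, ?_⟩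
  · rw [← Hc_residue G hmin 0, hHc]
    exact length_quot_le b z hz
  · intro r hr
    obtain ⟨W, hWc, hWs⟩ := hW2 r hr
    obtain ⟨h, hd, hh⟩ := SA.kos_null D (fun i => Algebra.leftMulMatrix b (z i)) (leftMul_comm b z)
      W hWc r (by
        rw [← hWs]
        exact Finset.sum_congr rfl fun i _ => hWc i i)
    exact retr_null ret r h hd hh
  · intro V _ _ _ e
    exact ⟨(twist_chG hG _ (iterateFrobenius_finite p hF e) V).1, frob_formula p hF e D hD hR hG V⟩
  · change chG G R D = _
    rw [hch]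
    exact chG_leftMul b z hzr
  · intro V _ _ _ m f y N' hf _ hy h
    exact hG.chG_sub_free hR m f hf y hy N' h

end Vale.Agent.P202C
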