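import Vale.Agent.P202C.Slice

/-!
P202 in characteristic p: cohomology of the slices of the explicit complex, over `A = 𝔽[Y_0..Y_n]`,
continued.
-/

set_option autoImplicit false

namespace Vale.Agent.P202C

open IsLocalRing TensorProduct

universe u v w

section Slices

variable (𝔽 : Type w) [Field 𝔽] {n : ℕ}

/-- number of negative entries -/
def negc (b : Fin n → ℤ) (s : ℤ) : ℕ := (Finset.univ.filter (fun l => b l + s < 0)).card

/-- boundaries of the slice -/
noncomputable def NA (b : Fin n → ℤ) (k s : ℤ) : Submodule (PolyA 𝔽 n) (XA 𝔽 n) :=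
  (grA 𝔽 n k ⊓ FA 𝔽 b (s + 1)) ⊔ (grA 𝔽 n (k - 1) ⊓ FA 𝔽 b s).map (dA 𝔽 n)

/-- cycles of the slice -/
noncomputable def PA (b : Fin n → ℤ) (k s : ℤ) : Submodule (PolyA 𝔽 n) (XA 𝔽 n) :=
  grA 𝔽 n k ⊓ FA 𝔽 b s ⊓ (FA 𝔽 b (s + 1)).comap (dA 𝔽 n)

theorem FA_anti (b : Fin n → ℤ) {s s' : ℤ} (h : s' ≤ s) : FA 𝔽 b s ≤ FA 𝔽 b s' :=
  fun _ hf τ => inBlk_anti 𝔽 b τ s s' h (hf τ)

theorem red_univ {b : Fin n → ℤ} {s k : ℤ} {x : XA 𝔽 n} (hx : x ∈ PA 𝔽 b k s) :
    ∃ y ∈ PA 𝔽 b k s, (∀ m, HarD 𝔽 b m y) ∧ x - y ∈ NA 𝔽 b k s := by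
  obtain ⟨⟨h1, h2⟩, h3⟩ := hx
  obtain ⟨y, a1, a2, a3, a4, z, hz, w, hw, he⟩ := exists_har 𝔽 (FA 𝔽 b (s + 1))
    (fun f hf => dA_F 𝔽 b (s + 1) f hf) (fun m f hf => Hh_F 𝔽 m hf) Finset.univ h1 h2 h3
  refine ⟨y, ⟨⟨a1, a2⟩, a3⟩, fun m => a4 m (Finset.mem_univ m), ?_⟩
  rw [he, add_comm (dA 𝔽 n z) w]
  exact Submodule.add_mem_sup hw (Submodule.mem_map_of_mem hz)

theorem exists_of_num2_gt {b : Fin n → ℤ} {s : ℤ} {τ : Fin n → Fin 3} (h : negc b s < num2 τ) :
    ∃ m, τ m = 2 ∧ ¬ b m + s < 0 := by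
  by_contra hcon
  push Not at hcon
  have h1 : Finset.univ.filter (fun l => τ l = 2) ⊆ Finset.univ.filter (fun l => b l + s < 0) := by
    intro l hl
    simp only [Finset.mem_filter, Finset.mem_univ, true_and] at hl ⊢
    exact hcon l hl
  exact absurd (Finset.card_le_card h1) (not_le.mpr h)

theorem exists_of_num2_lt {b : Fin n → ℤ} {s : ℤ} {τ : Fin n → Fin 3} (h : num2 τ < negc b s) :
    ∃ m, τ m ≠ 2 ∧ b m + s < 0 := by
  by_contra hcon
  push Not at hcon
  have h1 : Finset.univ.filter (fun l => b l + s < 0) ⊆ Finset.univ.filter (fun l => τ l = 2) := by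
    intro l hl
    simp only [Finset.mem_filter, Finset.mem_univ, true_and] at hl ⊢
    by_contra h2
    exact absurd hl (not_lt.mpr (hcon l h2))
  exact absurd (Finset.card_le_card h1) (not_le.mpr h)

/-- **exactness of `F s` in high degrees** -/
theorem exact_A {b : Fin n → ℤ} {s k : ℤ} (hk : (negc b s : ℤ) < k) {x : XA 𝔽 n}
    (h1 : x ∈ grA 𝔽 n k) (h2 : x ∈ FA 𝔽 b s) (h3 : dA 𝔽 n x = 0) :
    x ∈ (grA 𝔽 n (k - 1) ⊓ FA 𝔽 b s).map (dA 𝔽 n) := by
  obtain ⟨y, a1, a2, a3, a4, z, hz, w, hw, he⟩ := exists_har 𝔽 (b := b) (s := s) (k := k) ⊥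
    (fun f hf => by
      rw [(Submodule.mem_bot _).mp hf, map_zero]
      exact Submodule.zero_mem _)
    (fun m f hf => by
      rw [(Submodule.mem_bot _).mp hf, Hh_zero]
      exact Submodule.zero_mem _) Finset.univ h1 h2 ((Submodule.mem_bot _).mpr h3)
  have hw0 : w = 0 := (Submodule.mem_bot _).mp hw.2
  have hy0 : y = 0 := by
    funext τ
    rw [Pi.zero_apply]
    by_cases hτ : (num2 τ : ℤ) = k
    · refine lau_ext 𝔽 fun m => ?_
      rw [AddMonoidAlgebra.coeff_zero, Finsupp.zero_apply]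
      by_contra hne
      obtain ⟨l, hl1, hl2⟩ := exists_of_num2_gt (b := b) (s := s) (τ := τ) (by omega)
      obtain ⟨c1, c2⟩ := ((a4 l (Finset.mem_univ l)).1 τ m hne).1 hl1
      have c3 := (a2 τ m hne).1
      omega
    · exact a1 τ hτ
  rw [hy0, hw0, sub_zero, add_zero] at he
  rw [he]
  exact Submodule.mem_map_of_mem hz

/-- the value of a harmonic cochain at the lowest level -/
theorem har_low {b : Fin n → ℤ} {s k : ℤ} {y : XA 𝔽 n} (h1 : y ∈ grA 𝔽 n k)
    (h4 : ∀ m, HarD 𝔽 b m y) {τ : Fin n → Fin 3} {i : Fin n → ℤ}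
    (hne : (y τ).coeff (i, s) ≠ 0) :
    k = negc b s ∧ (∀ l, τ l = 2 ↔ b l + s < 0) ∧
      (∀ l, b l + s < 0 → b l + s < i l ∧ i l < 0) ∧
      (∀ l, ¬ b l + s < 0 → 0 ≤ i l ∧ i l ≤ b l + s) := by
  have hk : (num2 τ : ℤ) = k := by
    by_contra h
    rw [h1 τ h] at hne
    exact hne rfl
  have hiff : ∀ l, τ l = 2 ↔ b l + s < 0 := by
    intro l
    constructor
    · intro hl
      obtain ⟨c1, c2⟩ := ((h4 l).1 τ _ hne).1 hl
      simp only at c1 c2
      omega
    · intro hl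
      by_contra h
      obtain ⟨c1, c2⟩ := ((h4 l).1 τ _ hne).2 h
      simp only at c1 c2
      omega
  refine ⟨?_, hiff, fun l hl => ?_, fun l hl => ?_⟩
  · rw [← hk]
    unfold num2 negc
    congr 2
    ext l
    simp only [Finset.mem_filter, Finset.mem_univ, true_and]
    exact hiff l
  · exact ((h4 l).1 τ _ hne).1 ((hiff l).mpr hl)
  · exact ((h4 l).1 τ _ hne).2 (fun h => hl ((hiff l).mp h))

/-- raising the filtration -/
theorem FA_succ {b : Fin n → ℤ} {s : ℤ} {y : XA 𝔽 n} (h2 : y ∈ FA 𝔽 b s)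
    (h : ∀ τ i, (y τ).coeff (i, s) = 0) : y ∈ FA 𝔽 b (s + 1) := by
  intro τ m hm
  obtain ⟨c1, c2, c3⟩ := h2 τ m hm
  refine ⟨?_, c2, c3⟩
  rcases eq_or_lt_of_le c1 with h3 | h3
  · exfalso
    apply hm
    have := h τ m.1
    rwa [h3] at this
  · omega

/-- **vanishing of the slices** -/
theorem slice_zero {b : Fin n → ℤ} {s k : ℤ} (hk : k ≠ negc b s) : PA 𝔽 b k s ≤ NA 𝔽 b k s := by
  intro x hx
  obtain ⟨y, hy, hH, hN⟩ := red_univ 𝔽 hx
  have h1 : y ∈ FA 𝔽 b (s + 1) := by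
    refine FA_succ 𝔽 hy.1.2 fun τ i => ?_
    by_contra hne
    exact hk (har_low 𝔽 hy.1.1 hH hne).1
  have h2 : y ∈ NA 𝔽 b k s := Submodule.mem_sup_left ⟨hy.1.1, h1⟩
  have h3 := Submodule.add_mem _ hN h2
  rwa [sub_add_cancel] at h3

/-! ### the slice in the critical degree -/

/-- the maximal ideal of `A` -/
noncomputable def mA (n : ℕ) : Ideal (PolyA 𝔽 n) := Ideal.span (Set.range MvPolynomial.X)

theorem sub_C_mem (a : PolyA 𝔽 n) :
    a - MvPolynomial.C (MvPolynomial.constantCoeff a) ∈ mA 𝔽 n := by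
  induction a using MvPolynomial.induction_on with
  | C r =>
    rw [MvPolynomial.constantCoeff_C, sub_self]
    exact Ideal.zero_mem _
  | add p q hp hq =>
    rw [map_add, map_add]
    have h : p + q - (MvPolynomial.C (MvPolynomial.constantCoeff p) +
        MvPolynomial.C (MvPolynomial.constantCoeff q)) =
        (p - MvPolynomial.C (MvPolynomial.constantCoeff p)) +
          (q - MvPolynomial.C (MvPolynomial.constantCoeff q)) := by ring
    rw [h]
    exact Ideal.add_mem _ hp hq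
  | mul_X p j hp =>
    rw [map_mul, MvPolynomial.constantCoeff_X, mul_zero, map_zero, sub_zero]
    exact Ideal.mul_mem_left _ _ (Ideal.subset_span ⟨j, rfl⟩)

theorem mA_le_ker : mA 𝔽 n ≤ RingHom.ker (MvPolynomial.constantCoeff (R := 𝔽)) := by
  unfold mA
  rw [Ideal.span_le]
  rintro _ ⟨j, rfl⟩
  exact MvPolynomial.constantCoeff_X 𝔽 j

/-- the class of a scalar -/
noncomputable def clC (n : ℕ) (r : 𝔽) : PolyA 𝔽 n ⧸ mA 𝔽 n :=
  Ideal.Quotient.mk (mA 𝔽 n) (MvPolynomial.C r)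

theorem clC_eq_zero {r : 𝔽} (h : clC 𝔽 n r = 0) : r = 0 := by
  unfold clC at h
  have h1 := mA_le_ker 𝔽 (Ideal.Quotient.eq_zero_iff_mem.mp h)
  rwa [RingHom.mem_ker, MvPolynomial.constantCoeff_C] at h1

theorem clC_surj (q : PolyA 𝔽 n ⧸ mA 𝔽 n) : ∃ r, clC 𝔽 n r = q := by
  obtain ⟨a, rfl⟩ := Ideal.Quotient.mk_surjective q
  refine ⟨MvPolynomial.constantCoeff a, ?_⟩
  unfold clC
  rw [eq_comm, Ideal.Quotient.eq]
  exact sub_C_mem 𝔽 a

theorem clC_smul (a : PolyA 𝔽 n) (r : 𝔽) :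
    a • clC 𝔽 n r = clC 𝔽 n (MvPolynomial.constantCoeff a * r) := by
  unfold clC
  have h1 : a • (Ideal.Quotient.mk (mA 𝔽 n)) (MvPolynomial.C r) =
      (Ideal.Quotient.mk (mA 𝔽 n)) (a * MvPolynomial.C r) := rfl
  rw [h1, Ideal.Quotient.eq, map_mul, ← sub_mul]
  exact Ideal.mul_mem_right _ _ (sub_C_mem 𝔽 a)

theorem toLau_C (r : 𝔽) : toLau 𝔽 n (MvPolynomial.C r) = AddMonoidAlgebra.single 0 r := by
  unfold toLau
  rw [MvPolynomial.aeval_C]
  rfl

/-- the part of positive degree -/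
theorem inBlk_toLau_sub (τ : Fin n → Fin 3) (a : PolyA 𝔽 n) :
    inBlk 𝔽 0 τ 1 (toLau 𝔽 n (a - MvPolynomial.C (MvPolynomial.constantCoeff a))) := by
  have h := sub_C_mem 𝔽 a
  generalize a - MvPolynomial.C (MvPolynomial.constantCoeff a) = c at h
  unfold mA at h
  refine Submodule.span_induction (p := fun c _ => inBlk 𝔽 0 τ 1 (toLau 𝔽 n c)) ?_ ?_ ?_ ?_ h
  · rintro _ ⟨j, rfl⟩
    have h1 : toLau 𝔽 n (MvPolynomial.X j) = elemE 𝔽 n j := by
      unfold toLau
      rw [MvPolynomial.aeval_X]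
    rw [h1]
    exact inBlk_elemE 𝔽 τ j
  · rw [map_zero]
    exact inBlk_zero 𝔽 0 τ 1
  · intro x y _ _ hx hy
    rw [map_add]
    exact inBlk_add 𝔽 0 τ 1 hx hy
  · intro r x _ hx
    rw [smul_eq_mul, map_mul]
    have h2 := inBlk_mul 𝔽 0 0 τ 0 1 (inBlk_toLau 𝔽 τ r) hx
    rwa [add_zero, zero_add] at h2

theorem coeff_single_zero_mul (r : 𝔽) (f : Lau 𝔽 n) (m : (Fin n → ℤ) × ℤ) :
    ((AddMonoidAlgebra.single 0 r : Lau 𝔽 n) * f).coeff m = r * f.coeff m := by
  exact AddMonoidAlgebra.coeff_single_zero_mul f r m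

theorem coeff_low {b : Fin n → ℤ} {τ : Fin n → Fin 3} {s : ℤ} {f : Lau 𝔽 n}
    (hf : inBlk 𝔽 b τ s f) (a : PolyA 𝔽 n) (i : Fin n → ℤ) :
    (toLau 𝔽 n a * f).coeff (i, s) = MvPolynomial.constantCoeff a * f.coeff (i, s) := by
  have h1 : toLau 𝔽 n a = toLau 𝔽 n (MvPolynomial.C (MvPolynomial.constantCoeff a)) +
      toLau 𝔽 n (a - MvPolynomial.C (MvPolynomial.constantCoeff a)) := by
    rw [← map_add, add_sub_cancel]
  rw [h1, add_mul, AddMonoidAlgebra.coeff_add, Finsupp.add_apply, toLau_C,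
    coeff_single_zero_mul]
  have h2 := inBlk_mul 𝔽 0 b τ 1 s (inBlk_toLau_sub 𝔽 τ a) hf
  have h3 : (toLau 𝔽 n (a - MvPolynomial.C (MvPolynomial.constantCoeff a)) * f).coeff (i, s)
      = 0 := by
    by_contra h
    have := (h2 _ h).1
    simp only at this
    omega
  rw [h3, add_zero]

/-- the harmonic monomials of the slice -/
noncomputable def hS (b : Fin n → ℤ) (s : ℤ) : Finset (Fin n → ℤ) :=
  Fintype.piFinset fun l => if b l + s < 0 then Finset.Ioo (b l + s) 0 else Finset.Icc 0 (b l + s)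

theorem mem_hS {b : Fin n → ℤ} {s : ℤ} {i : Fin n → ℤ} : i ∈ hS b s ↔
    (∀ l, b l + s < 0 → b l + s < i l ∧ i l < 0) ∧
      (∀ l, ¬ b l + s < 0 → 0 ≤ i l ∧ i l ≤ b l + s) := by
  unfold hS
  rw [Fintype.mem_piFinset]
  constructor
  · intro h
    refine ⟨fun l hl => ?_, fun l hl => ?_⟩
    · have := h l
      rwa [if_pos hl, Finset.mem_Ioo] at this
    · have := h l
      rwa [if_neg hl, Finset.mem_Icc] at this
  · rintro ⟨h1, h2⟩ l
    split_ifs with hl
    · exact Finset.mem_Ioo.mpr (h1 l hl)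
    · exact Finset.mem_Icc.mpr (h2 l hl)

theorem card_hS (b : Fin n → ℤ) (s : ℤ) : (hS b s).card = ∏ l, (b l + s + 1).natAbs := by
  unfold hS
  rw [Fintype.card_piFinset]
  refine Finset.prod_congr rfl fun l _ => ?_
  split_ifs with hl
  · rw [Int.card_Ioo]
    omega
  · rw [Int.card_Icc]
    omega

/-- the type of the representatives -/
def τ1 (b : Fin n → ℤ) (s : ℤ) : Fin n → Fin 3 := fun l => if b l + s < 0 then 2 else 1

theorem num2_τ1 (b : Fin n → ℤ) (s : ℤ) : num2 (τ1 b s) = negc b s := by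
  unfold num2 negc
  congr 1
  ext l
  simp only [Finset.mem_filter, Finset.mem_univ, true_and, τ1]
  by_cases h : b l + s < 0 <;> simp [h]

/-- evaluation at the harmonic monomials -/
noncomputable def evA (b : Fin n → ℤ) (k s : ℤ) :
    ↥(PA 𝔽 b k s) →ₗ[PolyA 𝔽 n] (↥(hS b s) → PolyA 𝔽 n ⧸ mA 𝔽 n) where
  toFun f := fun i => clC 𝔽 n ((f.1 (τ1 b s)).coeff (i.1, s))
  map_add' := fun f g => by
    funext i
    rw [Pi.add_apply]
    show clC 𝔽 n ((f.1 (τ1 b s) + g.1 (τ1 b s)).coeff (i.1, s)) = _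
    rw [AddMonoidAlgebra.coeff_add, Finsupp.add_apply]
    unfold clC
    rw [map_add, map_add]
  map_smul' := fun a f => by
    funext i
    rw [Pi.smul_apply, RingHom.id_apply, clC_smul]
    show clC 𝔽 n ((toLau 𝔽 n a * f.1 (τ1 b s)).coeff (i.1, s)) = _
    rw [coeff_low 𝔽 (f.2.1.2 (τ1 b s))]

theorem evA_apply (b : Fin n → ℤ) (k s : ℤ) (f : ↥(PA 𝔽 b k s)) (i : ↥(hS b s)) :
    evA 𝔽 b k s f i = clC 𝔽 n ((f.1 (τ1 b s)).coeff (i.1, s)) := rfl

theorem coeff_zsmul (z : ℤ) (f : Lau 𝔽 n) (m : (Fin n → ℤ) × ℤ) :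
    (z • f).coeff m = z • f.coeff m := by
  rw [AddMonoidAlgebra.coeff_smul, Finsupp.smul_apply]

theorem coeff_sum' {κ : Type*} (t : Finset κ) (f : κ → Lau 𝔽 n) (m : (Fin n → ℤ) × ℤ) :
    (∑ i ∈ t, f i).coeff m = ∑ i ∈ t, (f i).coeff m := by
  rw [AddMonoidAlgebra.coeff_sum, Finsupp.finsetSum_apply]

/-- boundaries evaluate to zero -/
theorem ev_NA {b : Fin n → ℤ} {k s : ℤ} {x : XA 𝔽 n} (hx : x ∈ NA 𝔽 b k s) {i : Fin n → ℤ}
    (hi : i ∈ hS b s) : (x (τ1 b s)).coeff (i, s) = 0 := by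
  obtain ⟨h1, h2⟩ := mem_hS.mp hi
  unfold NA at hx
  rw [Submodule.mem_sup] at hx
  obtain ⟨y, hy, z, hz, rfl⟩ := hx
  obtain ⟨z, hz, rfl⟩ := hz
  rw [Pi.add_apply, AddMonoidAlgebra.coeff_add, Finsupp.add_apply]
  have e1 : (y (τ1 b s)).coeff (i, s) = 0 := by
    by_contra h
    have := (hy.2 _ _ h).1
    simp only at this
    omega
  have e2 : (dA 𝔽 n z (τ1 b s)).coeff (i, s) = 0 := by
    rw [dA_apply, coeff_sum']
    refine Finset.sum_eq_zero fun l hl => ?_
    have hl2 : τ1 b s l = 2 := by simpa using hl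
    have hl3 : b l + s < 0 := by
      by_contra h
      unfold τ1 at hl2
      rw [if_neg h] at hl2
      exact absurd hl2 (by decide)
    obtain ⟨c1, c2⟩ := h1 l hl3
    have e3 : (z (Function.update (τ1 b s) l 0)).coeff (i, s) = 0 := by
      by_contra h
      have := (hz.2 _ _ h).2.1 l (by rw [Function.update_self])
      simp only at this
      omega
    have e4 : (z (Function.update (τ1 b s) l 1)).coeff (i, s) = 0 := by
      by_contra h
      have := (hz.2 _ _ h).2.2 l (by rw [Function.update_self])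
      simp only at this
      omega
    rw [coeff_zsmul, AddMonoidAlgebra.coeff_sub, Finsupp.sub_apply, e3, e4, sub_zero, smul_zero]
  rw [e1, e2, add_zero]

/-- a harmonic cochain is determined by its values at `τ1` -/
theorem har_diag {b : Fin n → ℤ} {s : ℤ} {y : XA 𝔽 n} (h4 : ∀ m, HarD 𝔽 b m y)
    {τ : Fin n → Fin 3} (hτ : ∀ l, τ l = 2 ↔ b l + s < 0) : y τ = y (τ1 b s) := by
  classical
  suffices H : ∀ (t : Finset (Fin n)) (τ : Fin n → Fin 3), (∀ l, τ l = 2 ↔ b l + s < 0) →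
      (∀ l, l ∉ t → τ l = τ1 b s l) → y τ = y (τ1 b s) from
    H Finset.univ τ hτ (fun l hl => absurd (Finset.mem_univ l) hl)
  intro t
  induction t using Finset.induction_on with
  | empty =>
    intro τ _ h
    have : τ = τ1 b s := funext fun l => h l (Finset.notMem_empty l)
    rw [this]
  | insert a t ha ih =>
    intro τ hτ h
    by_cases h1 : τ a = τ1 b s a
    · refine ih τ hτ fun l hl => ?_
      by_cases h2 : l = a
      · rw [h2, h1]
      · exact h l (by simp [h2, hl])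
    · have h2 : ¬ b a + s < 0 := by
        intro h3
        apply h1
        rw [(hτ a).mpr h3]
        unfold τ1
        rw [if_pos h3]
      have h3 : τ1 b s a = 1 := by
        unfold τ1
        rw [if_neg h2]
      have h4' : τ a = 0 := by
        rcases fin3_cases (τ a) (fun h5 => h2 ((hτ a).mp h5)) with h5 | h5
        · exact h5
        · rw [h3] at h1
          exact absurd h5 h1
      have h5 : Function.update τ a 0 = τ := by rw [← h4', Function.update_eq_self]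
      have h6 := (h4 a).2 τ
      rw [h5] at h6
      rw [h6]
      refine ih _ (fun l => ?_) fun l hl => ?_
      · by_cases h7 : l = a
        · rw [h7, Function.update_self]
          simp [h2]
        · rw [Function.update_of_ne h7]
          exact hτ l
      · by_cases h7 : l = a
        · rw [h7, Function.update_self, h3]
        · rw [Function.update_of_ne h7]
          exact h l (by simp [h7, hl])

theorem ker_evA (b : Fin n → ℤ) (k s : ℤ) :
    LinearMap.ker (evA 𝔽 b k s) = (NA 𝔽 b k s).submoduleOf (PA 𝔽 b k s) := by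
  ext f
  rw [LinearMap.mem_ker]
  constructor
  · intro h
    show f.1 ∈ NA 𝔽 b k s
    obtain ⟨y, hy, hH, hN⟩ := red_univ 𝔽 f.2
    have h0 : ∀ i ∈ hS b s, (y (τ1 b s)).coeff (i, s) = 0 := by
      intro i hi
      have h1 := congrFun h ⟨i, hi⟩
      rw [evA_apply, Pi.zero_apply] at h1
      have h2 := clC_eq_zero 𝔽 h1
      have h3 := ev_NA 𝔽 hN hi
      rw [Pi.sub_apply, AddMonoidAlgebra.coeff_sub, Finsupp.sub_apply] at h3
      have h4 : (f.1 (τ1 b s)).coeff (i, s) = 0 := h2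
      rw [h4, zero_sub, neg_eq_zero] at h3
      exact h3
    have h1 : y ∈ FA 𝔽 b (s + 1) := by
      refine FA_succ 𝔽 hy.1.2 fun τ i => ?_
      by_contra hne
      obtain ⟨-, hτ, c1, c2⟩ := har_low 𝔽 hy.1.1 hH hne
      rw [har_diag 𝔽 hH hτ] at hne
      exact hne (h0 i (mem_hS.mpr ⟨c1, c2⟩))
    have h2 : y ∈ NA 𝔽 b k s := Submodule.mem_sup_left ⟨hy.1.1, h1⟩
    have h3 := Submodule.add_mem _ hN h2
    rwa [sub_add_cancel] at h3
  · intro h
    have h' : f.1 ∈ NA 𝔽 b k s := h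
    funext i
    rw [evA_apply, Pi.zero_apply, ev_NA 𝔽 h' i.2]
    unfold clC
    rw [map_zero, map_zero]

open Classical in
/-- representative of a family of scalars -/
noncomputable def repX (b : Fin n → ℤ) (s : ℤ) (g : ↥(hS b s) → 𝔽) : XA 𝔽 n := fun τ =>
  if ∀ l, τ l = 2 ↔ b l + s < 0 then
    ∑ i : ↥(hS b s), AddMonoidAlgebra.single (i.1, s) (g i) else 0

theorem repX_mem (b : Fin n → ℤ) (s : ℤ) (g : ↥(hS b s) → 𝔽) :
    repX 𝔽 b s g ∈ PA 𝔽 b (negc b s) s := by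
  classical
  have hd : dA 𝔽 n (repX 𝔽 b s g) = 0 := by
    funext τ
    rw [dA_apply, Pi.zero_apply]
    refine Finset.sum_eq_zero fun l hl => ?_
    have hl2 : τ l = 2 := by simpa using hl
    have h1 : repX 𝔽 b s g (Function.update τ l 0) = repX 𝔽 b s g (Function.update τ l 1) := by
      unfold repX
      have h2 : (∀ m, Function.update τ l 0 m = 2 ↔ b m + s < 0) ↔
          (∀ m, Function.update τ l 1 m = 2 ↔ b m + s < 0) := by
        refine forall_congr' fun m => ?_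
        by_cases hm : m = l
        · rw [hm, Function.update_self, Function.update_self]
          simp
        · rw [Function.update_of_ne hm, Function.update_of_ne hm]
      by_cases h3 : ∀ m, Function.update τ l 0 m = 2 ↔ b m + s < 0
      · rw [if_pos h3, if_pos (h2.mp h3)]
      · rw [if_neg h3, if_neg (fun h => h3 (h2.mpr h))]
    rw [h1, sub_self, smul_zero]
  refine ⟨⟨?_, ?_⟩, ?_⟩
  · intro τ hτ
    unfold repX
    rw [if_neg]
    intro h
    apply hτ
    unfold num2 negc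
    congr 2
    ext l
    simp only [Finset.mem_filter, Finset.mem_univ, true_and]
    exact h l
  · intro τ
    unfold repX
    split_ifs with h
    · refine inBlk_sum 𝔽 _ _ fun i _ => inBlk_single 𝔽 ⟨le_rfl, fun l hl => ?_, fun l hl => ?_⟩ _
      · obtain ⟨c1, c2⟩ := mem_hS.mp i.2
        have h1 : ¬ b l + s < 0 := by
          rw [← h l, hl]
          decide
        exact (c2 l h1).2
      · obtain ⟨c1, c2⟩ := mem_hS.mp i.2
        have h1 : ¬ b l + s < 0 := by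
          rw [← h l, hl]
          decide
        exact (c2 l h1).1
    · exact inBlk_zero 𝔽 b τ s
  · show dA 𝔽 n (repX 𝔽 b s g) ∈ FA 𝔽 b (s + 1)
    rw [hd]
    exact Submodule.zero_mem _

theorem evA_surj (b : Fin n → ℤ) (s : ℤ) : Function.Surjective (evA 𝔽 b (negc b s) s) := by
  classical
  intro q
  choose g hg using fun i => clC_surj 𝔽 (q i)
  refine ⟨⟨repX 𝔽 b s g, repX_mem 𝔽 b s g⟩, ?_⟩
  funext i
  rw [evA_apply, ← hg i]
  congr 1
  show (repX 𝔽 b s g (τ1 b s)).coeff (i.1, s) = g i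
  unfold repX
  rw [if_pos, coeff_sum', Finset.sum_eq_single i]
  · rw [AddMonoidAlgebra.coeff_single, Finsupp.single_eq_same]
  · intro j _ hj
    rw [AddMonoidAlgebra.coeff_single, Finsupp.single_apply, if_neg]
    intro h
    exact hj (Subtype.ext (Prod.mk.inj h).1)
  · intro h
    exact absurd (Finset.mem_univ i) h
  · intro l
    unfold τ1
    split_ifs with h
    · simp [h]
    · simp [h]

/-- **the slice in the critical degree** -/
noncomputable def sliceEquiv (b : Fin n → ℤ) (s : ℤ) :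
    (↥(PA 𝔽 b (negc b s) s) ⧸ (NA 𝔽 b (negc b s) s).submoduleOf (PA 𝔽 b (negc b s) s))
      ≃ₗ[PolyA 𝔽 n] (↥(hS b s) → PolyA 𝔽 n ⧸ mA 𝔽 n) :=
  (Submodule.quotEquivOfEq _ _ (ker_evA 𝔽 b (negc b s) s).symm).trans
    ((evA 𝔽 b (negc b s) s).quotKerEquivOfSurjective (evA_surj 𝔽 b s))

end Slices

end Vale.Agent.P202C
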