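import Vale.Agent.P202C.BC
import Vale.Agent.P202C.Slice2

/-!
P202 in characteristic p: the slices of the explicit complex over a flat `A`-algebra `R`.
-/

set_option autoImplicit false

namespace Vale.Agent.P202C

open IsLocalRing TensorProduct

universe u v w

section SlicesR

variable (𝔽 : Type w) [Field 𝔽] {n : ℕ} (R : Type u) [CommRing R] [Algebra (PolyA 𝔽 n) R]

theorem CR_gr (b : Fin n → ℤ) (k : ℤ) : (CR 𝔽 R b).gr k = (grA 𝔽 n k).baseChange R := rfl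

theorem CR_F (b : Fin n → ℤ) (s : ℤ) : (CR 𝔽 R b).F s = (FA 𝔽 b s).baseChange R := rfl

theorem CR_d (b : Fin n → ℤ) : (CR 𝔽 R b).d = (dA 𝔽 n).baseChange R := rfl

theorem map_mA : (mA 𝔽 n).map (algebraMap (PolyA 𝔽 n) R) = yI 𝔽 n R := by
  unfold mA yI yR
  rw [Ideal.map_span, ← Set.range_comp]
  rfl

theorem length_tensor_quot :
    Module.length R (R ⊗[PolyA 𝔽 n] (PolyA 𝔽 n ⧸ mA 𝔽 n)) = Module.length R (R ⧸ yI 𝔽 n R) := by
  rw [← map_mA 𝔽 R]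
  exact (Algebra.TensorProduct.quotIdealMapEquivTensorQuot R (mA 𝔽 n)).toLinearEquiv.length_eq.symm

theorem length_tensor_pi (ι : Type) [Fintype ι] [DecidableEq ι] :
    Module.length R (R ⊗[PolyA 𝔽 n] (ι → PolyA 𝔽 n ⧸ mA 𝔽 n)) =
      Fintype.card ι * Module.length R (R ⧸ yI 𝔽 n R) := by
  have h1 := (TensorProduct.piRight (PolyA 𝔽 n) R R
    (fun _ : ι => PolyA 𝔽 n ⧸ mA 𝔽 n)).length_eq
  rw [h1, Module.length_pi_of_fintype, Finset.sum_const, Finset.card_univ, nsmul_eq_mul,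
    length_tensor_quot]

theorem negc_le (b : Fin n → ℤ) (s : ℤ) : negc b s ≤ n := by
  unfold negc
  exact (Finset.card_filter_le _ _).trans (by simp)

theorem prod_eq (b : Fin n → ℤ) (s : ℤ) :
    ∏ l, (b l + s + 1) = (-1) ^ negc b s * ((∏ l, (b l + s + 1).natAbs : ℕ) : ℤ) := by
  have h1 : ∀ l, b l + s + 1 = (if b l + s < 0 then (-1 : ℤ) else 1) *
      ((b l + s + 1).natAbs : ℤ) := by
    intro l
    split_ifs with h
    · omega
    · omega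
  rw [Finset.prod_congr rfl fun l _ => h1 l, Finset.prod_mul_distrib, Nat.cast_prod]
  congr 1
  rw [Finset.prod_ite, Finset.prod_const, Finset.prod_const_one, mul_one]
  rfl

variable [Module.Flat (PolyA 𝔽 n) R]

theorem sl_eq (b : Fin n → ℤ) (s k : ℤ) :
    sl (CR 𝔽 R b) s k = rlen ((NA 𝔽 b k s).baseChange R) ((PA 𝔽 b k s).baseChange R) := by
  unfold sl NA PA
  rw [CR_gr, CR_gr, CR_F, CR_F, CR_d, bc_sup, bc_map, bc_inf, bc_inf, bc_inf, bc_inf, bc_comap]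

/-- **(1)** vanishing -/
theorem sl_CR_zero (b : Fin n → ℤ) {s k : ℤ} (hk : k ≠ negc b s) : sl (CR 𝔽 R b) s k = 0 := by
  rw [sl_eq]
  exact rlen_bc_zero R (slice_zero 𝔽 hk)

/-- **(2)** the critical degree -/
theorem sl_CR_eq (b : Fin n → ℤ) (s : ℤ) :
    sl (CR 𝔽 R b) s (negc b s) =
      ((∏ l, (b l + s + 1).natAbs : ℕ) : ℕ∞) * Module.length R (R ⧸ yI 𝔽 n R) := by
  classical
  rw [sl_eq, rlen_bc]
  have h1 := ((sliceEquiv 𝔽 b s).baseChange (PolyA 𝔽 n) R _ _).length_eq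
  rw [h1, length_tensor_pi, Fintype.card_coe, card_hS]

/-- **(3)** Euler characteristic of a slice -/
theorem slEul_CR (b : Fin n → ℤ) (s : ℤ) (e : ℕ)
    (he : Module.length R (R ⧸ yI 𝔽 n R) = e) :
    slEul (CR 𝔽 R b) n s = e * ∏ l, (b l + s + 1) := by
  unfold slEul
  rw [Finset.sum_eq_single (negc b s)]
  · rw [sl_CR_eq, he, prod_eq]
    have h1 : ((((∏ l, (b l + s + 1).natAbs : ℕ) : ℕ∞) * (e : ℕ∞)).toNat : ℤ) =
        ((∏ l, (b l + s + 1).natAbs : ℕ) : ℤ) * e := by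
      rw [← Nat.cast_mul, ENat.toNat_natCast, Nat.cast_mul]
    rw [h1]
    ring
  · intro k _ hk
    rw [sl_CR_zero 𝔽 R b (by exact_mod_cast hk)]
    simp
  · intro h
    exact absurd (Finset.mem_range.mpr (Nat.lt_succ_of_le (negc_le b s))) h

/-- **(4)** exactness in high degrees -/
theorem exact_CR (b : Fin n → ℤ) {s k : ℤ} (hk : (negc b s : ℤ) < k)
    {x : R ⊗[PolyA 𝔽 n] XA 𝔽 n} (h1 : x ∈ (CR 𝔽 R b).gr k ⊓ (CR 𝔽 R b).F s)
    (h2 : (CR 𝔽 R b).d x = 0) :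
    ∃ y ∈ (CR 𝔽 R b).gr (k - 1) ⊓ (CR 𝔽 R b).F s, (CR 𝔽 R b).d y = x := by
  have h3 : x ∈ (grA 𝔽 n k ⊓ FA 𝔽 b s ⊓ LinearMap.ker (dA 𝔽 n)).baseChange R := by
    rw [bc_inf, bc_inf, ← bc_ker]
    exact ⟨h1, h2⟩
  have h4 : grA 𝔽 n k ⊓ FA 𝔽 b s ⊓ LinearMap.ker (dA 𝔽 n) ≤
      (grA 𝔽 n (k - 1) ⊓ FA 𝔽 b s).map (dA 𝔽 n) := by
    rintro z ⟨⟨c1, c2⟩, c3⟩
    exact exact_A 𝔽 hk c1 c2 c3
  have h5 := bc_mono R h4 h3
  rw [bc_map, bc_inf] at h5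
  obtain ⟨y, hy, hyx⟩ := h5
  exact ⟨y, hy, hyx⟩

end SlicesR

end Vale.Agent.P202C
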