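import Vale.Agent.P202C.W1
import Vale.Agent.P202C.W2
import Vale.Agent.P202C.W3

/-!
P202 (helper98): Serre's inequality `χ(z; M) ≤ ℓ(M / zM)`.
-/

set_option autoImplicit false

namespace Vale.Agent.P202C.SA

open IsLocalRing

universe u v

section Alg

variable {R : Type u} [CommRing R] {X : Type v} [AddCommGroup X] [Module R X]

/-- scalar endomorphisms -/
def sc (X : Type v) [AddCommGroup X] [Module R X] (ys : List R) : List (X →ₗ[R] X) :=
  ys.map (fun y => y • (LinearMap.id : X →ₗ[R] X))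

theorem u4_mem {ys : List R} {P : Submodule R X} {y : R} (hy : y ∈ ys) {x : X} (hx : x ∈ P) :
    y • x ∈ sumM (sc X ys) P := by
  induction ys with
  | nil => exact absurd hy (by simp)
  | cons a l ih =>
    rcases List.mem_cons.1 hy with h | h
    · subst h
      exact Submodule.mem_sup_left ⟨x, hx, rfl⟩
    · exact Submodule.mem_sup_right (ih h)

theorem u4_mem_ideal {ys : List R} {P : Submodule R X} {a : R} (ha : a ∈ Ideal.ofList ys) {x : X}
    (hx : x ∈ P) : a • x ∈ sumM (sc X ys) P := by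
  unfold Ideal.ofList at ha
  induction ha using Submodule.span_induction with
  | mem y hy => exact u4_mem hy hx
  | zero =>
    rw [zero_smul]
    exact Submodule.zero_mem _
  | add a b _ _ ha hb =>
    rw [add_smul]
    exact Submodule.add_mem _ ha hb
  | smul c a _ ha =>
    rw [smul_eq_mul, mul_smul]
    exact Submodule.smul_mem _ c ha

theorem u4_sumM_le (ys : List R) (P T : Submodule R X)
    (h : ∀ y ∈ ys, ∀ x ∈ P, y • x ∈ T) : sumM (sc X ys) P ≤ T := by
  induction ys with
  | nil => exact bot_le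
  | cons a l ih =>
    refine sup_le ?_ (ih fun y hy => h y (List.mem_cons_of_mem _ hy))
    rintro _ ⟨x, hx, rfl⟩
    exact h a List.mem_cons_self x hx

end Alg

section Loc

variable {R : Type u} [CommRing R] [IsLocalRing R] [IsNoetherianRing R] {X : Type v}
  [AddCommGroup X] [Module R X] [IsNoetherian R X]

/-- finiteness of the colength passes to submodules -/
theorem u4_fin_sub (ys : List R) {P K Q : Submodule R X} (hQK : Q ≤ K)
    (hKP : K ≤ P) (hfin : rl P (sumM (sc X ys) P ⊔ Q) ≠ ⊤) :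
    rl K (sumM (sc X ys) K ⊔ Q) ≠ ⊤ := by
  obtain ⟨N, hN⟩ := exists_pow_of_length_ne_top (R := R)
    (M := P ⧸ (sumM (sc X ys) P ⊔ Q).submoduleOf P) hfin
  have hN' : ∀ r ∈ maximalIdeal R ^ N, ∀ x ∈ P, r • x ∈ sumM (sc X ys) P ⊔ Q := by
    intro r hr x hx
    have h1 := hN r hr (Submodule.Quotient.mk ⟨x, hx⟩)
    rw [← Submodule.Quotient.mk_smul, Submodule.Quotient.mk_eq_zero] at h1
    exact h1
  -- the ideal of elements multiplying `K` into the smaller module
  let J : Ideal R :=
    { carrier := {r | ∀ x ∈ K, r • x ∈ sumM (sc X ys) K ⊔ Q}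
      zero_mem' := fun x _ => by
        rw [zero_smul]
        exact Submodule.zero_mem _
      add_mem' := fun {a b} ha hb x hx => by
        rw [add_smul]
        exact Submodule.add_mem _ (ha x hx) (hb x hx)
      smul_mem' := fun c a ha x hx => by
        rw [smul_eq_mul, mul_smul]
        exact Submodule.smul_mem _ c (ha x hx) }
  have hrad : maximalIdeal R ≤ J.radical := by
    intro r hr
    have hrN : r ^ N ∈ maximalIdeal R ^ N := Ideal.pow_mem_pow hr N
    set s := r ^ N with hs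
    let M := P ⧸ Q.submoduleOf P
    let f : Module.End R M := algebraMap R (Module.End R M) s
    have hI : LinearMap.range f ≤ Ideal.ofList ys • (⊤ : Submodule R M) := by
      rintro _ ⟨m, rfl⟩
      obtain ⟨x, rfl⟩ := Submodule.Quotient.mk_surjective _ m
      change s • (Submodule.Quotient.mk x : M) ∈ _
      have h1 := hN' s hrN x x.2
      have h2 : sumM (sc X ys) P ⊔ Q ≤
          ((Ideal.ofList ys • (⊤ : Submodule R M)).comap (Q.submoduleOf P).mkQ).map P.subtype := by
        refine sup_le (u4_sumM_le ys P _ fun y hy u hu => ?_) fun u hu => ?_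
        · refine ⟨y • (⟨u, hu⟩ : P), ?_, rfl⟩
          change (Q.submoduleOf P).mkQ (y • (⟨u, hu⟩ : P)) ∈ Ideal.ofList ys • (⊤ : Submodule R M)
          rw [map_smul]
          exact Submodule.smul_mem_smul (Ideal.subset_span hy) trivial
        · refine ⟨⟨u, hKP (hQK hu)⟩, ?_, rfl⟩
          change (Q.submoduleOf P).mkQ (⟨u, hKP (hQK hu)⟩ : P) ∈
            Ideal.ofList ys • (⊤ : Submodule R M)
          have h3 : (Q.submoduleOf P).mkQ (⟨u, hKP (hQK hu)⟩ : P) = 0 := by
            rw [Submodule.mkQ_apply, Submodule.Quotient.mk_eq_zero]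
            exact hu
          rw [h3]
          exact Submodule.zero_mem _
      obtain ⟨w, hw, hwx⟩ := h2 h1
      have h4 : w = s • x := Subtype.ext hwx
      rw [h4] at hw
      rw [← Submodule.Quotient.mk_smul]
      exact hw
    obtain ⟨p, hp, -, hpc, hp0⟩ :=
      LinearMap.exists_monic_and_natDegree_eq_and_coeff_mem_pow_and_aeval_eq_zero R f
        (Ideal.ofList ys) hI
    have h5 : ∀ x ∈ P, p.eval s • x ∈ Q := by
      intro x hx
      have h6 : (Polynomial.aeval f p) (Submodule.Quotient.mk ⟨x, hx⟩ : M) = 0 := by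
        rw [hp0]
        rfl
      rw [Polynomial.aeval_algebraMap_apply] at h6
      change (Polynomial.aeval s p) • (Submodule.Quotient.mk ⟨x, hx⟩ : M) = 0 at h6
      rw [← Submodule.Quotient.mk_smul, Submodule.Quotient.mk_eq_zero] at h6
      exact h6
    refine ⟨N * p.natDegree, ?_⟩
    rw [pow_mul, ← hs]
    intro x hx
    have h7 : p.eval s = s ^ p.natDegree + (p.eval s - s ^ p.natDegree) := by ring
    have h8 : p.eval s - s ^ p.natDegree ∈ Ideal.ofList ys := by
      rw [Polynomial.eval_eq_sum_range, Finset.sum_range_succ, hp.coeff_natDegree, one_mul,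
        add_sub_cancel_right]
      refine Ideal.sum_mem _ fun i hi => Ideal.mul_mem_right _ _ ?_
      exact Ideal.pow_le_self (by have := Finset.mem_range.1 hi; omega) (hpc i)
    have h9 : s ^ p.natDegree • x = p.eval s • x - (p.eval s - s ^ p.natDegree) • x := by
      rw [← sub_smul]
      congr 1
      ring
    rw [h9]
    exact Submodule.sub_mem _ (Submodule.mem_sup_right (h5 x (hKP hx)))
      (Submodule.mem_sup_left (u4_mem_ideal h8 hx))
  obtain ⟨k, hk⟩ := Ideal.exists_pow_le_of_le_radical_of_fg hrad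
    (isNoetherianRing_iff_ideal_fg R |>.mp inferInstance _)
  refine length_ne_top_of_pow (R := R) (M := K ⧸ (sumM (sc X ys) K ⊔ Q).submoduleOf K) k ?_
  intro r hr m
  obtain ⟨x, rfl⟩ := Submodule.Quotient.mk_surjective _ m
  rw [← Submodule.Quotient.mk_smul, Submodule.Quotient.mk_eq_zero]
  exact hk hr x x.2

/-- nonnegativity -/
theorem u4_nonneg (ys : List R) (hys : ∀ y ∈ ys, y ∈ maximalIdeal R) {P Q : Submodule R X}
    (hQP : Q ≤ P) (hfin : rl P (sumM (sc X ys) P ⊔ Q) ≠ ⊤) : 0 ≤ Xk (sc X ys) P Q := by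
  by_cases hd : dimlt ys.length P Q
  · have h := (serre (sc X ys) (w2_Cm ys) P Q hQP (w2_St ys P) (w2_St ys Q) hfin).2
    rw [h]
    unfold sc
    rw [List.length_map]
    exact hd
  · exact (Xk_pos ys hys P Q hQP hfin hd).le

omit [IsLocalRing R] [IsNoetherianRing R] [IsNoetherian R X] in
/-- transfer along `z` -/
theorem u4_transfer {z : X →ₗ[R] X} {l : List (X →ₗ[R] X)} (hl : Cm (z :: l))
    {A C : Submodule R X} (hA : St l A) (hC : St l C) :
    Xk l A (A ⊓ C.comap z) = Xk l (A.map z ⊔ C) C := by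
  have hzc : ∀ w ∈ l, ∀ x, z (w x) = w (z x) :=
    fun w hw => hl z List.mem_cons_self w (List.mem_cons_of_mem _ hw)
  have g := good_kd l (W1_Cm_tail hl)
  have key : ∀ j, Hk l A (A ⊓ C.comap z) j = Hk l (A.map z ⊔ C) C j := by
    intro j
    refine Hl_transfer (z.compLeft (KI l.length)) ?_ g.dd (g.stab _ hA) (g.stab _ hC) ?_ ?_ j
    · intro v
      funext i
      exact (g.comm z hzc v i).symm
    · intro i
      apply le_antisymm
      · intro v hv
        have hex : ∀ k, ∃ u ∈ A, ∃ b ∈ C, z u + b = v k ∧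
            (kdeg l.length k ≠ i → u = 0 ∧ b = 0) := by
          intro k
          by_cases hk : kdeg l.length k = i
          · have h1 := (hv k).1
            obtain ⟨_, ⟨u, hu, rfl⟩, b, hb, hub⟩ := Submodule.mem_sup.1 h1
            exact ⟨u, hu, b, hb, hub, fun h => absurd hk h⟩
          · exact ⟨0, Submodule.zero_mem _, 0, Submodule.zero_mem _, by
              rw [(hv k).2 hk, map_zero, add_zero], fun _ => ⟨rfl, rfl⟩⟩
        choose u hu b hb hub hub0 using hex
        have hv' : v = (z.compLeft (KI l.length)) u + b := by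
          funext k
          exact (hub k).symm
        rw [hv']
        refine Submodule.add_mem _ (Submodule.mem_sup_left ⟨u, ?_, rfl⟩) (Submodule.mem_sup_right ?_)
        · exact fun k => ⟨hu k, fun hk => (hub0 k hk).1⟩
        · exact fun k => ⟨hb k, fun hk => (hub0 k hk).2⟩
      · refine sup_le ?_ (Fm_mono le_sup_right i)
        rintro _ ⟨v, hv, rfl⟩
        intro k
        refine ⟨Submodule.mem_sup_left ⟨v k, (hv k).1, rfl⟩, fun hk => ?_⟩
        change z (v k) = 0
        rw [(hv k).2 hk, map_zero]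
    · intro i
      ext v
      constructor
      · rintro ⟨hv1, hv2⟩
        have hv3 : (fun k => z (v k)) ∈ Fm (kdeg l.length) C i := hv2
        exact fun k => ⟨⟨(hv1 k).1, (hv3 k).1⟩, (hv1 k).2⟩
      · intro hv
        refine ⟨Fm_mono inf_le_left i hv, ?_⟩
        change (fun k => z (v k)) ∈ Fm (kdeg l.length) C i
        intro k
        refine ⟨(hv k).1.2, fun hk => ?_⟩
        change z (v k) = 0
        rw [(hv k).2 hk, map_zero]
  unfold Xk chi
  refine Finset.sum_congr rfl fun j _ => ?_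
  have h := key j
  unfold Hk at h
  rw [h]

theorem u4_step (y : R) (ys : List R) (hys : ∀ w ∈ ys, w ∈ maximalIdeal R) {P Q : Submodule R X}
    (hQP : Q ≤ P) (hfin : rl P (sumM (sc X (y :: ys)) P ⊔ Q) ≠ ⊤) (i : ℕ) :
    Xk (sc X ys) (Pw (y • (LinearMap.id : X →ₗ[R] X)) P Q (i + 1))
        (Pw (y • (LinearMap.id : X →ₗ[R] X)) P Q (i + 2)) ≤
      Xk (sc X ys) (Pw (y • (LinearMap.id : X →ₗ[R] X)) P Q i)
        (Pw (y • (LinearMap.id : X →ₗ[R] X)) P Q (i + 1)) := by
  set z : X →ₗ[R] X := y • (LinearMap.id : X →ₗ[R] X) with hz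
  have hCm : Cm (z :: sc X ys) := w2_Cm (X := X) (y :: ys)
  have hP : St (z :: sc X ys) P := w2_St (y :: ys) P
  have hQ : St (z :: sc X ys) Q := w2_St (y :: ys) Q
  have hzP : ∀ x ∈ P, z x ∈ P := fun x hx => P.smul_mem y hx
  have hzQ : ∀ x ∈ Q, z x ∈ Q := fun x hx => Q.smul_mem y hx
  set A := Pw z P Q i with hA
  set B := Pw z P Q (i + 1) with hB
  set C := Pw z P Q (i + 2) with hC
  have hBA : B ≤ A := Pw_succ_le hzP i
  have hCB : C ≤ B := Pw_succ_le hzP (i + 1)
  have hzA : ∀ x ∈ A, z x ∈ B := by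
    intro x hx
    rw [hB, ← Pw_succ hzQ]
    exact Submodule.mem_sup_left ⟨x, hx, rfl⟩
  have hzB : ∀ x ∈ B, z x ∈ C := by
    intro x hx
    rw [hC, ← Pw_succ hzQ]
    exact Submodule.mem_sup_left ⟨x, hx, rfl⟩
  have hAB : A.map z ⊔ C = B := by
    apply le_antisymm
    · refine sup_le ?_ hCB
      rintro _ ⟨x, hx, rfl⟩
      exact hzA x hx
    · rw [hB, ← Pw_succ hzQ]
      exact sup_le_sup_left le_sup_right _
  set K := A ⊓ C.comap z with hK
  have hBK : B ≤ K := fun x hx => ⟨hBA hx, hzB x hx⟩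
  have hKA : K ≤ A := inf_le_left
  have hSt : ∀ T : Submodule R X, St (sc X ys) T := fun T => w2_St ys T
  have hfA : rl A (sumM (sc X ys) A ⊔ B) ≠ ⊤ := W1_key hCm hQP hP hQ hfin i
  have hfK : rl K (sumM (sc X ys) K ⊔ B) ≠ ⊤ := u4_fin_sub ys hBK hKA hfA
  have h1 : Xk (sc X ys) B C = Xk (sc X ys) A K := by
    rw [hK, u4_transfer hCm (hSt A) (hSt C), hAB]
  have hfA' := (serre (sc X ys) (w2_Cm ys) A B hBA (hSt A) (hSt B) hfA).1
  have hfK' := (serre (sc X ys) (w2_Cm ys) K B hBK (hSt K) (hSt B) hfK).1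
  have hfAK : rl A (sumM (sc X ys) A ⊔ K) ≠ ⊤ := by
    refine ne_top_of_le_ne_top hfA (rl_mono_right (sup_le_sup_left hBK _) ?_)
    exact sup_le (sumM_le (hSt A)) hKA
  have hfAK' := (serre (sc X ys) (w2_Cm ys) A K hKA (hSt A) (hSt K) hfAK).1
  have h2 := (Xk_add (w2_Cm ys) hBK hKA (hSt A) (hSt K) (hSt B) hfAK' hfK').2
  have h3 := u4_nonneg ys hys hBK hfK
  rw [h1]
  have h4 : Xk (sc X ys) A B = Xk (sc X ys) A K + Xk (sc X ys) K B := h2
  omega

/-- **Serre's inequality** -/
theorem u4_serre_ineq (ys : List R) (hys : ∀ y ∈ ys, y ∈ maximalIdeal R) (P Q : Submodule R X)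
    (hQP : Q ≤ P) (hfin : rl P (sumM (sc X ys) P ⊔ Q) ≠ ⊤) :
    Xk (sc X ys) P Q ≤ ((rl P (sumM (sc X ys) P ⊔ Q)).toNat : ℤ) := by
  induction ys generalizing P Q with
  | nil =>
    change Xk [] P Q ≤ ((rl P (⊥ ⊔ Q)).toNat : ℤ)
    rw [bot_sup_eq, Xk_nil P Q hQP]
  | cons y l ih =>
    set z : X →ₗ[R] X := y • (LinearMap.id : X →ₗ[R] X) with hz
    have hl : ∀ w ∈ l, w ∈ maximalIdeal R := fun w hw => hys w (List.mem_cons_of_mem _ hw)
    obtain ⟨N, -, -, hN3⟩ := w2_serre_step (w2_Cm (X := X) (y :: l)) hQP (w2_St (y :: l) P)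
      (w2_St (y :: l) Q) hfin
    have hzP : ∀ x ∈ P, z x ∈ P := fun x hx => P.smul_mem y hx
    have hzQ : ∀ x ∈ Q, z x ∈ Q := fun x hx => Q.smul_mem y hx
    have h1 : ∀ N, Xk (sc X l) (Pw z P Q N) (Pw z P Q (N + 1)) ≤
        Xk (sc X l) (Pw z P Q 0) (Pw z P Q 1) := by
      intro N
      induction N with
      | zero => exact le_rfl
      | succ N ihN => exact (u4_step y l hl hQP hfin N).trans ihN
    have e1 : Pw z P Q 1 = P.map z ⊔ Q := by
      have := Pw_succ (P := P) hzQ 0
      rw [Pw_zero z hQP] at this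
      exact this.symm
    have e2 : sumM (sc X (y :: l)) P ⊔ Q = sumM (sc X l) P ⊔ (P.map z ⊔ Q) := by
      change (P.map z ⊔ sumM (sc X l) P) ⊔ Q = _
      rw [sup_comm (P.map z), sup_assoc]
    have h2 := ih hl P (P.map z ⊔ Q) (sup_le (by
      rintro _ ⟨x, hx, rfl⟩
      exact hzP x hx) hQP) (by rw [← e2]; exact hfin)
    rw [e2]
    have h3 := h1 N
    rw [e1, Pw_zero z hQP] at h3
    exact (le_of_eq hN3).trans (h3.trans h2)

end Loc

end Vale.Agent.P202C.SA
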