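import Vale.Agent.P202C.Mon
import Vale.Agent.P202C.W3

/-!
P202 (helper98): `E ≤ e(S)` for a reduction.
-/

set_option autoImplicit false

namespace Vale.Agent.P202C.Mon

open IsLocalRing

universe u

section

variable {R : Type u} [CommRing R] {n : ℕ} (y : Fin (n + 1) → R)

theorem pow_sub {m : ℕ} (hm : 0 < m) (a : ℕ) : yp y 1 ^ ((a + n + 1) * m) ≤ yp y m ^ a := by
  refine (pow_le y _).trans ?_
  rw [Ideal.span_le]
  rintro _ ⟨α, hα, rfl⟩
  have h1 : mono y α = mono (fun j => y j ^ m) (fun i => α i / m) * mono y (fun i => α i % m) := by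
    unfold mono
    rw [← Finset.prod_mul_distrib]
    refine Finset.prod_congr rfl fun i _ => ?_
    rw [← pow_mul, ← pow_add, Nat.div_add_mod]
  have h2 : mono (fun j => y j ^ m) (fun i => α i / m) ∈ yp y m ^ (∑ i, α i / m) := by
    have h := mono_mem (fun j => y j ^ m) (fun i => α i / m)
    rwa [yp_yp, mul_one] at h
  have h3 : a ≤ ∑ i, α i / m := by
    have e1 : ∑ i, α i = m * ∑ i, α i / m + ∑ i, α i % m := by
      rw [Finset.mul_sum, ← Finset.sum_add_distrib]
      exact Finset.sum_congr rfl fun i _ => (Nat.div_add_mod _ _).symm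
    have e2 : ∑ i, α i % m ≤ (n + 1) * m := by
      calc ∑ i, α i % m ≤ ∑ _i : Fin (n + 1), m :=
            Finset.sum_le_sum fun i _ => (Nat.mod_lt _ hm).le
        _ = (n + 1) * m := by
          rw [Finset.sum_const, Finset.card_univ, Fintype.card_fin, smul_eq_mul]
    rw [hα] at e1
    have e3 : a * m ≤ (∑ i, α i / m) * m := by nlinarith
    exact Nat.le_of_mul_le_mul_right e3 hm
  show mono y α ∈ yp y m ^ a
  rw [h1]
  exact Ideal.mul_mem_right _ _ (Ideal.pow_le_pow_right h3 h2)

theorem length_pow_eq {m : ℕ} (h : Module.length R (R ⧸ yp y m) ≠ ⊤) (a : ℕ) :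
    Module.length R (R ⧸ yp y m ^ a) = ((∑ b ∈ Finset.range a, pc y m b : ℕ) : ℕ∞) := by
  have h1 := rlen_chain (fun d => yp y m ^ d) (fun d => Ideal.pow_le_pow_right (Nat.le_succ d)) a
  rw [← rlen_top]
  have h0 : (yp y m ^ 0 : Ideal R) = ⊤ := by rw [pow_zero, Ideal.one_eq_top]
  rw [h0] at h1
  rw [Nat.cast_sum]
  refine h1.trans (Finset.sum_congr rfl fun b _ => ?_)
  rw [coe_pc y h]

/-- for a reduction the limit `E` is at most the multiplicity -/
theorem E_le_mult [IsLocalRing R] [IsNoetherianRing R] {e : ℝ} (he : P202.HasMult R e)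
    (hD : ringKrullDim R = (n + 1 : ℕ)) (c : ℕ)
    (hc : ∀ t : ℕ, maximalIdeal R ^ (t + c) ≤ yp y 1 ^ t) {p : ℕ} (hp : 1 < p)
    (hfin : Module.length R (R ⧸ yp y 1) ≠ ⊤) {E : ℝ} (hE0 : 0 ≤ E)
    (hE : ∀ a, Filter.Tendsto (fun e => (pc y (p ^ e) a : ℝ) / ((p : ℝ) ^ e) ^ (n + 1))
        Filter.atTop (nhds (((a + n).choose n : ℝ) * E))) : E ≤ e := by
  obtain ⟨d, hd, he⟩ := he
  have hd' : d = n + 1 := by
    rw [hd] at hD
    exact_mod_cast hD
  subst hd'
  have hp0 : (0 : ℝ) < p := by exact_mod_cast (by omega : 0 < p)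
  have hp1 : (1 : ℝ) < p := by exact_mod_cast hp
  have hpow : Filter.Tendsto (fun k : ℕ => p ^ k) Filter.atTop Filter.atTop :=
    tendsto_pow_atTop_atTop_of_one_lt hp
  have hfl : ∀ N, Module.length R (R ⧸ maximalIdeal R ^ N) ≠ ⊤ := by
    intro N
    refine SA.length_ne_top_of_pow N fun r hr x => ?_
    obtain ⟨x, rfl⟩ := Submodule.Quotient.mk_surjective _ x
    rw [← Submodule.Quotient.mk_smul, Submodule.Quotient.mk_eq_zero]
    exact Ideal.mul_mem_right _ _ hr
  -- the key inequality for each `a`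
  have key : ∀ a : ℕ, 0 < a → (a : ℝ) ^ (n + 1) * E ≤ e * ((a : ℝ) + n + 1) ^ (n + 1) := by
    intro a ha
    -- left limit
    have hL : Filter.Tendsto (fun k : ℕ => ((∑ b ∈ Finset.range a, pc y (p ^ k) b : ℕ) : ℝ) /
        ((p : ℝ) ^ k) ^ (n + 1)) Filter.atTop (nhds (((a + n).choose (n + 1) : ℝ) * E)) := by
      have h1 : ((a + n).choose (n + 1) : ℝ) * E =
          ∑ b ∈ Finset.range a, ((b + n).choose n : ℝ) * E := by
        rw [← sum_choose, Nat.cast_sum, Finset.sum_mul]
      rw [h1]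
      have h2 := tendsto_finsetSum (Finset.range a) (fun b _ => hE b)
      refine h2.congr fun k => ?_
      rw [Nat.cast_sum, Finset.sum_div]
    -- right limit
    have hN : Filter.Tendsto (fun k : ℕ => (a + n + 1) * p ^ k + c) Filter.atTop Filter.atTop := by
      refine Filter.tendsto_atTop_mono (fun k => ?_) hpow
      nlinarith [Nat.zero_le (p ^ k)]
    have hR1 := he.comp hN
    have hR2 : Filter.Tendsto (fun k : ℕ => (((a + n + 1) * p ^ k + c : ℕ) : ℝ) / (p : ℝ) ^ k)
        Filter.atTop (nhds ((a : ℝ) + n + 1)) := by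
      have h1 : Filter.Tendsto (fun k : ℕ => ((a : ℝ) + n + 1) + (c : ℝ) / (p : ℝ) ^ k)
          Filter.atTop (nhds (((a : ℝ) + n + 1) + 0)) := by
        refine tendsto_const_nhds.add ?_
        exact (tendsto_const_nhds).div_atTop (tendsto_pow_atTop_atTop_of_one_lt hp1)
      rw [add_zero] at h1
      refine h1.congr fun k => ?_
      have : (p : ℝ) ^ k ≠ 0 := by positivity
      push_cast
      field_simp
    have hR : Filter.Tendsto (fun k : ℕ => ((Module.length R
        (R ⧸ maximalIdeal R ^ ((a + n + 1) * p ^ k + c))).toNat : ℝ) / ((p : ℝ) ^ k) ^ (n + 1))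
        Filter.atTop (nhds (e * ((a : ℝ) + n + 1) ^ (n + 1) / (n + 1).factorial)) := by
      have h1 := (hR1.mul (hR2.pow (n + 1))).div_const ((n + 1).factorial : ℝ)
      refine h1.congr' ?_
      filter_upwards [Filter.eventually_ge_atTop 0] with k _
      have e1 : (0 : ℝ) < (((a + n + 1) * p ^ k + c : ℕ) : ℝ) := by
        have : 0 < p ^ k := by positivity
        have : 0 < (a + n + 1) * p ^ k + c := by positivity
        exact_mod_cast this
      have e2 : (0 : ℝ) < (p : ℝ) ^ k := by positivity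
      have e3 : ((n + 1).factorial : ℝ) ≠ 0 := by positivity
      show ((n + 1).factorial : ℝ) * ((Module.length R
        (R ⧸ maximalIdeal R ^ ((a + n + 1) * p ^ k + c))).toNat : ℝ) /
        (((a + n + 1) * p ^ k + c : ℕ) : ℝ) ^ (n + 1) *
        ((((a + n + 1) * p ^ k + c : ℕ) : ℝ) / (p : ℝ) ^ k) ^ (n + 1) /
        ((n + 1).factorial : ℝ) = _
      rw [div_pow]
      field_simp
    -- comparison
    have hle : ((a + n).choose (n + 1) : ℝ) * E ≤
        e * ((a : ℝ) + n + 1) ^ (n + 1) / (n + 1).factorial := by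
      refine le_of_tendsto_of_tendsto' hL hR fun k => ?_
      have hpk : 0 < p ^ k := by positivity
      have h1 : maximalIdeal R ^ ((a + n + 1) * p ^ k + c) ≤ yp y (p ^ k) ^ a :=
        (hc _).trans (pow_sub y hpk a)
      have h2 : Module.length R (R ⧸ yp y (p ^ k) ^ a) ≤
          Module.length R (R ⧸ maximalIdeal R ^ ((a + n + 1) * p ^ k + c)) :=
        Module.length_le_of_surjective (Submodule.factor h1) (Submodule.factor_surjective h1)
      rw [length_pow_eq y (fin_pow y hfin (p ^ k)) a] at h2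
      have h3 := ENat.toNat_le_toNat h2 (hfl _)
      rw [ENat.toNat_natCast] at h3
      have h4 : ((∑ b ∈ Finset.range a, pc y (p ^ k) b : ℕ) : ℝ) ≤ ((Module.length R
        (R ⧸ maximalIdeal R ^ ((a + n + 1) * p ^ k + c))).toNat : ℝ) := by exact_mod_cast h3
      exact div_le_div_of_nonneg_right h4 (by positivity)
    have hf : (0 : ℝ) < (n + 1).factorial := by positivity
    rw [le_div_iff₀ hf] at hle
    have h5 : (a : ℝ) ^ (n + 1) ≤ ((n + 1).factorial : ℝ) * ((a + n).choose (n + 1) : ℝ) := by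
      have h6 : a ^ (n + 1) ≤ (n + 1).factorial * (a + n).choose (n + 1) := by
        rw [← Nat.descFactorial_eq_factorial_mul_choose]
        have h7 := Nat.pow_sub_le_descFactorial (a + n) (n + 1)
        have h8 : a + n + 1 - (n + 1) = a := by omega
        rwa [h8] at h7
      exact_mod_cast h6
    calc (a : ℝ) ^ (n + 1) * E ≤ (((n + 1).factorial : ℝ) * ((a + n).choose (n + 1) : ℝ)) * E :=
          mul_le_mul_of_nonneg_right h5 hE0
      _ = ((a + n).choose (n + 1) : ℝ) * E * (n + 1).factorial := by ring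
      _ ≤ e * ((a : ℝ) + n + 1) ^ (n + 1) := hle
  -- limit `a → ∞`
  have hone : Filter.Tendsto (fun a : ℕ => ((a : ℝ) + n + 1) / a) Filter.atTop (nhds 1) := by
    have h1 : Filter.Tendsto (fun a : ℕ => (1 : ℝ) + ((n : ℝ) + 1) / a) Filter.atTop
        (nhds (1 + 0)) :=
      tendsto_const_nhds.add (tendsto_const_div_atTop_nhds_zero_nat ((n : ℝ) + 1))
    rw [add_zero] at h1
    refine h1.congr' ?_
    filter_upwards [Filter.eventually_gt_atTop 0] with a ha
    have : (a : ℝ) ≠ 0 := by exact_mod_cast ha.ne'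
    field_simp
    ring
  have hlim : Filter.Tendsto (fun a : ℕ => e * (((a : ℝ) + n + 1) / a) ^ (n + 1)) Filter.atTop
      (nhds (e * 1 ^ (n + 1))) := (hone.pow (n + 1)).const_mul e
  rw [one_pow, mul_one] at hlim
  refine ge_of_tendsto hlim ?_
  filter_upwards [Filter.eventually_gt_atTop 0] with a ha
  have ha0 : (0 : ℝ) < a := by exact_mod_cast ha
  have h1 := key a ha
  rw [div_pow, ← mul_div_assoc, le_div_iff₀ (by positivity)]
  linarith

end

end Vale.Agent.P202C.Mon
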