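import Vale.Agent.P202C.KSLink
import Vale.Agent.P202C.U4a
import Vale.Agent.P202C.U4b

/-!
P202 (helper98): (U4) `χ(z;S) ≤ e(S)` for a reduction `z`.
-/

set_option autoImplicit false

namespace Vale.Agent.P202C

open IsLocalRing Vale.Agent.P202

universe u v

section U4

variable {S : Type v} [CommRing S] {D : ℕ} (z : Fin D → S)

/-- the list `z_(n-1), …, z_0` -/
def zl (n : ℕ) : List S := (List.range n).reverse.map (zz z)

theorem mem_zl {y : S} : y ∈ zl z D ↔ ∃ l : Fin D, z l = y := by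
  unfold zl
  rw [List.mem_map]
  constructor
  · rintro ⟨l, hl, rfl⟩
    have h : l < D := by simpa using hl
    exact ⟨⟨l, h⟩, by unfold zz; rw [dif_pos h]⟩
  · rintro ⟨l, rfl⟩
    exact ⟨l, by simp, by unfold zz; rw [dif_pos l.2]⟩

theorem zl_length : (zl z D).length = D := by
  unfold zl
  simp

theorem sumM_zl (q : ℕ) :
    SA.sumM (SA.sc S ((zl z D).map (fun y => y ^ q))) ⊤ =
      (Ideal.span (Set.range (fun j => z j ^ q)) : Ideal S) := by
  apply le_antisymm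
  · refine SA.u4_sumM_le _ _ _ fun y hy x _ => ?_
    obtain ⟨w, hw, rfl⟩ := List.mem_map.1 hy
    obtain ⟨l, rfl⟩ := (mem_zl z).1 hw
    exact Ideal.mul_mem_right _ _ (Ideal.subset_span ⟨l, rfl⟩)
  · refine Ideal.span_le.2 ?_
    rintro _ ⟨l, rfl⟩
    have h := SA.u4_mem (X := S) (P := ⊤) (y := z l ^ q)
      (List.mem_map.2 ⟨z l, (mem_zl z).2 ⟨l, rfl⟩, rfl⟩ :
        z l ^ q ∈ (zl z D).map (fun y => y ^ q)) (x := 1) trivial
    rw [smul_eq_mul, mul_one] at h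
    exact h

theorem sc_pow_apply (y : S) (N : ℕ) (x : S) :
    ((y • (LinearMap.id : S →ₗ[S] S)) ^ N) x = (y ^ N) • x := by
  induction N with
  | zero => simp
  | succ N ih =>
    rw [pow_succ', Module.End.mul_apply, ih, pow_succ', mul_smul]
    rfl

theorem sc_pow (ys : List S) (q : ℕ) :
    (SA.sc S ys).map (fun f => f ^ q) = SA.sc S (ys.map (fun y => y ^ q)) := by
  unfold SA.sc
  rw [List.map_map, List.map_map]
  refine List.map_congr_left fun y _ => ?_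
  refine LinearMap.ext fun x => ?_
  exact sc_pow_apply y q x

theorem rl_top (N : Ideal S) : SA.rl (⊤ : Submodule S S) (N ⊔ ⊥) = Module.length S (S ⧸ N) := by
  rw [sup_bot_eq]
  exact Mon.rlen_top (R := S) (M := S) N

end U4

/-- (U4) `χ(z;S) ≤ e(S)` for a reduction `z` -/
theorem KS_mult' (S : Type v) [CommRing S] [IsLocalRing S] [IsNoetherianRing S] (D : ℕ)
    (hD1 : 1 ≤ D) (hD : ringKrullDim S = D) (z : Fin D → S) (hz : ∀ l, z l ∈ maximalIdeal S)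
    (c : ℕ) (hc : ∀ t : ℕ, maximalIdeal S ^ (t + c) ≤ Ideal.span (Set.range z) ^ t)
    (e : ℝ) (he : HasMult S e) : (MI.chiG (KS z) S D : ℝ) ≤ e := by
  obtain ⟨n, rfl⟩ : ∃ n, D = n + 1 := ⟨D - 1, by omega⟩
  have hyp1 : Mon.yp z 1 = Ideal.span (Set.range z) := by
    unfold Mon.yp
    congr 1
    congr 1
    funext j
    exact pow_one _
  have hfin : Module.length S (S ⧸ Mon.yp z 1) ≠ ⊤ := by
    rw [hyp1]
    refine SA.length_ne_top_of_pow (1 + c) fun r hr x => ?_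
    obtain ⟨x, rfl⟩ := Submodule.Quotient.mk_surjective _ x
    rw [← Submodule.Quotient.mk_smul, Submodule.Quotient.mk_eq_zero]
    have h := hc 1 hr
    rw [pow_one] at h
    exact Ideal.mul_mem_right _ _ h
  have hc' : ∀ t : ℕ, maximalIdeal S ^ (t + c) ≤ Mon.yp z 1 ^ t := by
    rw [hyp1]
    exact hc
  obtain ⟨E, hE0, -, hE1, hE2⟩ := Mon.exists_E z (p := 2) (by norm_num) hfin
  have hEe : E ≤ e := Mon.E_le_mult z he hD c hc' (p := 2) (by norm_num) hfin hE0 hE2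
  refine le_trans ?_ hEe
  refine ge_of_tendsto hE1 (Filter.Eventually.of_forall fun k => ?_)
  -- one power of two
  have hys : ∀ q : ℕ, 0 < q → ∀ y ∈ (zl z (n + 1)).map (fun y => y ^ q), y ∈ maximalIdeal S := by
    intro q hq y hy
    obtain ⟨w, hw, rfl⟩ := List.mem_map.1 hy
    obtain ⟨l, rfl⟩ := (mem_zl z).1 hw
    exact Ideal.pow_mem_of_mem _ (hz l) q hq
  have hone : (zl z (n + 1)).map (fun y => y ^ 1) = zl z (n + 1) := by
    simp
  have hfin1 : SA.rl (⊤ : Submodule S S) (SA.sumM (SA.sc S (zl z (n + 1))) ⊤ ⊔ ⊥) ≠ ⊤ := by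
    rw [← hone, sumM_zl, rl_top]
    exact hfin
  have hCm : SA.Cm (SA.sc S (zl z (n + 1))) := SA.w2_Cm _
  have hSt : ∀ T : Submodule S S, SA.St (SA.sc S (zl z (n + 1))) T := fun T => SA.w2_St _ T
  have hq : 0 < 2 ^ k := by positivity
  have hpow := SA.Xk_pow (2 ^ k) hq (SA.sc S (zl z (n + 1))) hCm ⊤ ⊥ bot_le (hSt _) (hSt _) hfin1
  rw [sc_pow] at hpow
  have hlen : (SA.sc S (zl z (n + 1))).length = n + 1 := by
    unfold SA.sc
    rw [List.length_map, zl_length]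
  rw [hlen] at hpow
  have hser := SA.u4_serre_ineq ((zl z (n + 1)).map (fun y => y ^ (2 ^ k))) (hys _ hq) ⊤ ⊥ bot_le
    hpow.1
  rw [hpow.2, sumM_zl, rl_top] at hser
  have hchi : MI.chiG (KS z) S (n + 1) = SA.Xk (SA.sc S (zl z (n + 1))) ⊤ ⊥ := by
    rw [chiG_KS, kl_eq_map]
    rfl
  rw [hchi]
  have h1 : (((2 ^ k : ℕ) : ℤ) ^ (n + 1) * SA.Xk (SA.sc S (zl z (n + 1))) ⊤ ⊥ : ℤ) ≤
      (Mon.lr z (2 ^ k) : ℤ) := hser
  have h2 : (((2 : ℝ) ^ k) ^ (n + 1)) * ((SA.Xk (SA.sc S (zl z (n + 1))) ⊤ ⊥ : ℤ) : ℝ) ≤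
      (Mon.lr z (2 ^ k) : ℝ) := by
    have h3 : ((((2 ^ k : ℕ) : ℤ) ^ (n + 1) * SA.Xk (SA.sc S (zl z (n + 1))) ⊤ ⊥ : ℤ) : ℝ) ≤
        ((Mon.lr z (2 ^ k) : ℤ) : ℝ) := Int.cast_le.mpr h1
    push_cast at h3
    exact h3
  unfold Mon.fE
  have h4 : (0 : ℝ) < (((2 : ℕ) : ℝ) ^ k) ^ (n + 1) := by positivity
  rw [le_div_iff₀ h4]
  push_cast
  linarith

end Vale.Agent.P202C
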