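import Vale.Agent.P202C.Kos
import Vale.Agent.P202C.VDefs
import Vale.Agent.P202C.MainIneq
import Vale.Agent.P202.Def

/-!
P202 in characteristic p, final stage (arbitrary flat local `S`): the Koszul complex `KS z` over `S`
and the exact statements about it which are still needed (stubs), see `Ult.lean`.
-/

set_option autoImplicit false

namespace Vale.Agent.P202C

open IsLocalRing TensorProduct Vale.Agent.P202 V

universe u v

/-- the `1 × 1` matrices `z_l` -/
def zmat {S : Type v} [CommRing S] {D : ℕ} (z : Fin D → S) : ℕ → Matrix (Fin 1) (Fin 1) S :=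
  fun l => if h : l < D then z ⟨l, h⟩ • (1 : Matrix (Fin 1) (Fin 1) S) else 0

theorem zmat_comm {S : Type v} [CommRing S] {D : ℕ} (z : Fin D → S) (W : Matrix (Fin 1) (Fin 1) S)
    (i : ℕ) : zmat z i * W = W * zmat z i := by
  unfold zmat
  split_ifs
  · rw [smul_mul_assoc, mul_smul_comm, one_mul, mul_one]
  · rw [zero_mul, mul_zero]

/-- the Koszul complex `K(z;S)` as a free complex over `S` -/
def KS {S : Type v} [CommRing S] {D : ℕ} (z : Fin D → S) : FCx S (KI 1 D) :=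
  Kz (zmat z) D (fun i _ j _ => zmat_comm z _ i)

theorem KS_deg {S : Type v} [CommRing S] {D : ℕ} (z : Fin D → S) (a : KI 1 D) :
    0 ≤ (KS z).deg a ∧ (KS z).deg a ≤ D := kdeg_range D a

/-- elements of `(z)` are null homotopic -/
theorem KS_null {S : Type v} [CommRing S] {D : ℕ} (z : Fin D → S) (s : S)
    (hs : s ∈ Ideal.span (Set.range z)) :
    ∃ h : Matrix (KI 1 D) (KI 1 D) S, (∀ a b, h a b ≠ 0 → (KS z).deg a = (KS z).deg b + 1) ∧
      (KS z).mat * h + h * (KS z).mat = s • (1 : Matrix (KI 1 D) (KI 1 D) S) := by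
  obtain ⟨w, hw⟩ := (Ideal.mem_span_range_iff_exists_fun).mp hs
  refine kos_null (zmat z) D s (fun l => if h : l < D then w ⟨l, h⟩ • (1 : Matrix (Fin 1) (Fin 1) S)
    else 0) (fun i _ j _ => zmat_comm z _ i) ?_
  rw [← Fin.sum_univ_eq_sum_range (fun i => zmat z i *
    (if h : i < D then w ⟨i, h⟩ • (1 : Matrix (Fin 1) (Fin 1) S) else 0)) D, ← hw, Finset.sum_smul]
  refine Finset.sum_congr rfl fun i _ => ?_
  unfold zmat
  rw [dif_pos i.2, dif_pos i.2, smul_mul_smul_comm, one_mul, mul_comm]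

theorem KS_fibre_kdiag {S : Type v} [CommRing S] (I : Ideal S) {g : ℕ} :
    ∀ (n : ℕ) (W : Matrix (Fin g) (Fin g) S), (∀ a b, W a b ∈ I) →
      ∀ a b : KI g n, kdiag n W a b ∈ I
  | 0, _, h => h
  | n + 1, W, h => fun a b => by
    match a, b with
    | Sum.inl a, Sum.inl b => exact KS_fibre_kdiag I n W h a b
    | Sum.inl a, Sum.inr b => exact I.zero_mem
    | Sum.inr a, Sum.inl b => exact I.zero_mem
    | Sum.inr a, Sum.inr b => exact KS_fibre_kdiag I n W h a b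

theorem KS_fibre_kmat {S : Type v} [CommRing S] (I : Ideal S) {g : ℕ}
    (Z : ℕ → Matrix (Fin g) (Fin g) S) (h : ∀ l a b, Z l a b ∈ I) :
    ∀ (n : ℕ) (a b : KI g n), kmat Z n a b ∈ I
  | 0, _, _ => I.zero_mem
  | n + 1, a, b => by
    match a, b with
    | Sum.inl a, Sum.inl b => exact KS_fibre_kmat I Z h n a b
    | Sum.inl a, Sum.inr b => exact KS_fibre_kdiag I n (Z n) (h n) a b
    | Sum.inr a, Sum.inl b => exact I.zero_mem
    | Sum.inr a, Sum.inr b => exact I.neg_mem (KS_fibre_kmat I Z h n a b)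

theorem KS_fibre_zmat {S : Type v} [CommRing S] (I : Ideal S) {D : ℕ} (z : Fin D → S)
    (hz : ∀ l, z l ∈ I) (l : ℕ) (a b : Fin 1) : zmat z l a b ∈ I := by
  unfold zmat
  split_ifs with h
  · rw [Matrix.smul_apply, smul_eq_mul]
    exact I.mul_mem_right _ (hz _)
  · exact I.zero_mem

theorem KS_fibre_zero : ∀ D : ℕ, ∃ a : KI 1 D, kdeg D a = 0
  | 0 => ⟨(0 : Fin 1), rfl⟩
  | D + 1 => by
    obtain ⟨a, ha⟩ := KS_fibre_zero D
    exact ⟨(Sum.inl a : KI 1 D ⊕ KI 1 D), ha⟩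

theorem KS_fibre_fin {S : Type v} [CommRing S] {ι : Type} [Fintype ι] (G : FCx S ι)
    (V : Type v) [AddCommGroup V] [Module S V] (h : Module.length S V ≠ ⊤) (j : ℤ) :
    Hc G V j ≠ ⊤ := by
  have h1 : IsFiniteLength S V := Module.length_ne_top_iff.mp h
  obtain ⟨h2, h3⟩ := isFiniteLength_iff_isNoetherian_isArtinian.mp h1
  unfold Hc hl rlen
  rw [Module.length_ne_top_iff, isFiniteLength_iff_isNoetherian_isArtinian]
  exact ⟨inferInstance, inferInstance⟩

theorem KS_fibre_pos {S : Type v} [CommRing S] [IsLocalRing S] {D : ℕ} (z : Fin D → S)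
    (hz : ∀ l, z l ∈ maximalIdeal S) (J : Ideal S) (hJ : J ≤ maximalIdeal S) :
    1 ≤ Hc (KS z) (S ⧸ J) 0 := by
  classical
  rw [Order.one_le_iff_ne_zero]
  unfold Hc hl rlen
  intro h0
  rw [Module.length_eq_zero_iff] at h0
  obtain ⟨a0, ha0⟩ := KS_fibre_zero D
  have hdeg0 : (KS z).deg a0 = 0 := ha0
  set x : KI 1 D → S ⧸ J := Pi.single a0 1 with hx
  have hxP : x ∈ degPart (KS z) (S ⧸ J) 0 ⊓
      (botF S (KI 1 D → S ⧸ J) (0 - 1)).comap (act (KS z).mat (S ⧸ J)) := by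
    refine ⟨fun a ha => ?_, ?_⟩
    · rw [hx, Pi.single_eq_of_ne]
      intro h
      exact ha (h ▸ hdeg0)
    · change act (KS z).mat (S ⧸ J) x = 0
      funext a
      change ∑ b, (KS z).mat a b • x b = 0
      refine Finset.sum_eq_zero fun b _ => ?_
      by_cases hb : b = a0
      · subst hb
        have h1 : (KS z).mat a b = 0 := by
          by_contra hne
          have h2 := (KS z).hdeg a b hne
          have h3 := (KS_deg z a).1
          rw [hdeg0] at h2
          omega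
        rw [h1, zero_smul]
      · rw [hx, Pi.single_eq_of_ne hb, smul_zero]
  have hq := h0.elim (Submodule.Quotient.mk (⟨x, hxP⟩ :
    ↥(degPart (KS z) (S ⧸ J) 0 ⊓
      (botF S (KI 1 D → S ⧸ J) (0 - 1)).comap (act (KS z).mat (S ⧸ J))))) 0
  rw [Submodule.Quotient.mk_eq_zero] at hq
  have hq' : x ∈ botF S (KI 1 D → S ⧸ J) 0 ⊔
      (degPart (KS z) (S ⧸ J) (0 + 1)).map (act (KS z).mat (S ⧸ J)) := hq
  have hb : botF S (KI 1 D → S ⧸ J) 0 = ⊥ := rfl
  rw [hb, bot_sup_eq] at hq'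
  obtain ⟨y, _, hy⟩ := hq'
  have h1 : x a0 = ∑ b, (KS z).mat a0 b • y b := by
    rw [← hy]
    rfl
  rw [hx, Pi.single_eq_same] at h1
  have h2 : ∀ w : S ⧸ J, ∀ s ∈ maximalIdeal S,
      s • w ∈ (maximalIdeal S).map (Ideal.Quotient.mk J) := by
    intro w s hs
    obtain ⟨w, rfl⟩ := Ideal.Quotient.mk_surjective w
    have h3 : s • (Ideal.Quotient.mk J w) = Ideal.Quotient.mk J (s * w) := rfl
    rw [h3]
    exact Ideal.mem_map_of_mem _ (Ideal.mul_mem_right _ _ hs)
  have h4 : (1 : S ⧸ J) ∈ (maximalIdeal S).map (Ideal.Quotient.mk J) := by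
    rw [h1]
    exact Ideal.sum_mem _ fun b _ => h2 _ _
      (KS_fibre_kmat (maximalIdeal S) (zmat z) (KS_fibre_zmat (maximalIdeal S) z hz) D a0 b)
  obtain ⟨s, hs, hs1⟩ := (Ideal.mem_map_iff_of_surjective _ Ideal.Quotient.mk_surjective).mp h4
  rw [← map_one (Ideal.Quotient.mk J), Ideal.Quotient.mk_eq_mk_iff_sub_mem] at hs1
  have h5 : (1 : S) ∈ maximalIdeal S := by
    have h6 : (1 : S) = s - (s - 1) := by ring
    rw [h6]
    exact Ideal.sub_mem _ hs (hJ hs1)
  exact (Ideal.ne_top_iff_one _).mp (maximalIdeal.isMaximal S).ne_top h5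

section Stubs

variable (R : Type u) [CommRing R] [IsLocalRing R] [IsNoetherianRing R]
  (S : Type v) [CommRing S] [IsLocalRing S] [IsNoetherianRing S] [Algebra R S] [Module.Flat R S]
  [IsLocalHom (algebraMap R S)] (D : ℕ)

/-- (U1) homology of the closed fibre (any `z` in the maximal ideal, Artinian fibre) -/
theorem KS_fibre (z : Fin D → S) (hz : ∀ l, z l ∈ maximalIdeal S)
    (hart : Module.length S (S ⧸ (maximalIdeal R).map (algebraMap R S)) ≠ ⊤) :
    (∀ i : ℤ, Hc (KS z) (S ⧸ (maximalIdeal R).map (algebraMap R S)) i ≠ ⊤) ∧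
      1 ≤ Hc (KS z) (S ⧸ (maximalIdeal R).map (algebraMap R S)) 0 :=
  ⟨fun i => KS_fibre_fin (KS z) _ hart i, KS_fibre_pos z hz _ (by
    rw [Ideal.map_le_iff_le_comap]
    intro x hx
    rw [Ideal.mem_comap, mem_maximalIdeal, mem_nonunits_iff]
    intro hu
    exact ((mem_maximalIdeal x).mp hx) (isUnit_of_map_unit (algebraMap R S) x hu))⟩

/-- (U2) Frobenius: `χ(z; S ⊗ F^e_* V) = κ p^(eD) χ(z; S ⊗ V)` -/
theorem KS_frob (p : ℕ) [Fact p.Prime] [CharP R p] (hF : (frobenius R p).Finite)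
    (hD : ringKrullDim R = D) (z : Fin D → S) (hz : ∀ l, z l ∈ maximalIdeal S)
    (hzl : Module.length S (S ⧸ Ideal.span (Set.range z)) ≠ ⊤)
    (V : Type u) [AddCommGroup V] [Module R V] [Module.Finite R V] (e : ℕ) :
    twc (iterateFrobenius R p e) ≠ ⊤ ∧ twc (iterateFrobenius R p e) ≠ 0 ∧
    MI.chiG (KS z) (S ⊗[R] Tw (iterateFrobenius R p e) V) D =
      ((twc (iterateFrobenius R p e)).toNat : ℤ) * (p : ℤ) ^ (e * D) *
        MI.chiG (KS z) (S ⊗[R] V) D := by
  sorry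

/-- (U3) submodules of free modules with small cokernel -/
theorem KS_sub (hD : ringKrullDim R = D) (z : Fin D → S) (hz : ∀ l, z l ∈ maximalIdeal S)
    (hzl : Module.length S (S ⧸ Ideal.span (Set.range z)) ≠ ⊤)
    (V : Type u) [AddCommGroup V] [Module R V] [Module.Finite R V] (m : ℕ)
    (f : V →ₗ[R] (Fin m → R)) (y : R) (N : ℕ) (hf : Function.Injective f)
    (hy : y ∈ maximalIdeal R) (hy' : y ∈ nonZeroDivisors R)
    (hfy : ∀ v : Fin m → R, y ^ N • v ∈ LinearMap.range f) :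
    MI.chiG (KS z) (S ⊗[R] V) D = m * MI.chiG (KS z) S D := by
  sorry

end Stubs

/-- (U4) `χ(z;S) ≤ e(S)` for a reduction `z` -/
theorem KS_mult (S : Type v) [CommRing S] [IsLocalRing S] [IsNoetherianRing S] (D : ℕ)
    (hD1 : 1 ≤ D) (hD : ringKrullDim S = D) (z : Fin D → S) (hz : ∀ l, z l ∈ maximalIdeal S)
    (c : ℕ) (hc : ∀ t : ℕ, maximalIdeal S ^ (t + c) ≤ Ideal.span (Set.range z) ^ t)
    (e : ℝ) (he : HasMult S e) : (MI.chiG (KS z) S D : ℝ) ≤ e := by
  sorry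

end Vale.Agent.P202C
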