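import Vale.Agent.P202C.Num
import Vale.Agent.P202C.FinLim

/-!
P202 in characteristic p, final stage: numerics.
-/

set_option autoImplicit false

namespace Vale.Agent.P202C

open Finset

/-- `numer` with all `b l` large -/
theorem numer2 (n : ℕ) : ∃ c : ℝ, ∀ c0 : ℤ, ∃ Q0 : ℕ, ∀ Q : ℕ, Q0 ≤ Q → 0 < Q → ∃ b : Fin n → ℤ,
    (∀ l, c0 ≤ b l) ∧
    (∀ l : Fin n, (l : ℤ) * Q ≤ b l ∧ b l ≤ ((l : ℤ) + 1) * Q - 1) ∧
    |((∑ s ∈ Finset.Ico (0 : ℤ) Q, ∏ l, (b l + s + 1) : ℤ) : ℝ) -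
      (n.factorial : ℝ) * (Q : ℝ) ^ (n + 1)| ≤ c * (Q : ℝ) ^ n ∧
    ∀ i : ℕ, 1 ≤ i → i ≤ n + 1 →
      |((∑ s ∈ Finset.Ico ((1 - (i : ℤ)) * Q) 0, ∏ l, (b l + s + 1) : ℤ) : ℝ)| ≤
        c * (Q : ℝ) ^ n := by
  refine ⟨2 * n * (2 * n + 3) ^ n * (2 * n + 2), fun c0 => ?_⟩
  have h1 : ∀ l : Fin n, ∃ Q0 : ℕ, ∀ Q : ℕ, Q0 ≤ Q → c0 ≤ bb n Q l := by
    intro l
    have hr : 0 < rt n l := lt_of_le_of_lt (Nat.cast_nonneg _) (rt_gt n l)
    obtain ⟨Q0, hQ0⟩ := exists_nat_gt ((c0 : ℝ) / rt n l)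
    refine ⟨Q0, fun Q hQ => ?_⟩
    rw [bb, Int.le_floor]
    have h2 : (Q0 : ℝ) ≤ Q := by exact_mod_cast hQ
    rw [div_lt_iff₀ hr] at hQ0
    nlinarith
  choose Q0 hQ0 using h1
  refine ⟨∑ l, Q0 l, fun Q hQ' hQ => ⟨bb n Q, fun l => hQ0 l Q ((Finset.single_le_sum
    (fun _ _ => Nat.zero_le _) (Finset.mem_univ l)).trans hQ'), fun l => ⟨bb_ge n Q l, ?_⟩,
    ?_, ?_⟩⟩
  · have h := bb_lt n Q hQ l
    omega
  · have h := chis_sum_pos n Q hQ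
    have e : ((∑ s ∈ Finset.Ico (0 : ℤ) Q, ∏ l, (bb n Q l + s + 1) : ℤ) : ℝ) =
        ∑ s ∈ Finset.Ico (0 : ℤ) Q, (chis n Q s : ℝ) := by
      rw [Int.cast_sum]
      rfl
    rw [e]
    exact h
  · intro i hi hin
    have h := chis_sum_neg n Q hQ (i - 1) 0 (by omega) (by omega)
    have e : ((∑ s ∈ Finset.Ico ((1 - (i : ℤ)) * Q) 0, ∏ l, (bb n Q l + s + 1) : ℤ) : ℝ) =
        ∑ s ∈ Finset.Ico (-((i - 1 : ℕ) : ℤ) * Q) (-((0 : ℕ) : ℤ) * Q), (chis n Q s : ℝ) := by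
      rw [Int.cast_sum]
      have e1 : (1 - (i : ℤ)) = -((i - 1 : ℕ) : ℤ) := by omega
      rw [e1]
      simp [chis]
    rw [e]
    exact h

/-- the numerical inequality for one `Q` -/
theorem ult_num (n D Q e C : ℕ) (hn : D = n + 1) (hQ : 0 < Q) (h : ℕ → ℕ) (c : ℝ) (sE : ℤ → ℤ)
    (b : Fin n → ℤ) (hb : ∀ l : Fin n, (l : ℤ) * Q ≤ b l ∧ b l ≤ ((l : ℤ) + 1) * Q - 1)
    (hE : ∀ s, |sE s - e * ∏ l, (b l + s + 1)| ≤
      ((C * (1 + ∑ l, (b l + s).natAbs) ^ (n - 1) : ℕ) : ℤ)) (hn1 : 1 ≤ n)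
    (h0 : |((∑ s ∈ Finset.Ico (0 : ℤ) Q, ∏ l, (b l + s + 1) : ℤ) : ℝ) -
      (n.factorial : ℝ) * (Q : ℝ) ^ (n + 1)| ≤ c * (Q : ℝ) ^ n)
    (h1 : ∀ i : ℕ, 1 ≤ i → i ≤ n + 1 →
      |((∑ s ∈ Finset.Ico ((1 - (i : ℤ)) * Q) 0, ∏ l, (b l + s + 1) : ℤ) : ℝ)| ≤
        c * (Q : ℝ) ^ n) :
    ((h 0 * e * n.factorial : ℕ) : ℝ) * (Q : ℝ) ^ (n + 1) -
      (2 * (∑ i ∈ range (D + 1), (h i : ℝ)) * (e * c + C * ((n + 2) * (n + 2)) ^ n)) * (Q : ℝ) ^ n ≤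
    ((h 0 * (∑ s ∈ Finset.Ico (0 : ℤ) Q, sE s) -
      (∑ i ∈ Finset.Ico 2 (D + 1), (-1 : ℤ) ^ i * h i * ∑ s ∈ Finset.Ico ((1 - (i : ℤ)) * Q) 0,
        sE s) : ℤ) : ℝ) := by
  subst hn
  have hQ1 : (1 : ℝ) ≤ Q := by exact_mod_cast hQ
  have hcpos : 0 ≤ c * (Q : ℝ) ^ n := (abs_nonneg _).trans h0
  -- bound for one slice
  have hN : ∀ s : ℤ, -((n : ℤ) * Q) ≤ s → s < Q →
      |(sE s : ℝ) - e * ((∏ l, (b l + s + 1) : ℤ) : ℝ)| ≤
        C * ((n + 2) * (n + 2)) ^ (n - 1) * (Q : ℝ) ^ (n - 1) := by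
    intro s hs1 hs2
    have h2 : (1 + ∑ l, (b l + s).natAbs) ≤ (n + 2) * (n + 2) * Q := by
      have h3 : ∀ l : Fin n, (b l + s).natAbs ≤ (n + 1) * Q := by
        intro l
        have h4 := hb l
        have h5 : ((l : ℤ) + 1) * Q ≤ n * Q := by
          have : ((l : ℤ) + 1) ≤ n := by exact_mod_cast l.2
          exact mul_le_mul_of_nonneg_right this (by positivity)
        have h6 : (0 : ℤ) ≤ (l : ℤ) * Q := by positivity
        have h7 : ((((n : ℕ) + 1) * Q : ℕ) : ℤ) = n * Q + Q := by push_cast; ring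
        omega
      calc 1 + ∑ l, (b l + s).natAbs ≤ 1 + ∑ _l : Fin n, (n + 1) * Q := by gcongr with l _; exact h3 l
        _ = 1 + n * ((n + 1) * Q) := by simp
        _ ≤ Q + n * ((n + 1) * Q) := by omega
        _ ≤ (n + 2) * (n + 2) * Q := by nlinarith
    have h4 : |((sE s - e * ∏ l, (b l + s + 1) : ℤ) : ℝ)| ≤
        ((C * (1 + ∑ l, (b l + s).natAbs) ^ (n - 1) : ℕ) : ℝ) := by
      have h5 := (Int.cast_le (R := ℝ)).mpr (hE s)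
      rw [Int.cast_abs, Int.cast_natCast] at h5
      exact h5
    have h5 : ((C * (1 + ∑ l, (b l + s).natAbs) ^ (n - 1) : ℕ) : ℝ) ≤
        C * ((n + 2) * (n + 2)) ^ (n - 1) * (Q : ℝ) ^ (n - 1) := by
      have : C * (1 + ∑ l, (b l + s).natAbs) ^ (n - 1) ≤ C * ((n + 2) * (n + 2) * Q) ^ (n - 1) := by
        gcongr
      have h6 : ((C * (1 + ∑ l, (b l + s).natAbs) ^ (n - 1) : ℕ) : ℝ) ≤
          ((C * ((n + 2) * (n + 2) * Q) ^ (n - 1) : ℕ) : ℝ) := by exact_mod_cast this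
      refine h6.trans (le_of_eq ?_)
      push_cast
      rw [mul_pow]
      ring
    refine le_trans (le_of_eq ?_) (h4.trans h5)
    congr 1
    push_cast
    ring
  -- bound for a sum of slices
  have hS : ∀ A B : ℤ, -((n : ℤ) * Q) ≤ A → B ≤ Q → B - A ≤ n * Q → A ≤ B →
      |((∑ s ∈ Finset.Ico A B, sE s : ℤ) : ℝ) - e * ((∑ s ∈ Finset.Ico A B, ∏ l, (b l + s + 1) : ℤ) : ℝ)| ≤
        C * ((n + 2) * (n + 2)) ^ n * (Q : ℝ) ^ n := by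
    intro A B hA hB hAB hle
    have e1 : ((∑ s ∈ Finset.Ico A B, sE s : ℤ) : ℝ) -
        e * ((∑ s ∈ Finset.Ico A B, ∏ l, (b l + s + 1) : ℤ) : ℝ) =
        ∑ s ∈ Finset.Ico A B, ((sE s : ℝ) - e * ((∏ l, (b l + s + 1) : ℤ) : ℝ)) := by
      rw [Finset.sum_sub_distrib, ← Finset.mul_sum]
      push_cast
      rfl
    rw [e1]
    refine (Finset.abs_sum_le_sum_abs _ _).trans ?_
    refine (Finset.sum_le_sum (fun s hs => hN s ?_ ?_)).trans ?_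
    · rw [Finset.mem_Ico] at hs; omega
    · rw [Finset.mem_Ico] at hs; omega
    · rw [Finset.sum_const, nsmul_eq_mul, Int.card_Ico]
      have h2 : ((B - A).toNat : ℝ) ≤ n * Q := by
        have : ((B - A).toNat : ℤ) ≤ n * Q := by omega
        exact_mod_cast this
      obtain ⟨m, rfl⟩ : ∃ m, n = m + 1 := ⟨n - 1, by omega⟩
      simp only [Nat.add_sub_cancel]
      calc ((B - A).toNat : ℝ) * (C * (((m + 1 : ℕ) + 2) * ((m + 1 : ℕ) + 2)) ^ m * (Q : ℝ) ^ m)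
          ≤ ((m + 1 : ℕ) * Q) * (C * (((m + 1 : ℕ) + 2) * ((m + 1 : ℕ) + 2)) ^ m * (Q : ℝ) ^ m) := by
            gcongr
        _ = (m + 1 : ℕ) * (C * (((m + 1 : ℕ) + 2) * ((m + 1 : ℕ) + 2)) ^ m * (Q : ℝ) ^ (m + 1)) := by
            ring
        _ ≤ (((m + 1 : ℕ) + 2) * ((m + 1 : ℕ) + 2)) *
            (C * (((m + 1 : ℕ) + 2) * ((m + 1 : ℕ) + 2)) ^ m * (Q : ℝ) ^ (m + 1)) := by
            gcongr
            push_cast
            nlinarith [show (0 : ℝ) ≤ m by positivity]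
        _ = C * (((m + 1 : ℕ) + 2) * ((m + 1 : ℕ) + 2)) ^ (m + 1) * (Q : ℝ) ^ (m + 1) := by
            ring
  set W : ℝ := C * ((n + 2) * (n + 2)) ^ n * (Q : ℝ) ^ n with hW
  have hW0 : 0 ≤ W := by positivity
  -- the term `s ≥ 0`
  have hpos : (e : ℝ) * ((n.factorial : ℝ) * (Q : ℝ) ^ (n + 1)) - (e * (c * (Q : ℝ) ^ n) + W) ≤
      ((∑ s ∈ Finset.Ico (0 : ℤ) Q, sE s : ℤ) : ℝ) := by
    have h2 := (abs_le.mp (hS 0 Q (by have : (0 : ℤ) ≤ n * Q := by positivity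
                                      omega) le_rfl (by
      have : (1 : ℤ) * Q ≤ n * Q := by
        have : (1 : ℤ) ≤ n := by exact_mod_cast hn1
        exact mul_le_mul_of_nonneg_right this (by positivity)
      omega) (by positivity))).1
    have h3 := (abs_le.mp h0).1
    have h4 : (e : ℝ) * ((n.factorial : ℝ) * (Q : ℝ) ^ (n + 1) - c * (Q : ℝ) ^ n) ≤
        e * ((∑ s ∈ Finset.Ico (0 : ℤ) Q, ∏ l, (b l + s + 1) : ℤ) : ℝ) := by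
      refine mul_le_mul_of_nonneg_left ?_ (by positivity)
      linarith
    linarith
  have hneg : ∀ i ∈ Finset.Ico 2 (n + 1 + 1),
      |(((-1 : ℤ) ^ i * h i * ∑ s ∈ Finset.Ico ((1 - (i : ℤ)) * Q) 0, sE s : ℤ) : ℝ)| ≤
        h i * (e * (c * (Q : ℝ) ^ n) + W) := by
    intro i hi
    rw [Finset.mem_Ico] at hi
    have hiQ : (1 - (i : ℤ)) * Q = -(((i - 1 : ℕ) : ℤ) * Q) := by
      have : (1 - (i : ℤ)) = -((i - 1 : ℕ) : ℤ) := by omega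
      rw [this]; ring
    have hle : ((i - 1 : ℕ) : ℤ) * Q ≤ n * Q := by
      have : ((i - 1 : ℕ) : ℤ) ≤ n := by omega
      exact mul_le_mul_of_nonneg_right this (by positivity)
    have hge : (0 : ℤ) ≤ ((i - 1 : ℕ) : ℤ) * Q := by positivity
    have h2 := hS ((1 - (i : ℤ)) * Q) 0 (by omega) (by positivity) (by omega) (by omega)
    have h3 := h1 i (by omega) (by omega)
    have h4 : |((∑ s ∈ Finset.Ico ((1 - (i : ℤ)) * Q) 0, sE s : ℤ) : ℝ)| ≤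
        e * (c * (Q : ℝ) ^ n) + W := by
      have h5 := abs_sub_abs_le_abs_sub ((∑ s ∈ Finset.Ico ((1 - (i : ℤ)) * Q) 0, sE s : ℤ) : ℝ)
        (e * ((∑ s ∈ Finset.Ico ((1 - (i : ℤ)) * Q) 0, ∏ l, (b l + s + 1) : ℤ) : ℝ))
      rw [abs_mul, abs_of_nonneg (show (0 : ℝ) ≤ e by positivity)] at h5
      have h6 := mul_le_mul_of_nonneg_left h3 (show (0 : ℝ) ≤ e by positivity)
      linarith
    rw [Int.cast_mul, abs_mul]
    have h7 : |(((-1 : ℤ) ^ i * h i : ℤ) : ℝ)| = h i := by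
      push_cast
      rw [abs_mul, abs_pow, abs_neg, abs_one, one_pow, one_mul, Nat.abs_cast]
    rw [h7]
    exact mul_le_mul_of_nonneg_left h4 (by positivity)
  have hsum : |((∑ i ∈ Finset.Ico 2 (n + 1 + 1), (-1 : ℤ) ^ i * h i *
      ∑ s ∈ Finset.Ico ((1 - (i : ℤ)) * Q) 0, sE s : ℤ) : ℝ)| ≤
      (∑ i ∈ range (n + 1 + 1), (h i : ℝ)) * (e * (c * (Q : ℝ) ^ n) + W) := by
    rw [Int.cast_sum]
    refine (Finset.abs_sum_le_sum_abs _ _).trans ((Finset.sum_le_sum hneg).trans ?_)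
    rw [← Finset.sum_mul]
    refine mul_le_mul_of_nonneg_right ?_ (by positivity)
    refine Finset.sum_le_sum_of_subset_of_nonneg ?_ (fun _ _ _ => by positivity)
    intro i hi
    rw [Finset.mem_Ico] at hi
    rw [Finset.mem_range]
    omega
  have h00 : (h 0 : ℝ) ≤ ∑ i ∈ range (n + 1 + 1), (h i : ℝ) :=
    Finset.single_le_sum (f := fun i => (h i : ℝ)) (fun _ _ => by positivity)
      (Finset.mem_range.mpr (by omega))
  have hX : 0 ≤ e * (c * (Q : ℝ) ^ n) + W := by positivity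
  rw [Int.cast_sub]
  have e8 : (((h 0 * ∑ s ∈ Finset.Ico (0 : ℤ) Q, sE s : ℤ)) : ℝ) =
      h 0 * ((∑ s ∈ Finset.Ico (0 : ℤ) Q, sE s : ℤ) : ℝ) := by push_cast; rfl
  rw [e8]
  have h9 := mul_le_mul_of_nonneg_left hpos (show (0 : ℝ) ≤ h 0 by positivity)
  have h10 := le_of_abs_le hsum
  have h11 := mul_le_mul_of_nonneg_right h00 hX
  rw [hW] at *
  push_cast at *
  nlinarith

end Vale.Agent.P202C
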