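import Vale.Agent.P202C.Dec7
import Vale.Agent.P202C.DecCon
import Vale.Agent.P202C.KSF5
import Vale.Agent.P202C.U4
import Vale.Agent.P202C.Free
import Vale.Agent.P202G.Dep2
import Vale.Agent.P202C.UltNum
import Vale.Agent.P202C.Red1
import Vale.Agent.P202C.SG
import Vale.Agent.P202G.GP
import Vale.Agent.P202.Full

/-!
P202 in characteristic p: the core inequality for arbitrary flat local `S` with Artinian fibre,
infinite residue field, positive depth, dimension at least two.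
-/

set_option autoImplicit false

namespace Vale.Agent.P202C

open IsLocalRing TensorProduct Vale.Agent.P202 V

universe u v w

theorem ult_negc_ge {n : ℕ} (b : Fin n → ℤ) (Q : ℕ)
    (hb : ∀ l : Fin n, (l : ℤ) * Q ≤ b l ∧ b l ≤ ((l : ℤ) + 1) * Q - 1) (i : ℕ) (s : ℤ)
    (hiD : i ≤ n + 1) (hs : s < (1 - (i : ℤ)) * Q) : i ≤ negc b s + 1 := by
  rcases Nat.lt_or_ge i 1 with h1 | h1
  · omega
  obtain ⟨m, rfl⟩ : ∃ m : ℕ, i = m + 1 := ⟨i - 1, by omega⟩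
  have h2 : (Finset.univ.filter (fun l : Fin n => (l : ℕ) < m)).card = m := by
    rw [Fin.card_filter_val_lt]
    omega
  have h3 : m ≤ negc b s := by
    unfold negc
    rw [← h2]
    refine Finset.card_le_card fun l hl => ?_
    simp only [Finset.mem_filter, Finset.mem_univ, true_and] at hl ⊢
    have h4 := (hb l).2
    have h5 : ((l : ℤ) + 1) * Q ≤ m * Q := by
      have : ((l : ℤ) + 1) ≤ m := by exact_mod_cast hl
      exact mul_le_mul_of_nonneg_right this (by positivity)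
    have h6 : (1 - (((m + 1 : ℕ)) : ℤ)) * Q = - (m * Q) := by push_cast; ring
    rw [h6] at hs
    omega
  omega

theorem ult_negc_le {n : ℕ} (b : Fin n → ℤ) (Q : ℕ)
    (hb : ∀ l : Fin n, (l : ℤ) * Q ≤ b l ∧ b l ≤ ((l : ℤ) + 1) * Q - 1) (i : ℕ) (s : ℤ)
    (hs : (1 - (i : ℤ)) * Q ≤ s) : negc b s ≤ i := by
  have h2 : negc b s ≤ (Finset.univ.filter (fun l : Fin n => (l : ℕ) < i)).card := by
    unfold negc
    refine Finset.card_le_card fun l hl => ?_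
    simp only [Finset.mem_filter, Finset.mem_univ, true_and] at hl ⊢
    by_contra h3
    push Not at h3
    have h4 := (hb l).1
    have h5 : (i : ℤ) * Q ≤ (l : ℤ) * Q := by
      have : (i : ℤ) ≤ l := by exact_mod_cast h3
      exact mul_le_mul_of_nonneg_right this (by positivity)
    have h6 : (1 - (i : ℤ)) * Q = Q - i * Q := by ring
    rw [h6] at hs
    have : (0 : ℤ) ≤ Q := by positivity
    omega
  refine h2.trans ?_
  rw [Fin.card_filter_val_lt]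
  exact min_le_right _ _

theorem ult_Nz_le {n : ℕ} (b : Fin n → ℤ) (Q K2 : ℕ) (hQ : 0 < Q)
    (hb : ∀ l : Fin n, (l : ℤ) * Q ≤ b l ∧ b l ≤ ((l : ℤ) + 1) * Q - 1) (s : ℤ)
    (h1 : -(((n + K2 : ℕ) : ℤ) * Q) ≤ s) (h2 : s ≤ Q) :
    P202G.Nz b s ≤ (1 + n * (n + K2 + 1)) * Q := by
  unfold P202G.Nz
  have h3 : ∀ l : Fin n, (b l + s).natAbs ≤ (n + K2 + 1) * Q := by
    intro l
    have h4 := hb l
    have h5 : ((l : ℤ) + 1) * Q ≤ n * Q := by
      have : ((l : ℤ) + 1) ≤ n := by exact_mod_cast l.2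
      exact mul_le_mul_of_nonneg_right this (by positivity)
    have h6 : (0 : ℤ) ≤ (l : ℤ) * Q := by positivity
    have h7 : (((n + K2 + 1) * Q : ℕ) : ℤ) = ((n + K2 : ℕ) : ℤ) * Q + Q := by push_cast; ring
    have h8 : (n : ℤ) * Q ≤ ((n + K2 : ℕ) : ℤ) * Q := by
      refine mul_le_mul_of_nonneg_right ?_ (by positivity)
      push_cast
      omega
    omega
  calc 1 + ∑ l, (b l + s).natAbs ≤ 1 + ∑ _l : Fin n, (n + K2 + 1) * Q := by
        gcongr with l _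
        exact h3 l
    _ = 1 + n * ((n + K2 + 1) * Q) := by simp
    _ ≤ Q + n * ((n + K2 + 1) * Q) := by omega
    _ = (1 + n * (n + K2 + 1)) * Q := by ring


theorem fin_entry_mem' {R : Type u} [CommRing R] (p : ℕ) [Fact p.Prime] [CharP R p] (I J : Ideal R)
    (c e Q : ℕ) (hQ : p ^ e = Q + c) (h : I ^ (Q + c) ≤ J ^ Q) (r : R) (hr : r ∈ I) :
    iterateFrobenius R p e r ∈ J ^ Q := by
  rw [iterateFrobenius_def, hQ]
  exact h (Ideal.pow_mem_pow hr _)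

section Step

variable {R : Type u} [CommRing R] [IsLocalRing R] [IsNoetherianRing R]
  (p : ℕ) [Fact p.Prime] [CharP R p] {n : ℕ} [Algebra (PolyA (ZMod p) n) R]
  {S : Type v} [CommRing S] [IsLocalRing S] [IsNoetherianRing S] [Algebra R S] [Module.Flat R S]
  [IsLocalHom (algebraMap R S)]

/-- the main inequality for one `q = p ^ e = Q + c` -/
theorem ult_step {ι : Type} [Fintype ι] [DecidableEq ι] (G : FCx S ι)
    (hdeg : ∀ a, 0 ≤ G.deg a ∧ G.deg a ≤ (n + 1 : ℕ)) (N1 : ℕ)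
    (hnul : ∀ j : Fin (n + 1), ∃ h : Matrix ι ι S,
        (∀ a b, h a b ≠ 0 → G.deg a = G.deg b + 1) ∧
        G.mat * h + h * G.mat = algebraMap R S (yR (ZMod p) R j ^ N1) • (1 : Matrix ι ι S))
    (h : ℕ → ℕ) (hh : ∀ i : ℕ, Hc G (S ⧸ (maximalIdeal R).map (algebraMap R S)) i = h i)
    (hh' : ∀ i : ℤ, Hc G (S ⧸ (maximalIdeal R).map (algebraMap R S)) i ≠ ⊤)
    (c : ℕ) (hc : ∀ t : ℕ, maximalIdeal R ^ (t + c) ≤ yI (ZMod p) n R ^ t)
    (C : ℕ) (c0 : ℤ) (hfin : ∀ (b : Fin n → ℤ) (s k : ℤ), sl (CR (ZMod p) R b) s k ≠ ⊤)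
    (hbad : ∀ (b : Fin n → ℤ) (s k : ℤ), k ≠ negc b s →
        sl (CR (ZMod p) R b) s k ≤ ((C * P202G.Nz b s ^ (n - 1) : ℕ) : ℕ∞))
    (hex : ∀ (b : Fin n → ℤ) (s : ℤ), (∀ l, c0 ≤ b l + s) → ∀ k : ℤ, 1 ≤ k →
        ∀ x ∈ (CR (ZMod p) R b).gr k ⊓ (CR (ZMod p) R b).F s, (CR (ZMod p) R b).d x = 0 →
          ∃ w ∈ (CR (ZMod p) R b).gr (k - 1) ⊓ (CR (ZMod p) R b).F s, (CR (ZMod p) R b).d w = x)
    (c1 : ℕ)
    (hcon : ∀ (φ : R →+* R) (b : Fin n → ℤ) (N N' : ℕ)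
      (_ : ∀ j : Fin (n + 1), φ (yR (ZMod p) R j ^ N) = yR (ZMod p) R j ^ N') (Q : ℤ)
      (_ : 0 ≤ Q)
      (_ : ∀ j : Fin (n + 1), ∃ h : Matrix ι ι S, (∀ a b, h a b ≠ 0 → G.deg a = G.deg b + 1) ∧
        G.mat * h + h * G.mat = algebraMap R S (yR (ZMod p) R j ^ N) • (1 : Matrix ι ι S)),
      ∀ t j : ℤ, ∀ x ∈ fam G (((CR (ZMod p) R b).tw φ).bc S) (fun i => t - i * Q) j,
      totd G (((CR (ZMod p) R b).tw φ).bc S) x = 0 →
      ∃ w ∈ fam G (((CR (ZMod p) R b).tw φ).bc S) (fun i => t - i * Q - c1 * (N' + 1 + Q)) (j + 1),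
        totd G (((CR (ZMod p) R b).tw φ).bc S) w = x)
    (e Q : ℕ) (hQ : 0 < Q) (hQe : p ^ e = Q + c) (b : Fin n → ℤ) (hb0 : ∀ l, c0 ≤ b l)
    (hb : ∀ l : Fin n, (l : ℤ) * Q ≤ b l ∧ b l ≤ ((l : ℤ) + 1) * Q - 1)
    (htw : twc (iterateFrobenius R p e) ≠ ⊤) (htw0 : twc (iterateFrobenius R p e) ≠ 0) (X : ℤ)
    (hX : MI.chiG G (MI.M0 (((CR (ZMod p) R b).tw (iterateFrobenius R p e)).bc S)) (n + 1) =
      (twc (iterateFrobenius R p e)).toNat * X) :
    h 0 * (∑ s ∈ Finset.Ico (0 : ℤ) Q, slEul (CR (ZMod p) R b) n s) -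
      (∑ i ∈ Finset.Ico 2 (n + 1 + 1), (-1 : ℤ) ^ i * h i *
        ∑ s ∈ Finset.Ico ((1 - (i : ℤ)) * Q) 0, slEul (CR (ZMod p) R b) n s) -
      ((n + 1 + n + 1 : ℕ) : ℤ) * (∑ i ∈ Finset.range (n + 1 + 1), h i) *
        (((c1 * (N1 * (1 + c) + 2) + (n + 1) : ℕ) : ℤ) * Q) *
        ((C * ((1 + n * (n + (n + 1 + c1 * (N1 * (1 + c) + 2)) + 1)) * Q) ^ (n - 1) : ℕ) : ℤ) ≤ X := by
  set φ := iterateFrobenius R p e with hφ
  set κ : ℕ := (twc φ).toNat with hκ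
  have hκt : twc φ = κ := (ENat.natCast_toNat htw).symm
  have hκ0 : 0 < κ := by
    rcases Nat.eq_zero_or_pos κ with h0 | h0
    · rw [h0] at hκt
      exact absurd hκt htw0
    · exact h0
  set K2 : ℕ := c1 * (N1 * (1 + c) + 2) with hK2
  set K1 : ℕ := (1 + n * (n + (n + 1 + K2) + 1)) with hK1
  set M : ℕ := c1 * (N1 * p ^ e + 1 + Q) with hM
  have hMK : M ≤ K2 * Q := by
    rw [hM, hK2, hQe, mul_assoc]
    refine Nat.mul_le_mul_left _ ?_
    have h1 : Q + c ≤ (1 + c) * Q := by nlinarith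
    calc N1 * (Q + c) + 1 + Q ≤ N1 * ((1 + c) * Q) + Q + Q := by gcongr; omega
      _ = (N1 * (1 + c) + 2) * Q := by ring
  set E : ℕ := κ * (C * (K1 * Q) ^ (n - 1)) with hE
  have hslt : ∀ s k, sl ((CR (ZMod p) R b).tw φ) s k = κ * sl (CR (ZMod p) R b) s k := fun s k => by
    rw [sl_tw _ φ s k (hfin b s k), hκt]
  have hbnd : ∀ s k : ℤ, k ≠ negc b s → -(((n + (n + 1 + K2) : ℕ) : ℤ) * Q) ≤ s → s ≤ Q →
      sl ((CR (ZMod p) R b).tw φ) s k ≤ E := by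
    intro s k hk h1 h2
    rw [hslt]
    have h3 := ult_Nz_le b Q (n + 1 + K2) hQ hb s h1 h2
    have h4 : C * P202G.Nz b s ^ (n - 1) ≤ C * (K1 * Q) ^ (n - 1) := by
      gcongr
    have h5 := hbad b s k hk
    calc (κ : ℕ∞) * sl (CR (ZMod p) R b) s k ≤ κ * ((C * P202G.Nz b s ^ (n - 1) : ℕ) : ℕ∞) := by
          gcongr
      _ ≤ κ * ((C * (K1 * Q) ^ (n - 1) : ℕ) : ℕ∞) := by
          gcongr
      _ = (E : ℕ∞) := by rw [hE]; push_cast; rfl
  have hiQ : ∀ i : ℕ, i ≤ n + 1 → (1 - (i : ℤ)) * Q ≥ -((n : ℤ) * Q) := by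
    intro i hi
    have : -(n : ℤ) ≤ 1 - (i : ℤ) := by omega
    have := mul_le_mul_of_nonneg_right this (show (0 : ℤ) ≤ Q by positivity)
    linarith
  have hiQ' : ∀ i : ℕ, (1 - (i : ℤ)) * Q ≤ Q := by
    intro i
    have : (1 - (i : ℤ)) * Q ≤ 1 * Q :=
      mul_le_mul_of_nonneg_right (by omega) (show (0 : ℤ) ≤ Q by positivity)
    linarith
  have hwin : ((n + (n + 1 + K2) : ℕ) : ℤ) * Q = n * Q + (n + 1) * Q + (K2 * Q : ℕ) := by
    push_cast; ring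
  have hnQ : (0 : ℤ) ≤ (n : ℤ) * Q := by positivity
  have hnQ1 : (0 : ℤ) ≤ ((n : ℤ) + 1) * Q := by positivity
  have main := dec_ineq (R := R) (S := S) ((CR (ZMod p) R b).tw φ) G (Q : ℤ) (n + 1) n M E
    (by exact_mod_cast hQ) ?_ hdeg (fun k hk => ?_) (fun s k => ?_) hh' ?_ ?_ ?_ ?_
  · -- conclusion
    replace main := main.2
    rw [hX] at main
    have hh0 : (Hc G (S ⧸ (maximalIdeal R).map (algebraMap R S)) 0).toNat = h 0 := by
      have := hh 0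
      rw [Nat.cast_zero] at this
      rw [this, ENat.toNat_natCast]
    have hhi : ∀ i : ℕ, (Hc G (S ⧸ (maximalIdeal R).map (algebraMap R S)) (i : ℤ)).toNat = h i :=
      fun i => by rw [hh i, ENat.toNat_natCast]
    have hsum : ∀ f : ℤ → ℤ, ∑ i ∈ Finset.range (n + 1 + 1), (-1) ^ i * (h i : ℤ) *
        ∑ s ∈ Finset.Ico ((1 - (i : ℤ)) * Q) 0, f s =
        ∑ i ∈ Finset.Ico 2 (n + 1 + 1), (-1) ^ i * (h i : ℤ) *
        ∑ s ∈ Finset.Ico ((1 - (i : ℤ)) * Q) 0, f s := by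
      intro f
      symm
      refine Finset.sum_subset (fun i hi => ?_) (fun i hi hi2 => ?_)
      · rw [Finset.mem_Ico] at hi
        rw [Finset.mem_range]
        omega
      · rw [Finset.mem_range] at hi
        rw [Finset.mem_Ico] at hi2
        have : i = 0 ∨ i = 1 := by omega
        have hE0 : Finset.Ico ((1 - (i : ℤ)) * Q) 0 = ∅ := by
          rw [Finset.Ico_eq_empty_iff]
          rcases this with rfl | rfl <;> simp
        rw [hE0, Finset.sum_empty, mul_zero]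
    simp only [hh0, hhi, hsum] at main
    have e1 : ∀ s, slEul ((CR (ZMod p) R b).tw φ) n s = (κ : ℤ) * slEul (CR (ZMod p) R b) n s :=
      fun s => slEul_tw _ φ n s (hfin b s)
    simp only [e1, ← Finset.mul_sum] at main
    have e2 : ∑ i ∈ Finset.Ico 2 (n + 1 + 1), (-1 : ℤ) ^ i * h i *
        ((κ : ℤ) * ∑ s ∈ Finset.Ico ((1 - (i : ℤ)) * Q) 0, slEul (CR (ZMod p) R b) n s) =
        κ * ∑ i ∈ Finset.Ico 2 (n + 1 + 1), (-1 : ℤ) ^ i * h i *
          ∑ s ∈ Finset.Ico ((1 - (i : ℤ)) * Q) 0, slEul (CR (ZMod p) R b) n s := by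
      rw [Finset.mul_sum]
      exact Finset.sum_congr rfl fun i _ => by ring
    rw [e2] at main
    set A : ℤ := ∑ s ∈ Finset.Ico (0 : ℤ) Q, slEul (CR (ZMod p) R b) n s with hA
    set B : ℤ := ∑ i ∈ Finset.Ico 2 (n + 1 + 1), (-1 : ℤ) ^ i * h i *
          ∑ s ∈ Finset.Ico ((1 - (i : ℤ)) * Q) 0, slEul (CR (ZMod p) R b) n s with hB
    rw [← Nat.cast_sum] at main
    set Hs : ℤ := ((∑ i ∈ Finset.range (n + 1 + 1), h i : ℕ) : ℤ) with hHs
    have hHs0 : 0 ≤ Hs := Int.natCast_nonneg _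
    have e3 : ((M : ℤ) + ((n + 1 : ℕ) : ℤ) * Q) ≤ ((K2 + (n + 1) : ℕ) : ℤ) * Q := by
      have : (M : ℤ) ≤ (K2 : ℤ) * Q := by exact_mod_cast hMK
      push_cast
      nlinarith
    have e4 : (E : ℤ) = κ * ((C * (K1 * Q) ^ (n - 1) : ℕ) : ℤ) := by rw [hE]; push_cast; ring
    rw [e4] at main
    set Y : ℤ := ((C * (K1 * Q) ^ (n - 1) : ℕ) : ℤ) with hY
    have hY0 : 0 ≤ Y := by rw [hY]; positivity
    have e5 : ((n + 1 + n + 1 : ℕ) : ℤ) * Hs * ((M : ℤ) + ((n + 1 : ℕ) : ℤ) * Q) * Y ≤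
        ((n + 1 + n + 1 : ℕ) : ℤ) * Hs * (((K2 + (n + 1) : ℕ) : ℤ) * Q) * Y := by
      gcongr
    have e6 : (κ : ℤ) * (h 0 * A - B - ((n + 1 + n + 1 : ℕ) : ℤ) * Hs *
        ((M : ℤ) + ((n + 1 : ℕ) : ℤ) * Q) * Y) ≤ κ * X := by
      refine le_trans (le_of_eq ?_) main
      ring
    have e7 := le_of_mul_le_mul_left e6 (by exact_mod_cast hκ0)
    linarith
  · intro r hr s x hx
    exact shift_tw (ZMod p) φ b Q r (fin_entry_mem' p _ _ c e Q hQe (hc Q) r hr) s x hx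
  · have h1 := gr_CR (ZMod p) R b k hk
    refine (Submodule.eq_bot_iff _).mpr fun x hx => ?_
    have h2 : (show (R ⊗[PolyA (ZMod p) n] XA (ZMod p) n) from x) ∈ (CR (ZMod p) R b).gr k := hx
    rw [h1] at h2
    exact h2
  · rw [hslt]
    exact WithTop.mul_ne_top (ENat.natCast_ne_top _) (hfin b s k)
  · intro i hi s k h1 h2 h3
    have h4 := hiQ i hi
    have h5 := hiQ' i
    have h6 : (M : ℤ) ≤ (K2 * Q : ℕ) := by exact_mod_cast hMK
    refine hbnd s k ?_ (by omega) (by omega)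
    have h7 := ult_negc_ge b Q hb i s hi h2
    omega
  · intro i hi s k h1 h2 h3
    have h4 := hiQ i hi
    have h7 := ult_negc_le b Q hb i s h1
    have : (0 : ℤ) ≤ (K2 * Q : ℕ) := by positivity
    exact hbnd s k (by omega) (by omega) (by omega)
  · intro s k hs hk
    exact exact_tw _ φ s k (hex b s (fun l => by have := hb0 l; omega) k hk)
  · intro j x hx hx0
    have h1 := hcon φ b N1 (N1 * p ^ e) (fun j => by
      rw [hφ, iterateFrobenius_def, ← pow_mul]) (Q : ℤ) (by positivity) hnul (Q : ℤ) j x (by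
      have : (fun i : ℤ => (Q : ℤ) - i * Q) = fun i : ℤ => (1 - i) * (Q : ℤ) := by
        funext i
        ring
      rw [this]
      exact hx) hx0
    have : (fun i : ℤ => (Q : ℤ) - i * Q - c1 * (((N1 * p ^ e : ℕ) : ℤ) + 1 + Q)) =
        fun i : ℤ => (1 - i) * (Q : ℤ) - M := by
      funext i
      rw [hM]
      push_cast
      ring
    rw [this] at h1
    exact h1

end Step


theorem ult_arr (n : ℕ) (hn : 1 ≤ n) (F H A C K Q : ℕ) :
    (F : ℤ) * (H : ℤ) * ((A : ℤ) * Q) * ((C * (K * Q) ^ (n - 1) : ℕ) : ℤ) =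
      ((F : ℤ) * H * A * ((C * K ^ (n - 1) : ℕ) : ℤ)) * (Q : ℤ) ^ n := by
  obtain ⟨m, rfl⟩ : ∃ m, n = m + 1 := ⟨n - 1, by omega⟩
  simp only [Nat.add_sub_cancel]
  push_cast
  rw [mul_pow]
  ring

theorem ult_hasMult_nonneg {A : Type u} [CommRing A] [IsLocalRing A] {e : ℝ} (h : HasMult A e) :
    0 ≤ e := by
  obtain ⟨d, -, hlim⟩ := h
  exact ge_of_tendsto' hlim fun N => by positivity

/-- the core inequality -/
theorem ult_core (R : Type u) [CommRing R] [IsLocalRing R] [IsNoetherianRing R]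
    (hinf : Infinite (ResidueField R)) (p : ℕ) [Fact p.Prime] [CharP R p]
    (hF : (frobenius R p).Finite)
    (S : Type v) [CommRing S] [IsLocalRing S] [IsNoetherianRing S] [Algebra R S] [Module.Flat R S]
    [IsLocalHom (algebraMap R S)] (n : ℕ) (hn : 1 ≤ n) (hD : ringKrullDim R = (n + 1 : ℕ))
    (hart : IsArtinianRing (S ⧸ (maximalIdeal R).map (algebraMap R S)))
    (hdep : ∃ a ∈ maximalIdeal R, a ∈ nonZeroDivisors R) :
    ∃ eR : ℕ, HasMult R eR ∧ ∀ eS : ℝ, HasMult S eS → (eR : ℝ) ≤ eS := by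
  obtain ⟨y, hy, hynz, hyl, c, -, hc⟩ := exists_red_reg (R := R) (n + 1) hD hdep
  let _ : Algebra (ZMod p) R := ZMod.algebra R p
  let _ : Algebra (PolyA (ZMod p) n) R := (MvPolynomial.aeval y).toRingHom.toAlgebra
  have hyR : ∀ j, yR (ZMod p) R j = y j := fun j => by
    show MvPolynomial.aeval y (MvPolynomial.X j) = y j
    rw [MvPolynomial.aeval_X]
  have hyI : yI (ZMod p) n R = Ideal.span (Set.range y) := by
    unfold yI
    congr 1
    ext x
    simp only [hyR]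
  have hmax : yI (ZMod p) n R ≤ maximalIdeal R := by
    rw [hyI, Ideal.span_le]
    rintro _ ⟨l, rfl⟩
    exact hy l
  obtain ⟨eR, heR, C, c0, hc0, hfin, hbad, hsE, hex, hM0⟩ := P202G.package (ZMod p) R hn hD
    (by rw [hyR, hyR]; exact mul_mem (hynz _) (hynz _)) (by rw [hyI]; exact hyl) hmax c
    (fun t => by rw [hyI]; exact hc t)
  refine ⟨eR, heR, fun eS heS => ?_⟩
  have hDS : ringKrullDim S = (n + 1 : ℕ) := by
    rw [dim_eq (R := R) (S := S) hart, hD]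
  have hinfS : Infinite (ResidueField S) :=
    Infinite.of_injective (ResidueField.map (algebraMap R S)) (RingHom.injective _)
  obtain ⟨z, hz, hzl, cS, -, hcS⟩ := exists_red_plain (R := S) (n + 1) hDS
  have hartl : Module.length S (S ⧸ (maximalIdeal R).map (algebraMap R S)) ≠ ⊤ := by
    rw [Module.length_eq_of_surjective (S := S)
      (R := S ⧸ (maximalIdeal R).map (algebraMap R S)) Ideal.Quotient.mk_surjective]
    exact Module.length_ne_top
  obtain ⟨hfib, hfib0⟩ := KS_fibre R S (n + 1) z hz hartl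
  obtain ⟨h, hh⟩ : ∃ h : ℕ → ℕ, ∀ i : ℕ,
      Hc (KS z) (S ⧸ (maximalIdeal R).map (algebraMap R S)) i = h i := by
    choose h hh using fun i : ℕ => ENat.ne_top_iff_exists.mp (hfib i)
    exact ⟨h, fun i => (hh i).symm⟩
  have hh0 : 1 ≤ h 0 := by
    have h1 := hh 0
    rw [Nat.cast_zero] at h1
    rw [h1] at hfib0
    exact_mod_cast hfib0
  have hchi := KS_mult' S (n + 1) (by omega) hDS z hz cS hcS eS heS
  set χ : ℤ := MI.chiG (KS z) S (n + 1) with hχ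
  have hnul : ∀ j : Fin (n + 1), ∃ hm : Matrix (KI 1 (n + 1)) (KI 1 (n + 1)) S,
      (∀ a b, hm a b ≠ 0 → (KS z).deg a = (KS z).deg b + 1) ∧
      (KS z).mat * hm + hm * (KS z).mat = algebraMap R S (yR (ZMod p) R j ^ (1 + cS)) •
        (1 : Matrix (KI 1 (n + 1)) (KI 1 (n + 1)) S) := by
    intro j
    refine KS_null z _ ?_
    have h1 := hcS 1
    rw [pow_one] at h1
    refine h1 ?_
    rw [map_pow]
    refine Ideal.pow_mem_pow ?_ _
    rw [hyR]
    exact map_maximalIdeal_le (Ideal.mem_map_of_mem _ (hy j))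
  obtain ⟨c1, hcon⟩ := con_dec (𝔽 := ZMod p) n (n + 1)
  obtain ⟨cn, hcn⟩ := numer2 n
  obtain ⟨Q0, hQ0⟩ := hcn c0
  have heS0 := ult_hasMult_nonneg heS
  have key : ((h 0 * eR * n.factorial : ℕ) : ℝ) ≤ n.factorial * eS := by
    refine fin_limit _ _ ((2 * (∑ i ∈ Finset.range (n + 1 + 1), (h i : ℝ)) *
      (eR * cn + C * ((n + 2) * (n + 2)) ^ n)) +
      (n + 1 + n + 1 : ℕ) * (∑ i ∈ Finset.range (n + 1 + 1), h i : ℕ) *
      (c1 * ((1 + cS) * (1 + c) + 2) + (n + 1) : ℕ) *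
      (C * (1 + n * (n + (n + 1 + c1 * ((1 + cS) * (1 + c) + 2)) + 1)) ^ (n - 1) : ℕ))
      c n (by positivity) fun K => ?_
    have hp := (Fact.out : p.Prime).two_le
    obtain ⟨e, he⟩ : ∃ e : ℕ, K + Q0 + c + 1 ≤ p ^ e := by
      refine ⟨K + Q0 + c + 1, ?_⟩
      exact (Nat.lt_pow_self (by omega)).le
    obtain ⟨Q, hQ⟩ : ∃ Q : ℕ, p ^ e = Q + c := ⟨p ^ e - c, by omega⟩
    have hQpos : 0 < Q := by omega
    refine ⟨Q, by omega, ?_⟩
    obtain ⟨b, hb0, hb, hb1, hb2⟩ := hQ0 Q (by omega) hQpos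
    obtain ⟨hMf, f0, N0, hf0, hN0⟩ := hM0 b hb0
    obtain ⟨ht1, ht2, -, -⟩ := KS_frob' (S := S) p hF hartl (n + 1) hD z hzl R e
    obtain ⟨-, hX⟩ := KS_comb_sub (S := S) p hF hartl (n + 1) hD z hzl (MI.M0 (CR (ZMod p) R b))
      n.factorial f0 (yR (ZMod p) R 0) N0 hf0 (by rw [hyR]; exact hynz 0) hN0 e
    have hX' : MI.chiG (KS z)
        (MI.M0 (((CR (ZMod p) R b).tw (iterateFrobenius R p e)).bc S)) (n + 1) =
        (twc (iterateFrobenius R p e)).toNat * ((p : ℤ) ^ (e * (n + 1)) * (n.factorial * χ)) := by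
      have e1 : MI.M0 (((CR (ZMod p) R b).tw (iterateFrobenius R p e)).bc S) =
          (v3Sub (iterateFrobenius R p e) (MI.M0 (CR (ZMod p) R b))).baseChange S := by
        rw [← M0_tw]
        exact fr_M0_bc (R := S) ((CR (ZMod p) R b).tw (iterateFrobenius R p e))
      rw [e1, hX]
      ring
    have h2 := ult_step p (KS z) (KS_deg z) (1 + cS) hnul h hh hfib c
      (fun t => by rw [hyI]; exact hc t) C c0 hfin hbad hex c1
      (fun φ b N N' h1 Q h2 h3 => hcon R φ S b N N' h1 _ (KS z) Q h2 (KS_deg z) h3)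
      e Q hQpos hQ b hb0 hb ht1 ht2 _ hX'
    have h3 := ult_num n (n + 1) Q eR C rfl hQpos h cn (slEul (CR (ZMod p) R b) n) b hb
      (fun s => hsE b s) hn hb1 hb2
    have h4 := (Int.cast_le (R := ℝ)).mpr h2
    rw [Int.cast_sub] at h4
    have h7 : ((p : ℝ)) ^ e = Q + c := by exact_mod_cast hQ
    have h8 : (((p : ℤ) ^ (e * (n + 1)) * (n.factorial * χ) : ℤ) : ℝ) ≤
        n.factorial * eS * ((Q : ℝ) + c) ^ (n + 1) := by
      push_cast
      rw [pow_mul, h7]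
      have h9 : (0 : ℝ) ≤ ((Q : ℝ) + c) ^ (n + 1) := by positivity
      have h10 : (0 : ℝ) ≤ n.factorial := by positivity
      calc ((Q : ℝ) + c) ^ (n + 1) * (n.factorial * (χ : ℝ)) ≤
          ((Q : ℝ) + c) ^ (n + 1) * (n.factorial * eS) := by gcongr
        _ = n.factorial * eS * ((Q : ℝ) + c) ^ (n + 1) := by ring
    have h11 := ult_arr n hn (n + 1 + n + 1) (∑ i ∈ Finset.range (n + 1 + 1), h i)
      (c1 * ((1 + cS) * (1 + c) + 2) + (n + 1)) C
      (1 + n * (n + (n + 1 + c1 * ((1 + cS) * (1 + c) + 2)) + 1)) Q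
    rw [h11] at h4
    rw [Int.cast_mul] at h4
    have h12 : (((((n + 1 + n + 1 : ℕ) : ℤ) * ((∑ i ∈ Finset.range (n + 1 + 1), h i : ℕ) : ℤ) *
        ((c1 * ((1 + cS) * (1 + c) + 2) + (n + 1) : ℕ) : ℤ) *
        ((C * (1 + n * (n + (n + 1 + c1 * ((1 + cS) * (1 + c) + 2)) + 1)) ^ (n - 1) : ℕ) : ℤ)) : ℤ) : ℝ) =
        (n + 1 + n + 1 : ℕ) * (∑ i ∈ Finset.range (n + 1 + 1), h i : ℕ) *
      (c1 * ((1 + cS) * (1 + c) + 2) + (n + 1) : ℕ) *
      (C * (1 + n * (n + (n + 1 + c1 * ((1 + cS) * (1 + c) + 2)) + 1)) ^ (n - 1) : ℕ) := by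
      simp only [Int.cast_mul, Int.cast_natCast]
    rw [h12] at h4
    have h13 : (((Q : ℤ) ^ n : ℤ) : ℝ) = (Q : ℝ) ^ n := by push_cast; rfl
    rw [h13] at h4
    have h14 : ∀ (a b x y z : ℝ), a - b * z ≤ x → x - y * z ≤ eS → a - (b + y) * z ≤ eS :=
      fun a b x y z h1 h2 => by linarith
    linarith
  have hf : (0 : ℝ) < n.factorial := by exact_mod_cast n.factorial_pos
  have h5 : ((h 0 * eR : ℕ) : ℝ) ≤ eS := by
    push_cast at key
    push_cast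
    have : (n.factorial : ℝ) * ((h 0 : ℝ) * eR) ≤ n.factorial * eS := by linarith
    exact le_of_mul_le_mul_left this hf
  refine le_trans ?_ h5
  have : eR ≤ h 0 * eR := Nat.le_mul_of_pos_left _ (by omega)
  exact_mod_cast this

end Vale.Agent.P202C
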