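import Vale.Agent.P202.Full
import Vale.Agent.P202.InfGen
import Vale.Agent.P202C.FFin

/-!
P202C, module F7 (helper16): from the core inequality (F-finite `R` of characteristic `p`, infinite
residue field, Artinian closed fibre) to all flat local homomorphisms with F-finite source.
-/

set_option autoImplicit false

namespace Vale.Agent.P202C

open IsLocalRing Polynomial Vale.Agent.P202 Vale.Agent.P202C.FFin

universe u v

attribute [local instance] Polynomial.algebra

/-- the core inequality -/
def CoreF (p : ℕ) [Fact p.Prime] : Prop :=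
  ∀ (R : Type u) (S : Type v) [CommRing R] [IsLocalRing R] [IsNoetherianRing R]
    [CommRing S] [IsLocalRing S] [IsNoetherianRing S] [Algebra R S] [Module.Flat R S]
    [IsLocalHom (algebraMap R S)] [CharP R p], (frobenius R p).Finite →
    Infinite (ResidueField R) →
    IsArtinianRing (S ⧸ (maximalIdeal R).map (algebraMap R S)) →
    ∀ eR eS : ℝ, HasMult R eR → HasMult S eS → eR ≤ eS

theorem RZ_charP (R : Type u) [CommRing R] [IsLocalRing R] (p : ℕ)
    [Fact p.Prime] [CharP R p] : CharP (RZ R) p := charP_of_map (algebraMap R (RZ R)) p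

theorem RZ_ffin (R : Type u) [CommRing R] [IsLocalRing R] (p : ℕ)
    [Fact p.Prime] [CharP R p] [CharP (RZ R) p] (h : (frobenius R p).Finite) :
    (frobenius (RZ R) p).Finite := by
  obtain ⟨n, g, hg⟩ := gen_of_finite p h
  have h1 := gen_poly p g hg
  have h2 := gen_loc (A := R[X]) (B := RZ R) (pZ R).primeCompl p _ h1
  exact finite_of_gen p _ h2

theorem RZ_dim (R : Type u) [CommRing R] [IsLocalRing R] [IsNoetherianRing R] :
    ringKrullDim (RZ R) = ringKrullDim R := by
  have i1 : IsNoetherianRing (RZ R) := RZ_noeth R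
  have i2 : Module.Flat R (RZ R) := RZ_flat R
  have i3 : IsLocalHom (algebraMap R (RZ R)) := isLocalHom_of_map_le (RZ_map R).le
  exact dim_eq (R := R) (S := RZ R) (artin_fibre_field R (RZ R) (RZ_map R))

theorem RZ_cl (R : Type u) [CommRing R] [IsLocalRing R] [IsNoetherianRing R] (N : ℕ) :
    cl (maximalIdeal (RZ R) ^ N) = cl (maximalIdeal R ^ N) := by
  have i1 : IsNoetherianRing (RZ R) := RZ_noeth R
  have i2 : Module.Flat R (RZ R) := RZ_flat R
  have i3 : IsLocalHom (algebraMap R (RZ R)) := isLocalHom_of_map_le (RZ_map R).le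
  rw [← RZ_map R, ← Ideal.map_pow]
  exact cl_flat R (RZ R) (RZ_map R) _

theorem RZ_mult (R : Type u) [CommRing R] [IsLocalRing R] [IsNoetherianRing R] (e : ℝ)
    (h : HasMult R e) : HasMult (RZ R) e := by
  obtain ⟨d, hd, hl⟩ := h
  refine ⟨d, by rw [RZ_dim, hd], ?_⟩
  refine hl.congr fun N => ?_
  have h1 : Module.length (RZ R) (RZ R ⧸ maximalIdeal (RZ R) ^ N) =
      Module.length R (R ⧸ maximalIdeal R ^ N) := RZ_cl R N
  rw [h1]

theorem core_RZ (p : ℕ) [Fact p.Prime] (HC : CoreF.{u, v} p)
    (R : Type u) (S : Type v) [CommRing R] [IsLocalRing R] [IsNoetherianRing R]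
    [CommRing S] [IsLocalRing S] [IsNoetherianRing S] [Algebra R S] [Module.Flat R S]
    [IsLocalHom (algebraMap R S)] [CharP R p] (hF : (frobenius R p).Finite)
    (d : ℕ) (hR : ringKrullDim R = d) (hS : ringKrullDim S = d)
    (eR eS : ℝ) (hmR : HasMult R eR) (hmS : HasMult S eS) : eR ≤ eS := by
  let f : R[X] →+* S[X] := Polynomial.mapRingHom (algebraMap R S)
  have hf : f.Flat := by
    have h1 : Module.Flat R[X] S[X] :=
      Module.Flat.isBaseChange R R[X] S S[X]
        (Algebra.IsPushout.out (R := R) (S := R[X]) (R' := S) (S' := S[X]))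
    have h2 : f = algebraMap R[X] S[X] := (Polynomial.algebraMap_def R S).symm
    rw [h2]
    exact RingHom.flat_algebraMap_iff.mpr h1
  have hcomap : pZ R = (pZ S).comap f := by
    ext g
    rw [Ideal.mem_comap, Ideal.mem_map_C_iff, Ideal.mem_map_C_iff]
    refine forall_congr' fun i => ?_
    rw [coe_mapRingHom, coeff_map, mem_comap_iff]
  let φ : RZ R →+* RZ S := Localization.localRingHom (pZ R) (pZ S) f hcomap
  have hφ : φ.Flat := RingHom.Flat.localRingHom hf _ _ hcomap
  let _ : Algebra (RZ R) (RZ S) := φ.toAlgebra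
  have hflat : Module.Flat (RZ R) (RZ S) := hφ
  have hloc : IsLocalHom (algebraMap (RZ R) (RZ S)) :=
    Localization.isLocalHom_localRingHom (pZ R) (pZ S) f hcomap
  have i1 : IsNoetherianRing (RZ R) := RZ_noeth R
  have i4 : Infinite (ResidueField (RZ R)) := RZ_inf R
  have j1 : IsNoetherianRing (RZ S) := RZ_noeth S
  have hcp : CharP (RZ R) p := RZ_charP R p
  have hFF : (frobenius (RZ R) p).Finite := RZ_ffin R p hF
  have hart : IsArtinianRing (RZ S ⧸ (maximalIdeal (RZ R)).map (algebraMap (RZ R) (RZ S))) :=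
    artin_of_dim_eq d (by rw [RZ_dim, hR]) (by rw [RZ_dim, RZ_dim, hR, hS])
  exact HC (RZ R) (RZ S) hFF i4 hart eR eS (RZ_mult R eR hmR) (RZ_mult S eS hmS)

theorem hasMult_unique {A : Type*} [CommRing A] [IsLocalRing A] {x y : ℝ} (hx : HasMult A x)
    (hy : HasMult A y) : x = y := by
  obtain ⟨d, hd, hl⟩ := hx
  obtain ⟨d', hd', hl'⟩ := hy
  have hdd : d = d' := by
    rw [hd] at hd'
    exact_mod_cast hd'
  subst hdd
  exact tendsto_nhds_unique hl hl'

/-- F7: the wrapper -/
theorem wrapF (p : ℕ) [Fact p.Prime] (HC : CoreF.{u, v} p)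
    (R : Type u) (S : Type v) [CommRing R] [IsLocalRing R] [IsNoetherianRing R]
    [CommRing S] [IsLocalRing S] [IsNoetherianRing S] [Algebra R S] [Module.Flat R S]
    [IsLocalHom (algebraMap R S)] [CharP R p] (hF : (frobenius R p).Finite)
    (eR eS : ℝ) (hmR : HasMult R eR) (hmS : HasMult S eS) : eR ≤ eS := by
  obtain ⟨d, hd, -⟩ := id hmR
  have hover : (maximalIdeal S).LiesOver (maximalIdeal R) := liesOver_max
  have h1 := Ideal.height_eq_height_add_of_liesOver_of_hasGoingDown (maximalIdeal R)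
    (maximalIdeal S)
  obtain ⟨n, hn⟩ := exists_dim_nat (R := S)
  have h2 : (maximalIdeal R).height = (d : ℕ∞) := by
    have := IsLocalRing.maximalIdeal_height_eq_ringKrullDim (R := R)
    rw [hd] at this
    exact_mod_cast this
  have h3 : (maximalIdeal S).height = (n : ℕ∞) := by
    have := IsLocalRing.maximalIdeal_height_eq_ringKrullDim (R := S)
    rw [hn] at this
    exact_mod_cast this
  have hle : d ≤ n := by
    rw [h2, h3] at h1
    have : (d : ℕ∞) ≤ n := by
      rw [h1]
      exact le_self_add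
    exact_mod_cast this
  obtain ⟨f, rfl⟩ := Nat.exists_eq_add_of_le hle
  obtain ⟨e, heS, hUX⟩ := hasMult_UX (A := S) (d + f) hn
  obtain ⟨T, _, _, _, _, _, _, hT, hTX⟩ := exists_art d hd e f S hn hUX
  obtain ⟨e', heT, -⟩ := hasMult_UX (A := T) d hT
  have h6 : (e' : ℝ) ≤ e := hasMult_le d hT heT hTX
  have h7 : eR ≤ (e' : ℝ) := core_RZ p HC R T hF d hd hT eR e' hmR heT
  have h8 : eS = e := hasMult_unique hmS heS
  rw [h8]
  exact h7.trans h6

end Vale.Agent.P202C
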