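import Vale.Agent.P202C.Ult
import Vale.Agent.P202C.Wrap
import Vale.Agent.P202G.Dep2

/-!
P202 in characteristic p: Lech's inequality for F-finite `R` and arbitrary flat local `S`.
-/

set_option autoImplicit false

namespace Vale.Agent.P202C

open IsLocalRing Vale.Agent.P202

universe u v

theorem coreF (p : ℕ) [Fact p.Prime] : CoreF.{u, v} p := by
  intro R S _ _ _ _ _ _ _ _ _ _ hF hinf hart eR eS hR hS
  obtain ⟨d, hd⟩ := exists_dim_nat (R := R)
  rcases Nat.lt_or_ge d 2 with h2 | h2
  · obtain ⟨eR', eS', hR', hS', -, h⟩ := full_ineq (R := R) (S := S) d hd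
    have h4 : (d - 2).factorial = 1 := by
      have : d - 2 = 0 := by omega
      rw [this]
      rfl
    rw [h4, Nat.cast_one, one_mul] at h
    rw [Vale.Agent.P202.hasMult_unique hR hR', Vale.Agent.P202.hasMult_unique hS hS']
    exact h
  · refine P202G.dep_reduction p ?_ R S hF hart (by rw [hd]; exact_mod_cast (by omega : 1 ≤ d))
      hinf eR eS hR hS
    intro R S _ _ _ _ _ _ _ _ _ _ hF hart hD hdep hinf eR eS hR hS
    obtain ⟨d, hd⟩ := exists_dim_nat (R := R)
    rcases Nat.lt_or_ge d 2 with h2 | h2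
    · obtain ⟨eR', eS', hR', hS', -, h⟩ := full_ineq (R := R) (S := S) d hd
      have h4 : (d - 2).factorial = 1 := by
        have : d - 2 = 0 := by omega
        rw [this]
        rfl
      rw [h4, Nat.cast_one, one_mul] at h
      rw [Vale.Agent.P202.hasMult_unique hR hR', Vale.Agent.P202.hasMult_unique hS hS']
      exact h
    · obtain ⟨n, rfl⟩ : ∃ n, d = n + 1 := ⟨d - 1, by omega⟩
      obtain ⟨e, he, h⟩ := ult_core R hinf p hF S n (by omega) hd hart hdep
      rw [Vale.Agent.P202.hasMult_unique hR he]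
      exact h eS hS

theorem lech_ffinite (p : ℕ) [Fact p.Prime] (R : Type u) (S : Type v)
    [CommRing R] [IsLocalRing R] [IsNoetherianRing R] [CharP R p]
    [CommRing S] [IsLocalRing S] [IsNoetherianRing S]
    [Algebra R S] [Module.Flat R S] [IsLocalHom (algebraMap R S)]
    (hF : (frobenius R p).Finite) (eR eS : ℝ) (hR : HasMult R eR) (hS : HasMult S eS) :
    eR ≤ eS := wrapF p (coreF p) R S hF eR eS hR hS

end Vale.Agent.P202C
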