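import Vale.Agent.P202C.SE
import Vale.Agent.P202C.VDefs

/-!
P202 in characteristic p, sections (V)+(VI) (owner helper19): exact stubs W1..W4.
Prove each theorem with exactly this statement in the file named in the comment, in the namespace
`Vale.Agent.P202C.SA` (helper lemmas prefixed with the name of the file).
-/

set_option autoImplicit false

namespace Vale.Agent.P202C.WStubs

open IsLocalRing Vale.Agent.P202C Vale.Agent.P202C.SA

universe u v

/-! #### W1 (file `W1.lean`): powers.
Look at the proof of `serre` in `SE.lean`: with `N` from `exists_inj` one has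
`Xk (z :: l) P Q = Xk l (Pw z P Q N) (Pw z P Q (N + 1))` (same for every larger `N`).
For `z ^ q`: the pieces `Pw z P Q (i q) ⊇ Pw z P Q ((i+1) q)` have Euler characteristic zero (Xk_cone,
all `Hk l` of `(Pw i, Pw (i+1))` are finite), `z ^ q` is injective on `Pw z P Q N / Q`, so
`Xk (z^q :: l) P Q = Xk l (Pw N) (Pw (N + q)) = ∑_{i<q} Xk l (Pw (N+i)) (Pw (N+i+1))` and all the terms
are equal: transfer along `z` (`Hl_transfer` with the map `v ↦ (fun k => z (v k))`, using `Good.comm`).
Then induct on the list for all `P, Q`. Finiteness: `rl P (sumM (l.map (· ^ q)) P ⊔ Q) ≠ ⊤` from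
`rl P (w^q P ⊔ T) ≤ q * rl P (w P ⊔ T)` for `w T ≤ T ≤ P`. -/

theorem Xk_pow {R : Type u} [CommRing R] [IsNoetherianRing R] {X : Type v} [AddCommGroup X]
    [Module R X] [IsNoetherian R X] (q : ℕ) (hq : 0 < q) (l : List (X →ₗ[R] X)) (hl : Cm l)
    (P Q : Submodule R X) (hQP : Q ≤ P) (hP : St l P) (hQ : St l Q)
    (hfin : rl P (sumM l P ⊔ Q) ≠ ⊤) :
    rl P (sumM (l.map (fun z => z ^ q)) P ⊔ Q) ≠ ⊤ ∧
    Xk (l.map (fun z => z ^ q)) P Q = (q : ℤ) ^ l.length * Xk l P Q := by
  sorry

/-! #### W2 (file `W2.lean`): positivity.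
Induction on `ys` for all `P, Q`. `[]`: `Xk_nil`, `rl P Q` finite and not zero (`¬ dimlt 0`: there is a
chain with `InS (c 0) P Q`). `z :: l`: `Xk (z :: l) P Q = Xk l (Pw N) (Pw (N+1))` as above. If
`dimlt (l.length + 1) (Pw N) Q` failed we would be done with
`Module.supportDim_le_supportDim_quotSMulTop_succ` (or its chain form) applied to `Pw N / Q`, which
gives `¬ dimlt l.length (Pw N) (Pw (N+1))`. A chain in `Supp (P / Q)` of length `l.length + 1` starts in
`Supp (Pw N / Q)` or in `Supp (P / Pw N) ⊆ V(z) ∩ Supp(P / Q) = Supp (P / (z P + Q))`, the latter has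
dimension `≤ l.length` because `P / (z P + ∑ y P + Q)` has finite length (same Mathlib lemma iterated). -/

theorem Xk_pos {R : Type u} [CommRing R] [IsLocalRing R] [IsNoetherianRing R] {X : Type v}
    [AddCommGroup X] [Module R X] [IsNoetherian R X] (ys : List R)
    (hys : ∀ y ∈ ys, y ∈ maximalIdeal R) (P Q : Submodule R X) (hQP : Q ≤ P)
    (hfin : rl P (sumM (ys.map (fun y => y • (LinearMap.id : X →ₗ[R] X))) P ⊔ Q) ≠ ⊤)
    (hdim : ¬ dimlt ys.length P Q) :
    0 < Xk (ys.map (fun y => y • (LinearMap.id : X →ₗ[R] X))) P Q := by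
  sorry

/-! #### W3 (file `W3.lean`): finite length -/

theorem length_ne_top_of_pow {R : Type u} [CommRing R] [IsLocalRing R] [IsNoetherianRing R]
    {M : Type v} [AddCommGroup M] [Module R M] [Module.Finite R M] (N : ℕ)
    (h : ∀ r ∈ maximalIdeal R ^ N, ∀ x : M, r • x = 0) : Module.length R M ≠ ⊤ := by
  sorry

theorem exists_pow_of_length_ne_top {R : Type u} [CommRing R] [IsLocalRing R]
    {M : Type v} [AddCommGroup M] [Module R M] (h : Module.length R M ≠ ⊤) :
    ∃ N : ℕ, ∀ r ∈ maximalIdeal R ^ N, ∀ x : M, r • x = 0 := by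
  sorry

/-! #### W4 (file `W4.lean`): systems of parameters and generic rank -/

/-- a Noetherian local ring of dimension `D` has `D` elements generating an ideal of finite
colength (Mathlib: `Ideal.exists_spanRank_eq_and_height_eq`, or by hand) -/
theorem exists_sop {R : Type u} [CommRing R] [IsLocalRing R] [IsNoetherianRing R] (D : ℕ)
    (hD : ringKrullDim R = D) : ∃ ys : List R, ys.length = D ∧ (∀ y ∈ ys, y ∈ maximalIdeal R) ∧
      ∃ N : ℕ, maximalIdeal R ^ N ≤ Ideal.ofList ys := by
  sorry

/-- generic freeness: a finite module killed by a prime `P` contains a free `R/P`-module with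
cokernel killed by an element outside `P` -/
theorem exists_free_sub {R : Type u} [CommRing R] [IsNoetherianRing R] (P : Ideal R) [P.IsPrime]
    {V : Type v} [AddCommGroup V] [Module R V] [Module.Finite R V]
    (h : ∀ r ∈ P, ∀ v : V, r • v = 0) :
    ∃ (m : ℕ) (f : (Fin m → (R ⧸ P)) →ₗ[R] V), Function.Injective f ∧
      ∃ c : R, c ∉ P ∧ ∀ v : V, c • v ∈ LinearMap.range f := by
  sorry

end Vale.Agent.P202C.WStubs
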